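import Vale.Agent.P180.H768.Brauer

/-!
P180: dimensions of the spaces `e S f` and of the corner `b f kG b f`.
-/

namespace Vale.Agent.P180.R2.H799

open Vale.Agent.P180

set_option linter.unusedSectionVars false

section Cross

variable {k : Type*} [Field k] {A : Type*} [Ring A] [Algebra k A]

/-- The space `e S f`, for idempotents `e`, `f` of the subalgebra `S`. -/
def NN (S : Subalgebra k A) (e f : A) : Submodule k A where
  carrier := {x | x ∈ S ∧ e * x = x ∧ x * f = x}
  zero_mem' := ⟨Subalgebra.zero_mem _, mul_zero _, zero_mul _⟩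
  add_mem' := by
    rintro x y ⟨h1, h2, h3⟩ ⟨h4, h5, h6⟩
    exact ⟨Subalgebra.add_mem _ h1 h4, by rw [mul_add, h2, h5], by rw [add_mul, h3, h6]⟩
  smul_mem' := by
    rintro c x ⟨h1, h2, h3⟩
    exact ⟨Subalgebra.smul_mem _ h1 c, by rw [mul_smul_comm, h2], by rw [smul_mul_assoc, h3]⟩

theorem mem_NN {S : Subalgebra k A} {e f x : A} : x ∈ NN S e f ↔ x ∈ S ∧ e * x = x ∧ x * f = x :=
  Iff.rfl

theorem NN_mul {S : Subalgebra k A} {e f g x y : A} (hx : x ∈ NN S e f) (hy : y ∈ NN S f g) :
    x * y ∈ NN S e g :=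
  ⟨Subalgebra.mul_mem _ hx.1 hy.1, by rw [← mul_assoc, hx.2.1], by rw [mul_assoc, hy.2.2]⟩

theorem mul_mul_mem_NN {S : Subalgebra k A} {e f x : A} (he : e * e = e) (hf : f * f = f)
    (heS : e ∈ S) (hfS : f ∈ S) (hx : x ∈ S) : e * x * f ∈ NN S e f :=
  ⟨Subalgebra.mul_mem _ (Subalgebra.mul_mem _ heS hx) hfS, by
    rw [← mul_assoc, ← mul_assoc, he], by rw [mul_assoc, hf]⟩

variable [FiniteDimensional k A]

/-- If `f` lies in the ideal of `S` generated by `e` then
`dim e S f ≤ dim e S e * dim f S f`. -/
theorem finrank_NN_le {S : Subalgebra k A} {e f : A} (he : e * e = e) (hf : f * f = f)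
    (heS : e ∈ S) (hfS : f ∈ S)
    (hfull : f ∈ Submodule.span k {z | ∃ x ∈ S, ∃ y ∈ S, z = x * e * y}) :
    Module.finrank k (NN S e f) ≤ Module.finrank k (NN S e e) * Module.finrank k (NN S f f) := by
  classical
  set T : Set A := {z | ∃ y ∈ NN S f e, ∃ x ∈ NN S e f, z = y * x} with hT
  have hTf : T ⊆ NN S f f := by
    rintro _ ⟨y, hy, x, hx, rfl⟩
    exact NN_mul hy hx
  have hfT : f ∈ Submodule.span k T := by
    have h1 : ∀ z ∈ Submodule.span k {z | ∃ x ∈ S, ∃ y ∈ S, z = x * e * y},
        f * z * f ∈ Submodule.span k T := by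
      intro z hz
      induction hz using Submodule.span_induction with
      | mem z hz =>
        obtain ⟨x, hx, y, hy, rfl⟩ := hz
        apply Submodule.subset_span
        refine ⟨f * x * e, mul_mul_mem_NN hf he hfS heS hx, e * y * f,
          mul_mul_mem_NN he hf heS hfS hy, ?_⟩
        calc f * (x * e * y) * f = f * x * (e * e) * y * f := by rw [he]; simp only [mul_assoc]
          _ = f * x * e * (e * y * f) := by simp only [mul_assoc]
      | zero => simp
      | add u v _ _ hu hv => rw [mul_add, add_mul]; exact Submodule.add_mem _ hu hv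
      | smul c u _ hu => rw [mul_smul_comm, smul_mul_assoc]; exact Submodule.smul_mem _ c hu
    have h2 := h1 f hfull
    rwa [hf, hf] at h2
  obtain ⟨B, hBT, hBspan, hBli⟩ := exists_linearIndependent k T
  have hBfin : B.Finite := hBli.setFinite
  have _ := hBfin.fintype
  have hcard : Fintype.card B ≤ Module.finrank k (NN S f f) := by
    have hli : LinearIndependent k (fun t : B => (⟨t.1, hTf (hBT t.2)⟩ : NN S f f)) := by
      apply LinearIndependent.of_comp (NN S f f).subtype
      exact hBli
    exact hli.fintype_card_le_finrank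
  rw [← hBspan] at hfT
  have hex : ∃ c : B → k, ∑ t : B, c t • (t : A) = f := by
    have h3 : f ∈ Submodule.span k (Set.range (fun t : B => (t : A))) := by
      rwa [Subtype.range_coe]
    exact (Submodule.mem_span_range_iff_exists_fun k).mp h3
  obtain ⟨c, hc⟩ := hex
  have hyx : ∀ t : B, ∃ y ∈ NN S f e, ∃ x ∈ NN S e f, (t : A) = y * x := fun t => hBT t.2
  choose y hy x hx hyx using hyx
  let Φ : NN S e f →ₗ[k] (B → NN S e e) :=
    { toFun := fun z t => ⟨z.1 * y t, NN_mul z.2 (hy t)⟩
      map_add' := fun z w => by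
        funext t
        exact Subtype.ext (add_mul _ _ _)
      map_smul' := fun a z => by
        funext t
        exact Subtype.ext (smul_mul_assoc _ _ _) }
  have hinj : Function.Injective Φ := by
    rw [← LinearMap.ker_eq_bot, LinearMap.ker_eq_bot']
    intro z hz
    apply Subtype.ext
    have h4 : ∀ t, (z : A) * y t = 0 := fun t => congrArg Subtype.val (congrFun hz t)
    change (z : A) = 0
    have h5 : (z : A) * (∑ t : B, c t • (t : A)) = 0 := by
      rw [Finset.mul_sum]
      apply Finset.sum_eq_zero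
      intro t _
      rw [hyx t, mul_smul_comm, ← mul_assoc, h4, zero_mul, smul_zero]
    exact z.2.2.2.symm.trans ((congrArg (fun w => (z : A) * w) hc).symm.trans h5)
  calc Module.finrank k (NN S e f) ≤ Module.finrank k (B → NN S e e) :=
        LinearMap.finrank_le_finrank_of_injective hinj
    _ = Fintype.card B * Module.finrank k (NN S e e) := by
        rw [Module.finrank_pi_fintype, Finset.sum_const, Finset.card_univ, smul_eq_mul]
    _ ≤ Module.finrank k (NN S f f) * Module.finrank k (NN S e e) :=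
        Nat.mul_le_mul_right _ hcard
    _ = _ := mul_comm _ _

theorem finrank_corner {i : A} (hi : IsIdempotentElem i) :
    Module.finrank k hi.Corner = Module.finrank k (NN (⊤ : Subalgebra k A) i i) := by
  have hmem : ∀ x : hi.Corner, x.1 ∈ NN (⊤ : Subalgebra k A) i i := fun x =>
    ⟨Algebra.mem_top, corner_left hi x, corner_right hi x⟩
  let Φ : hi.Corner →ₗ[k] NN (⊤ : Subalgebra k A) i i :=
    { toFun := fun x => ⟨x.1, hmem x⟩
      map_add' := fun _ _ => rfl
      map_smul' := fun _ _ => rfl }
  refine LinearEquiv.finrank_eq (LinearEquiv.ofBijective Φ ⟨?_, ?_⟩)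
  · intro x y hxy
    exact Subtype.ext (congrArg (fun z : NN (⊤ : Subalgebra k A) i i => z.1) hxy)
  · rintro ⟨x, -, h1, h2⟩
    refine ⟨⟨x, ⟨x, ?_⟩⟩, rfl⟩
    change i * x * i = x
    rw [h1, h2]

end Cross

theorem finrank_iSup_le {k : Type*} [Field k] {V : Type*} [AddCommGroup V] [Module k V]
    [FiniteDimensional k V] {ι : Type*} [Fintype ι] (S : ι → Submodule k V) :
    Module.finrank k (⨆ i, S i : Submodule k V) ≤ ∑ i, Module.finrank k (S i) := by
  classical
  have h : ∀ s : Finset ι, Module.finrank k (s.sup S : Submodule k V) ≤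
      ∑ i ∈ s, Module.finrank k (S i) := by
    intro s
    induction s using Finset.induction_on with
    | empty => simp
    | insert i s hi ih =>
      rw [Finset.sup_insert, Finset.sum_insert hi]
      exact (Submodule.finrank_add_le_finrank_add_finrank _ _).trans (Nat.add_le_add_left ih _)
  have h1 := h Finset.univ
  rwa [Finset.sup_univ_eq_iSup] at h1

section Group

variable {k : Type*} [Field k] {G : Type*} [Group G] [Finite G]

theorem finrank_NN_cj {X : Subgroup G} [X.Normal] (t : G) (e f : MonoidAlgebra k G) :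
    Module.finrank k (NN (SubAlg k X) (cj k G t e) (cj k G t f)) =
      Module.finrank k (NN (SubAlg k X) e f) := by
  have hmem : ∀ (s : G) (e f x : MonoidAlgebra k G), x ∈ NN (SubAlg k X) e f →
      cj k G s x ∈ NN (SubAlg k X) (cj k G s e) (cj k G s f) := by
    rintro s e f x ⟨h1, h2, h3⟩
    exact ⟨KP.cj_mem_SubAlg s h1, by rw [← map_mul, h2], by rw [← map_mul, h3]⟩
  symm
  let Φ : NN (SubAlg k X) e f →ₗ[k] NN (SubAlg k X) (cj k G t e) (cj k G t f) :=
    { toFun := fun x => ⟨cj k G t x.1, hmem t e f x.1 x.2⟩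
      map_add' := fun x y => Subtype.ext (map_add (cj k G t) x.1 y.1)
      map_smul' := fun c x => Subtype.ext (map_smul (cj k G t) c x.1) }
  refine LinearEquiv.finrank_eq (LinearEquiv.ofBijective Φ ⟨?_, ?_⟩)
  · intro x y hxy
    apply Subtype.ext
    exact (cj k G t).injective (congrArg Subtype.val hxy)
  · rintro ⟨x, hx⟩
    have h1 := hmem t⁻¹ _ _ x hx
    rw [map_inv_act, map_inv_act] at h1
    exact ⟨⟨_, h1⟩, Subtype.ext (map_act_inv _ _ _)⟩

/-- **Dimension of the corner** `b f kG b f`. -/
theorem finrank_corner_le {Z X : Subgroup G} [X.Normal] {b e f : MonoidAlgebra k G} {β n : ℕ}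
    (hb : b * b = b) (hbz : b ∈ ZAlg k (⊤ : Subgroup G))
    (hZ : ∀ z ∈ Z, ∃ c : k, MonoidAlgebra.single z 1 * b = c • b)
    (hidx : (Z ⊔ X).index ≤ β)
    (he : e * e = e) (heX : e ∈ ZAlg k X) (heG : e ∈ Fix (cj k G) ⊤) (heb : e * b = b)
    (hf : f * f = f) (hfX : f ∈ SubAlg k X)
    (hfull : e ∈ Submodule.span k {z | ∃ x ∈ SubAlg k X, ∃ y ∈ SubAlg k X, z = x * f * y})
    (hn : Module.finrank k (NN (SubAlg k X) (e * f) (e * f)) ≤ n)
    (hi : IsIdempotentElem (b * f)) :
    Module.finrank k hi.Corner ≤ β * (n * n) := by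
  classical
  have hfin : FiniteDimensional k (MonoidAlgebra k G) :=
    Module.Finite.equiv (MonoidAlgebra.coeffLinearEquiv k (M := G) (S := k)).symm
  have heS : e ∈ SubAlg k X := (mem_ZAlg.mp heX).1
  have hec : ∀ x ∈ SubAlg k X, e * x = x * e := fun x hx =>
    (commute_of_mem hx (mem_ZAlg.mp heX).2).symm
  have hbc : ∀ a, b * a = a * b := fun a => by
    rw [ZAlg_top, Subalgebra.mem_center_iff] at hbz
    exact (hbz a).symm
  have hec' : ∀ a, e * a = a * e := fun a => by
    have h1 : e ∈ ZAlg k (⊤ : Subgroup G) := mem_ZAlg.mpr ⟨SubAlg_top _, heG⟩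
    rw [ZAlg_top, Subalgebra.mem_center_iff] at h1
    exact (h1 a).symm
  have hbe : b * e = b := by rw [← hec', heb]
  have hef : (e * f) * (e * f) = e * f := by
    calc e * f * (e * f) = e * (f * e) * f := by simp only [mul_assoc]
      _ = (e * e) * (f * f) := by rw [← hec f hfX]; simp only [mul_assoc]
      _ = _ := by rw [he, hf]
  have hefS : e * f ∈ SubAlg k X := Subalgebra.mul_mem _ heS hfX
  have hcjS : ∀ t : G, cj k G t (e * f) ∈ SubAlg k X := fun t => KP.cj_mem_SubAlg t hefS
  have hcji : ∀ t : G, cj k G t (e * f) * cj k G t (e * f) = cj k G t (e * f) := fun t => by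
    rw [← map_mul, hef]
  have hcj : ∀ t : G, cj k G t (e * f) = e * cj k G t f := fun t => by
    rw [map_mul, heG t (Subgroup.mem_top _)]
  -- fullness
  have hfull' : ∀ t : G, cj k G t (e * f) ∈
      Submodule.span k {z | ∃ x ∈ SubAlg k X, ∃ y ∈ SubAlg k X, z = x * (e * f) * y} := by
    intro t
    have h1 : ∀ z ∈ Submodule.span k {z | ∃ x ∈ SubAlg k X, ∃ y ∈ SubAlg k X, z = x * f * y},
        cj k G t (e * f) * z * e ∈
        Submodule.span k {z | ∃ x ∈ SubAlg k X, ∃ y ∈ SubAlg k X, z = x * (e * f) * y} := by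
      intro z hz
      induction hz using Submodule.span_induction with
      | mem z hz =>
        obtain ⟨x, hx, y, hy, rfl⟩ := hz
        apply Submodule.subset_span
        refine ⟨cj k G t (e * f) * x, Subalgebra.mul_mem _ (hcjS t) hx, y, hy, ?_⟩
        calc cj k G t (e * f) * (x * f * y) * e
            = cj k G t (e * f) * x * (f * (y * e)) := by simp only [mul_assoc]
          _ = cj k G t (e * f) * x * ((f * e) * y) := by rw [← hec y hy]; simp only [mul_assoc]
          _ = _ := by rw [← hec f hfX]; simp only [mul_assoc]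
      | zero => simp
      | add u v _ _ hu hv => rw [mul_add, add_mul]; exact Submodule.add_mem _ hu hv
      | smul c u _ hu => rw [mul_smul_comm, smul_mul_assoc]; exact Submodule.smul_mem _ c hu
    have h2 := h1 e hfull
    have h3 : cj k G t (e * f) * e * e = cj k G t (e * f) := by
      rw [mul_assoc, he, ← hec _ (hcjS t), hcj, ← mul_assoc, he]
    rwa [h3] at h2
  rw [finrank_corner (k := k) hi]
  have _ := Fintype.ofFinite (G ⧸ (Z ⊔ X))
  -- the components
  let ψ : G → MonoidAlgebra k G →ₗ[k] MonoidAlgebra k G := fun t =>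
    (LinearMap.mulRight k (MonoidAlgebra.single t 1)).comp (LinearMap.mulLeft k b)
  have hle : NN (⊤ : Subalgebra k (MonoidAlgebra k G)) (b * f) (b * f) ≤
      ⨆ q : G ⧸ (Z ⊔ X), (NN (SubAlg k X) (e * f) (cj k G (q.out)⁻¹ (e * f))).map
        (ψ (q.out)⁻¹) := by
    intro x hx
    have hx' : x = (b * f) * x * (b * f) := by rw [hx.2.1, hx.2.2]
    rw [hx']
    clear hx' hx
    induction x using MonoidAlgebra.induction_linear with
    | zero => simp
    | add x y hx hy => rw [mul_add, add_mul]; exact Submodule.add_mem _ hx hy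
    | single g r =>
      -- `g = z w t⁻¹`, `t` the representative of `g⁻¹`
      set q : G ⧸ (Z ⊔ X) := ((g⁻¹ : G) : G ⧸ (Z ⊔ X)) with hq
      have h1 : g * q.out ∈ Z ⊔ X := by
        have h2 : (g⁻¹)⁻¹ * q.out ∈ Z ⊔ X := by
          rw [← QuotientGroup.eq, QuotientGroup.out_eq']
        rwa [inv_inv] at h2
      obtain ⟨z, hz, w, hw, hzw⟩ := Subgroup.mem_sup_of_normal_right.mp h1
      obtain ⟨c, hc⟩ := hZ z hz
      refine (le_iSup (fun q : G ⧸ (Z ⊔ X) => (NN (SubAlg k X) (e * f)
        (cj k G (q.out)⁻¹ (e * f))).map (ψ (q.out)⁻¹)) q) ?_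
      refine ⟨(r * c) • ((e * f) * MonoidAlgebra.single w 1 * cj k G (q.out)⁻¹ (e * f)), ?_, ?_⟩
      · exact Submodule.smul_mem _ _ (mul_mul_mem_NN hef (hcji _) hefS (hcjS _)
          (single_mem_SubAlg hw 1))
      · have hg : g = z * w * (q.out)⁻¹ := by rw [hzw]; group
        have h3 : MonoidAlgebra.single g r = r • (MonoidAlgebra.single z (1 : k) *
            MonoidAlgebra.single w 1 * MonoidAlgebra.single (q.out)⁻¹ 1) := by
          rw [MonoidAlgebra.single_mul_single, MonoidAlgebra.single_mul_single, ← hg,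
            MonoidAlgebra.smul_single]
          simp
        have h4 : cj k G (q.out)⁻¹ (e * f) * MonoidAlgebra.single (q.out)⁻¹ 1 =
            MonoidAlgebra.single (q.out)⁻¹ 1 * (e * f) := by
          rw [cj_eq, mul_assoc, MonoidAlgebra.single_mul_single, inv_inv, mul_inv_cancel, one_mul,
            ← MonoidAlgebra.one_def, mul_one]
        rw [h3]
        change (b * ((r * c) • ((e * f) * MonoidAlgebra.single w 1 *
          cj k G (q.out)⁻¹ (e * f)))) * MonoidAlgebra.single (q.out)⁻¹ 1 = _
        generalize MonoidAlgebra.single z (1 : k) = z' at hc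
        generalize MonoidAlgebra.single w (1 : k) = w'
        generalize MonoidAlgebra.single (q.out)⁻¹ (1 : k) = t' at h4
        generalize cj k G (q.out)⁻¹ (e * f) = u' at h4
        rw [mul_smul_comm, smul_mul_assoc, mul_smul_comm, smul_mul_assoc, mul_smul]
        congr 1
        calc c • (b * (e * f * w' * u') * t') = c • (b * (e * f) * w' * (u' * t')) := by
              simp only [mul_assoc]
          _ = c • (b * (e * f) * w' * (t' * (e * f))) := by rw [h4]
          _ = c • ((b * e) * f * w' * t' * (e * f)) := by simp only [mul_assoc]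
          _ = c • (b * f * w' * t' * (e * f)) := by rw [hbe]
          _ = c • (e * (b * f * w' * t') * f) := by
              rw [hec' (b * f * w' * t')]; simp only [mul_assoc]
          _ = c • ((e * b) * f * w' * t' * f) := by simp only [mul_assoc]
          _ = c • (b * (f * w' * t' * f)) := by rw [heb]; simp only [mul_assoc]
          _ = c • (b * b * (f * w' * t' * f)) := by rw [hb]
          _ = c • (b * (b * (f * w' * t') * f)) := by simp only [mul_assoc]
          _ = c • (b * (f * w' * t' * b * f)) := by rw [hbc (f * w' * t')]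
          _ = c • (b * f * (w' * t' * (b * f))) := by simp only [mul_assoc]
          _ = (c • (b * f)) * (w' * t' * (b * f)) := by rw [smul_mul_assoc]
          _ = (b * f * z') * (w' * t' * (b * f)) := by
              rw [mul_assoc b f z', hbc (f * z'), mul_assoc f, hc, mul_smul_comm, ← hbc f]
          _ = b * f * (z' * w' * t') * (b * f) := by simp only [mul_assoc]
  calc Module.finrank k (NN (⊤ : Subalgebra k (MonoidAlgebra k G)) (b * f) (b * f))
      ≤ Module.finrank k (⨆ q : G ⧸ (Z ⊔ X), (NN (SubAlg k X) (e * f)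
        (cj k G (q.out)⁻¹ (e * f))).map (ψ (q.out)⁻¹) : Submodule k (MonoidAlgebra k G)) :=
        Submodule.finrank_mono hle
    _ ≤ ∑ q : G ⧸ (Z ⊔ X), Module.finrank k ((NN (SubAlg k X) (e * f)
        (cj k G (q.out)⁻¹ (e * f))).map (ψ (q.out)⁻¹)) := finrank_iSup_le _
    _ ≤ ∑ q : G ⧸ (Z ⊔ X), n * n := by
        refine Finset.sum_le_sum fun q _ => ?_
        refine (Submodule.finrank_map_le _ _).trans ?_
        refine (finrank_NN_le hef (hcji _) hefS (hcjS _) (hfull' _)).trans ?_
        rw [finrank_NN_cj]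
        exact Nat.mul_le_mul hn hn
    _ = (Z ⊔ X).index * (n * n) := by
        rw [Finset.sum_const, Finset.card_univ, smul_eq_mul, Subgroup.index,
          Nat.card_eq_fintype_card]
    _ ≤ β * (n * n) := Nat.mul_le_mul_right _ hidx

end Group

end Vale.Agent.P180.R2.H799
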