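import Vale.Agent.P180.R2.H365.Gen
import Vale.Agent.P180.R2.H799.Cross

/-!
P180: an idempotent of `kX`, `X` normal, which is not killed by the Brauer homomorphism relative to
a defect group of a block `b` of `G` generates the stable block `e` of `X` covered by `b`.
-/

set_option linter.all false

namespace Vale.Agent.P180.R2.H799

open Vale.Agent.P180 Vale.Agent.P180.H768.Gd Vale.Agent.P180.R2.H365

variable {k : Type*} [Field k] {p : ℕ} [Fact p.Prime] [CharP k p] {G : Type*} [Group G] [Finite G]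

omit [Fact p.Prime] [CharP k p] in
theorem incl_coeff (T : Subgroup G) (a : MonoidAlgebra k T) (t : T) :
    (incl k T a).coeff (t : G) = a.coeff t := by
  change (MonoidAlgebra.mapDomain T.subtype a).coeff (T.subtype t) = _
  rw [MonoidAlgebra.coeff_mapDomain]
  exact Finsupp.mapDomain_apply T.subtype_injective _ _

omit [Fact p.Prime] [CharP k p] in
/-- A stable block of `X` covered by a block with defect group `D` is projective relative to
`X ∩ D`. -/
theorem exists_tr_inf {X D : Subgroup G} [X.Normal] {e b a : MonoidAlgebra k G}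
    (he : IsBlockOf X e) (heF : e ∈ Fix (cj k G) ⊤) (hb : IsIdempotentElem b) (hbe : e * b ≠ 0)
    (ha : a ∈ Fix (cj k G) D) (hba : b = tr (cj k G) D ⊤ a) :
    ∃ z ∈ SubAlg k X, z ∈ Fix (cj k G) (X ⊓ D) ∧ e = tr (cj k G) (X ⊓ D) X z := by
  obtain ⟨x, z, hz, hzF, hez⟩ := covering he hb hbe ha hba
  have hc : ∀ y : G, conjS x⁻¹ (X ⊓ conjS x D) = X ⊓ D := by
    intro y
    ext u
    rw [mem_conjS, Subgroup.mem_inf, Subgroup.mem_inf, mem_conjS, inv_inv]
    have h1 : x⁻¹ * (x * u * x⁻¹) * x = u := by group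
    rw [h1]
    constructor
    · rintro ⟨h2, h3⟩
      refine ⟨?_, h3⟩
      have := (inferInstance : X.Normal).conj_mem _ h2 x⁻¹
      rwa [inv_inv, h1] at this
    · rintro ⟨h2, h3⟩
      exact ⟨(inferInstance : X.Normal).conj_mem _ h2 x, h3⟩
  have hX : conjS x⁻¹ X = X := by
    ext u
    rw [mem_conjS, inv_inv]
    constructor
    · intro h2
      have := (inferInstance : X.Normal).conj_mem _ h2 x⁻¹
      have h1 : x⁻¹ * (x * u * x⁻¹) * x = u := by group
      rwa [inv_inv, h1] at this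
    · intro h2
      exact (inferInstance : X.Normal).conj_mem _ h2 x
  have h := cj_tr (k := k) x⁻¹ (K := X) hzF
  rw [← hez, heF x⁻¹ trivial, hX, hc 1] at h
  refine ⟨cj k G x⁻¹ z, KP.cj_mem_SubAlg x⁻¹ hz, ?_, h⟩
  rw [← hc 1]
  exact conj_mem_Fix hzF x⁻¹ fun h hh => mem_conjS.mp hh

/-- **Fullness.** -/
theorem exists_full_tr {X D : Subgroup G} [X.Normal] {e b a f : MonoidAlgebra k G}
    (hD : IsPGroup p D) (he : IsBlockOf X e) (heF : e ∈ Fix (cj k G) ⊤)
    (hb : IsIdempotentElem b) (heb : e * b = b)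
    (ha : a ∈ Fix (cj k G) D) (hba : b = tr (cj k G) D ⊤ a)
    (hfX : f ∈ SubAlg k X) (hfD : f ∈ Fix (cj k G) D) (hff : f * f = f)
    (hbr : br D (f * b) ≠ 0) :
    ∃ w ∈ SubAlg k X, w ∈ Fix (cj k G) (X ⊓ D) ∧ w * e = w ∧
      e = tr (cj k G) (X ⊓ D) X (f * w) := by
  have hbF : b ∈ Fix (cj k G) ⊤ := by rw [hba]; exact tr_mem_Fix ha
  have hb0 : b ≠ 0 := by
    rintro rfl
    apply hbr
    rw [mul_zero]
    exact br_self (Subalgebra.zero_mem _)
  obtain ⟨z, hz, hzF, hez⟩ := exists_tr_inf he heF hb (by rw [heb]; exact hb0) ha hba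
  -- the Brauer map on `f * e`
  have hfe : br D (f * e) ≠ 0 := by
    intro h0
    apply hbr
    have h1 : f * b = (f * e) * b := by rw [mul_assoc, heb]
    rw [h1, br_mul hD (Subalgebra.mul_mem _ hfD (Fix_mono _ le_top heF)) (Fix_mono _ le_top hbF),
      h0, zero_mul]
  obtain ⟨z', rfl⟩ := exists_incl X hz
  obtain ⟨f', rfl⟩ := exists_incl X hfX
  obtain ⟨e', rfl⟩ := exists_incl X he.mem.1
  set D' : Subgroup X := D.subgroupOf X with hD'
  have hmap : D'.map X.subtype = X ⊓ D := by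
    rw [hD', Subgroup.subgroupOf_map_subtype, inf_comm]
  have hD'p : IsPGroup p D' := hD.comap_of_injective X.subtype X.subtype_injective
  have hz'F : z' ∈ Fix (cj k X) D' := by
    rw [← incl_mem_Fix_iff, hmap]; exact hzF
  have hf'F : f' ∈ Fix (cj k X) D' := by
    rw [← incl_mem_Fix_iff, hmap]; exact Fix_mono _ inf_le_right hfD
  have he' : IsBlockOf (⊤ : Subgroup X) e' := by
    unfold IsBlockOf
    rw [ZAlg_top]
    exact (isBlockOf_incl_iff X e').mp he
  have he'z : e' = tr (cj k X) D' ⊤ z' := by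
    apply incl_injective (k := k) X
    rw [incl_tr X D' hz'F, hmap]
    exact hez
  have hbr' : br D' (f' * e') ≠ 0 := by
    intro h0
    apply hfe
    apply MonoidAlgebra.coeff_injective
    ext y
    rw [br_coeff]
    split_ifs with hy
    · rw [← map_mul]
      by_cases hyX : y ∈ X
      · have h2 : (incl k X (f' * e')).coeff y = (f' * e').coeff ⟨y, hyX⟩ :=
          incl_coeff X (f' * e') ⟨y, hyX⟩
        rw [h2]
        have h3 : (br D' (f' * e')).coeff ⟨y, hyX⟩ = (f' * e').coeff ⟨y, hyX⟩ := by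
          rw [br_coeff, if_pos]
          rw [mem_cent]
          intro d hd
          apply Subtype.ext
          exact mem_cent.mp hy d hd
        rw [← h3, h0]
        rfl
      · by_contra hne
        exact hyX (incl_mem X (f' * e') y hne)
    · rfl
  obtain ⟨w, hw, hwe, hew⟩ := gen he' hD'p hz'F he'z hf'F
    (by apply incl_injective (k := k) X; rw [map_mul]; exact hff) hbr'
  refine ⟨incl k X w, incl_mem X w, ?_, ?_, ?_⟩
  · rw [← hmap]; exact (incl_mem_Fix_iff X D' w).mpr hw
  · rw [← map_mul, hwe]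
  · conv_lhs => rw [hew]
    rw [incl_tr X D' (Subalgebra.mul_mem _ hf'F hw), hmap, map_mul]

omit [Fact p.Prime] [CharP k p] in
theorem tr_mem_span {X R : Subgroup G} {f w : MonoidAlgebra k G} (hw : w ∈ SubAlg k X) :
    tr (cj k G) R X (f * w) ∈
      Submodule.span k {z | ∃ x ∈ SubAlg k X, ∃ y ∈ SubAlg k X, z = x * f * y} := by
  have _ := Fintype.ofFinite (X ⧸ R.subgroupOf X)
  rw [tr_def]
  refine Submodule.sum_mem _ fun q _ => Submodule.subset_span ?_
  refine ⟨MonoidAlgebra.single ((q.out : X) : G) 1, single_mem_SubAlg (q.out : X).2 1,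
    w * MonoidAlgebra.single ((q.out : X) : G)⁻¹ 1,
    Subalgebra.mul_mem _ hw (single_mem_SubAlg (X.inv_mem (q.out : X).2) 1), ?_⟩
  rw [cj_eq]
  simp only [mul_assoc]

/-- The Brauer map relative to `X ∩ D` does not kill `f e`. -/
theorem br_inf_ne_zero {X D : Subgroup G} {e b f : MonoidAlgebra k G}
    (hD : IsPGroup p D) (heF : e ∈ Fix (cj k G) ⊤)
    (hbF : b ∈ Fix (cj k G) ⊤) (heb : e * b = b) (hfD : f ∈ Fix (cj k G) D)
    (hbr : br D (f * b) ≠ 0) : br (X ⊓ D) (f * e) ≠ 0 := by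
  intro h0
  apply hbr
  have h1 : f * b = (f * e) * b := by rw [mul_assoc, heb]
  have h2 : br D (f * e) = 0 := by
    apply MonoidAlgebra.coeff_injective
    ext y
    rw [br_coeff]
    split_ifs with hy
    · have h3 : (br (X ⊓ D) (f * e)).coeff y = (f * e).coeff y := by
        rw [br_coeff, if_pos]
        rw [mem_cent]
        intro d hd
        exact mem_cent.mp hy d hd.2
      rw [← h3, h0]
    · rfl
  rw [h1, br_mul hD (Subalgebra.mul_mem _ hfD (Fix_mono _ le_top heF)) (Fix_mono _ le_top hbF),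
    h2, zero_mul]

/-- **Fullness**, in the form used by `finrank_corner_le`. -/
theorem exists_full {X D : Subgroup G} [X.Normal] {e b a f : MonoidAlgebra k G}
    (hD : IsPGroup p D) (he : IsBlockOf X e) (heF : e ∈ Fix (cj k G) ⊤)
    (hb : IsIdempotentElem b) (heb : e * b = b)
    (ha : a ∈ Fix (cj k G) D) (hba : b = tr (cj k G) D ⊤ a)
    (hfX : f ∈ SubAlg k X) (hfD : f ∈ Fix (cj k G) D) (hff : f * f = f)
    (hbr : br D (f * b) ≠ 0) :
    e ∈ Submodule.span k {z | ∃ x ∈ SubAlg k X, ∃ y ∈ SubAlg k X, z = x * f * y} := by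
  obtain ⟨w, hw, -, -, h⟩ := exists_full_tr hD he heF hb heb ha hba hfX hfD hff hbr
  rw [h]
  exact tr_mem_span hw

end Vale.Agent.P180.R2.H799
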