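import Vale.Agent.P180.R2.H799.Cross

/-!
P180: dimensions over direct products of commuting subgroups, and transport along injective
homomorphisms.
-/

namespace Vale.Agent.P180.R2.H799

open Vale.Agent.P180

set_option linter.unusedSectionVars false

section Mul

variable {k : Type*} [Field k] {A : Type*} [Ring A] [Algebra k A] [FiniteDimensional k A]

theorem finrank_mul_le (M N : Submodule k A) :
    Module.finrank k (M * N : Submodule k A) ≤ Module.finrank k M * Module.finrank k N := by
  rw [← Submodule.mulMap_range, ← Module.finrank_tensorProduct]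
  exact LinearMap.finrank_range_le _

end Mul

section Group

variable {k : Type*} [Field k] {G : Type*} [Group G] [Finite G]

theorem comm_SubAlg {A B : Subgroup G} (hAB : ∀ a ∈ A, ∀ b ∈ B, a * b = b * a)
    {x y : MonoidAlgebra k G} (hx : x ∈ SubAlg k A) (hy : y ∈ SubAlg k B) : x * y = y * x := by
  refine SuppIn.induction (P := fun x => x * y = y * x) hx ?_ ?_ ?_
  · rw [zero_mul, mul_zero]
  · intro a b ha hb
    rw [add_mul, mul_add, ha, hb]
  · intro a ha c
    rw [smul_mul_assoc, mul_smul_comm]
    congr 1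
    refine SuppIn.induction (P := fun y => MonoidAlgebra.single a 1 * y =
      y * MonoidAlgebra.single a 1) hy ?_ ?_ ?_
    · rw [zero_mul, mul_zero]
    · intro u v hu hv
      rw [mul_add, add_mul, hu, hv]
    · intro b hb d
      rw [mul_smul_comm, smul_mul_assoc, MonoidAlgebra.single_mul_single,
        MonoidAlgebra.single_mul_single, hAB a ha b hb]

theorem finrank_NN_sup {A B : Subgroup G} (hAB : ∀ a ∈ A, ∀ b ∈ B, a * b = b * a)
    {α β : MonoidAlgebra k G} (hα : α * α = α) (hβ : β * β = β) (hαA : α ∈ SubAlg k A)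
    (hβB : β ∈ SubAlg k B) :
    Module.finrank k (NN (SubAlg k (A ⊔ B)) (α * β) (α * β)) ≤
      Module.finrank k (NN (SubAlg k A) α α) * Module.finrank k (NN (SubAlg k B) β β) := by
  have hfin : FiniteDimensional k (MonoidAlgebra k G) :=
    Module.Finite.equiv (MonoidAlgebra.coeffLinearEquiv k (M := G) (S := k)).symm
  refine le_trans ?_ (finrank_mul_le _ _)
  apply Submodule.finrank_mono
  intro x hx
  obtain ⟨hxS, h1, h2⟩ := hx
  have hx' : x = (α * β) * x * (α * β) := by rw [h1, h2]
  rw [hx']
  clear hx' h1 h2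
  refine SuppIn.induction (P := fun x => (α * β) * x * (α * β) ∈
    NN (SubAlg k A) α α * NN (SubAlg k B) β β) hxS ?_ ?_ ?_
  · simp
  · intro u v hu hv
    rw [mul_add, add_mul]
    exact Submodule.add_mem _ hu hv
  · intro g hg c
    rw [mul_smul_comm, smul_mul_assoc]
    apply Submodule.smul_mem
    obtain ⟨a, ha, b, hb, rfl⟩ := mem_sup_of_commute hAB hg
    have h3 : MonoidAlgebra.single (a * b) (1 : k) =
        MonoidAlgebra.single a 1 * MonoidAlgebra.single b 1 := by
      rw [MonoidAlgebra.single_mul_single, one_mul]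
    have ha' := single_mem_SubAlg (k := k) ha 1
    have hb' := single_mem_SubAlg (k := k) hb 1
    have e1 : β * MonoidAlgebra.single a 1 = MonoidAlgebra.single a 1 * β :=
      (comm_SubAlg hAB ha' hβB).symm
    have e2 : α * β = β * α := comm_SubAlg hAB hαA hβB
    have e3 : MonoidAlgebra.single b 1 * α = α * MonoidAlgebra.single b 1 :=
      (comm_SubAlg hAB hαA hb').symm
    have h4 : (α * β) * MonoidAlgebra.single (a * b) 1 * (α * β) =
        (α * MonoidAlgebra.single a 1 * α) * (β * MonoidAlgebra.single b 1 * β) := by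
      rw [h3]
      calc α * β * (MonoidAlgebra.single a 1 * MonoidAlgebra.single b 1) * (α * β)
          = α * (β * MonoidAlgebra.single a 1) * (MonoidAlgebra.single b 1 * α) * β := by
            simp only [mul_assoc]
        _ = α * MonoidAlgebra.single a 1 * (β * α) * MonoidAlgebra.single b 1 * β := by
            rw [e1, e3]; simp only [mul_assoc]
        _ = _ := by rw [← e2]; simp only [mul_assoc]
    rw [h4]
    exact Submodule.mul_mem_mul (mul_mul_mem_NN hα hα hαA hαA ha')
      (mul_mul_mem_NN hβ hβ hβB hβB hb')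

/-- A family of pairwise commuting subgroups. -/
theorem finrank_NN_list {ι : Type*} (X : ι → Subgroup G)
    (hX : ∀ i j, i ≠ j → ∀ a ∈ X i, ∀ b ∈ X j, a * b = b * a) (α : ι → MonoidAlgebra k G)
    (hα : ∀ i, α i * α i = α i) (hαX : ∀ i, α i ∈ SubAlg k (X i)) (l : List ι) (hl : l.Nodup) :
    ((l.map α).prod * (l.map α).prod = (l.map α).prod) ∧
    ((l.map α).prod ∈ SubAlg k (⨆ i ∈ l, X i)) ∧
    Module.finrank k (NN (SubAlg k (⨆ i ∈ l, X i)) (l.map α).prod (l.map α).prod) ≤
      (l.map fun i => Module.finrank k (NN (SubAlg k (X i)) (α i) (α i))).prod := by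
  have hfin : FiniteDimensional k (MonoidAlgebra k G) :=
    Module.Finite.equiv (MonoidAlgebra.coeffLinearEquiv k (M := G) (S := k)).symm
  induction l with
  | nil =>
    refine ⟨by simp, Subalgebra.one_mem _, ?_⟩
    have h0 : (⨆ i ∈ ([] : List ι), X i) = ⊥ := by simp
    rw [h0]
    simp only [List.map_nil, List.prod_nil]
    have h1 : NN (SubAlg k (⊥ : Subgroup G)) 1 1 ≤ Submodule.span k {(1 : MonoidAlgebra k G)} := by
      rintro x ⟨hx, -, -⟩
      refine SuppIn.induction (P := fun x => x ∈ Submodule.span k {(1 : MonoidAlgebra k G)}) hx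
        (Submodule.zero_mem _) (fun _ _ h h' => Submodule.add_mem _ h h') ?_
      intro y hy c
      have hy' : y = 1 := Subgroup.mem_bot.mp hy
      subst hy'
      exact Submodule.smul_mem _ _ (Submodule.subset_span rfl)
    refine (Submodule.finrank_mono h1).trans ?_
    exact (finrank_span_le_card (R := k) {(1 : MonoidAlgebra k G)}).trans (by simp)
  | cons i l ih =>
    obtain ⟨h1, h2, h3⟩ := ih (List.nodup_cons.mp hl).2
    have hil := (List.nodup_cons.mp hl).1
    have hsup : (⨆ j ∈ i :: l, X j) = X i ⊔ ⨆ j ∈ l, X j := by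
      simp only [List.mem_cons, iSup_or, iSup_sup_eq, iSup_iSup_eq_left]
    have hcomm : ∀ a ∈ X i, ∀ b ∈ (⨆ j ∈ l, X j), a * b = b * a := by
      intro a ha b hb
      have hle : (⨆ j ∈ l, X j) ≤ Subgroup.centralizer ({a} : Set G) := by
        refine iSup₂_le fun j hj c hc => ?_
        rw [Subgroup.mem_centralizer_iff]
        rintro _ rfl
        exact hX i j (fun h => hil (h ▸ hj)) _ ha c hc
      exact Subgroup.mem_centralizer_iff.mp (hle hb) a rfl
    have hc2 : α i * (l.map α).prod = (l.map α).prod * α i := comm_SubAlg hcomm (hαX i) h2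
    rw [hsup]
    simp only [List.map_cons, List.prod_cons]
    refine ⟨?_, ?_, ?_⟩
    · calc α i * (l.map α).prod * (α i * (l.map α).prod)
          = α i * ((l.map α).prod * α i) * (l.map α).prod := by simp only [mul_assoc]
        _ = (α i * α i) * ((l.map α).prod * (l.map α).prod) := by
            rw [← hc2]; simp only [mul_assoc]
        _ = _ := by rw [hα i, h1]
    · exact Subalgebra.mul_mem _ (SubAlg_mono le_sup_left (hαX i)) (SubAlg_mono le_sup_right h2)
    · exact (finrank_NN_sup hcomm (hα i) h1 (hαX i) h2).trans (Nat.mul_le_mul_left _ h3)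

theorem list_prod_mul_prod {ι : Type*} {R : Type*} [Monoid R] (x y : ι → R)
    (hxy : ∀ i j, i ≠ j → y i * x j = x j * y i) (l : List ι) (hl : l.Nodup) :
    (l.map x).prod * (l.map y).prod = (l.map fun i => x i * y i).prod := by
  induction l with
  | nil => simp
  | cons i l ih =>
    have hil := (List.nodup_cons.mp hl).1
    have hc : ∀ l' : List ι, (∀ j ∈ l', j ≠ i) → y i * (l'.map x).prod = (l'.map x).prod * y i := by
      intro l'
      induction l' with
      | nil => simp
      | cons j l' ih' =>
        intro h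
        rw [List.map_cons, List.prod_cons, ← mul_assoc, hxy i j (h j List.mem_cons_self).symm,
          mul_assoc, ih' fun m hm => h m (List.mem_cons_of_mem _ hm), mul_assoc]
    simp only [List.map_cons, List.prod_cons]
    rw [← ih (List.nodup_cons.mp hl).2]
    calc x i * (l.map x).prod * (y i * (l.map y).prod)
        = x i * ((l.map x).prod * y i) * (l.map y).prod := by simp only [mul_assoc]
      _ = x i * (y i * (l.map x).prod) * (l.map y).prod := by
          rw [hc l fun j hj h => hil (h ▸ hj)]
      _ = _ := by simp only [mul_assoc]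

end Group

section Hom

variable {k : Type*} [Field k] {G H : Type*} [Group G] [Finite G] [Group H] [Finite H]

theorem mapDomain_mem_range (φ : H →* G) (a : MonoidAlgebra k H) :
    MonoidAlgebra.mapDomainAlgHom k k φ a ∈ SubAlg k φ.range := by
  induction a using MonoidAlgebra.induction_linear with
  | zero => rw [map_zero]; exact Subalgebra.zero_mem _
  | add a b ha hb => rw [map_add]; exact Subalgebra.add_mem _ ha hb
  | single x r =>
    have : MonoidAlgebra.mapDomainAlgHom k k φ (MonoidAlgebra.single x r) =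
        MonoidAlgebra.single (φ x) r := by simp
    rw [this]
    exact single_mem_SubAlg (MonoidHom.mem_range.mpr ⟨x, rfl⟩) r

theorem exists_mapDomain (φ : H →* G) {a : MonoidAlgebra k G} (ha : a ∈ SubAlg k φ.range) :
    ∃ a', MonoidAlgebra.mapDomainAlgHom k k φ a' = a := by
  refine SuppIn.induction (P := fun a => ∃ a', MonoidAlgebra.mapDomainAlgHom k k φ a' = a) ha
    ⟨0, map_zero _⟩ ?_ ?_
  · rintro _ _ ⟨x, rfl⟩ ⟨y, rfl⟩
    exact ⟨x + y, map_add _ _ _⟩
  · rintro _ ⟨x, rfl⟩ c
    refine ⟨c • MonoidAlgebra.single x 1, ?_⟩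
    rw [map_smul]
    congr 1
    simp

theorem finrank_NN_hom {φ : H →* G} (hφ : Function.Injective φ) (e f : MonoidAlgebra k H) :
    Module.finrank k (NN (SubAlg k φ.range) (MonoidAlgebra.mapDomainAlgHom k k φ e)
      (MonoidAlgebra.mapDomainAlgHom k k φ f)) =
    Module.finrank k (NN (⊤ : Subalgebra k (MonoidAlgebra k H)) e f) := by
  have hinj : Function.Injective (MonoidAlgebra.mapDomainAlgHom k k φ) :=
    MonoidAlgebra.mapDomain_injective hφ
  symm
  let Φ : NN (⊤ : Subalgebra k (MonoidAlgebra k H)) e f →ₗ[k] NN (SubAlg k φ.range)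
      (MonoidAlgebra.mapDomainAlgHom k k φ e) (MonoidAlgebra.mapDomainAlgHom k k φ f) :=
    { toFun := fun x => ⟨MonoidAlgebra.mapDomainAlgHom k k φ x.1,
        mapDomain_mem_range φ x.1, by rw [← map_mul, x.2.2.1], by rw [← map_mul, x.2.2.2]⟩
      map_add' := fun x y => Subtype.ext (map_add _ x.1 y.1)
      map_smul' := fun c x => Subtype.ext (map_smul _ c x.1) }
  refine LinearEquiv.finrank_eq (LinearEquiv.ofBijective Φ ⟨?_, ?_⟩)
  · intro x y hxy
    exact Subtype.ext (hinj (congrArg Subtype.val hxy))
  · rintro ⟨x, hx1, hx2, hx3⟩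
    obtain ⟨a, rfl⟩ := exists_mapDomain φ hx1
    refine ⟨⟨a, Algebra.mem_top, hinj ?_, hinj ?_⟩, rfl⟩
    · rw [map_mul, hx2]
    · rw [map_mul, hx3]

end Hom

end Vale.Agent.P180.R2.H799
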