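import Vale.Agent.P180.R2.H799.Nilp4

/-!
P180: the central character of a block and nilpotency of its kernel.
-/

universe u

namespace Vale.Agent.P180.R2.H799

open Vale.Agent.P180 Vale.Agent.P180.H768.Gd

set_option linter.unusedSectionVars false

section Comm

variable {k : Type*} [Field k] {Z : Type*} [CommRing Z] [Algebra k Z]

/-- The character of a finite-dimensional commutative algebra at a primitive idempotent. -/
theorem exists_char [IsAlgClosed k] [FiniteDimensional k Z] {e : Z} (he : IsPrim e) :
    ∃ lam : Z →ₐ[k] k, lam e = 1 ∧ ∀ z, IsNilpotent ((z - algebraMap k Z (lam z)) * e) := by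
  have hpow : ∀ (y : Z) (n : ℕ), (y * e) ^ (n + 1) = y ^ (n + 1) * e := by
    intro y n
    induction n with
    | zero => simp
    | succ n ih =>
      rw [pow_succ, ih, pow_succ y (n + 1)]
      calc y ^ (n + 1) * e * (y * e) = y ^ (n + 1) * y * (e * e) := by ring
        _ = _ := by rw [he.1]
  have hex : ∀ z : Z, ∃ c : k, IsNilpotent ((z - algebraMap k Z c) * e) := by
    intro z
    obtain ⟨c, n, hn⟩ := exists_scalar (k := k) he z
    refine ⟨c, n + 1, ?_⟩
    rw [hpow, pow_succ', mul_assoc, hn, mul_zero]
  have huniq : ∀ (z : Z) (c d : k), IsNilpotent ((z - algebraMap k Z c) * e) →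
      IsNilpotent ((z - algebraMap k Z d) * e) → c = d := by
    intro z c d hc hd
    by_contra hne
    have h1 : IsNilpotent (algebraMap k Z (d - c) * e) := by
      have h2 : algebraMap k Z (d - c) * e =
          (z - algebraMap k Z c) * e - (z - algebraMap k Z d) * e := by
        rw [map_sub]; ring
      rw [h2]
      exact (Commute.all _ _).isNilpotent_sub hc hd
    obtain ⟨n, hn⟩ := h1
    have h3 : (algebraMap k Z (d - c) * e) ^ (n + 1) = 0 := by
      rw [pow_succ, hn, zero_mul]
    rw [hpow, ← map_pow] at h3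
    apply he.2.1
    have h4 : (d - c) ^ (n + 1) ≠ 0 := pow_ne_zero _ (sub_ne_zero.mpr (Ne.symm hne))
    have h5 : algebraMap k Z ((d - c) ^ (n + 1))⁻¹ * (algebraMap k Z ((d - c) ^ (n + 1)) * e) = e := by
      rw [← mul_assoc, ← map_mul, inv_mul_cancel₀ h4, map_one, one_mul]
    rw [← h5, h3, mul_zero]
  choose lam hlam using hex
  have h1 : lam 1 = 1 := huniq 1 _ _ (hlam 1) (by simp)
  have hmul : ∀ z w, lam (z * w) = lam z * lam w := by
    intro z w
    apply huniq (z * w) _ _ (hlam _)
    have h2 : (z * w - algebraMap k Z (lam z * lam w)) * e =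
        w * ((z - algebraMap k Z (lam z)) * e) +
          algebraMap k Z (lam z) * ((w - algebraMap k Z (lam w)) * e) := by
      rw [map_mul]; ring
    rw [h2]
    exact (Commute.all _ _).isNilpotent_add ((Commute.all _ _).isNilpotent_mul_left (hlam z))
      ((Commute.all _ _).isNilpotent_mul_left (hlam w))
  have hadd : ∀ z w, lam (z + w) = lam z + lam w := by
    intro z w
    apply huniq (z + w) _ _ (hlam _)
    have h2 : (z + w - algebraMap k Z (lam z + lam w)) * e =
        (z - algebraMap k Z (lam z)) * e + (w - algebraMap k Z (lam w)) * e := by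
      rw [map_add]; ring
    rw [h2]
    exact (Commute.all _ _).isNilpotent_add (hlam z) (hlam w)
  have halg : ∀ c : k, lam (algebraMap k Z c) = c := fun c =>
    huniq _ _ _ (hlam _) (by simp)
  have h0 : lam 0 = 0 := by
    have := halg 0
    rwa [map_zero] at this
  refine ⟨{ toFun := lam, map_one' := h1, map_mul' := hmul, map_zero' := h0, map_add' := hadd,
            commutes' := halg }, ?_, hlam⟩
  apply huniq e _ _ (hlam e)
  have h2 : (e - algebraMap k Z 1) * e = 0 := by
    rw [map_one, sub_mul, he.1, one_mul, sub_self]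
  rw [h2]
  exact IsNilpotent.zero

end Comm

section

variable {k : Type*} [Field k] {p : ℕ} [Fact p.Prime] [CharP k p]

theorem isPrim_center {G : Type*} [Group G] {b : MonoidAlgebra k G}
    (hb : IsBlockOf (⊤ : Subgroup G) b) :
    ∃ h : b ∈ Subalgebra.center k (MonoidAlgebra k G),
      IsPrim (⟨b, h⟩ : Subalgebra.center k (MonoidAlgebra k G)) := by
  have h : b ∈ Subalgebra.center k (MonoidAlgebra k G) := by
    rw [← ZAlg_top]; exact hb.mem
  refine ⟨h, Subtype.ext hb.idem, fun h0 => hb.ne_zero (congrArg Subtype.val h0), ?_⟩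
  intro f hf hfb
  have h1 : (f : MonoidAlgebra k G) ∈ ZAlg k (⊤ : Subgroup G) := by
    rw [ZAlg_top]; exact f.2
  have h2 : (f : MonoidAlgebra k G) * f = f := congrArg Subtype.val hf
  have h3 : (f : MonoidAlgebra k G) * b = f := congrArg Subtype.val hfb
  rcases hb.primitive f h1 h2 h3 with h | h
  · exact Or.inl (Subtype.ext h)
  · exact Or.inr (Subtype.ext h)

/-- The central character of a block `b` which is a relative trace from the `p`-subgroup `D`; any
product of `2 |D|` elements of its kernel annihilates `b`. -/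
theorem exists_central_char [IsAlgClosed k] {G : Type u} [Group G] [Finite G] {D : Subgroup G}
    (hD : IsPGroup p D) {b a : MonoidAlgebra k G} (hb : IsBlockOf (⊤ : Subgroup G) b)
    (ha : a ∈ Fix (cj k G) D) (hba : b = tr (cj k G) D ⊤ a) :
    ∃ lam : Subalgebra.center k (MonoidAlgebra k G) →ₐ[k] k,
      (∀ z : Subalgebra.center k (MonoidAlgebra k G), (z : MonoidAlgebra k G) = b → lam z = 1) ∧
      (∀ z : Subalgebra.center k (MonoidAlgebra k G),
        IsNilpotent ((z : MonoidAlgebra k G) * b - lam z • b)) ∧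
      ∀ L : List (Subalgebra.center k (MonoidAlgebra k G)), (∀ z ∈ L, lam z = 0) →
        2 * Nat.card D ≤ L.length → (L.prod : MonoidAlgebra k G) * b = 0 := by
  obtain ⟨hbc, hprim⟩ := isPrim_center hb
  have : FiniteDimensional k (MonoidAlgebra k G) :=
    Module.Finite.equiv (MonoidAlgebra.coeffLinearEquiv k (M := G) (S := k)).symm
  obtain ⟨lam, hlb, hlam⟩ := exists_char (k := k) hprim
  have hnil : ∀ z : Subalgebra.center k (MonoidAlgebra k G),
      IsNilpotent ((z : MonoidAlgebra k G) * b - lam z • b) := by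
    intro z
    obtain ⟨n, hn⟩ := hlam z
    refine ⟨n, ?_⟩
    have h1 := congrArg Subtype.val hn
    have h2 : ((z - algebraMap k (Subalgebra.center k (MonoidAlgebra k G)) (lam z)) *
        (⟨b, hbc⟩ : Subalgebra.center k (MonoidAlgebra k G)) :
        Subalgebra.center k (MonoidAlgebra k G)).1 = (z : MonoidAlgebra k G) * b - lam z • b := by
      change ((z : MonoidAlgebra k G) - algebraMap k (MonoidAlgebra k G) (lam z)) * b = _
      rw [sub_mul, ← Algebra.smul_def]
    rw [← h2]
    exact h1
  refine ⟨lam, ?_, hnil, ?_⟩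
  · intro z hz
    have : z = ⟨b, hbc⟩ := Subtype.ext hz
    rw [this, hlb]
  · intro L hL hlen
    have h1 : (L.prod : MonoidAlgebra k G) = (L.map Subtype.val).prod := by
      have := map_list_prod (Subalgebra.center k (MonoidAlgebra k G)).val L
      exact this
    rw [h1]
    refine nilp_center hD hb.idem hb.mem ha hba (L.map Subtype.val) ?_ (by rwa [List.length_map])
    intro w hw
    obtain ⟨z, hz, rfl⟩ := List.mem_map.mp hw
    refine ⟨by rw [ZAlg_top]; exact z.2, ?_⟩
    have := hnil z
    rwa [hL z hz, zero_smul, sub_zero] at this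

/-- Indexed version of `nilp_center`. -/
theorem nilp_center_fin {G : Type u} [Group G] [Finite G] {D : Subgroup G} (hD : IsPGroup p D)
    {b a : MonoidAlgebra k G} (hb : b * b = b) (hbz : b ∈ ZAlg k (⊤ : Subgroup G))
    (ha : a ∈ Fix (cj k G) D) (hba : b = tr (cj k G) D ⊤ a) {m : ℕ}
    (z : Fin m → MonoidAlgebra k G)
    (hz : ∀ i, z i ∈ ZAlg k (⊤ : Subgroup G) ∧ IsNilpotent (z i * b))
    (hlen : 2 * Nat.card D ≤ m) : (List.ofFn z).prod * b = 0 := by
  refine nilp_center hD hb hbz ha hba _ ?_ (by rwa [List.length_ofFn])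
  intro w hw
  obtain ⟨i, rfl⟩ := (List.mem_ofFn' _ _).mp hw
  exact hz i

end

end Vale.Agent.P180.R2.H799
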