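import Vale.Agent.P180.R2.H365.Gen
import Vale.Agent.P180.R2.H799.Cross

/-!
P180: the number of non-projective summands of `ι kH ι ⊗ V` for a `p`-subgroup `P` with only one
minimal subgroup `Z`.
-/

set_option linter.all false

namespace Vale.Agent.P180.R2.H799

open Vale.Agent.P180 Vale.Agent.P180.H768.Gd Vale.Agent.P180.R2.H365

section Lin

variable {k : Type*} [Field k] {W : Type*} [AddCommGroup W] [Module k W] [FiniteDimensional k W]

/-- The linear algebra of the bound for `tau`. -/
theorem tau_core (E E' Q σ : W →ₗ[k] W) (I : Submodule k W) (hE : ∀ x, E (E x) = E x)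
    (hEσ : ∀ x, E (σ x) = σ (E x)) (hE'σ : ∀ x, E' (σ x) = σ (E' x))
    (h1 : ∀ x ∈ I, ∃ y, x - Q x = σ y) (h2 : ∀ x ∈ I, ∃ y, E x - E' x = σ y) :
    Module.finrank k (I ⊓ LinearMap.range E : Submodule k W) ≤
      Module.finrank k (LinearMap.range (σ ∘ₗ E)) +
        Module.finrank k (LinearMap.range (E' ∘ₗ Q)) := by
  have hle : I ⊓ LinearMap.range E ≤
      LinearMap.range (σ ∘ₗ E) ⊔ (LinearMap.range (E' ∘ₗ Q)).map E := by
    rintro x ⟨hxI, hxE⟩
    obtain ⟨z, rfl⟩ := hxE
    obtain ⟨y1, hy1⟩ := h1 _ hxI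
    obtain ⟨y2, hy2⟩ := h2 _ hxI
    have e1 : E z = σ y2 + (σ (E' y1) + E' (Q (E z))) := by
      have e2 : E' (E z) = σ (E' y1) + E' (Q (E z)) := by
        rw [← hE'σ, ← hy1, ← map_add, sub_add_cancel]
      rw [← e2, ← hy2, hE, sub_add_cancel]
    have e3 : E z = σ (E (y2 + E' y1)) + E (E' (Q (E z))) := by
      calc E z = E (E z) := (hE z).symm
        _ = E (σ y2 + (σ (E' y1) + E' (Q (E z)))) := by rw [← e1]
        _ = _ := by simp only [map_add, hEσ, add_assoc]
    rw [e3]
    exact Submodule.add_mem_sup ⟨y2 + E' y1, rfl⟩ ⟨_, ⟨E z, rfl⟩, rfl⟩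
  refine (Submodule.finrank_mono hle).trans ?_
  refine (Submodule.finrank_add_le_finrank_add_finrank _ _).trans ?_
  exact Nat.add_le_add_left (Submodule.finrank_map_le _ _) _

end Lin

section Res

variable {k : Type*} [Field k] {H : Type*} [Group H]

open scoped Classical in
/-- Restriction of the support to `S`. -/
noncomputable def rst (k : Type*) [Field k] {H : Type*} [Group H] (S : Set H) :
    MonoidAlgebra k H →ₗ[k] MonoidAlgebra k H where
  toFun x := MonoidAlgebra.ofCoeff (x.coeff.filter fun h => h ∈ S)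
  map_add' x y := by
    apply MonoidAlgebra.coeff_injective
    ext h
    simp [Finsupp.filter_apply]
  map_smul' c x := by
    apply MonoidAlgebra.coeff_injective
    ext h
    simp [Finsupp.filter_apply]

open scoped Classical in
theorem rst_coeff (S : Set H) (x : MonoidAlgebra k H) (h : H) :
    (rst k S x).coeff h = if h ∈ S then x.coeff h else 0 := by
  change (x.coeff.filter fun h => h ∈ S) h = _
  rw [Finsupp.filter_apply]

theorem rst_single_of_mem {S : Set H} {h : H} (hh : h ∈ S) (r : k) :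
    rst k S (MonoidAlgebra.single h r) = MonoidAlgebra.single h r := by
  classical
  apply MonoidAlgebra.coeff_injective
  ext x
  rw [rst_coeff, MonoidAlgebra.coeff_single, Finsupp.single_apply]
  by_cases hx : h = x
  · rw [if_pos hx, ← hx, if_pos hh]
  · rw [if_neg hx, ite_self]

theorem rst_single_of_notMem {S : Set H} {h : H} (hh : h ∉ S) (r : k) :
    rst k S (MonoidAlgebra.single h r) = 0 := by
  classical
  apply MonoidAlgebra.coeff_injective
  ext x
  rw [rst_coeff, MonoidAlgebra.coeff_single, Finsupp.single_apply]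
  by_cases hx : h = x
  · rw [if_pos hx, ← hx, if_neg hh]; rfl
  · rw [if_neg hx, ite_self]; rfl

theorem rst_mem_SubAlg (N : Subgroup H) (x : MonoidAlgebra k H) :
    rst k (N : Set H) x ∈ SubAlg k N := by
  classical
  intro h hh
  rw [rst_coeff] at hh
  by_contra hN
  exact hh (if_neg hN)

/-- Right translation stable sets: the restriction commutes with the right multiplication. -/
theorem rst_mul {S : Set H} {P : Subgroup H} (hS : ∀ h, ∀ u ∈ P, h ∈ S → h * u ∈ S)
    (x : MonoidAlgebra k H) {a : MonoidAlgebra k H} (ha : a ∈ SubAlg k P) :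
    rst k S (x * a) = rst k S x * a := by
  have hS' : ∀ h, ∀ u ∈ P, h * u ∈ S → h ∈ S := by
    intro h u hu hh
    have := hS _ u⁻¹ (P.inv_mem hu) hh
    rwa [mul_inv_cancel_right] at this
  induction x using MonoidAlgebra.induction_linear with
  | zero => simp
  | add x y hx hy => rw [add_mul, map_add, hx, hy, map_add, add_mul]
  | single h r =>
    refine SuppIn.induction (P := fun a => rst k S (MonoidAlgebra.single h r * a) =
      rst k S (MonoidAlgebra.single h r) * a) ha ?_ ?_ ?_
    · simp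
    · intro a b h1 h2
      rw [mul_add, map_add, h1, h2, mul_add]
    · intro u hu c
      rw [mul_smul_comm, map_smul, mul_smul_comm, MonoidAlgebra.single_mul_single]
      congr 1
      by_cases hh : h ∈ S
      · rw [rst_single_of_mem hh, rst_single_of_mem (hS h u hu hh),
          MonoidAlgebra.single_mul_single]
      · rw [rst_single_of_notMem hh, rst_single_of_notMem (fun h' => hh (hS' h u hu h')), zero_mul]

/-- The sum of the translates of the restrictions. -/
theorem sum_rst [Fintype H] {P : Subgroup H} [DecidablePred (· ∈ P)] {S : Set H} {h : H} (r : k)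
    (hu : ∃! u : P, (u : H)⁻¹ * h ∈ S) :
    ∑ u : P, MonoidAlgebra.single (u : H) (1 : k) *
      rst k S (MonoidAlgebra.single (u : H)⁻¹ 1 * MonoidAlgebra.single h r) =
      MonoidAlgebra.single h r := by
  classical
  obtain ⟨u, hu1, hu2⟩ := hu
  rw [Finset.sum_eq_single u]
  · rw [MonoidAlgebra.single_mul_single, rst_single_of_mem hu1, MonoidAlgebra.single_mul_single,
      mul_inv_cancel_left, one_mul, one_mul]
  · intro v _ hv
    rw [MonoidAlgebra.single_mul_single, rst_single_of_notMem (fun h' => hv (hu2 v h')), mul_zero]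
  · intro h'
    exact absurd (Finset.mem_univ _) h'

theorem sum_rst_zero [Fintype H] {P : Subgroup H} [DecidablePred (· ∈ P)] {S : Set H} {h : H}
    (r : k) (hu : ∀ u : P, (u : H)⁻¹ * h ∉ S) :
    ∑ u : P, MonoidAlgebra.single (u : H) (1 : k) *
      rst k S (MonoidAlgebra.single (u : H)⁻¹ 1 * MonoidAlgebra.single h r) = 0 := by
  classical
  apply Finset.sum_eq_zero
  intro u _
  rw [MonoidAlgebra.single_mul_single, rst_single_of_notMem (hu u), mul_zero]

end Res

section Desc

variable {k : Type*} [Field k] {H : Type*} [Group H]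

/-- The right multiples of `a`. -/
noncomputable def RJ (a : MonoidAlgebra k H) : Submodule k (MonoidAlgebra k H) :=
  LinearMap.range (LinearMap.mulRight k a)

/-- The map induced on `kH / kH a` by a map commuting with the right multiplication by `a`. -/
noncomputable def desc (a : MonoidAlgebra k H) (F : MonoidAlgebra k H →ₗ[k] MonoidAlgebra k H)
    (hF : ∀ x, F (x * a) = F x * a) :
    (MonoidAlgebra k H ⧸ RJ a) →ₗ[k] (MonoidAlgebra k H ⧸ RJ a) :=
  (RJ a).mapQ (RJ a) F (by
    rintro _ ⟨x, rfl⟩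
    exact ⟨F x, (hF x).symm⟩)

theorem desc_mk (a : MonoidAlgebra k H) (F : MonoidAlgebra k H →ₗ[k] MonoidAlgebra k H)
    (hF : ∀ x, F (x * a) = F x * a) (x : MonoidAlgebra k H) :
    desc a F hF ((RJ a).mkQ x) = (RJ a).mkQ (F x) := rfl

/-- Left multiplication on `kH / kH a`. -/
noncomputable def lm (a b : MonoidAlgebra k H) :
    (MonoidAlgebra k H ⧸ RJ a) →ₗ[k] (MonoidAlgebra k H ⧸ RJ a) :=
  desc a (LinearMap.mulLeft k b) fun x => (mul_assoc b x a).symm

theorem lm_mk (a b x : MonoidAlgebra k H) :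
    lm a b ((RJ a).mkQ x) = (RJ a).mkQ (b * x) := rfl

/-- The elements of `kH / kH a` fixed by the left multiplications with the elements of `P`. -/
noncomputable def invW (P : Subgroup H) (a : MonoidAlgebra k H) : Submodule k (MonoidAlgebra k H ⧸ RJ a) where
  carrier := {w | ∀ u ∈ P, lm a (MonoidAlgebra.single u 1) w = w}
  zero_mem' := fun u _ => map_zero _
  add_mem' := fun {x y} hx hy u hu => by rw [map_add, hx u hu, hy u hu]
  smul_mem' := fun c x hx u hu => by rw [map_smul, hx u hu]

theorem mem_invW {P : Subgroup H} {a : MonoidAlgebra k H} {w : MonoidAlgebra k H ⧸ RJ a} :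
    w ∈ invW P a ↔ ∀ u ∈ P, lm a (MonoidAlgebra.single u 1) w = w := Iff.rfl

/-- The sum of the elements of `P`. -/
noncomputable def sgP (k : Type*) [Field k] {H : Type*} [Group H] [Finite H] (P : Subgroup H) :
    MonoidAlgebra k H :=
  letI := Fintype.ofFinite P
  ∑ u : P, MonoidAlgebra.single (u : H) 1

variable [Finite H]

/-- Relative traces map the invariants into the image of the sum over `P`. -/
theorem exists_of_trace [Fintype H] {P : Subgroup H} [Fintype P] {a : MonoidAlgebra k H}
    {F y : MonoidAlgebra k H →ₗ[k] MonoidAlgebra k H} (hF : ∀ x, F (x * a) = F x * a)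
    (hy : ∀ x, y (x * a) = y x * a)
    (h : ∀ x, F x = ∑ u : P, MonoidAlgebra.single (u : H) (1 : k) *
      y (MonoidAlgebra.single (u : H)⁻¹ 1 * x)) {w : MonoidAlgebra k H ⧸ RJ a}
    (hw : w ∈ invW P a) : ∃ w', desc a F hF w = lm a (sgP k P) w' := by
  refine ⟨desc a y hy w, ?_⟩
  obtain ⟨x, rfl⟩ := (RJ a).mkQ_surjective w
  have h1 : ∀ u : P, (RJ a).mkQ (y (MonoidAlgebra.single (u : H)⁻¹ 1 * x)) =
      (RJ a).mkQ (y x) := by
    intro u
    have h2 := hw (u : H)⁻¹ (P.inv_mem u.2)
    rw [lm_mk] at h2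
    rw [← desc_mk a y hy, ← desc_mk a y hy, h2]
  rw [desc_mk, desc_mk, lm_mk, h, map_sum]
  have h3 : sgP k P = ∑ u : P, MonoidAlgebra.single (u : H) (1 : k) := by
    unfold sgP
    exact Finset.sum_congr (Finset.ext fun x => by simp) fun _ _ => rfl
  rw [h3, Finset.sum_mul, map_sum]
  refine Finset.sum_congr rfl fun u _ => ?_
  rw [← lm_mk, ← lm_mk, h1]

end Desc

section Comb

variable {H : Type*} [Group H] [Finite H]

omit [Finite H] in
theorem exists_transversal (P : Subgroup H) : ∃ S : Set H, ∀ h, ∃! u : P, (u : H)⁻¹ * h ∈ S := by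
  let q : H → Quotient (QuotientGroup.rightRel P) := fun h => Quotient.mk _ h
  have hq : ∀ x y : H, q x = q y ↔ y * x⁻¹ ∈ P := by
    intro x y
    rw [← QuotientGroup.rightRel_apply]
    exact Quotient.eq
  refine ⟨{h | (q h).out = h}, fun h => ?_⟩
  have h1 : q (q h).out = q h := Quotient.out_eq _
  have h2 : h * ((q h).out)⁻¹ ∈ P := (hq _ _).mp h1
  refine ⟨⟨_, h2⟩, ?_, ?_⟩
  · have h3 : (h * ((q h).out)⁻¹)⁻¹ * h = (q h).out := by group
    change (q ((h * ((q h).out)⁻¹)⁻¹ * h)).out = (h * ((q h).out)⁻¹)⁻¹ * h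
    rw [h3, h1]
  · rintro ⟨u, hu⟩ h4
    change (q (u⁻¹ * h)).out = u⁻¹ * h at h4
    have h5 : q (u⁻¹ * h) = q h := by
      rw [hq, mul_inv_rev, inv_inv, mul_inv_cancel_left]
      exact hu
    rw [h5] at h4
    apply Subtype.ext
    change u = h * ((q h).out)⁻¹
    rw [h4, mul_inv_rev, inv_inv, mul_inv_cancel_left]

theorem conj_eq_of_min {P Z : Subgroup H} (hmin : ∀ S : Subgroup H, S ≤ P → S ≠ ⊥ → Z ≤ S)
    (hZ : Z ≠ ⊥) {h : H} (hh : ∀ z ∈ Z, h⁻¹ * z * h ∈ P) :
    h ∈ Subgroup.normalizer (Z : Set H) := by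
  set S := conjS h⁻¹ Z with hS
  have hSP : S ≤ P := by
    intro s hs
    rw [hS, mem_conjS, inv_inv] at hs
    have := hh _ hs
    have e : h⁻¹ * (h * s * h⁻¹) * h = s := by group
    rwa [e] at this
  have hcard : Nat.card S = Nat.card Z := Nat.card_congr
    (Z.equivMapOfInjective _ (MulAut.conj h⁻¹).injective).toEquiv.symm
  have hS1 : S ≠ ⊥ := by
    intro h0
    apply hZ
    rw [← Subgroup.card_eq_one] at h0 ⊢
    rw [← hcard, h0]
  have hZS : Z ≤ S := hmin S hSP hS1
  have heq : Z = S := Subgroup.eq_of_le_of_card_ge hZS hcard.le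
  rw [Subgroup.mem_normalizer_iff]
  intro z
  constructor
  · intro hz
    have h1 : z ∈ S := by rw [← heq]; exact hz
    rw [hS, mem_conjS, inv_inv] at h1
    exact h1
  · intro hz
    rw [heq, hS, mem_conjS, inv_inv]
    exact hz

theorem le_normalizer_of_min {P Z : Subgroup H}
    (hmin : ∀ S : Subgroup H, S ≤ P → S ≠ ⊥ → Z ≤ S) (hZP : Z ≤ P) (hZ : Z ≠ ⊥) :
    P ≤ Subgroup.normalizer (Z : Set H) := fun u hu =>
  conj_eq_of_min hmin hZ fun z hz => P.mul_mem (P.mul_mem (P.inv_mem hu) (hZP hz)) hu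

theorem exists_T {P Z : Subgroup H} (hmin : ∀ S : Subgroup H, S ≤ P → S ≠ ⊥ → Z ≤ S)
    (hZP : Z ≤ P) (hZ : Z ≠ ⊥) :
    ∃ S : Set H, (∀ h, ∀ u ∈ P, h ∈ S → h * u ∈ S) ∧
      (∀ h ∉ Subgroup.normalizer (Z : Set H), ∃! u : P, (u : H)⁻¹ * h ∈ S) ∧
      (∀ h ∈ Subgroup.normalizer (Z : Set H), ∀ u : P, (u : H)⁻¹ * h ∉ S) := by
  set N := Subgroup.normalizer (Z : Set H) with hN
  have hPN : P ≤ N := le_normalizer_of_min hmin hZP hZ
  let q : H ⧸ P → MulAction.orbitRel.Quotient P (H ⧸ P) := fun c => Quotient.mk _ c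
  have hq : ∀ x y : H ⧸ P, q x = q y ↔ ∃ u : P, u • y = x := by
    intro x y
    rw [show q x = q y ↔ (MulAction.orbitRel P (H ⧸ P)) x y from Quotient.eq]
    exact MulAction.orbitRel_apply
  have hsm : ∀ (u : P) (h : H), u • (h : H ⧸ P) = (((u : H) * h : H) : H ⧸ P) := fun u h => rfl
  refine ⟨{h | h ∉ N ∧ (q (h : H ⧸ P)).out = (h : H ⧸ P)}, ?_, ?_, ?_⟩
  · rintro h u hu ⟨h1, h2⟩
    have h3 : ((h * u : H) : H ⧸ P) = (h : H ⧸ P) := QuotientGroup.mk_mul_of_mem h hu
    refine ⟨fun h4 => h1 ?_, by rw [h3]; exact h2⟩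
    have := N.mul_mem h4 (N.inv_mem (hPN hu))
    rwa [mul_inv_cancel_right] at this
  · intro h hh
    have h1 : q (q (h : H ⧸ P)).out = q (h : H ⧸ P) := Quotient.out_eq _
    obtain ⟨v, hv⟩ := (hq _ _).mp h1
    rw [hsm] at hv
    refine ⟨v⁻¹, ⟨?_, ?_⟩, ?_⟩
    · intro h2
      apply hh
      have := N.mul_mem (hPN (v⁻¹).2) h2
      rwa [mul_inv_cancel_left] at this
    · rw [Subgroup.coe_inv, inv_inv, hv, h1]
    · rintro w ⟨-, hw⟩
      have h3 : q (((w : H)⁻¹ * h : H) : H ⧸ P) = q (h : H ⧸ P) :=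
        (hq _ _).mpr ⟨w⁻¹, rfl⟩
      rw [h3, ← hv, QuotientGroup.eq] at hw
      -- `hw : (v h)⁻¹ (w⁻¹ h) ∈ P`
      by_contra hne
      apply hh
      let s : H := w * v
      have hs1 : s ≠ 1 := by
        intro h4
        apply hne
        apply Subtype.ext
        have : (w : H) * v = 1 := h4
        rw [Subgroup.coe_inv]
        exact (eq_inv_of_mul_eq_one_left this)
      have hsP : s ∈ P := P.mul_mem w.2 v.2
      have hsh : h⁻¹ * s * h ∈ P := by
        have h5 := P.inv_mem hw
        have e : (((v : H) * h)⁻¹ * ((w : H)⁻¹ * h))⁻¹ = h⁻¹ * s * h := by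
          simp only [s]
          group
        rwa [e] at h5
      let S : Subgroup H := P ⊓ conjS h P
      have hsS : s ∈ S := ⟨hsP, mem_conjS.mpr hsh⟩
      have hS1 : S ≠ ⊥ := by
        intro h0
        rw [h0, Subgroup.mem_bot] at hsS
        exact hs1 hsS
      have hZS := hmin S inf_le_left hS1
      exact conj_eq_of_min hmin hZ fun z hz => mem_conjS.mp (hZS hz).2
  · rintro h hh u ⟨h1, -⟩
    exact h1 (N.mul_mem (hPN (P.inv_mem u.2)) hh)

end Comb

section Main

variable {k : Type*} [Field k] {H : Type*} [Group H] [Finite H]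

theorem exists_tr_one {P Z : Subgroup H} [Fintype P]
    (hmin : ∀ S : Subgroup H, S ≤ P → S ≠ ⊥ → Z ≤ S) (hZP : Z ≤ P) {x : MonoidAlgebra k H}
    (hx : x ∈ Fix (cj k H) P)
    (hsupp : ∀ h ∈ Subgroup.centralizer (Z : Set H), x.coeff h = 0) :
    ∃ y, x = ∑ u : P, cj k H (u : H) y := by
  classical
  obtain ⟨ι, hι, S, c, hSP, hS, hfix, hsum⟩ := KP.eq_sum_tr_single P hx
  have hbot : ∀ y : MonoidAlgebra k H, y ∈ Fix (cj k H) (⊥ : Subgroup H) := by
    intro y u hu
    rw [Subgroup.mem_bot.mp hu, map_one_act]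
  refine ⟨∑ o, MonoidAlgebra.single (c o) (x.coeff (c o)), ?_⟩
  have h1 : ∀ o, tr (cj k H) (S o) P (MonoidAlgebra.single (c o) (x.coeff (c o))) =
      tr (cj k H) ⊥ P (MonoidAlgebra.single (c o) (x.coeff (c o))) := by
    intro o
    by_cases h0 : x.coeff (c o) = 0
    · rw [h0, MonoidAlgebra.single_zero]
      have h2 := tr_smul (ρ := cj k H) (H := S o) (K := P) 0 0
      have h3 := tr_smul (ρ := cj k H) (H := ⊥) (K := P) 0 0
      rw [smul_zero, zero_smul] at h2 h3
      rw [h2, h3]
    · have h2 : S o = ⊥ := by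
        by_contra h3
        have h4 := hmin _ (hSP o) h3
        apply h0
        apply hsupp
        rw [mem_cent]
        intro d hd
        exact (hS o d (hZP hd)).mp (h4 hd)
      rw [h2]
  conv_lhs => rw [hsum]
  rw [Finset.sum_congr rfl fun o _ => h1 o, ← tr_sum]
  rw [tr_eq_sum (ι := P) (hbot _) (fun u => u)]
  constructor
  · intro u v huv
    rw [QuotientGroup.eq, Subgroup.mem_subgroupOf, Subgroup.mem_bot] at huv
    exact Subtype.ext (inv_mul_eq_one.mp huv)
  · exact QuotientGroup.mk_surjective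

variable {p : ℕ} [Fact p.Prime] [CharP k p]

omit [Finite H] [Fact p.Prime] [CharP k p] in
theorem br_fix_of_le {P Z : Subgroup H} (hPN : P ≤ Subgroup.normalizer (Z : Set H))
    {x : MonoidAlgebra k H} (hx : x ∈ Fix (cj k H) P) : br Z x ∈ Fix (cj k H) P := by
  classical
  intro u hu
  apply MonoidAlgebra.coeff_injective
  ext h
  rw [cj_coeff, br_coeff, br_coeff]
  have h1 : u⁻¹ * h * u ∈ Subgroup.centralizer (Z : Set H) ↔
      h ∈ Subgroup.centralizer (Z : Set H) := by
    rw [mem_cent, mem_cent]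
    have hN := hPN hu
    constructor
    · intro h2 z hz
      have hz' : u⁻¹ * z * u ∈ Z := by
        have := (Subgroup.mem_normalizer_iff.mp ((Subgroup.normalizer _).inv_mem hN) z).mp hz
        rwa [inv_inv] at this
      have h3 := h2 _ hz'
      have h4 : z * h * z⁻¹ = u * ((u⁻¹ * z * u) * (u⁻¹ * h * u) * (u⁻¹ * z * u)⁻¹) * u⁻¹ := by
        group
      rw [h4, h3]
      group
    · intro h2 z hz
      have hz' : u * z * u⁻¹ ∈ Z := (Subgroup.mem_normalizer_iff.mp hN z).mp hz
      have h3 := h2 _ hz'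
      have h4 : z * (u⁻¹ * h * u) * z⁻¹ =
          u⁻¹ * ((u * z * u⁻¹) * h * (u * z * u⁻¹)⁻¹) * u := by
        group
      rw [h4, h3]
  have h2 := coeff_conj hx (P.inv_mem hu) h
  rw [inv_inv] at h2
  rw [h2]
  simp only [h1]

omit [Finite H] [Fact p.Prime] [CharP k p] in
/-- `x ↦ c x d` commutes with the right multiplication by `a` if `d` does. -/
theorem conj_mul_eq {a c d : MonoidAlgebra k H} (had : a * d = d * a) (x : MonoidAlgebra k H) :
    (LinearMap.mulRight k d ∘ₗ LinearMap.mulLeft k c) (x * a) =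
      (LinearMap.mulRight k d ∘ₗ LinearMap.mulLeft k c) x * a := by
  simp only [LinearMap.comp_apply, LinearMap.mulLeft_apply, LinearMap.mulRight_apply]
  rw [mul_assoc, mul_assoc, had, ← mul_assoc x, ← mul_assoc, ← mul_assoc]

/-- The map `x ↦ c x d` on `kH / kH a`, for `c`, `d` commuting with `a`. -/
noncomputable def EE (a c d : MonoidAlgebra k H) (had : a * d = d * a) :
    (MonoidAlgebra k H ⧸ RJ a) →ₗ[k] (MonoidAlgebra k H ⧸ RJ a) :=
  desc a (LinearMap.mulRight k d ∘ₗ LinearMap.mulLeft k c) (conj_mul_eq had)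

omit [Finite H] [Fact p.Prime] [CharP k p] in
theorem EE_mk (a c d : MonoidAlgebra k H) (had : a * d = d * a) (x : MonoidAlgebra k H) :
    EE a c d had ((RJ a).mkQ x) = (RJ a).mkQ (c * x * d) := rfl

theorem sum_T0 [Fintype H] {P : Subgroup H} [Fintype P] {S : Set H}
    (hS : ∀ h, ∃! u : P, (u : H)⁻¹ * h ∈ S) (x : MonoidAlgebra k H) :
    ∑ u : P, MonoidAlgebra.single (u : H) (1 : k) *
      rst k S (MonoidAlgebra.single (u : H)⁻¹ 1 * x) = x := by
  induction x using MonoidAlgebra.induction_linear with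
  | zero => simp
  | add x y hx hy =>
    simp only [mul_add, map_add, Finset.sum_add_distrib]
    rw [hx, hy]
  | single h r =>
    classical
    have := sum_rst (k := k) (h := h) r (hS h)
    exact (Finset.sum_congr (Finset.ext fun x => by simp) fun _ _ => rfl).trans this

/-- **The bound for `tau`.** Let `Z` be the only minimal subgroup of the `p`-subgroup `P` of `H`,
`ι` an idempotent of `(kH)^P` and `W = kH / kH a` for `a ∈ kP`. Then the dimension of the
invariants of `P` in `ι W ι` is at most the dimension of `(∑ u) ι W ι` plus the dimension of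
`ι' kN ι'`, where `N = N_H(Z)` and `ι'` is the image of `ι` under the Brauer map at `Z`. -/
theorem tau_le {P Z : Subgroup H} (hP : IsPGroup p P)
    (hmin : ∀ S : Subgroup H, S ≤ P → S ≠ ⊥ → Z ≤ S) (hZP : Z ≤ P) (hZ : Z ≠ ⊥)
    {ι : MonoidAlgebra k H} (hι : ι ∈ Fix (cj k H) P) (hιι : ι * ι = ι)
    {a : MonoidAlgebra k H} (ha : a ∈ SubAlg k P) (haι : a * ι = ι * a) :
    Module.finrank k (invW P a ⊓ LinearMap.range (EE a ι ι haι) : Submodule k _) ≤
      Module.finrank k (LinearMap.range (lm a (sgP k P) ∘ₗ EE a ι ι haι)) +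
        Module.finrank k (NN (SubAlg k (Subgroup.normalizer (Z : Set H))) (br Z ι) (br Z ι)) := by
  classical
  have _ := Fintype.ofFinite H
  have _ := Fintype.ofFinite P
  have : FiniteDimensional k (MonoidAlgebra k H) :=
    Module.Finite.equiv (MonoidAlgebra.coeffLinearEquiv k (M := H) (S := k)).symm
  set N := Subgroup.normalizer (Z : Set H) with hN
  have hPN : P ≤ N := le_normalizer_of_min hmin hZP hZ
  have hZp : IsPGroup p Z := hP.to_le hZP
  have hιZ : ι ∈ Fix (cj k H) Z := Fix_mono _ hZP hι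
  set ι' := br Z ι with hι'
  have hι'P : ι' ∈ Fix (cj k H) P := br_fix_of_le hPN hι
  have hι'ι' : ι' * ι' = ι' := by rw [hι', ← br_mul hZp hιZ hιZ, hιι]
  have haι' : a * ι' = ι' * a := commute_of_mem ha hι'P
  have hsg : sgP k P ∈ SubAlg k P := by
    unfold sgP
    exact Subalgebra.sum_mem _ fun u _ => single_mem_SubAlg u.2 1
  have hCN : Subgroup.centralizer (Z : Set H) ≤ N := by
    intro c hc
    rw [hN, Subgroup.mem_normalizer_iff]
    rw [mem_cent] at hc
    intro z
    have key : ∀ z ∈ Z, c * z * c⁻¹ = z := by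
      intro z hz
      have h1 := hc z hz
      have h2 : z * c = c * z := mul_inv_eq_iff_eq_mul.mp h1
      rw [← h2, mul_inv_cancel_right]
    constructor
    · intro hz
      rw [key z hz]; exact hz
    · intro hz
      have h1 := key _ hz
      have h2 : z = c * z * c⁻¹ := by
        have h3 : c * (c * z * c⁻¹) * c⁻¹ = c * z * c⁻¹ := h1
        have h4 := mul_left_cancel (mul_right_cancel h3)
        exact h4.symm
      rw [h2]; exact hz
  -- the difference `ι - ι'` is a trace
  obtain ⟨y, hy⟩ : ∃ y, ι - ι' = ∑ u : P, cj k H (u : H) y := by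
    refine exists_tr_one hmin hZP (Subalgebra.sub_mem _ hι hι'P) ?_
    intro h hh
    rw [MonoidAlgebra.coeff_sub, Finsupp.sub_apply, hι', br_coeff, if_pos hh, sub_self]
  have hy' : ι - ι' = ∑ u : P, MonoidAlgebra.single (u : H) (1 : k) * y *
      MonoidAlgebra.single (u : H)⁻¹ 1 := by
    rw [hy]
    exact Finset.sum_congr rfl fun u _ => cj_eq _ _
  -- the operators
  have hres : ∀ x, rst k (N : Set H) (x * a) = rst k (N : Set H) x * a := fun x =>
    rst_mul (fun h u hu hh => N.mul_mem hh (hPN hu)) x ha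
  obtain ⟨T, hT1, hT2, hT3⟩ := exists_T hmin hZP hZ
  obtain ⟨T0, hT0⟩ := exists_transversal P
  let Q := desc a (rst k (N : Set H)) hres
  let E := EE a ι ι haι
  let E' := EE a ι' ι' haι'
  let σ := lm a (sgP k P)
  have h1 : ∀ w ∈ invW P a, ∃ w', w - Q w = σ w' := by
    intro w hw
    have hF : ∀ x, ((LinearMap.id : MonoidAlgebra k H →ₗ[k] MonoidAlgebra k H) -
        rst k (N : Set H)) (x * a) =
        ((LinearMap.id : MonoidAlgebra k H →ₗ[k] MonoidAlgebra k H) -
          rst k (N : Set H)) x * a := by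
      intro x
      rw [LinearMap.sub_apply, LinearMap.sub_apply, hres, sub_mul]
      rfl
    obtain ⟨w', hw'⟩ := exists_of_trace (a := a) (P := P)
      (F := LinearMap.id - rst k (N : Set H)) (y := rst k T) hF
      (fun x => rst_mul hT1 x ha) (by
        intro x
        induction x using MonoidAlgebra.induction_linear with
        | zero => simp
        | add x y hx hy =>
          simp only [mul_add, map_add, Finset.sum_add_distrib]
          rw [hx, hy]
        | single h r =>
          by_cases hh : h ∈ N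
          · rw [LinearMap.sub_apply, rst_single_of_mem (S := (N : Set H)) hh]
            have := sum_rst_zero (k := k) (P := P) (S := T) (h := h) r (hT3 h hh)
            rw [LinearMap.id_apply, sub_self]
            symm
            exact (Finset.sum_congr (Finset.ext fun x => by simp) fun _ _ => rfl).trans this
          · rw [LinearMap.sub_apply, rst_single_of_notMem (S := (N : Set H)) hh]
            have := sum_rst (k := k) (P := P) (S := T) (h := h) r (hT2 h hh)
            rw [LinearMap.id_apply, sub_zero]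
            symm
            exact (Finset.sum_congr (Finset.ext fun x => by simp) fun _ _ => rfl).trans this) hw
    refine ⟨w', ?_⟩
    rw [← hw']
    obtain ⟨x, rfl⟩ := (RJ a).mkQ_surjective w
    rw [desc_mk, desc_mk, ← map_sub]
    rfl
  have h2 : ∀ w ∈ invW P a, ∃ w', E w - E' w = σ w' := by
    intro w hw
    -- the left part
    have hF1 := conj_mul_eq (k := k) (a := a) (c := ι - ι') (d := ι) haι
    obtain ⟨w1, hw1⟩ := exists_of_trace (a := a) (P := P)
      (F := LinearMap.mulRight k ι ∘ₗ LinearMap.mulLeft k (ι - ι'))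
      (y := LinearMap.mulRight k ι ∘ₗ LinearMap.mulLeft k y) hF1 (conj_mul_eq haι) (by
        intro x
        simp only [LinearMap.comp_apply, LinearMap.mulLeft_apply, LinearMap.mulRight_apply]
        rw [hy', Finset.sum_mul, Finset.sum_mul]
        exact Finset.sum_congr rfl fun u _ => by simp only [mul_assoc]) hw
    -- the right part
    let Y : MonoidAlgebra k H →ₗ[k] MonoidAlgebra k H :=
      ∑ v : P, LinearMap.mulRight k (y * MonoidAlgebra.single (v : H)⁻¹ 1) ∘ₗ rst k T0 ∘ₗ
        LinearMap.mulRight k (MonoidAlgebra.single (v : H) 1)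
    have hYx : ∀ x, Y x = ∑ v : P, rst k T0 (x * MonoidAlgebra.single (v : H) 1) *
        (y * MonoidAlgebra.single (v : H)⁻¹ 1) := by
      intro x
      simp only [Y, LinearMap.sum_apply, LinearMap.comp_apply, LinearMap.mulRight_apply]
    have hYu : ∀ (x : MonoidAlgebra k H) (u : P), Y (x * MonoidAlgebra.single (u : H) 1) =
        Y x * MonoidAlgebra.single (u : H) 1 := by
      intro x u
      rw [hYx, hYx, Finset.sum_mul]
      refine Fintype.sum_equiv (Equiv.mulLeft u) _ _ ?_
      intro v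
      rw [Equiv.coe_mulLeft, mul_assoc x, MonoidAlgebra.single_mul_single, one_mul, mul_assoc,
        mul_assoc y, MonoidAlgebra.single_mul_single, one_mul, Subgroup.coe_mul, mul_inv_rev,
        inv_mul_cancel_right]
    have hYa : ∀ x, Y (x * a) = Y x * a := by
      intro x
      refine SuppIn.induction (P := fun a => Y (x * a) = Y x * a) ha ?_ ?_ ?_
      · simp
      · intro b c hb hc
        rw [mul_add, map_add, hb, hc, mul_add]
      · intro u hu c
        rw [mul_smul_comm, map_smul, mul_smul_comm]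
        congr 1
        exact hYu x ⟨u, hu⟩
    have hY : ∀ x, ∑ u : P, MonoidAlgebra.single (u : H) (1 : k) *
        Y (MonoidAlgebra.single (u : H)⁻¹ 1 * x) = x * (ι - ι') := by
      intro x
      have e1 : ∀ u : P, MonoidAlgebra.single (u : H) (1 : k) *
          Y (MonoidAlgebra.single (u : H)⁻¹ 1 * x) =
          ∑ v : P, (MonoidAlgebra.single (u : H) (1 : k) *
            rst k T0 (MonoidAlgebra.single (u : H)⁻¹ 1 *
              (x * MonoidAlgebra.single (v : H) 1))) *
            (y * MonoidAlgebra.single (v : H)⁻¹ 1) := by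
        intro u
        rw [hYx, Finset.mul_sum]
        exact Finset.sum_congr rfl fun v _ => by simp only [mul_assoc]
      rw [Finset.sum_congr rfl fun u _ => e1 u, Finset.sum_comm]
      rw [hy', Finset.mul_sum]
      refine Finset.sum_congr rfl fun v _ => ?_
      rw [← Finset.sum_mul, sum_T0 hT0]
      simp only [mul_assoc]
    have hF2 : ∀ x, (LinearMap.mulLeft k ι' ∘ₗ LinearMap.mulRight k (ι - ι')) (x * a) =
        (LinearMap.mulLeft k ι' ∘ₗ LinearMap.mulRight k (ι - ι')) x * a := by
      intro x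
      simp only [LinearMap.comp_apply, LinearMap.mulLeft_apply, LinearMap.mulRight_apply]
      rw [mul_assoc x, mul_sub, haι, haι', ← sub_mul, ← mul_assoc x, ← mul_assoc ι']
    obtain ⟨w2, hw2⟩ := exists_of_trace (a := a) (P := P)
      (F := LinearMap.mulLeft k ι' ∘ₗ LinearMap.mulRight k (ι - ι'))
      (y := LinearMap.mulLeft k ι' ∘ₗ Y) hF2 (fun x => by
        simp only [LinearMap.comp_apply, LinearMap.mulLeft_apply]
        rw [hYa, mul_assoc]) (by
        intro x
        simp only [LinearMap.comp_apply, LinearMap.mulLeft_apply, LinearMap.mulRight_apply]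
        rw [← hY, Finset.mul_sum]
        refine Finset.sum_congr rfl fun u _ => ?_
        have e2 : MonoidAlgebra.single (u : H) (1 : k) * ι' =
            ι' * MonoidAlgebra.single (u : H) 1 :=
          commute_of_mem (single_mem_SubAlg u.2 1) hι'P
        rw [← mul_assoc, ← mul_assoc, e2]) hw
    refine ⟨w1 + w2, ?_⟩
    rw [map_add]
    change _ = lm a (sgP k P) w1 + lm a (sgP k P) w2
    rw [← hw1, ← hw2]
    obtain ⟨x, rfl⟩ := (RJ a).mkQ_surjective w
    change EE a ι ι haι ((RJ a).mkQ x) - EE a ι' ι' haι' ((RJ a).mkQ x) = _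
    rw [EE_mk, EE_mk, desc_mk, desc_mk, ← map_add, ← map_sub]
    congr 1
    simp only [LinearMap.comp_apply, LinearMap.mulLeft_apply, LinearMap.mulRight_apply]
    simp only [sub_mul, mul_sub, mul_assoc]
    abel
  have hcomm : ∀ c d : MonoidAlgebra k H, ∀ (had : a * d = d * a),
      c ∈ Fix (cj k H) P → ∀ w, EE a c d had (σ w) = σ (EE a c d had w) := by
    intro c d had hc w
    obtain ⟨x, rfl⟩ := (RJ a).mkQ_surjective w
    change EE a c d had (lm a (sgP k P) ((RJ a).mkQ x)) =
      lm a (sgP k P) (EE a c d had ((RJ a).mkQ x))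
    rw [lm_mk, EE_mk, EE_mk, lm_mk]
    congr 1
    have e3 : sgP k P * c = c * sgP k P := commute_of_mem hsg hc
    rw [← mul_assoc c, ← e3]
    simp only [mul_assoc]
  have hEE : ∀ w, E (E w) = E w := by
    intro w
    obtain ⟨x, rfl⟩ := (RJ a).mkQ_surjective w
    change EE a ι ι haι (EE a ι ι haι ((RJ a).mkQ x)) = EE a ι ι haι ((RJ a).mkQ x)
    rw [EE_mk, EE_mk]
    congr 1
    calc ι * (ι * x * ι) * ι = (ι * ι) * x * (ι * ι) := by simp only [mul_assoc]
      _ = ι * x * ι := by rw [hιι]
  have hmain := tau_core E E' Q σ (invW P a) hEE (hcomm ι ι haι hι) (hcomm ι' ι' haι' hι'P) h1 h2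
  refine hmain.trans (Nat.add_le_add_left ?_ _)
  have hle : LinearMap.range (E' ∘ₗ Q) ≤
      (NN (SubAlg k N) ι' ι').map (RJ a).mkQ := by
    rintro _ ⟨w, rfl⟩
    obtain ⟨x, rfl⟩ := (RJ a).mkQ_surjective w
    refine ⟨ι' * rst k (N : Set H) x * ι', ?_, rfl⟩
    have hι'N : ι' ∈ SubAlg k N := SubAlg_mono hCN (br_mem Z ι)
    exact mul_mul_mem_NN hι'ι' hι'ι' hι'N hι'N (rst_mem_SubAlg N x)
  exact (Submodule.finrank_mono hle).trans (Submodule.finrank_map_le _ _)

end Main

end Vale.Agent.P180.R2.H799
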