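import Vale.Agent.P180.R2.H799.Jb
import Vale.Agent.P180.R2.H799.Full
import Vale.Agent.P180.R2.H799.Tau

/-!
P180: local idempotents of `(kG)^Q` and their images under the Brauer maps.
-/

set_option linter.all false

namespace Vale.Agent.P180.R2.H799

open Vale.Agent.P180 Vale.Agent.P180.H768.Gd Vale.Agent.P180.R2.H365

/-- `i S i` is a local ring: each element is nilpotent or invertible. -/
def Loc {k A : Type*} [Field k] [Ring A] [Algebra k A] (S : Subalgebra k A) (i : A) : Prop :=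
  ∀ x ∈ S, i * x = x → x * i = x →
    IsNilpotent x ∨ ∃ y ∈ S, i * y = y ∧ y * i = y ∧ x * y = i ∧ y * x = i

section Fitting

variable {k A : Type*} [Field k] [Ring A] [Algebra k A] [FiniteDimensional k A]

/-- Fitting's lemma. -/
theorem loc_of_prim {S : Subalgebra k A} {i : A} (hi : i ∈ S) (hii : i * i = i)
    (hprim : ∀ c ∈ S, c * c = c → i * c = c → c * i = c → c = 0 ∨ c = i) : Loc S i := by
  intro x hx h1 h2
  have : FiniteDimensional k (Algebra.adjoin k {x}) := inferInstance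
  obtain ⟨n, hn, z, hz, hxz⟩ := exists_pow_mul_eq (Algebra.adjoin k {x})
    (Algebra.subset_adjoin (Set.mem_singleton x))
  have hzS : z ∈ S := (Algebra.adjoin_le (Set.singleton_subset_iff.mpr hx)) hz
  have hcomm : ∀ u ∈ Algebra.adjoin k {x}, ∀ v ∈ Algebra.adjoin k {x}, u * v = v * u := by
    intro u hu v hv
    have := (Algebra.adjoinCommRingOfComm k (s := {x}) (by
      rintro a ha b hb
      rw [Set.mem_singleton_iff.mp ha, Set.mem_singleton_iff.mp hb])).mul_comm ⟨u, hu⟩ ⟨v, hv⟩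
    exact congrArg Subtype.val this
  have hxx : x ∈ Algebra.adjoin k {x} := Algebra.subset_adjoin (Set.mem_singleton x)
  have hxn : x ^ n ∈ Algebra.adjoin k {x} := Subalgebra.pow_mem _ hxx n
  obtain ⟨m, rfl⟩ : ∃ m, n = m + 1 := ⟨n - 1, by omega⟩
  have hin : ∀ m, i * x ^ (m + 1) = x ^ (m + 1) := fun m => by
    rw [pow_succ', ← mul_assoc, h1]
  have hni : ∀ m, x ^ (m + 1) * i = x ^ (m + 1) := fun m => by
    rw [pow_succ, mul_assoc, h2]
  set c := x ^ (m + 1) * z with hc
  have hcS : c ∈ S := Subalgebra.mul_mem _ (Subalgebra.pow_mem _ hx _) hzS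
  have hcc : c * c = c := by
    calc c * c = x ^ (m + 1) * (z * x ^ (m + 1)) * z := by rw [hc]; simp only [mul_assoc]
      _ = (x ^ (m + 1) * x ^ (m + 1) * z) * z := by
          rw [hcomm z hz _ hxn]; simp only [mul_assoc]
      _ = c := by rw [← hxz]
  have hic : i * c = c := by rw [hc, ← mul_assoc, hin]
  have hci : c * i = c := by
    have e1 : c = z * x ^ (m + 1) := by rw [hc, hcomm _ hxn z hz]
    rw [e1, mul_assoc, hni]
  rcases hprim c hcS hcc hic hci with h | h
  · left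
    refine ⟨m + 1, ?_⟩
    rw [hxz, mul_assoc, ← hc, h, mul_zero]
  · right
    refine ⟨i * (x ^ m * z) * i, ?_, ?_, ?_, ?_, ?_⟩
    · exact Subalgebra.mul_mem _ (Subalgebra.mul_mem _ hi
        (Subalgebra.mul_mem _ (Subalgebra.pow_mem _ hx _) hzS)) hi
    · rw [← mul_assoc, ← mul_assoc, hii]
    · rw [mul_assoc, hii]
    · rw [← mul_assoc, ← mul_assoc, h2, ← mul_assoc, ← pow_succ', ← hc, h, hii]
    · have hxm : x ^ m ∈ Algebra.adjoin k {x} := Subalgebra.pow_mem _ hxx m
      have e2 : x ^ m * z * x = c := by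
        rw [hc, mul_assoc, hcomm z hz x hxx, ← mul_assoc, ← pow_succ]
      rw [mul_assoc, h1, mul_assoc i, e2, h, hii]

end Fitting

section Br

variable {k : Type*} [Field k] {G : Type*} [Group G] [Finite G]

omit [Finite G] in
theorem br_cj_norm {Z : Subgroup G} {u : G} (hu : u ∈ Subgroup.normalizer (Z : Set G))
    (x : MonoidAlgebra k G) : br Z (cj k G u x) = cj k G u (br Z x) := by
  classical
  apply MonoidAlgebra.coeff_injective
  ext h
  rw [cj_coeff, br_coeff, br_coeff, cj_coeff]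
  have h1 : u⁻¹ * h * u ∈ Subgroup.centralizer (Z : Set G) ↔
      h ∈ Subgroup.centralizer (Z : Set G) := by
    rw [mem_cent, mem_cent]
    constructor
    · intro h2 z hz
      have hz' : u⁻¹ * z * u ∈ Z := by
        have := (Subgroup.mem_normalizer_iff.mp ((Subgroup.normalizer _).inv_mem hu) z).mp hz
        rwa [inv_inv] at this
      have h3 := h2 _ hz'
      have h4 : z * h * z⁻¹ = u * ((u⁻¹ * z * u) * (u⁻¹ * h * u) * (u⁻¹ * z * u)⁻¹) * u⁻¹ := by
        group
      rw [h4, h3]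
      group
    · intro h2 z hz
      have hz' : u * z * u⁻¹ ∈ Z := (Subgroup.mem_normalizer_iff.mp hu z).mp hz
      have h3 := h2 _ hz'
      have h4 : z * (u⁻¹ * h * u) * z⁻¹ =
          u⁻¹ * ((u * z * u⁻¹) * h * (u * z * u⁻¹)⁻¹) * u := by
        group
      rw [h4, h3]
  by_cases h2 : h ∈ Subgroup.centralizer (Z : Set G)
  · rw [if_pos h2, if_pos (h1.mpr h2)]
  · rw [if_neg h2, if_neg (fun h' => h2 (h1.mp h'))]

omit [Finite G] in
theorem br_br {R Q : Subgroup G} (hRQ : R ≤ Q) (x : MonoidAlgebra k G) :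
    br Q (br R x) = br Q x := by
  classical
  apply MonoidAlgebra.coeff_injective
  ext h
  rw [br_coeff, br_coeff, br_coeff]
  by_cases hh : h ∈ Subgroup.centralizer (Q : Set G)
  · rw [if_pos hh, if_pos hh, if_pos]
    exact Subgroup.centralizer_le (fun x hx => hRQ hx) hh
  · rw [if_neg hh, if_neg hh]

theorem br_linear_sum {ι : Type*} (Q : Subgroup G) (s : Finset ι)
    (f : ι → MonoidAlgebra k G) : br Q (∑ i ∈ s, f i) = ∑ i ∈ s, br Q (f i) := by
  classical
  apply MonoidAlgebra.coeff_injective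
  ext h
  rw [br_coeff, MonoidAlgebra.coeff_sum, MonoidAlgebra.coeff_sum, Finsupp.finsetSum_apply,
    Finsupp.finsetSum_apply]
  by_cases hh : h ∈ Subgroup.centralizer (Q : Set G)
  · rw [if_pos hh]
    exact Finset.sum_congr rfl fun i _ => by rw [br_coeff, if_pos hh]
  · rw [if_neg hh]
    symm
    exact Finset.sum_eq_zero fun i _ => by rw [br_coeff, if_neg hh]

/-- The Brauer map commutes with relative traces of subgroups of the normaliser. -/
theorem br_tr_of_le {R S C : Subgroup G} (hC : C ≤ Subgroup.normalizer (R : Set G))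
    (x : MonoidAlgebra k G) : br R (tr (cj k G) S C x) = tr (cj k G) S C (br R x) := by
  have _ := Fintype.ofFinite (C ⧸ S.subgroupOf C)
  rw [tr_def, tr_def, br_linear_sum]
  exact Finset.sum_congr rfl fun q _ => br_cj_norm (hC (q.out : C).2) x

variable {p : ℕ} [Fact p.Prime] [CharP k p]

/-- Relative traces from proper subgroups are killed by the Brauer map. -/
theorem br_tr_eq_zero {R Q : Subgroup G} (hQ : IsPGroup p Q) (hRQ : R ≤ Q) (hne : R ≠ Q)
    {x : MonoidAlgebra k G} : br Q (tr (cj k G) R Q x) = 0 := by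
  classical
  have _ := Fintype.ofFinite (Q ⧸ R.subgroupOf Q)
  apply MonoidAlgebra.coeff_injective
  ext c
  rw [br_coeff]
  split_ifs with hc
  swap
  · rfl
  rw [tr_def, MonoidAlgebra.coeff_sum, Finsupp.finsetSum_apply]
  have h1 : ∀ q : Q ⧸ R.subgroupOf Q, (cj k G ((q.out : Q) : G) x).coeff c = x.coeff c := by
    intro q
    rw [cj_coeff]
    have h2 := mem_cent.mp hc _ (Q.inv_mem (q.out : Q).2)
    rw [inv_inv] at h2
    rw [h2]
  rw [Finset.sum_congr rfl fun q _ => h1 q, Finset.sum_const, Finset.card_univ, nsmul_eq_mul]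
  have h3 : ((Fintype.card (Q ⧸ R.subgroupOf Q) : ℕ) : k) = 0 := by
    rw [CharP.cast_eq_zero_iff k p]
    have h4 : Fintype.card (Q ⧸ R.subgroupOf Q) = (R.subgroupOf Q).index := by
      rw [Subgroup.index, Nat.card_eq_fintype_card]
    rw [h4]
    obtain ⟨n, hn⟩ := hQ.index (R.subgroupOf Q)
    rw [hn]
    rcases n with _ | n
    · exfalso
      apply hne
      rw [pow_zero, Subgroup.index_eq_one, Subgroup.subgroupOf_eq_top] at hn
      exact le_antisymm hRQ hn
    · exact dvd_pow_self p (Nat.succ_ne_zero n)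
  rw [h3, zero_mul]
  rfl

end Br

section Chain

variable {k : Type*} [Field k] {p : ℕ} [Fact p.Prime] [CharP k p] {G : Type*} [Group G] [Finite G]

omit [Finite G] in
theorem le_norm_of_comm {R Q : Subgroup G} (hQc : ∀ x ∈ Q, ∀ y ∈ Q, x * y = y * x) (hRQ : R ≤ Q) :
    Q ≤ Subgroup.normalizer (R : Set G) := by
  intro x hx
  rw [Subgroup.mem_normalizer_iff]
  intro y
  constructor
  · intro hy
    rw [hQc x hx y (hRQ hy), mul_inv_cancel_right]
    exact hy
  · intro hy
    have h1 := hQc x⁻¹ (Q.inv_mem hx) _ (hRQ hy)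
    have h2 : y = x * y * x⁻¹ := by
      have e : x⁻¹ * (x * y * x⁻¹) = y * x⁻¹ := by group
      rw [e] at h1
      have h3 := congrArg (fun z => z * x) h1
      simpa [mul_assoc] using h3
    rw [h2]; exact hy

omit [Finite G] in
theorem le_cent_of_comm {R Q : Subgroup G} (hQc : ∀ x ∈ Q, ∀ y ∈ Q, x * y = y * x) (hRQ : R ≤ Q) :
    Q ≤ Subgroup.centralizer (R : Set G) := by
  intro x hx
  rw [Subgroup.mem_centralizer_iff]
  intro y hy
  exact hQc y (hRQ hy) x hx

/-- (c1) -/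
theorem loc_br {R Q : Subgroup G} (hQ : IsPGroup p Q) (hQc : ∀ x ∈ Q, ∀ y ∈ Q, x * y = y * x)
    (hRQ : R ≤ Q) {i : MonoidAlgebra k G} (hiF : i ∈ Fix (cj k G) Q) (hii : i * i = i)
    (hloc : Loc (Fix (cj k G) Q) i) :
    Loc (Fix (cj k G) Q ⊓ SubAlg k (Subgroup.centralizer (R : Set G))) (br R i) := by
  have hRp : IsPGroup p R := hQ.to_le hRQ
  have hRF : Fix (cj k G) Q ≤ Fix (cj k G) R := Fix_mono _ hRQ
  have hmem : ∀ x ∈ Fix (cj k G) Q,
      br R x ∈ Fix (cj k G) Q ⊓ SubAlg k (Subgroup.centralizer (R : Set G)) := fun x hx =>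
    ⟨br_fix_of_le (le_norm_of_comm hQc hRQ) hx, br_mem R x⟩
  rintro x ⟨hx1, hx2⟩ h1 h2
  have hxx : br R x = x := br_self hx2
  have hx' : i * x * i ∈ Fix (cj k G) Q := Subalgebra.mul_mem _ (Subalgebra.mul_mem _ hiF hx1) hiF
  have hbrx : br R (i * x * i) = x := by
    rw [br_mul hRp (hRF (Subalgebra.mul_mem _ hiF hx1)) (hRF hiF), br_mul hRp (hRF hiF) (hRF hx1),
      hxx, h1, h2]
  rcases hloc (i * x * i) hx' (by rw [← mul_assoc, ← mul_assoc, hii]) (by rw [mul_assoc, hii]) with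
    h | ⟨y, hy, hiy, hyi, hxy, hyx⟩
  · left
    obtain ⟨n, hn⟩ := h
    refine ⟨n, ?_⟩
    rw [← hbrx, ← br_pow hRp (hRF hx'), hn]
    exact br_self (Subalgebra.zero_mem _)
  · right
    refine ⟨br R y, hmem y hy, ?_, ?_, ?_, ?_⟩
    · rw [← br_mul hRp (hRF hiF) (hRF hy), hiy]
    · rw [← br_mul hRp (hRF hy) (hRF hiF), hyi]
    · conv_lhs => rw [← hbrx]
      rw [← br_mul hRp (hRF hx') (hRF hy), hxy]
    · conv_lhs => rw [← hbrx]
      rw [← br_mul hRp (hRF hy) (hRF hx'), hyx]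

/-- (c2) -/
theorem tr_nilp {R Q : Subgroup G} (hQ : IsPGroup p Q) (hQc : ∀ x ∈ Q, ∀ y ∈ Q, x * y = y * x)
    (hRQ : R ≤ Q) (hne : R ≠ Q) {i : MonoidAlgebra k G} (hiF : i ∈ Fix (cj k G) Q)
    (hiC : i ∈ SubAlg k (Subgroup.centralizer (R : Set G))) (hii : i * i = i)
    (hloc : Loc (Fix (cj k G) Q ⊓ SubAlg k (Subgroup.centralizer (R : Set G))) i)
    (hbr : br Q i ≠ 0) {y : MonoidAlgebra k G}
    (hy : y ∈ SubAlg k (Subgroup.centralizer (R : Set G))) :
    IsNilpotent (tr (cj k G) R Q (i * y * i)) := by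
  have hiyF : i * y * i ∈ Fix (cj k G) R := Subalgebra.mul_mem _ (Subalgebra.mul_mem _
    (Fix_mono _ hRQ hiF) (fix_of_cent hy)) (Fix_mono _ hRQ hiF)
  have hTF : tr (cj k G) R Q (i * y * i) ∈ Fix (cj k G) Q := tr_mem_Fix hiyF
  have hTC : tr (cj k G) R Q (i * y * i) ∈ SubAlg k (Subgroup.centralizer (R : Set G)) :=
    tr_mem_SubAlg (le_cent_of_comm hQc hRQ)
      (Subalgebra.mul_mem _ (Subalgebra.mul_mem _ hiC hy) hiC)
  rcases hloc _ ⟨hTF, hTC⟩ (by rw [mul_tr hiF, ← mul_assoc, ← mul_assoc, hii])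
    (by rw [tr_mul hiF, mul_assoc, hii]) with h | ⟨z, hz, -, -, hTz, -⟩
  · exact h
  · exfalso
    apply hbr
    rw [← hTz, tr_mul hz.1]
    exact br_tr_eq_zero hQ hRQ hne

/-- If `e = tr_P^N z` and the `p`-subgroup `Q` of `N` centralises an element of the support of `e`
then a conjugate of `Q` lies in `P`. -/
theorem conj_le_of_coeff {N P Q : Subgroup G} (hPN : P ≤ N) (hQN : Q ≤ N) (hQ : IsPGroup p Q)
    {e z : MonoidAlgebra k G} (hzF : z ∈ Fix (cj k G) P) (hez : e = tr (cj k G) P N z)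
    {c : G} (hc : ∀ h ∈ Q, h * c * h⁻¹ = c) (hec : e.coeff c ≠ 0) :
    ∃ x ∈ N, ∀ v ∈ Q, x⁻¹ * v * x ∈ P := by
  classical
  have _ := Fintype.ofFinite (N ⧸ P.subgroupOf N)
  let α : Q →* Equiv.Perm (N ⧸ P.subgroupOf N) :=
    (MulAction.toPermHom N (N ⧸ P.subgroupOf N)).comp (Subgroup.inclusion hQN)
  have hα : ∀ (v : Q) (x : N), α v (x : N ⧸ P.subgroupOf N) =
      ((⟨v, hQN v.2⟩ * x : N) : N ⧸ P.subgroupOf N) := fun _ _ => rfl
  have hout : ∀ x : N, cj k G ((((x : N ⧸ P.subgroupOf N).out : N)) : G) z = cj k G (x : G) z := by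
    intro x
    have h1 : (x : N)⁻¹ * (x : N ⧸ P.subgroupOf N).out ∈ P.subgroupOf N := by
      rw [← QuotientGroup.eq, QuotientGroup.out_eq']
    have h2 := hzF _ (Subgroup.mem_subgroupOf.mp h1)
    rw [Subgroup.coe_mul, Subgroup.coe_inv, map_mul_act] at h2
    calc cj k G (((x : N ⧸ P.subgroupOf N).out : N) : G) z
        = cj k G (x : G) (cj k G (x : G)⁻¹ (cj k G (((x : N ⧸ P.subgroupOf N).out : N) : G) z)) := by
          rw [map_act_inv]
      _ = cj k G (x : G) z := by rw [h2]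
  let φ : N ⧸ P.subgroupOf N → k := fun q => (cj k G ((q.out : N) : G) z).coeff c
  have hφ : ∀ (v : Q) q, φ (α v q) = φ q := by
    intro v q
    obtain ⟨x, rfl⟩ := QuotientGroup.mk_surjective q
    change (cj k G _ z).coeff c = (cj k G _ z).coeff c
    rw [hα, hout, hout, cj_coeff, cj_coeff]
    congr 1
    have h1 := hc (v : G)⁻¹ (Q.inv_mem v.2)
    rw [inv_inv] at h1
    change ((v : G) * (x : G))⁻¹ * c * ((v : G) * (x : G)) = _
    calc ((v : G) * (x : G))⁻¹ * c * ((v : G) * (x : G))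
        = (x : G)⁻¹ * ((v : G)⁻¹ * c * (v : G)) * (x : G) := by group
      _ = (x : G)⁻¹ * c * (x : G) := by rw [h1]
  have hsum : e.coeff c = ∑ q, φ q := by
    rw [hez, tr_def, MonoidAlgebra.coeff_sum, Finsupp.finsetSum_apply]
  rw [sum_fixed hQ α φ hφ (fun q => ∀ v, α v q = q) (fun _ => Iff.rfl)] at hsum
  obtain ⟨q, -, hq⟩ := Finset.exists_ne_zero_of_sum_ne_zero (by rw [← hsum]; exact hec)
  have hfix : ∀ v : Q, α v q = q := by
    by_contra h
    exact hq (if_neg h)
  obtain ⟨x, rfl⟩ := QuotientGroup.mk_surjective q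
  refine ⟨x, x.2, fun v hv => ?_⟩
  have h1 := hfix ⟨v, hv⟩
  rw [hα, eq_comm, QuotientGroup.eq, Subgroup.mem_subgroupOf] at h1
  have h2 : ((x⁻¹ * (⟨v, hQN hv⟩ * x) : N) : G) = (x : G)⁻¹ * v * (x : G) := by
    rw [Subgroup.coe_mul, Subgroup.coe_mul, Subgroup.coe_inv, mul_assoc]
  rwa [h2] at h1

/-- The generation lemma in a subgroup `C`. -/
theorem gen_sub {C Q : Subgroup G} (hQC : Q ≤ C) (hQ : IsPGroup p Q) {e a i : MonoidAlgebra k G}
    (he : IsBlockOf C e) (haC : a ∈ SubAlg k C) (ha : a ∈ Fix (cj k G) Q)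
    (hea : e = tr (cj k G) Q C a) (hiC : i ∈ SubAlg k C) (hi : i ∈ Fix (cj k G) Q)
    (hii : i * i = i) (hne : br Q (i * e) ≠ 0) :
    ∃ w ∈ SubAlg k C, w ∈ Fix (cj k G) Q ∧ w * e = w ∧ e = tr (cj k G) Q C (i * w) := by
  obtain ⟨a', rfl⟩ := exists_incl C haC
  obtain ⟨i', rfl⟩ := exists_incl C hiC
  obtain ⟨e', rfl⟩ := exists_incl C he.mem.1
  set Q' : Subgroup C := Q.subgroupOf C with hQ'
  have hmap : Q'.map C.subtype = Q := by
    rw [hQ', Subgroup.subgroupOf_map_subtype, inf_eq_left.mpr hQC]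
  have hQ'p : IsPGroup p Q' := hQ.comap_of_injective C.subtype C.subtype_injective
  have ha'F : a' ∈ Fix (cj k C) Q' := by rw [← incl_mem_Fix_iff, hmap]; exact ha
  have hi'F : i' ∈ Fix (cj k C) Q' := by rw [← incl_mem_Fix_iff, hmap]; exact hi
  have he' : IsBlockOf (⊤ : Subgroup C) e' := by
    unfold IsBlockOf
    rw [ZAlg_top]
    exact (isBlockOf_incl_iff C e').mp he
  have he'a : e' = tr (cj k C) Q' ⊤ a' := by
    apply incl_injective (k := k) C
    rw [incl_tr C Q' ha'F, hmap]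
    exact hea
  have hbr' : br Q' (i' * e') ≠ 0 := by
    intro h0
    apply hne
    apply MonoidAlgebra.coeff_injective
    ext y
    rw [br_coeff]
    split_ifs with hy
    · rw [← map_mul]
      by_cases hyC : y ∈ C
      · have h2 : (incl k C (i' * e')).coeff y = (i' * e').coeff ⟨y, hyC⟩ :=
          incl_coeff C (i' * e') ⟨y, hyC⟩
        rw [h2]
        have h3 : (br Q' (i' * e')).coeff ⟨y, hyC⟩ = (i' * e').coeff ⟨y, hyC⟩ := by
          rw [br_coeff, if_pos]
          rw [mem_cent]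
          intro d hd
          apply Subtype.ext
          exact mem_cent.mp hy d hd
        rw [← h3, h0]
        rfl
      · by_contra hne
        exact hyC (incl_mem C (i' * e') y hne)
    · rfl
  obtain ⟨w, hw, hwe, hew⟩ := gen he' hQ'p ha'F he'a hi'F
    (by apply incl_injective (k := k) C; rw [map_mul]; exact hii) hbr'
  refine ⟨incl k C w, incl_mem C w, ?_, ?_, ?_⟩
  · rw [← hmap]; exact (incl_mem_Fix_iff C Q' w).mpr hw
  · rw [← map_mul, hwe]
  · conv_lhs => rw [hew]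
    rw [incl_tr C Q' (Subalgebra.mul_mem _ hi'F hw), hmap, map_mul]

/-- (c3), (c4): the block of `C_G(R)` above `br_R(i)`. -/
theorem exists_block {R Q : Subgroup G} (hQ : IsPGroup p Q)
    (hQc : ∀ x ∈ Q, ∀ y ∈ Q, x * y = y * x)
    (hRQ : R ≤ Q) {i e a : MonoidAlgebra k G} (hiF : i ∈ Fix (cj k G) Q) (hii : i * i = i)
    (hloc : Loc (Fix (cj k G) Q) i) (hbr : br Q i ≠ 0)
    (hee : e * e = e) (hei : e * i = i) (ha : a ∈ Fix (cj k G) Q)
    (hea : e = tr (cj k G) Q ⊤ a) :
    ∃ f : MonoidAlgebra k G, IsBlockOf (Subgroup.centralizer (R : Set G)) f ∧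
      f * br R i = br R i ∧
      ∃ w ∈ SubAlg k (Subgroup.centralizer (R : Set G)), w ∈ Fix (cj k G) Q ∧ w * f = w ∧
        f = tr (cj k G) Q (Subgroup.centralizer (R : Set G)) (br R i * w) := by
  classical
  set C := Subgroup.centralizer (R : Set G) with hC
  have hRp : IsPGroup p R := hQ.to_le hRQ
  have hRF : Fix (cj k G) Q ≤ Fix (cj k G) R := Fix_mono _ hRQ
  have hQC : Q ≤ C := le_cent_of_comm hQc hRQ
  have hCN : C ≤ Subgroup.normalizer (R : Set G) := by
    intro c hc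
    rw [Subgroup.mem_normalizer_iff]
    rw [hC, mem_cent] at hc
    have key : ∀ z ∈ R, c * z * c⁻¹ = z := by
      intro z hz
      have h1 := hc z hz
      have h2 : z * c = c * z := mul_inv_eq_iff_eq_mul.mp h1
      rw [← h2, mul_inv_cancel_right]
    intro z
    constructor
    · intro hz
      rw [key z hz]; exact hz
    · intro hz
      have h1 := key _ hz
      have h2 : z = c * z * c⁻¹ := by
        have h3 : c * (c * z * c⁻¹) * c⁻¹ = c * z * c⁻¹ := h1
        have h4 := mul_left_cancel (mul_right_cancel h3)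
        exact h4.symm
      rw [h2]; exact hz
  set j := br R i with hj
  have hjC : j ∈ SubAlg k C := br_mem R i
  have hjF : j ∈ Fix (cj k G) Q := br_fix_of_le (le_norm_of_comm hQc hRQ) hiF
  have hjj : j * j = j := by rw [hj, ← br_mul hRp (hRF hiF) (hRF hiF), hii]
  have hbrj : br Q j = br Q i := br_br hRQ i
  have hj0 : j ≠ 0 := by
    intro h0
    apply hbr
    rw [← hbrj, h0]
    exact br_self (Subalgebra.zero_mem _)
  have hlocj : Loc (Fix (cj k G) Q ⊓ SubAlg k C) j := loc_br hQ hQc hRQ hiF hii hloc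
  -- the block
  obtain ⟨f, hf, hjf⟩ : ∃ f : MonoidAlgebra k G, IsBlockOf C f ∧ j * f ≠ 0 := by
    have : FiniteDimensional k (MonoidAlgebra k G) :=
      Module.Finite.equiv (MonoidAlgebra.coeffLinearEquiv k (M := G) (S := k)).symm
    exact exists_isPrimIn (ZAlg k C) (by exact ZAlg_comm) hj0
  have hfc : ∀ x ∈ SubAlg k C, x * f = f * x := fun x hx => commute_of_mem hx hf.mem.2
  have hfj : f * j = j := by
    have h1 : j * f = f * j := hfc j hjC
    have hx : j * f ∈ Fix (cj k G) Q ⊓ SubAlg k C :=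
      ⟨Subalgebra.mul_mem _ hjF (Fix_mono _ hQC hf.mem.2), Subalgebra.mul_mem _ hjC hf.mem.1⟩
    have hidem : (j * f) * (j * f) = j * f := by
      calc j * f * (j * f) = j * (f * j) * f := by simp only [mul_assoc]
        _ = (j * j) * (f * f) := by rw [← h1]; simp only [mul_assoc]
        _ = j * f := by rw [hjj, hf.idem.eq]
    rcases hlocj (j * f) hx (by rw [← mul_assoc, hjj]) (by
        rw [h1, mul_assoc, hjj]) with h | ⟨y, -, hjy, -, hxy, -⟩
    · exfalso
      obtain ⟨n, hn⟩ := h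
      rcases n with _ | n
      · rw [pow_zero] at hn
        exact hjf (by rw [← one_mul (j * f), hn, zero_mul])
      · have h2 : IsIdempotentElem (j * f) := hidem
        rw [h2.pow_succ_eq] at hn
        exact hjf hn
    · rw [← h1]
      calc j * f = (j * f) * j := by
            rw [h1, mul_assoc, hjj]
        _ = (j * f) * ((j * f) * y) := by rw [hxy]
        _ = (j * f) * y := by rw [← mul_assoc, hidem]
        _ = j := hxy
  have hfCF : ∀ S : Subgroup G, S ≤ C → f ∈ Fix (cj k G) S := fun S hS => Fix_mono _ hS hf.mem.2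
  -- `f` is a trace
  have hbre : br R e * j = j := by
    have heF : e ∈ Fix (cj k G) R := by
      rw [hea]; exact Fix_mono _ le_top (tr_mem_Fix ha)
    rw [hj, ← br_mul hRp heF (hRF hiF), hei]
  obtain ⟨m, x, hx⟩ := mackey C ha
  have hyF : ∀ l, cj k G (x l) a ∈ Fix (cj k G) (C ⊓ conjS (x l) Q) := fun l =>
    conj_mem_Fix ha (x l) fun h hh => mem_conjS.mp hh.2
  have hbrsum : br R e = ∑ l, tr (cj k G) (C ⊓ conjS (x l) Q) C (br R (cj k G (x l) a)) := by
    rw [hea, hx, br_linear_sum]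
    exact Finset.sum_congr rfl fun l _ => br_tr_of_le hCN _
  have hyF' : ∀ l, br R (cj k G (x l) a) ∈ Fix (cj k G) (C ⊓ conjS (x l) Q) := fun l =>
    br_fix_of_le (inf_le_left.trans hCN) (hyF l)
  have hbreZ : br R e ∈ ZAlg k C := by
    refine mem_ZAlg.mpr ⟨br_mem R e, ?_⟩
    rw [hbrsum]
    exact Subalgebra.sum_mem _ fun l _ => tr_mem_Fix (hyF' l)
  have hfbre : br R e * f = f := by
    have heF : e ∈ Fix (cj k G) R := by
      rw [hea]; exact Fix_mono _ le_top (tr_mem_Fix ha)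
    have hbb : br R e * br R e = br R e := by rw [← br_mul hRp heF heF, hee]
    rcases hf.primitive (br R e * f) ((ZAlg k C).mul_mem hbreZ hf.mem) (by
      change br R e * f * (br R e * f) = br R e * f
      calc br R e * f * (br R e * f) = br R e * (f * br R e) * f := by simp only [mul_assoc]
        _ = (br R e * br R e) * (f * f) := by
            rw [← hfc _ hbreZ.1]; simp only [mul_assoc]
        _ = _ := by rw [hbb, hf.idem.eq]) (by rw [mul_assoc, hf.idem.eq]) with h | h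
    · exfalso
      apply hj0
      rw [← hbre, ← hfj, ← mul_assoc, h, zero_mul]
    · exact h
  have hfsum : ∑ l ∈ (Finset.univ : Finset (Fin m)),
      tr (cj k G) (C ⊓ conjS (x l) Q) C (f * br R (cj k G (x l) a)) = f := by
    have h1 : f * br R e = f := by rw [← hfc _ hbreZ.1, hfbre]
    conv_rhs => rw [← h1, hbrsum, Finset.mul_sum]
    exact Finset.sum_congr rfl fun l _ => (mul_tr hf.mem.2 _).symm
  have : FiniteDimensional k (MonoidAlgebra k G) :=
    Module.Finite.equiv (MonoidAlgebra.coeffLinearEquiv k (M := G) (S := k)).symm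
  have hfyF : ∀ l, f * br R (cj k G (x l) a) ∈ Fix (cj k G) (C ⊓ conjS (x l) Q) := fun l =>
    Subalgebra.mul_mem _ (hfCF _ inf_le_left) (hyF' l)
  have hfyC : ∀ l, f * br R (cj k G (x l) a) ∈ SubAlg k C := fun l =>
    Subalgebra.mul_mem _ hf.mem.1 (br_mem R _)
  obtain ⟨l, -, y, hy, hyf, hly⟩ := hf.exists_unit_of_sum (by exact ZAlg_comm) Finset.univ
    (fun l => tr (cj k G) (C ⊓ conjS (x l) Q) C (f * br R (cj k G (x l) a)))
    (fun l _ => mem_ZAlg.mpr ⟨tr_mem_SubAlg le_rfl (hfyC l), tr_mem_Fix (hfyF l)⟩)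
    (fun l _ => by
      rw [tr_mul hf.mem.2, mul_assoc, hfc _ (br_mem R _), ← mul_assoc, hf.idem.eq]) hfsum
  set S := C ⊓ conjS (x l) Q with hS
  set z := f * br R (cj k G (x l) a) * y with hz
  have hzF : z ∈ Fix (cj k G) S := Subalgebra.mul_mem _ (hfyF l) (Fix_mono _ inf_le_left hy.2)
  have hzC : z ∈ SubAlg k C := Subalgebra.mul_mem _ (hfyC l) hy.1
  have hfz : f = tr (cj k G) S C z := by
    rw [hz, ← tr_mul hy.2]
    exact hly.symm
  -- an element of the support of `f` centralised by `Q`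
  have hbrf : br Q f ≠ 0 := by
    intro h0
    apply hbr
    rw [← hbrj, ← hfj, br_mul hQ (hfCF Q hQC) hjF, h0, zero_mul]
  obtain ⟨c, hc, hfcc⟩ : ∃ c, (∀ h ∈ Q, h * c * h⁻¹ = c) ∧ f.coeff c ≠ 0 := by
    by_contra hcon
    push Not at hcon
    apply hbrf
    apply MonoidAlgebra.coeff_injective
    ext c
    rw [br_coeff]
    split_ifs with h
    · exact hcon c (mem_cent.mp h)
    · rfl
  obtain ⟨t, htC, ht⟩ := conj_le_of_coeff (inf_le_left : S ≤ C) hQC hQ hzF hfz hc hfcc
  -- `Q = t S t⁻¹`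
  have hQS : Q = conjS t S := by
    have h1 : Q ≤ conjS t S := fun v hv => mem_conjS.mpr (ht v hv)
    refine Subgroup.eq_of_le_of_card_ge h1 ?_
    have h2 : Nat.card (conjS t S) = Nat.card S := Nat.card_congr
      (S.equivMapOfInjective _ (MulAut.conj t).injective).toEquiv.symm
    have h3 : Nat.card (conjS (x l) Q) = Nat.card Q := Nat.card_congr
      (Q.equivMapOfInjective _ (MulAut.conj (x l)).injective).toEquiv.symm
    rw [h2, ← h3]
    exact Nat.card_le_card_of_injective _ (Subgroup.inclusion_injective inf_le_right)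
  have hCt : conjS t C = C := by
    ext u
    rw [mem_conjS]
    constructor
    · intro h
      have h1 := C.mul_mem (C.mul_mem htC h) (C.inv_mem htC)
      have e1 : t * (t⁻¹ * u * t) * t⁻¹ = u := by group
      rwa [e1] at h1
    · intro h
      exact C.mul_mem (C.mul_mem (C.inv_mem htC) h) htC
  have hfQ : f = tr (cj k G) Q C (cj k G t z) := by
    have h1 := cj_tr (k := k) t (K := C) hzF
    rw [← hfz, hf.mem.2 t htC, hCt, ← hQS] at h1
    exact h1
  have hczF : cj k G t z ∈ Fix (cj k G) Q := by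
    rw [hQS]
    exact conj_mem_Fix hzF t fun h hh => mem_conjS.mp hh
  have hczC : cj k G t z ∈ SubAlg k C := by
    intro h hh
    rw [cj_coeff] at hh
    have h1 := C.mul_mem (C.mul_mem htC (hzC _ hh)) (C.inv_mem htC)
    have e1 : t * (t⁻¹ * h * t) * t⁻¹ = h := by group
    rwa [e1] at h1
  refine ⟨f, hf, hfj, ?_⟩
  obtain ⟨w, hwC, hwF, hwf, hfw⟩ := gen_sub hQC hQ hf hczC hczF hfQ hjC hjF hjj (by
    rw [hfc j hjC, hfj, hbrj]; exact hbr)
  exact ⟨w, hwC, hwF, hwf, hfw⟩

omit [Fact p.Prime] [CharP k p] [Finite G] in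
/-- Conjugation by an element normalising `N` permutes the blocks of `N`. -/
theorem isBlockOf_conj {N : Subgroup G} {t : G} (ht : ∀ n, n ∈ N ↔ t * n * t⁻¹ ∈ N)
    {e : MonoidAlgebra k G} (he : IsBlockOf N e) : IsBlockOf N (cj k G t e) := by
  have hmem : ∀ (s : G), (∀ n, n ∈ N ↔ s * n * s⁻¹ ∈ N) → ∀ a ∈ ZAlg k N,
      cj k G s a ∈ ZAlg k N := by
    intro s hs a ha
    refine mem_ZAlg.mpr ⟨?_, ?_⟩
    · intro h hh
      rw [cj_coeff] at hh
      have h1 := (hs _).mp (ha.1 _ hh)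
      have e1 : s * (s⁻¹ * h * s) * s⁻¹ = h := by group
      rwa [e1] at h1
    · refine conj_mem_Fix ha.2 s fun h hh => ?_
      rw [hs]
      have e1 : s * (s⁻¹ * h * s) * s⁻¹ = h := by group
      rwa [e1]
  have hti : ∀ n, n ∈ N ↔ t⁻¹ * n * (t⁻¹)⁻¹ ∈ N := by
    intro n
    rw [ht (t⁻¹ * n * (t⁻¹)⁻¹)]
    have e1 : t * (t⁻¹ * n * (t⁻¹)⁻¹) * t⁻¹ = n := by group
    rw [e1]
  refine ⟨hmem t ht e he.mem, ?_, ?_, ?_⟩
  · change cj k G t e * cj k G t e = cj k G t e
    rw [← map_mul, he.idem.eq]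
  · intro h
    exact he.ne_zero ((map_eq_zero_iff _ (cj k G t).injective).mp h)
  · intro c hc hcc hce
    have h1 : cj k G t⁻¹ c * e = cj k G t⁻¹ c := by
      conv_lhs => rw [← map_inv_act (cj k G) t e]
      rw [← map_mul, hce]
    have h2 : IsIdempotentElem (cj k G t⁻¹ c) := by
      change cj k G t⁻¹ c * cj k G t⁻¹ c = _
      rw [← map_mul, hcc.eq]
    rcases he.primitive _ (hmem t⁻¹ hti c hc) h2 h1 with h | h
    · left
      exact (map_eq_zero_iff _ (cj k G t⁻¹).injective).mp h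
    · right
      rw [← h, map_act_inv]

omit [Fact p.Prime] [CharP k p] [Finite G] in
/-- (c5) -/
theorem block_dich {N : Subgroup G} {t : G} (ht : ∀ n, n ∈ N ↔ t * n * t⁻¹ ∈ N)
    {e : MonoidAlgebra k G} (he : IsBlockOf N e) : cj k G t e = e ∨ e * cj k G t e = 0 := by
  rcases IsPrimIn.eq_or_mul_eq_zero (by exact ZAlg_comm) he (isBlockOf_conj ht he) with h | h
  · exact Or.inl h.symm
  · exact Or.inr h

end Chain

end Vale.Agent.P180.R2.H799
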