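import Vale.Agent.P180.R2.H799.Nilp5
import Vale.Agent.P180.H768.Defect

/-!
P180: the radical of the centre of a block, and the defect of blocks of `G` lying in `kN`.
-/

set_option linter.all false

namespace Vale.Agent.P180.R2.H799

open Vale.Agent.P180 Vale.Agent.P180.H768.Gd

universe u

section Jb

variable {k : Type*} [Field k] {G : Type u} [Group G] [Finite G]

theorem fix_top_comm {x : MonoidAlgebra k G} (hx : x ∈ Fix (cj k G) ⊤) (y : MonoidAlgebra k G) :
    Commute x y := (commute_of_mem (SubAlg_top y) hx).symm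

/-- The nilpotent central elements under `b`. -/
def Jb (b : MonoidAlgebra k G) : Submodule k (MonoidAlgebra k G) where
  carrier := {x | x ∈ Fix (cj k G) ⊤ ∧ x * b = x ∧ IsNilpotent x}
  zero_mem' := ⟨Subalgebra.zero_mem _, zero_mul _, IsNilpotent.zero⟩
  add_mem' := by
    rintro x y ⟨h1, h2, h3⟩ ⟨h4, h5, h6⟩
    exact ⟨Subalgebra.add_mem _ h1 h4, by rw [add_mul, h2, h5],
      (fix_top_comm h1 y).isNilpotent_add h3 h6⟩
  smul_mem' := by
    rintro c x ⟨h1, h2, h3⟩
    exact ⟨Subalgebra.smul_mem _ h1 c, by rw [smul_mul_assoc, h2], h3.smul c⟩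

theorem mem_Jb {b x : MonoidAlgebra k G} :
    x ∈ Jb b ↔ x ∈ Fix (cj k G) ⊤ ∧ x * b = x ∧ IsNilpotent x := Iff.rfl

theorem exists_scalar_Jb [IsAlgClosed k] {b : MonoidAlgebra k G}
    (hb : IsBlockOf (⊤ : Subgroup G) b) :
    ∀ z ∈ Fix (cj k G) ⊤, ∃ c : k, b * z - c • b ∈ Jb b := by
  intro z hz
  have hbF : b ∈ Fix (cj k G) ⊤ := hb.mem.2
  have : FiniteDimensional k (MonoidAlgebra k G) :=
    Module.Finite.equiv (MonoidAlgebra.coeffLinearEquiv k (M := G) (S := k)).symm
  obtain ⟨c, hc⟩ := KP.isPrimIn_exists_scalar (S := ZAlg k (⊤ : Subgroup G)) (by exact ZAlg_comm) hb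
    (a := z) ⟨SubAlg_top _, hz⟩
  have hbz : z * b = b * z := (fix_top_comm hz b).eq
  refine ⟨c, ?_, ?_, ?_⟩
  · exact Subalgebra.sub_mem _ (Subalgebra.mul_mem _ hbF hz) (Subalgebra.smul_mem _ hbF c)
  · rw [sub_mul, smul_mul_assoc, hb.idem.eq, mul_assoc, hbz, ← mul_assoc, hb.idem.eq]
  · rw [← hbz]; exact hc

variable {p : ℕ} [Fact p.Prime] [CharP k p]

theorem Jb_pow {D : Subgroup G} (hD : IsPGroup p D)
    {b a : MonoidAlgebra k G} (hbb : b * b = b) (hbz : b ∈ Fix (cj k G) ⊤)
    (ha : a ∈ Fix (cj k G) D) (hba : b = tr (cj k G) D ⊤ a) :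
    Jb b ^ (2 * Nat.card D) = ⊥ := by
  set g := 2 * Nat.card D with hg
  have hg0 : 0 < g := by
    have : 0 < Nat.card D := Nat.card_pos
    omega
  have key : ∀ L : List (MonoidAlgebra k G), (∀ z ∈ L, z ∈ Jb b) → g ≤ L.length →
      L.prod = 0 := by
    intro L hL hlen
    have h1 : L.prod * b = 0 := nilp_center hD hbb (mem_ZAlg.mpr ⟨SubAlg_top _, hbz⟩) ha hba L
      (fun z hz => ⟨mem_ZAlg.mpr ⟨SubAlg_top _, (hL z hz).1⟩, by
        rw [(hL z hz).2.1]; exact (hL z hz).2.2⟩) hlen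
    have h2 : ∀ L : List (MonoidAlgebra k G), (∀ z ∈ L, z ∈ Jb b) → 0 < L.length →
        L.prod * b = L.prod := by
      intro L
      induction L with
      | nil => intro _ h; exact absurd h (lt_irrefl 0)
      | cons x L ih =>
        intro hL _
        rw [List.prod_cons]
        have hx := hL x (List.mem_cons_self ..)
        rw [mul_assoc, ← (fix_top_comm hbz L.prod).eq, ← mul_assoc, hx.2.1]
    rw [← h2 L hL (lt_of_lt_of_le hg0 hlen), h1]
  have main : ∀ m ≤ g, ∀ x ∈ Jb b ^ m, ∀ L : List (MonoidAlgebra k G),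
      (∀ z ∈ L, z ∈ Jb b) → L.length = g - m → L.prod * x = 0 := by
    intro m
    induction m with
    | zero =>
      intro _ x hx L hL hlen
      rw [key L hL (by omega), zero_mul]
    | succ m ih =>
      intro hm x hx L hL hlen
      rw [pow_succ'] at hx
      refine Submodule.mul_induction_on hx ?_ ?_
      · intro y hy w hw
        rw [← mul_assoc]
        have h3 : L.prod * y = (L ++ [y]).prod := by simp
        rw [h3]
        refine ih (by omega) w hw (L ++ [y]) ?_ ?_
        · intro z hz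
          rcases List.mem_append.mp hz with h | h
          · exact hL z h
          · rw [List.mem_singleton.mp h]; exact hy
        · rw [List.length_append, List.length_singleton]; omega
      · intro x y hx hy
        rw [mul_add, hx, hy, add_zero]
  rw [eq_bot_iff]
  intro x hx
  have := main g le_rfl x hx [] (by simp) (by simp)
  simpa using this

end Jb

section Defect

variable {k : Type*} [Field k] {p : ℕ} [Fact p.Prime] [CharP k p] {G : Type} [Group G] [Finite G]

/-- If `e = tr_P^N z` and the `p`-subgroup `Q` of `N` centralises an element of the support of `e`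
then `|Q| ≤ |P|`. -/
theorem card_le_of_coeff {N P Q : Subgroup G} (hPN : P ≤ N) (hQN : Q ≤ N) (hQ : IsPGroup p Q)
    {e z : MonoidAlgebra k G} (hzF : z ∈ Fix (cj k G) P) (hez : e = tr (cj k G) P N z)
    {c : G} (hc : ∀ h ∈ Q, h * c * h⁻¹ = c) (hec : e.coeff c ≠ 0) :
    Nat.card Q ≤ Nat.card P := by
  classical
  have _ := Fintype.ofFinite (N ⧸ P.subgroupOf N)
  let α : Q →* Equiv.Perm (N ⧸ P.subgroupOf N) :=
    (MulAction.toPermHom N (N ⧸ P.subgroupOf N)).comp (Subgroup.inclusion hQN)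
  have hα : ∀ (v : Q) (x : N), α v (x : N ⧸ P.subgroupOf N) =
      ((⟨v, hQN v.2⟩ * x : N) : N ⧸ P.subgroupOf N) := fun _ _ => rfl
  have hout : ∀ x : N, cj k G ((((x : N ⧸ P.subgroupOf N).out : N)) : G) z = cj k G (x : G) z := by
    intro x
    have h1 : (x : N)⁻¹ * (x : N ⧸ P.subgroupOf N).out ∈ P.subgroupOf N := by
      rw [← QuotientGroup.eq, QuotientGroup.out_eq']
    have h2 := hzF _ (Subgroup.mem_subgroupOf.mp h1)
    rw [Subgroup.coe_mul, Subgroup.coe_inv, map_mul_act] at h2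
    calc cj k G (((x : N ⧸ P.subgroupOf N).out : N) : G) z
        = cj k G (x : G) (cj k G (x : G)⁻¹ (cj k G (((x : N ⧸ P.subgroupOf N).out : N) : G) z)) := by
          rw [map_act_inv]
      _ = cj k G (x : G) z := by rw [h2]
  let φ : N ⧸ P.subgroupOf N → k := fun q => (cj k G ((q.out : N) : G) z).coeff c
  have hφ : ∀ (v : Q) q, φ (α v q) = φ q := by
    intro v q
    obtain ⟨x, rfl⟩ := QuotientGroup.mk_surjective q
    change (cj k G _ z).coeff c = (cj k G _ z).coeff c
    rw [hα, hout, hout, cj_coeff, cj_coeff]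
    congr 1
    have h1 := hc (v : G)⁻¹ (Q.inv_mem v.2)
    rw [inv_inv] at h1
    change ((v : G) * (x : G))⁻¹ * c * ((v : G) * (x : G)) = _
    calc ((v : G) * (x : G))⁻¹ * c * ((v : G) * (x : G))
        = (x : G)⁻¹ * ((v : G)⁻¹ * c * (v : G)) * (x : G) := by group
      _ = (x : G)⁻¹ * c * (x : G) := by rw [h1]
  have hsum : e.coeff c = ∑ q, φ q := by
    rw [hez, tr_def, MonoidAlgebra.coeff_sum, Finsupp.finsetSum_apply]
  rw [sum_fixed hQ α φ hφ (fun q => ∀ v, α v q = q) (fun _ => Iff.rfl)] at hsum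
  obtain ⟨q, -, hq⟩ := Finset.exists_ne_zero_of_sum_ne_zero (by rw [← hsum]; exact hec)
  have hfix : ∀ v : Q, α v q = q := by
    by_contra h
    exact hq (if_neg h)
  obtain ⟨x, rfl⟩ := QuotientGroup.mk_surjective q
  have hmem : ∀ v : Q, (x : G)⁻¹ * (v : G) * (x : G) ∈ P := by
    intro v
    have h1 := hfix v
    rw [hα, eq_comm, QuotientGroup.eq, Subgroup.mem_subgroupOf] at h1
    have h2 : ((x⁻¹ * (⟨v, hQN v.2⟩ * x) : N) : G) = (x : G)⁻¹ * (v : G) * (x : G) := by
      rw [Subgroup.coe_mul, Subgroup.coe_mul, Subgroup.coe_inv, mul_assoc]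
    rwa [h2] at h1
  refine Nat.card_le_card_of_injective (fun v : Q => (⟨_, hmem v⟩ : P)) ?_
  intro v w hvw
  have h1 : (x : G)⁻¹ * (v : G) * (x : G) = (x : G)⁻¹ * (w : G) * (x : G) :=
    congrArg Subtype.val hvw
  exact Subtype.ext (mul_left_cancel (mul_right_cancel h1))

/-- A block of `G` which is a relative trace from `P` in the normal subgroup `N` is a relative
trace in `G` from a `p`-subgroup of order at most `|G : N| |P|`. -/
theorem exists_defect_le {N : Subgroup G} [N.Normal] {P : Subgroup G} (hP : IsPGroup p P)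
    (hPN : P ≤ N) {e z : MonoidAlgebra k G} (he : IsBlockOf (⊤ : Subgroup G) e)
    (hz : z ∈ SubAlg k N) (hzF : z ∈ Fix (cj k G) P) (hez : e = tr (cj k G) P N z) :
    ∃ P' : Subgroup G, IsPGroup p P' ∧ Nat.card P' ≤ N.index * Nat.card P ∧
      ∃ a ∈ Fix (cj k G) P', e = tr (cj k G) P' ⊤ a := by
  obtain ⟨S⟩ : Nonempty (Sylow p G) := inferInstance
  have hS : ¬ p ∣ (S : Subgroup G).relIndex ⊤ := by
    rw [Subgroup.relIndex_top_right]
    exact S.not_dvd_index
  have h0 := eq_tr_of_not_dvd (k := k) p hS he.mem.2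
  obtain ⟨P', hP'S, a', ha', hea', c, hc, hec⟩ := exists_min_defect (p := p) he
    (Subalgebra.smul_mem _ (Fix_mono _ le_top he.mem.2) _) h0
  have hP'p : IsPGroup p P' := S.isPGroup'.to_le hP'S
  refine ⟨P', hP'p, ?_, a', ha', hea'⟩
  have hQ : Nat.card (P' ⊓ N : Subgroup G) ≤ Nat.card P :=
    card_le_of_coeff hPN inf_le_right (hP'p.to_le inf_le_left) hzF hez
      (fun h hh => hc h hh.1) hec
  have h1 : Nat.card (P' ⊓ N : Subgroup G) * N.relIndex P' = Nat.card P' := by
    have h2 := Subgroup.relIndex_mul_relIndex (⊥ : Subgroup G) (P' ⊓ N) P' bot_le inf_le_left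
    rwa [Subgroup.relIndex_bot_left, Subgroup.relIndex_bot_left, Subgroup.inf_relIndex_left] at h2
  have h3 : N.relIndex P' ≤ N.index :=
    Nat.le_of_dvd (Nat.pos_of_ne_zero Subgroup.index_ne_zero_of_finite)
      (Subgroup.relIndex_dvd_index_of_normal N P')
  calc Nat.card P' = Nat.card (P' ⊓ N : Subgroup G) * N.relIndex P' := h1.symm
    _ ≤ Nat.card P * N.index := Nat.mul_le_mul hQ h3
    _ = N.index * Nat.card P := mul_comm _ _

end Defect

end Vale.Agent.P180.R2.H799
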