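import Vale.Agent.P180.R2.H799.BNL5
import Vale.Agent.P180.R2.H365.LocC
import Vale.Agent.P180.R2.H954.CycFin

/-!
P180: the corner property of the components which are central quotients of special linear groups.
-/

set_option linter.all false

namespace Vale.Agent.P180.R2.H799.BN

open Module Vale.Agent.P180 Vale.Agent.P180.H768.Gd Vale.Agent.P180.R2.H47
open Vale.Agent.P180.R2.H954 Vale.Agent.P180.R2.H365
open Vale.Agent.P180.R2.H854 Vale.Agent.P180.R2.H799

open scoped Nat

universe u

section

variable {k : Type u} [Field k] {p : ℕ} [Fact p.Prime] [CharP k p] {G : Type} [Group G] [Finite G]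

/-- The corner property from the corner bound, if `N_D(L)` acts by inner automorphisms. -/
theorem corP_of_bd {D L : Subgroup G} (hD : IsPGroup p D)
    (hin : D ⊓ Subgroup.normalizer (L : Set G) ≤ L ⊔ Subgroup.centralizer (L : Set G)) {C : ℕ}
    (hB : ∀ Q : Subgroup L, Q ≤ D.subgroupOf L → CornerBd k Q C) (b : MonoidAlgebra k G) :
    CorP p C b D L := by
  rintro R hRD hn e he heR hbr ⟨z, hz, hzF, hez⟩ -
  have hR : IsPGroup p R := hD.to_le hRD
  have hin' : ∀ r ∈ R, ∃ s ∈ L, ∃ c ∈ Subgroup.centralizer (L : Set G), r = s * c := by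
    intro r hr
    have h1 : r ∈ L ⊔ Subgroup.centralizer (L : Set G) := by
      refine hin (Subgroup.mem_inf.mpr ⟨hRD hr, ?_⟩)
      rw [Subgroup.mem_normalizer_iff]
      intro s
      constructor
      · exact hn r hr s
      · intro hs
        have := hn r⁻¹ (R.inv_mem hr) _ hs
        simpa [mul_assoc] using this
    obtain ⟨s, hs, c, hc, h⟩ := mem_sup_of_commute
      (fun s hs c hc => Subgroup.mem_centralizer_iff.mp hc s hs) h1
    exact ⟨s, hs, c, hc, h.symm⟩
  exact cor_of_corner hR hin' he.block hbr hz hzF hez (hB _ fun x hx => hRD hx)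

theorem card_subgroupOf_le {D L : Subgroup G} {n : ℕ} (hDn : Nat.card D ≤ n) {Q : Subgroup L}
    (hQ : Q ≤ D.subgroupOf L) : Nat.card Q ≤ n := by
  refine le_trans ?_ hDn
  refine (Nat.card_le_card_of_injective
    (fun x : Q => (⟨((x : L) : G), hQ x.2⟩ : D)) ?_)
  intro x y hxy
  have h' : ((x : L) : G) = ((y : L) : G) := congrArg (fun w : D => (w : G)) hxy
  exact Subtype.ext (Subtype.ext h')

end

/-- `L` is a central quotient of the special linear group of a space of dimension prime to `p`
over a finite field `K` with `p ∣ |K| - 1`, and the dimension is less than `p` or `D ∩ L` is abelian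
of exponent dividing `|K| - 1`. -/
def SplitSL (p : ℕ) {G : Type} [Group G] (D L : Subgroup G) : Prop :=
  ∃ (K : Type) (_ : Field K) (_ : Finite K) (d : ℕ)
    (π : SpecialLinearGroup K (Fin d → K) →* L), Function.Surjective π ∧
      π.ker ≤ Subgroup.center _ ∧ p ∣ Nat.card K - 1 ∧ ¬ p ∣ d ∧
      (d < p ∨ ((∀ x ∈ D, x ∈ L → ∀ y ∈ D, y ∈ L → x * y = y * x) ∧
        ∀ x ∈ D, x ∈ L → x ^ (Nat.card K - 1) = 1))

/-- the bound -/
def bnB (n : ℕ) : ℕ := n ! * (n * n)

/-- **The corner property** of special linear groups. -/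
theorem corP_sl {k : Type u} [Field k] [IsAlgClosed k] {p n : ℕ} [Fact p.Prime] [CharP k p]
    {G : Type} [Group G] [Finite G] {D L : Subgroup G} (hD : IsPGroup p D)
    (hDn : Nat.card D ≤ n) (h : SplitSL p D L)
    (hin : D ⊓ Subgroup.normalizer (L : Set G) ≤ L ⊔ Subgroup.centralizer (L : Set G))
    (b : MonoidAlgebra k G) : CorP p (bnB n) b D L := by
  obtain ⟨K, _, _, d, π, hπ, hk, hp1, hn, hdiag⟩ := h
  refine corP_of_bd hD hin (fun Q hQ => ?_) b
  have hQn := card_subgroupOf_le hDn hQ
  have hQp : IsPGroup p Q := (hD.comap_of_injective L.subtype L.subtype_injective).to_le hQ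
  have hfd : finrank K (Fin d → K) = d := by rw [Module.finrank_fin_fun]
  have h1 : CornerBd k Q ((Nat.card Q)! * (Nat.card Q * Nat.card Q)) := by
    refine cornerBd_sl (K := K) (E := Fin d → K) hp1 (by rw [hfd]; exact hn) π hπ hk hQp ?_
    rw [hfd]
    rcases hdiag with h | ⟨h1, h2⟩
    · exact Or.inl h
    · refine Or.inr ⟨fun x hx y hy => Subtype.ext (h1 x (hQ hx) x.2 y (hQ hy) y.2), fun x hx =>
        Subtype.ext (h2 x (hQ hx) x.2)⟩
  intro e a i he ha hea hi hei hbr
  exact (h1 e a i he ha hea hi hei hbr).trans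
    (Nat.mul_le_mul (Nat.factorial_le hQn) (Nat.mul_le_mul hQn hQn))

end Vale.Agent.P180.R2.H799.BN
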