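import Vale.Agent.P180.R2.H259.Par.Def

/-!
P180: groups with a split parabolic system and an action of a `p`-group (definitions).
-/

namespace Vale.Agent.P180

open Vale.Agent.P180.R2.H799

/-- The group `Q` is abelian, and if `Q` contains the elements of `p`-power order of the centre of
`C(Q)`, then `C(Q) = M × Q` and `N(V) = V ⋊ C(Q)` for a subgroup `M` and a `V` in the parabolic
system `𝒮` whose images in `L` are stable under `Γ`. -/
def ParStab {p : ℕ} {S L : Type} [Group S] [Group L] (𝒮 : ParSys p S) (π : S →* L)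
    (Γ : Subgroup (MulAut L)) (Q : Subgroup S) : Prop :=
  (∀ x ∈ Q, ∀ y ∈ Q, x * y = y * x) ∧
  ((∀ x ∈ Subgroup.centralizer (Q : Set S), (∃ i, x ^ p ^ i = 1) →
      (∀ y ∈ Subgroup.centralizer (Q : Set S), x * y = y * x) → x ∈ Q) →
    ∃ V ∈ 𝒮.car, ∃ M : Subgroup S, IsLeviPair V Q ∧ M ⊓ Q = ⊥ ∧
      M ⊔ Q = Subgroup.centralizer (Q : Set S) ∧
      ∀ α ∈ Γ, (∀ x ∈ V.map π, α x ∈ V.map π) ∧ ∀ x ∈ M.map π, α x ∈ M.map π)

/-- The group `Γ` of automorphisms of `L` has cyclic image in the group of outer automorphisms, and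
`L` is the image of a finite group `S` with a split parabolic system `𝒮` as in `ParPair` such that
for each subgroup `Γ'` of `Γ` the elements of `p`-power order of `S` which act on `L` as elements of
`Γ'` form a subgroup as in `ParStab` if they form a subgroup.

(Example, not used: `S` a simply connected group of Lie type over a field of order `q`, `𝒮` the
unipotent radicals of its parabolic subgroups, `p` a divisor of `q - 1` which does not divide the
order of the Weyl group, `Γ` any `p`-group of automorphisms, for example one which contains field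
automorphisms.) -/
def ParOut (p : ℕ) (L : Type) [Group L] (Γ : Subgroup (MulAut L)) : Prop :=
  (∃ c : MulAut L, ∀ α ∈ Γ, ∃ (i : ℤ) (y : L), α = c ^ i * MulAut.conj y) ∧
  ∃ (S : Type) (_ : Group S) (_ : Finite S) (𝒮 : ParSys p S) (π : S →* L),
    Function.Surjective π ∧ 𝒮.HasLevi ∧ ¬ p ∣ Nat.card (Subgroup.center S) ∧
    (∀ V ∈ 𝒮.car, (Nat.card V).Coprime (Nat.card (Subgroup.center S))) ∧
    (∀ x, π x ∈ Subgroup.center L → x ∈ Subgroup.center S) ∧
    ∀ Γ' ≤ Γ, ∀ Q : Subgroup S,
      (∀ x, x ∈ Q ↔ (∃ i, x ^ p ^ i = 1) ∧ MulAut.conj (π x) ∈ Γ') → ParStab 𝒮 π Γ' Q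

end Vale.Agent.P180
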