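import Vale.Agent.P180.R2.H799.Prod

/-!
P180: the dimension of `j kN j` for `j ∈ kC`, `C` normal in `N`, and the dimension of `j kK j`
modulo a central subgroup.
-/

set_option linter.all false

namespace Vale.Agent.P180.R2.H799

open Vale.Agent.P180

section N

variable {k : Type*} [Field k] {G : Type*} [Group G]

theorem cj_mem_of_conj {C : Subgroup G} {t : G} (ht : ∀ c ∈ C, t * c * t⁻¹ ∈ C)
    {x : MonoidAlgebra k G} (hx : x ∈ SubAlg k C) : cj k G t x ∈ SubAlg k C := by
  intro h hh
  rw [cj_coeff] at hh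
  have h1 := ht _ (hx _ hh)
  have e : t * (t⁻¹ * h * t) * t⁻¹ = h := by group
  rwa [e] at h1

variable [Finite G]

theorem corner_N {N C : Subgroup G} (hCN : C ≤ N) (hn : ∀ t ∈ N, ∀ c ∈ C, t * c * t⁻¹ ∈ C)
    {e j : MonoidAlgebra k G} (he : e * e = e) (heC : e ∈ ZAlg k C) (hj : j * j = j)
    (hjC : j ∈ SubAlg k C) (hej : e * j = j)
    (hfull : e ∈ Submodule.span k {z | ∃ x ∈ SubAlg k C, ∃ y ∈ SubAlg k C, z = x * j * y})
    (hdich : ∀ t ∈ N, cj k G t e = e ∨ e * cj k G t e = 0) :
    Module.finrank k (NN (SubAlg k N) j j) ≤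
      C.relIndex N * (Module.finrank k (NN (SubAlg k C) j j) *
        Module.finrank k (NN (SubAlg k C) j j)) := by
  classical
  have hfin : FiniteDimensional k (MonoidAlgebra k G) :=
    Module.Finite.equiv (MonoidAlgebra.coeffLinearEquiv k (M := G) (S := k)).symm
  have hec : ∀ x ∈ SubAlg k C, e * x = x * e := fun x hx =>
    (commute_of_mem hx (mem_ZAlg.mp heC).2).symm
  have hje : j * e = j := by rw [← hec j hjC, hej]
  have hcjC : ∀ t ∈ N, cj k G t j ∈ SubAlg k C := fun t ht => cj_mem_of_conj (hn t ht) hjC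
  have hcjj : ∀ t : G, cj k G t j * cj k G t j = cj k G t j := fun t => by rw [← map_mul, hj]
  have hNi : ∀ t ∈ N, t⁻¹ ∈ N := fun t ht => N.inv_mem ht
  -- the dimension of one component
  have hone : ∀ t ∈ N, Module.finrank k (NN (SubAlg k C) j (cj k G t j)) ≤
      Module.finrank k (NN (SubAlg k C) j j) * Module.finrank k (NN (SubAlg k C) j j) := by
    intro t ht
    rcases hdich t ht with h | h
    · have h1 : ∀ z ∈ Submodule.span k {z | ∃ x ∈ SubAlg k C, ∃ y ∈ SubAlg k C, z = x * j * y},
          cj k G t j * z ∈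
            Submodule.span k {z | ∃ x ∈ SubAlg k C, ∃ y ∈ SubAlg k C, z = x * j * y} := by
        intro z hz
        induction hz using Submodule.span_induction with
        | mem z hz =>
          obtain ⟨x, hx, y, hy, rfl⟩ := hz
          exact Submodule.subset_span ⟨cj k G t j * x, Subalgebra.mul_mem _ (hcjC t ht) hx, y, hy,
            by simp only [mul_assoc]⟩
        | zero => simp
        | add u v _ _ hu hv => rw [mul_add]; exact Submodule.add_mem _ hu hv
        | smul c u _ hu => rw [mul_smul_comm]; exact Submodule.smul_mem _ c hu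
      have h2 := h1 e hfull
      have h3 : cj k G t j * e = cj k G t j := by
        conv_lhs => rw [← h]
        rw [← map_mul, hje]
      rw [h3] at h2
      refine (finrank_NN_le hj (hcjj t) hjC (hcjC t ht) h2).trans ?_
      refine Nat.mul_le_mul_left _ (le_of_eq ?_)
      symm
      have hmem : ∀ s ∈ N, ∀ (x e f : MonoidAlgebra k G), x ∈ NN (SubAlg k C) e f →
          cj k G s x ∈ NN (SubAlg k C) (cj k G s e) (cj k G s f) := by
        rintro s hs x e f ⟨h1, h2, h3⟩
        exact ⟨cj_mem_of_conj (hn s hs) h1, by rw [← map_mul, h2], by rw [← map_mul, h3]⟩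
      let Φ : NN (SubAlg k C) j j →ₗ[k] NN (SubAlg k C) (cj k G t j) (cj k G t j) :=
        { toFun := fun x => ⟨cj k G t x.1, hmem t ht x.1 j j x.2⟩
          map_add' := fun x y => Subtype.ext (map_add (cj k G t) x.1 y.1)
          map_smul' := fun c x => Subtype.ext (map_smul (cj k G t) c x.1) }
      refine LinearEquiv.finrank_eq (LinearEquiv.ofBijective Φ ⟨?_, ?_⟩)
      · intro x y hxy
        apply Subtype.ext
        exact (cj k G t).injective (congrArg Subtype.val hxy)
      · rintro ⟨x, hx⟩
        have h1 := hmem t⁻¹ (hNi t ht) x _ _ hx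
        rw [map_inv_act] at h1
        exact ⟨⟨_, h1⟩, Subtype.ext (map_act_inv _ _ _)⟩
    · have h1 : NN (SubAlg k C) j (cj k G t j) = ⊥ := by
        rw [eq_bot_iff]
        rintro x ⟨hx, hx1, hx2⟩
        rw [Submodule.mem_bot]
        have e1 : x * e = x := by
          calc x * e = (j * x) * e := by rw [hx1]
            _ = j * (x * e) := mul_assoc _ _ _
            _ = j * (e * x) := by rw [hec x hx]
            _ = x := by rw [← mul_assoc, hje, hx1]
        have e2 : x * cj k G t e = x := by
          calc x * cj k G t e = (x * cj k G t j) * cj k G t e := by rw [hx2]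
            _ = x * cj k G t (j * e) := by rw [mul_assoc, map_mul]
            _ = x := by rw [hje, hx2]
        calc x = (x * e) * cj k G t e := by rw [e1, e2]
          _ = 0 := by rw [mul_assoc, h, mul_zero]
      rw [h1, finrank_bot]
      exact Nat.zero_le _
  have _ := Fintype.ofFinite (N ⧸ C.subgroupOf N)
  have hle : NN (SubAlg k N) j j ≤
      ⨆ q : N ⧸ C.subgroupOf N, (NN (SubAlg k C) j (cj k G ((q.out : N) : G)⁻¹ j)).map
        (LinearMap.mulRight k (MonoidAlgebra.single ((q.out : N) : G)⁻¹ 1)) := by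
    intro x hx
    have hx' : x = j * x * j := by rw [hx.2.1, hx.2.2]
    rw [hx']
    have hxN := hx.1
    clear hx' hx
    refine SuppIn.induction (P := fun x => j * x * j ∈
      ⨆ q : N ⧸ C.subgroupOf N, (NN (SubAlg k C) j (cj k G ((q.out : N) : G)⁻¹ j)).map
        (LinearMap.mulRight k (MonoidAlgebra.single ((q.out : N) : G)⁻¹ 1))) hxN ?_ ?_ ?_
    · simp
    · intro x y hx hy
      rw [mul_add, add_mul]; exact Submodule.add_mem _ hx hy
    · intro g hg r
      rw [mul_smul_comm, smul_mul_assoc]
      refine Submodule.smul_mem _ _ ?_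
      set q : N ⧸ C.subgroupOf N := (((⟨g, hg⟩ : N)⁻¹ : N) : N ⧸ C.subgroupOf N) with hq
      have h1 : g * ((q.out : N) : G) ∈ C := by
        have h2 : ((⟨g, hg⟩ : N)⁻¹)⁻¹ * q.out ∈ C.subgroupOf N := by
          rw [← QuotientGroup.eq, QuotientGroup.out_eq']
        rwa [inv_inv, Subgroup.mem_subgroupOf] at h2
      refine (le_iSup (fun q : N ⧸ C.subgroupOf N =>
        (NN (SubAlg k C) j (cj k G ((q.out : N) : G)⁻¹ j)).map
        (LinearMap.mulRight k (MonoidAlgebra.single ((q.out : N) : G)⁻¹ 1))) q) ?_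
      have hqN : ((q.out : N) : G)⁻¹ ∈ N := N.inv_mem (q.out : N).2
      refine ⟨j * MonoidAlgebra.single (g * ((q.out : N) : G)) 1 * cj k G ((q.out : N) : G)⁻¹ j,
        mul_mul_mem_NN hj (hcjj _) hjC (hcjC _ hqN) (single_mem_SubAlg h1 1), ?_⟩
      have h4 : cj k G ((q.out : N) : G)⁻¹ j * MonoidAlgebra.single ((q.out : N) : G)⁻¹ 1 =
          MonoidAlgebra.single ((q.out : N) : G)⁻¹ 1 * j := by
        rw [cj_eq, mul_assoc, MonoidAlgebra.single_mul_single, inv_inv, mul_inv_cancel, one_mul,
          ← MonoidAlgebra.one_def, mul_one]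
      rw [LinearMap.mulRight_apply, mul_assoc, h4, ← mul_assoc, mul_assoc j,
        MonoidAlgebra.single_mul_single, mul_inv_cancel_right, one_mul]
  calc Module.finrank k (NN (SubAlg k N) j j)
      ≤ Module.finrank k (⨆ q : N ⧸ C.subgroupOf N,
        (NN (SubAlg k C) j (cj k G ((q.out : N) : G)⁻¹ j)).map
        (LinearMap.mulRight k (MonoidAlgebra.single ((q.out : N) : G)⁻¹ 1)) :
          Submodule k (MonoidAlgebra k G)) := Submodule.finrank_mono hle
    _ ≤ ∑ q : N ⧸ C.subgroupOf N, Module.finrank k
        ((NN (SubAlg k C) j (cj k G ((q.out : N) : G)⁻¹ j)).map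
        (LinearMap.mulRight k (MonoidAlgebra.single ((q.out : N) : G)⁻¹ 1))) := finrank_iSup_le _
    _ ≤ ∑ q : N ⧸ C.subgroupOf N, Module.finrank k (NN (SubAlg k C) j j) *
        Module.finrank k (NN (SubAlg k C) j j) := by
        refine Finset.sum_le_sum fun q _ => ?_
        exact (Submodule.finrank_map_le _ _).trans (hone _ (N.inv_mem (q.out : N).2))
    _ = C.relIndex N * (Module.finrank k (NN (SubAlg k C) j j) *
        Module.finrank k (NN (SubAlg k C) j j)) := by
        rw [Finset.sum_const, Finset.card_univ, smul_eq_mul, Subgroup.relIndex, Subgroup.index,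
          Nat.card_eq_fintype_card]

end N

section Nil

variable {k : Type*} [Field k] {V : Type*} [AddCommGroup V] [Module k V] [FiniteDimensional k V]

/-- A nilpotent operator with `T ^ n = 0`: `dim V ≤ n dim (V / T V)`. -/
theorem finrank_le_of_nilp (T : V →ₗ[k] V) {n : ℕ} (hT : T ^ n = 0) :
    Module.finrank k V ≤ n * Module.finrank k (V ⧸ LinearMap.range T) := by
  have h1 : ∀ m, Module.finrank k (LinearMap.range (T ^ m)) ≤
      Module.finrank k (LinearMap.range (T ^ (m + 1))) +
        Module.finrank k (V ⧸ LinearMap.range T) := by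
    intro m
    obtain ⟨U, hU⟩ := exists_isCompl (LinearMap.range T)
    have h2 : LinearMap.range (T ^ m) ≤ LinearMap.range (T ^ (m + 1)) ⊔ U.map (T ^ m) := by
      rintro _ ⟨v, rfl⟩
      have hv : v ∈ LinearMap.range T ⊔ U := by rw [hU.sup_eq_top]; trivial
      obtain ⟨_, ⟨w, rfl⟩, u, hu, rfl⟩ := Submodule.mem_sup.mp hv
      rw [map_add]
      refine Submodule.add_mem_sup ⟨w, ?_⟩ ⟨u, hu, rfl⟩
      rw [pow_succ]; rfl
    have h3 : Module.finrank k U = Module.finrank k (V ⧸ LinearMap.range T) :=
      (Submodule.quotientEquivOfIsCompl _ _ hU).finrank_eq.symm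
    calc Module.finrank k (LinearMap.range (T ^ m))
        ≤ Module.finrank k (LinearMap.range (T ^ (m + 1)) ⊔ U.map (T ^ m) : Submodule k V) :=
          Submodule.finrank_mono h2
      _ ≤ Module.finrank k (LinearMap.range (T ^ (m + 1))) + Module.finrank k (U.map (T ^ m)) :=
          Submodule.finrank_add_le_finrank_add_finrank _ _
      _ ≤ _ := Nat.add_le_add_left ((Submodule.finrank_map_le _ _).trans_eq h3) _
  have h2 : ∀ m, Module.finrank k V ≤ Module.finrank k (LinearMap.range (T ^ m)) +
      m * Module.finrank k (V ⧸ LinearMap.range T) := by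
    intro m
    induction m with
    | zero =>
      rw [pow_zero]
      have : LinearMap.range (1 : V →ₗ[k] V) = ⊤ := LinearMap.range_id
      rw [this, finrank_top]
      simp
    | succ m ih =>
      have := h1 m
      rw [Nat.succ_mul]
      omega
  have h3 := h2 n
  rw [hT, LinearMap.range_zero, finrank_bot, zero_add] at h3
  exact h3

end Nil

section Hom

variable {k : Type*} [Field k] {p : ℕ} [Fact p.Prime] [CharP k p]
variable {C H K : Type*} [Group C] [Group H] [Group K]

omit [Fact p.Prime] [CharP k p] in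
theorem exists_lift_ker (α : C →* H) (β : C →* K) {g : C}
    (hker : ∀ x y : C, β x = β y → ∃ i : ℕ, α x = α (g ^ i * y)) :
    ∃ F : MonoidAlgebra k K →ₗ[k] MonoidAlgebra k H, ∀ v : MonoidAlgebra k C,
      ∃ w : MonoidAlgebra k C, MonoidAlgebra.mapDomainAlgHom k k α v =
        F (MonoidAlgebra.mapDomainAlgHom k k β v) +
          (MonoidAlgebra.single (α g) 1 - 1) * MonoidAlgebra.mapDomainAlgHom k k α w := by
  classical
  let s : K → C := fun y => if h : ∃ x, β x = y then h.choose else 1
  have hs : ∀ x, β (s (β x)) = β x := by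
    intro x
    have h : ∃ x', β x' = β x := ⟨x, rfl⟩
    have e : s (β x) = h.choose := dif_pos h
    rw [e]
    exact h.choose_spec
  refine ⟨MonoidAlgebra.mapDomainLinearMap k k (fun y => α (s y)), ?_⟩
  intro v
  induction v using MonoidAlgebra.induction_linear with
  | zero => exact ⟨0, by simp⟩
  | add v v' h h' =>
    obtain ⟨w, hw⟩ := h
    obtain ⟨w', hw'⟩ := h'
    refine ⟨w + w', ?_⟩
    rw [map_add, hw, hw', map_add, map_add, map_add, mul_add]
    abel
  | single x r =>
    obtain ⟨i, hi⟩ := hker x (s (β x)) (hs x).symm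
    -- `g ^ i - 1 = (g - 1) u`
    have hgeo : ∃ u : MonoidAlgebra k C, MonoidAlgebra.single (g ^ i) (1 : k) - 1 =
        (MonoidAlgebra.single g 1 - 1) * u := by
      refine ⟨∑ j ∈ Finset.range i, MonoidAlgebra.single g (1 : k) ^ j, ?_⟩
      rw [mul_geom_sum, MonoidAlgebra.single_pow, one_pow]
    obtain ⟨u, hu⟩ := hgeo
    refine ⟨u * MonoidAlgebra.single (s (β x)) r, ?_⟩
    have h1 := congrArg (MonoidAlgebra.mapDomainAlgHom k k α) hu
    rw [map_mul, map_sub, map_sub, map_one] at h1
    have h2 : ∀ (y : C) (c : k), MonoidAlgebra.mapDomainAlgHom k k α (MonoidAlgebra.single y c) =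
        MonoidAlgebra.single (α y) c := fun y c => by simp
    have h3 : MonoidAlgebra.mapDomainAlgHom k k β (MonoidAlgebra.single x r) =
        MonoidAlgebra.single (β x) r := by simp
    rw [h2, h2] at h1
    rw [map_mul, ← mul_assoc, ← h1, h2, h2, h3]
    have h4 : (MonoidAlgebra.mapDomainLinearMap k k (fun y => α (s y)))
        (MonoidAlgebra.single (β x) r) = MonoidAlgebra.single (α (s (β x))) r :=
      MonoidAlgebra.mapDomainLinearMap_single _ _ _
    rw [h4, sub_mul, one_mul, MonoidAlgebra.single_mul_single, one_mul, ← map_mul, ← hi]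
    abel

/-- The dimension of the corners modulo a central element of order `p`. -/
theorem finrank_two_hom [Finite C] [Finite H] [Finite K] (α : C →* H) (β : C →* K) {g : C}
    (hg : ∀ x, g * x = x * g)
    (hker : ∀ x y : C, β x = β y → ∃ i : ℕ, α x = α (g ^ i * y)) (hgp : α (g ^ p) = 1)
    {j : MonoidAlgebra k C} (hj : j * j = j) :
    Module.finrank k (NN (SubAlg k α.range) (MonoidAlgebra.mapDomainAlgHom k k α j)
        (MonoidAlgebra.mapDomainAlgHom k k α j)) ≤
      p * Module.finrank k (NN (SubAlg k β.range) (MonoidAlgebra.mapDomainAlgHom k k β j)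
        (MonoidAlgebra.mapDomainAlgHom k k β j)) := by
  classical
  have : FiniteDimensional k (MonoidAlgebra k C) :=
    Module.Finite.equiv (MonoidAlgebra.coeffLinearEquiv k (M := C) (S := k)).symm
  have : FiniteDimensional k (MonoidAlgebra k H) :=
    Module.Finite.equiv (MonoidAlgebra.coeffLinearEquiv k (M := H) (S := k)).symm
  have : FiniteDimensional k (MonoidAlgebra k K) :=
    Module.Finite.equiv (MonoidAlgebra.coeffLinearEquiv k (M := K) (S := k)).symm
  set A := MonoidAlgebra.mapDomainAlgHom k k α with hA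
  set B := MonoidAlgebra.mapDomainAlgHom k k β with hB
  set V0 := NN (⊤ : Subalgebra k (MonoidAlgebra k C)) j j with hV0
  set VA := NN (SubAlg k α.range) (A j) (A j) with hVA
  set VB := NN (SubAlg k β.range) (B j) (B j) with hVB
  have hmemA : ∀ v ∈ V0, A v ∈ VA := fun v hv =>
    ⟨mapDomain_mem_range α v, by rw [← map_mul, hv.2.1], by rw [← map_mul, hv.2.2]⟩
  have hmemB : ∀ v ∈ V0, B v ∈ VB := fun v hv =>
    ⟨mapDomain_mem_range β v, by rw [← map_mul, hv.2.1], by rw [← map_mul, hv.2.2]⟩
  let fA : V0 →ₗ[k] VA := (A.toLinearMap.restrict hmemA)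
  let fB : V0 →ₗ[k] VB := (B.toLinearMap.restrict hmemB)
  have hfA : Function.Surjective fA := by
    rintro ⟨x, hx⟩
    obtain ⟨y, hy⟩ := exists_mapDomain α hx.1
    have hy' : A y = x := hy
    refine ⟨⟨j * y * j, Algebra.mem_top, by rw [← mul_assoc, ← mul_assoc, hj],
      by rw [mul_assoc, hj]⟩, ?_⟩
    apply Subtype.ext
    change A (j * y * j) = x
    rw [map_mul, map_mul, hy', hx.2.1, hx.2.2]
  -- the nilpotent operator
  set z := MonoidAlgebra.single (α g) (1 : k) with hz
  have hzA : z = A (MonoidAlgebra.single g 1) := by rw [hA]; simp [hz]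
  have hgc : ∀ y : MonoidAlgebra k C, MonoidAlgebra.single g (1 : k) * y =
      y * MonoidAlgebra.single g 1 := by
    intro y
    induction y using MonoidAlgebra.induction_linear with
    | zero => simp
    | add y y' h h' => rw [mul_add, add_mul, h, h']
    | single x r =>
      rw [MonoidAlgebra.single_mul_single, MonoidAlgebra.single_mul_single, hg, one_mul, mul_one]
  have hzc : ∀ y, z * A y = A y * z := by
    intro y
    rw [hzA, ← map_mul, hgc, map_mul]
  have hTmem : ∀ v ∈ VA, (z - 1) * v ∈ VA := by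
    intro v hv
    refine ⟨?_, ?_, ?_⟩
    · refine Subalgebra.mul_mem _ (Subalgebra.sub_mem _ ?_ (Subalgebra.one_mem _)) hv.1
      exact single_mem_SubAlg (MonoidHom.mem_range.mpr ⟨g, rfl⟩) 1
    · rw [sub_mul, mul_sub, ← mul_assoc, ← hzc, mul_assoc, hv.2.1, one_mul, hv.2.1]
    · rw [mul_assoc, hv.2.2]
  let T : VA →ₗ[k] VA := (LinearMap.mulLeft k (z - 1)).restrict hTmem
  have hTp : T ^ p = 0 := by
    have h1 : ∀ (m : ℕ) (v : VA), ((T ^ m) v : MonoidAlgebra k H) = (z - 1) ^ m * v := by
      intro m
      induction m with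
      | zero => intro v; simp
      | succ m ih =>
        intro v
        rw [pow_succ', Module.End.mul_apply]
        change (z - 1) * ((T ^ m) v : MonoidAlgebra k H) = _
        rw [ih, pow_succ', mul_assoc]
    have h2 : (z - 1) ^ p = 0 := by
      have _ : CharP (MonoidAlgebra k H) p :=
        charP_of_injective_algebraMap (algebraMap k (MonoidAlgebra k H)).injective p
      rw [sub_pow_char_of_commute p (Commute.one_right z), one_pow, hz,
        MonoidAlgebra.single_pow, one_pow, ← map_pow, hgp, ← MonoidAlgebra.one_def, sub_self]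
    ext v
    rw [h1, h2, zero_mul]
    rfl
  have h3 := finrank_le_of_nilp T hTp
  refine h3.trans (Nat.mul_le_mul_left _ ?_)
  -- the cokernel of `T` is a quotient of `VB`
  let f : V0 →ₗ[k] VA ⧸ LinearMap.range T := (LinearMap.range T).mkQ ∘ₗ fA
  have hf : Function.Surjective f := (Submodule.mkQ_surjective _).comp hfA
  have hker' : LinearMap.ker fB ≤ LinearMap.ker f := by
    intro v hv
    rw [LinearMap.mem_ker] at hv ⊢
    have hv0 : B v.1 = 0 := congrArg Subtype.val hv
    obtain ⟨F, hF⟩ := exists_lift_ker (k := k) α β hker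
    obtain ⟨w, hw⟩ := hF v.1
    change A v.1 = F (B v.1) + (z - 1) * A w at hw
    rw [hv0, map_zero, zero_add] at hw
    change (LinearMap.range T).mkQ (fA v) = 0
    rw [Submodule.mkQ_apply, Submodule.Quotient.mk_eq_zero]
    refine ⟨⟨A j * A w * A j, Subalgebra.mul_mem _ (Subalgebra.mul_mem _
      (mapDomain_mem_range α j) (mapDomain_mem_range α w)) (mapDomain_mem_range α j), ?_, ?_⟩, ?_⟩
    · rw [← mul_assoc, ← mul_assoc, ← map_mul, hj]
    · rw [mul_assoc, ← map_mul A j j, hj]
    · apply Subtype.ext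
      change (z - 1) * (A j * A w * A j) = A v.1
      have h4 : (z - 1) * A j = A j * (z - 1) := by
        rw [sub_mul, mul_sub, hzc, one_mul, mul_one]
      rw [← mul_assoc, ← mul_assoc, h4, mul_assoc (A j), ← hw, ← map_mul, ← map_mul, v.2.2.1,
        v.2.2.2]
  calc Module.finrank k (VA ⧸ LinearMap.range T)
      = Module.finrank k (LinearMap.range f) := by
        rw [LinearMap.range_eq_top.mpr hf, finrank_top]
    _ ≤ Module.finrank k (LinearMap.range fB) := by
        have e1 := LinearMap.finrank_range_add_finrank_ker f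
        have e2 := LinearMap.finrank_range_add_finrank_ker fB
        have e3 := Submodule.finrank_mono hker'
        omega
    _ ≤ Module.finrank k VB := Submodule.finrank_le _

end Hom

end Vale.Agent.P180.R2.H799
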