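import Vale.Agent.P180.R2.H799.Tau
import Vale.Agent.P180.R2.H471.Cyc7

/-!
P180: the bound for `tau` in the form used by the abstract corner bound.
-/

set_option linter.all false

namespace Vale.Agent.P180.R2.H799

open Vale.Agent.P180 Vale.Agent.P180.H768.Gd Vale.Agent.P180.R2.H365
open Vale.Agent.P180.R2.H471

universe u

section Geom

variable {k : Type*} [Field k] {p : ℕ} [Fact p.Prime] [CharP k p]

theorem sub_one_pow_eq_sum {A : Type*} [Ring A] [Algebra k A] (x : A) (m : ℕ) :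
    (x - 1) ^ (p ^ m - 1) = ∑ i ∈ Finset.range (p ^ m), x ^ i := by
  have h : ((Polynomial.X - 1 : Polynomial k)) ^ (p ^ m - 1) =
      ∑ i ∈ Finset.range (p ^ m), (Polynomial.X : Polynomial k) ^ i := by
    have h1 : (Polynomial.X - 1 : Polynomial k) ≠ 0 := by
      have := Polynomial.X_sub_C_ne_zero (1 : k)
      rwa [Polynomial.C_1] at this
    apply mul_left_cancel₀ h1
    rw [mul_geom_sum, ← pow_succ', Nat.sub_add_cancel (Nat.one_le_iff_ne_zero.mpr
      (pow_ne_zero _ (Fact.out : p.Prime).ne_zero)), sub_pow_char_pow, one_pow]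
  have h2 := congrArg (Polynomial.aeval x) h
  simpa using h2

variable {H : Type*} [Group H] [Finite H]

theorem sgP_eq (g : H) {m : ℕ} (hm : Nat.card (Subgroup.zpowers g) = p ^ m) :
    sgP k (Subgroup.zpowers g) = (MonoidAlgebra.single g (1 : k) - 1) ^ (p ^ m - 1) := by
  classical
  rw [sub_one_pow_eq_sum (k := k)]
  have hord : orderOf g = p ^ m := by rw [← Nat.card_zpowers, hm]
  unfold sgP
  letI := Fintype.ofFinite (Subgroup.zpowers g)
  rw [Finset.sum_range]
  symm
  refine Fintype.sum_equiv ((finCongr hord.symm).trans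
    (finEquivZPowers (isOfFinOrder_of_finite g))) _ _ ?_
  intro i
  rw [MonoidAlgebra.single_pow, one_pow]
  rfl

end Geom

section WI

variable {k : Type u} [Field k] {p : ℕ} [Fact p.Prime] [CharP k p] {H : Type} [Group H] [Finite H]

/-- Injectivity data for the map `x ↦ x ι` from `A / (A (1 - ι) + A ι N ^ t)` to `A / A N ^ t`. -/
noncomputable def PsiWI (ι N : MonoidAlgebra k H) (hN : N * ι = ι * N) (hιι : ι * ι = ι) (t : ℕ) :
    (MonoidAlgebra k H ⧸ Cyc.WI ι N t) →ₗ[k] (MonoidAlgebra k H ⧸ RJ (N ^ t)) :=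
  (((Cyc.WI ι N t).restrictScalars k).liftQ ((RJ (N ^ t)).mkQ ∘ₗ LinearMap.mulRight k ι) (by
    intro x hx
    rw [Submodule.restrictScalars_mem] at hx
    have hc : N ^ t * ι = ι * N ^ t := ((show Commute N ι from hN).pow_left t).eq
    rw [LinearMap.mem_ker, LinearMap.comp_apply, LinearMap.mulRight_apply, Submodule.mkQ_apply,
      Submodule.Quotient.mk_eq_zero]
    unfold Cyc.WI at hx
    induction hx using Submodule.span_induction with
    | mem x hx =>
      rcases hx with rfl | hx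
      · rw [sub_mul, one_mul, hιι, sub_self]; exact Submodule.zero_mem _
      · rw [Set.mem_singleton_iff.mp hx]
        refine ⟨ι * ι, ?_⟩
        rw [LinearMap.mulRight_apply, mul_assoc ι (N ^ t) ι, hc, ← mul_assoc]
    | zero => rw [zero_mul]; exact Submodule.zero_mem _
    | add x y _ _ hx hy => rw [add_mul]; exact Submodule.add_mem _ hx hy
    | smul c x _ hx =>
      obtain ⟨y, hy⟩ := hx
      refine ⟨c * y, ?_⟩
      rw [LinearMap.mulRight_apply] at hy ⊢
      rw [smul_eq_mul, mul_assoc, hy, mul_assoc])) ∘ₗ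
    (Submodule.Quotient.restrictScalarsEquiv k (Cyc.WI ι N t)).symm.toLinearMap

theorem PsiWI_mk (ι N : MonoidAlgebra k H) (hN : N * ι = ι * N) (hιι : ι * ι = ι) (t : ℕ)
    (x : MonoidAlgebra k H) :
    PsiWI ι N hN hιι t (Submodule.Quotient.mk x) = (RJ (N ^ t)).mkQ (x * ι) := rfl

theorem PsiWI_inj (ι N : MonoidAlgebra k H) (hN : N * ι = ι * N) (hιι : ι * ι = ι) (t : ℕ) :
    Function.Injective (PsiWI ι N hN hιι t) := by
  have hc : N ^ t * ι = ι * N ^ t := ((show Commute N ι from hN).pow_left t).eq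
  rw [← LinearMap.ker_eq_bot, LinearMap.ker_eq_bot']
  intro w hw
  obtain ⟨x, rfl⟩ := Submodule.Quotient.mk_surjective _ w
  rw [PsiWI_mk, Submodule.mkQ_apply, Submodule.Quotient.mk_eq_zero] at hw
  obtain ⟨y, hy⟩ := hw
  rw [LinearMap.mulRight_apply] at hy
  rw [Submodule.Quotient.mk_eq_zero]
  have h1 : x = x * (1 - ι) + y * (ι * N ^ t) := by
    have h2 : x * ι = y * (ι * N ^ t) := by
      calc x * ι = x * ι * ι := by rw [mul_assoc, hιι]
        _ = y * N ^ t * ι := by rw [← hy]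
        _ = y * (ι * N ^ t) := by rw [mul_assoc, hc]
    rw [← h2, mul_sub, mul_one, sub_add_cancel]
  rw [h1]
  refine Submodule.add_mem _ ?_ ?_
  · exact Submodule.smul_mem _ x (Submodule.subset_span (Set.mem_insert _ _))
  · exact Submodule.smul_mem _ y (Submodule.subset_span (Set.mem_insert_of_mem _ rfl))

theorem tau_WI_le {g : H} {Z : Subgroup H} {q : ℕ} (hq : Nat.card (Subgroup.zpowers g) = q)
    (hP : IsPGroup p (Subgroup.zpowers g))
    (hmin : ∀ S : Subgroup H, S ≤ Subgroup.zpowers g → S ≠ ⊥ → Z ≤ S)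
    (hZP : Z ≤ Subgroup.zpowers g) (hZ : Z ≠ ⊥) {ι : MonoidAlgebra k H}
    (hι : ι ∈ Fix (cj k H) (Subgroup.zpowers g)) (hιι : ι * ι = ι) (t : ℕ) :
    Cyc.tau k ι (MonoidAlgebra.single g (1 : k) - 1) q
      (MonoidAlgebra k H ⧸ Cyc.WI ι (MonoidAlgebra.single g (1 : k) - 1) t) ≤
      (Module.finrank k (NN (SubAlg k (Subgroup.normalizer (Z : Set H))) (br Z ι) (br Z ι)) : ℤ) := by
  obtain ⟨m, hm⟩ := IsPGroup.iff_card.mp hP
  have hqm : q = p ^ m := by rw [← hq, hm]
  have hgP : g ∈ Subgroup.zpowers g := Subgroup.mem_zpowers g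
  set N := MonoidAlgebra.single g (1 : k) - 1 with hNdef
  have hNS : N ∈ SubAlg k (Subgroup.zpowers g) :=
    Subalgebra.sub_mem _ (single_mem_SubAlg hgP 1) (Subalgebra.one_mem _)
  have hN : N * ι = ι * N := commute_of_mem hNS hι
  have haS : N ^ t ∈ SubAlg k (Subgroup.zpowers g) := Subalgebra.pow_mem _ hNS t
  have haι : N ^ t * ι = ι * N ^ t := commute_of_mem haS hι
  have hσ : sgP k (Subgroup.zpowers g) = N ^ (q - 1) := by rw [hqm, sgP_eq g hm]
  have hmain := tau_le (k := k) hP hmin hZP hZ hι hιι haS haι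
  have hfin : FiniteDimensional k (MonoidAlgebra k H) :=
    Module.Finite.equiv (MonoidAlgebra.coeffLinearEquiv k (M := H) (S := k)).symm
  set Ψ := PsiWI ι N hN hιι t with hΨ
  have hinj : Function.Injective Ψ := PsiWI_inj ι N hN hιι t
  -- the invariants
  have hK : (Cyc.KK k ι N (MonoidAlgebra k H ⧸ Cyc.WI ι N t)).map Ψ =
      invW (Subgroup.zpowers g) (N ^ t) ⊓ LinearMap.range (EE (N ^ t) ι ι haι) := by
    apply le_antisymm
    · rintro _ ⟨w, ⟨hw1, hw2⟩, rfl⟩
      obtain ⟨x, rfl⟩ := Submodule.Quotient.mk_surjective _ w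
      have h1 : ι • (Submodule.Quotient.mk x : MonoidAlgebra k H ⧸ Cyc.WI ι N t) =
        Submodule.Quotient.mk (ι * x) := rfl
      have h2 : N • (Submodule.Quotient.mk x : MonoidAlgebra k H ⧸ Cyc.WI ι N t) =
        Submodule.Quotient.mk (N * x) := rfl
      rw [h1] at hw1
      rw [h2] at hw2
      have h3 : (RJ (N ^ t)).mkQ (ι * x * ι) = (RJ (N ^ t)).mkQ (x * ι) := by
        rw [← PsiWI_mk ι N hN hιι t, ← PsiWI_mk ι N hN hιι t, hw1]
      have h4 : (RJ (N ^ t)).mkQ (N * x * ι) = 0 := by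
        rw [← PsiWI_mk ι N hN hιι t, hw2, map_zero]
      refine ⟨?_, ?_⟩
      · -- invariance
        have h5 : lm (N ^ t) (MonoidAlgebra.single g 1) ((RJ (N ^ t)).mkQ (x * ι)) =
            (RJ (N ^ t)).mkQ (x * ι) := by
          rw [lm_mk]
          have h6 : MonoidAlgebra.single g (1 : k) * (x * ι) = N * x * ι + x * ι := by
            rw [hNdef, mul_assoc, sub_mul, one_mul, sub_add_cancel]
          rw [h6, map_add, h4, zero_add]
        rintro u ⟨n, rfl⟩
        rw [PsiWI_mk]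
        have h7 : ∀ n : ℕ, lm (N ^ t) (MonoidAlgebra.single (g ^ n) 1)
            ((RJ (N ^ t)).mkQ (x * ι)) = (RJ (N ^ t)).mkQ (x * ι) := by
          intro n
          induction n with
          | zero =>
            rw [pow_zero, lm_mk, ← MonoidAlgebra.one_def, one_mul]
          | succ n ih =>
            have h8 : MonoidAlgebra.single (g ^ (n + 1)) (1 : k) =
                MonoidAlgebra.single g 1 * MonoidAlgebra.single (g ^ n) 1 := by
              rw [MonoidAlgebra.single_mul_single, one_mul, ← pow_succ']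
            rw [lm_mk, h8, mul_assoc, ← lm_mk, ← lm_mk, ih, h5]
        have h9 : ∃ n' : ℕ, g ^ n' = g ^ n := by
          have := mem_powers_iff_mem_zpowers.mpr (⟨n, rfl⟩ : g ^ n ∈ Subgroup.zpowers g)
          exact this
        obtain ⟨n', hn'⟩ := h9
        change lm (N ^ t) (MonoidAlgebra.single (g ^ n) 1) _ = _
        rw [← hn', h7]
      · refine ⟨(RJ (N ^ t)).mkQ x, ?_⟩
        rw [EE_mk, PsiWI_mk, h3]
    · rintro w ⟨hw1, hw2⟩
      obtain ⟨v, hv⟩ := hw2
      obtain ⟨x, rfl⟩ := (RJ (N ^ t)).mkQ_surjective v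
      rw [EE_mk] at hv
      refine ⟨Submodule.Quotient.mk (ι * x), ⟨?_, ?_⟩, ?_⟩
      · change (Submodule.Quotient.mk (ι * (ι * x)) : MonoidAlgebra k H ⧸ Cyc.WI ι N t) = _
        rw [← mul_assoc, hιι]
      · apply hinj
        change Ψ (Submodule.Quotient.mk (N * (ι * x))) = _
        rw [hΨ, PsiWI_mk, map_zero]
        have h1 := hw1 g hgP
        rw [← hv, lm_mk] at h1
        have h2 : N * (ι * x) * ι =
            MonoidAlgebra.single g (1 : k) * (ι * x * ι) - ι * x * ι := by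
          rw [mul_assoc N, hNdef, sub_mul, one_mul]
        rw [h2, map_sub, h1, sub_self]
      · rw [hΨ, PsiWI_mk]
        exact hv
  have hR : (Cyc.RR k ι N q (MonoidAlgebra k H ⧸ Cyc.WI ι N t)).map Ψ =
      LinearMap.range (lm (N ^ t) (sgP k (Subgroup.zpowers g)) ∘ₗ EE (N ^ t) ι ι haι) := by
    have hc : ∀ x, N ^ (q - 1) * ι * x * ι = N ^ (q - 1) * (ι * x * ι) := fun x => by
      simp only [mul_assoc]
    apply le_antisymm
    · rintro _ ⟨w, ⟨y, hy⟩, rfl⟩
      obtain ⟨x, rfl⟩ := Submodule.Quotient.mk_surjective _ y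
      refine ⟨(RJ (N ^ t)).mkQ x, ?_⟩
      rw [LinearMap.comp_apply, EE_mk, lm_mk, hσ, ← hy]
      change _ = Ψ (Submodule.Quotient.mk (N ^ (q - 1) * ι * x))
      rw [hΨ, PsiWI_mk, hc]
    · rintro _ ⟨v, rfl⟩
      obtain ⟨x, rfl⟩ := (RJ (N ^ t)).mkQ_surjective v
      refine ⟨Submodule.Quotient.mk (N ^ (q - 1) * ι * x), ⟨Submodule.Quotient.mk x, rfl⟩, ?_⟩
      rw [hΨ, PsiWI_mk, LinearMap.comp_apply, EE_mk, lm_mk, hσ, hc]
  have e1 : Module.finrank k (Cyc.KK k ι N (MonoidAlgebra k H ⧸ Cyc.WI ι N t)) =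
      Module.finrank k ((Cyc.KK k ι N (MonoidAlgebra k H ⧸ Cyc.WI ι N t)).map Ψ) :=
    (Submodule.equivMapOfInjective Ψ hinj _).finrank_eq
  have e2 : Module.finrank k (Cyc.RR k ι N q (MonoidAlgebra k H ⧸ Cyc.WI ι N t)) =
      Module.finrank k ((Cyc.RR k ι N q (MonoidAlgebra k H ⧸ Cyc.WI ι N t)).map Ψ) :=
    (Submodule.equivMapOfInjective Ψ hinj _).finrank_eq
  unfold Cyc.tau
  rw [e1, e2, hK, hR]
  omega

end WI

end Vale.Agent.P180.R2.H799
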