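import Vale.Agent.P180.R2.H799.BN0

/-!
P180: the image of a parabolic system under a surjective homomorphism with central kernel of
coprime order.
-/

set_option linter.all false

namespace Vale.Agent.P180.R2.H799.BN

open Vale.Agent.P180.R2.H799 Subgroup

variable {H G : Type*} [Group H] [Group G] (π : H →* G)

theorem conj_mem_of_image {V : Subgroup H} (hk : π.ker ≤ center H)
    (hV : (Nat.card V).Coprime (Nat.card π.ker)) {g : H}
    (hg : π g ∈ normalizer (V.map π : Set G)) : ∀ v ∈ V, g * v * g⁻¹ ∈ V := by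
  intro v hv
  have h1 : π v ∈ V.map π := ⟨v, hv, rfl⟩
  obtain ⟨v', hv', he⟩ := (mem_normalizer_iff.mp hg _).mp h1
  rw [← map_inv, ← map_mul, ← map_mul] at he
  have hz : v'⁻¹ * (g * v * g⁻¹) ∈ π.ker := by
    rw [MonoidHom.mem_ker, map_mul, map_inv, he, inv_mul_cancel]
  set z := v'⁻¹ * (g * v * g⁻¹) with hzdef
  have hgv : g * v * g⁻¹ = v' * z := by rw [hzdef]; group
  have hcomm : Commute v' z := (mem_center_iff.mp (hk hz) v')
  have hp : ∀ x ∈ V, x ^ Nat.card V = 1 := by
    intro x hx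
    exact congrArg Subtype.val (pow_card_eq_one' (x := (⟨x, hx⟩ : V)))
  have h3 : z ^ Nat.card V = 1 := by
    have h4 : (g * v * g⁻¹) ^ Nat.card V = 1 := by
      rw [conj_pow, hp v hv, mul_one, mul_inv_cancel]
    rw [hgv, hcomm.mul_pow, hp v' hv', one_mul] at h4
    exact h4
  have h5 : z ^ Nat.card π.ker = 1 := by
    exact congrArg Subtype.val (pow_card_eq_one' (x := (⟨z, hz⟩ : π.ker)))
  have h6 : z = 1 := by
    have := Nat.dvd_gcd (orderOf_dvd_of_pow_eq_one h3) (orderOf_dvd_of_pow_eq_one h5)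
    rw [hV.gcd_eq_one, Nat.dvd_one, orderOf_eq_one_iff] at this
    exact this
  rw [hgv, h6, mul_one]
  exact hv'

theorem normalizer_image (hπ : Function.Surjective π) {V : Subgroup H} (hk : π.ker ≤ center H)
    (hV : (Nat.card V).Coprime (Nat.card π.ker)) :
    normalizer (V.map π : Set G) = (normalizer (V : Set H)).map π := by
  apply le_antisymm
  · intro x hx
    obtain ⟨g, rfl⟩ := hπ x
    refine ⟨g, ?_, rfl⟩
    have h1 := conj_mem_of_image π hk hV hx
    have h2 := conj_mem_of_image π (g := g⁻¹) hk hV (by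
      rw [map_inv]; exact inv_mem hx)
    refine mem_normalizer_iff.mpr fun h => ⟨h1 h, fun h3 => ?_⟩
    have h4 := h2 _ h3
    have e : g⁻¹ * (g * h * g⁻¹) * g⁻¹⁻¹ = h := by group
    rwa [e] at h4
  · exact le_normalizer_map _

theorem map_inf_image {A B : Subgroup H} (hA : π.ker ≤ A) :
    (A ⊓ B).map π = A.map π ⊓ B.map π := by
  apply le_antisymm
  · exact map_inf_le _ _ _
  · rintro _ ⟨⟨a, ha, rfl⟩, ⟨b, hb, hab⟩⟩
    refine ⟨b, ⟨?_, hb⟩, hab⟩
    have h1 : a⁻¹ * b ∈ π.ker := by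
      rw [MonoidHom.mem_ker, map_mul, map_inv, hab, inv_mul_cancel]
    have h2 : b = a * (a⁻¹ * b) := by group
    rw [h2]
    exact A.mul_mem ha (hA h1)

theorem ker_le_normalizer (hk : π.ker ≤ center H) (V : Subgroup H) :
    π.ker ≤ normalizer (V : Set H) := by
  intro z hz
  refine mem_normalizer_iff.mpr fun h => ?_
  have : z * h * z⁻¹ = h := by
    rw [← mem_center_iff.mp (hk hz) h, mul_inv_cancel_right]
  rw [this]

/-- the image of a parabolic system -/
def imageSys {p : ℕ} (S : ParSys p H) (hπ : Function.Surjective π) (hk : π.ker ≤ center H)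
    (hc : ∀ V ∈ S.car, (Nat.card V).Coprime (Nat.card π.ker)) : ParSys p G where
  car := Subgroup.map π '' S.car
  conj := by
    rintro _ ⟨V, hV, rfl⟩ x
    obtain ⟨g, rfl⟩ := hπ x
    refine ⟨V.map (MulAut.conj g).toMonoidHom, S.conj V hV g, ?_⟩
    rw [Subgroup.map_map, Subgroup.map_map]
    congr 1
    ext h
    simp
  card := by
    rintro _ ⟨V, hV, rfl⟩ hd
    exact S.card V hV (hd.trans (card_map_dvd _ _))
  star := by
    rintro _ ⟨V, hV, rfl⟩ _ ⟨W, hW, rfl⟩
    rw [normalizer_image π hπ hk (hc V hV), ← map_inf_image π (ker_le_normalizer π hk V),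
      ← Subgroup.map_sup]
    exact ⟨_, S.star V hV W hW, rfl⟩
  norm := by
    rintro _ ⟨V, hV, rfl⟩ _ ⟨W, hW, rfl⟩
    rw [normalizer_image π hπ hk (hc V hV), ← map_inf_image π (ker_le_normalizer π hk V),
      ← Subgroup.map_sup, normalizer_image π hπ hk (hc _ (S.star V hV W hW)), S.norm V hV W hW,
      Subgroup.map_sup, map_inf_image π (ker_le_normalizer π hk V),
      normalizer_image π hπ hk (hc W hW)]

/-- the centraliser of the image of a `p`-subgroup -/
theorem centralizer_image {p : ℕ} [Fact p.Prime] (hπ : Function.Surjective π)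
    (hk : π.ker ≤ center H) (hkp : ¬ p ∣ Nat.card π.ker) {Q : Subgroup H} (hQ : IsPGroup p Q) :
    centralizer (Q.map π : Set G) = (centralizer (Q : Set H)).map π := by
  apply le_antisymm
  · intro x hx
    obtain ⟨g, rfl⟩ := hπ x
    refine ⟨g, ?_, rfl⟩
    rw [SetLike.mem_coe, mem_centralizer_iff]
    intro q hq
    have h1 : π q * π g = π g * π q := mem_centralizer_iff.mp hx _ ⟨q, hq, rfl⟩
    set z := q⁻¹ * (g * q * g⁻¹) with hz
    have hzk : z ∈ π.ker := by
      rw [hz, MonoidHom.mem_ker, map_mul, map_mul, map_mul, map_inv, map_inv, ← h1]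
      group
    have hcomm : Commute q z := mem_center_iff.mp (hk hzk) q
    obtain ⟨m, hm⟩ := hQ ⟨q, hq⟩
    have hm' : q ^ p ^ m = 1 := congrArg Subtype.val hm
    have h3 : z ^ p ^ m = 1 := by
      have h4 : (g * q * g⁻¹) ^ p ^ m = 1 := by
        rw [conj_pow, hm', mul_one, mul_inv_cancel]
      have h5 : g * q * g⁻¹ = q * z := by rw [hz]; group
      rw [h5, hcomm.mul_pow, hm', one_mul] at h4
      exact h4
    have h5 : z ^ Nat.card π.ker = 1 :=
      congrArg Subtype.val (pow_card_eq_one' (x := (⟨z, hzk⟩ : π.ker)))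
    have h6 : z = 1 := by
      have h7 := Nat.dvd_gcd (orderOf_dvd_of_pow_eq_one h3) (orderOf_dvd_of_pow_eq_one h5)
      have h8 : Nat.Coprime (p ^ m) (Nat.card π.ker) :=
        Nat.Coprime.pow_left _ ((Nat.Prime.coprime_iff_not_dvd Fact.out).mpr hkp)
      rw [h8.gcd_eq_one, Nat.dvd_one, orderOf_eq_one_iff] at h7
      exact h7
    have h7 : g * q * g⁻¹ = q := by
      have h8 : g * q * g⁻¹ = q * z := by rw [hz]; group
      rw [h8, h6, mul_one]
    calc q * g = (g * q * g⁻¹) * g := by rw [h7]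
      _ = g * q := by group
  · rintro _ ⟨g, hg, rfl⟩
    rw [mem_centralizer_iff]
    rintro _ ⟨q, hq, rfl⟩
    rw [← map_mul, ← map_mul, mem_centralizer_iff.mp hg q hq]

/-- the image of a Levi pair -/
theorem pair_image {p : ℕ} [Fact p.Prime] (hπ : Function.Surjective π) (hk : π.ker ≤ center H)
    (hkp : ¬ p ∣ Nat.card π.ker) {V Q : Subgroup H} (hQ : IsPGroup p Q)
    (hV : (Nat.card V).Coprime (Nat.card π.ker)) (h : IsLeviPair V Q) :
    IsLeviPair (V.map π) (Q.map π) := by
  have hkC : π.ker ≤ centralizer (Q : Set H) := fun z hz =>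
    mem_centralizer_iff.mpr fun q _ => mem_center_iff.mp (hk hz) q
  constructor
  · rw [centralizer_image π hπ hk hkp hQ, inf_comm, ← map_inf_image π hkC, inf_comm, h.1,
      Subgroup.map_bot]
  · rw [centralizer_image π hπ hk hkp hQ, ← Subgroup.map_sup, h.2, normalizer_image π hπ hk hV]

/-- the Levi property of the image -/
theorem hasLevi_image {p : ℕ} [Fact p.Prime] {S : ParSys p H} (hπ : Function.Surjective π)
    (hk : π.ker ≤ center H) (hkp : ¬ p ∣ Nat.card π.ker)
    (hc : ∀ V ∈ S.car, (Nat.card V).Coprime (Nat.card π.ker)) (h : S.HasLevi) :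
    (imageSys π S hπ hk hc).HasLevi := by
  rintro _ ⟨V, hV, rfl⟩
  obtain ⟨Z, hZ, hab, hp⟩ := h V hV
  refine ⟨Z.map π, hZ.map π, ?_, pair_image π hπ hk hkp hZ (hc V hV) hp⟩
  rintro _ ⟨x, hx, rfl⟩ _ ⟨y, hy, rfl⟩
  rw [← map_mul, ← map_mul, hab x hx y hy]

/-- a `p`-subgroup lifts -/
theorem exists_lift {p : ℕ} [Fact p.Prime] [Finite H] (hπ : Function.Surjective π)
    {D : Subgroup G} (hD : IsPGroup p D) : ∃ Q : Subgroup H, IsPGroup p Q ∧ Q.map π = D := by
  classical
  let f : D.comap π →* D := π.subgroupComap D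
  have hf : Function.Surjective f := by
    rintro ⟨d, hd⟩
    obtain ⟨h, rfl⟩ := hπ d
    exact ⟨⟨h, hd⟩, rfl⟩
  obtain ⟨P⟩ : Nonempty (Sylow p (D.comap π)) := inferInstance
  have h1 : ((P.mapSurjective hf : Sylow p D) : Subgroup D) = ⊤ := by
    exact ((P.mapSurjective hf).is_maximal' (hD.to_subgroup ⊤) le_top).symm
  refine ⟨(P : Subgroup (D.comap π)).map (D.comap π).subtype, P.2.map _, ?_⟩
  apply le_antisymm
  · rintro _ ⟨_, ⟨x, -, rfl⟩, rfl⟩
    exact x.2
  · intro d hd
    have h2 : (⟨d, hd⟩ : D) ∈ ((P.mapSurjective hf : Sylow p D) : Subgroup D) := by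
      rw [h1]; trivial
    obtain ⟨x, hx, hxd⟩ := h2
    exact ⟨x, ⟨x, hx, rfl⟩, congrArg Subtype.val hxd⟩

end Vale.Agent.P180.R2.H799.BN
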