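import Vale.Agent.P180.R2.H799.BNR7

/-!
P180: relative parabolic systems; the dimensions in `k C_H(R)`.
-/

set_option linter.all false

namespace Vale.Agent.P180.R2.H799.BN

open Vale.Agent.P180 Vale.Agent.P180.H768.Gd Vale.Agent.P180.R2.H799
open Vale.Agent.P180.R2.H259.Cyc (PrimIn)
open Vale.Agent.P180.R2.H365 (br_self)

universe u

section Tr

variable {k : Type u} [Field k] {G : Type} [Group G] [Finite G]

theorem incl_mem_sub {L M : Subgroup G} {x : MonoidAlgebra k L}
    (hx : x ∈ SubAlg k (M.subgroupOf L)) : incl k L x ∈ SubAlg k M := by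
  refine SuppIn.induction (P := fun x => incl k L x ∈ SubAlg k M) hx ?_ ?_ ?_
  · rw [map_zero]; exact Subalgebra.zero_mem _
  · intro x y hx hy
    rw [map_add]; exact Subalgebra.add_mem _ hx hy
  · intro x hx c
    rw [map_smul, incl_single]
    exact Subalgebra.smul_mem _ (single_mem_SubAlg (show (x : G) ∈ M from hx) 1) c

theorem mem_sub_of_incl {L M : Subgroup G} {x : MonoidAlgebra k L}
    (hx : incl k L x ∈ SubAlg k M) : x ∈ SubAlg k (M.subgroupOf L) := by
  intro g hg
  rw [← incl_coeff] at hg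
  exact hx (g : G) hg

theorem primIn_sub {L M : Subgroup G} {c : MonoidAlgebra k L}
    (hc : PrimIn (SubAlg k M) (incl k L c)) : PrimIn (SubAlg k (M.subgroupOf L)) c := by
  refine ⟨mem_sub_of_incl hc.mem, ?_, ?_, ?_⟩
  · apply incl_injective (k := k) L
    rw [map_mul, hc.idem]
  · rintro rfl
    exact hc.ne_zero (map_zero _)
  · intro d hd hdd hdc hcd
    rcases hc.prim (incl k L d) (incl_mem_sub hd) (by rw [← map_mul, hdd])
      (by rw [← map_mul, hdc]) (by rw [← map_mul, hcd]) with h | h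
    · left
      exact incl_injective (k := k) L (by rw [h, map_zero])
    · right
      exact incl_injective (k := k) L h

theorem finrank_NN_incl (L : Subgroup G) (c d : MonoidAlgebra k L) :
    Module.finrank k (NN (SubAlg k L) (incl k L c) (incl k L d)) =
      Module.finrank k (NN (⊤ : Subalgebra k (MonoidAlgebra k L)) c d) := by
  have h2 := finrank_NN_hom (k := k) (φ := L.subtype) L.subtype_injective c d
  rw [Subgroup.range_subtype] at h2
  exact h2

end Tr

variable {k : Type u} [Field k] {p : ℕ} [Fact p.Prime] [CharP k p] {G : Type} [Group G] [Finite G]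

variable {𝒮 : ParSys p G} {H R V W Z : Subgroup G} {f w : MonoidAlgebra k G}

theorem RW.ML (h : RW 𝒮 H R V W Z f w) : Ce Z ⊓ H ≤ Ce R ⊓ H := inf_le_inf_right H h.CeZ

/-- `φ` commutes with `k C_H(Z)` -/
theorem RW.phi_comm (h : RW 𝒮 H R V W Z f w) {x : MonoidAlgebra k G}
    (hx : x ∈ SubAlg k (Ce Z ⊓ H)) : x * phi k W R f = phi k W R f * x := by
  have hxL : x ∈ SubAlg k (Ce R ⊓ H) := SubAlg_mono h.ML hx
  have hN : Ce Z ⊓ H ≤ Nm (W ⊓ Ce R) := by
    intro m hm
    have hmW := mem_Nm.mp (h.lvW.le hm.1)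
    have hmR : m ∈ Ce R := h.CeZ hm.1
    rw [mem_Nm]
    intro v
    constructor
    · rintro ⟨h1, h2⟩
      exact ⟨(hmW v).mp h1, (Ce R).mul_mem ((Ce R).mul_mem hmR h2) ((Ce R).inv_mem hmR)⟩
    · rintro ⟨h1, h2⟩
      refine ⟨(hmW v).mpr h1, ?_⟩
      have e : v = m⁻¹ * (m * v * m⁻¹) * m := by group
      rw [e]
      exact (Ce R).mul_mem ((Ce R).mul_mem ((Ce R).inv_mem hmR) h2) hmR
  unfold phi
  rw [← mul_assoc, h.fcom hxL, mul_assoc, av_comm hN hx, mul_assoc]

/-- Mackey for `φ` -/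
theorem RW.mackey_phi (h : RW 𝒮 H R V W Z f w) {g : G} (hg : g ∈ Ce R ⊓ H) :
    phi k W R f * MonoidAlgebra.single g (1 : k) * phi k W R f = 0 ∨
      ∃ n ∈ (Nm Z ⊓ H) ⊓ (Ce R ⊓ H), phi k W R f * MonoidAlgebra.single g (1 : k) * phi k W R f =
        phi k W R f * MonoidAlgebra.single n 1 * phi k W R f := by
  -- the product with `av V`
  have key : ∀ x ∈ Ce R ⊓ H, phi k W R f * MonoidAlgebra.single x (1 : k) * phi k W R f *
      av k V = f * av k W * MonoidAlgebra.single x 1 * av k W * f := by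
    intro x hx
    have hxL : MonoidAlgebra.single x (1 : k) ∈ SubAlg k (Ce R ⊓ H) := single_mem_SubAlg hx 1
    have h1 : av k V * av k V = av k V := av_idem (card_ne (p := p) (𝒮.card V h.mem))
    calc phi k W R f * MonoidAlgebra.single x (1 : k) * phi k W R f * av k V
        = phi k W R f * MonoidAlgebra.single x (1 : k) * (phi k W R f * (av k V * av k V)) := by
          rw [h1]; simp only [mul_assoc]
      _ = phi k W R f * MonoidAlgebra.single x (1 : k) * ((phi k W R f * av k V) * av k V) := by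
          simp only [mul_assoc]
      _ = phi k W R f * MonoidAlgebra.single x (1 : k) * ((av k V * phi k W R f) * av k V) := by
          rw [h.Vcom h.phi_mem]
      _ = phi k W R f * (MonoidAlgebra.single x (1 : k) * av k V) * (phi k W R f * av k V) := by
          simp only [mul_assoc]
      _ = (phi k W R f * av k V) * MonoidAlgebra.single x (1 : k) * (phi k W R f * av k V) := by
          rw [h.Vcom hxL]; simp only [mul_assoc]
      _ = f * av k W * MonoidAlgebra.single x 1 * (f * av k W) := by rw [h.phi_av]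
      _ = _ := by rw [h.comW]; simp only [mul_assoc]
  have hmem : ∀ x ∈ Ce R ⊓ H, phi k W R f * MonoidAlgebra.single x (1 : k) * phi k W R f ∈
      SubAlg k (Ce R ⊓ H) := fun x hx =>
    Subalgebra.mul_mem _ (Subalgebra.mul_mem _ h.phi_mem (single_mem_SubAlg hx 1)) h.phi_mem
  rcases h.mackey g with h0 | ⟨v, hv, v', hv', n, hn, hgn⟩
  · left
    refine h.inj (hmem g hg) (Subalgebra.zero_mem _) ?_
    rw [key g hg, h0, zero_mul]
  · right
    have hWH : W ≤ H := h.le W h.memW
    have hnH : n ∈ H := by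
      have e : n = v⁻¹ * g * v'⁻¹ := by rw [hgn]; group
      rw [e]
      exact H.mul_mem (H.mul_mem (H.inv_mem (hWH hv)) hg.2) (H.inv_mem (hWH hv'))
    have hnR : n ∈ Ce R := mem_Ce_of_mackey h.lv h.ab h.RZ h.ZC h.WN hv hv' hn hg.1 hgn
    refine ⟨n, ⟨⟨hn, hnH⟩, hnR, hnH⟩, h.inj (hmem g hg) (hmem n ⟨hnR, hnH⟩) ?_⟩
    rw [key g hg, key n ⟨hnR, hnH⟩, hgn]
    have h1 := av_single_av (k := k) (W := W) (n := n) hv hv'
    calc f * av k W * MonoidAlgebra.single (v * n * v') 1 * av k W * f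
        = f * (av k W * MonoidAlgebra.single (v * n * v') 1 * av k W) * f := by
          simp only [mul_assoc]
      _ = _ := by rw [h1]; simp only [mul_assoc]

/-- **The dimension bound in `k C_H(R)`.** -/
theorem RW.finrank_L [IsAlgClosed k] (h : RW 𝒮 H R V W Z f w) {c d : MonoidAlgebra k G}
    (hc : PrimIn (SubAlg k (Ce Z ⊓ H)) c) (hd : PrimIn (SubAlg k (Ce Z ⊓ H)) d) {β : ℕ}
    (hβ : (Ce Z ⊓ H).relIndex (Nm Z ⊓ H) ≤ β) :
    Module.finrank k (NN (SubAlg k (Ce R ⊓ H)) (c * phi k W R f) (d * phi k W R f)) ≤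
      Nat.card (R ⊓ H : Subgroup G) * (β * β) := by
  classical
  set L : Subgroup G := Ce R ⊓ H with hL
  set M : Subgroup G := Ce Z ⊓ H with hM
  set N : Subgroup G := (Nm Z ⊓ H) ⊓ L with hN
  have hML : M ≤ L := h.ML
  have hMN : M ≤ N := le_inf (inf_le_inf_right H (Ce_le_Nm Z)) hML
  have hQL : R ⊓ H ≤ L := inf_le_inf_right H h.leC
  obtain ⟨f', hf'⟩ := exists_incl L h.blk.mem.1
  obtain ⟨w', hw'⟩ := exists_incl L h.wL
  obtain ⟨φ', hφ'⟩ := exists_incl L h.phi_mem
  obtain ⟨c', hc'⟩ := exists_incl L (SubAlg_mono hML hc.mem)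
  obtain ⟨d', hd'⟩ := exists_incl L (SubAlg_mono hML hd.mem)
  set Q' : Subgroup L := (R ⊓ H).subgroupOf L with hQ'
  have hmap : Q'.map L.subtype = R ⊓ H := by
    rw [hQ', Subgroup.subgroupOf_map_subtype, inf_eq_left.mpr hQL]
  have hQ'c : Q' ≤ Subgroup.center L := by
    intro q hq
    rw [Subgroup.mem_center_iff]
    intro l
    apply Subtype.ext
    exact (mem_Ce.mp l.2.1 (q : G) (Subgroup.mem_subgroupOf.mp hq).1).symm
  have hQ'p : IsPGroup p Q' :=
    (h.pg.to_le inf_le_left).comap_of_injective L.subtype L.subtype_injective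
  have hblk : IsBlockOf (⊤ : Subgroup L) f' := by
    unfold IsBlockOf
    rw [ZAlg_top]
    exact (isBlockOf_incl_iff L f').mp (by rw [hf']; exact h.blk)
  have htr : f' = tr (cj k L) Q' ⊤ w' := by
    apply incl_injective (k := k) L
    rw [incl_tr L Q' (KP.mem_Fix_of_central hQ'c _), hmap, hf', hw']
    exact h.tr
  have hfin : FiniteDimensional k (MonoidAlgebra k L) :=
    Module.Finite.equiv (MonoidAlgebra.coeffLinearEquiv k (M := L) (S := k)).symm
  -- a primitive idempotent
  obtain ⟨j', hj', hfj'⟩ : ∃ j', PrimIn (⊤ : Subalgebra k (MonoidAlgebra k L)) j' ∧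
      f' * j' = j' := by
    obtain ⟨m, x, hx, hsum⟩ := H954.exists_prim_decomp (⊤ : Subalgebra k (MonoidAlgebra k L)) _ f'
      Algebra.mem_top hblk.idem.eq le_rfl
    rcases Nat.eq_zero_or_pos m with h0 | h0
    · subst h0
      exfalso
      apply hblk.ne_zero
      rw [hsum]
      rfl
    · exact ⟨x ⟨0, h0⟩, (hx _).1, (hx _).2.1⟩
  have hCB : CB p Q' f' w' j' := ⟨hQ'p, hQ'c, hblk, htr, hj', hfj'⟩
  have hMK : MK f' φ' (M.subgroupOf L) (N.subgroupOf L) := by
    refine ⟨?_, ?_, ?_, ?_, ?_, ?_, ?_⟩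
    · apply incl_injective (k := k) L
      rw [map_mul, hφ', h.phi_idem]
    · rintro rfl
      exact h.phi_ne (by rw [← hφ', map_zero])
    · apply incl_injective (k := k) L
      rw [map_mul, hφ', hf', h.f_phi]
    · intro x hx
      apply incl_injective (k := k) L
      rw [map_mul, map_mul, hφ', h.phi_comm (incl_mem_sub hx)]
    · exact fun x hx => hMN hx
    · intro n hn m hm
      have hn' : (n : G) ∈ N := hn
      have hm' : (m : G) ∈ M := hm
      exact ⟨conj_mem_Ce hn'.1.1 hm'.1, h.hn _ _ hm'.2⟩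
    · intro g
      rcases h.mackey_phi g.2 with h0 | ⟨n, hn, h0⟩
      · left
        apply incl_injective (k := k) L
        rw [map_mul, map_mul, map_zero, hφ', incl_single, h0]
      · right
        refine ⟨⟨n, hn.2⟩, hn, ?_⟩
        apply incl_injective (k := k) L
        rw [map_mul, map_mul, map_mul, map_mul, hφ', incl_single, incl_single, h0]
  have h1 := finrank_levi_le hCB hMK (c := c') (d := d')
    (primIn_sub (M := M) (by rw [hc']; exact hc)) (primIn_sub (M := M) (by rw [hd']; exact hd))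
  have h2 := finrank_NN_incl (k := k) L (c' * φ') (d' * φ')
  rw [map_mul, map_mul, hφ', hc', hd'] at h2
  rw [h2]
  have h3 : Nat.card Q' = Nat.card (R ⊓ H : Subgroup G) := by
    rw [← hmap]
    exact Nat.card_congr (Q'.equivMapOfInjective _ L.subtype_injective).toEquiv
  have h4 : (M.subgroupOf L).relIndex (N.subgroupOf L) ≤ β := by
    rw [Subgroup.relIndex_subgroupOf (inf_le_right : N ≤ L)]
    exact (Subgroup.relIndex_le_of_le_right inf_le_left
      Subgroup.index_ne_zero_of_finite).trans hβ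
  rw [h3] at h1
  exact h1.trans (Nat.mul_le_mul_left _ (Nat.mul_le_mul h4 h4))

end Vale.Agent.P180.R2.H799.BN
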