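import Vale.Agent.P180.R2.H799.BN0
import Vale.Agent.P180.R2.H799.BN2

/-!
P180: averages over `p'`-subgroups; the cuspidality theorem for parabolic systems.
-/

set_option linter.all false

namespace Vale.Agent.P180.R2.H799.BN

open Vale.Agent.P180 Vale.Agent.P180.H768.Gd Vale.Agent.P180.R2.H799

section Av

variable {k : Type*} [Field k] {G : Type*} [Group G] [Finite G]

/-- `(1/|V|) ∑ v` -/
noncomputable def av (k : Type*) [Field k] {G : Type*} [Group G] [Finite G] (V : Subgroup G) :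
    MonoidAlgebra k G :=
  letI := Fintype.ofFinite V
  (((Nat.card V : ℕ) : k)⁻¹) • ∑ v : V, MonoidAlgebra.single (v : G) 1

theorem av_left (V : Subgroup G) {v : G} (hv : v ∈ V) :
    MonoidAlgebra.single v (1 : k) * av k V = av k V := by
  unfold av
  letI := Fintype.ofFinite V
  rw [mul_smul_comm, Finset.mul_sum]
  congr 1
  refine Fintype.sum_equiv (Equiv.mulLeft (⟨v, hv⟩ : V))
    (fun w : V => MonoidAlgebra.single v (1 : k) * MonoidAlgebra.single (w : G) 1)
    (fun w : V => MonoidAlgebra.single (w : G) 1) fun w => ?_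
  rw [MonoidAlgebra.single_mul_single, one_mul]
  rfl

theorem av_right (V : Subgroup G) {v : G} (hv : v ∈ V) :
    av k V * MonoidAlgebra.single v (1 : k) = av k V := by
  unfold av
  letI := Fintype.ofFinite V
  rw [smul_mul_assoc, Finset.sum_mul]
  congr 1
  refine Fintype.sum_equiv (Equiv.mulRight (⟨v, hv⟩ : V))
    (fun w : V => MonoidAlgebra.single (w : G) (1 : k) * MonoidAlgebra.single v 1)
    (fun w : V => MonoidAlgebra.single (w : G) 1) fun w => ?_
  rw [MonoidAlgebra.single_mul_single, one_mul]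
  rfl

theorem av_mul_of_fix {V : Subgroup G} (hV : ((Nat.card V : ℕ) : k) ≠ 0) {a : MonoidAlgebra k G}
    (ha : ∀ v ∈ V, MonoidAlgebra.single v (1 : k) * a = a) : av k V * a = a := by
  unfold av
  letI := Fintype.ofFinite V
  rw [smul_mul_assoc, Finset.sum_mul, Finset.sum_congr rfl (fun (v : V) _ => ha (v : G) v.2),
    Finset.sum_const, Finset.card_univ, ← Nat.card_eq_fintype_card, ← Nat.cast_smul_eq_nsmul k, smul_smul,
    inv_mul_cancel₀ hV, one_smul]

theorem mul_av_of_fix {V : Subgroup G} (hV : ((Nat.card V : ℕ) : k) ≠ 0) {a : MonoidAlgebra k G}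
    (ha : ∀ v ∈ V, a * MonoidAlgebra.single v (1 : k) = a) : a * av k V = a := by
  unfold av
  letI := Fintype.ofFinite V
  rw [mul_smul_comm, Finset.mul_sum, Finset.sum_congr rfl (fun (v : V) _ => ha (v : G) v.2),
    Finset.sum_const, Finset.card_univ, ← Nat.card_eq_fintype_card, ← Nat.cast_smul_eq_nsmul k, smul_smul,
    inv_mul_cancel₀ hV, one_smul]

theorem av_idem {V : Subgroup G} (hV : ((Nat.card V : ℕ) : k) ≠ 0) :
    av k V * av k V = av k V := av_mul_of_fix hV fun _ hv => av_left V hv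

theorem av_le_left {K V : Subgroup G} (hK : ((Nat.card K : ℕ) : k) ≠ 0) (h : K ≤ V) :
    av k K * av k V = av k V := av_mul_of_fix hK fun _ hv => av_left V (h hv)

theorem av_le_right {K V : Subgroup G} (hK : ((Nat.card K : ℕ) : k) ≠ 0) (h : K ≤ V) :
    av k V * av k K = av k V := mul_av_of_fix hK fun _ hv => av_right V (h hv)

theorem av_mem (V : Subgroup G) : av k V ∈ SubAlg k V := by
  unfold av
  letI := Fintype.ofFinite V
  exact Subalgebra.smul_mem _ (Subalgebra.sum_mem _ fun v _ => single_mem_SubAlg v.2 1) _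

theorem cj_av (V : Subgroup G) (g : G) : cj k G g (av k V) = av k (conjS g V) := by
  unfold av
  letI := Fintype.ofFinite V
  letI := Fintype.ofFinite (conjS g V)
  have hinj : Function.Injective (MulAut.conj g).toMonoidHom := (MulAut.conj g).injective
  rw [map_smul, map_sum, Nat.card_congr (V.equivMapOfInjective _ hinj).toEquiv]
  congr 1
  refine Fintype.sum_equiv (V.equivMapOfInjective _ hinj).toEquiv
    (fun v : V => cj k G g (MonoidAlgebra.single (v : G) 1))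
    (fun w : conjS g V => MonoidAlgebra.single (w : G) 1) fun v => ?_
  rw [cj_single]
  rfl

theorem conjS_eq_of_mem_Nm {V : Subgroup G} {g : G} (hg : g ∈ Nm V) : conjS g V = V := by
  ext x
  rw [mem_conjS, mem_Nm.mp hg]
  have e : g * (g⁻¹ * x * g) * g⁻¹ = x := by group
  rw [e]

theorem av_comm {V L : Subgroup G} (hL : L ≤ Nm V) {x : MonoidAlgebra k G} (hx : x ∈ SubAlg k L) :
    x * av k V = av k V * x := by
  refine commute_of_mem hx fun g hg => ?_
  rw [cj_av, conjS_eq_of_mem_Nm (hL hg)]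

theorem av_sup {V K W : Subgroup G} (hV : ((Nat.card V : ℕ) : k) ≠ 0)
    (hK : ((Nat.card K : ℕ) : k) ≠ 0) (hW : ((Nat.card W : ℕ) : k) ≠ 0) (hKV : K ≤ Nm V)
    (hVW : V ≤ W) (hKW : K ≤ W) (h : ∀ w ∈ W, ∃ v ∈ V, ∃ x ∈ K, w = v * x) :
    av k V * av k K = av k W := by
  have h1 : av k W * (av k V * av k K) = av k V * av k K := by
    refine av_mul_of_fix hW fun w hw => ?_
    obtain ⟨v, hv, x, hx, rfl⟩ := h w hw
    have h2 : MonoidAlgebra.single (v * x) (1 : k) =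
        MonoidAlgebra.single v 1 * MonoidAlgebra.single x 1 := by
      rw [MonoidAlgebra.single_mul_single, one_mul]
    rw [h2]
    calc MonoidAlgebra.single v (1 : k) * MonoidAlgebra.single x 1 * (av k V * av k K)
        = MonoidAlgebra.single v 1 * (MonoidAlgebra.single x 1 * av k V) * av k K := by
          simp only [mul_assoc]
      _ = (MonoidAlgebra.single v 1 * av k V) * (MonoidAlgebra.single x 1 * av k K) := by
          rw [av_comm hKV (single_mem_SubAlg hx 1)]; simp only [mul_assoc]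
      _ = _ := by rw [av_left V hv, av_left K hx]
  rw [← h1, ← mul_assoc, av_le_right hV hVW, av_le_right hK hKW]

theorem av_sup' {V K W : Subgroup G} (hV : ((Nat.card V : ℕ) : k) ≠ 0)
    (hK : ((Nat.card K : ℕ) : k) ≠ 0) (hW : ((Nat.card W : ℕ) : k) ≠ 0) (hKV : K ≤ Nm V)
    (hVW : V ≤ W) (hKW : K ≤ W) (h : ∀ w ∈ W, ∃ v ∈ V, ∃ x ∈ K, w = v * x) :
    av k K * av k V = av k W := by
  rw [av_comm hKV (av_mem K)]
  exact av_sup hV hK hW hKV hVW hKW h

theorem single_mul_av (V : Subgroup G) (g : G) :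
    MonoidAlgebra.single g (1 : k) * av k V = av k (conjS g V) * MonoidAlgebra.single g 1 := by
  rw [← cj_av, cj_mul_single]

variable {p : ℕ} [Fact p.Prime] [CharP k p]

theorem br_av {V Q : Subgroup G} (hQ : IsPGroup p Q) (hV : ¬ p ∣ Nat.card V)
    (h : ∀ x ∈ V, x ∈ Ce Q → x = 1) : br Q (av k V) = ((Nat.card V : ℕ) : k)⁻¹ • 1 := by
  classical
  have hcoef : ∀ x : G, (av k V).coeff x = if x ∈ V then ((Nat.card V : ℕ) : k)⁻¹ else 0 := by
    intro x
    unfold av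
    letI := Fintype.ofFinite V
    rw [MonoidAlgebra.coeff_smul, Finsupp.smul_apply, MonoidAlgebra.coeff_sum,
      Finsupp.finsetSum_apply, smul_eq_mul]
    by_cases hx : x ∈ V
    · rw [if_pos hx, Finset.sum_eq_single ⟨x, hx⟩]
      · rw [MonoidAlgebra.coeff_single, Finsupp.single_eq_same, mul_one]
      · intro v _ hv
        rw [MonoidAlgebra.coeff_single, Finsupp.single_apply, if_neg]
        intro h'
        exact hv (Subtype.ext h')
      · intro h'
        exact absurd (Finset.mem_univ _) h'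
    · rw [if_neg hx, Finset.sum_eq_zero, mul_zero]
      intro v _
      rw [MonoidAlgebra.coeff_single, Finsupp.single_apply, if_neg]
      rintro rfl
      exact hx v.2
  apply MonoidAlgebra.coeff_injective
  ext x
  rw [br_coeff, MonoidAlgebra.coeff_smul, Finsupp.smul_apply, MonoidAlgebra.one_def,
    MonoidAlgebra.coeff_single, Finsupp.single_apply, hcoef]
  by_cases hx : x = 1
  · subst hx
    rw [if_pos (Subgroup.one_mem _), if_pos V.one_mem, if_pos rfl, smul_eq_mul, mul_one]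
  · have hx' : ¬ (1 = x) := fun h' => hx h'.symm
    rw [if_neg hx', smul_zero]
    split_ifs with h1 h2
    · exact absurd (h x h2 h1) hx
    · rfl
    · rfl

end Av

section Grp

variable {p : ℕ} [Fact p.Prime] {G : Type*} [Group G] [Finite G]

theorem mem_sup_Nm {V K : Subgroup G} (hK : K ≤ Nm V) {x : G} (hx : x ∈ V ⊔ K) :
    ∃ v ∈ V, ∃ y ∈ K, x = v * y := by
  have h : V ⊔ K ≤ VZ V K hK := sup_le (fun v hv => ⟨v, hv, 1, K.one_mem, (mul_one v).symm⟩)
    (fun z hz => ⟨1, V.one_mem, z, hz, (one_mul z).symm⟩)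
  exact h hx

theorem lv_of_pair {V Z : Subgroup G} (h : IsLeviPair V Z) : Lv V Z := by
  have hle : Ce Z ≤ Nm V := by rw [Nm, ← h.2]; exact le_sup_right
  refine ⟨fun x hx hx' => ?_, hle, fun x hx => ?_⟩
  · have h1 : x ∈ V ⊓ Subgroup.centralizer (Z : Set G) := ⟨hx, hx'⟩
    rw [h.1] at h1
    exact Subgroup.mem_bot.mp h1
  · rw [Nm, ← h.2] at hx
    exact mem_sup_Nm hle hx

/-- the largest `p`-subgroup of the centre of `C(Z)` -/
theorem exists_Mx {Z : Subgroup G} (hZ : IsPGroup p Z) (hab : ∀ x ∈ Z, ∀ y ∈ Z, x * y = y * x) :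
    ∃ Z' : Subgroup G, Mx p Z' ∧ Ce Z' = Ce Z ∧ Z ≤ Z' := by
  let Z' : Subgroup G :=
    { carrier := {x | x ∈ Ce Z ∧ (∀ y ∈ Ce Z, x * y = y * x) ∧ ∃ m : ℕ, x ^ (p ^ m) = 1}
      one_mem' := ⟨one_mem _, fun y _ => by rw [one_mul, mul_one], 0, one_pow _⟩
      mul_mem' := by
        rintro x y ⟨hx, hxc, m, hm⟩ ⟨hy, hyc, n, hn⟩
        refine ⟨mul_mem hx hy, fun z hz => by rw [mul_assoc, hyc z hz, ← mul_assoc, hxc z hz,
          mul_assoc], m + n, ?_⟩
        have hc : Commute x y := hxc y hy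
        rw [hc.mul_pow, pow_add, pow_mul, hm, one_pow, one_mul, mul_comm, pow_mul, hn, one_pow]
      inv_mem' := by
        rintro x ⟨hx, hxc, m, hm⟩
        refine ⟨inv_mem hx, fun z hz => ?_, m, by rw [inv_pow, hm, inv_one]⟩
        have hc : Commute x z := hxc z hz
        exact hc.inv_left }
  have hZZ' : Z ≤ Z' := fun z hz => by
    obtain ⟨m, hm⟩ := hZ ⟨z, hz⟩
    exact ⟨mem_Ce.mpr fun y hy => hab y hy z hz, fun y hy => mem_Ce.mp hy z hz, m,
      congrArg Subtype.val hm⟩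
  have hC : Ce Z' = Ce Z := by
    apply le_antisymm
    · exact Subgroup.centralizer_le hZZ'
    · intro x hx
      exact mem_Ce.mpr fun z hz => hz.2.1 x hx
  refine ⟨Z', ⟨?_, ?_, ?_⟩, hC, hZZ'⟩
  · rintro ⟨x, hx, hxc, m, hm⟩
    exact ⟨m, Subtype.ext hm⟩
  · rintro x ⟨hx, hxc, -⟩ y ⟨hy, -, -⟩
    exact hxc y hy
  · intro x hx hxc hm
    rw [hC] at hx hxc
    exact ⟨hx, hxc, hm⟩

theorem Lv.congr {V Z Z' : Subgroup G} (h : Lv V Z) (hZ : Ce Z' = Ce Z) : Lv V Z' := by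
  refine ⟨fun x hx hx' => h.inf x hx (hZ ▸ hx'), hZ ▸ h.le, fun x hx => ?_⟩
  obtain ⟨v, hv, c, hc, e⟩ := h.cov x hx
  exact ⟨v, hv, c, hZ ▸ hc, e⟩

/-- the Levi subgroup of a smaller parabolic subgroup can be chosen inside the given one -/
theorem exists_levi {V Q W Z₀ : Subgroup G} (hL : Lv V Q) (hQ : IsPGroup p Q)
    (hQab : ∀ x ∈ Q, ∀ y ∈ Q, x * y = y * x) (hVW : V ≤ W) (hWN : Nm W ≤ Nm V)
    (hW : ¬ p ∣ Nat.card W) (hL₀ : Lv W Z₀) (hZ₀ : IsPGroup p Z₀)
    (hab₀ : ∀ x ∈ Z₀, ∀ y ∈ Z₀, x * y = y * x) : ∃ Z, Mx p Z ∧ Lv W Z ∧ Q ≤ Z := by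
  obtain ⟨Zm, hMx, hCe, -⟩ := exists_Mx hZ₀ hab₀
  have hLm : Lv W Zm := hL₀.congr hCe
  have hQC : Q ≤ Ce Q := fun x hx => mem_Ce.mpr fun y hy => hQab y hy x hx
  have hQV : Q ≤ Nm V := hQC.trans hL.le
  have hWV : W ≤ Nm V := (le_Nm W).trans hWN
  have hconj : ∀ q ∈ Q, ∀ w ∈ W, q * w * q⁻¹ ∈ W := by
    intro q hq w hw
    obtain ⟨v, hv, l, hl, rfl⟩ := hL.cov w (hWV hw)
    have hlW : l ∈ W := by
      have : l = v⁻¹ * (v * l) := by group
      rw [this]; exact W.mul_mem (W.inv_mem (hVW hv)) hw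
    have h1 : q * (v * l) * q⁻¹ = (q * v * q⁻¹) * l := by
      have h2 := mem_Ce.mp hl q hq
      calc q * (v * l) * q⁻¹ = q * v * q⁻¹ * (q * l) * q⁻¹ := by group
        _ = q * v * q⁻¹ * (l * q) * q⁻¹ := by rw [h2]
        _ = _ := by group
    rw [h1]
    exact W.mul_mem (hVW (Nm_mul_mem (hQV hq) hv)) hlW
  have hQW : Q ≤ Nm W := by
    intro q hq
    rw [mem_Nm]
    intro w
    refine ⟨hconj q hq w, fun h => ?_⟩
    have h1 := hconj q⁻¹ (Q.inv_mem hq) _ h
    have e : q⁻¹ * (q * w * q⁻¹) * q⁻¹⁻¹ = w := by group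
    rwa [e] at h1
  have hZmW : Zm ≤ Nm W := hMx.le.trans hLm.le
  have hQA : Q ≤ VZ W Zm hZmW := by
    intro q hq
    obtain ⟨w, hw, c, hc, hqc⟩ := hLm.cov q (hQW hq)
    have hcN : c ∈ Nm W := hLm.le hc
    refine ⟨w, hw, c, hMx.max c hc ?_ ?_, hqc⟩
    · intro y hy
      obtain ⟨v, hv, l, hl, hyv⟩ := hL.cov y (hWN (hLm.le hy))
      have h1 : q * y * q⁻¹ * y⁻¹ ∈ W := by
        have h2 := mem_Ce.mp hl q hq
        have e : q * y * q⁻¹ * y⁻¹ = (q * v * q⁻¹) * v⁻¹ := by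
          rw [hyv]
          calc q * (v * l) * q⁻¹ * (v * l)⁻¹ = q * v * q⁻¹ * (q * l) * q⁻¹ * l⁻¹ * v⁻¹ := by group
            _ = q * v * q⁻¹ * (l * q) * q⁻¹ * l⁻¹ * v⁻¹ := by rw [h2]
            _ = _ := by group
        rw [e]
        exact hVW (V.mul_mem (Nm_mul_mem (hQV hq) hv) (V.inv_mem hv))
      have h3 : c * y * c⁻¹ * y⁻¹ ∈ W := by
        refine comm_mod (w := w) (u := 1) hcN (hLm.le hy) hw W.one_mem ?_
        rw [← hqc, one_mul]
        exact h1
      have h4 : c * y * c⁻¹ * y⁻¹ = 1 := by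
        refine hLm.inf _ h3 ?_
        exact (Ce Zm).mul_mem ((Ce Zm).mul_mem ((Ce Zm).mul_mem hc hy) ((Ce Zm).inv_mem hc))
          ((Ce Zm).inv_mem hy)
      have h6 : c * y * c⁻¹ * y⁻¹ * (y * c) = c * y := by group
      rw [← h6, h4, one_mul]
    · obtain ⟨m, hm⟩ := hQ ⟨q, hq⟩
      have hm' : q ^ p ^ m = 1 := congrArg Subtype.val hm
      refine ⟨m, ?_⟩
      obtain ⟨w', hw', hw2⟩ := pow_mod hw hcN (p ^ m)
      rw [← hqc, hm'] at hw2
      refine hLm.inf _ ?_ ((Ce Zm).pow_mem hc _)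
      have e : c ^ p ^ m = w'⁻¹ := (inv_eq_of_mul_eq_one_right hw2.symm).symm
      rw [e]
      exact W.inv_mem hw'
  obtain ⟨w, hw, hwQ⟩ := exists_conj (A := VZ W Zm hZmW) (E := Zm) (P := Q) (V := W)
    (fun z hz => ⟨1, W.one_mem, z, hz, (one_mul z).symm⟩) hQA
    (fun v hv => ⟨v, hv, 1, Zm.one_mem, (mul_one v).symm⟩) hQ hW (by
      rintro _ ⟨v, hv, z, hz, rfl⟩
      exact ⟨v, hv, by rw [inv_mul_cancel_left]; exact hz⟩)
  refine ⟨conjS w Zm, hMx.conj w, ?_, fun q hq => mem_conjS.mpr (hwQ q hq)⟩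
  have h1 := hLm.conj w
  rwa [conjS_eq_of_mem_Nm (le_Nm W hw)] at h1

end Grp

end Vale.Agent.P180.R2.H799.BN
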