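import Vale.Agent.P180.R2.H799.BNL1

/-!
P180: the Levi property of the parabolic system of the special linear group if `p` divides
`|K| - 1` and does not divide `dim E`.
-/

set_option linter.all false

namespace Vale.Agent.P180.R2.H799.BN

open Module Vale.Agent.P180.R2.H854 Vale.Agent.P180.R2.H799

theorem sum_ite_eq_card {ι : Type*} [Fintype ι] {p : ℕ} (α : ι → ℕ) (i : ℕ) (c : ZMod p) :
    ∑ l, (if α l = i then c else 0) =
      ((Finset.univ.filter fun l => α l = i).card : ZMod p) * c := by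
  rw [← Finset.sum_filter, Finset.sum_const, nsmul_eq_mul]

theorem exists_exp {ι : Type*} [Fintype ι] {p : ℕ} [Fact p.Prime] (α : ι → ℕ)
    (hn : ¬ p ∣ Fintype.card ι) {i₀ j₀ : ℕ} (hne : i₀ ≠ j₀) :
    ∃ t : ℕ → ZMod p, ∑ l, t (α l) = 0 ∧ t i₀ ≠ t j₀ := by
  classical
  by_contra hcon
  push Not at hcon
  set N : ℕ → ZMod p := fun i => ((Finset.univ.filter fun l => α l = i).card : ZMod p) with hN
  have hN' : ∀ i (c : ZMod p), ∑ l, (if α l = i then c else 0) = N i * c :=
    fun i c => sum_ite_eq_card α i c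
  have h1 : N j₀ = - N i₀ := by
    have h := hcon (fun i => (if i = i₀ then N j₀ else 0) + (if i = j₀ then - N i₀ else 0)) (by
      rw [Finset.sum_add_distrib, hN', hN']; ring)
    simpa [hne, hne.symm] using h
  have h2 : ∀ i, i ≠ i₀ ∧ i ≠ j₀ → N i = 0 := by
    rintro i ⟨hi, hj⟩
    have h := hcon (fun l => (if l = i₀ then N i else 0) + (if l = i then - N i₀ else 0)) (by
      rw [Finset.sum_add_distrib, hN', hN']; ring)
    simpa [hne, hne.symm, hi, hi.symm, hj, hj.symm] using h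
  apply hn
  rw [← CharP.cast_eq_zero_iff (ZMod p) p]
  have h3 : (Fintype.card ι : ZMod p) = ∑ i ∈ (Finset.univ.image α ∪ {i₀, j₀}), N i := by
    have h4 := Finset.card_eq_sum_card_fiberwise (f := α) (s := Finset.univ)
      (t := Finset.univ.image α ∪ {i₀, j₀}) (fun l _ => by simp)
    rw [← Finset.card_univ, h4]
    push_cast
    rfl
  rw [h3, Finset.sum_eq_add i₀ j₀ hne (fun c _ hc => h2 c hc) (by simp) (by simp), h1]
  ring

variable {K E : Type*} [Field K] [AddCommGroup E] [Module K E] [FiniteDimensional K E]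

/-- a diagonal element of the special linear group -/
theorem exists_diag {ι : Type*} [Fintype ι] [DecidableEq ι] (b : Basis ι K E) (d : ι → K)
    (hd : ∏ l, d l = 1) : ∃ z : SpecialLinearGroup K E, ∀ l, z (b l) = d l • b l := by
  have hdet : LinearMap.det (Matrix.toLin b b (Matrix.diagonal d)) = 1 := by
    rw [LinearMap.det_toLin, Matrix.det_diagonal, hd]
  refine ⟨mkSL _ hdet, fun l => ?_⟩
  rw [mkSL_apply, Matrix.toLin_self]
  rw [Finset.sum_eq_single l]
  · rw [Matrix.diagonal_apply_eq]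
  · intro m _ hm
    rw [Matrix.diagonal_apply_ne _ hm, zero_smul]
  · intro h
    exact absurd (Finset.mem_univ l) h

theorem sl_smul (z : SpecialLinearGroup K E) (c : K) (x : E) : z (c • x) = c • z x :=
  map_smul (toEnd z) _ _

theorem sl_ext {ι : Type*} (b : Basis ι K E) {x y : SpecialLinearGroup K E}
    (h : ∀ l, x (b l) = y (b l)) : x = y :=
  toEnd_injective (b.ext fun l => h l)

/-- the diagonal elements of order dividing `p` with equal eigenvalues on the blocks -/
def Zd {ι : Type*} (p : ℕ) [Fact p.Prime] (b : Basis ι K E) (α : ι → ℕ) :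
    Subgroup (SpecialLinearGroup K E) where
  carrier := {z | ∃ c : ℕ → K, (∀ i, c i ^ p = 1) ∧ ∀ l, z (b l) = c (α l) • b l}
  one_mem' := ⟨fun _ => 1, fun _ => one_pow p, fun l => by rw [one_smul]; rfl⟩
  mul_mem' := by
    rintro x y ⟨c, hc, hx⟩ ⟨d, hd, hy⟩
    refine ⟨fun i => c i * d i, fun i => by rw [mul_pow, hc, hd, one_mul], fun l => ?_⟩
    rw [mul_apply', hy, sl_smul, hx, smul_smul, mul_comm]
  inv_mem' := by
    rintro x ⟨c, hc, hx⟩
    refine ⟨fun i => (c i)⁻¹, fun i => by rw [inv_pow, hc, inv_one], fun l => ?_⟩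
    have hc0 : c (α l) ≠ 0 := by
      intro h0
      have := hc (α l)
      rw [h0, zero_pow (Fact.out : p.Prime).ne_zero] at this
      exact zero_ne_one this
    have h1 : x ((c (α l))⁻¹ • b l) = b l := by
      rw [sl_smul, hx, smul_smul, inv_mul_cancel₀ hc0, one_smul]
    calc x⁻¹ (b l) = x⁻¹ (x ((c (α l))⁻¹ • b l)) := by rw [h1]
      _ = _ := inv_apply_self' x _

theorem mem_Zd {ι : Type*} {p : ℕ} [Fact p.Prime] {b : Basis ι K E} {α : ι → ℕ}
    {z : SpecialLinearGroup K E} :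
    z ∈ Zd p b α ↔ ∃ c : ℕ → K, (∀ i, c i ^ p = 1) ∧ ∀ l, z (b l) = c (α l) • b l := Iff.rfl

theorem pow_apply_eigen {z : SpecialLinearGroup K E} {x : E} {c : K} (h : z x = c • x) (m : ℕ) :
    (z ^ m) x = c ^ m • x := by
  induction m with
  | zero => rw [pow_zero, pow_zero, one_smul]; rfl
  | succ m ih => rw [pow_succ, mul_apply', h, sl_smul, ih, smul_smul, pow_succ, mul_comm]

theorem Zd_isPGroup {ι : Type*} {p : ℕ} [Fact p.Prime] {b : Basis ι K E} {α : ι → ℕ} :
    IsPGroup p (Zd p b α) := by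
  rintro ⟨z, c, hc, hz⟩
  refine ⟨1, Subtype.ext (sl_ext b fun l => ?_)⟩
  rw [pow_one]
  change (z ^ p) (b l) = (1 : SpecialLinearGroup K E) (b l)
  rw [pow_apply_eigen (hz l), hc, one_smul]
  rfl

theorem Zd_comm {ι : Type*} {p : ℕ} [Fact p.Prime] {b : Basis ι K E} {α : ι → ℕ} :
    ∀ x ∈ Zd p b α, ∀ y ∈ Zd p b α, x * y = y * x := by
  rintro x ⟨c, hc, hx⟩ y ⟨d, hd, hy⟩
  refine sl_ext b fun l => ?_
  rw [mul_apply', mul_apply', hx, hy, sl_smul, sl_smul, hx, hy, smul_smul, smul_smul, mul_comm]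

/-- the centraliser of `Zd` -/
theorem cent_Zd [Finite K] {ι : Type*} [Fintype ι] {p : ℕ} [Fact p.Prime] (b : Basis ι K E)
    (α : ι → ℕ) (hp1 : p ∣ Nat.card K - 1) (hn : ¬ p ∣ finrank K E)
    (g : SpecialLinearGroup K E) :
    g ∈ Subgroup.centralizer (Zd p b α : Set (SpecialLinearGroup K E)) ↔ BD b α g := by
  classical
  have _ := Fintype.ofFinite K
  rw [Subgroup.mem_centralizer_iff]
  constructor
  · intro h l m hm
    by_contra hne
    have hcard : Fintype.card ι = finrank K E := (finrank_eq_card_basis b).symm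
    rw [← hcard] at hn
    obtain ⟨t, ht, htne⟩ := exists_exp (p := p) α hn hne
    -- an element of order `p`
    have hdvd : p ∣ Fintype.card Kˣ := by
      rw [Fintype.card_units, ← Nat.card_eq_fintype_card]
      exact hp1
    obtain ⟨ζ, hζ⟩ := exists_prime_orderOf_dvd_card p hdvd
    have hζp : ζ ^ p = 1 := by
      have := pow_orderOf_eq_one ζ
      rwa [hζ] at this
    have hprod : ∏ l, ((ζ ^ (t (α l)).val : Kˣ) : K) = 1 := by
      rw [← Units.coe_prod, Finset.prod_pow_eq_pow_sum]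
      have h1 : p ∣ ∑ l, (t (α l)).val := by
        rw [← CharP.cast_eq_zero_iff (ZMod p) p]
        push_cast
        simpa using ht
      obtain ⟨m, hm⟩ := h1
      rw [hm, pow_mul, hζp, one_pow, Units.val_one]
    obtain ⟨z, hz⟩ := exists_diag b (fun l => ((ζ ^ (t (α l)).val : Kˣ) : K)) hprod
    have hzZ : z ∈ Zd p b α := by
      refine ⟨fun i => ((ζ ^ (t i).val : Kˣ) : K), fun i => ?_, hz⟩
      rw [← Units.val_pow_eq_pow_val, ← pow_mul, mul_comm, pow_mul, hζp, one_pow, Units.val_one]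
    have h2 := coeff_of_comm hz (h z hzZ) l m hm
    have h3 := Units.ext h2
    rw [pow_eq_pow_iff_modEq, hζ] at h3
    apply htne
    have h4 := (ZMod.natCast_eq_natCast_iff _ _ _).mpr h3
    simpa using h4
  · rintro hg z ⟨c, hc, hz⟩
    exact comm_of_BD (c := fun l => c (α l)) hg hz fun l m h => by simp only [h]

/-- **The Levi property** of the special linear group. -/
theorem hasLevi_sl [Finite K] {p : ℕ} (hp : p.Prime) (hK : ¬ p ∣ Nat.card K)
    (hp1 : p ∣ Nat.card K - 1) (hn : ¬ p ∣ finrank K E) : (slSys K E p hp hK).HasLevi := by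
  have _ : Fact p.Prime := ⟨hp⟩
  rintro _ ⟨F, rfl⟩
  obtain ⟨N, hN⟩ := F.top
  obtain ⟨b, hb, -⟩ := exists_adapted F F hN hN
  exact ⟨Zd p b (fun l => (l.1.1 : ℕ)), Zd_isPGroup, Zd_comm,
    levi_pair hb (cent_Zd b _ hp1 hn)⟩

end Vale.Agent.P180.R2.H799.BN
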