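import Vale.Agent.P180.R2.H799.BNL3

/-!
P180: the `p`-subgroups of the special linear group in dimension `< p` over a field with `q`
elements, `p ∣ q - 1`, are diagonalisable.
-/

set_option linter.all false

namespace Vale.Agent.P180.R2.H799.BN

open Module Vale.Agent.P180.R2.H854 Vale.Agent.P180.R2.H799
open scoped LinearAlgebra.Projectivization

/-- a `p`-group has a common eigenvector if `p ∣ q - 1` and `p` does not divide the dimension -/
theorem exists_eigen {K V P : Type*} [Field K] [Finite K] [AddCommGroup V] [Module K V]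
    [FiniteDimensional K V] [Group P] [Finite P] {p : ℕ} [Fact p.Prime] (hP : IsPGroup p P)
    (hp1 : p ∣ Nat.card K - 1) (hn : ¬ p ∣ finrank K V) (ρ : Representation K P V) :
    ∃ v : V, v ≠ 0 ∧ ∀ g, ∃ c : K, ρ g v = c • v := by
  classical
  letI : DistribMulAction P V := DistribMulAction.compHom V ρ
  have hsm : ∀ (g : P) (v : V), g • v = ρ g v := fun _ _ => rfl
  haveI : SMulCommClass P K V := ⟨fun g c v => by
    rw [hsm, hsm, map_smul]⟩
  have hfin : Finite V := Module.finite_of_finite K
  have _ := Fintype.ofFinite (ℙ K V)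
  have h1 := hP.card_modEq_card_fixedPoints (ℙ K V)
  have h2 : ¬ p ∣ Nat.card (ℙ K V) := by
    rw [Projectivization.card_of_finrank K V rfl]
    intro hd
    apply hn
    have h3 : (∑ i ∈ Finset.range (finrank K V), Nat.card K ^ i) ≡
        ∑ i ∈ Finset.range (finrank K V), 1 [MOD p] := by
      have h4 : Nat.card K ≡ 1 [MOD p] := by
        have : 1 < Nat.card K := Finite.one_lt_card
        exact ((Nat.modEq_iff_dvd' this.le).mpr hp1).symm
      refine Nat.ModEq.sum fun i _ => ?_
      simpa using h4.pow i
    have h4 := (h3.dvd_iff dvd_rfl).mp hd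
    simpa using h4
  have h3 : ¬ p ∣ Nat.card (MulAction.fixedPoints P (ℙ K V)) := by
    intro hd
    exact h2 ((h1.dvd_iff dvd_rfl).mpr hd)
  have h4 : Nonempty (MulAction.fixedPoints P (ℙ K V)) := by
    by_contra h
    rw [not_nonempty_iff] at h
    exact h3 (by rw [Nat.card_of_isEmpty]; exact dvd_zero _)
  obtain ⟨⟨x, hx⟩⟩ := h4
  induction x using Projectivization.ind with
  | h v hv =>
    refine ⟨v, hv, fun g => ?_⟩
    have h5 := hx g
    rw [Projectivization.smul_mk, Projectivization.mk_eq_mk_iff'] at h5
    obtain ⟨c, hc⟩ := h5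
    exact ⟨c, by rw [hc]; rfl⟩

variable {K E : Type*} [Field K] [AddCommGroup E] [Module K E] [FiniteDimensional K E]

theorem span_EV_of_lt [Finite K] {p : ℕ} [Fact p.Prime] {Q : Subgroup (SpecialLinearGroup K E)}
    (hQ : IsPGroup p Q) (hp1 : p ∣ Nat.card K - 1) (hn : finrank K E < p) :
    Submodule.span K (EV Q) = ⊤ := by
  classical
  have _ := Fintype.ofFinite K
  have hfin : Finite E := Module.finite_of_finite K
  have hfG : Finite (SpecialLinearGroup K E) := by
    refine Finite.of_injective (fun g : SpecialLinearGroup K E => (fun x => g x : E → E)) ?_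
    intro g h hgh
    apply toEnd_injective
    ext x
    exact congrFun hgh x
  have hK : NeZero (Nat.card Q : K) := by
    refine ⟨fun h0 => ?_⟩
    obtain ⟨m, hm⟩ := IsPGroup.iff_card.mp hQ
    rw [hm, Nat.cast_pow] at h0
    have h1 : (p : K) = 0 := eq_zero_of_pow_eq_zero h0
    obtain ⟨c, hc⟩ := hp1
    have h2 : ((Nat.card K - 1 : ℕ) : K) = 0 := by rw [hc, Nat.cast_mul, h1, zero_mul]
    have hq1 : 1 < Fintype.card K := Fintype.one_lt_card
    rw [Nat.card_eq_fintype_card, Nat.cast_sub hq1.le, FiniteField.cast_card_eq_zero,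
        Nat.cast_one, zero_sub] at h2
    exact neg_ne_zero.mpr one_ne_zero h2
  let ρ : Representation K Q E :=
    { toFun := fun g => toEnd (g : SpecialLinearGroup K E)
      map_one' := toEnd_one
      map_mul' := fun g h => toEnd_mul _ _ }
  let W : Subrepresentation ρ :=
    { toSubmodule := Submodule.span K (EV Q)
      apply_mem_toSubmodule := by
        intro g v hv
        induction hv using Submodule.span_induction with
        | mem x hx =>
          obtain ⟨c, hc⟩ := hx g g.2
          have : ρ g x = c • x := hc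
          rw [this]
          exact Submodule.smul_mem _ _ (Submodule.subset_span hx)
        | zero => rw [map_zero]; exact Submodule.zero_mem _
        | add x y _ _ hx hy => rw [map_add]; exact Submodule.add_mem _ hx hy
        | smul c x _ hx => rw [map_smul]; exact Submodule.smul_mem _ _ hx }
  have hss : Representation.IsSemisimpleRepresentation ρ := inferInstance
  obtain ⟨C, hC⟩ := ComplementedLattice.exists_isCompl W
  have hC1 : W.toSubmodule ⊓ C.toSubmodule = ⊥ := by
    rw [← Subrepresentation.toSubmodule_inf, hC.inf_eq_bot]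
    rfl
  have hC2 : W.toSubmodule ⊔ C.toSubmodule = ⊤ := by
    rw [← Subrepresentation.toSubmodule_sup, hC.sup_eq_top]
    rfl
  by_contra hne
  have hC0 : 0 < finrank K C.toSubmodule := by
    rw [Nat.pos_iff_ne_zero]
    intro h0
    have h1 : C.toSubmodule = ⊥ := Submodule.finrank_eq_zero.mp h0
    rw [h1, sup_bot_eq] at hC2
    exact hne hC2
  have hCn : ¬ p ∣ finrank K C.toSubmodule := by
    intro hd
    have h1 := Nat.le_of_dvd hC0 hd
    have h2 := Submodule.finrank_le C.toSubmodule
    omega
  obtain ⟨v, hv0, hv⟩ := exists_eigen hQ hp1 hCn C.toRepresentation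
  have h1 : (v : E) ∈ EV Q := by
    intro g hg
    obtain ⟨c, hc⟩ := hv ⟨g, hg⟩
    exact ⟨c, congrArg Subtype.val hc⟩
  have h2 : (v : E) ∈ W.toSubmodule ⊓ C.toSubmodule := ⟨Submodule.subset_span h1, v.2⟩
  rw [hC1, Submodule.mem_bot] at h2
  exact hv0 (Subtype.ext h2)

end Vale.Agent.P180.R2.H799.BN
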