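import Vale.Agent.P180.R2.H799.BN6
import Vale.Agent.P180.R2.H799.BNL4
import Vale.Agent.P180.R2.H799.BNQ
import Vale.Agent.P180.R2.H854.FlagOrb

/-!
P180: the corner bound for central quotients of special linear groups.
-/

set_option linter.all false

namespace Vale.Agent.P180.R2.H799.BN

open Module Vale.Agent.P180.R2.H854 Vale.Agent.P180.R2.H799

universe u

variable {K E : Type*} [Field K] [Finite K] [AddCommGroup E] [Module K E] [FiniteDimensional K E]

theorem not_dvd_center {p : ℕ} [Fact p.Prime] (hn : ¬ p ∣ finrank K E)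
    {Z : Subgroup (SpecialLinearGroup K E)} (hZ : Z ≤ Subgroup.center _) : ¬ p ∣ Nat.card Z := by
  intro hd
  have h1 := hd.trans (Subgroup.card_dvd_of_le hZ)
  rw [Nat.card_congr (SpecialLinearGroup.centerEquivRootsOfUnity (R := K) (V := E)).toEquiv] at h1
  have hn1 : max (finrank K E) 1 = finrank K E := by
    refine max_eq_left ?_
    rcases Nat.eq_zero_or_pos (finrank K E) with h | h
    · exact absurd (by rw [h]; exact dvd_zero p) hn
    · exact h
  obtain ⟨x, hx⟩ := exists_prime_orderOf_dvd_card' p h1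
  have h2 : x ^ (max (finrank K E) 1) = 1 := Subtype.ext x.2
  have h3 := orderOf_dvd_of_pow_eq_one h2
  rw [hx] at h3
  apply hn
  rwa [hn1] at h3

theorem finite_sl : Finite (SpecialLinearGroup K E) := by
  have hfin : Finite E := Module.finite_of_finite K
  refine Finite.of_injective (fun g : SpecialLinearGroup K E => (fun x => g x : E → E)) ?_
  intro g h hgh
  apply toEnd_injective
  ext x
  exact congrFun hgh x

/-- **The corner bound** for a central quotient of the special linear group. -/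
theorem cornerBd_sl {k : Type u} [Field k] [IsAlgClosed k] {p : ℕ} [Fact p.Prime] [CharP k p]
    (hp1 : p ∣ Nat.card K - 1) (hn : ¬ p ∣ finrank K E) {L : Type} [Group L] [Finite L]
    (π : SpecialLinearGroup K E →* L) (hπ : Function.Surjective π)
    (hk : π.ker ≤ Subgroup.center _) {D : Subgroup L} (hD : IsPGroup p D)
    (hdiag : finrank K E < p ∨
      ((∀ x ∈ D, ∀ y ∈ D, x * y = y * x) ∧ ∀ x ∈ D, x ^ (Nat.card K - 1) = 1)) :
    H954.CornerBd k D ((Nat.card D).factorial * (Nat.card D * Nat.card D)) := by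
  have hp : p.Prime := Fact.out
  have hfG : Finite (SpecialLinearGroup K E) := finite_sl
  have hq1 : 1 < Nat.card K := Finite.one_lt_card
  have hK : ¬ p ∣ Nat.card K := by
    intro hd
    have h1 := Nat.dvd_sub hd hp1
    rw [Nat.sub_sub_self hq1.le, Nat.dvd_one] at h1
    exact hp.one_lt.ne' h1
  have hkp : ¬ p ∣ Nat.card π.ker := not_dvd_center hn hk
  have hc : ∀ V ∈ (slSys K E p hp hK).car, (Nat.card V).Coprime (Nat.card π.ker) := by
    rintro _ ⟨F, rfl⟩
    exact coprime_center hk F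
  obtain ⟨Q, hQ, rfl⟩ := exists_lift (p := p) π hπ hD
  have hker : ∀ x ∈ Q, π x = 1 → x = 1 := by
    intro x hx h1
    have h2 : orderOf x ∣ Nat.card π.ker := by
      have h3 := orderOf_dvd_natCard (⟨x, h1⟩ : π.ker)
      rwa [show orderOf (⟨x, h1⟩ : π.ker) = orderOf x from
        (orderOf_injective π.ker.subtype π.ker.subtype_injective _).symm] at h3
    obtain ⟨m, hm⟩ := hQ ⟨x, hx⟩
    have hm' : x ^ p ^ m = 1 := congrArg Subtype.val hm
    obtain ⟨j, -, hj⟩ := (Nat.dvd_prime_pow hp).mp (orderOf_dvd_of_pow_eq_one hm')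
    rw [hj] at h2
    rcases Nat.eq_zero_or_pos j with h0 | h0
    · rw [h0, pow_zero] at hj
      exact orderOf_eq_one_iff.mp hj
    · exact absurd ((dvd_pow_self p h0.ne').trans h2) hkp
  have hspan : Submodule.span K (EV Q) = ⊤ := by
    rcases hdiag with h | ⟨h1, h2⟩
    · exact span_EV_of_lt hQ hp1 h
    · refine span_EV_of_comm ?_ ?_
      · intro x hx y hy
        have h3 := h1 _ ⟨x, hx, rfl⟩ _ ⟨y, hy, rfl⟩
        have h4 : x * y * x⁻¹ * y⁻¹ = 1 := by
          refine hker _ (Q.mul_mem (Q.mul_mem (Q.mul_mem hx hy) (Q.inv_mem hx)) (Q.inv_mem hy)) ?_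
          rw [map_mul, map_mul, map_mul, map_inv, map_inv, h3]
          group
        calc x * y = (x * y * x⁻¹ * y⁻¹) * (y * x) := by group
          _ = y * x := by rw [h4, one_mul]
      · intro g hg
        refine hker _ (Q.pow_mem hg _) ?_
        rw [map_pow]
        exact h2 _ ⟨g, hg, rfl⟩
  obtain ⟨F, hF⟩ := exists_pair_of_span hspan
  refine corner_bd (k := k) (imageSys π (slSys K E p hp hK) hπ hk hc)
    (hasLevi_image π hπ hk hkp hc (hasLevi_sl hp hK hp1 hn)) (V := (VF F).map π)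
    ⟨VF F, ⟨F, rfl⟩, rfl⟩ (pair_image π hπ hk hkp hQ (hc _ ⟨F, rfl⟩) hF) hD ?_
  rintro _ ⟨x, hx, rfl⟩ _ ⟨y, hy, rfl⟩
  rw [← map_mul, ← map_mul, comm_of_span hspan x hx y hy]

end Vale.Agent.P180.R2.H799.BN
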