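import Vale.Agent.P180.R2.H799.BV1
import Vale.Agent.P180.R2.H799.BNL5

/-!
P180: the parabolic system of the special linear group satisfies `LeviP`; the Harish-Chandra step
with the elements of order `p` of the defect group.
-/

set_option linter.all false

namespace Vale.Agent.P180.R2.H799.BN

open Module Vale.Agent.P180 Vale.Agent.P180.H768.Gd Vale.Agent.P180.R2.H854 Vale.Agent.P180.R2.H799
open Vale.Agent.P180.R2.H471.Hc (OneBd exists_block_br tr_of_br)

universe u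

section

variable {K E : Type*} [Field K] [AddCommGroup E] [Module K E] [FiniteDimensional K E]

theorem Zd_pow {ι : Type*} {p : ℕ} [Fact p.Prime] {b : Basis ι K E} {α : ι → ℕ} :
    ∀ z ∈ Zd p b α, z ^ p = 1 := by
  rintro z ⟨c, hc, hz⟩
  refine sl_ext b fun l => ?_
  rw [pow_apply_eigen (hz l), hc, one_smul]
  rfl

/-- The Levi subgroups of the special linear group are centralisers of subgroups of
exponent `p`. -/
theorem leviP_sl [Finite K] {p : ℕ} (hp : p.Prime) (hK : ¬ p ∣ Nat.card K)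
    (hp1 : p ∣ Nat.card K - 1) (hn : ¬ p ∣ finrank K E) : LeviP (slSys K E p hp hK) := by
  have _ : Fact p.Prime := ⟨hp⟩
  rintro _ ⟨F, rfl⟩
  obtain ⟨N, hN⟩ := F.top
  obtain ⟨b, hb, -⟩ := exists_adapted F F hN hN
  exact ⟨Zd p b (fun l => (l.1.1 : ℕ)), Zd_pow, Zd_comm,
    levi_pair hb (cent_Zd b _ hp1 hn)⟩

end

section

variable {G : Type*} [Group G]

/-- the elements of order dividing `p` of an abelian subgroup -/
def Omp (p : ℕ) (Q : Subgroup G) (hab : ∀ x ∈ Q, ∀ y ∈ Q, x * y = y * x) : Subgroup G where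
  carrier := {x | x ∈ Q ∧ x ^ p = 1}
  one_mem' := ⟨Q.one_mem, one_pow p⟩
  mul_mem' := by
    rintro x y ⟨hx, hx'⟩ ⟨hy, hy'⟩
    have hc : Commute x y := hab x hx y hy
    exact ⟨Q.mul_mem hx hy, by rw [hc.mul_pow, hx', hy', one_mul]⟩
  inv_mem' := by
    rintro x ⟨hx, hx'⟩
    exact ⟨Q.inv_mem hx, by rw [inv_pow, hx', inv_one]⟩

theorem mem_Omp {p : ℕ} {Q : Subgroup G} {hab : ∀ x ∈ Q, ∀ y ∈ Q, x * y = y * x} {x : G} :
    x ∈ Omp p Q hab ↔ x ∈ Q ∧ x ^ p = 1 := Iff.rfl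

theorem Omp_le {p : ℕ} {Q : Subgroup G} {hab : ∀ x ∈ Q, ∀ y ∈ Q, x * y = y * x} :
    Omp p Q hab ≤ Q := fun x hx => hx.1

end

/-- `Q` is the largest `p`-subgroup of the centre of its centraliser if a block is a relative trace
from `Q` and not killed by the Brauer homomorphism. -/
theorem mx_of_block {k : Type u} [Field k] {p : ℕ} [Fact p.Prime] [CharP k p] {G : Type}
    [Group G] [Finite G] {Q : Subgroup G} (hQ : IsPGroup p Q)
    (hab : ∀ x ∈ Q, ∀ y ∈ Q, x * y = y * x) {e a : MonoidAlgebra k G} (hee : e * e = e)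
    (ha : a ∈ Fix (cj k G) Q) (hea : e = tr (cj k G) Q ⊤ a) (hbr : br Q e ≠ 0) : Mx p Q := by
  obtain ⟨f, hf, hef⟩ := exists_block_br (Ce Q) Q hbr
  have hQC : Q ≤ Ce Q := fun x hx => mem_Ce.mpr fun y hy => hab y hy x hx
  obtain ⟨w, hwL, hwF, hfw⟩ := tr_of_br hQC hQ le_rfl hee ha hea hf hef
  refine ⟨hQ, hab, ?_⟩
  rintro x hx hxc ⟨m, hm⟩
  have hxp : IsPGroup p (Subgroup.zpowers x) := by
    rintro ⟨y, hy⟩
    obtain ⟨n, rfl⟩ := Subgroup.mem_zpowers_iff.mp hy
    refine ⟨m, Subtype.ext ?_⟩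
    change (x ^ n) ^ p ^ m = 1
    rw [← zpow_natCast, ← zpow_mul, mul_comm, zpow_mul, zpow_natCast, hm, one_zpow]
  refine le_of_tr (L := Ce Q) hQC ((Subgroup.zpowers_le).mpr hx) hxp ?_ hf.mem.1 hf.ne_zero hwF hfw
    (Subgroup.mem_zpowers x)
  intro z hz l hl
  obtain ⟨n, rfl⟩ := Subgroup.mem_zpowers_iff.mp hz
  have h1 : Commute x l := hxc l hl
  exact (h1.zpow_left n)

section SL

variable {K E : Type} [Field K] [Finite K] [AddCommGroup E] [Module K E] [FiniteDimensional K E]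

/-- **The Harish-Chandra step for the special linear group.** The Levi subgroup is the centraliser
of the elements of order `p` of the abelian defect group `Q`. -/
theorem oneBd_hc_sl [Finite (SpecialLinearGroup K E)] {k : Type u} [Field k] {p : ℕ}
    [Fact p.Prime] [CharP k p]
    (hp1 : p ∣ Nat.card K - 1) (hn : ¬ p ∣ finrank K E) {Q : Subgroup (SpecialLinearGroup K E)}
    (hQ : IsPGroup p Q) (hab : ∀ x ∈ Q, ∀ y ∈ Q, x * y = y * x) {C : ℕ}
    (hC : Mx p Q → OneBd k (Q.subgroupOf (Ce (Omp p Q hab))) C) :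
    OneBd k Q ((Nat.card Q).factorial * (C * C)) := by
  have hp : p.Prime := Fact.out
  have hq1 : 1 < Nat.card K := Finite.one_lt_card
  have hK : ¬ p ∣ Nat.card K := by
    intro hd
    have h1 := Nat.dvd_sub hd hp1
    rw [Nat.sub_sub_self hq1.le, Nat.dvd_one] at h1
    exact hp.one_lt.ne' h1
  intro e a he ha hea hbr
  have hMx := mx_of_block hQ hab he.idem.eq ha hea hbr
  have hspan : Submodule.span K (EV (Omp p Q hab)) = ⊤ := by
    refine span_EV_of_comm (fun x hx y hy => hab x hx.1 y hy.1) ?_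
    intro g hg
    obtain ⟨c, hc⟩ := hp1
    rw [hc, pow_mul, hg.2, one_pow]
  obtain ⟨F, hF⟩ := exists_pair_of_span hspan
  have hle : Omp p Q hab ≤ Q := Omp_le
  refine oneBd_hc (slSys K E p hp hK) (leviP_sl hp hK hp1 hn) ⟨F, rfl⟩ (lv_of_pair hF)
    (hQ.to_le hle) (fun x hx y hy => hab x hx.1 y hy.1) hQ
    (fun x hx => mem_Ce.mpr fun y hy => hab y hy.1 x hx) (Subgroup.centralizer_le hle)
    (fun x hx hxp l hl => mem_Ce.mp hl x ⟨hx, hxp⟩) (hC hMx) e a he ha hea hbr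

end SL

end Vale.Agent.P180.R2.H799.BN
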