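import Vale.Agent.P180.R2.H799.BV2
import Vale.Agent.P180.R2.H854.TX

/-!
P180: the Harish-Chandra step for the isometry groups, split case, any dimension.
-/

set_option linter.all false

namespace Vale.Agent.P180.R2.H799.BN

open Module Vale.Agent.P180 Vale.Agent.P180.H768.Gd Vale.Agent.P180.R2.H854 Vale.Agent.P180.R2.H799
open Vale.Agent.P180.R2.H471.Hc (OneBd)

universe u

section

variable {K E : Type} [Field K] [Finite K] [AddCommGroup E] [Module K E] [FiniteDimensional K E]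
  {Φ : HForm K E} {X : Subgroup (SpecialLinearGroup K E)}

/-- The Levi subgroups of the isometry groups are centralisers of subgroups of exponent `p`. -/
theorem leviPT {p : ℕ} (hp : p.Prime) (hKp : ¬ p ∣ Nat.card K) (hT : Φ.Tr)
    (hnorm : Φ.NormCond) (hXI : X ≤ Φ.Iso) (hX2 : X.relIndex Φ.Iso ∣ 2)
    (hV : ∀ F, Φ.SD F → VF F ⊓ Φ.Iso ≤ X) (hp2 : Odd p)
    {ζ : K} (hζ : ζ ^ p = 1) (hζ1 : ζ ≠ 1) (hζθ : Φ.θ ζ = ζ) :
    LeviP ((Φ.flagGeo hT hnorm hXI hV).sys p hp hKp) := by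
  have _ : Fact p.Prime := ⟨hp⟩
  rintro _ ⟨_, ⟨F, hFS, rfl⟩, rfl⟩
  obtain ⟨N, h0, hN, hF⟩ := id hFS
  obtain ⟨b, hb, -, hB'⟩ := Φ.exists_sd_basis2T hT hN hF h0 hN hF
  set α : Idx F F N N → ℕ := fun l => l.1.1 with hα
  have hB : ∀ l m, α l + α m + 1 ≠ N → Φ.B (b l) (b m) = 0 :=
    fun l m hlm => hB' l m fun h => hlm h.1
  have hc := Φ.cent_Zd_iso hp2 hb hN hF hB hζ hζ1 hζθ
  have hZX : Zd p b α ⊓ Φ.Iso ≤ X := by
    rintro z ⟨hz, hzI⟩
    obtain ⟨c, hc, hcz⟩ := hz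
    refine mem_of_relIndex_dvd_two hX2 hzI hp2 (sl_ext b fun l => ?_)
    rw [pow_apply_eigen (hcz l), hc, one_smul]
    rfl
  refine ⟨(Zd p b α ⊓ Φ.Iso).subgroupOf X, ?_, ?_,
    (Φ.flagGeo hT hnorm hXI hV).levi hFS hb (Φ.dg_mem_X hXI (hV F hFS) hb hN hF hB) hZX hc⟩
  · intro x hx
    apply Subtype.ext
    exact Zd_pow (p := p) x.1 hx.1
  · intro x hx y hy
    apply Subtype.ext
    exact Zd_comm (p := p) x.1 hx.1 y.1 hy.1

/-- **The Harish-Chandra step for the isometry groups.** The Levi subgroup is the centraliser of the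
elements of order `p` of the abelian defect group `Q`. -/
theorem oneBd_hc_iso [Finite (SpecialLinearGroup K E)] {k : Type u} [Field k] {p : ℕ}
    [Fact p.Prime] [CharP k p] (hKp : ¬ p ∣ Nat.card K) (hT : Φ.Tr)
    (hnorm : Φ.NormCond) (hXI : X ≤ Φ.Iso) (hX2 : X.relIndex Φ.Iso ∣ 2)
    (hV : ∀ F, Φ.SD F → VF F ⊓ Φ.Iso ≤ X) (hp2 : Odd p)
    {ζ : K} (hζ : ζ ^ p = 1) (hζ1 : ζ ≠ 1) (hζθ : Φ.θ ζ = ζ) {Q : Subgroup X}
    (hQ : IsPGroup p Q) (hab : ∀ x ∈ Q, ∀ y ∈ Q, x * y = y * x) {C : ℕ}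
    (hC : Mx p Q → OneBd k (Q.subgroupOf (Ce (Omp p Q hab))) C) :
    OneBd k Q ((Nat.card Q).factorial * (C * C)) := by
  classical
  have hp : p.Prime := Fact.out
  intro e a he ha hea hbr
  have hMx := mx_of_block hQ hab he.idem.eq ha hea hbr
  have hp1 : p ∣ Nat.card K - 1 := by
    have _ := Fintype.ofFinite K
    have h0 : ζ ≠ 0 := by
      rintro rfl
      rw [zero_pow hp.ne_zero] at hζ
      exact zero_ne_one hζ
    have h3 : orderOf ζ = p := orderOf_eq_prime hζ hζ1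
    have h4 := FiniteField.pow_card_sub_one_eq_one ζ h0
    rw [← h3, Nat.card_eq_fintype_card]
    exact orderOf_dvd_of_pow_eq_one h4
  have hle : Omp p Q hab ≤ Q := Omp_le
  have hΩp : IsPGroup p (Omp p Q hab) := hQ.to_le hle
  set Ω : Subgroup X := Omp p Q hab with hΩ
  have hspan : Submodule.span K (EV (Ω.map X.subtype)) = ⊤ := by
    refine span_EV_of_comm ?_ ?_
    · rintro _ ⟨x, hx, rfl⟩ _ ⟨y, hy, rfl⟩
      rw [← map_mul, ← map_mul, hab x hx.1 y hy.1]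
    · rintro _ ⟨g, hg, rfl⟩
      obtain ⟨c, hc⟩ := hp1
      rw [← map_pow, hc, pow_mul, hg.2, one_pow, map_one]
  have hΩX : Ω.map X.subtype ≤ X := by
    rintro _ ⟨x, -, rfl⟩
    exact x.2
  obtain ⟨F, hF, hpair⟩ := Φ.exists_pairT hp hT hnorm hXI hV hp2 hζ hζ1 hζθ hΩX (hΩp.map _) hspan
  have hsub : (Ω.map X.subtype).subgroupOf X = Ω := by
    ext x
    constructor
    · rintro ⟨y, hy, hyx⟩
      have h1 : y = x := Subtype.ext hyx
      rw [← h1]; exact hy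
    · intro hx
      exact ⟨x, hx, rfl⟩
  rw [hsub] at hpair
  exact oneBd_hc ((Φ.flagGeo hT hnorm hXI hV).sys p hp hKp)
    (leviPT hp hKp hT hnorm hXI hX2 hV hp2 hζ hζ1 hζθ) ⟨_, ⟨F, hF, rfl⟩, rfl⟩ (lv_of_pair hpair)
    hΩp (fun x hx y hy => hab x hx.1 y hy.1) hQ
    (fun x hx => mem_Ce.mpr fun y hy => hab y hy.1 x hx) (Subgroup.centralizer_le hle)
    (fun x hx hxp l hl => mem_Ce.mp hl x ⟨hx, hxp⟩) (hC hMx) e a he ha hea hbr

end

end Vale.Agent.P180.R2.H799.BN
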