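import Vale.Agent.P180.R2.H799.BN0
import Mathlib.GroupTheory.DoubleCoset
import Mathlib.GroupTheory.Index
import Mathlib.GroupTheory.PGroup

/-!
P180: groups with a small parabolic system and Levi subgroups on whose factors a `p`-group acts
through cyclic groups (definitions).
-/

namespace Vale.Agent.P180

open Vale.Agent.P180.R2.H799

/-- `Q` acts on `A` through a cyclic group which contains the image of `Q ∩ A`: the group `Q` has a
normal subgroup `N` which centralises `A` and intersects it trivially, with `Q / N` cyclic. -/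
def CycLev {S : Type} [Group S] (Q A : Subgroup S) : Prop :=
  ∃ N : Subgroup S, N ≤ Q ∧ Q ≤ Subgroup.normalizer (N : Set S) ∧
    N ≤ Subgroup.centralizer (A : Set S) ∧ N ⊓ A = ⊥ ∧
    ∃ x ∈ Q, ∀ y ∈ Q, ∃ i : ℤ, y * x ^ i ∈ N

/-- `N(V) = V ⋊ M`, `M` contains `Q` and `C(Q)`, and `M` has at most `m` normal subgroups `A_j`,
which commute pairwise, such that `Q` acts on each `A_j` as in `CycLev`, the product of `Q` and the
`A_j` is normal in `M`, and together with a subgroup `Z` of the centre of `M` the `A_j` generate a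
subgroup of index at most `m` of `M`. -/
def LevSub (m : ℕ) {S : Type} [Group S] (V M Q : Subgroup S) : Prop :=
  V ⊓ M = ⊥ ∧ V ⊔ M = Subgroup.normalizer (V : Set S) ∧ Q ≤ M ∧
  Subgroup.centralizer (Q : Set S) ≤ M ∧
  ∃ (r : ℕ) (A : Fin r → Subgroup S) (Z : Subgroup S), r ≤ m ∧
    (∀ j, A j ≤ M ∧ M ≤ Subgroup.normalizer (A j : Set S) ∧ CycLev Q (A j)) ∧
    (∀ i j, i ≠ j → A i ≤ Subgroup.centralizer (A j : Set S)) ∧
    (∀ g ∈ M, ∀ q ∈ Q, g * q * g⁻¹ ∈ (⨆ j, A j) ⊔ Q) ∧
    Z ≤ M ∧ M ≤ Subgroup.centralizer (Z : Set S) ∧ (Z ⊔ ⨆ j, A j).relIndex M ≤ m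

/-- The trivial group belongs to the parabolic system `𝒮`, there is a strictly increasing function
on `𝒮` with values at most `m`, and `S` is the union of at most `m` double cosets of `N(V)`, for
each `V` in `𝒮`. -/
def SmallSys (m : ℕ) {p : ℕ} {S : Type} [Group S] (𝒮 : ParSys p S) : Prop :=
  ⊥ ∈ 𝒮.car ∧
  (∃ rk : Subgroup S → ℕ, ∀ V ∈ 𝒮.car, rk V ≤ m ∧ ∀ W ∈ 𝒮.car, V < W → rk V < rk W) ∧
  ∀ V ∈ 𝒮.car, Nat.card (DoubleCoset.Quotient ((Subgroup.normalizer (V : Set S) : Subgroup S) :
    Set S) ((Subgroup.normalizer (V : Set S) : Subgroup S) : Set S)) ≤ m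

/-- `L` is the image of a finite group `S` with a parabolic system as in `SmallSys`, the preimage of
the centre of `L` is the centre of `S`, which has order prime to `p`, and each `p`-subgroup `Q` of
`S` with image in `A` has a Levi subgroup as in `LevSub`.

(Example, not used: `S` a simply connected group of Lie type in characteristic different from `p`,
of rank bounded in terms of `m`, `M` a Levi subgroup of a parabolic subgroup such that the images of
`Q` in the automorphism groups of the components of `M` are cyclic.) -/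
def LevPair (p m : ℕ) (L : Type) [Group L] (A : Subgroup L) : Prop :=
  ∃ (S : Type) (_ : Group S) (_ : Finite S) (𝒮 : ParSys p S) (π : S →* L),
    SmallSys m 𝒮 ∧ Function.Surjective π ∧ ¬ p ∣ Nat.card (Subgroup.center S) ∧
    (∀ x, π x ∈ Subgroup.center L → x ∈ Subgroup.center S) ∧
    ∀ Q : Subgroup S, IsPGroup p Q → Q.map π ≤ A → ∃ V ∈ 𝒮.car, ∃ M : Subgroup S, LevSub m V M Q

end Vale.Agent.P180
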