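import Vale.Agent.P180.R2.H365.Def0
import Mathlib.GroupTheory.Abelianization.Defs
import Mathlib.GroupTheory.QuotientGroup.Defs

/-!
P180: perfect central extensions of orthogonal groups (definitions).
-/

namespace Vale.Agent.P180

open Vale.Agent.P180.R2.H365 (FormOn IsoOn OmegaOn LinPr RootIn SimMap)

/-- `T` is the image of a subgroup `X` of index at most two in the group of the isometries of
determinant one of a nondegenerate symmetric bilinear form on `E`, the preimage of the centre of `T`
consists of scalars, and `Γ` acts on `T` by semilinear similitudes. -/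
def OrthSim (K E : Type) [Field K] [AddCommGroup E] [Module K E] (T : Type) [Group T]
    (Γ : Subgroup (MulAut T)) : Prop :=
  ∃ (B : E → E → K) (X : Subgroup (SpecialLinearGroup K E)) (π : X →* T),
    FormOn B (RingHom.id K) 1 ∧ IsoOn B X ∧ SimMap B X Γ π

/-- `T` is the image of the group `Ω(Q)` of a nonsingular quadratic form `Q` on `E`, `|K|` is even,
the preimage of the centre of `T` consists of scalars, and `Γ` acts on `T` by semilinear similitudes
`g` of `Q`, `Q (g v) = c * σ (Q v)`. -/
def OmegaSim (K E : Type) [Field K] [AddCommGroup E] [Module K E] (T : Type) [Group T]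
    (Γ : Subgroup (MulAut T)) : Prop :=
  2 ∣ Nat.card K ∧
  ∃ (Q : QuadraticForm K E) (X : Subgroup (SpecialLinearGroup K E)) (π : X →* T),
    OmegaOn Q X ∧ SimMap (fun v w => Q (v + w)) X Γ π

/-- `T` is an orthogonal group `PΩ(E)` or `PSO(E)` on which `Γ` acts by semilinear similitudes:
`|K|` is odd and `T` is as in `OrthSim`, or `|K|` is even and `T` is as in `OmegaSim`. -/
def OrthAct (K E : Type) [Field K] [AddCommGroup E] [Module K E] (T : Type) [Group T]
    (Γ : Subgroup (MulAut T)) : Prop :=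
  (Odd (Nat.card K) ∧ OrthSim K E T Γ) ∨ OmegaSim K E T Γ

/-- `T` is an orthogonal group on which `Γ` acts by semilinear similitudes, as in `OrthAct`, of
dimension `d < p` over a finite field `K`, `9 < |K|`, `6 ≤ d` if `|K|` is even, `p` is a linear prime
not dividing `|K|`, as in `LinPr`, and `Γ = 1`, or `4 ≤ d` and `K` has a `p`-th root of unity
`ζ ≠ 1` or `c` holds. -/
def OrthSmallOn (c : Prop) (p : ℕ) (T : Type) [Group T] (Γ : Subgroup (MulAut T)) : Prop :=
  ∃ (K : Type) (_ : Field K) (_ : Finite K) (d : ℕ),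
    (Γ = ⊥ ∨ (4 ≤ d ∧ (RootIn p (RingHom.id K) ∨ c))) ∧
    d < p ∧ ¬ p ∣ Nat.card K ∧ (Odd (Nat.card K) ∨ 6 ≤ d) ∧ 9 < Nat.card K ∧
    LinPr p (RingHom.id K) ∧ OrthAct K (Fin d → K) T Γ

/-- `T` is as in `OrthSmallOn` for the trivial group `Γ`. -/
def OrthSmall (p : ℕ) (T : Type) [Group T] : Prop := OrthSmallOn False p T ⊥

/-- `L` is perfect, and `L / Z(L)` is an orthogonal group on which `Γ` acts by semilinear
similitudes, as in `OrthSmallOn`. -/
def CoverSim (c : Prop) (p : ℕ) (L : Type) [Group L] (Γ : Subgroup (MulAut L)) : Prop :=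
  commutator L = ⊤ ∧ ∃ Γ' : Subgroup (MulAut (L ⧸ Subgroup.center L)),
    (∀ α ∈ Γ, ∃ β ∈ Γ', ∀ x : L, β x = (α x : L)) ∧ OrthSmallOn c p (L ⧸ Subgroup.center L) Γ'

/-- `L` is perfect, and `L / Z(L)` is an orthogonal group as in `OrthSmall`. -/
def CoverPair (p : ℕ) (L : Type) [Group L] : Prop :=
  commutator L = ⊤ ∧ OrthSmall p (L ⧸ Subgroup.center L)

end Vale.Agent.P180
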