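import Vale.Agent.P180.R2.H799.BN2
import Vale.Agent.P180.R2.H259.Cyc.Zero

/-!
P180: primitive idempotents of a block with a central defect group.
-/

set_option linter.all false

namespace Vale.Agent.P180.R2.H799.BN

open Vale.Agent.P180 Vale.Agent.P180.H768.Gd Vale.Agent.P180.R2.H799
open Vale.Agent.P180.R2.H259.Cyc (PrimIn)

universe u

section Ker

variable {k : Type*} [Field k] {H : Type*} [Group H] [Finite H]

/-- the kernel of `kH → k[H/Q]` -/
theorem mem_span_of_qmap {Q : Subgroup H} [Q.Normal] {x : MonoidAlgebra k H}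
    (hx : KP.qmap k Q x = 0) :
    x ∈ Submodule.span k {w | ∃ q ∈ Q, ∃ y : MonoidAlgebra k H,
      w = (MonoidAlgebra.single q (1 : k) - 1) * y} := by
  classical
  let F : MonoidAlgebra k (H ⧸ Q) →ₗ[k] MonoidAlgebra k H :=
    MonoidAlgebra.mapDomainLinearMap k k (fun y : H ⧸ Q => y.out)
  have h1 : ∀ x : MonoidAlgebra k H, x - F (KP.qmap k Q x) ∈ Submodule.span k
      {w | ∃ q ∈ Q, ∃ y : MonoidAlgebra k H, w = (MonoidAlgebra.single q (1 : k) - 1) * y} := by
    intro x
    induction x using MonoidAlgebra.induction_linear with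
    | zero => simp
    | add x y hx hy =>
      have e : x + y - F (KP.qmap k Q (x + y)) =
          (x - F (KP.qmap k Q x)) + (y - F (KP.qmap k Q y)) := by
        rw [map_add, map_add]; abel
      rw [e]; exact add_mem hx hy
    | single h r =>
      have h2 : F (KP.qmap k Q (MonoidAlgebra.single h r)) =
          MonoidAlgebra.single ((h : H ⧸ Q).out) r := by
        rw [KP.qmap_single]
        exact MonoidAlgebra.mapDomainLinearMap_single _ _ _
      rw [h2]
      set s := (h : H ⧸ Q).out with hs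
      have h3 : h * s⁻¹ ∈ Q := by
        have h4 : s⁻¹ * h ∈ Q := by
          rw [← QuotientGroup.eq, hs, QuotientGroup.out_eq']
        have h5 := (inferInstance : Q.Normal).conj_mem _ h4 s
        have e : s * (s⁻¹ * h) * s⁻¹ = h * s⁻¹ := by group
        rwa [e] at h5
      refine Submodule.subset_span ⟨h * s⁻¹, h3, MonoidAlgebra.single s r, ?_⟩
      rw [sub_mul, one_mul, MonoidAlgebra.single_mul_single, one_mul, inv_mul_cancel_right]
  have h2 := h1 x
  rwa [hx, map_zero, sub_zero] at h2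

end Ker

section Base

variable {k : Type u} [Field k] {p : ℕ} [Fact p.Prime] [CharP k p] {H : Type} [Group H] [Finite H]

/-- A primitive idempotent of a block with central defect group `Q`: the corner has dimension at
most `|Q|`. -/
theorem base_gen [IsAlgClosed k] {Q : Subgroup H} [Q.Normal] (hQ : IsPGroup p Q)
    (hQc : Q ≤ Subgroup.center H) {e a j : MonoidAlgebra k H} (ha : a ∈ Fix (cj k H) Q)
    (hea : e = tr (cj k H) Q ⊤ a) (hj : PrimIn (⊤ : Subalgebra k (MonoidAlgebra k H)) j)
    (hej : e * j = j) :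
    Module.finrank k (NN (⊤ : Subalgebra k (MonoidAlgebra k H)) j j) ≤ Nat.card Q := by
  classical
  have _ := Fintype.ofFinite (H ⧸ Q)
  have _ := Fintype.ofFinite Q
  have hcen : ∀ q ∈ Q, ∀ x : MonoidAlgebra k H,
      MonoidAlgebra.single q (1 : k) * x = x * MonoidAlgebra.single q 1 := by
    intro q hq x
    have h1 : x ∈ Fix (cj k H) Q := KP.mem_Fix_of_central hQc x
    rw [mem_Fix_cj_iff] at h1
    exact h1 q hq
  set T : Finset (MonoidAlgebra k H) :=
    Finset.univ.image fun q : Q => MonoidAlgebra.single (q : H) (1 : k) - 1 with hT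
  have hTq : ∀ q ∈ Q, MonoidAlgebra.single q (1 : k) - 1 ∈ T := fun q hq =>
    Finset.mem_image.mpr ⟨⟨q, hq⟩, Finset.mem_univ _, rfl⟩
  have hTc : ∀ t ∈ T, ∀ x, t * x = x * t := by
    intro t ht x
    obtain ⟨q, -, rfl⟩ := Finset.mem_image.mp ht
    rw [sub_mul, mul_sub, hcen q q.2, one_mul, mul_one]
  have hTn : ∀ t ∈ T, IsNilpotent t := by
    intro t ht
    obtain ⟨z, -, rfl⟩ := Finset.mem_image.mp ht
    obtain ⟨m, hm⟩ := hQ z
    have hm' : (z : H) ^ p ^ m = 1 := congrArg Subtype.val hm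
    refine ⟨p ^ m, ?_⟩
    have _ : CharP (MonoidAlgebra k H) p :=
      charP_of_injective_algebraMap (algebraMap k (MonoidAlgebra k H)).injective p
    rw [sub_pow_char_pow_of_commute p m (Commute.one_right _), one_pow,
      MonoidAlgebra.single_pow, one_pow, hm', ← MonoidAlgebra.one_def, sub_self]
  set M := NN (⊤ : Subalgebra k (MonoidAlgebra k H)) j j with hM
  have hTM : ∀ t ∈ T, ∀ x ∈ M, t * x ∈ M := by
    intro t ht x hx
    refine ⟨Algebra.mem_top, ?_, by rw [mul_assoc, hx.2.2]⟩
    rw [← mul_assoc, ← hTc t ht j, mul_assoc, hx.2.1]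
  -- an element of the corner in the kernel
  have hker : ∀ x ∈ M, KP.qmap k Q x = 0 →
      x ∈ Submodule.span k {w | ∃ t ∈ T, ∃ y ∈ M, w = t * y} := by
    intro x hx h0
    have h1 : ∀ y ∈ Submodule.span k {w | ∃ q ∈ Q, ∃ y : MonoidAlgebra k H,
        w = (MonoidAlgebra.single q (1 : k) - 1) * y},
        j * y * j ∈ Submodule.span k {w | ∃ t ∈ T, ∃ y ∈ M, w = t * y} := by
      intro y hy
      induction hy using Submodule.span_induction with
      | mem y hy =>
        obtain ⟨q, hq, z, rfl⟩ := hy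
        refine Submodule.subset_span ⟨_, hTq q hq, j * z * j, ⟨Algebra.mem_top, ?_, ?_⟩, ?_⟩
        · rw [← mul_assoc, ← mul_assoc, hj.idem]
        · rw [mul_assoc, hj.idem]
        · rw [← mul_assoc j, ← hTc _ (hTq q hq) j]; simp only [mul_assoc]
      | zero => simp
      | add u v _ _ hu hv => rw [mul_add, add_mul]; exact add_mem hu hv
      | smul c u _ hu => rw [mul_smul_comm, smul_mul_assoc]; exact Submodule.smul_mem _ c hu
    have h2 := h1 x (mem_span_of_qmap h0)
    rwa [hx.2.1, hx.2.2] at h2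
  -- `j` is not in the kernel
  have hjM : j ∈ M := ⟨Algebra.mem_top, hj.idem, hj.idem⟩
  have hne : KP.qmap k Q j ≠ 0 := by
    intro h0
    have h1 : M ≤ ⊥ := by
      refine nak T hTn (fun s hs t _ => hTc s hs t) ⊥ M (fun t _ x hx => by
        rw [(Submodule.mem_bot k).mp hx, mul_zero]; exact zero_mem _) hTM
        (le_sup_of_le_right fun x hx => hker x hx ?_)
      rw [← hx.2.1, map_mul, h0, zero_mul]
    exact hj.ne_zero ((Submodule.mem_bot k).mp (h1 hjM))
  -- the image of `j` is primitive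
  have hprim : PrimIn (⊤ : Subalgebra k (MonoidAlgebra k (H ⧸ Q))) (KP.qmap k Q j) := by
    refine ⟨Algebra.mem_top, by rw [← map_mul, hj.idem], hne, ?_⟩
    intro c _ hcc hci hic
    obtain ⟨c', rfl⟩ := KP.qmap_surjective Q c
    set x := j * c' * j with hx
    have hxc : KP.qmap k Q x = KP.qmap k Q c' := by
      rw [hx, map_mul, map_mul, hic, hci]
    rcases hj.dichotomy (x := x) Algebra.mem_top (by rw [hx, ← mul_assoc, ← mul_assoc, hj.idem])
      (by rw [hx, mul_assoc, hj.idem]) with ⟨n, hn⟩ | ⟨y, -, -, -, hxy, -⟩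
    · left
      have h1 : (KP.qmap k Q c') ^ (n + 1) = 0 := by
        rw [← hxc, ← map_pow, pow_succ, hn, zero_mul, map_zero]
      have h2 : (KP.qmap k Q c') ^ (n + 1) = KP.qmap k Q c' := by
        have : IsIdempotentElem (KP.qmap k Q c') := hcc
        exact this.pow_succ_eq n
      rw [← h2, h1]
    · right
      have h1 : KP.qmap k Q c' * KP.qmap k Q y = KP.qmap k Q j := by
        rw [← hxc, ← map_mul, hxy]
      calc KP.qmap k Q c' = KP.qmap k Q c' * KP.qmap k Q j := hci.symm
        _ = KP.qmap k Q c' * (KP.qmap k Q c' * KP.qmap k Q y) := by rw [h1]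
        _ = KP.qmap k Q c' * KP.qmap k Q y := by rw [← mul_assoc, hcc]
        _ = KP.qmap k Q j := h1
  have hone : Module.finrank k (NN (⊤ : Subalgebra k (MonoidAlgebra k (H ⧸ Q)))
      (KP.qmap k Q j) (KP.qmap k Q j)) ≤ 1 :=
    H259.Cyc.dim_one (z := KP.qmap k Q a) (e := KP.qmap k Q e) hprim
      (by rw [hea, H365.qmap_tr Q ha]) (by rw [← map_mul, hej])
  -- each element of the corner is a multiple of `j` modulo the kernel
  have hsc : ∀ x ∈ M, ∃ c : k, KP.qmap k Q x = c • KP.qmap k Q j := by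
    intro x hx
    have h1 : KP.qmap k Q j ∈ NN (⊤ : Subalgebra k (MonoidAlgebra k (H ⧸ Q)))
        (KP.qmap k Q j) (KP.qmap k Q j) := ⟨Algebra.mem_top, hprim.idem, hprim.idem⟩
    have h2 : KP.qmap k Q x ∈ NN (⊤ : Subalgebra k (MonoidAlgebra k (H ⧸ Q)))
        (KP.qmap k Q j) (KP.qmap k Q j) :=
      ⟨Algebra.mem_top, by rw [← map_mul, hx.2.1], by rw [← map_mul, hx.2.2]⟩
    obtain ⟨v, hv⟩ := finrank_le_one_iff.mp hone
    obtain ⟨c₀, hc₀⟩ := hv ⟨_, h1⟩
    obtain ⟨c₁, hc₁⟩ := hv ⟨_, h2⟩
    have e0 : c₀ • (v : MonoidAlgebra k (H ⧸ Q)) = KP.qmap k Q j := congrArg Subtype.val hc₀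
    have e1 : c₁ • (v : MonoidAlgebra k (H ⧸ Q)) = KP.qmap k Q x := congrArg Subtype.val hc₁
    have hc0 : c₀ ≠ 0 := by
      rintro rfl
      rw [zero_smul] at e0
      exact hne e0.symm
    refine ⟨c₁ * c₀⁻¹, ?_⟩
    rw [← e0, ← e1, smul_smul, mul_assoc, inv_mul_cancel₀ hc0, mul_one]
  set M₀ : Submodule k (MonoidAlgebra k H) :=
    Submodule.span k (Set.range fun q : Q => MonoidAlgebra.single (q : H) (1 : k) * j) with hM₀
  have hMM₀ : M ≤ M₀ := by
    refine nak T hTn (fun s hs t _ => hTc s hs t) M₀ M ?_ hTM ?_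
    · intro t ht x hx
      obtain ⟨z, -, rfl⟩ := Finset.mem_image.mp ht
      induction hx using Submodule.span_induction with
      | mem x hx =>
        obtain ⟨q, rfl⟩ := hx
        rw [sub_mul, one_mul, ← mul_assoc, MonoidAlgebra.single_mul_single, one_mul]
        exact sub_mem (Submodule.subset_span ⟨z * q, rfl⟩) (Submodule.subset_span ⟨q, rfl⟩)
      | zero => rw [mul_zero]; exact zero_mem _
      | add u v _ _ hu hv => rw [mul_add]; exact add_mem hu hv
      | smul c u _ hu => rw [mul_smul_comm]; exact Submodule.smul_mem _ c hu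
    · intro x hx
      obtain ⟨c, hc⟩ := hsc x hx
      have h1 : x = c • j + (x - c • j) := by abel
      rw [h1]
      refine Submodule.add_mem_sup (Submodule.smul_mem _ c (Submodule.subset_span ⟨1, ?_⟩))
        (hker _ (sub_mem hx (Submodule.smul_mem _ c hjM)) (by rw [map_sub, map_smul, hc, sub_self]))
      change MonoidAlgebra.single ((1 : Q) : H) (1 : k) * j = j
      rw [OneMemClass.coe_one, ← MonoidAlgebra.one_def, one_mul]
  calc Module.finrank k M ≤ Module.finrank k M₀ := Submodule.finrank_mono hMM₀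
    _ ≤ Fintype.card Q := finrank_range_le_card _
    _ = Nat.card Q := (Nat.card_eq_fintype_card).symm

end Base

end Vale.Agent.P180.R2.H799.BN
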