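import Vale.Agent.P180.R2.H799.BN4
import Vale.Agent.P180.R2.H799.BN5
import Vale.Agent.P180.R2.H954.CycCor

/-!
P180: **source corners of blocks of groups with a parabolic system.**
-/

set_option linter.all false

namespace Vale.Agent.P180.R2.H799.BN

open Vale.Agent.P180 Vale.Agent.P180.H768.Gd Vale.Agent.P180.R2.H799 Vale.Agent.P180.R2.H365
open Vale.Agent.P180.R2.H259.Cyc (PrimIn)

universe u

section Abs

variable {k A : Type*} [Field k] [Ring A] [Algebra k A] [FiniteDimensional k A]

/-- The corner at `i` embeds into the corner at `F` if `i = x y` with `x ∈ i A F`, `y ∈ F A i`. -/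
theorem finrank_corner_le {i F x y : A} (hxy : x * y = i) (hF : F * y = y) (hF' : x * F = x) :
    Module.finrank k (NN (⊤ : Subalgebra k A) i i) ≤
      Module.finrank k (NN (⊤ : Subalgebra k A) F F) := by
  let Φ : NN (⊤ : Subalgebra k A) i i →ₗ[k] NN (⊤ : Subalgebra k A) F F :=
    { toFun := fun z => ⟨y * z.1 * x, Algebra.mem_top, by rw [← mul_assoc, ← mul_assoc, hF],
        by rw [mul_assoc, hF']⟩
      map_add' := fun z w => Subtype.ext (by
        change y * (z.1 + w.1) * x = y * z.1 * x + y * w.1 * x
        rw [mul_add, add_mul])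
      map_smul' := fun c z => Subtype.ext (by
        change y * (c • z.1) * x = c • (y * z.1 * x)
        rw [mul_smul_comm, smul_mul_assoc]) }
  refine LinearMap.finrank_le_finrank_of_injective (f := Φ) ?_
  rw [← LinearMap.ker_eq_bot, LinearMap.ker_eq_bot']
  intro z hz
  have h1 : y * z.1 * x = 0 := congrArg Subtype.val hz
  apply Subtype.ext
  change z.1 = 0
  have h2 : x * (y * z.1 * x) * y = z.1 := by
    calc x * (y * z.1 * x) * y = (x * y) * z.1 * (x * y) := by simp only [mul_assoc]
      _ = z.1 := by rw [hxy, z.2.2.1, z.2.2.2]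
  rw [← h2, h1, mul_zero, zero_mul]

end Abs

section Grp

theorem relIndex_le {G : Type*} [Group G] [Finite G] (Q : Subgroup G) :
    (Ce Q).relIndex (Nm Q) ≤ (Nat.card Q).factorial := by
  classical
  have _ := Fintype.ofFinite Q
  have h1 : (Ce Q).relIndex (Nm Q) = Nat.card (Subgroup.normalizerMonoidHom Q).range := by
    rw [Subgroup.relIndex, ← Subgroup.index_ker, Subgroup.normalizerMonoidHom_ker]
  rw [h1]
  calc Nat.card (Subgroup.normalizerMonoidHom Q).range ≤ Nat.card (Equiv.Perm Q) := by
        refine Nat.card_le_card_of_injective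
          (fun x : (Subgroup.normalizerMonoidHom Q).range => (x : MulAut Q).toEquiv) ?_
        intro x y h
        apply Subtype.ext
        apply MulEquiv.ext
        intro q
        exact congrArg (fun f : Q ≃ Q => f q) h
    _ = _ := by rw [Nat.card_eq_fintype_card, Fintype.card_perm, Nat.card_eq_fintype_card]

theorem Ce_le_Nm {G : Type*} [Group G] (Q : Subgroup G) : Ce Q ≤ Nm Q :=
  Subgroup.centralizer_le_normalizer _

theorem conj_mem_Ce {G : Type*} [Group G] [Finite G] {Q : Subgroup G} {t c : G} (ht : t ∈ Nm Q)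
    (hc : c ∈ Ce Q) : t * c * t⁻¹ ∈ Ce Q := by
  have h1 : conjS t Q = Q := conjS_eq_of_mem_Nm ht
  rw [← h1, mem_Ce_conjS]
  have e : t⁻¹ * (t * c * t⁻¹) * t = c := by group
  rw [e]; exact hc

end Grp

variable {k : Type u} [Field k] {p : ℕ} [Fact p.Prime] [CharP k p] {G : Type} [Group G] [Finite G]

/-- **Corner bound for parabolic systems.** -/
theorem corner_bd [IsAlgClosed k] (𝒮 : ParSys p G) (hLv : 𝒮.HasLevi) {V Q : Subgroup G}
    (hV : V ∈ 𝒮.car) (hpair : IsLeviPair V Q) (hQ : IsPGroup p Q)
    (hQab : ∀ x ∈ Q, ∀ y ∈ Q, x * y = y * x) :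
    H954.CornerBd k Q ((Nat.card Q).factorial * (Nat.card Q * Nat.card Q)) := by
  classical
  intro e a i he ha hea hi hei hbr
  have hfin : FiniteDimensional k (MonoidAlgebra k G) :=
    Module.Finite.equiv (MonoidAlgebra.coeffLinearEquiv k (M := G) (S := k)).symm
  have hL : Lv V Q := lv_of_pair hpair
  have hpV := 𝒮.card V hV
  have hloc : Loc (Fix (cj k G) Q) i := loc_of_prim hi.mem hi.idem
    (fun c hc hcc h1 h2 => hi.prim c hc hcc h2 h1)
  obtain ⟨f, hf, hfj, w, hwL, hwF, hwf, hfw⟩ := exists_block (R := Q) hQ hQab le_rfl hi.mem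
    hi.idem hloc hbr he.idem.eq hei ha hea
  set j := br Q i with hj
  have hjL : j ∈ SubAlg k (Ce Q) := br_mem Q i
  have hjF : j ∈ Fix (cj k G) Q := H365.fix_of_cent hjL
  have hjj : j * j = j := by rw [hj, ← br_mul hQ hi.mem hi.mem, hi.idem]
  have hQC : Q ≤ Ce Q := fun x hx => mem_Ce.mpr fun y hy => hQab y hy x hx
  have hfF : f ∈ Fix (cj k G) (Ce Q) := hf.mem.2
  have hfL : f ∈ SubAlg k (Ce Q) := hf.mem.1
  have hjf : j * f = j := by rw [commute_of_mem hjL hfF, hfj]
  -- `Q` is the largest `p`-subgroup of the centre of `C(Q)`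
  have hMx : Mx p Q := by
    refine ⟨hQ, hQab, ?_⟩
    rintro x hx hxc ⟨m, hm⟩
    have hxp : IsPGroup p (Subgroup.zpowers x) := by
      rintro ⟨y, hy⟩
      obtain ⟨n, rfl⟩ := Subgroup.mem_zpowers_iff.mp hy
      refine ⟨m, Subtype.ext ?_⟩
      change (x ^ n) ^ p ^ m = 1
      rw [← zpow_natCast, ← zpow_mul, mul_comm, zpow_mul, zpow_natCast, hm, one_zpow]
    obtain ⟨c, hc⟩ : ∃ c, f.coeff c ≠ 0 := by
      by_contra hcon
      push Not at hcon
      apply hf.ne_zero
      apply MonoidAlgebra.coeff_injective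
      ext c
      exact hcon c
    have hcL : c ∈ Ce Q := hfL c hc
    obtain ⟨y, hy, hyx⟩ := conj_le_of_coeff (N := Ce Q) (P := Q) (Q := Subgroup.zpowers x) hQC
      ((Subgroup.zpowers_le).mpr hx) hxp (Subalgebra.mul_mem _ hjF hwF) hfw (c := c) (by
        intro h hh
        obtain ⟨n, rfl⟩ := Subgroup.mem_zpowers_iff.mp hh
        have h1 : Commute x c := hxc c hcL
        have h2 : x ^ n * c = c * x ^ n := (h1.zpow_left n)
        rw [h2, mul_inv_cancel_right]) hc
    have h1 := hyx x (Subgroup.mem_zpowers x)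
    have h2 : y⁻¹ * x * y = x := by
      rw [mul_assoc, hxc y hy, ← mul_assoc, inv_mul_cancel, one_mul]
    rwa [h2] at h1
  -- the idempotent `F`
  set ε := av k V with hε
  have hεε : ε * ε = ε := av_idem (card_ne (p := p) hpV)
  have hεL : ∀ x ∈ SubAlg k (Ce Q), x * ε = ε * x := fun x hx => av_comm hL.le hx
  have hεF : ε ∈ Fix (cj k G) Q := by
    intro q hq
    rw [hε, cj_av, conjS_eq_of_mem_Nm (hL.le (hQC hq))]
  set F := j * ε with hF
  have hFF : F * F = F := by
    calc j * ε * (j * ε) = j * (ε * j) * ε := by simp only [mul_assoc]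
      _ = (j * j) * (ε * ε) := by rw [← hεL j hjL]; simp only [mul_assoc]
      _ = F := by rw [hjj, hεε]
  have hF2 : F = ε * j := hεL j hjL
  have hFfix : F ∈ Fix (cj k G) Q := Subalgebra.mul_mem _ hjF hεF
  have hbrj : br Q j = j := br_self hjL
  have hbrε : br Q ε = ((Nat.card V : ℕ) : k)⁻¹ • 1 := br_av hQ hpV hL.inf
  -- `i` is below `F`
  have hstep : Module.finrank k (NN (⊤ : Subalgebra k (MonoidAlgebra k G)) i i) ≤
      Module.finrank k (NN (⊤ : Subalgebra k (MonoidAlgebra k G)) F F) := by
    have hu : i * F * i ∈ Fix (cj k G) Q :=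
      Subalgebra.mul_mem _ (Subalgebra.mul_mem _ hi.mem hFfix) hi.mem
    rcases hloc (i * F * i) hu (by rw [← mul_assoc, ← mul_assoc, hi.idem])
      (by rw [mul_assoc, hi.idem]) with ⟨n, hn⟩ | ⟨y, hy, hiy, hyi, huy, hyu⟩
    · exfalso
      have h1 : br Q (i * F * i) = ((Nat.card V : ℕ) : k)⁻¹ • j := by
        rw [br_mul hQ (Subalgebra.mul_mem _ hi.mem hFfix) hi.mem, br_mul hQ hi.mem hFfix, hF,
          br_mul hQ hjF hεF, hbrj, hbrε, ← hj, mul_smul_comm, mul_one, mul_smul_comm,
          smul_mul_assoc, hjj, hjj]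
      have h2 : br Q ((i * F * i) ^ n) = 0 := by rw [hn]; exact br_self (Subalgebra.zero_mem _)
      rw [br_pow hQ hu, h1, smul_pow] at h2
      have h3 : j ^ n = 0 := by
        rcases smul_eq_zero.mp h2 with h | h
        · exact absurd h (pow_ne_zero _ (inv_ne_zero (card_ne (p := p) hpV)))
        · exact h
      apply hbr
      have h4 : j ^ (n + 1) = j := (show IsIdempotentElem j from hjj).pow_succ_eq n
      rw [← h4, pow_succ, h3, zero_mul]
    · refine finrank_corner_le (x := i * F) (y := F * i * y) ?_ ?_ ?_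
      · calc i * F * (F * i * y) = i * (F * F) * i * y := by simp only [mul_assoc]
          _ = i := by rw [hFF, huy]
      · rw [← mul_assoc, ← mul_assoc, hFF]
      · rw [mul_assoc, hFF]
  -- the corner at `F` is covered by `N(Q)`
  have hcusp : ∀ W ∈ 𝒮.car, V ≤ W → Nm W ≤ Nm V → (∃ x ∈ W, x ∉ V) → f * av k W = 0 := by
    rintro W hW hVW hN ⟨x, hx, hxV⟩
    refine cusp 𝒮 hLv hV hL hQ hQab (Subalgebra.mul_mem _ hjL hwL)
      (Subalgebra.mul_mem _ hjF hwF) hfw hf.idem.eq (Nat.card G + 1) W hW hVW hN ?_ (by omega)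
    rintro rfl
    exact hxV hx
  have hcover : NN (⊤ : Subalgebra k (MonoidAlgebra k G)) F F ≤
      (NN (SubAlg k (Nm Q)) j j).map ((LinearMap.mulLeft k ε).comp (LinearMap.mulRight k ε)) := by
    have key : ∀ y : MonoidAlgebra k G, F * y * F ∈
        (NN (SubAlg k (Nm Q)) j j).map ((LinearMap.mulLeft k ε).comp (LinearMap.mulRight k ε)) := by
      intro y
      induction y using MonoidAlgebra.induction_linear with
      | zero => rw [mul_zero, zero_mul]; exact zero_mem _
      | add y z hy hz => rw [mul_add, add_mul]; exact add_mem hy hz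
      | single g r =>
        have hr : MonoidAlgebra.single g r = r • MonoidAlgebra.single g (1 : k) := by
          rw [MonoidAlgebra.smul_single, smul_eq_mul, mul_one]
        rw [hr, mul_smul_comm, smul_mul_assoc]
        refine Submodule.smul_mem _ r ?_
        -- the enlargement of `V`
        have hstar : ∀ g : G, V ⊔ (Nm V ⊓ conjS g V) ∈ 𝒮.car ∧
            Nm (V ⊔ (Nm V ⊓ conjS g V)) = V ⊔ (Nm V ⊓ Nm (conjS g V)) := fun g =>
          ⟨𝒮.star V hV _ (𝒮.conj V hV g), 𝒮.norm V hV _ (𝒮.conj V hV g)⟩
        have hzero : ∀ g : G, (∃ x ∈ Nm V, x ∈ conjS g V ∧ x ∉ V) →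
            f * av k (V ⊔ (Nm V ⊓ conjS g V)) = 0 := by
          rintro g ⟨x, hxN, hxg, hxV⟩
          refine hcusp _ (hstar g).1 le_sup_left ?_ ⟨x, Subgroup.mem_sup_right ⟨hxN, hxg⟩, hxV⟩
          rw [(hstar g).2]
          exact sup_le (le_Nm V) inf_le_left
        have hcardg : ∀ g : G, ¬ p ∣ Nat.card (conjS g V) := fun g => 𝒮.card _ (𝒮.conj V hV g)
        have hav : ∀ g : G, av k V * av k (Nm V ⊓ conjS g V) = av k (V ⊔ (Nm V ⊓ conjS g V)) := by
          intro g
          exact av_sup (card_ne (p := p) hpV)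
            (card_ne (p := p) (card_le_ne inf_le_right (hcardg g)))
            (card_ne (p := p) (𝒮.card _ (hstar g).1)) inf_le_left le_sup_left le_sup_right
            fun w hw => mem_sup_Nm inf_le_left hw
        have hav' : ∀ g : G, av k (Nm V ⊓ conjS g V) * av k V =
            av k (V ⊔ (Nm V ⊓ conjS g V)) := by
          intro g
          exact av_sup' (card_ne (p := p) hpV)
            (card_ne (p := p) (card_le_ne inf_le_right (hcardg g)))
            (card_ne (p := p) (𝒮.card _ (hstar g).1)) inf_le_left le_sup_left le_sup_right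
            fun w hw => mem_sup_Nm inf_le_left hw
        have hgav : MonoidAlgebra.single g (1 : k) * av k V =
            av k (conjS g V) * MonoidAlgebra.single g 1 := single_mul_av V g
        by_cases h1 : ∀ x ∈ Nm V, x ∈ conjS g V → x ∈ V
        swap
        · push Not at h1
          have h2 := hzero g h1
          have h3 : av k (Nm V ⊓ conjS g V) * av k (conjS g V) = av k (conjS g V) :=
            av_le_left (card_ne (p := p) (card_le_ne inf_le_right (hcardg g))) inf_le_right
          have h4 : F * MonoidAlgebra.single g 1 * F = 0 := by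
            calc F * MonoidAlgebra.single g 1 * F
                = j * ε * MonoidAlgebra.single g 1 * (ε * j) := by rw [← hF2, ← hF]
              _ = j * av k V * (MonoidAlgebra.single g 1 * av k V) * j := by
                  rw [hε]; simp only [mul_assoc]
              _ = (j * f) * (av k V * av k (Nm V ⊓ conjS g V)) * av k (conjS g V) *
                  MonoidAlgebra.single g 1 * j := by
                  rw [hgav, hjf]
                  conv_lhs => rw [← h3]
                  simp only [mul_assoc]
              _ = j * (f * av k (V ⊔ (Nm V ⊓ conjS g V))) * av k (conjS g V) *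
                  MonoidAlgebra.single g 1 * j := by rw [hav]; simp only [mul_assoc]
              _ = 0 := by rw [h2]; simp
          rw [h4]; exact zero_mem _
        by_cases h2 : ∀ x ∈ Nm (conjS g V), x ∈ V → x ∈ conjS g V
        swap
        · push Not at h2
          obtain ⟨x, hxN, hxW, hxg⟩ := h2
          have h3 := hzero g⁻¹ ⟨g⁻¹ * x * g, mem_Nm_conjS.mp hxN, by
            rw [mem_conjS, inv_inv]
            have e1 : g * (g⁻¹ * x * g) * g⁻¹ = x := by group
            rw [e1]; exact hxW, fun h => hxg (mem_conjS.mpr h)⟩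
          have h4 : av k (conjS g⁻¹ V) * av k (Nm V ⊓ conjS g⁻¹ V) = av k (conjS g⁻¹ V) :=
            av_le_right (card_ne (p := p) (card_le_ne inf_le_right (hcardg g⁻¹))) inf_le_right
          have h5 : av k V * MonoidAlgebra.single g (1 : k) =
              MonoidAlgebra.single g 1 * av k (conjS g⁻¹ V) := by
            rw [single_mul_av]
            congr 1
            congr 1
            ext y
            rw [mem_conjS, mem_conjS, inv_inv]
            have e1 : g * (g⁻¹ * y * g) * g⁻¹ = y := by group
            rw [e1]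
          have hW' : V ⊔ (Nm V ⊓ conjS g⁻¹ V) ≤ Nm V := sup_le (le_Nm V) inf_le_left
          have h6 := av_comm_W (k := k) (p := p) hL le_sup_left hW'
            (𝒮.card _ (hstar g⁻¹).1) hfL hfF
          have h7 : F * MonoidAlgebra.single g 1 * F = 0 := by
            calc F * MonoidAlgebra.single g 1 * F
                = j * ε * MonoidAlgebra.single g 1 * (ε * j) := by rw [← hF2, ← hF]
              _ = j * (av k V * MonoidAlgebra.single g 1) * (av k V * j) := by
                  rw [hε]; simp only [mul_assoc]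
              _ = j * MonoidAlgebra.single g 1 *
                  (av k (conjS g⁻¹ V) * av k (Nm V ⊓ conjS g⁻¹ V)) * (av k V * (f * j)) := by
                  rw [h5, h4, hfj]; simp only [mul_assoc]
              _ = j * MonoidAlgebra.single g 1 * av k (conjS g⁻¹ V) *
                  ((av k (Nm V ⊓ conjS g⁻¹ V) * av k V) * f) * j := by simp only [mul_assoc]
              _ = 0 := by rw [hav', ← h6, h3]; simp
          rw [h7]; exact zero_mem _
        -- the associate case
        have hc1 : ∀ x ∈ Nm V, ∃ v ∈ V, v * x ∈ Nm (conjS g V) := by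
          intro x hx
          have h3 : V ⊔ (Nm V ⊓ conjS g V) = V :=
            sup_eq_left.mpr fun y hy => h1 y hy.1 hy.2
          have h4 := (hstar g).2
          rw [h3] at h4
          rw [h4] at hx
          obtain ⟨v, hv, y, hy, rfl⟩ := mem_sup_Nm inf_le_left hx
          exact ⟨v⁻¹, V.inv_mem hv, by rw [inv_mul_cancel_left]; exact hy.2⟩
        have hc2 : ∀ x ∈ Nm (conjS g V), ∃ v ∈ conjS g V, v * x ∈ Nm V := by
          intro x hx
          have h3 : conjS g V ⊔ (Nm (conjS g V) ⊓ V) = conjS g V :=
            sup_eq_left.mpr fun y hy => h2 y hy.1 hy.2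
          have h4 := 𝒮.norm _ (𝒮.conj V hV g) V hV
          change Nm (conjS g V ⊔ (Nm (conjS g V) ⊓ V)) =
            conjS g V ⊔ (Nm (conjS g V) ⊓ Nm V) at h4
          rw [h3] at h4
          rw [h4] at hx
          obtain ⟨v, hv, y, hy, rfl⟩ := mem_sup_Nm inf_le_left hx
          exact ⟨v⁻¹, (conjS g V).inv_mem hv, by rw [inv_mul_cancel_left]; exact hy.2⟩
        obtain ⟨v, hv, v', hv', m, hm, hgm⟩ := assoc hpV hL hMx h1 h2 hc1 hc2
        refine ⟨j * MonoidAlgebra.single m 1 * j, ⟨?_, ?_, ?_⟩, ?_⟩
        · exact Subalgebra.mul_mem _ (Subalgebra.mul_mem _ (SubAlg_mono (Ce_le_Nm Q) hjL)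
            (single_mem_SubAlg hm 1)) (SubAlg_mono (Ce_le_Nm Q) hjL)
        · rw [← mul_assoc, ← mul_assoc, hjj]
        · rw [mul_assoc, hjj]
        · change ε * (j * MonoidAlgebra.single m 1 * j * ε) = F * MonoidAlgebra.single g 1 * F
          have e1 : MonoidAlgebra.single g (1 : k) = MonoidAlgebra.single v 1 *
              MonoidAlgebra.single m 1 * MonoidAlgebra.single v' 1 := by
            rw [MonoidAlgebra.single_mul_single, MonoidAlgebra.single_mul_single, one_mul, one_mul,
              ← hgm]
          rw [e1]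
          calc ε * (j * MonoidAlgebra.single m 1 * j * ε)
              = (ε * j) * MonoidAlgebra.single m 1 * (j * ε) := by simp only [mul_assoc]
            _ = j * ε * MonoidAlgebra.single m 1 * (ε * j) := by
                rw [← hεL j hjL]
            _ = j * (ε * MonoidAlgebra.single v 1) * MonoidAlgebra.single m 1 *
                ((MonoidAlgebra.single v' 1 * ε) * j) := by
                rw [hε, av_right V hv, av_left V hv']
            _ = (j * ε) * (MonoidAlgebra.single v 1 * MonoidAlgebra.single m 1 *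
                MonoidAlgebra.single v' 1) * (ε * j) := by simp only [mul_assoc]
            _ = _ := by rw [← hεL j hjL]
    intro x hx
    have h1 := key x
    rwa [hx.2.1, hx.2.2] at h1
  have hN : Module.finrank k (NN (SubAlg k (Nm Q)) j j) ≤
      (Ce Q).relIndex (Nm Q) * (Module.finrank k (NN (SubAlg k (Ce Q)) j j) *
        Module.finrank k (NN (SubAlg k (Ce Q)) j j)) := by
    refine corner_N (e := f) (Ce_le_Nm Q) (fun t ht c hc => conj_mem_Ce ht hc) hf.idem.eq hf.mem hjj
      hjL hfj ?_ ?_
    · have _ := Fintype.ofFinite (Ce Q ⧸ Q.subgroupOf (Ce Q))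
      rw [hfw, tr_def]
      refine Submodule.sum_mem _ fun q _ => Submodule.subset_span
        ⟨MonoidAlgebra.single ((q.out : Ce Q) : G) 1, single_mem_SubAlg (q.out : Ce Q).2 1,
          w * MonoidAlgebra.single ((q.out : Ce Q) : G)⁻¹ 1,
          Subalgebra.mul_mem _ hwL (single_mem_SubAlg ((Ce Q).inv_mem (q.out : Ce Q).2) 1), ?_⟩
      rw [cj_eq]
      simp only [mul_assoc]
    · intro t ht
      refine block_dich (fun n => ⟨fun hn => conj_mem_Ce ht hn, fun hn => ?_⟩) hf
      have h1 := conj_mem_Ce ((Nm Q).inv_mem ht) hn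
      have e1 : t⁻¹ * (t * n * t⁻¹) * t⁻¹⁻¹ = n := by group
      rwa [e1] at h1
  have hlocj : Loc (Fix (cj k G) Q ⊓ SubAlg k (Ce Q)) j := loc_br hQ hQab le_rfl hi.mem hi.idem hloc
  have hbase : Module.finrank k (NN (SubAlg k (Ce Q)) j j) ≤ Nat.card Q := by
    set L : Subgroup G := Ce Q with hLdef
    obtain ⟨j', hj'⟩ := exists_incl L hjL
    obtain ⟨w', hw'⟩ := exists_incl L hwL
    obtain ⟨f', hf'⟩ := exists_incl L hfL
    set Q' : Subgroup L := Q.subgroupOf L with hQ'
    have hmap : Q'.map L.subtype = Q := by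
      rw [hQ', Subgroup.subgroupOf_map_subtype, inf_eq_left.mpr hQC]
    have hQ'c : Q' ≤ Subgroup.center L := by
      intro q hq
      rw [Subgroup.mem_center_iff]
      intro l
      apply Subtype.ext
      exact (mem_Ce.mp l.2 (q : G) hq).symm
    have hQ'n : Q'.Normal := by
      refine ⟨fun q hq l => ?_⟩
      have h1 := Subgroup.mem_center_iff.mp (hQ'c hq) l
      rw [h1, mul_inv_cancel_right]
      exact hq
    have hQ'p : IsPGroup p Q' := hQ.comap_of_injective L.subtype L.subtype_injective
    have hj'w : j' * w' ∈ Fix (cj k L) Q' := KP.mem_Fix_of_central hQ'c _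
    have hfj' : f' * j' = j' := by
      apply incl_injective (k := k) L
      rw [map_mul, hf', hj', hfj]
    have hf'tr : f' = tr (cj k L) Q' ⊤ (j' * w') := by
      apply incl_injective (k := k) L
      rw [incl_tr L Q' hj'w, hmap, map_mul, hf', hj', hw']
      exact hfw
    have hprim : PrimIn (⊤ : Subalgebra k (MonoidAlgebra k L)) j' := by
      refine ⟨Algebra.mem_top, ?_, ?_, ?_⟩
      · apply incl_injective (k := k) L
        rw [map_mul, hj', hjj]
      · rintro rfl
        apply hbr
        rw [← hj', map_zero]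
      · intro c _ hcc hcj hjc
        have hcc' : incl k L c * incl k L c = incl k L c := by rw [← map_mul, hcc]
        rcases hlocj (incl k L c) ⟨H365.fix_of_cent (incl_mem L c), incl_mem L c⟩
          (by rw [← hj', ← map_mul, hjc]) (by rw [← hj', ← map_mul, hcj]) with
          ⟨n, hn⟩ | ⟨y, -, -, -, hxy, -⟩
        · left
          apply incl_injective (k := k) L
          rw [map_zero]
          have h1 : (incl k L c) ^ (n + 1) = incl k L c :=
            (show IsIdempotentElem (incl k L c) from hcc').pow_succ_eq n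
          rw [← h1, pow_succ, hn, zero_mul]
        · right
          apply incl_injective (k := k) L
          have h2 : incl k L c * j = incl k L c := by rw [← hj', ← map_mul, hcj]
          rw [hj']
          calc incl k L c = incl k L c * (incl k L c * y) := by rw [hxy, h2]
            _ = incl k L c * y := by rw [← mul_assoc, hcc']
            _ = j := hxy
    have h1 := base_gen (k := k) (p := p) (H := L) hQ'p hQ'c hj'w hf'tr hprim hfj'
    have h2 := finrank_NN_hom (k := k) (φ := L.subtype) L.subtype_injective j' j'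
    rw [Subgroup.range_subtype] at h2
    have h3 : Module.finrank k (NN (SubAlg k L) (incl k L j') (incl k L j')) =
        Module.finrank k (NN (⊤ : Subalgebra k (MonoidAlgebra k L)) j' j') := h2
    rw [hj'] at h3
    rw [h3]
    refine h1.trans (le_of_eq ?_)
    rw [← hmap]
    exact Nat.card_congr (Q'.equivMapOfInjective _ L.subtype_injective).toEquiv
  calc Module.finrank k (NN (⊤ : Subalgebra k (MonoidAlgebra k G)) i i)
      ≤ Module.finrank k (NN (⊤ : Subalgebra k (MonoidAlgebra k G)) F F) := hstep
    _ ≤ Module.finrank k ((NN (SubAlg k (Nm Q)) j j).map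
          ((LinearMap.mulLeft k ε).comp (LinearMap.mulRight k ε))) :=
        Submodule.finrank_mono hcover
    _ ≤ Module.finrank k (NN (SubAlg k (Nm Q)) j j) := Submodule.finrank_map_le _ _
    _ ≤ _ := hN
    _ ≤ _ := Nat.mul_le_mul (relIndex_le Q) (Nat.mul_le_mul hbase hbase)

end Vale.Agent.P180.R2.H799.BN
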