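import Vale.Agent.P180.R2.H799.BT3

/-!
P180: semilinear bijections which commute with the unipotent isometries are scalar, continued.
-/

set_option linter.all false

namespace Vale.Agent.P180.R2.H799.BS

open Module Vale.Agent.P180.R2.H854 Vale.Agent.P180.R2.H799
open Vale.Agent.P180.R2.H799.BN (sl_smul sl_ext)

universe u v

variable {K : Type u} {E : Type v} [Field K] [Finite K] [AddCommGroup E] [Module K E]
  [FiniteDimensional K E] (Φ : HForm K E)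

/-- the field automorphism is trivial -/
theorem field_trivial {c : K} (hc : c + Φ.θ c = 1 ∨ ∀ x, Φ.B x x = 0) {σ : K ≃+* K} {h : E → E}
    (hh : Semi σ h) (hcom : ∀ F, Φ.SD F → ∀ x ∈ VF F ⊓ Φ.Iso, Tw h x x) (h3 : 3 ≤ finrank K E)
    {w : E} (hw : Φ.B w w = 0) (hw0 : w ≠ 0) {a : K} (ha : h w = a • w) (t : K) : σ t = t := by
  obtain ⟨lam, hlam⟩ := perp_scalar Φ hc hh hcom hw hw0 ha
  have hs1 : finrank K (Submodule.span K {w}) = 1 := finrank_span_singleton hw0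
  have hp1 := Φ.finrank_add_finrank_perp (Submodule.span K {w})
  obtain ⟨u, hu, hun⟩ := exists_notin (K := K) (S := Submodule.span K {w})
    (W := Φ.perp (Submodule.span K {w})) (by omega)
  rw [mem_perp_singleton] at hu
  obtain ⟨μ, hμ⟩ := hlam u hu
  have ha0 : a ≠ 0 := by
    rintro rfl
    rw [zero_smul] at ha
    exact hw0 (hh.bij.1 (by rw [ha, hh.zero]))
  have hl0 : lam ≠ 0 := by
    rintro rfl
    rw [zero_smul, zero_add] at hμ
    apply hun
    have h1 : h (σ.symm (μ * a⁻¹) • w) = h u := by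
      rw [hh.smul, RingEquiv.apply_symm_apply, ha, smul_smul, inv_mul_cancel_right₀ ha0, hμ]
    rw [← hh.bij.1 h1]
    exact Submodule.smul_mem _ _ (Submodule.mem_span_singleton_self w)
  obtain ⟨μ', hμ'⟩ := hlam (t • u) (by rw [Φ.smul_left, hu, mul_zero])
  rw [hh.smul, hμ] at hμ'
  have h2 : (σ t * lam - lam * t) • u = (μ' - σ t * μ) • w := by
    have h4 : (σ t * lam) • u + (σ t * μ) • w = (lam * t) • u + μ' • w := by
      rw [mul_smul, mul_smul, mul_smul, ← smul_add, hμ']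
    rw [sub_smul, sub_smul]
    have h5 : (σ t * lam) • u = (lam * t) • u + μ' • w - (σ t * μ) • w := by
      rw [← h4, add_sub_cancel_right]
    rw [h5]
    abel
  by_cases h4 : σ t * lam - lam * t = 0
  · have h5 : σ t * lam = t * lam := by rw [sub_eq_zero.mp h4, mul_comm]
    exact mul_right_cancel₀ hl0 h5
  · exfalso
    apply hun
    have h5 : u = (σ t * lam - lam * t)⁻¹ • ((μ' - σ t * μ) • w) := by
      rw [← h2, smul_smul, inv_mul_cancel₀ h4, one_smul]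
    rw [h5]
    exact Submodule.smul_mem _ _ (Submodule.smul_mem _ _ (Submodule.mem_span_singleton_self w))

/-- an isotropic vector in a hyperbolic plane plus a vector -/
theorem exists_iso_coeff {c : K} (hc : c + Φ.θ c = 1 ∨ ∀ x, Φ.B x x = 0) {w w' u : E}
    (hw : Φ.B w w = 0) (hw' : Φ.B w' w' = 0) (hww : Φ.B w w' ≠ 0) (hu : Φ.B u w = 0)
    (hu' : Φ.B u w' = 0) : ∃ s : K, Φ.B (w + u + s • w') (w + u + s • w') = 0 := by
  rcases hc with hc | hc
  · refine ⟨-(Φ.θ c * Φ.θ (Φ.B u u)) * (Φ.θ (Φ.B w w'))⁻¹, ?_⟩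
    obtain ⟨β, hβ⟩ : ∃ β, β = Φ.B w w' := ⟨_, rfl⟩
    obtain ⟨γ, hγ⟩ : ∃ γ, γ = Φ.B u u := ⟨_, rfl⟩
    have hγ' : γ = Φ.ε * Φ.θ γ := by rw [hγ]; exact Φ.symm u u
    have hβθ : Φ.θ β ≠ 0 := fun h0 => hww (by rw [← hβ]; exact (map_eq_zero Φ.θ).mp h0)
    have hβ0 : β ≠ 0 := by rw [hβ]; exact hww
    have h1 := Φ.eq_zero_comm hu
    have h2 := Φ.eq_zero_comm hu'
    simp only [Φ.add_left, Φ.add_right, Φ.smul_left, Φ.smul_right, hw, hw', hu, hu', h1, h2,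
      Φ.symm w w', ← hβ, ← hγ, map_mul, map_neg, map_inv₀, Φ.θθ]
    have h3 : c = 1 - Φ.θ c := by rw [← hc, add_sub_cancel_right]
    have h4 : -(Φ.θ c * Φ.θ γ) * (Φ.θ β)⁻¹ * (Φ.ε * Φ.θ β) = -(Φ.θ c * (Φ.ε * Φ.θ γ)) := by
      field_simp
    have h5 : -(c * γ) * β⁻¹ * β = -(c * γ) := by
      rw [mul_assoc, inv_mul_cancel₀ hβ0, mul_one]
    rw [← hγ'] at h4
    linear_combination h4 + h5 - γ * hc
  · exact ⟨0, hc _⟩

/-- the scalar -/
theorem scalar_pair {c : K} (hc : c + Φ.θ c = 1 ∨ ∀ x, Φ.B x x = 0) {σ : K ≃+* K} {h : E → E}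
    (hh : Semi σ h) (hcom : ∀ F, Φ.SD F → ∀ x ∈ VF F ⊓ Φ.Iso, Tw h x x)
    (hd : 4 ≤ finrank K E ∨ ∃ a, Φ.θ a ≠ a) (h3 : 3 ≤ finrank K E) {w w' u : E}
    (hw : Φ.B w w = 0) (hw' : Φ.B w' w' = 0) (hww : Φ.B w w' ≠ 0) (hu : Φ.B u w = 0)
    (hu' : Φ.B u w' = 0) (hu0 : u ≠ 0) : ∃ a : K, h w = a • w ∧ h u = a • u := by
  have hw0 : w ≠ 0 := by
    rintro rfl
    exact hww (Φ.zero_left _)
  have hw0' : w' ≠ 0 := by
    rintro rfl
    exact hww (Φ.zero_right _)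
  have hww' : Φ.B w' w ≠ 0 := fun h0 => hww (Φ.eq_zero_comm h0)
  obtain ⟨a, ha⟩ := iso_line Φ hc hh hcom hd hw hw0
  obtain ⟨a', ha'⟩ := iso_line Φ hc hh hcom hd hw' hw0'
  have hσ : ∀ t, σ t = t := field_trivial Φ hc hh hcom h3 hw hw0 ha
  obtain ⟨lam, hlam⟩ := perp_scalar Φ hc hh hcom hw hw0 ha
  obtain ⟨lam', hlam'⟩ := perp_scalar Φ hc hh hcom hw' hw0' ha'
  obtain ⟨μ, hμ⟩ := hlam u hu
  obtain ⟨μ', hμ'⟩ := hlam' u hu'
  have hμ0 : μ = 0 := by
    have h1 : Φ.B (h u) w' = μ * Φ.B w w' := by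
      rw [hμ, Φ.add_left, Φ.smul_left, Φ.smul_left, hu', mul_zero, zero_add]
    have h2 : Φ.B (h u) w' = 0 := by
      rw [hμ', Φ.add_left, Φ.smul_left, Φ.smul_left, hu', hw', mul_zero, mul_zero, zero_add]
    rw [h2] at h1
    rcases mul_eq_zero.mp h1.symm with h3 | h3
    · exact h3
    · exact absurd h3 hww
  rw [hμ0, zero_smul, add_zero] at hμ
  obtain ⟨s, hs⟩ := exists_iso_coeff Φ hc hw hw' hww hu hu'
  have hne : w + u + s • w' ≠ 0 := by
    intro h0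
    have h1 : Φ.B (w + u + s • w') w' = 0 := by rw [h0, Φ.zero_left]
    rw [Φ.add_left, Φ.add_left, Φ.smul_left, hu', hw', mul_zero, add_zero, add_zero] at h1
    exact hww h1
  obtain ⟨b, hb⟩ := iso_line Φ hc hh hcom hd hs hne
  rw [hh.add, hh.add, hh.smul, ha, ha', hμ, hσ, smul_add, smul_add] at hb
  -- the coefficient of `w`
  have hab : a = b := by
    have h1 := congrArg (fun x => Φ.B x w') hb
    simp only [Φ.add_left, Φ.smul_left, hu', hw', mul_zero, add_zero] at h1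
    exact mul_right_cancel₀ hww h1
  -- the coefficient of `w'`
  have h1 : s * a' = b * s := by
    have h1 := congrArg (fun x => Φ.B x w) hb
    simp only [Φ.add_left, Φ.smul_left, hu, hw, mul_zero, zero_add] at h1
    rw [← mul_assoc, ← mul_assoc] at h1
    exact mul_right_cancel₀ hww' h1
  rw [smul_smul s, smul_smul b s, h1, hab] at hb
  have h2 : lam • u = b • u := add_left_cancel (add_right_cancel hb)
  exact ⟨a, ha, by rw [hμ, h2, hab]⟩

/-- **The lines are preserved.** -/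
theorem lines_of_form (hT : Φ.Tr) (h3 : 3 ≤ finrank K E)
    (hd : 4 ≤ finrank K E ∨ ∃ a, Φ.θ a ≠ a) (hiso : ∃ w, w ≠ 0 ∧ Φ.B w w = 0) : Lines Φ := by
  intro σ h hh hcom
  have hT' : ∃ c, c + Φ.θ c = 1 ∨ ∀ x, Φ.B x x = 0 := by
    rcases hT with ⟨c, hc⟩ | h
    · exact ⟨c, Or.inl hc⟩
    · exact ⟨0, Or.inr h⟩
  classical
  obtain ⟨c, hc⟩ := hT'
  obtain ⟨w, hw0, hw⟩ := hiso
  -- the second vector
  obtain ⟨w', hw', hww⟩ : ∃ w', Φ.B w' w' = 0 ∧ Φ.B w w' ≠ 0 := by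
    obtain ⟨y, hy⟩ := exists_pair Φ hw0
    have hy' : Φ.B w y ≠ 0 := fun h0 => by
      rw [Φ.eq_zero_comm h0] at hy
      exact zero_ne_one hy
    rcases hc with hc | hc
    · refine ⟨y - (Φ.θ c * Φ.θ (Φ.B y y)) • w, ?_, ?_⟩
      · have h1 : Φ.B w y = Φ.ε := by rw [Φ.symm y w, hy, map_one, mul_one]
        have h2 : Φ.B y y = Φ.ε * Φ.θ (Φ.B y y) := Φ.symm y y
        rw [Φ.sub_left, Φ.sub_right, Φ.sub_right, Φ.smul_left, Φ.smul_left, Φ.smul_right,
          Φ.smul_right, hw, hy, h1, map_mul, Φ.θθ, Φ.θθ]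
        linear_combination (Φ.θ c) * h2 - Φ.B y y * hc
      · rw [Φ.sub_right, Φ.smul_right, hw, mul_zero, sub_zero]
        exact hy'
    · exact ⟨y, hc y, hy'⟩
  have hw0' : w' ≠ 0 := by
    rintro rfl
    exact hww (Φ.zero_right _)
  have hww' : Φ.B w' w ≠ 0 := fun h0 => hww (Φ.eq_zero_comm h0)
  -- a vector orthogonal to both
  have hs2 : finrank K (Submodule.span K {w, w'}) ≤ 2 := by
    have h4 := finrank_span_le_card (R := K) ({w, w'} : Set E)
    refine h4.trans ?_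
    rw [Set.toFinset_card]
    simpa using Finset.card_le_two (a := w) (b := w')
  have hp2 := Φ.finrank_add_finrank_perp (Submodule.span K {w, w'})
  obtain ⟨u₀, hu₀, hu₀n⟩ := exists_notin (K := K) (S := (⊥ : Submodule K E))
    (W := Φ.perp (Submodule.span K {w, w'})) (by rw [finrank_bot]; omega)
  have hu₀0 : u₀ ≠ 0 := fun h0 => hu₀n (by rw [h0]; exact zero_mem _)
  have hu₀w : Φ.B u₀ w = 0 := hu₀ w (Submodule.subset_span (Or.inl rfl))
  have hu₀w' : Φ.B u₀ w' = 0 := hu₀ w' (Submodule.subset_span (Or.inr rfl))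
  obtain ⟨a, haw, hau₀⟩ := scalar_pair Φ hc hh hcom hd h3 hw hw' hww hu₀w hu₀w' hu₀0
  obtain ⟨a', haw', hau₀'⟩ := scalar_pair Φ hc hh hcom hd h3 hw' hw hww' hu₀w' hu₀w hu₀0
  have haa : a' = a := by
    have h1 : (a' - a) • u₀ = 0 := by rw [sub_smul, ← hau₀, ← hau₀', sub_self]
    rcases smul_eq_zero.mp h1 with h2 | h2
    · exact sub_eq_zero.mp h2
    · exact absurd h2 hu₀0
  rw [haa] at haw'
  have hσ : ∀ t, σ t = t := field_trivial Φ hc hh hcom h3 hw hw0 haw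
  intro v
  refine ⟨a, ?_⟩
  obtain ⟨s, hs⟩ : ∃ s, s = Φ.B v w' * (Φ.B w w')⁻¹ := ⟨_, rfl⟩
  obtain ⟨s', hs'⟩ : ∃ s', s' = Φ.B v w * (Φ.B w' w)⁻¹ := ⟨_, rfl⟩
  obtain ⟨u, hu⟩ : ∃ u, u = v - s • w - s' • w' := ⟨_, rfl⟩
  have huw : Φ.B u w = 0 := by
    rw [hu, Φ.sub_left, Φ.sub_left, Φ.smul_left, Φ.smul_left, hw, hs', inv_mul_cancel_right₀ hww',
      mul_zero, sub_zero, sub_self]
  have huw' : Φ.B u w' = 0 := by
    rw [hu, Φ.sub_left, Φ.sub_left, Φ.smul_left, Φ.smul_left, hw', hs, inv_mul_cancel_right₀ hww,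
      mul_zero, sub_zero, sub_self]
  have hau : h u = a • u := by
    by_cases hu0 : u = 0
    · rw [hu0, hh.zero, smul_zero]
    · obtain ⟨b, hbw, hbu⟩ := scalar_pair Φ hc hh hcom hd h3 hw hw' hww huw huw' hu0
      have hba : b = a := by
        have h1 : (b - a) • w = 0 := by rw [sub_smul, ← hbw, ← haw, sub_self]
        rcases smul_eq_zero.mp h1 with h2 | h2
        · exact sub_eq_zero.mp h2
        · exact absurd h2 hw0
      rw [hbu, hba]
  have hv : v = u + s • w + s' • w' := by rw [hu]; abel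
  rw [hv, hh.add, hh.add, hh.smul, hh.smul, hau, haw, haw', hσ, hσ, smul_comm s, smul_comm s',
    ← smul_add, ← smul_add]

end Vale.Agent.P180.R2.H799.BS
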