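import Mathlib

/-!
P180: parabolic systems in a finite group: a family of `p'`-subgroups (the unipotent radicals)
closed under conjugation and under `(V, W) ↦ V (N(V) ∩ W)`.
-/

namespace Vale.Agent.P180.R2.H799

/-- A parabolic system. -/
structure ParSys (p : ℕ) (G : Type*) [Group G] where
  /-- the unipotent radicals -/
  car : Set (Subgroup G)
  conj : ∀ V ∈ car, ∀ g : G, V.map (MulAut.conj g).toMonoidHom ∈ car
  card : ∀ V ∈ car, ¬ p ∣ Nat.card V
  star : ∀ V ∈ car, ∀ W ∈ car, V ⊔ (Subgroup.normalizer (V : Set G) ⊓ W) ∈ car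
  norm : ∀ V ∈ car, ∀ W ∈ car,
    Subgroup.normalizer ((V ⊔ (Subgroup.normalizer (V : Set G) ⊓ W) : Subgroup G) : Set G) =
      V ⊔ (Subgroup.normalizer (V : Set G) ⊓ Subgroup.normalizer (W : Set G))

/-- `N(V)` is the semidirect product of `V` and the centraliser of `Z`. -/
def IsLeviPair {G : Type*} [Group G] (V Z : Subgroup G) : Prop :=
  V ⊓ Subgroup.centralizer (Z : Set G) = ⊥ ∧
    V ⊔ Subgroup.centralizer (Z : Set G) = Subgroup.normalizer (V : Set G)

/-- Each normaliser `N(V)` is the semidirect product of `V` and the centraliser of an abelian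
`p`-subgroup. -/
def ParSys.HasLevi {p : ℕ} {G : Type*} [Group G] (𝒮 : ParSys p G) : Prop :=
  ∀ V ∈ 𝒮.car, ∃ Z : Subgroup G, IsPGroup p Z ∧ (∀ x ∈ Z, ∀ y ∈ Z, x * y = y * x) ∧
    IsLeviPair V Z

end Vale.Agent.P180.R2.H799
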