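import Vale.Agent.P180.R2.H799.BNP3
import Vale.Agent.P180.R2.H799.Jb
import Vale.Agent.P180.R2.H471.Hc7
import Vale.Agent.P180.R2.H471.Hc8
import Vale.Agent.P180.R2.H259.Cyc.Quo

/-!
P180: the one idempotent bound for quotients by central subgroups.
-/

set_option linter.all false

namespace Vale.Agent.P180.R2.H799.BN

open Vale.Agent.P180 Vale.Agent.P180.H768.Gd Vale.Agent.P180.R2.H799
open Vale.Agent.P180.R2.H471.Hc (OneBd tr_move oneBd_quot)
open Vale.Agent.P180.R2.H259.Cyc (qmap_br)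

universe u

variable {k : Type u} [Field k] {p : ℕ} [Fact p.Prime] [CharP k p] {S : Type} [Group S] [Finite S]

theorem idemK {Y : Subgroup S} [Y.Normal] (hY : IsPGroup p Y)
    (hYc : Y ≤ Subgroup.center S) {x : MonoidAlgebra k S} (hxx : x * x = x)
    (h0 : KP.qmap k Y x = 0) : x = 0 :=
  H365.ker_idem (C := ⊤) hY (fun c _ y hy => (Subgroup.mem_center_iff.mp (hYc hy) c).symm)
    (SubAlg_top x) hxx h0

/-- the block over a block of the quotient by a central `p`-subgroup -/
theorem exists_block_over {Y : Subgroup S} [Y.Normal] (hY : IsPGroup p Y)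
    (hYc : Y ≤ Subgroup.center S) {e : MonoidAlgebra k (S ⧸ Y)}
    (he : IsBlockOf (⊤ : Subgroup (S ⧸ Y)) e) :
    ∃ e' : MonoidAlgebra k S, IsBlockOf (⊤ : Subgroup S) e' ∧ KP.qmap k Y e' = e := by
  have hec : ∀ x : MonoidAlgebra k (S ⧸ Y), e * x = x * e := fun x =>
    (commute_of_mem (SubAlg_top x) he.mem.2).symm
  obtain ⟨e', h1, h2, h3⟩ := exists_central_lift hY hYc hec he.idem.eq
  have hF : e' ∈ Fix (cj k S) ⊤ := by
    rw [mem_Fix_cj_iff]
    intro g _
    rw [← h1]
  refine ⟨e', ⟨⟨SubAlg_top _, hF⟩, h2, ?_, ?_⟩, h3⟩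
  · rintro rfl
    exact he.ne_zero (by rw [← h3, map_zero])
  · intro c hc hcc hce
    have hc' : ∀ x : MonoidAlgebra k (S ⧸ Y), x * KP.qmap k Y c = KP.qmap k Y c * x := by
      intro x
      obtain ⟨x, rfl⟩ := KP.qmap_surjective (k := k) Y x
      rw [← map_mul, ← map_mul, commute_of_mem (SubAlg_top x) hc.2]
    have hcZ : KP.qmap k Y c ∈ ZAlg k (⊤ : Subgroup (S ⧸ Y)) := by
      refine ⟨SubAlg_top _, mem_Fix_cj_iff.mpr ?_⟩
      intro g _
      rw [hc']
    rcases he.primitive (KP.qmap k Y c) hcZ (by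
      change KP.qmap k Y c * KP.qmap k Y c = _
      rw [← map_mul, hcc.eq]) (by rw [← h3, ← map_mul, hce]) with h | h
    · left
      exact idemK hY hYc hcc.eq h
    · right
      have h4 : e' * c = c := by rw [h1, hce]
      have h5 : e' - c = 0 := by
        refine idemK hY hYc ?_ (by rw [map_sub, h3, h, sub_self])
        rw [sub_mul, mul_sub, mul_sub, h2, h4, hce, hcc.eq, sub_self, sub_zero]
      exact (sub_eq_zero.mp h5).symm

/-- The bound passes to quotients by central `p`-subgroups. -/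
theorem oneBd_quot_p {Y : Subgroup S} [Y.Normal] (hY : IsPGroup p Y)
    (hYc : Y ≤ Subgroup.center S) {Q : Subgroup S} (hQ : IsPGroup p Q) (hYQ : Y ≤ Q) {C : ℕ}
    (h : OneBd k Q (Nat.card Y * C)) : OneBd k (Q.map (QuotientGroup.mk' Y)) C := by
  classical
  have hfin : FiniteDimensional k (MonoidAlgebra k S) :=
    Module.Finite.equiv (MonoidAlgebra.coeffLinearEquiv k (M := S) (S := k)).symm
  intro e a he ha hea hbr
  obtain ⟨e', he', hqe⟩ := exists_block_over hY hYc he
  have he'F : ∀ P : Subgroup S, e' ∈ Fix (cj k S) P := fun P => Fix_mono _ le_top he'.mem.2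
  have hbrQ : br Q e' ≠ 0 := by
    intro h0
    apply hbr
    rw [← hqe, ← qmap_br hQ (he'F Q), h0, map_zero]
  -- the defect group
  obtain ⟨P, hPp, a', ha', hea', c, hc, hec⟩ : ∃ P : Subgroup S, IsPGroup p P ∧
      ∃ a' ∈ Fix (cj k S) P, e' = tr (cj k S) P ⊤ a' ∧
        ∃ c, (∀ h ∈ P, h * c * h⁻¹ = c) ∧ e'.coeff c ≠ 0 := by
    obtain ⟨T⟩ : Nonempty (Sylow p S) := inferInstance
    have hT : ¬ p ∣ (T : Subgroup S).relIndex ⊤ := by
      rw [Subgroup.relIndex_top_right]
      exact T.not_dvd_index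
    have h0 := eq_tr_of_not_dvd (k := k) p hT he'.mem.2
    obtain ⟨P', hP'S, a', ha', hea', c, hc, hec⟩ := exists_min_defect (p := p) he'
      (Subalgebra.smul_mem _ (Fix_mono _ le_top he'.mem.2) _) h0
    exact ⟨P', T.isPGroup'.to_le hP'S, a', ha', hea', c, hc, hec⟩
  have hbrP : br P e' ≠ 0 := H954.br_ne_zero_of_coeff hc hec
  -- the order of `P`
  have hcard : Nat.card P ≤ Nat.card Q := by
    have hee : br P e' * br P e' = br P e' := by
      rw [← br_mul hPp (he'F P) (he'F P), he'.idem.eq]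
    have h1 : br (P.map (QuotientGroup.mk' Y)) e ≠ 0 := by
      intro h0
      apply hbrP
      refine idemK hY hYc hee ?_
      rw [qmap_br hPp (he'F P), hqe, h0]
    obtain ⟨c, hc, hec⟩ := H954.exists_coeff_of_br h1
    have h2 : Nat.card (P.map (QuotientGroup.mk' Y)) ≤ Nat.card (Q.map (QuotientGroup.mk' Y)) :=
      card_le_of_coeff le_top le_top (hPp.map _) ha hea hc hec
    have h3 : ∀ B : Subgroup S, Nat.card B = Nat.card (B.map (QuotientGroup.mk' Y)) *
        Nat.card (B ⊓ Y : Subgroup S) := by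
      intro B
      let φ : B →* S ⧸ Y := (QuotientGroup.mk' Y).comp B.subtype
      have e1 : φ.range = B.map (QuotientGroup.mk' Y) := by
        rw [MonoidHom.range_comp, Subgroup.range_subtype]
      have e2 : Nat.card φ.ker = Nat.card (B ⊓ Y : Subgroup S) := by
        refine Nat.card_congr
          { toFun := fun x => ⟨((x : B) : S), (x : B).2, ?_⟩
            invFun := fun x => ⟨⟨x.1, x.2.1⟩, ?_⟩
            left_inv := fun x => rfl
            right_inv := fun x => rfl }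
        · have := x.2
          rw [MonoidHom.mem_ker] at this
          exact (QuotientGroup.eq_one_iff _).mp this
        · rw [MonoidHom.mem_ker]
          exact (QuotientGroup.eq_one_iff _).mpr x.2.2
      rw [Subgroup.card_eq_card_quotient_mul_card_subgroup φ.ker,
        Nat.card_congr (QuotientGroup.quotientKerEquivRange φ).toEquiv, e1, e2]
    rw [h3 P, h3 Q, inf_eq_right.mpr hYQ]
    exact Nat.mul_le_mul h2 (Nat.card_le_card_of_injective _
      (Subgroup.inclusion_injective inf_le_right))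
  obtain ⟨z, -, hzF, hez⟩ := tr_move le_top le_top hQ hcard (he'F ⊤) (SubAlg_top a') ha' hea' hbrQ
  obtain ⟨i, hiF, hii, hei, hbi, hdim⟩ := h e' z he' hzF hez hbrQ
  refine ⟨KP.qmap k Y i, ?_, by rw [← map_mul, hii], by rw [← hqe, ← map_mul, hei], ?_, ?_⟩
  · rintro _ ⟨q, hq, rfl⟩
    have h1 := KP.qmap_cj (k := k) Y q i
    rw [hiF q hq] at h1
    rw [cj_eq]
    exact h1.symm
  · rw [← qmap_br hQ hiF]
    intro h0
    refine hbi (idemK hY hYc ?_ h0)
    rw [← br_mul hQ hiF hiF, hii]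
  · exact Nat.le_of_mul_le_mul_left ((card_mul_finrank_quot_le hY hYc hii).trans hdim)
      Nat.card_pos

/-- **Central quotients.** -/
theorem oneBd_central {L : Type} [Group L] [Finite L] {q : S →* L}
    (hq : Function.Surjective q) (hc : q.ker ≤ Subgroup.center S) {C : ℕ} {Q' : Subgroup L}
    (hQ' : IsPGroup p Q')
    (h : ∀ Q : Subgroup S, IsPGroup p Q → Q.map q = Q' →
      OneBd k Q (Nat.card (Q ⊓ q.ker : Subgroup S) * C)) : OneBd k Q' C := by
  classical
  -- the `p`-part of the kernel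
  let Y : Subgroup S :=
    { carrier := {x | x ∈ q.ker ∧ ∃ m : ℕ, x ^ (p ^ m) = 1}
      one_mem' := ⟨one_mem _, 0, one_pow _⟩
      mul_mem' := by
        rintro x y ⟨hx, m, hm⟩ ⟨hy, n, hn⟩
        refine ⟨mul_mem hx hy, m + n, ?_⟩
        have hc : Commute x y := (Subgroup.mem_center_iff.mp (hc hx) y).symm
        rw [hc.mul_pow, pow_add, pow_mul, hm, one_pow, one_mul, mul_comm, pow_mul, hn, one_pow]
      inv_mem' := by
        rintro x ⟨hx, m, hm⟩
        exact ⟨inv_mem hx, m, by rw [inv_pow, hm, inv_one]⟩ }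
  have hYk : Y ≤ q.ker := fun x hx => hx.1
  have hYc : Y ≤ Subgroup.center S := hYk.trans hc
  have hYp : IsPGroup p Y := by
    rintro ⟨x, hx, m, hm⟩
    exact ⟨m, Subtype.ext hm⟩
  have hYn : Y.Normal := by
    refine ⟨fun x hx g => ?_⟩
    rw [Subgroup.mem_center_iff.mp (hYc hx) g, mul_inv_cancel_right]
    exact hx
  -- the lift of `Q'`
  obtain ⟨Q₀, hQ₀, hQ₀q⟩ := exists_lift (p := p) q hq hQ'
  let Q : Subgroup S := Q₀ ⊔ Y
  have hQp : IsPGroup p Q := hQ₀.to_sup_of_normal_right hYp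
  have hQq : Q.map q = Q' := by
    rw [Subgroup.map_sup, hQ₀q]
    refine sup_eq_left.mpr ?_
    rintro _ ⟨y, hy, rfl⟩
    rw [show q y = 1 from hYk hy]
    exact Q'.one_mem
  have hQY : Q ⊓ q.ker = Y := by
    apply le_antisymm
    · rintro x ⟨hx, hxk⟩
      obtain ⟨m, hm⟩ := hQp ⟨x, hx⟩
      exact ⟨hxk, m, congrArg Subtype.val hm⟩
    · exact le_inf le_sup_right hYk
  have hQ0 := h Q hQp hQq
  rw [hQY] at hQ0
  have hQ1 := oneBd_quot_p hYp hYc hQp le_sup_right hQ0
  -- the second quotient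
  let r : S ⧸ Y →* L := QuotientGroup.lift Y q hYk
  have hr : ∀ x : S, r (x : S ⧸ Y) = q x := fun x => rfl
  have hrs : Function.Surjective r := by
    intro y
    obtain ⟨x, rfl⟩ := hq y
    exact ⟨(x : S ⧸ Y), rfl⟩
  have hkr : ∀ x, r x = 1 → ∀ g, x * g = g * x := by
    intro x hx g
    obtain ⟨x, rfl⟩ := QuotientGroup.mk_surjective x
    obtain ⟨g, rfl⟩ := QuotientGroup.mk_surjective g
    have h1 : x ∈ Subgroup.center S := hc hx
    change ((x * g : S) : S ⧸ Y) = ((g * x : S) : S ⧸ Y)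
    rw [Subgroup.mem_center_iff.mp h1 g]
  have hpk : ¬ p ∣ Nat.card r.ker := by
    intro hd
    obtain ⟨x, hx⟩ := exists_prime_orderOf_dvd_card' p hd
    obtain ⟨x, hxk⟩ := x
    obtain ⟨x, rfl⟩ := QuotientGroup.mk_surjective x
    have hxk' : q x = 1 := hxk
    have h1 : (x : S ⧸ Y) ^ p = 1 := by
      have := pow_orderOf_eq_one (⟨(x : S ⧸ Y), hxk⟩ : r.ker)
      rw [hx] at this
      exact congrArg Subtype.val this
    have h2 : x ^ p ∈ Y := (QuotientGroup.eq_one_iff _).mp h1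
    obtain ⟨-, m, hm⟩ := h2
    have h3 : x ∈ Y := ⟨hxk', m + 1, by rw [pow_succ', pow_mul, hm]⟩
    have h4 : (⟨(x : S ⧸ Y), hxk⟩ : r.ker) = 1 := Subtype.ext ((QuotientGroup.eq_one_iff _).mpr h3)
    rw [h4, orderOf_one] at hx
    exact (Fact.out : p.Prime).one_lt.ne hx
  have h5 := oneBd_quot hrs hkr hpk (hQp.map _) hQ1
  have h6 : (Q.map (QuotientGroup.mk' Y)).map r = Q' := by
    rw [Subgroup.map_map, ← hQq]
    rfl
  rwa [h6] at h5

end Vale.Agent.P180.R2.H799.BN
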