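import Vale.Agent.P180.R2.H799.BNG2
import Vale.Agent.P180.R2.H799.BNP2
import Vale.Agent.P180.R2.H799.BNL6

/-!
P180: the corner property of central quotients of special linear groups over fields with `q`
elements, `p ∣ q - 1`, for diagonalisable `p`-subgroups, without a condition on the dimension.
-/

set_option linter.all false

namespace Vale.Agent.P180.R2.H799.BG

open Module Vale.Agent.P180 Vale.Agent.P180.R2.H854 Vale.Agent.P180.R2.H854.GL
  Vale.Agent.P180.R2.H799
open Vale.Agent.P180.R2.H799.BN (rbd oneBd_central SplitSL span_EV_of_comm span_EV_of_lt finite_sl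
  not_dvd_center card_subgroupOf_le)
open Vale.Agent.P180.R2.H471.Hc (OneBd corP_of_one)

universe u

theorem oneBd_mono {k : Type u} [Field k] {H : Type} [Group H] [Finite H] {Q : Subgroup H}
    {C C' : ℕ} (h : OneBd k Q C) (hC : C ≤ C') : OneBd k Q C' := by
  intro e a he ha hea hbr
  obtain ⟨i, h1, h2, h3, h4, h5⟩ := h e a he ha hea hbr
  exact ⟨i, h1, h2, h3, h4, h5.trans hC⟩

theorem card_map_mul {S L : Type*} [Group S] [Finite S] [Group L] (q : S →* L) (B : Subgroup S) :
    Nat.card B = Nat.card (B.map q) * Nat.card (B ⊓ q.ker : Subgroup S) := by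
  let φ : B →* L := q.comp B.subtype
  have e1 : φ.range = B.map q := by
    rw [MonoidHom.range_comp, Subgroup.range_subtype]
  have e2 : Nat.card φ.ker = Nat.card (B ⊓ q.ker : Subgroup S) := by
    refine Nat.card_congr
      { toFun := fun x => ⟨((x : B) : S), (x : B).2, x.2⟩
        invFun := fun x => ⟨⟨x.1, x.2.1⟩, x.2.2⟩
        left_inv := fun x => rfl
        right_inv := fun x => rfl }
  rw [Subgroup.card_eq_card_quotient_mul_card_subgroup φ.ker,
    Nat.card_congr (QuotientGroup.quotientKerEquivRange φ).toEquiv, e1, e2]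

variable {K E : Type} [Field K] [Finite K] [AddCommGroup E] [Module K E] [FiniteDimensional K E]

/-- the central elements of order dividing `p` -/
theorem card_central_le {p : ℕ} [Fact p.Prime] {Y : Subgroup (SpecialLinearGroup K E)}
    (hY : Y ≤ Subgroup.center _) (hexp : ∀ x ∈ Y, x ^ p = 1) : Nat.card Y ≤ p := by
  have : NeZero p := ⟨(Fact.out : p.Prime).ne_zero⟩
  let ε := SpecialLinearGroup.centerEquivRootsOfUnity (R := K) (V := E)
  refine le_trans (Nat.card_le_card_of_injective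
    (fun x : Y => (⟨(ε ⟨x.1, hY x.2⟩ : Kˣ), ?_⟩ : rootsOfUnity p K)) ?_) (card_rootsOfUnity K p)
  · rw [mem_rootsOfUnity]
    have h1 : (⟨x.1, hY x.2⟩ : Subgroup.center (SpecialLinearGroup K E)) ^ p = 1 :=
      Subtype.ext (hexp x.1 x.2)
    have h2 : ε ⟨x.1, hY x.2⟩ ^ p = 1 := by rw [← map_pow, h1, map_one]
    exact congrArg Subtype.val h2
  · intro x y hxy
    have h1 : ((ε ⟨x.1, hY x.2⟩ : rootsOfUnity _ K) : Kˣ) = (ε ⟨y.1, hY y.2⟩ : Kˣ) :=
      congrArg (fun z : rootsOfUnity p K => (z : Kˣ)) hxy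
    have h2 := ε.injective (Subtype.ext h1)
    exact Subtype.ext (congrArg
      (fun z : Subgroup.center (SpecialLinearGroup K E) => (z : SpecialLinearGroup K E)) h2)

/-- The bound for a central quotient of the special linear group. -/
theorem oneBd_sl {k : Type u} [Field k] [IsAlgClosed k] {p : ℕ} [Fact p.Prime] [CharP k p]
    (hp1 : p ∣ Nat.card K - 1) {L : Type} [Group L] [Finite L]
    (π : SpecialLinearGroup K E →* L) (hπ : Function.Surjective π)
    (hk : π.ker ≤ Subgroup.center _) {Q' : Subgroup L} (hQ' : IsPGroup p Q')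
    (hspan : ∀ Q : Subgroup (SpecialLinearGroup K E), IsPGroup p Q → Q.map π = Q' →
      Submodule.span K (BN.EV Q) = ⊤) :
    OneBd k Q' (Nat.card Q' * rbd (p * (p * Nat.card Q'))) := by
  have _ : Finite (E ≃ₗ[K] E) := finite_gl
  let ι : SLs K E →* SpecialLinearGroup K E := (slIso K E).toMonoidHom
  have hι : Function.Bijective ι := (slIso K E).bijective
  let q : SLs K E →* L := π.comp ι
  have hq : Function.Surjective q := hπ.comp hι.2
  have hker : ∀ x, x ∈ q.ker ↔ ι x ∈ π.ker := fun x => Iff.rfl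
  have hqc : q.ker ≤ Subgroup.center (SLs K E) := by
    intro x hx
    rw [Subgroup.mem_center_iff]
    intro g
    apply hι.1
    rw [map_mul, map_mul]
    exact Subgroup.mem_center_iff.mp (hk ((hker x).mp hx)) (ι g)
  refine oneBd_central hq hqc hQ' fun Q hQ hQq => ?_
  have h1 : Submodule.span K (EV (Q.map (SLs K E).subtype)) = ⊤ := by
    have h2 := hspan (Q.map ι) (hQ.map ι) (by rw [Subgroup.map_map]; exact hQq)
    rw [← h2]
    congr 1
    ext v
    constructor
    · rintro h _ ⟨g, hg, rfl⟩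
      exact h _ ⟨g, hg, rfl⟩
    · rintro h _ ⟨g, hg, rfl⟩
      exact h _ ⟨g, hg, rfl⟩
  have h2 := oneBd_sls (k := k) hp1 hQ h1 (m := p * Nat.card Q') (by
    intro Y hYQ hexp
    rw [card_map_mul q Y, mul_comm p]
    refine Nat.mul_le_mul ?_ ?_
    · rw [← hQq]
      exact Nat.card_le_card_of_injective _ (Subgroup.inclusion_injective (Subgroup.map_mono hYQ))
    · rw [Nat.card_congr ((Y ⊓ q.ker).equivMapOfInjective ι hι.1).toEquiv]
      refine card_central_le (p := p) ?_ ?_
      · rintro _ ⟨x, hx, rfl⟩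
        exact hk ((hker x).mp hx.2)
      · rintro _ ⟨x, hx, rfl⟩
        rw [← map_pow, hexp x hx.1, map_one])
  refine oneBd_mono h2 (le_of_eq ?_)
  rw [card_map_mul q Q, hQq]
  ring

/-- `L` is a central quotient of the special linear group of `K^d`, `p ∣ |K| - 1`, and `d < p` or
the elements of order a power of `p` over elements of `D ∩ L` commute and have order dividing
`|K| - 1`. -/
def SplitSL2 (p : ℕ) {G : Type} [Group G] (D L : Subgroup G) : Prop :=
  ∃ (K : Type) (_ : Field K) (_ : Finite K) (d : ℕ)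
    (π : SpecialLinearGroup K (Fin d → K) →* L), Function.Surjective π ∧
      π.ker ≤ Subgroup.center _ ∧ p ∣ Nat.card K - 1 ∧
      (d < p ∨ ∀ x y : SpecialLinearGroup K (Fin d → K), (∃ m : ℕ, x ^ (p ^ m) = 1) →
        (∃ m : ℕ, y ^ (p ^ m) = 1) → ((π x : L) : G) ∈ D → ((π y : L) : G) ∈ D →
          x * y = y * x ∧ x ^ (Nat.card K - 1) = 1)

/-- the bound -/
def bnC (p n : ℕ) : ℕ := n * rbd (p * (p * n))

theorem rbd_mono {m n : ℕ} (h : m ≤ n) : rbd m ≤ rbd n := by
  unfold rbd
  exact Nat.mul_le_mul (Nat.factorial_le h) (Nat.mul_le_mul (Nat.factorial_le h)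
    (Nat.factorial_le h))

/-- **The corner property** of special linear groups. -/
theorem corP_sl2 {k : Type u} [Field k] [IsAlgClosed k] {p n : ℕ} [Fact p.Prime] [CharP k p]
    {G : Type} [Group G] [Finite G] {D L : Subgroup G} (hD : IsPGroup p D)
    (hDn : Nat.card D ≤ n) (h : SplitSL2 p D L)
    (hin : D ⊓ Subgroup.normalizer (L : Set G) ≤ L ⊔ Subgroup.centralizer (L : Set G))
    (b : MonoidAlgebra k G) : H365.CorP p (bnC p n) b D L := by
  obtain ⟨K, _, _, d, π, hπ, hk, hp1, hdiag⟩ := h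
  refine corP_of_one hD hin (fun Q hQ => ?_) b
  have hQp : IsPGroup p Q := (hD.comap_of_injective L.subtype L.subtype_injective).to_le hQ
  have hQn := card_subgroupOf_le hDn hQ
  have hfd : finrank K (Fin d → K) = d := by rw [Module.finrank_fin_fun]
  refine oneBd_mono (oneBd_sl hp1 π hπ hk hQp fun Q₀ hQ₀ hQ₀q => ?_)
    (Nat.mul_le_mul hQn (rbd_mono (Nat.mul_le_mul_left _ (Nat.mul_le_mul_left _ hQn))))
  have hmem : ∀ x ∈ Q₀, ((π x : L) : G) ∈ D := by
    intro x hx
    have h1 : π x ∈ Q := by rw [← hQ₀q]; exact ⟨x, hx, rfl⟩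
    exact hQ h1
  have hpow : ∀ x ∈ Q₀, ∃ m : ℕ, x ^ (p ^ m) = 1 := by
    intro x hx
    obtain ⟨m, hm⟩ := hQ₀ ⟨x, hx⟩
    exact ⟨m, congrArg Subtype.val hm⟩
  rcases hdiag with hd | hd
  · exact span_EV_of_lt hQ₀ hp1 (by rw [hfd]; exact hd)
  · refine span_EV_of_comm ?_ ?_
    · intro x hx y hy
      exact (hd x y (hpow x hx) (hpow y hy) (hmem x hx) (hmem y hy)).1
    · intro x hx
      exact (hd x x (hpow x hx) (hpow x hx) (hmem x hx) (hmem x hx)).2

/-- The class `SplitSL` is contained in `SplitSL2`. -/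
theorem SplitSL2.of_splitSL {p : ℕ} [Fact p.Prime] {G : Type} [Group G] {D L : Subgroup G}
    (h : SplitSL p D L) : SplitSL2 p D L := by
  obtain ⟨K, hF, hfin, d, π, hπ, hk, hp1, hn, hdiag⟩ := h
  refine ⟨K, hF, hfin, d, π, hπ, hk, hp1, ?_⟩
  rcases hdiag with h | ⟨h1, h2⟩
  · exact Or.inl h
  right
  have hfG : Finite (SpecialLinearGroup K (Fin d → K)) := finite_sl
  have hfd : finrank K (Fin d → K) = d := by rw [Module.finrank_fin_fun]
  have hkp : ¬ p ∣ Nat.card π.ker := not_dvd_center (by rw [hfd]; exact hn) hk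
  have hker : ∀ x, (∃ m : ℕ, x ^ (p ^ m) = 1) → π x = 1 → x = 1 := by
    rintro x ⟨m, hm⟩ hx
    have h3 : orderOf x ∣ Nat.card π.ker := by
      have h4 := orderOf_dvd_natCard (⟨x, hx⟩ : π.ker)
      rwa [show orderOf (⟨x, hx⟩ : π.ker) = orderOf x from
        (orderOf_injective π.ker.subtype π.ker.subtype_injective _).symm] at h4
    obtain ⟨j, -, hj⟩ := (Nat.dvd_prime_pow (Fact.out : p.Prime)).mp (orderOf_dvd_of_pow_eq_one hm)
    rw [hj] at h3
    rcases Nat.eq_zero_or_pos j with h0 | h0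
    · rw [h0, pow_zero] at hj
      exact orderOf_eq_one_iff.mp hj
    · exact absurd ((dvd_pow_self p h0.ne').trans h3) hkp
  intro x y hx hy hxD hyD
  constructor
  · have h3 : π (x * y * x⁻¹ * y⁻¹) = 1 := by
      have h4 : π x * π y = π y * π x := Subtype.ext (h1 _ hxD (π x).2 _ hyD (π y).2)
      rw [map_mul, map_mul, map_mul, map_inv, map_inv, h4]
      group
    have h5 : x * y * x⁻¹ * y⁻¹ ∈ Subgroup.center (SpecialLinearGroup K (Fin d → K)) := hk h3
    have h6 : x * y * x⁻¹ * y⁻¹ = 1 := by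
      refine hker _ ?_ h3
      obtain ⟨m, hm⟩ := hy
      refine ⟨m, ?_⟩
      have h7 : Commute (x * y * x⁻¹ * y⁻¹) y :=
        (Subgroup.mem_center_iff.mp h5 y).symm
      have h8 : (x * y * x⁻¹ * y⁻¹) ^ (p ^ m) * y ^ (p ^ m) = x * y ^ (p ^ m) * x⁻¹ := by
        rw [← h7.mul_pow, inv_mul_cancel_right, conj_pow]
      rw [hm, mul_one, mul_one, mul_inv_cancel] at h8
      exact h8
    calc x * y = (x * y * x⁻¹ * y⁻¹) * (y * x) := by group
      _ = y * x := by rw [h6, one_mul]
  · refine hker _ ?_ ?_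
    · obtain ⟨m, hm⟩ := hx
      exact ⟨m, by rw [← pow_mul, mul_comm, pow_mul, hm, one_pow]⟩
    · rw [map_pow]
      exact Subtype.ext (h2 _ hxD (π x).2)

end Vale.Agent.P180.R2.H799.BG
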