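import Vale.Agent.P180.R2.H799.BW1
import Vale.Agent.P180.R2.H259.Exp.Fin

/-!
P180: the bound for the special linear groups in the form used for the corner property.
-/

set_option linter.all false

namespace Vale.Agent.P180.R2.H799.BV

open Module Vale.Agent.P180.R2.H854

universe u

theorem slBd {k : Type u} [Field k] [IsAlgClosed k] (p n : ℕ) [Fact p.Prime] [CharP k p] :
    SLBd k p n (H259.Exp.expB p n) := by
  intro K iK fK d fG hp1 hd Q hQ hQn hab
  have hp : p.Prime := Fact.out
  have hq1 : 1 < Nat.card K := Finite.one_lt_card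
  have hK : ¬ p ∣ Nat.card K := by
    intro hd
    have h1 := Nat.dvd_sub hd hp1
    rw [Nat.sub_sub_self hq1.le, Nat.dvd_one] at h1
    exact hp.one_lt.ne' h1
  exact H259.Exp.oneBd_slE hK hp1 (by rw [Module.finrank_fin_fun]; exact hd) hQ hQn hab

end Vale.Agent.P180.R2.H799.BV
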