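import Vale.Agent.P180.R2.H799.Nilp1

/-!
P180: the Brauer map at a subgroup `Q` of order `p`, followed by reduction modulo `Q`.
-/

namespace Vale.Agent.P180.R2.H799

open Vale.Agent.P180 Vale.Agent.P180.H768.Gd

set_option linter.unusedSectionVars false

section Quot

variable {k : Type*} [Field k] {H : Type*} [Group H] [Finite H]

theorem qmap_cj' (Y : Subgroup H) [Y.Normal] (h : H) (a : MonoidAlgebra k H) :
    KP.qmap k Y (cj k H h a) = cj k (H ⧸ Y) (QuotientGroup.mk h : H ⧸ Y) (KP.qmap k Y a) := by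
  rw [KP.qmap_cj, cj_eq]

theorem qmap_Fix {Y R : Subgroup H} [Y.Normal] {a : MonoidAlgebra k H} (ha : a ∈ Fix (cj k H) R) :
    KP.qmap k Y a ∈ Fix (cj k (H ⧸ Y)) (R.map (QuotientGroup.mk' Y)) := by
  rintro _ ⟨r, hr, rfl⟩
  change cj k (H ⧸ Y) (QuotientGroup.mk r : H ⧸ Y) (KP.qmap k Y a) = _
  rw [← qmap_cj', ha r hr]

theorem qmap_ZAlg (Y : Subgroup H) [Y.Normal] {a : MonoidAlgebra k H}
    (ha : a ∈ ZAlg k (⊤ : Subgroup H)) : KP.qmap k Y a ∈ ZAlg k (⊤ : Subgroup (H ⧸ Y)) := by
  rw [mem_ZAlg]
  refine ⟨SubAlg_top _, ?_⟩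
  intro x _
  induction x using QuotientGroup.induction_on with
  | H h =>
    rw [← qmap_cj', (mem_ZAlg.mp ha).2 h (Subgroup.mem_top _)]

theorem qmap_tr {Y R : Subgroup H} [Y.Normal] (hYR : Y ≤ R) {a : MonoidAlgebra k H}
    (ha : a ∈ Fix (cj k H) R) :
    KP.qmap k Y (tr (cj k H) R ⊤ a) =
      tr (cj k (H ⧸ Y)) (R.map (QuotientGroup.mk' Y)) ⊤ (KP.qmap k Y a) := by
  classical
  have _ := Fintype.ofFinite (H ⧸ R)
  rw [tr_top_eq_sum ha, map_sum]
  rw [tr_eq_sum' (ι := H ⧸ R) (qmap_Fix ha) (fun q => (QuotientGroup.mk q.out : H ⧸ Y))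
    (fun _ => Subgroup.mem_top _)]
  · exact Finset.sum_congr rfl fun q _ => qmap_cj' Y _ a
  · intro i j h
    obtain ⟨r, hr, hr'⟩ := h
    rw [← QuotientGroup.out_eq' i, ← QuotientGroup.out_eq' j, QuotientGroup.eq]
    have h1 : (QuotientGroup.mk r : H ⧸ Y) = QuotientGroup.mk (i.out⁻¹ * j.out) := hr'
    rw [QuotientGroup.eq] at h1
    have h2 := R.mul_mem hr (hYR h1)
    simpa using h2
  · intro x _
    induction x using QuotientGroup.induction_on with
    | H y =>
      refine ⟨(y : H ⧸ R), ?_⟩
      have h1 : ((y : H ⧸ R).out)⁻¹ * y ∈ R := by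
        rw [← QuotientGroup.eq, QuotientGroup.out_eq']
      exact ⟨_, h1, rfl⟩

theorem card_map_mk {Y R : Subgroup H} [Y.Normal] (hYR : Y ≤ R) :
    Nat.card (R.map (QuotientGroup.mk' Y)) * Nat.card Y = Nat.card R := by
  have h1 : Nat.card (R.map (QuotientGroup.mk' Y)) = Y.relIndex R := by
    rw [← Subgroup.relIndex_ker, QuotientGroup.ker_mk']
  have h2 := Subgroup.relIndex_mul_relIndex ⊥ Y R bot_le hYR
  rw [Subgroup.relIndex_bot_left, Subgroup.relIndex_bot_left] at h2
  rw [h1, mul_comm, h2]

end Quot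

section Ker

variable {k : Type*} [Field k] {p : ℕ} [Fact p.Prime] [CharP k p] {H : Type*} [Group H] [Finite H]

theorem exists_of_qmap_zero {s : H} [(Subgroup.zpowers s).Normal]
    {a : MonoidAlgebra k H} (ha : KP.qmap k (Subgroup.zpowers s) a = 0) :
    ∃ v, a = (MonoidAlgebra.single s (1 : k) - 1) * v := by
  classical
  have _ := Fintype.ofFinite (Subgroup.zpowers s)
  let _ : CommGroup (Subgroup.zpowers s) :=
    { (inferInstance : Group (Subgroup.zpowers s)) with
      mul_comm := fun a b => IsMulCommutative.is_comm.comm a b }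
  obtain ⟨b, hb⟩ := KP.exists_of_qmap_eq_zero (C := Subgroup.zpowers s)
    (Subgroup.zpowers s).subtype (Subgroup.zpowers s) (Subgroup.range_subtype _) a ha
  have key : ∀ c : Subgroup.zpowers s, ∃ v : MonoidAlgebra k H,
      MonoidAlgebra.single ((Subgroup.zpowers s).subtype c) (1 : k) - 1 =
        (MonoidAlgebra.single s (1 : k) - 1) * v := by
    rintro ⟨c, hc⟩
    have hfin : IsOfFinOrder s := isOfFinOrder_of_finite s
    obtain ⟨n, hn⟩ := (hfin.mem_powers_iff_mem_zpowers).mpr hc
    have hn' : s ^ n = c := hn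
    refine ⟨∑ i ∈ Finset.range n, (MonoidAlgebra.single s (1 : k)) ^ i, ?_⟩
    rw [mul_geom_sum]
    change MonoidAlgebra.single c (1 : k) - 1 = _
    rw [← hn', MonoidAlgebra.single_pow, one_pow]
  choose w hw using key
  refine ⟨∑ c, w c * b c, ?_⟩
  rw [hb, Finset.mul_sum]
  refine Finset.sum_congr rfl fun c _ => ?_
  rw [hw c, mul_assoc]

theorem prod_of_qmap_zero {s : H} [(Subgroup.zpowers s).Normal] (hs : s ^ p = 1)
    (hc : ∀ x, s * x = x * s) (L : List (MonoidAlgebra k H))
    (hL : ∀ a ∈ L, KP.qmap k (Subgroup.zpowers s) a = 0) (hp : p ≤ L.length) : L.prod = 0 := by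
  have hcomm : ∀ v : MonoidAlgebra k H, Commute (MonoidAlgebra.single s (1 : k) - 1) v := by
    intro v
    have h1 : Commute (MonoidAlgebra.single s (1 : k)) v := by
      induction v using MonoidAlgebra.induction_linear with
      | zero => exact Commute.zero_right _
      | add a b ha hb => exact ha.add_right hb
      | single x r =>
        change _ * _ = _ * _
        rw [MonoidAlgebra.single_mul_single, MonoidAlgebra.single_mul_single, hc, one_mul, mul_one]
    exact h1.sub_left (Commute.one_left v)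
  have key : ∀ L : List (MonoidAlgebra k H), (∀ a ∈ L, KP.qmap k (Subgroup.zpowers s) a = 0) →
      ∃ v, L.prod = (MonoidAlgebra.single s (1 : k) - 1) ^ L.length * v := by
    intro L
    induction L with
    | nil => intro _; exact ⟨1, by simp⟩
    | cons a L ih =>
      intro h
      obtain ⟨v, hv⟩ := ih fun a ha => h a (List.mem_cons_of_mem _ ha)
      obtain ⟨u, hu⟩ := exists_of_qmap_zero (h a List.mem_cons_self)
      refine ⟨u * v, ?_⟩
      rw [List.prod_cons, hv, hu, List.length_cons]
      generalize MonoidAlgebra.single s (1 : k) - 1 = t at hcomm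
      have h1 : u * t ^ L.length = t ^ L.length * u := ((hcomm u).pow_left L.length).eq.symm
      calc t * u * (t ^ L.length * v) = t * (u * t ^ L.length) * v := by
            simp only [mul_assoc]
        _ = t ^ (L.length + 1) * (u * v) := by
            rw [h1, pow_succ']
            simp only [mul_assoc]
  obtain ⟨v, hv⟩ := key L hL
  have h0 : (MonoidAlgebra.single s (1 : k) - 1) ^ p = 0 := by
    have hch : CharP (MonoidAlgebra k H) p := charP_of_injective_algebraMap
      (algebraMap k (MonoidAlgebra k H)).injective p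
    rw [sub_pow_char_of_commute _ (Commute.one_right _), MonoidAlgebra.single_pow, hs, one_pow,
      one_pow, MonoidAlgebra.one_def, sub_self]
  rw [hv, ← Nat.sub_add_cancel hp, pow_add, h0, mul_zero, zero_mul]

end Ker

section Res

variable {k : Type*} [Field k] {p : ℕ} [Fact p.Prime] [CharP k p] {G : Type*} [Group G] [Finite G]

/-- The Brauer map with values in the group algebra of the centraliser. -/
noncomputable def res (Q : Subgroup G) (a : MonoidAlgebra k G) :
    MonoidAlgebra k (Subgroup.centralizer (Q : Set G)) :=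
  Classical.choose (exists_incl _ (br_mem Q a))

theorem incl_res (Q : Subgroup G) (a : MonoidAlgebra k G) :
    incl k (Subgroup.centralizer (Q : Set G)) (res Q a) = br Q a :=
  Classical.choose_spec (exists_incl _ (br_mem Q a))

theorem br_add (Q : Subgroup G) (a b : MonoidAlgebra k G) : br Q (a + b) = br Q a + br Q b := by
  classical
  apply MonoidAlgebra.coeff_injective
  ext x
  rw [MonoidAlgebra.coeff_add, Finsupp.add_apply, br_coeff, br_coeff, br_coeff]
  by_cases h : x ∈ Subgroup.centralizer (Q : Set G)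
  · simp [h]
  · simp [h]

theorem br_zero (Q : Subgroup G) : br Q (0 : MonoidAlgebra k G) = 0 := by
  classical
  apply MonoidAlgebra.coeff_injective
  ext x
  rw [br_coeff]
  simp

theorem br_sum {ι : Type*} (Q : Subgroup G) (s : Finset ι) (f : ι → MonoidAlgebra k G) :
    br Q (∑ i ∈ s, f i) = ∑ i ∈ s, br Q (f i) := by
  classical
  induction s using Finset.induction_on with
  | empty => simp [br_zero]
  | insert i s hi ih => rw [Finset.sum_insert hi, Finset.sum_insert hi, br_add, ih]

theorem br_of_mem (Q : Subgroup G) {a : MonoidAlgebra k G}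
    (ha : a ∈ SubAlg k (Subgroup.centralizer (Q : Set G))) : br Q a = a := by
  classical
  apply MonoidAlgebra.coeff_injective
  ext x
  rw [br_coeff]
  by_cases h : x ∈ Subgroup.centralizer (Q : Set G)
  · rw [if_pos h]
  · rw [if_neg h]
    by_contra h0
    exact h (ha x (fun h1 => h0 h1.symm))

theorem br_one (Q : Subgroup G) : br Q (1 : MonoidAlgebra k G) = 1 :=
  br_of_mem Q (Subalgebra.one_mem _)

theorem br_cj (Q : Subgroup G) {c : G} (hc : c ∈ Subgroup.centralizer (Q : Set G))
    (a : MonoidAlgebra k G) : br Q (cj k G c a) = cj k G c (br Q a) := by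
  classical
  apply MonoidAlgebra.coeff_injective
  ext x
  rw [br_coeff, cj_coeff, cj_coeff, br_coeff]
  have h1 : c⁻¹ * x * c ∈ Subgroup.centralizer (Q : Set G) ↔
      x ∈ Subgroup.centralizer (Q : Set G) := by
    constructor
    · intro h
      have := Subgroup.mul_mem _ (Subgroup.mul_mem _ hc h) (Subgroup.inv_mem _ hc)
      have e : c * (c⁻¹ * x * c) * c⁻¹ = x := by group
      rwa [e] at this
    · intro h
      exact Subgroup.mul_mem _ (Subgroup.mul_mem _ (Subgroup.inv_mem _ hc) h) hc
  simp only [h1]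

theorem br_tr_cent (Q : Subgroup G) {R : Subgroup G} (a : MonoidAlgebra k G) :
    br Q (tr (cj k G) R (Subgroup.centralizer (Q : Set G)) a) =
      tr (cj k G) R (Subgroup.centralizer (Q : Set G)) (br Q a) := by
  have _ := Fintype.ofFinite (Subgroup.centralizer (Q : Set G) ⧸
    R.subgroupOf (Subgroup.centralizer (Q : Set G)))
  rw [tr_def, tr_def, br_sum]
  refine Finset.sum_congr rfl fun q _ => ?_
  exact br_cj Q (q.out).2 a

theorem res_add (Q : Subgroup G) (a b : MonoidAlgebra k G) : res Q (a + b) = res Q a + res Q b := by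
  apply incl_injective
  rw [map_add, incl_res, incl_res, incl_res, br_add]

theorem res_zero (Q : Subgroup G) : res Q (0 : MonoidAlgebra k G) = 0 := by
  apply incl_injective
  rw [map_zero, incl_res, br_zero]

theorem res_one (Q : Subgroup G) : res Q (1 : MonoidAlgebra k G) = 1 := by
  apply incl_injective
  rw [map_one, incl_res, br_one]

theorem res_sum {ι : Type*} (Q : Subgroup G) (s : Finset ι) (f : ι → MonoidAlgebra k G) :
    res Q (∑ i ∈ s, f i) = ∑ i ∈ s, res Q (f i) := by
  apply incl_injective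
  rw [map_sum, incl_res, br_sum]
  exact Finset.sum_congr rfl fun i _ => (incl_res Q _).symm

theorem res_mul {Q : Subgroup G} (hQ : IsPGroup p Q) {a b : MonoidAlgebra k G}
    (ha : a ∈ Fix (cj k G) Q) (hb : b ∈ Fix (cj k G) Q) : res Q (a * b) = res Q a * res Q b := by
  apply incl_injective
  rw [map_mul, incl_res, incl_res, incl_res, br_mul hQ ha hb]

theorem res_eq_zero_iff {Q : Subgroup G} {a : MonoidAlgebra k G} : res Q a = 0 ↔ br Q a = 0 := by
  rw [← incl_res]
  constructor
  · intro h; rw [h, map_zero]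
  · intro h
    apply incl_injective (k := k) (Subgroup.centralizer (Q : Set G))
    rw [h, map_zero]

theorem res_ZAlg (Q : Subgroup G) {a : MonoidAlgebra k G} (ha : a ∈ ZAlg k (⊤ : Subgroup G)) :
    res Q a ∈ ZAlg k (⊤ : Subgroup (Subgroup.centralizer (Q : Set G))) := by
  rw [mem_ZAlg]
  refine ⟨SubAlg_top _, ?_⟩
  intro c _
  apply incl_injective (k := k) (Subgroup.centralizer (Q : Set G))
  rw [incl_cj, incl_res, ← br_cj Q c.2, (mem_ZAlg.mp ha).2 c (Subgroup.mem_top _)]

end Res

end Vale.Agent.P180.R2.H799
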