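import Vale.Agent.P180.R2.H471.He8

/-!
P180: small corners for central products: the commuting factors may intersect nontrivially
(helper471's argument; the family is reduced to an antichain).
-/

set_option linter.all false

namespace Vale.Agent.P180.R2.H799.BZ

open Vale.Agent.P180 Vale.Agent.P180.H768.Gd Vale.Agent.P180.R2.H799
  Vale.Agent.P180.R2.H12 Vale.Agent.P180.R2.H47 Vale.Agent.P180.R2.H954
  Vale.Agent.P180.R2.H954.Hc Vale.Agent.P180.R2.H471.He
open Vale.Agent.P180.R2.H259.Cyc (cycB cycB_mono)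

universe u

/-- The family can be reduced to an antichain with the same supremum. -/
theorem exists_prune {G : Type*} [Group G] {r : ℕ} (A : Fin r → Subgroup G) :
    ∃ (s : ℕ) (ι : Fin s → Fin r), s ≤ r ∧ Function.Injective ι ∧
      (⨆ i, A (ι i)) = (⨆ j, A j) ∧ ∀ i j, A (ι i) ≤ A (ι j) → i = j := by
  classical
  obtain ⟨T, hT, hmin⟩ := Finset.exists_min_image
    ((Finset.univ : Finset (Finset (Fin r))).filter fun T => (⨆ j ∈ T, A j) = ⨆ j, A j)
    Finset.card ⟨Finset.univ, by simp⟩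
  rw [Finset.mem_filter] at hT
  let e := T.equivFin
  refine ⟨T.card, fun i => (e.symm i).1, ?_, fun i j h => e.symm.injective (Subtype.ext h), ?_, ?_⟩
  · have h1 := Finset.card_le_univ T
    rwa [Fintype.card_fin] at h1
  · rw [← hT.2]
    apply le_antisymm
    · refine iSup_le fun i => ?_
      exact le_iSup₂ (f := fun j (_ : j ∈ T) => A j) (e.symm i).1 (e.symm i).2
    · refine iSup₂_le fun j hj => ?_
      have h1 := le_iSup (fun i => A (e.symm i).1) (e ⟨j, hj⟩)
      simp only [Equiv.symm_apply_apply] at h1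
      exact h1
  · intro i j hij
    by_contra hne
    set a := (e.symm i).1 with ha
    have haT : a ∈ T := (e.symm i).2
    have hne' : (e.symm j).1 ≠ a := fun h => hne (e.symm.injective (Subtype.ext h)).symm
    have h1 : T.erase a ∈ (Finset.univ : Finset (Finset (Fin r))).filter
        fun T => (⨆ j ∈ T, A j) = ⨆ j, A j := by
      rw [Finset.mem_filter]
      refine ⟨Finset.mem_univ _, ?_⟩
      rw [← hT.2]
      apply le_antisymm
      · refine iSup₂_le fun l hl => ?_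
        exact le_iSup₂ (f := fun j (_ : j ∈ T) => A j) l (Finset.mem_of_mem_erase hl)
      · refine iSup₂_le fun l hl => ?_
        by_cases hla : l = a
        · rw [hla]
          refine hij.trans ?_
          exact le_iSup₂ (f := fun j (_ : j ∈ T.erase a) => A j) (e.symm j).1
            (Finset.mem_erase.mpr ⟨hne', (e.symm j).2⟩)
        · exact le_iSup₂ (f := fun j (_ : j ∈ T.erase a) => A j) l (Finset.mem_erase.mpr ⟨hla, hl⟩)
    have h2 := hmin _ h1
    rw [Finset.card_erase_of_mem haT] at h2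
    have h3 : 0 < T.card := Finset.card_pos.mpr ⟨a, haT⟩
    omega

section

variable {k : Type u} [Field k] [IsAlgClosed k] {p : ℕ} [Fact p.Prime] [CharP k p]

/-- Small corners in `Y Q`, where `Y` is a central product. -/
theorem exists_Xr2 {G : Type} [Group G] [Finite G] {n r : ℕ} {Q Y X : Subgroup G}
    {A : Fin r → Subgroup G} (hQ : IsPGroup p Q) (hQn : Nat.card Q ≤ n) (hY : Y = ⨆ j, A j)
    (hX : X = Y ⊔ Q) (hAn : ∀ j, ∀ g ∈ X, ∀ h ∈ A j, g * h * g⁻¹ ∈ A j)
    (hcomm : ∀ i j, i ≠ j → ∀ g ∈ A i, ∀ h ∈ A j, g * h = h * g)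
    (hanti : ∀ i j, A i ≤ A j → i = j)
    (hcyc : ∀ j, CycOn Q (A j))
    {g a : MonoidAlgebra k G} (hg : IsBlockOf X g) (haX : a ∈ SubAlg k X)
    (ha : a ∈ Fix (cj k G) Q) (hga : g = tr (cj k G) Q X a) (hbr : br Q g ≠ 0) :
    ∃ f ∈ SubAlg k X, f ∈ Fix (cj k G) Q ∧ f * f = f ∧ g * f = f ∧ br Q f ≠ 0 ∧
      Module.finrank k (NN (SubAlg k X) f f) ≤ n * (max 1 (cycB p n)) ^ r := by
  classical
  have hQX : Q ≤ X := by rw [hX]; exact le_sup_right
  have hYX : Y ≤ X := by rw [hX]; exact le_sup_left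
  have hfin : FiniteDimensional k (MonoidAlgebra k G) :=
    Module.Finite.equiv (MonoidAlgebra.coeffLinearEquiv k (M := G) (S := k)).symm
  -- transport to the type `X`
  obtain ⟨g', rfl⟩ := exists_incl X hg.mem.1
  obtain ⟨a', rfl⟩ := exists_incl X haX
  set Q' : Subgroup X := Q.subgroupOf X with hQ'
  set Y' : Subgroup X := Y.subgroupOf X with hY'
  have hmap : Q'.map X.subtype = Q := Subgroup.map_subgroupOf_eq_of_le hQX
  have hYmap : Y'.map X.subtype = Y := Subgroup.map_subgroupOf_eq_of_le hYX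
  have hQ'p : IsPGroup p Q' := hQ.comap_of_injective X.subtype X.subtype_injective
  have ha'F : a' ∈ Fix (cj k X) Q' := by rw [← incl_mem_Fix_iff, hmap]; exact ha
  have hg' : IsBlockOf (⊤ : Subgroup X) g' := by
    unfold IsBlockOf
    rw [ZAlg_top]
    exact (isBlockOf_incl_iff X g').mp hg
  have hg'a : g' = tr (cj k X) Q' ⊤ a' := by
    apply incl_injective (k := k) X
    rw [incl_tr X Q' ha'F, hmap]
    exact hga
  -- the Brauer map
  have hbrX : ∀ y : MonoidAlgebra k X, br Q' y = 0 ↔ br Q (incl k X y) = 0 := by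
    intro y
    constructor
    · intro hy
      apply MonoidAlgebra.coeff_injective
      ext x
      rw [br_coeff]
      split_ifs with hx
      · by_cases hxS : x ∈ X
        · have h2 : (incl k X y).coeff x = y.coeff ⟨x, hxS⟩ := H799.incl_coeff X y ⟨x, hxS⟩
          have h3 : (br Q' y).coeff ⟨x, hxS⟩ = y.coeff ⟨x, hxS⟩ := by
            rw [br_coeff, if_pos]
            rw [mem_cent]
            intro d hd
            apply Subtype.ext
            exact mem_cent.mp hx d hd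
          rw [h2, ← h3, hy]
          rfl
        · rw [SubAlg_coeff (incl_mem X y) hxS]
          rfl
      · rfl
    · intro hy
      apply MonoidAlgebra.coeff_injective
      ext x
      rw [br_coeff]
      split_ifs with hx
      · have h2 : (incl k X y).coeff (x : G) = y.coeff x := H799.incl_coeff X y x
        have h3 : (br Q (incl k X y)).coeff (x : G) = (incl k X y).coeff (x : G) := by
          rw [br_coeff, if_pos]
          rw [mem_cent]
          intro d hd
          exact congrArg Subtype.val (mem_cent.mp hx ⟨d, hQX hd⟩ hd)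
        rw [← h2, ← h3, hy]
        rfl
      · rfl
  have hbr' : br Q' g' ≠ 0 := fun h => hbr ((hbrX g').mp h)
  -- the family
  have hAY : ∀ j, A j ≤ Y := fun j => hY ▸ le_iSup A j
  have hAX : ∀ j, A j ≤ X := fun j => (hAY j).trans hYX
  let B : Fin r → Subgroup X := fun i => (A i).subgroupOf X
  have hBmap : ∀ i, (B i).map X.subtype = A i := fun i =>
    Subgroup.map_subgroupOf_eq_of_le (hAX _)
  let F : Fam X r ⊤ :=
    { A := B
      σ := 1
      comm := fun i j hij x hx y hy => Subtype.ext (hcomm _ _ hij x hx y hy)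
      conj := fun g j x hx => hAn _ _ (g : X).2 x hx }
  have hFA : ∀ i, F.A i = B i := fun _ => rfl
  have hsupB : (⨆ i, B i) = Y' := by
    apply Subgroup.map_injective X.subtype_injective
    rw [Subgroup.map_iSup, hYmap, iSup_congr hBmap, hY]
  have hμ : F.μ.range = ⨆ j, F.A j := Subgroup.noncommPiCoprod_range
  have hsup : Y' = F.μ.range := (hμ.trans hsupB).symm
  have hYn : ∀ x ∈ X, ∀ s ∈ Y, x * s * x⁻¹ ∈ Y := by
    intro x hx s hs
    have h1 : Y ≤ Y.comap (MulAut.conj x).toMonoidHom := by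
      conv_lhs => rw [hY]
      refine iSup_le fun j y hy => ?_
      exact hAY j (hAn j x hx y hy)
    exact h1 hs
  have hnormal : Y'.Normal := ⟨fun s hs x => hYn x x.2 s hs⟩
  have hinj : ∀ i j, F.A i ≤ F.A j → i = j := by
    intro i j hij
    apply hanti
    intro x hx
    exact hij (x := (⟨x, hAX _ hx⟩ : X)) hx
  have hYQ : Y' ⊔ Q' = ⊤ := by
    apply Subgroup.map_injective X.subtype_injective
    rw [Subgroup.map_sup, hYmap, hmap, ← MonoidHom.range_eq_map, Subgroup.range_subtype, hX]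
  have hQ'n : Nat.card Q' ≤ n := by
    refine le_trans (le_of_eq ?_) hQn
    rw [← hmap]
    exact (Subgroup.card_map_of_injective X.subtype_injective).symm
  obtain ⟨f', hf'Y, hf'F, hf'f', hbrf', hfr⟩ := loc_rel (C := max 1 (cycB p n)) F hsup hinj hg'
    hQ'p hYQ ha'F hg'a hbr' (by
      intro j R hR hRn e he heR hbre hz hz2
      have h1 : CycOn R (F.A j) :=
        (hcyc j).comap X.subtype_injective (fun x hx => hR hx) le_rfl
      refine cor_mono (cor_of_cycOn (hQ'p.to_le hR) h1 hRn he heR hbre hz hz2)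
        ((cycB_mono ?_).trans (le_max_right _ _))
      exact (Nat.card_le_card_of_injective _ (Subgroup.inclusion_injective hR)).trans hQ'n)
  -- the dimension in `Y Q`
  set f := incl k X f' with hf
  have hfX : f ∈ SubAlg k X := incl_mem X f'
  have hfY : f ∈ SubAlg k Y := by
    intro x hx
    have hxX : x ∈ X := hfX x hx
    have h2 : (incl k X f').coeff x = f'.coeff ⟨x, hxX⟩ := H799.incl_coeff X f' ⟨x, hxX⟩
    exact hf'Y ⟨x, hxX⟩ (by rw [← h2]; exact hx)
  have hfQ : f ∈ Fix (cj k G) Q := by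
    rw [← hmap]; exact (incl_mem_Fix_iff X Q' f').mpr hf'F
  have hff : f * f = f := by rw [hf, ← map_mul, hf'f']
  have hfd : Module.finrank k (NN (SubAlg k Y) f f) ≤ (max 1 (cycB p n)) ^ r := by
    have h1 : NN (SubAlg k Y) f f ≤ (NN (SubAlg k Y') f' f').map
        (incl k X).toLinearMap := by
      rintro y ⟨hy1, hy2, hy3⟩
      obtain ⟨y', rfl⟩ := exists_incl X (SubAlg_mono hYX hy1)
      refine ⟨y', ⟨?_, ?_, ?_⟩, rfl⟩
      · intro x hx
        have h2 : (incl k X y').coeff (x : G) = y'.coeff x := H799.incl_coeff X y' x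
        exact hy1 (x : G) (by rw [h2]; exact hx)
      · apply incl_injective (k := k) X
        rw [map_mul]
        exact hy2
      · apply incl_injective (k := k) X
        rw [map_mul]
        exact hy3
    have hfin' : FiniteDimensional k (MonoidAlgebra k X) :=
      Module.Finite.equiv (MonoidAlgebra.coeffLinearEquiv k (M := X) (S := k)).symm
    refine (Submodule.finrank_mono h1).trans ((Submodule.finrank_map_le _ _).trans ?_)
    exact hfr
  have hd := finrank_NN_sup_le (fun x hx s hs => hYn x (hQX hx) s hs) hfY hfQ hff hQn hfd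
  rw [← hX] at hd
  have hgf : ∀ y ∈ SubAlg k X, incl k X g' * y = y * incl k X g' := fun y hy =>
    (commute_of_mem hy hg.mem.2).symm
  refine ⟨incl k X g' * f, Subalgebra.mul_mem _ hg.mem.1 hfX, Subalgebra.mul_mem _
    (Fix_mono _ hQX hg.mem.2) hfQ, ?_, ?_, ?_, ?_⟩
  · calc incl k X g' * f * (incl k X g' * f) = incl k X g' * (f * incl k X g') * f := by
          simp only [mul_assoc]
      _ = (incl k X g' * incl k X g') * (f * f) := by
          rw [← hgf f hfX]; simp only [mul_assoc]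
      _ = _ := by rw [hg.idem.eq, hff]
  · rw [← mul_assoc, hg.idem.eq]
  · rw [hf, ← map_mul]
    exact fun h => hbrf' ((hbrX _).mpr h)
  · refine le_trans (Submodule.finrank_mono (NN_le ?_ ?_)) hd
    · rw [← mul_assoc, ← hgf f hfX, mul_assoc, hff]
    · rw [mul_assoc, hff]


theorem exists_jr0 {G : Type} [Group G] [Finite G] {n β r : ℕ} {Q L Z : Subgroup G}
    {A : Fin r → Subgroup G} (hQ : IsPGroup p Q) (hQn : Nat.card Q ≤ n) (hQL : Q ≤ L)
    (hC : Subgroup.centralizer (Q : Set G) ≤ L) (hAL : ∀ j, A j ≤ L)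
    (hAn : ∀ j, ∀ g ∈ L, ∀ h ∈ A j, g * h * g⁻¹ ∈ A j)
    (hcomm : ∀ i j, i ≠ j → ∀ g ∈ A i, ∀ h ∈ A j, g * h = h * g)
    (hanti : ∀ i j, A i ≤ A j → i = j)
    (hcyc : ∀ j, CycOn Q (A j))
    (hLQ : ∀ g ∈ L, ∀ q ∈ Q, g * q * g⁻¹ ∈ (⨆ j, A j) ⊔ Q)
    (hZL : Z ≤ L) (hZc : ∀ z ∈ Z, ∀ g ∈ L, z * g = g * z)
    (hidx : (Z ⊔ ⨆ j, A j).relIndex L ≤ β)
    {e a : MonoidAlgebra k G} (hee : e * e = e) (ha : a ∈ Fix (cj k G) Q)
    (hea : e = tr (cj k G) Q ⊤ a) (hbr : br Q e ≠ 0) :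
    ∃ j ∈ SubAlg k L, j ∈ Fix (cj k G) Q ∧ j * j = j ∧ br Q j * br Q e ≠ 0 ∧
      Module.finrank k (NN (SubAlg k L) j j) ≤
        β * (n * (max 1 (cycB p n)) ^ r) ^ 2 := by
  classical
  set Y : Subgroup G := ⨆ j, A j with hY
  have hYL : Y ≤ L := iSup_le hAL
  set X : Subgroup G := Y ⊔ Q with hX
  have hXL : X ≤ L := sup_le hYL hQL
  have hQX : Q ≤ X := le_sup_right
  have hYX : Y ≤ X := le_sup_left
  have hYn : ∀ x ∈ L, ∀ s ∈ Y, x * s * x⁻¹ ∈ Y := by
    intro x hx s hs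
    have h1 : Y ≤ Y.comap (MulAut.conj x).toMonoidHom := by
      conv_lhs => rw [hY]
      refine iSup_le fun j y hy => ?_
      exact (le_iSup A j) (hAn j x hx y hy)
    exact h1 hs
  have hnorm : ∀ x ∈ L, ∀ s ∈ X, x * s * x⁻¹ ∈ X := by
    intro x hx s hs
    have h1 : X ≤ X.comap (MulAut.conj x).toMonoidHom := by
      conv_lhs => rw [hX]
      refine sup_le (fun y hy => hYX (hYn x hx y hy)) fun q hq => hLQ x hx q hq
    exact h1 hs
  have heT : e ∈ Fix (cj k G) ⊤ := by rw [hea]; exact tr_mem_Fix ha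
  have heF : ∀ S : Subgroup G, e ∈ Fix (cj k G) S := fun S => Fix_mono _ le_top heT
  have hec : ∀ z : MonoidAlgebra k G, z * e = e * z := fun z =>
    commute_of_mem (SubAlg_top z) heT
  have hcomme : ∀ y ∈ Fix (cj k G) Q, br Q y * br Q e = br Q e * br Q y := by
    intro y hy
    rw [← br_mul hQ hy (heF Q), ← br_mul hQ (heF Q) hy, hec]
  -- the block of `L`
  obtain ⟨f, hf, hfe⟩ := exists_br_block (L := L) (Q := Q) hbr
  obtain ⟨z, hzL, hzF, hfz⟩ := block_of_sub hQ (hQX.trans hXL) hC hee ha hea hf hfe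
  -- the central elements
  obtain ⟨Z', hZ'Z, hZ'p, hZ'⟩ := exists_pprime hZL hZc p
  have hZX : Z ≤ Z' ⊔ X := by
    intro x hx
    obtain ⟨u, hu, v, hv, ⟨m, hm⟩, rfl⟩ := hZ' x hx
    exact Subgroup.mul_mem_sup hu (hQX (mem_of_central hQ hQL hzL hzF hfz hf.ne_zero (hZL hv)
      (hZc v hv) hm))
  have hidx' : (Z' ⊔ X).relIndex L ≤ β := by
    have h1 : Z ⊔ Y ≤ Z' ⊔ X := sup_le hZX (hYX.trans le_sup_right)
    exact (Nat.le_of_dvd (Nat.pos_of_ne_zero Subgroup.index_ne_zero_of_finite)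
      (Subgroup.relIndex_dvd_of_le_left L h1)).trans hidx
  -- the block of `X`
  obtain ⟨g, hg, hgfe⟩ := exists_br_block (L := X) (Q := Q) hfe
  have hgf : br Q g * br Q f ≠ 0 := by
    intro h
    apply hgfe
    rw [← mul_assoc, h, zero_mul]
  obtain ⟨w₀, hw₀X, hw₀F, hgw₀⟩ := block_of_normal hQ hQX hXL hnorm hf hzL hzF hfz hg hgf
  have hbrg : br Q g ≠ 0 := by
    intro h
    apply hgf
    rw [h, zero_mul]
  have hgF : g ∈ Fix (cj k G) Q := Fix_mono _ hQX hg.mem.2
  have hfF : f ∈ Fix (cj k G) Q := Fix_mono _ (hQX.trans hXL) hf.mem.2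
  have hge : br Q g * br Q e ≠ 0 := by
    intro h
    apply hgfe
    rw [hcomme f hfF, ← mul_assoc, h, zero_mul]
  obtain ⟨j, hjX, hjF, hjj, hgj, hbrj, hjn⟩ := exists_Xr2 (k := k) hQ hQn hY hX
    (fun j g hg h hh => hAn j g (hXL hg) h hh) hcomm hanti hcyc hg hw₀X hw₀F hgw₀ hbrg
  -- fullness
  have hjg : j * g = j := by
    rw [commute_of_mem hjX hg.mem.2, hgj]
  obtain ⟨w, hwX, hwF, -, hgw⟩ := gen_sub hQX hQ hg hw₀X hw₀F hgw₀ hjX hjF hjj
    (by rw [hjg]; exact hbrj)
  have hje : br Q j * br Q e ≠ 0 := by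
    intro h
    apply hge
    have h1 : br Q g = tr (cj k G) Q (X ⊓ Subgroup.normalizer (Q : Set G)) (br Q j * br Q w) := by
      rw [← br_mul hQ hjF hwF, ← br_tr_rel hQ hQX (Subalgebra.mul_mem _ hjF hwF)]
      exact congrArg (br Q) hgw
    have h2 : br Q e ∈ Fix (cj k G) (X ⊓ Subgroup.normalizer (Q : Set G)) :=
      Fix_mono _ inf_le_right (br_fix_of_le le_rfl (heF _))
    rw [h1, tr_mul h2, mul_assoc, hcomme w hwF, ← mul_assoc, h, zero_mul]
    have _ := Fintype.ofFinite ((X ⊓ Subgroup.normalizer (Q : Set G) : Subgroup G) ⧸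
      Q.subgroupOf (X ⊓ Subgroup.normalizer (Q : Set G)))
    rw [tr_def]
    exact Finset.sum_eq_zero fun q _ => map_zero _
  obtain ⟨f', hf', hf'je⟩ := exists_br_block (L := L) (Q := Q) hje
  have hjL : j ∈ SubAlg k L := SubAlg_mono hXL hjX
  have hf'j : f' * j = j * f' := (commute_of_mem hjL hf'.mem.2).symm
  have hf'F : f' ∈ Fix (cj k G) Q := Fix_mono _ (hQX.trans hXL) hf'.mem.2
  refine ⟨f' * j, Subalgebra.mul_mem _ hf'.mem.1 hjL, Subalgebra.mul_mem _ hf'F hjF, ?_, ?_, ?_⟩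
  · calc f' * j * (f' * j) = f' * (j * f') * j := by simp only [mul_assoc]
      _ = (f' * f') * (j * j) := by rw [← hf'j]; simp only [mul_assoc]
      _ = _ := by rw [hf'.idem.eq, hjj]
  · rw [br_mul hQ hf'F hjF, mul_assoc]
    exact hf'je
  · have h1 := finrank_rel_le (b := f') (e := g) (f := j) hXL hnorm (hZ'Z.trans hZL)
      (fun z hz => hZc z (hZ'Z hz)) hf'.idem.eq hf'.mem
      (fun z hz => central_smul_rel hf' (hZ'Z.trans hZL) (fun z hz => hZc z (hZ'Z hz)) hZ'p hz)
      hidx' hg hjj hjX hgj (by rw [hgw]; exact tr_mem_span hwX) hjn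
    rwa [← sq] at h1


/-- **Small idempotents of a Levi subgroup**, for commuting normal subgroups on which `Q` acts
through cyclic groups. -/
theorem exists_jr2 {G : Type} [Group G] [Finite G] {n β r : ℕ} {Q L Z : Subgroup G}
    {A : Fin r → Subgroup G} (hQ : IsPGroup p Q) (hQn : Nat.card Q ≤ n) (hQL : Q ≤ L)
    (hC : Subgroup.centralizer (Q : Set G) ≤ L) (hAL : ∀ j, A j ≤ L)
    (hAn : ∀ j, ∀ g ∈ L, ∀ h ∈ A j, g * h * g⁻¹ ∈ A j)
    (hcomm : ∀ i j, i ≠ j → ∀ g ∈ A i, ∀ h ∈ A j, g * h = h * g)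
    (hcyc : ∀ j, CycOn Q (A j))
    (hLQ : ∀ g ∈ L, ∀ q ∈ Q, g * q * g⁻¹ ∈ (⨆ j, A j) ⊔ Q)
    (hZL : Z ≤ L) (hZc : ∀ z ∈ Z, ∀ g ∈ L, z * g = g * z)
    (hidx : (Z ⊔ ⨆ j, A j).relIndex L ≤ β)
    {e a : MonoidAlgebra k G} (hee : e * e = e) (ha : a ∈ Fix (cj k G) Q)
    (hea : e = tr (cj k G) Q ⊤ a) (hbr : br Q e ≠ 0) :
    ∃ j ∈ SubAlg k L, j ∈ Fix (cj k G) Q ∧ j * j = j ∧ br Q j * br Q e ≠ 0 ∧
      Module.finrank k (NN (SubAlg k L) j j) ≤
        β * (n * (max 1 (cycB p n)) ^ r) ^ 2 := by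
  obtain ⟨s, ι, hs, hι, hsup, hanti⟩ := exists_prune A
  obtain ⟨j, h1, h2, h3, h4, h5⟩ := exists_jr0 (n := n) (β := β) (A := fun i => A (ι i)) hQ hQn
    hQL hC (fun i => hAL _) (fun i => hAn _) (fun i j hij => hcomm _ _ fun h => hij (hι h)) hanti
    (fun i => hcyc _) (by rw [hsup]; exact hLQ) hZL hZc (by rw [hsup]; exact hidx) hee ha hea hbr
  refine ⟨j, h1, h2, h3, h4, h5.trans (Nat.mul_le_mul_left _ (Nat.pow_le_pow_left
    (Nat.mul_le_mul_left _ (Nat.pow_le_pow_right
      (lt_of_lt_of_le Nat.one_pos (le_max_left _ _)) hs)) 2))⟩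

end

end Vale.Agent.P180.R2.H799.BZ
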