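import Vale.Agent.P180.R2.H799.BZ1
import Vale.Agent.P180.R2.H799.BNQ
import Vale.Agent.P180.R2.H471.Hc10
import Vale.Agent.P180.R2.H799.BZa
import Vale.Agent.P180.R2.H47.QsT

/-!
P180: the corner property of the groups with a small parabolic system and Levi subgroups on whose
factors a `p`-group acts through cyclic groups.
-/

set_option linter.all false

namespace Vale.Agent.P180.R2.H799.BZ

open Vale.Agent.P180 Vale.Agent.P180.H768.Gd Vale.Agent.P180.R2.H365 Vale.Agent.P180.R2.H799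
  Vale.Agent.P180.R2.H954 Vale.Agent.P180.R2.H471.Hc Vale.Agent.P180.R2.H471.He
  Vale.Agent.P180.R2.H47
open Vale.Agent.P180.R2.H799.BN (exists_lift)
open Vale.Agent.P180.R2.H259.Cyc (cycB cycB_mono)

universe u

/-- The two forms of the cyclic action agree. -/
theorem cycOn_of_lev {G : Type} [Group G] {Q A : Subgroup G} (h : CycLev Q A)
    (hn : Q ≤ Subgroup.normalizer (A : Set G)) : CycOn Q A := by
  obtain ⟨N, hNQ, hQN, hNA, hinf, x, hx, hcyc⟩ := h
  have hAW : A ≤ A ⊔ Q := le_sup_left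
  have hQW : Q ≤ A ⊔ Q := le_sup_right
  have hAN : A ≤ Subgroup.normalizer (N : Set G) := by
    intro a ha
    rw [Subgroup.mem_normalizer_iff]
    have h1 : ∀ n ∈ N, a * n * a⁻¹ = n := by
      intro n hn
      rw [Subgroup.mem_centralizer_iff.mp (hNA hn) a ha, mul_inv_cancel_right]
    intro y
    constructor
    · intro hy
      rw [h1 y hy]
      exact hy
    · intro hy
      have h2 := Subgroup.mem_centralizer_iff.mp (hNA hy) a ha
      have h3 : y = a * y * a⁻¹ := by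
        have h4 : a * (a * y * a⁻¹) = a * (y * 1) := by
          rw [h2]
          group
        have h5 : a * y * a⁻¹ = y := by
          have := mul_left_cancel h4
          rwa [mul_one] at this
        exact h5.symm
      rw [h3]
      exact hy
  have hWN : A ⊔ Q ≤ Subgroup.normalizer (N : Set G) := sup_le hAN hQN
  have hnorm : (N.subgroupOf (A ⊔ Q)).Normal := by
    refine ⟨fun n hn g => ?_⟩
    exact (Subgroup.mem_normalizer_iff.mp (hWN g.2) _).mp hn
  let q := QuotientGroup.mk' (N.subgroupOf (A ⊔ Q))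
  have hq : ∀ w, q w = 1 ↔ (w : G) ∈ N := fun w => QuotientGroup.eq_one_iff w
  refine ⟨(A ⊔ Q : Subgroup G) ⧸ N.subgroupOf (A ⊔ Q), inferInstance,
    q.comp (Subgroup.inclusion hAW), q.comp (Subgroup.inclusion hQW), ?_, ?_, ?_, ?_⟩
  · rw [injective_iff_map_eq_one]
    intro a ha
    have h1 : (a : G) ∈ N := (hq _).mp ha
    have h2 : (a : G) ∈ N ⊓ A := ⟨h1, a.2⟩
    rw [hinf, Subgroup.mem_bot] at h2
    exact Subtype.ext h2
  · refine ⟨⟨⟨(q.comp (Subgroup.inclusion hQW)) ⟨x, hx⟩, ⟨_, rfl⟩⟩, ?_⟩⟩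
    rintro ⟨_, y, rfl⟩
    obtain ⟨i, hi⟩ := hcyc y.1 y.2
    refine ⟨-i, Subtype.ext ?_⟩
    have h1 : (q.comp (Subgroup.inclusion hQW)) (y * ⟨x, hx⟩ ^ i) = 1 := by
      rw [MonoidHom.comp_apply, hq]
      exact hi
    rw [map_mul, map_zpow] at h1
    change ((q.comp (Subgroup.inclusion hQW)) ⟨x, hx⟩) ^ (-i) = _
    rw [zpow_neg]
    exact (eq_inv_of_mul_eq_one_left h1).symm
  · intro r s s' hs
    have h1 : Subgroup.inclusion hAW s' = Subgroup.inclusion hQW r * Subgroup.inclusion hAW s *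
        (Subgroup.inclusion hQW r)⁻¹ := Subtype.ext hs
    change q (Subgroup.inclusion hAW s') = q _ * q _ * (q _)⁻¹
    rw [h1, map_mul, map_mul, map_inv]
  · intro x hA hQ
    rfl

/-- the bound -/
noncomputable def bdL (p m n : ℕ) : ℕ :=
  max 1 m ^ (m + 1) * (m * (n * (max 1 (cycB p n)) ^ m) ^ 2)

/-- **One small idempotent** in a group with a small parabolic system. -/
theorem oneBd_lev {k : Type u} [Field k] [IsAlgClosed k] {p : ℕ} [Fact p.Prime] [CharP k p]
    {S : Type} [Group S] [Finite S] {𝒮 : ParSys p S} {m n : ℕ} (hS : SmallSys m 𝒮)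
    {Q : Subgroup S} (hQ : IsPGroup p Q) (hQn : Nat.card Q ≤ n) {V M : Subgroup S}
    (hV : V ∈ 𝒮.car) (hM : LevSub m V M Q) : OneBd k Q (bdL p m n) := by
  classical
  intro e a he ha hea hbr
  obtain ⟨hbot, ⟨rk, hrk⟩, hdc⟩ := hS
  obtain ⟨hVM, hVM', hQM, hCM, r, A, Z, hr, hA, hAA, hMQ, hZM, hZc, hidx⟩ := hM
  have hAn : ∀ j, ∀ g ∈ M, ∀ h ∈ A j, g * h * g⁻¹ ∈ A j := by
    intro j g hg h hh
    exact (Subgroup.mem_normalizer_iff.mp ((hA j).2.1 hg) h).mp hh
  obtain ⟨j, hjL, hjQ, hjj, hjb, hjd⟩ := exists_jr2 (n := n) (β := m) (A := A) hQ hQn hQM hCM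
    (fun j => (hA j).1) hAn
    (fun i j hij g hg h hh => (Subgroup.mem_centralizer_iff.mp ((hAA i j hij) hg) h hh).symm)
    (fun j => cycOn_of_lev (hA j).2.2 (hQM.trans (hA j).2.1)) hMQ hZM
    (fun z hz g hg => Subgroup.mem_centralizer_iff.mp (hZc hg) z hz) hidx he.idem.eq ha hea hbr
  have hVC : V ⊓ Subgroup.centralizer (Q : Set S) = ⊥ := by
    rw [eq_bot_iff, ← hVM]
    exact inf_le_inf_left _ hCM
  obtain ⟨i, h1, h2, h3, h4, h5⟩ := exists_small (k := k) (𝒱 := sysOf 𝒮) (rk := fun V => m - rk V)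
    (c := max 1 m) (le_max_left _ _)
    (fun Z hZ Y hY h => by
      have h1 := (hrk Z hZ).2 Y hY h
      have h2 := (hrk Y hY).1
      change m - rk Y < m - rk Z
      omega)
    (fun Z hZ => (sum_inter_le _).trans (Nat.mul_le_mul_right _
      ((hdc Z hZ).trans (le_max_right _ _))))
    hbot hV (𝒮.card V hV) (by rw [← hVM']; exact le_sup_right) hVM' hQ hQM hVC he.idem.eq
    he.mem.2 hjL hjQ hjj hjb hjd
  refine ⟨i, h1, h2, h3, h4, h5.trans ?_⟩
  unfold bdL
  refine Nat.mul_le_mul (Nat.pow_le_pow_right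
    (lt_of_lt_of_le Nat.one_pos (le_max_left _ _)) ?_) (Nat.mul_le_mul_left _
    (Nat.pow_le_pow_left (Nat.mul_le_mul_left _ (Nat.pow_le_pow_right
      (lt_of_lt_of_le Nat.one_pos (le_max_left _ _)) hr)) 2))
  change m - rk V + 1 ≤ m + 1
  omega

theorem unique_pelt {p : ℕ} [Fact p.Prime] {S : Type*} [Group S] [Finite S]
    (hz : ¬ p ∣ Nat.card (Subgroup.center S)) {x y : S} (hx : ∃ i, x ^ p ^ i = 1)
    (hy : ∃ i, y ^ p ^ i = 1) (h : y⁻¹ * x ∈ Subgroup.center S) : x = y := by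
  obtain ⟨i, hi⟩ := hx
  obtain ⟨j, hj⟩ := hy
  have hc : Commute y x := by
    have h2 : Commute y (y⁻¹ * x) := Subgroup.mem_center_iff.mp h y
    have h5 : x = y * (y⁻¹ * x) := by group
    rw [h5]
    exact (Commute.refl y).mul_right h2
  have h1 : (y⁻¹ * x) ^ p ^ (i + j) = 1 := by
    rw [hc.inv_left.mul_pow, pow_add, inv_pow, mul_comm (p ^ i), pow_mul y, hj, one_pow, inv_one,
      one_mul, mul_comm, pow_mul, hi, one_pow]
  have h3 : (y⁻¹ * x) ^ Nat.card (Subgroup.center S) = 1 :=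
    congrArg Subtype.val (pow_card_eq_one' (x := (⟨y⁻¹ * x, h⟩ : Subgroup.center S)))
  have h4 : y⁻¹ * x = 1 := by
    have h5 := Nat.dvd_gcd (orderOf_dvd_of_pow_eq_one h1) (orderOf_dvd_of_pow_eq_one h3)
    have h6 : Nat.Coprime (p ^ (i + j)) (Nat.card (Subgroup.center S)) :=
      Nat.Coprime.pow_left _ ((Nat.Prime.coprime_iff_not_dvd Fact.out).mpr hz)
    rw [h6.gcd_eq_one, Nat.dvd_one, orderOf_eq_one_iff] at h5
    exact h5
  exact (inv_mul_eq_one.mp h4).symm

/-- **The corner property** of the pairs `LevPair`. -/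
theorem corP_lev {k : Type u} [Field k] [IsAlgClosed k] {p m n : ℕ} [Fact p.Prime] [CharP k p]
    {G : Type} [Group G] [Finite G] {D L : Subgroup G} (hD : IsPGroup p D)
    (hDn : Nat.card D ≤ n) (h : LevPair p m L (D.subgroupOf L))
    (hin : D ⊓ Subgroup.normalizer (L : Set G) ≤ L ⊔ Subgroup.centralizer (L : Set G))
    (b : MonoidAlgebra k G) : H365.CorP p (bdL p m n) b D L := by
  obtain ⟨S, _, _, 𝒮, π, hS, hπ, hpz, hcen, hQM⟩ := h
  have hk : π.ker ≤ Subgroup.center S := by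
    intro x hx
    apply hcen
    rw [MonoidHom.mem_ker.mp hx]
    exact Subgroup.one_mem _
  have hkp : ¬ p ∣ Nat.card π.ker := fun h => hpz (h.trans (Subgroup.card_dvd_of_le hk))
  refine corP_of_one hD hin (fun Q hQ => ?_) b
  have hQn : Nat.card Q ≤ n := by
    refine (Nat.card_le_card_of_injective (fun x : Q => (⟨((x : L) : G), hQ x.2⟩ : D)) ?_).trans hDn
    intro x y hxy
    have h' : ((x : L) : G) = ((y : L) : G) := congrArg (fun w : D => (w : G)) hxy
    exact Subtype.ext (Subtype.ext h')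
  have hQp : IsPGroup p Q := (hD.comap_of_injective L.subtype L.subtype_injective).to_le hQ
  obtain ⟨Q₀, hQ₀, rfl⟩ := exists_lift (p := p) π hπ hQp
  have hcard : Nat.card Q₀ ≤ n := by
    refine le_trans (Nat.card_le_card_of_injective (π.subgroupMap Q₀) ?_) hQn
    intro x y hxy
    have h1 : π x.1 = π y.1 := congrArg Subtype.val hxy
    apply Subtype.ext
    obtain ⟨i, hi⟩ := hQ₀ x
    obtain ⟨j, hj⟩ := hQ₀ y
    refine unique_pelt hpz ⟨i, congrArg Subtype.val hi⟩ ⟨j, congrArg Subtype.val hj⟩ (hk ?_)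
    rw [MonoidHom.mem_ker, map_mul, map_inv, h1, inv_mul_cancel]
  obtain ⟨V, hV, M, hM⟩ := hQM Q₀ hQ₀ hQ
  exact oneBd_quot hπ (fun x hx g => (Subgroup.mem_center_iff.mp (hk hx) g).symm) hkp hQ₀
    (oneBd_lev hS hQ₀ hcard hV hM)

/-- The class is stable under central quotients of perfect groups and under subgroups of `A`. -/
theorem ck_lev {p m : ℕ} [Fact p.Prime] : CK p (LevPair p m) where
  map := by
    rintro L L' _ _ _ _ f hf hker hL A hA ⟨S, _, _, 𝒮, π, hS, hπ, hpz, hcen, hQ⟩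
    -- the preimage of the centre
    have hcf : ∀ x : L, f x ∈ Subgroup.center L' → x ∈ Subgroup.center L := by
      intro x hx
      have hk : ∀ l : L, f (x * l * x⁻¹ * l⁻¹) = 1 := by
        intro l
        rw [map_mul, map_mul, map_mul, map_inv, map_inv,
          ← Subgroup.mem_center_iff.mp hx (f l), mul_inv_cancel_right, mul_inv_cancel]
      let c : L →* L := MonoidHom.mk' (fun l => x * l * x⁻¹ * l⁻¹) (by
        intro l l'
        have h1 := hker _ (hk l') l
        calc x * (l * l') * x⁻¹ * (l * l')⁻¹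
            = x * l * x⁻¹ * ((x * l' * x⁻¹ * l'⁻¹) * l⁻¹) := by group
          _ = x * l * x⁻¹ * (l⁻¹ * (x * l' * x⁻¹ * l'⁻¹)) := by
              rw [hker _ (hk l') l⁻¹]
          _ = _ := by group)
      have hc : ∀ l, c l = x * l * x⁻¹ * l⁻¹ := fun l => rfl
      have h2 : commutator L ≤ c.ker := by
        rw [commutator_def, Subgroup.commutator_le]
        intro a _ b _
        rw [MonoidHom.mem_ker, commutatorElement_def, map_mul, map_mul, map_mul, map_inv, map_inv]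
        have h3 : c a * c b = c b * c a := hker _ (hk a) _
        rw [h3, mul_inv_cancel_right, mul_inv_cancel]
      rw [Subgroup.mem_center_iff]
      intro l
      have h3 : c l = 1 := MonoidHom.mem_ker.mp (h2 (by rw [hL]; exact Subgroup.mem_top l))
      rw [hc] at h3
      calc l * x = (x * l * x⁻¹ * l⁻¹)⁻¹ * (x * l) := by group
        _ = x * l := by rw [h3, inv_one, one_mul]
    refine ⟨S, inferInstance, inferInstance, 𝒮, f.comp π, hS, hf.comp hπ, hpz,
      fun x hx => hcen x (hcf _ hx), ?_⟩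
    intro Q hQp hQA
    refine hQ Q hQp ?_
    -- `π Q` is a `p`-group in `A × ker f`
    rintro _ ⟨x, hx, rfl⟩
    obtain ⟨a, ha, hax⟩ := hQA ⟨x, hx, rfl⟩
    have hax : f a = f (π x) := hax
    obtain ⟨i, hi⟩ := hQp ⟨x, hx⟩
    have hi' : x ^ p ^ i = 1 := congrArg Subtype.val hi
    obtain ⟨j, hj⟩ := hA ⟨a, ha⟩
    have hj' : a ^ p ^ j = 1 := congrArg Subtype.val hj
    -- a `p`-element over `a`
    have hzp : IsPGroup p (Subgroup.zpowers a) := hA.to_le (by rwa [Subgroup.zpowers_le])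
    obtain ⟨R, hR, hRa⟩ := exists_lift (p := p) π hπ hzp
    obtain ⟨y, hy, hya⟩ : a ∈ R.map π := by
      rw [hRa]
      exact Subgroup.mem_zpowers a
    obtain ⟨l, hl⟩ := hR ⟨y, hy⟩
    have h1 : x = y := by
      refine unique_pelt hpz ⟨i, hi'⟩ ⟨l, congrArg Subtype.val hl⟩ (hcen _ (hcf _ ?_))
      have h2 : f (π (y⁻¹ * x)) = 1 := by
        rw [map_mul, map_inv, map_mul, map_inv, hya, hax, inv_mul_cancel]
      rw [h2]
      exact Subgroup.one_mem _
    rw [h1, hya]
    exact ha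
  sub := by
    rintro L _ _ A A' hA ⟨S, _, _, 𝒮, π, hS, hπ, hpz, hcen, hQ⟩
    exact ⟨S, inferInstance, inferInstance, 𝒮, π, hS, hπ, hpz, hcen,
      fun Q hQp hQA => hQ Q hQp (hQA.trans hA)⟩

end Vale.Agent.P180.R2.H799.BZ
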