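import Vale.Agent.P180.R2.H799.CB4

/-!
P180: the isometry groups and their central extensions of order prime to `p` and to the
characteristic: small parabolic systems, for the linear primes not dividing `|K| - 1`.
-/

set_option linter.all false

namespace Vale.Agent.P180.R2.H799.CB

open Module Vale.Agent.P180 Vale.Agent.P180.R2.H799 Vale.Agent.P180.R2.H854
  Vale.Agent.P180.R2.H954.Hc Vale.Agent.P180.R2.H799.CA Vale.Agent.P180.R2.H854.TD
  Vale.Agent.P180.R2.H471.Hd Vale.Agent.P180.R2.H471.Hc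

variable {K E : Type} [Field K] [AddCommGroup E] [Module K E] [FiniteDimensional K E]
  [Finite K]

/-- **The parabolic system of an isometry group is small.** -/
theorem smallSys_form {p : ℕ} (hp : p.Prime) (hpK : ¬ p ∣ Nat.card K) (Φ : HForm K E)
    {X : Subgroup (SpecialLinearGroup K E)} (hgood : Φ.GoodX X) (hXI : X ≤ Φ.Iso)
    (hX2 : X.relIndex Φ.Iso ∣ 2) (hV : ∀ F : Flag K E, Φ.SD F → VF F ⊓ Φ.Iso ≤ X)
    {m : ℕ} (hm : lvM (finrank K E) ≤ m) :
    SmallSys m ((Φ.flagGeo (Φ.trT hgood.or3) (Φ.normCondT hgood.or3) hXI hV).sys p hp hpK) := by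
  classical
  have hfG : Finite (SpecialLinearGroup K E) := BN.finite_sl
  have hT := Φ.trT hgood.or3
  have hnorm := Φ.normCondT hgood.or3
  have hgeo := Φ.flagGeo hT hnorm hXI hV
  have hm0 : cIsoM (finrank K E) ≤ m := (le_max_left _ _).trans hm
  have hm1 : finrank K E + 2 ≤ m := ((le_max_left _ _).trans (le_max_right _ _)).trans hm
  have hN : ∀ F : Flag K E, Φ.SD F →
      Subgroup.normalizer (((VF F).subgroupOf X : Subgroup X) : Set X) = (PF F).subgroupOf X := by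
    intro F hF
    rw [normalizer_subgroupOf_eq (by rw [normalizer_VF]; exact hgeo.norm F hF), normalizer_VF]
  obtain ⟨rk, hrk1, hrk2⟩ := rkCondT hT hnorm hXI hV
  refine ⟨?_, ⟨fun V => finrank K E + 1 - rk V, ?_⟩, ?_⟩
  · have h1 := hgeo.mem_sys_car p hp hpK (SD_flag0 Φ)
    rwa [VF_flag0, Subgroup.bot_subgroupOf] at h1
  · intro V hV'
    obtain ⟨F, hF, rfl⟩ := hgeo.exists_of_mem_sys_car p hp hpK hV'
    refine ⟨?_, fun W hW hlt => ?_⟩
    · change finrank K E + 1 - rk _ ≤ m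
      omega
    · obtain ⟨H, hH, rfl⟩ := hgeo.exists_of_mem_sys_car p hp hpK hW
      have h1 := hrk2 F H hF hH hlt
      have h2 := hrk1 ((VF F).subgroupOf X)
      change finrank K E + 1 - rk ((VF F).subgroupOf X) <
        finrank K E + 1 - rk ((VF H).subgroupOf X)
      omega
  · intro V hV'
    obtain ⟨F, hF, rfl⟩ := hgeo.exists_of_mem_sys_car p hp hpK hV'
    rw [hN F hF]
    have hfI : Finite Φ.Iso := inferInstance
    have _ : Finite (DoubleCoset.Quotient (((PF F).subgroupOf Φ.Iso : Subgroup Φ.Iso) :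
      Set Φ.Iso) ((PF F).subgroupOf Φ.Iso : Subgroup Φ.Iso)) := Quotient.finite _
    exact (card_dc_sub hXI hX2 (card_dc_isoT Φ hT hF)).trans hm0

/-- **Isometry groups**: the pairs `LevZ`, for the linear primes which do not divide
`|K| - 1`. -/
theorem levZ_form {p : ℕ} [Fact p.Prime] (Φ : HForm K E)
    {X : Subgroup (SpecialLinearGroup K E)} (hgood : Φ.GoodX X) (hXI : X ≤ Φ.Iso)
    (hX2 : X.relIndex Φ.Iso ∣ 2) (hpK : ¬ p ∣ Nat.card K) (hK1 : ¬ p ∣ Nat.card K - 1)
    (hK3 : 3 < Nat.card K)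
    (hlin : ∀ j : ℕ, (∀ c, Φ.θ c = c ^ (ringChar K ^ j)) → ¬ p ∣ ringChar K ^ j + 1)
    {L : Type} [Group L] (π : X →* L) (hπ : Function.Surjective π)
    (hcen : ∀ x : X, π x ∈ Subgroup.center L → x.1 ∈ Subgroup.center (SpecialLinearGroup K E))
    {z : ℕ} (hz : (Nat.card K).Coprime z) {A : Subgroup L}
    (hab : ∀ Q : Subgroup X, IsPGroup p Q → Q.map π ≤ A → ∀ x ∈ Q, ∀ y ∈ Q, x * y = y * x)
    {m : ℕ} (hm : lvM (finrank K E) ≤ m) :
    LevZ p m z L A := by
  have hp : p.Prime := Fact.out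
  have hfG : Finite (SpecialLinearGroup K E) := BN.finite_sl
  have hT := Φ.trT hgood.or3
  have hnorm := Φ.normCondT hgood.or3
  have hV : ∀ F : Flag K E, Φ.SD F → VF F ⊓ Φ.Iso ≤ X := fun F _ => hgood.hV hX2 F
  have hgeo := Φ.flagGeo hT hnorm hXI hV
  have hN : ∀ F : Flag K E, Φ.SD F →
      Subgroup.normalizer (((VF F).subgroupOf X : Subgroup X) : Set X) = (PF F).subgroupOf X := by
    intro F hF
    rw [normalizer_subgroupOf_eq (by rw [normalizer_VF]; exact hgeo.norm F hF), normalizer_VF]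
  have hZX : (Subgroup.center X).map X.subtype ≤
      Subgroup.center (SpecialLinearGroup K E) := by
    rintro _ ⟨x, hx, rfl⟩
    refine hcen x ?_
    rw [Subgroup.mem_center_iff]
    intro l
    obtain ⟨y, rfl⟩ := hπ l
    rw [← map_mul, ← map_mul, Subgroup.mem_center_iff.mp hx y]
  refine ⟨X, inferInstance, inferInstance,
    (Φ.flagGeo (Φ.trT hgood.or3) (Φ.normCondT hgood.or3) hXI hV).sys p hp hpK, π,
    smallSys_form hp hpK Φ hgood hXI hX2 hV hm, hπ, ?_, ?_, ?_, ?_⟩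
  · intro hd
    obtain ⟨x, hx⟩ := exists_prime_orderOf_dvd_card' p hd
    have h1 : x.1.1 ^ p ^ 1 = 1 := by
      have h2 : x ^ p = 1 := by
        rw [← hx]
        exact pow_orderOf_eq_one x
      rw [pow_one]
      exact congrArg (fun w : Subgroup.center X => w.1.1) h2
    have h3 := scalar_eq_one_lin hp hpK Φ hlin (hXI x.1.2) (hZX ⟨x.1, x.2, rfl⟩) h1
    have h4 : x = 1 := Subtype.ext (Subtype.ext h3)
    rw [h4, orderOf_one] at hx
    exact hp.one_lt.ne hx
  · rintro _ ⟨_, ⟨F, hF, rfl⟩, rfl⟩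
    have h1 : Nat.card ((VF F).subgroupOf X) ∣ Nat.card (VF F) := by
      have e : Nat.card ((VF F).subgroupOf X) =
          Nat.card (VF F ⊓ X : Subgroup (SpecialLinearGroup K E)) := by
        rw [← map_subgroupOf_eq]
        exact (Subgroup.card_map_of_injective X.subtype_injective).symm
      rw [e]
      exact Subgroup.card_dvd_of_le inf_le_left
    refine Nat.Coprime.coprime_dvd_left h1 ?_
    rw [card_VF]
    exact Nat.Coprime.pow_left _ hz
  · intro x hx
    rw [Subgroup.mem_center_iff]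
    intro y
    exact Subtype.ext (Subgroup.mem_center_iff.mp (hcen x hx) y.1)
  · intro Q hQ hQA
    obtain ⟨F, hF, M, hM⟩ := levSubP_form hp Φ hXI hX2 hV hN hpK hK1 hK3 hlin hQ (hab Q hQ hQA) hm
    exact ⟨_, ⟨VF F, ⟨F, hF, rfl⟩, rfl⟩, M, hM⟩

/-- **Central extensions of isometry groups**, for example Spin groups: the pair `(L, A)` has a
small parabolic system if `L / Z₁` is the image of a group `X` of isometries, `Z₁ = ker f` a central
subgroup of order prime to `p` and to `|K|`. -/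
theorem levPair_form {p : ℕ} [Fact p.Prime] (Φ : HForm K E)
    {X : Subgroup (SpecialLinearGroup K E)} (hgood : Φ.GoodX X) (hXI : X ≤ Φ.Iso)
    (hX2 : X.relIndex Φ.Iso ∣ 2) (hpK : ¬ p ∣ Nat.card K) (hK1 : ¬ p ∣ Nat.card K - 1)
    (hK3 : 3 < Nat.card K)
    (hlin : ∀ j : ℕ, (∀ c, Φ.θ c = c ^ (ringChar K ^ j)) → ¬ p ∣ ringChar K ^ j + 1)
    {L L' : Type} [Group L] [Group L'] [Finite L] (π : X →* L') (hπ : Function.Surjective π)
    (hcen : ∀ x : X, π x ∈ Subgroup.center L' → x.1 ∈ Subgroup.center (SpecialLinearGroup K E))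
    {f : L →* L'} (hf : Function.Surjective f) (hk : f.ker ≤ Subgroup.center L)
    (hpk : ¬ p ∣ Nat.card f.ker) (hrk : (Nat.card K).Coprime (Nat.card f.ker)) {A : Subgroup L}
    (hab : ∀ Q : Subgroup X, IsPGroup p Q → Q.map π ≤ A.map f → ∀ x ∈ Q, ∀ y ∈ Q,
      x * y = y * x) {m : ℕ} (hm : lvM (finrank K E) ≤ m) :
    LevPair p m L A :=
  levPair_lift hf hk hpk
    (levZ_form Φ hgood hXI hX2 hpK hK1 hK3 hlin π hπ hcen hrk hab hm)

end Vale.Agent.P180.R2.H799.CB

namespace Vale.Agent.P180.R2.H799.CB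

open Module Vale.Agent.P180 Vale.Agent.P180.R2.H799 Vale.Agent.P180.R2.H854
  Vale.Agent.P180.R2.H954.Hc Vale.Agent.P180.R2.H799.CA Vale.Agent.P180.R2.H854.TD
  Vale.Agent.P180.R2.H471.Hd Vale.Agent.P180.R2.H471.Hc

variable {K : Type} [Field K] [Finite K] {d : ℕ}

/-- The condition on the `p`-subgroups. -/
theorem comm_form {p : ℕ} [Fact p.Prime] (hpK : ¬ p ∣ Nat.card K)
    {X : Subgroup (SpecialLinearGroup K (Fin d → K))} {L : Type} [Group L] {π : X →* L}
    {A : Subgroup L} (hab : d < p ∨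
      ∀ x y : X, (∃ i, x ^ (p ^ i) = 1) → (∃ i, y ^ (p ^ i) = 1) → π x ∈ A → π y ∈ A →
        x * y = y * x) :
    ∀ Q : Subgroup X, IsPGroup p Q → Q.map π ≤ A → ∀ x ∈ Q, ∀ y ∈ Q, x * y = y * x := by
  intro Q hQ hQA x hx y hy
  have hpow : ∀ x ∈ Q, ∃ i, x ^ (p ^ i) = 1 := by
    intro x hx
    obtain ⟨j, hj⟩ := hQ ⟨x, hx⟩
    exact ⟨j, congrArg Subtype.val hj⟩
  rcases hab with h | h
  · exact Subtype.ext (comm_of_lt hpK h (hQ.map X.subtype) x.1 ⟨x, hx, rfl⟩ y.1 ⟨y, hy, rfl⟩)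
  · exact h x y (hpow x hx) (hpow y hy) (hQA ⟨x, hx, rfl⟩) (hQA ⟨y, hy, rfl⟩)

/-- The perfect central extensions `L` of a simple group `T = L / Z(L)` which is the quotient modulo
scalars of an isometry group of dimension `d < p`, `Z(L)` of order prime to `p` and to `|K|`. -/
theorem levPair_simple {p : ℕ} [Fact p.Prime] (Φ : HForm K (Fin d → K))
    {X : Subgroup (SpecialLinearGroup K (Fin d → K))} (hgood : Φ.GoodX X) (hXI : X ≤ Φ.Iso)
    (hX2 : X.relIndex Φ.Iso ∣ 2) (hpK : ¬ p ∣ Nat.card K) (hK1 : ¬ p ∣ Nat.card K - 1)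
    (hK3 : 3 < Nat.card K)
    (hlin : ∀ j : ℕ, (∀ c, Φ.θ c = c ^ (ringChar K ^ j)) → ¬ p ∣ ringChar K ^ j + 1)
    (hd : d < p) {L : Type} [Group L] [Finite L]
    (π : X →* L ⧸ Subgroup.center L) (hπ : Function.Surjective π)
    (hcen : Subgroup.center (L ⧸ Subgroup.center L) = ⊥)
    (hker : ∀ x : X, π x = 1 → x.1 ∈ Subgroup.center (SpecialLinearGroup K (Fin d → K)))
    (hpk : ¬ p ∣ Nat.card (Subgroup.center L))
    (hrk : (Nat.card K).Coprime (Nat.card (Subgroup.center L))) (A : Subgroup L)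
    {m : ℕ} (hm : lvM d ≤ m) : LevPair p m L A := by
  have hkk : (QuotientGroup.mk' (Subgroup.center L)).ker = Subgroup.center L :=
    QuotientGroup.ker_mk' _
  refine levPair_form Φ hgood hXI hX2 hpK hK1 hK3 hlin π hπ (fun x hx => ?_)
    (QuotientGroup.mk'_surjective (Subgroup.center L)) hkk.le (by rw [hkk]; exact hpk)
    (by rw [hkk]; exact hrk) (comm_form hpK (Or.inl hd)) (by rwa [Module.finrank_fin_fun])
  rw [hcen, Subgroup.mem_bot] at hx
  exact hker x hx

end Vale.Agent.P180.R2.H799.CB
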