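import Vale.Agent.P180.R2.H799.CCa
import Vale.Agent.P180.R2.H799.CB5
import Vale.Agent.P180.R2.H799.BZ2
import Vale.Agent.P180.R2.H259.Cen.B2
import Vale.Agent.P180.R2.H259.Cen.C6
import Vale.Agent.P180.R2.H589.Or.Fin
import Vale.Agent.P180.R2.H259.Par.Cor

/-!
P180: the corner property of the perfect central extensions of the orthogonal groups of dimension
less than `p`, for all linear primes `p`.
-/

set_option linter.all false

namespace Vale.Agent.P180.R2.H799.CC

open Module Vale.Agent.P180 Vale.Agent.P180.H768.Gd Vale.Agent.P180.R2.H799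
  Vale.Agent.P180.R2.H854 Vale.Agent.P180.R2.H47 Vale.Agent.P180.R2.H799.CB

universe u

/-- The preimage of the centre, for perfect groups. -/
theorem center_of_map {L L' : Type} [Group L] [Group L'] {f : L →* L'}
    (hf : Function.Surjective f) (hker : ∀ x, f x = 1 → ∀ y, x * y = y * x)
    (hL : commutator L = ⊤) {x : L} (hx : f x ∈ Subgroup.center L') : x ∈ Subgroup.center L := by
  have hk : ∀ l : L, f (x * l * x⁻¹ * l⁻¹) = 1 := by
    intro l
    rw [map_mul, map_mul, map_mul, map_inv, map_inv,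
      ← Subgroup.mem_center_iff.mp hx (f l), mul_inv_cancel_right, mul_inv_cancel]
  let c : L →* L := MonoidHom.mk' (fun l => x * l * x⁻¹ * l⁻¹) (by
    intro l l'
    have h1 := hker _ (hk l') l
    calc x * (l * l') * x⁻¹ * (l * l')⁻¹
        = x * l * x⁻¹ * ((x * l' * x⁻¹ * l'⁻¹) * l⁻¹) := by group
      _ = x * l * x⁻¹ * (l⁻¹ * (x * l' * x⁻¹ * l'⁻¹)) := by
          rw [hker _ (hk l') l⁻¹]
      _ = _ := by group)
  have hc : ∀ l, c l = x * l * x⁻¹ * l⁻¹ := fun l => rfl
  have h2 : commutator L ≤ c.ker := by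
    rw [commutator_def, Subgroup.commutator_le]
    intro a _ b _
    rw [MonoidHom.mem_ker, commutatorElement_def, map_mul, map_mul, map_mul, map_inv, map_inv]
    have h3 : c a * c b = c b * c a := hker _ (hk a) _
    rw [h3, mul_inv_cancel_right, mul_inv_cancel]
  rw [Subgroup.mem_center_iff]
  intro l
  have h3 : c l = 1 := MonoidHom.mem_ker.mp (h2 (by rw [hL]; exact Subgroup.mem_top l))
  rw [hc] at h3
  calc l * x = (x * l * x⁻¹ * l⁻¹)⁻¹ * (x * l) := by group
    _ = x * l := by rw [h3, inv_one, one_mul]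

/-- The centre of `L / Z(L)` is trivial if `L` is perfect. -/
theorem center_quot {L : Type} [Group L] (hL : commutator L = ⊤) :
    Subgroup.center (L ⧸ Subgroup.center L) = ⊥ := by
  rw [eq_bot_iff]
  intro y hy
  obtain ⟨x, rfl⟩ := QuotientGroup.mk'_surjective (Subgroup.center L) y
  have h1 : x ∈ Subgroup.center L := by
    refine center_of_map (QuotientGroup.mk'_surjective (Subgroup.center L)) ?_ hL hy
    intro z hz y
    have h2 : z ∈ Subgroup.center L := (QuotientGroup.eq_one_iff z).mp hz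
    exact (Subgroup.mem_center_iff.mp h2 y).symm
  exact Subgroup.mem_bot.mpr ((QuotientGroup.eq_one_iff x).mpr h1)

theorem relIndex_of_two {H : Type} [Group H] {X Y : Subgroup H}
    (h : ∀ g ∈ Y, ∀ g' ∈ Y, g ∉ X → g' ∉ X → g * g' ∈ X) : X.relIndex Y ∣ 2 := by
  by_cases hY : Y ≤ X
  · rw [Subgroup.relIndex_eq_one.mpr hY]
    exact one_dvd 2
  · obtain ⟨a, haY, haX⟩ := SetLike.not_le_iff_exists.mp hY
    have : X.relIndex Y = 2 := by
      rw [Subgroup.relIndex_eq_two_iff]
      refine ⟨a, haY, fun b hb => ?_⟩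
      by_cases hbX : b ∈ X
      · refine Or.inr ⟨hbX, fun hba => haX ?_⟩
        have := X.mul_mem (X.inv_mem hbX) hba
        rwa [inv_mul_cancel_left] at this
      · exact Or.inl ⟨h b hb a haY hbX haX, hbX⟩
    rw [this]

theorem lvM_mono {d e : ℕ} (h : d ≤ e) : lvM d ≤ lvM e := by
  unfold lvM
  refine max_le_max (H471.Hd.cIsoM_mono h) (max_le_max (by omega) ?_)
  rcases Nat.eq_zero_or_pos e with he | he
  · have hd : d = e := by omega
    rw [hd]
  · exact (Nat.pow_le_pow_left h d).trans (Nat.pow_le_pow_right he h)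

/-- **Perfect central extensions of orthogonal groups** of dimension less than `p` have small
parabolic systems, for all linear primes. -/
theorem cover_or {p : ℕ} [Fact p.Prime] {L : Type} [Group L] [Finite L] (h : OPair p L)
    (A : Subgroup L) : ParPair p L A ∨ LevPair p (lvM p) L A := by
  obtain ⟨hL, K, _, _, d, -, hd, hpK, hodd, hK9, hlin, B, X, π, ⟨f1, f2, -, -, f3', f4⟩,
    ⟨f5, f6, -⟩, hπ, hcenX, -⟩ := h
  have hp : p.Prime := Fact.out
  have f3 : ∀ x y, B y x = B x y := fun x y =>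
    (f3' x y).trans (by rw [RingHom.id_apply, one_mul])
  have hker : ∀ x : X, π x = 1 → (x : SpecialLinearGroup K (Fin d → K)) ∈ Subgroup.center _ :=
    fun x hx => hcenX x (by rw [hx]; exact one_mem _)
  let Φ : HForm K (Fin d → K) :=
    { B := B, θ := RingHom.id K, ε := 1, add_left := f1, smul_left := f2, θθ := fun _ => rfl
      εε := by rw [map_one, mul_one]
      symm := fun x y => by rw [RingHom.id_apply, one_mul, f3]
      nondeg := f4 }
  have hXI : X ≤ Φ.Iso := f5
  have hX2 : X.relIndex Φ.Iso ∣ 2 :=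
    relIndex_of_two fun g hg g' hg' hgX hgX' => f6 g g' hgX hgX' hg hg'
  have hgood : Φ.GoodX X := Or.inl hodd
  have hlin' : ∀ j : ℕ, (∀ c, Φ.θ c = c ^ (ringChar K ^ j)) → ¬ p ∣ ringChar K ^ j + 1 := hlin
  have hfd : finrank K (Fin d → K) < p := by rw [Module.finrank_fin_fun]; exact hd
  have hcen := center_quot hL
  have hsq : ∀ g : SpecialLinearGroup K (Fin d → K), (∀ x y, B (g x) (g y) = B x y) →
      g ^ 2 ∈ X := by
    intro g hg
    rw [sq]
    by_cases hgX : g ∈ X
    · exact X.mul_mem hgX hgX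
    · exact f6 g g hgX hgX hg hg
  have hrk := H589.Or.coprime_center hodd hK9 f1 f2 f3 f4 f5 hsq hL π hπ hker
  have hkk : (QuotientGroup.mk' (Subgroup.center L)).ker ≤ Subgroup.center L :=
    (QuotientGroup.ker_mk' _).le
  have hp2 : Odd p := H954.Hc.odd_of_lin hp hpK Φ.θ hlin'
  by_cases hp1 : p ∣ Nat.card K - 1
  · -- a root of unity
    obtain ⟨ζ, hζ, hζ1⟩ : ∃ ζ : K, ζ ^ p = 1 ∧ ζ ≠ 1 := by
      rw [← Nat.card_units] at hp1
      obtain ⟨u, hu⟩ := exists_prime_orderOf_dvd_card' p hp1
      refine ⟨u, ?_, ?_⟩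
      · rw [← Units.val_pow_eq_pow_val, ← hu, pow_orderOf_eq_one, Units.val_one]
      · intro h
        have h1 : u = 1 := Units.ext h
        rw [h1, orderOf_one] at hu
        exact hp.one_lt.ne hu
    have hpk := H259.Cen.not_dvd_center (Φ := Φ) hp2 hgood hXI hX2 hζ hζ1 rfl hfd hL
      (QuotientGroup.mk'_surjective (Subgroup.center L)) hkk π hπ
    exact Or.inl (H259.Cen.parPair_simple Φ hp2 hζ hζ1 rfl hgood hXI hX2 hfd π hπ hcen hker hpk hrk
      A)
  · have hpk := H259.Cen.not_dvd_center' (Φ := Φ) hgood hXI hX2 hpK hp1 hlin' hfd hL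
      (QuotientGroup.mk'_surjective (Subgroup.center L)) hkk π hπ
    refine Or.inr (levPair_simple Φ hgood hXI hX2 hpK hp1 (by omega) hlin' hd π hπ hcen hker hpk hrk
      A ?_)
    exact lvM_mono hd.le

/-- The quotient map modulo the centres. -/
theorem exists_quot_map {L L' : Type} [Group L] [Group L'] {f : L →* L'}
    (hf : Function.Surjective f) (hker : ∀ x, f x = 1 → ∀ y, x * y = y * x)
    (hL : commutator L = ⊤) : ∃ g : L ⧸ Subgroup.center L →* L' ⧸ Subgroup.center L',
      Function.Surjective g ∧ ∀ x, g x = 1 → x = 1 := by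
  have hle : Subgroup.center L ≤ (Subgroup.center L').comap f := by
    intro x hx
    rw [Subgroup.mem_comap, Subgroup.mem_center_iff]
    intro y
    obtain ⟨y, rfl⟩ := hf y
    rw [← map_mul, ← map_mul, Subgroup.mem_center_iff.mp hx y]
  refine ⟨QuotientGroup.map _ _ f hle, ?_, ?_⟩
  · intro y
    obtain ⟨y, rfl⟩ := QuotientGroup.mk'_surjective (Subgroup.center L') y
    obtain ⟨x, rfl⟩ := hf y
    exact ⟨QuotientGroup.mk' _ x, rfl⟩
  · intro x hx
    obtain ⟨x, rfl⟩ := QuotientGroup.mk'_surjective (Subgroup.center L) x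
    have h1 : (QuotientGroup.mk (f x) : L' ⧸ Subgroup.center L') = 1 := hx
    rw [QuotientGroup.eq_one_iff] at h1
    exact (QuotientGroup.eq_one_iff x).mpr (center_of_map hf hker hL h1)

/-- The class is stable under central quotients of perfect groups. -/
theorem cover_map {p : ℕ} {L L' : Type} [Group L] [Group L'] {f : L →* L'}
    (hf : Function.Surjective f) (hker : ∀ x, f x = 1 → ∀ y, x * y = y * x)
    (hL : commutator L = ⊤) (h : OPair p L) : OPair p L' := by
  obtain ⟨-, K, iK, fK, d, -, hd, hpK, hodd, hK9, hlin, B, X, π, hB, hX, hπ, hker', -⟩ := h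
  obtain ⟨g, hg, hg1⟩ := exists_quot_map hf hker hL
  have hL' : commutator L' = ⊤ := by
    rw [eq_top_iff, ← MonoidHom.range_eq_top.mpr hf, MonoidHom.range_eq_map, ← hL, commutator_def,
      Subgroup.map_commutator, ← MonoidHom.range_eq_map, MonoidHom.range_eq_top.mpr hf,
      ← commutator_def]
  refine ⟨hL', K, iK, fK, d, Or.inl rfl, hd, hpK, hodd, hK9, hlin, B, X, g.comp π, hB, hX,
    hg.comp hπ, fun x hx => ?_, fun α hα => ?_⟩
  · have h1 : g (π x) ∈ Subgroup.center (L' ⧸ Subgroup.center L') := hx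
    rw [center_quot hL', Subgroup.mem_bot] at h1
    exact hker' x (by rw [hg1 _ h1]; exact one_mem _)
  · rw [Subgroup.mem_bot] at hα
    subst hα
    exact ⟨RingEquiv.refl K, 1, id, Function.bijective_id, fun _ _ => rfl, fun _ _ => rfl,
      fun v w => (one_mul _).symm, fun x => ⟨x, fun _ => rfl, rfl⟩⟩

/-- **The corner property of the perfect central extensions of orthogonal groups.** -/
theorem corP_cover {k : Type u} [Field k] [IsAlgClosed k] {p n : ℕ} [Fact p.Prime] [CharP k p]
    {G : Type} [Group G] [Finite G] {D L : Subgroup G} (hD : IsPGroup p D)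
    (hDn : Nat.card D ≤ n) (h : OPair p L)
    (hin : D ⊓ Subgroup.normalizer (L : Set G) ≤ L ⊔ Subgroup.centralizer (L : Set G))
    (b : MonoidAlgebra k G) :
    H365.CorP p (max (H799.BN.bnB n) (BZ.bdL p (lvM p) n)) b D L := by
  rcases cover_or h (D.subgroupOf L) with h | h
  · exact (H259.Par.corP_parq hD hDn h hin b).mono (le_max_left _ _)
  · exact (BZ.corP_lev hD hDn h hin b).mono (le_max_right _ _)

end Vale.Agent.P180.R2.H799.CC
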