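import Vale.Agent.P180.R2.H799.CC1
import Vale.Agent.P180.R2.H471.Or4

/-!
P180: the corner property of the perfect central extensions of the orthogonal groups of dimension
less than `p`, for all linear primes `p` (both parities of `|K|`).
-/

set_option linter.all false

namespace Vale.Agent.P180.R2.H799.CG

open Module Vale.Agent.P180 Vale.Agent.P180.H768.Gd Vale.Agent.P180.R2.H799
  Vale.Agent.P180.R2.H854 Vale.Agent.P180.R2.H47 Vale.Agent.P180.R2.H799.CB
  Vale.Agent.P180.R2.H365
open Vale.Agent.P180.R2.H259.Loc Vale.Agent.P180.R2.H259.Oq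
open Vale.Agent.P180.R2.H799.CC (OPair OSim OSmall ESmall)

universe u

theorem two_zero {K : Type} [Field K] [Finite K] (h : 2 ∣ Nat.card K) : (2 : K) = 0 := by
  haveI : Fact (Nat.Prime 2) := ⟨Nat.prime_two⟩
  obtain ⟨x, hx⟩ := exists_prime_addOrderOf_dvd_card' 2 h
  have h1 : 2 • x = 0 := by rw [← hx]; exact addOrderOf_nsmul_eq_zero x
  have h2 : x ≠ 0 := by
    rintro rfl
    rw [addOrderOf_zero] at hx
    omega
  rw [nsmul_eq_mul] at h1
  exact_mod_cast (mul_eq_zero.mp h1).resolve_right h2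

/-- The form of a quadratic form. -/
theorem exists_qf {K E : Type} [Field K] [Finite K] [AddCommGroup E] [Module K E]
    (h2 : 2 ∣ Nat.card K) {Q : QuadraticForm K E} {X : Subgroup (SpecialLinearGroup K E)}
    (h : OmegaOn Q X) : ∃ Φ : HForm K E, (∀ a, Φ.θ a = a) ∧ QF Φ (fun x => Q x) ∧
      OmX (fun x => Q x) X := by
  obtain ⟨hnd, hX⟩ := h
  have hadd : ∀ x y, Q (x + y) = Q x + Q y + QuadraticMap.polar Q x y := by
    intro x y
    rw [QuadraticMap.polar]
    ring
  have hnd' : ∀ x, (∀ y, QuadraticMap.polar Q x y = 0) → x = 0 := by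
    intro x hx
    apply hnd
    intro y
    rw [hadd, hx y, add_zero]
  let Φ : HForm K E :=
    { B := fun x y => QuadraticMap.polar Q x y
      θ := RingHom.id K
      ε := 1
      add_left := fun x y z => QuadraticMap.polar_add_left Q x y z
      smul_left := fun a x y => by
        rw [QuadraticMap.polar_smul_left, smul_eq_mul]
      θθ := fun a => rfl
      εε := by rw [map_one, one_mul]
      symm := fun x y => by
        rw [RingHom.id_apply, one_mul, QuadraticMap.polar_comm]
      nondeg := hnd' }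
  exact ⟨Φ, fun a => rfl,
    { two := two_zero h2
      eps := rfl
      th := fun a => rfl
      add := hadd
      smul := fun a x => by rw [QuadraticMap.map_smul, smul_eq_mul, sq] }, hX⟩

/-- the facts on the group -/
theorem sim_data {K E : Type} [Field K] [Finite K] [AddCommGroup E] [Module K E] {L : Type}
    [Group L] (hL : commutator L = ⊤) {Γ : Subgroup (MulAut (L ⧸ Subgroup.center L))}
    (h : OmegaSim K E (L ⧸ Subgroup.center L) Γ) :
    ∃ (Φ : HForm K E) (Q : E → K) (X : Subgroup (SpecialLinearGroup K E))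
      (π : X →* L ⧸ Subgroup.center L), (∀ a, Φ.θ a = a) ∧ QF Φ Q ∧ OmX Q X ∧
      Function.Surjective π ∧ (∀ x : X, π x = 1 → x.1 ∈ Subgroup.center _) ∧
      ∀ α ∈ Γ, ∃ (σ : K ≃+* K) (c : K) (g : E → E), Function.Bijective g ∧
        (∀ v w, g (v + w) = g v + g w) ∧ (∀ (a : K) v, g (a • v) = σ a • g v) ∧
        (∀ v, Q (g v) = c * σ (Q v)) ∧
        ∀ x : X, ∃ y : X, (∀ v, g (x.1 v) = y.1 (g v)) ∧ α (π x) = π y := by
  obtain ⟨h2, Q, X, π, hX, hπ, hker, hact⟩ := h
  obtain ⟨Φ, hθ, hQ, hX⟩ := exists_qf h2 hX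
  refine ⟨Φ, fun x => Q x, X, π, hθ, hQ, hX, hπ, fun x hx => hker x ?_, fun α hα => ?_⟩
  · rw [hx]
    exact one_mem _
  · obtain ⟨σ, c, g, h1, h2, h3, h4, h5⟩ := hact α hα
    refine ⟨σ, c, g, h1, h2, h3, fun v => ?_, h5⟩
    have h6 : Q (g v + g 0) = c * σ (Q (v + 0)) := h4 v 0
    have h7 : g 0 = 0 := by
      have h8 := h2 0 0
      rw [add_zero] at h8
      exact left_eq_add.mp h8
    rw [h7, add_zero, add_zero] at h6
    exact h6

theorem esmall_bot {c : Prop} {p : ℕ} {T : Type} [Group T] {Γ : Subgroup (MulAut T)}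
    (h : ESmall c p T Γ) : ESmall False p T ⊥ := by
  obtain ⟨K, iK, fK, d, -, h2, h3, h4, h5, h6, h7, Q, X, π, hX, hπ, hker, -⟩ := h
  refine ⟨K, iK, fK, d, Or.inl rfl, h2, h3, h4, h5, h6, h7, Q, X, π, hX, hπ, hker, fun α hα => ?_⟩
  rw [Subgroup.mem_bot] at hα
  subst hα
  exact ⟨RingEquiv.refl K, 1, id, Function.bijective_id, fun _ _ => rfl, fun _ _ => rfl,
    fun v w => (one_mul _).symm, fun x => ⟨x, fun _ => rfl, rfl⟩⟩

theorem pair_even {p : ℕ} [Fact p.Prime] {L : Type} [Group L] [Finite L] (hL : commutator L = ⊤)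
    (h : ESmall False p (L ⧸ Subgroup.center L) ⊥) (A : Subgroup L) :
    ParPair p L A ∨ LevPair p (lvM p) L A := by
  obtain ⟨K, iK, fK, d, -, h2, h3, h4, h5, h6, h7⟩ := h
  obtain ⟨Φ, Q, X, π, hθ, hQ, hX, hπ, hker, -⟩ := sim_data hL h7
  exact H471.Or.pair_omega hQ hX (by omega) (by rw [Module.finrank_fin_fun]; omega)
    (by rw [Module.finrank_fin_fun]; exact h2) h3
    (fun j hj => h6 j fun a => by rw [← hj a, hθ]; rfl) hL π hπ hker A

/-- The class is stable under central quotients of perfect groups. -/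
theorem cover_map2 {p : ℕ} {L L' : Type} [Group L] [Group L'] {f : L →* L'}
    (hf : Function.Surjective f) (hker : ∀ x, f x = 1 → ∀ y, x * y = y * x)
    (hL : commutator L = ⊤) (h : CoverPair p L) : CoverPair p L' := by
  rcases CC.pair_or h with h | ⟨-, K, iK, fK, d, -, h2, h3, h4, h5, h6, h7, Q, X, π, hX, hπ,
    hker', -⟩
  · exact CC.pair_of_odd (CC.cover_map hf hker hL h)
  obtain ⟨g, hg, hg1⟩ := CC.exists_quot_map hf hker hL
  have hL' : commutator L' = ⊤ := by
    rw [eq_top_iff, ← MonoidHom.range_eq_top.mpr hf, MonoidHom.range_eq_map, ← hL, commutator_def,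
      Subgroup.map_commutator, ← MonoidHom.range_eq_map, MonoidHom.range_eq_top.mpr hf,
      ← commutator_def]
  refine ⟨hL', K, iK, fK, d, Or.inl rfl, h2, h3, Or.inr h4, h5, h6, Or.inr ⟨h7, Q, X, g.comp π,
    hX, hg.comp hπ, fun x hx => ?_, fun α hα => ?_⟩⟩
  · have h1 : g (π x) ∈ Subgroup.center (L' ⧸ Subgroup.center L') := hx
    rw [CC.center_quot hL', Subgroup.mem_bot] at h1
    exact hker' x (by rw [hg1 _ h1]; exact one_mem _)
  · rw [Subgroup.mem_bot] at hα
    subst hα
    exact ⟨RingEquiv.refl K, 1, id, Function.bijective_id, fun _ _ => rfl, fun _ _ => rfl,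
      fun v w => (one_mul _).symm, fun x => ⟨x, fun _ => rfl, rfl⟩⟩

/-- **The corner property of the perfect central extensions of orthogonal groups.** -/
theorem corP_cover2 {k : Type u} [Field k] [IsAlgClosed k] {p n : ℕ} [Fact p.Prime] [CharP k p]
    {G : Type} [Group G] [Finite G] {D L : Subgroup G} (hD : IsPGroup p D)
    (hDn : Nat.card D ≤ n) (h : CoverPair p L)
    (hin : D ⊓ Subgroup.normalizer (L : Set G) ≤ L ⊔ Subgroup.centralizer (L : Set G))
    (b : MonoidAlgebra k G) :
    H365.CorP p (max (H799.BN.bnB n) (BZ.bdL p (lvM p) n)) b D L := by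
  rcases CC.pair_or h with h | ⟨hL, h⟩
  · exact CC.corP_cover hD hDn h hin b
  rcases pair_even hL h (D.subgroupOf L) with h | h
  · exact (H259.Par.corP_parq hD hDn h hin b).mono (le_max_left _ _)
  · exact (BZ.corP_lev hD hDn h hin b).mono (le_max_right _ _)

end Vale.Agent.P180.R2.H799.CG
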