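import Vale.Agent.P180.R2.H799.BS14
import Vale.Agent.P180.R2.H471.Au6

/-!
P180: every component which is a central quotient of `SL(d, K)`, `3 ≤ d < p`, `p ∣ |K| - 1`, has the
corner property, without a condition on the action of the `p`-group.
-/

set_option linter.all false

namespace Vale.Agent.P180.R2.H799.BS

open Module Vale.Agent.P180 Vale.Agent.P180.H768.Gd Vale.Agent.P180.R2.H365
  Vale.Agent.P180.R2.H799 Vale.Agent.P180.R2.H954 Vale.Agent.P180.R2.H854

universe u

section

variable {K E : Type*} [Field K] [AddCommGroup E] [Module K E] [FiniteDimensional K E]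

/-- the conjugate of an element of the special linear group with a semilinear bijection -/
theorem exists_tw {σ : K ≃+* K} {g : E → E} (h : Semi σ g) (x : SpecialLinearGroup K E) :
    ∃ y : SpecialLinearGroup K E, Tw g x y := by
  obtain ⟨g', hl, hr⟩ : ∃ g' : E → E, (∀ v, g' (g v) = v) ∧ ∀ v, g (g' v) = v := by
    refine ⟨(Equiv.ofBijective g h.bij).symm, fun v => ?_, fun v => ?_⟩
    · exact (Equiv.ofBijective g h.bij).symm_apply_apply v
    · exact (Equiv.ofBijective g h.bij).apply_symm_apply v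
  have h' : Semi σ.symm g' := h.inv hl hr
  let Y : End K E :=
    { toFun := fun v => g (toEnd x (g' v))
      map_add' := fun v w => by rw [h'.add, map_add, h.add]
      map_smul' := fun c v => by
        rw [h'.smul, map_smul, h.smul, RingEquiv.apply_symm_apply]
        rfl }
  have hY : ∀ v, g (toEnd x v) = Y (g v) := fun v => by
    change _ = g (toEnd x (g' (g v)))
    rw [hl]
  have hdet : LinearMap.det Y = 1 := by
    rw [h.det hY, det_toEnd, map_one]
  exact ⟨mkSL Y hdet, fun v => hY v⟩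

end

/-- the semilinear action is automatic -/
theorem semiSL_of {p : ℕ} [Fact p.Prime] {G : Type} [Group G] [Finite G] {D L : Subgroup G}
    (hD : IsPGroup p D) {K : Type} [Field K] [Finite K] {d : ℕ} (hd : 3 ≤ d) (hdp : d < p)
    (hp1 : p ∣ Nat.card K - 1) (π : SpecialLinearGroup K (Fin d → K) →* L)
    (hπ : Function.Surjective π) (hk : π.ker ≤ Subgroup.center _) : SemiSL p D L := by
  have hp : p.Prime := Fact.out
  refine ⟨K, inferInstance, inferInstance, d, π, hπ, hk, hp1, hdp, fun r hr hrn => ?_⟩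
  obtain ⟨m, hm⟩ := hD ⟨r, hr⟩
  have hm' : r ^ (p ^ m) = 1 := congrArg Subtype.val hm
  have hpow : ∀ n : ℕ, ∀ s ∈ L, r ^ n * s * (r ^ n)⁻¹ ∈ L := by
    intro n
    induction n with
    | zero => intro s hs; rw [pow_zero, one_mul, inv_one, mul_one]; exact hs
    | succ n ih =>
      intro s hs
      have h1 := ih _ (hrn s hs)
      have h2 : r ^ (n + 1) * s * (r ^ (n + 1))⁻¹ = r ^ n * (r * s * r⁻¹) * (r ^ n)⁻¹ := by
        rw [pow_succ]; group
      rw [h2]
      exact h1
  have hinv : r⁻¹ = r ^ (p ^ m - 1) := by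
    symm
    refine eq_inv_of_mul_eq_one_left ?_
    rw [← pow_succ, Nat.sub_add_cancel (Nat.pos_of_ne_zero (pow_ne_zero m hp.ne_zero)), hm']
  have hrN : r ∈ Subgroup.normalizer (L : Set G) := by
    rw [Subgroup.mem_normalizer_iff]
    intro s
    refine ⟨hrn s, fun hs => ?_⟩
    have h1 := hpow (p ^ m - 1) _ hs
    rw [← hinv] at h1
    have h2 : r⁻¹ * (r * s * r⁻¹) * r⁻¹⁻¹ = s := by group
    rwa [h2] at h1
  obtain ⟨σ, g, hg, hxy⟩ := H471.Au.semi_conj hd hπ hk hrN
    (m := p ^ m) ((hp.odd_of_ne_two (by omega)).pow) hm'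
  have hs : Semi σ g := ⟨g.bijective, fun v w => map_add g v w, hg⟩
  refine ⟨σ, g, hs, fun x => ?_⟩
  obtain ⟨y, hy⟩ := exists_tw hs x
  exact ⟨y, hy, hxy x y hy⟩

/-- **The corner property** of all the central quotients of `SL(d, K)`, `3 ≤ d < p`,
`p ∣ |K| - 1`. -/
theorem corP_split {k : Type u} [Field k] [IsAlgClosed k] {p n : ℕ} [Fact p.Prime] [CharP k p]
    {G : Type} [Group G] [Finite G] {D L : Subgroup G} (hD : IsPGroup p D)
    (hDn : Nat.card D ≤ n) {K : Type} [Field K] [Finite K] {d : ℕ} (hd : 3 ≤ d) (hdp : d < p)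
    (hp1 : p ∣ Nat.card K - 1) (π : SpecialLinearGroup K (Fin d → K) →* L)
    (hπ : Function.Surjective π) (hk : π.ker ≤ Subgroup.center _) (b : MonoidAlgebra k G) :
    H365.CorP p (bS p n) b D L :=
  corP_semi hD hDn (semiSL_of hD hd hdp hp1 π hπ hk) b

end Vale.Agent.P180.R2.H799.BS
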