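import Vale.Agent.P180.R2.H799.BT7
import Vale.Agent.P180.R2.H799.BS15
import Vale.Agent.P180.R2.H854.TP

/-!
P180: the class of the central quotients of groups of isometries of dimension less than `p` with an
arbitrary semilinear action of the `p`-group.
-/

set_option linter.all false

namespace Vale.Agent.P180.R2.H799.BS

open Module Vale.Agent.P180 Vale.Agent.P180.H768.Gd Vale.Agent.P180.R2.H365
  Vale.Agent.P180.R2.H799 Vale.Agent.P180.R2.H954 Vale.Agent.P180.R2.H854

universe u

section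

variable {K E : Type*} [Field K] [Finite K] [AddCommGroup E] [Module K E] [FiniteDimensional K E]
  (Φ : HForm K E)

/-- a sum of two squares with coefficients in the fixed field -/
theorem exists_two_squares {θ : K →+* K} (h2 : (2 : K) ≠ 0) {a b : K} (ha : a ≠ 0)
    (haθ : θ a = a) (hb : b ≠ 0) (hbθ : θ b = b) {c : K} (hcθ : θ c = c) :
    ∃ s t : K, θ s = s ∧ θ t = t ∧ a * s ^ 2 + b * t ^ 2 + c = 0 := by
  classical
  let K₀ : Subfield K := RingHom.eqLocusField θ (RingHom.id K)
  have hmem : ∀ x : K, x ∈ K₀ ↔ θ x = x := fun x => Iff.rfl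
  have _ : Fintype K₀ := Fintype.ofFinite _
  have hchar : ringChar K₀ ≠ 2 := by
    intro h0
    have h1 : ((2 : ℕ) : K₀) = 0 := by
      rw [ringChar.spec, h0]
    apply h2
    have h3 := congrArg (fun x : K₀ => (x : K)) h1
    have h4 : (((2 : ℕ) : K₀) : K) = 2 := by
      rw [Nat.cast_ofNat]
      rfl
    have h5 : (((0 : K₀)) : K) = 0 := rfl
    rw [← h4, ← h5]
    exact h3
  have hcard : Fintype.card K₀ % 2 = 1 := FiniteField.odd_card_of_char_ne_two hchar
  let A : K₀ := ⟨a, haθ⟩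
  let B : K₀ := ⟨b, hbθ⟩
  let C : K₀ := ⟨c, hcθ⟩
  have hA : A ≠ 0 := fun h => ha (congrArg Subtype.val h)
  have hB : B ≠ 0 := fun h => hb (congrArg Subtype.val h)
  obtain ⟨s, t, hst⟩ := FiniteField.exists_root_sum_quadratic
    (f := Polynomial.C A * Polynomial.X ^ 2) (g := Polynomial.C B * Polynomial.X ^ 2 + Polynomial.C C)
    (by rw [Polynomial.degree_C_mul_X_pow 2 hA]; rfl)
    (by
      rw [Polynomial.degree_add_C, Polynomial.degree_C_mul_X_pow 2 hB]
      · rfl
      · rw [Polynomial.degree_C_mul_X_pow 2 hB]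
        decide)
    hcard
  rw [Polynomial.eval_mul, Polynomial.eval_C, Polynomial.eval_pow, Polynomial.eval_X,
    Polynomial.eval_add, Polynomial.eval_mul, Polynomial.eval_C, Polynomial.eval_pow,
    Polynomial.eval_X, Polynomial.eval_C] at hst
  refine ⟨s, t, s.2, t.2, ?_⟩
  have h3 := congrArg (fun x : K₀ => (x : K)) hst
  have h4 : a * (s : K) ^ 2 + (b * (t : K) ^ 2 + c) = 0 := h3
  rw [add_assoc]
  exact h4

/-- **Isotropic vectors exist** in dimension at least three. -/
theorem exists_isotropic (h3 : 3 ≤ finrank K E) : ∃ w, w ≠ 0 ∧ Φ.B w w = 0 := by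
  classical
  by_contra hcon
  push Not at hcon
  have hneg : ∀ x, Φ.B x x = Φ.ε * Φ.θ (Φ.B x x) := fun x => Φ.symm x x
  -- three orthogonal vectors
  have hE : 0 < finrank K E := by omega
  have _ : Nontrivial E := Module.finrank_pos_iff.mp hE
  obtain ⟨x, hx⟩ := exists_ne (0 : E)
  have hs1 : finrank K (Submodule.span K {x}) = 1 := finrank_span_singleton hx
  have hp1 := Φ.finrank_add_finrank_perp (Submodule.span K {x})
  obtain ⟨y, hy, hyn⟩ := exists_notin (K := K) (S := (⊥ : Submodule K E))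
    (W := Φ.perp (Submodule.span K {x})) (by rw [finrank_bot]; omega)
  have hy0 : y ≠ 0 := fun h0 => hyn (by rw [h0]; exact zero_mem _)
  rw [mem_perp_singleton] at hy
  have hs2 : finrank K (Submodule.span K {x, y}) ≤ 2 := by
    have h4 := finrank_span_le_card (R := K) ({x, y} : Set E)
    refine h4.trans ?_
    rw [Set.toFinset_card]
    simpa using Finset.card_le_two (a := x) (b := y)
  have hp2 := Φ.finrank_add_finrank_perp (Submodule.span K {x, y})
  obtain ⟨z, hz, hzn⟩ := exists_notin (K := K) (S := (⊥ : Submodule K E))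
    (W := Φ.perp (Submodule.span K {x, y})) (by rw [finrank_bot]; omega)
  have hz0 : z ≠ 0 := fun h0 => hzn (by rw [h0]; exact zero_mem _)
  have hzx : Φ.B z x = 0 := hz x (Submodule.subset_span (Or.inl rfl))
  have hzy : Φ.B z y = 0 := hz y (Submodule.subset_span (Or.inr rfl))
  have hxy := Φ.eq_zero_comm hy
  have hxz := Φ.eq_zero_comm hzx
  have hyz := Φ.eq_zero_comm hzy
  have ha := hcon x hx
  have hb := hcon y hy0
  have hc := hcon z hz0
  obtain ⟨a, haE⟩ : ∃ a, a = Φ.B x x := ⟨_, rfl⟩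
  obtain ⟨b, hbE⟩ : ∃ b, b = Φ.B y y := ⟨_, rfl⟩
  obtain ⟨c, hcE⟩ : ∃ c, c = Φ.B z z := ⟨_, rfl⟩
  have ha' := hneg x
  have hb' := hneg y
  have hc' := hneg z
  rw [← haE] at ha ha'
  rw [← hbE] at hb hb'
  rw [← hcE] at hc hc'
  have hθa : Φ.θ a ≠ 0 := fun h0 => ha ((map_eq_zero Φ.θ).mp h0)
  have hθ : ∀ u, u = Φ.ε * Φ.θ u → Φ.θ (u / a) = u / a := by
    intro u hu
    rw [map_div₀, div_eq_div_iff hθa ha]
    have hε : Φ.ε ≠ 0 := by
      intro h0
      rw [h0, zero_mul] at ha'
      exact ha ha'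
    refine mul_left_cancel₀ hε ?_
    calc Φ.ε * (Φ.θ u * a) = (Φ.ε * Φ.θ u) * a := by ring
      _ = u * (Φ.ε * Φ.θ a) := by rw [← hu, ← ha']
      _ = _ := by ring
  by_cases h2 : (2 : K) = 0
  · -- characteristic two
    have hcp : CharP K 2 := by
      have _ := ringChar.charP K
      have h4 : ringChar K ∣ 2 := by
        rw [← ringChar.spec, Nat.cast_ofNat]
        exact h2
      rcases (Nat.dvd_prime Nat.prime_two).mp h4 with h5 | h5
      · exfalso
        have h6 : ((1 : ℕ) : K) = 0 := by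
          rw [ringChar.spec, h5]
        rw [Nat.cast_one] at h6
        exact one_ne_zero h6
      · rw [← h5]
        infer_instance
    have _ : Fact (Nat.Prime 2) := ⟨Nat.prime_two⟩
    obtain ⟨s, hs⟩ : ∃ s, s ^ 2 = a / b := by
      obtain ⟨s, hs⟩ := (PerfectField.toPerfectRing 2 (K := K)).bijective_frobenius.2 (a / b)
      exact ⟨s, hs⟩
    have hsθ : Φ.θ s = s := by
      have h4 : Φ.θ (a / b) = a / b := by
        have h5 := hθ b hb'
        have h6 : a / b = (b / a)⁻¹ := by rw [inv_div]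
        rw [h6, map_inv₀, h5]
      have h5 : frobenius K 2 (Φ.θ s) = frobenius K 2 s := by
        change Φ.θ s ^ 2 = s ^ 2
        rw [← map_pow, hs, h4]
      exact frobenius_inj K 2 h5
    refine hcon (x + s • y) ?_ ?_
    · intro h0
      have h4 : Φ.B (x + s • y) x = 0 := by rw [h0, Φ.zero_left]
      rw [Φ.add_left, Φ.smul_left, hy, mul_zero, add_zero, ← haE] at h4
      exact ha h4
    · rw [Φ.add_left, Φ.add_right, Φ.add_right, Φ.smul_left, Φ.smul_left, Φ.smul_right,
        Φ.smul_right, hy, hxy, ← haE, ← hbE, hsθ]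
      have h4 : s * (s * b) = a := by
        rw [← mul_assoc, ← _root_.sq, hs, div_mul_cancel₀ _ hb]
      rw [mul_zero, add_zero, zero_add, h4, ← two_mul, h2, zero_mul]
  · obtain ⟨s, t, hs, ht, hst⟩ := exists_two_squares (θ := Φ.θ) h2 (a := 1) (b := b / a)
      (c := c / a) one_ne_zero (map_one _) (div_ne_zero hb ha) (hθ b hb') (hθ c hc')
    refine hcon (s • x + t • y + z) ?_ ?_
    · intro h0
      have h4 : Φ.B (s • x + t • y + z) z = 0 := by rw [h0, Φ.zero_left]
      rw [Φ.add_left, Φ.add_left, Φ.smul_left, Φ.smul_left, hxz, hyz, mul_zero, mul_zero,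
        zero_add, zero_add, ← hcE] at h4
      exact hc h4
    · simp only [Φ.add_left, Φ.add_right, Φ.smul_left, Φ.smul_right, hy, hxy, hzx, hzy, hxz, hyz,
        ← haE, ← hbE, ← hcE, hs, ht, mul_zero, add_zero, zero_add]
      have h4 : a * (1 * s ^ 2 + b / a * t ^ 2 + c / a) = 0 := by rw [hst, mul_zero]
      have h5 : a * (1 * s ^ 2 + b / a * t ^ 2 + c / a) = s * (s * a) + t * (t * b) + c := by
        field_simp
      rw [← h5, h4]

end

/-- `L` is a central quotient (modulo scalars) of a subgroup `X` of index one or two in the special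
isometry group of a nondegenerate alternating, symmetric or hermitian form on `K ^ d`,
`3 ≤ d < p`, `4 ≤ d` if the form is not hermitian, `K` a finite field with a `p`-th root of unity
`ζ ≠ 1` fixed by the field automorphism of the form, and the elements of `D` which
normalise `L` act on `L` by semilinear similitudes. -/
def SemiIso (p : ℕ) {G : Type} [Group G] (D L : Subgroup G) : Prop :=
  ∃ (K : Type) (_ : Field K) (_ : Finite K) (d : ℕ) (Φ : HForm K (Fin d → K))
    (X : Subgroup (SpecialLinearGroup K (Fin d → K))) (π : X →* L),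
      Odd p ∧ Φ.GoodX X ∧ (∃ ζ : K, ζ ^ p = 1 ∧ ζ ≠ 1 ∧ Φ.θ ζ = ζ) ∧
      X ≤ Φ.Iso ∧ X.relIndex Φ.Iso ∣ 2 ∧ Function.Surjective π ∧
      π.ker.map X.subtype ≤ Subgroup.center _ ∧ d < p ∧
      (4 ≤ d ∨ (3 ≤ d ∧ ∃ a, Φ.θ a ≠ a)) ∧
      ∀ r ∈ D, (∀ s ∈ L, r * s * r⁻¹ ∈ L) →
        ∃ (σ : K ≃+* K) (g : (Fin d → K) → (Fin d → K)), ActX Φ π r σ g

/-- **The corner property** of groups of isometries with a semilinear action. -/
theorem corP_semiIso {k : Type u} [Field k] [IsAlgClosed k] {p n : ℕ} [Fact p.Prime] [CharP k p]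
    {G : Type} [Group G] [Finite G] {D L : Subgroup G} (hD : IsPGroup p D)
    (hDn : Nat.card D ≤ n) (h : SemiIso p D L) (b : MonoidAlgebra k G) :
    H365.CorP p (bO n) b D L := by
  obtain ⟨K, _, _, d, Φ, X, π, hp2, hK, ⟨ζ, hζ, hζ1, hζθ⟩, hXI, hX2, hπ, hk, hd, hd4, hact⟩ := h
  have hfd : finrank K (Fin d → K) = d := by rw [Module.finrank_fin_fun]
  have hd3 : 3 ≤ d := by
    rcases hd4 with h | h
    · omega
    · exact h.1
  have hL : Lines Φ := by
    refine lines_of_form Φ (Φ.trT hK.or3) (by rw [hfd]; exact hd3) ?_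
      (exists_isotropic Φ (by rw [hfd]; exact hd3))
    rw [hfd]
    rcases hd4 with h | h
    · exact Or.inl h
    · exact Or.inr h.2
  rintro R hRD hn e he heR hbr hz1 hz2
  have hR : IsPGroup p R := hD.to_le hRD
  have hRn : Nat.card R ≤ n := (Subgroup.card_le_of_le hRD).trans hDn
  exact cor_semiX hR hRn hn Φ hp2 (Φ.trT hK.or3) (Φ.normCondT hK.or3) hζ hζ1 hζθ hXI hX2
    (fun F _ => hK.hV hX2 F) π hπ hk (by rw [hfd]; omega) (by rw [hfd]; exact hd) hL
    (fun r hr => hact r (hRD hr) (hn r hr)) he.block heR hbr hz1 hz2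

end Vale.Agent.P180.R2.H799.BS
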