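import Vale.Agent.P180.R2.H799.BS7

/-!
P180: the corner property for a `p`-group which acts on the Levi subgroup through a cyclic group.
-/

set_option linter.all false

namespace Vale.Agent.P180.R2.H799.BS

open Vale.Agent.P180 Vale.Agent.P180.H768.Gd Vale.Agent.P180.R2.H365 Vale.Agent.P180.R2.H799
  Vale.Agent.P180.R2.H954
open Vale.Agent.P180.R2.H799.BN (Ce Nm Mx Lv mem_Ce mem_Nm av lv_of_pair cusp corner_av av_comm
  av_idem br_av relIndex_le card_ne)
open Vale.Agent.P180.R2.H259.Cyc (PrimIn)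

universe u

variable {k : Type u} [Field k] {p : ℕ} [Fact p.Prime] [CharP k p] {G : Type} [Group G] [Finite G]

/-- the bound -/
def bO (n : ℕ) : ℕ := n.factorial * ((n * (n * n)) * (n * (n * n)))

/-- **The corner property, outer action.** -/
theorem cor_outer [IsAlgClosed k] {L R : Subgroup G} {n : ℕ} (hR : IsPGroup p R)
    (hRn : Nat.card R ≤ n) (hn : ∀ x ∈ R, ∀ s ∈ L, x * s * x⁻¹ ∈ L) (𝒮 : ParSys p L)
    (hLv : 𝒮.HasLevi) {V : Subgroup L} (hV : V ∈ 𝒮.car) (hpair : IsLeviPair V (R.subgroupOf L))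
    (hQab : ∀ x ∈ R.subgroupOf L, ∀ y ∈ R.subgroupOf L, x * y = y * x)
    (hVR : ∀ r ∈ R, ∀ v ∈ V.map L.subtype, r * v * r⁻¹ ∈ V.map L.subtype)
    {M : Subgroup G} (hML : M ≤ L) (hMQ : ∀ x ∈ M, ∀ y ∈ R, y ∈ L → y * x = x * y)
    (hinf : ∀ x ∈ M, x ∈ R → x = 1)
    (hcov : ∀ x ∈ L, (∀ y ∈ R, y ∈ L → y * x = x * y) → ∃ m ∈ M, ∃ q ∈ L ⊓ R, x = m * q)
    (hMR : ∀ r ∈ R, ∀ m ∈ M, r * m * r⁻¹ ∈ M) {c : G} (hcR : c ∈ R)
    (hcyc : ∀ r ∈ R, ∃ n : ℤ, ∀ m ∈ M, r * m * r⁻¹ = c ^ n * m * (c ^ n)⁻¹)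
    {e : MonoidAlgebra k G} (he : IsBlockOf L e) (heR : e ∈ Fix (cj k G) R) (hbr : br R e ≠ 0)
    (hz1 : ∃ z ∈ SubAlg k L, z ∈ Fix (cj k G) (L ⊓ R) ∧ e = tr (cj k G) (L ⊓ R) L z)
    (hz2 : ∃ z ∈ SubAlg k L, z ∈ Fix (cj k G) R ∧ e = tr (cj k G) R (L ⊔ R) z) :
    Cor (bO n) L R e := by
  classical
  obtain ⟨f, w, hf, hwL, hwF, hfw, hfR, hbf, hbrf⟩ := exists_stable hR hn hQab he heR hbr hz1
  obtain ⟨Q, hQdef⟩ : ∃ Q, Q = R.subgroupOf L := ⟨_, rfl⟩
  rw [← hQdef] at hf hwL hwF hfw hQab hpair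
  have hfinL : FiniteDimensional k (MonoidAlgebra k L) :=
    Module.Finite.equiv (MonoidAlgebra.coeffLinearEquiv k (M := L) (S := k)).symm
  have hfin : FiniteDimensional k (MonoidAlgebra k G) :=
    Module.Finite.equiv (MonoidAlgebra.coeffLinearEquiv k (M := G) (S := k)).symm
  have hmapQ : Q.map L.subtype = L ⊓ R := by
    rw [hQdef, Subgroup.subgroupOf_map_subtype, inf_comm]
  have hQp : IsPGroup p Q := by
    rw [hQdef]; exact hR.comap_of_injective L.subtype L.subtype_injective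
  have hQGp : IsPGroup p (L ⊓ R : Subgroup G) := hR.to_le inf_le_right
  have hLV : Lv V Q := lv_of_pair hpair
  have hMx : Mx p Q := mx_of_tr hQp hQab hf.ne_zero hf.mem.1 hwF hfw
  have hinj := incl_injective (k := k) L
  -- the centraliser in `G`
  obtain ⟨C, hCdef⟩ : ∃ C, C = (Ce Q).map L.subtype := ⟨_, rfl⟩
  have hmemC : ∀ x, x ∈ C ↔ x ∈ L ∧ ∀ y ∈ L ⊓ R, y * x = x * y := by
    intro x
    rw [hCdef]
    constructor
    · rintro ⟨x, hx, rfl⟩
      refine ⟨x.2, fun y hy => ?_⟩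
      have hy' : (⟨y, hy.1⟩ : L) ∈ Q := by rw [hQdef]; exact hy.2
      exact congrArg Subtype.val (mem_Ce.mp hx _ hy')
    · rintro ⟨hx, h⟩
      refine ⟨⟨x, hx⟩, mem_Ce.mpr fun y hy => Subtype.ext (h _ ⟨y.2, ?_⟩), rfl⟩
      rw [hQdef] at hy
      exact hy
  have hCL : C ≤ L := fun x hx => ((hmemC x).mp hx).1
  have hMC : M ≤ C := fun x hx => (hmemC x).mpr ⟨hML hx, fun y hy => hMQ x hx y hy.2 hy.1⟩
  have hQC : L ⊓ R ≤ C := by
    intro x hx
    refine (hmemC x).mpr ⟨hx.1, fun y hy => ?_⟩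
    exact congrArg Subtype.val (hQab ⟨y, hy.1⟩ (by rw [hQdef]; exact hy.2) ⟨x, hx.1⟩
      (by rw [hQdef]; exact hx.2))
  have hQc : ∀ q ∈ L ⊓ R, ∀ x ∈ C, q * x = x * q := fun q hq x hx => ((hmemC x).mp hx).2 q hq
  have hcov' : ∀ x ∈ C, ∃ m ∈ M, ∃ q ∈ L ⊓ R, x = m * q := fun x hx =>
    hcov x ((hmemC x).mp hx).1 fun y hy hyL => ((hmemC x).mp hx).2 y ⟨hyL, hy⟩
  -- the block `f` of `C`
  have hfC : IsBlockOf C (incl k L f) := by
    rw [hCdef]; exact (isBlockOf_map_iff L (Ce Q) f).mpr hf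
  have hwC : incl k L w ∈ SubAlg k C := by
    rw [hCdef, incl_mem_SubAlg_iff]; exact hwL
  have hfwC : incl k L f = tr (cj k G) (L ⊓ R) C (incl k L w) := by
    rw [hfw, incl_tr_gen L hwF, hmapQ, ← hCdef]
  obtain ⟨f', hf', ε, hMA⟩ := exists_MA_split hMC hQC hQGp hQc
    (fun x hx hx' => hinf x hx hx'.2) hcov' hfC hwC hfwC
  have hMR' : ∀ r ∈ R, ∀ m, m ∈ M ↔ r * m * r⁻¹ ∈ M := by
    intro r hr m
    refine ⟨hMR r hr m, fun h => ?_⟩
    have := hMR r⁻¹ (R.inv_mem hr) _ h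
    simpa [mul_assoc] using this
  obtain ⟨jG, hjM, hjR, hjj, hfj, hbrj, hdim, hfull⟩ := exists_small_fix hR hMR' hcR hcyc hMA
    (by rw [hf']; exact hfR) (by rw [hf']; exact hbrf)
  rw [hf'] at hfj hfull
  have hdimC : Module.finrank k (NN (SubAlg k C) jG jG) ≤ n * (n * n) := by
    refine (finrank_split_le hQc hMC hcov' hjM hjj).trans ?_
    refine Nat.mul_le_mul ?_ (hdim.trans (Nat.mul_le_mul hRn hRn))
    exact (Subgroup.card_le_of_le inf_le_right).trans hRn
  -- the corner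
  obtain ⟨j, hj⟩ := exists_incl L (SubAlg_mono (hMC.trans hCL) hjM)
  have hjL : j ∈ SubAlg k (Ce Q) := by
    rw [← incl_mem_SubAlg_iff L (Ce Q) j, hj, ← hCdef]
    exact SubAlg_mono hMC hjM
  have hjj' : j * j = j := hinj (by rw [map_mul, hj, hjj])
  have hfj' : f * j = j := hinj (by rw [map_mul, hj, hfj])
  have hfullL : f ∈ Submodule.span k
      {z | ∃ x ∈ SubAlg k (Ce Q), ∃ y ∈ SubAlg k (Ce Q), z = x * j * y} := by
    have h1 : ∀ z ∈ Submodule.span k {z | ∃ x ∈ SubAlg k M, ∃ y ∈ SubAlg k M, z = x * jG * y},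
        ∃ z' ∈ Submodule.span k
          {z | ∃ x ∈ SubAlg k (Ce Q), ∃ y ∈ SubAlg k (Ce Q), z = x * j * y}, incl k L z' = z := by
      intro z hz
      induction hz using Submodule.span_induction with
      | mem z hz =>
        obtain ⟨x, hx, y, hy, rfl⟩ := hz
        obtain ⟨x', hx'⟩ := exists_incl L (SubAlg_mono (hMC.trans hCL) hx)
        obtain ⟨y', hy'⟩ := exists_incl L (SubAlg_mono (hMC.trans hCL) hy)
        refine ⟨x' * j * y', Submodule.subset_span ⟨x', ?_, y', ?_, rfl⟩, ?_⟩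
        · rw [← incl_mem_SubAlg_iff L (Ce Q) x', hx', ← hCdef]
          exact SubAlg_mono hMC hx
        · rw [← incl_mem_SubAlg_iff L (Ce Q) y', hy', ← hCdef]
          exact SubAlg_mono hMC hy
        · rw [map_mul, map_mul, hx', hy', hj]
      | zero => exact ⟨0, zero_mem _, map_zero _⟩
      | add u v _ _ hu hv =>
        obtain ⟨u', hu', rfl⟩ := hu
        obtain ⟨v', hv', rfl⟩ := hv
        exact ⟨u' + v', add_mem hu' hv', map_add _ _ _⟩
      | smul c u _ hu =>
        obtain ⟨u', hu', rfl⟩ := hu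
        exact ⟨c • u', Submodule.smul_mem _ c hu', map_smul _ _ _⟩
    obtain ⟨z', hz', h2⟩ := h1 _ hfull
    rwa [hinj h2] at hz'
  have hpV := 𝒮.card V hV
  have hcusp : ∀ W ∈ 𝒮.car, V ≤ W → Nm W ≤ Nm V → (∃ x ∈ W, x ∉ V) → f * av k W = 0 := by
    rintro W hW hVW hN ⟨x, hx, hxV⟩
    refine cusp 𝒮 hLv hV hLV hQp hQab hwL hwF hfw hf.idem.eq (Nat.card L + 1) W hW hVW hN ?_
      (by omega)
    rintro rfl
    exact hxV hx
  have hcor := corner_av 𝒮 hV hLV hMx hf hcusp hjL hjj' hfj' hfullL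
  have hNNj : Module.finrank k (NN (SubAlg k (Ce Q)) j j) ≤ n * (n * n) := by
    refine le_trans ?_ hdimC
    have h1 : (NN (SubAlg k (Ce Q)) j j).map (incl k L).toLinearMap ≤ NN (SubAlg k C) jG jG := by
      rintro _ ⟨x, ⟨hx1, hx2, hx3⟩, rfl⟩
      refine ⟨?_, ?_, ?_⟩
      · change incl k L x ∈ SubAlg k C
        rw [hCdef, incl_mem_SubAlg_iff]; exact hx1
      · change jG * incl k L x = incl k L x
        rw [← hj, ← map_mul, hx2]
      · change incl k L x * jG = incl k L x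
        rw [← hj, ← map_mul, hx3]
    have h2 := (Submodule.equivMapOfInjective (incl k L).toLinearMap hinj
      (NN (SubAlg k (Ce Q)) j j)).finrank_eq
    rw [h2]
    exact Submodule.finrank_mono h1
  obtain ⟨ν, hν⟩ : ∃ ν, ν = av k V := ⟨_, rfl⟩
  rw [← hν] at hcor
  have hνν : ν * ν = ν := by rw [hν]; exact av_idem (card_ne (p := p) hpV)
  have hjν : j * ν = ν * j := by rw [hν]; exact av_comm hLV.le hjL
  obtain ⟨F, hF⟩ : ∃ F, F = j * ν := ⟨_, rfl⟩
  rw [← hF] at hcor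
  have hFF : F * F = F := by
    rw [hF]
    calc j * ν * (j * ν) = j * (ν * j) * ν := by simp only [mul_assoc]
      _ = (j * j) * (ν * ν) := by rw [← hjν]; simp only [mul_assoc]
      _ = _ := by rw [hjj', hνν]
  have hFdim : Module.finrank k (NN (⊤ : Subalgebra k (MonoidAlgebra k L)) F F) ≤ bO n := by
    refine hcor.trans (Nat.mul_le_mul ?_ (Nat.mul_le_mul hNNj hNNj))
    refine (relIndex_le Q).trans (Nat.factorial_le ?_)
    have h1 : Nat.card Q = Nat.card (L ⊓ R : Subgroup G) := by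
      rw [← hmapQ]
      exact Nat.card_congr (Q.equivMapOfInjective _ L.subtype_injective).toEquiv
    rw [h1]
    exact (Subgroup.card_le_of_le inf_le_right).trans hRn
  -- the idempotent in `kG`
  have hνR : incl k L ν ∈ Fix (cj k G) R := by
    rw [hν, incl_av]
    intro r hr
    rw [BN.cj_av]
    congr 1
    ext x
    rw [mem_conjS]
    constructor
    · intro h
      have := hVR r hr _ h
      have e1 : r * (r⁻¹ * x * r) * r⁻¹ = x := by group
      rwa [e1] at this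
    · intro h
      have := hVR r⁻¹ (R.inv_mem hr) _ h
      rwa [inv_inv] at this
  have hpVG : ¬ p ∣ Nat.card (V.map L.subtype) := by
    rw [← Nat.card_congr (V.equivMapOfInjective _ L.subtype_injective).toEquiv]
    exact hpV
  have hbrν : br R (incl k L ν) = ((Nat.card (V.map L.subtype) : ℕ) : k)⁻¹ • 1 := by
    rw [hν, incl_av]
    refine br_av hR hpVG ?_
    rintro _ ⟨x, hx, rfl⟩ hxc
    have h1 : x = 1 := by
      refine hLV.inf x hx (mem_Ce.mpr fun y hy => Subtype.ext ?_)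
      refine mem_Ce.mp hxc (y : G) ?_
      rw [hQdef] at hy
      exact hy
    rw [h1]; rfl
  have hFR : incl k L F ∈ Fix (cj k G) R := by
    rw [hF, map_mul, hj]
    exact Subalgebra.mul_mem _ hjR hνR
  have hec : ∀ x ∈ SubAlg k L, e * x = x * e := fun x hx =>
    (commute_of_mem hx he.mem.2).symm
  have hFL : incl k L F ∈ SubAlg k L := incl_mem L F
  have hFFG : incl k L F * incl k L F = incl k L F := by rw [← map_mul, hFF]
  have hbrF : br R (incl k L F) = ((Nat.card (V.map L.subtype) : ℕ) : k)⁻¹ • br R jG := by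
    rw [hF, map_mul, hj, br_mul hR hjR hνR, hbrν, mul_smul_comm, mul_one]
  -- `br_R(e) br_R(j) = br_R(j)`
  have hej : br R e * br R jG = br R jG := by
    have h1 : br R (incl k L f) * br R jG = br R jG := by rw [← br_mul hR hfR hjR, hfj]
    have heQ : e ∈ Fix (cj k G) (L ⊓ R) := Fix_mono _ inf_le_left he.mem.2
    have hbeR : br (L ⊓ R) e ∈ Fix (cj k G) R := by
      refine br_fix_of_le ?_ heR
      have key : ∀ r ∈ R, ∀ x ∈ L ⊓ R, r * x * r⁻¹ ∈ L ⊓ R := fun r hr x hx =>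
        ⟨hn r hr x hx.1, R.mul_mem (R.mul_mem hr hx.2) (R.inv_mem hr)⟩
      intro r hr
      rw [Subgroup.mem_normalizer_iff]
      intro x
      refine ⟨key r hr x, fun h => ?_⟩
      have := key r⁻¹ (R.inv_mem hr) _ h
      simpa [mul_assoc] using this
    have h2 : br R e * br R (incl k L f) = br R (incl k L f) := by
      have h3 := congrArg (br R) hbf
      rw [br_mul hR hbeR hfR, br_br inf_le_right] at h3
      exact h3
    calc br R e * br R jG = br R e * (br R (incl k L f) * br R jG) := by rw [h1]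
      _ = (br R e * br R (incl k L f)) * br R jG := (mul_assoc _ _ _).symm
      _ = _ := by rw [h2, h1]
  refine Src.cor_of_source (i := e * incl k L F) hR hn he heR hz2
    (Subalgebra.mul_mem _ he.mem.1 hFL) (Subalgebra.mul_mem _ heR hFR) ?_ ?_ ?_ ?_
  · calc e * incl k L F * (e * incl k L F) = e * (incl k L F * e) * incl k L F := by
          simp only [mul_assoc]
      _ = (e * e) * (incl k L F * incl k L F) := by
          rw [← hec _ hFL]; simp only [mul_assoc]
      _ = _ := by rw [he.idem.eq, hFFG]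
  · rw [← mul_assoc, he.idem.eq]
  · rw [br_mul hR heR hFR, hbrF, mul_smul_comm, hej]
    intro h0
    rcases smul_eq_zero.mp h0 with h | h
    · exact inv_ne_zero (card_ne (p := p) hpVG) h
    · exact hbrj h
  · have h1 : NN (SubAlg k L) (e * incl k L F) (e * incl k L F) ≤
        NN (SubAlg k L) (incl k L F) (incl k L F) := by
      rintro x ⟨hx1, hx2, hx3⟩
      refine ⟨hx1, ?_, ?_⟩
      · calc incl k L F * x = incl k L F * (e * incl k L F * x) := by rw [hx2]
          _ = (incl k L F * e) * incl k L F * x := by simp only [mul_assoc]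
          _ = e * (incl k L F * incl k L F) * x := by rw [← hec _ hFL]; simp only [mul_assoc]
          _ = x := by rw [hFFG, hx2]
      · calc x * incl k L F = (x * (e * incl k L F)) * incl k L F := by rw [hx3]
          _ = x * (e * (incl k L F * incl k L F)) := by simp only [mul_assoc]
          _ = x := by rw [hFFG, hx3]
    refine (Submodule.finrank_mono h1).trans ?_
    have h2 := finrank_NN_hom (k := k) (φ := L.subtype) L.subtype_injective F F
    rw [Subgroup.range_subtype] at h2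
    have h3 : Module.finrank k (NN (SubAlg k L) (incl k L F) (incl k L F)) =
      Module.finrank k (NN (⊤ : Subalgebra k (MonoidAlgebra k L)) F F) := h2
    rw [h3]
    exact hFdim

end Vale.Agent.P180.R2.H799.BS
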