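import Vale.Agent.P180.R2.H799.BY1
import Vale.Agent.P180.R2.H799.BS8
import Vale.Agent.P180.R2.H799.BNQ
import Vale.Agent.P180.R2.H954.CycCor
import Vale.Agent.P180.R2.H365.LocC

/-!
P180: the corner property of the groups with a split parabolic system, outer actions.
-/

set_option linter.all false

namespace Vale.Agent.P180.R2.H799.BY

open Vale.Agent.P180 Vale.Agent.P180.H768.Gd Vale.Agent.P180.R2.H365 Vale.Agent.P180.R2.H799
  Vale.Agent.P180.R2.H954 Vale.Agent.P180.R2.H799.BS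
open Vale.Agent.P180.R2.H799.BN (Ce Nm Mx mem_Ce mem_Nm exists_lift imageSys hasLevi_image
  pair_image centralizer_image)

universe u

/-- a subgroup with cyclic image in the outer automorphism group -/
theorem exists_gen {L : Type} [Group L] {Γ : Subgroup (MulAut L)} {c : MulAut L}
    (h : ∀ α ∈ Γ, ∃ (i : ℤ) (y : L), α = c ^ i * MulAut.conj y) :
    ∃ c₁ ∈ Γ, ∀ α ∈ Γ, ∃ (i : ℤ) (y : L), α = c₁ ^ i * MulAut.conj y := by
  let N : Subgroup (MulAut L) := (MulAut.conj : L →* MulAut L).range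
  have hN : N.Normal := by
    refine ⟨?_⟩
    rintro _ ⟨y, rfl⟩ α
    refine ⟨α y, ?_⟩
    ext x
    rw [MulAut.mul_apply, MulAut.mul_apply, MulAut.conj_apply, MulAut.conj_apply, map_mul,
      map_mul, map_inv, MulAut.apply_inv_self]
  let q : MulAut L →* MulAut L ⧸ N := QuotientGroup.mk' N
  have hle : Γ.map q ≤ Subgroup.zpowers (q c) := by
    rintro _ ⟨α, hα, rfl⟩
    obtain ⟨i, y, rfl⟩ := h α hα
    refine Subgroup.mem_zpowers_iff.mpr ⟨i, ?_⟩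
    rw [map_mul, map_zpow]
    have h1 : q (MulAut.conj y) = 1 := (QuotientGroup.eq_one_iff _).mpr ⟨y, rfl⟩
    rw [h1, mul_one]
  have hcyc : IsCyclic (Γ.map q) := Subgroup.isCyclic_of_le hle
  obtain ⟨⟨_, c₁, hc₁, rfl⟩, hg⟩ := hcyc.exists_generator
  refine ⟨c₁, hc₁, fun α hα => ?_⟩
  obtain ⟨i, hi⟩ := Subgroup.mem_zpowers_iff.mp (hg ⟨q α, α, hα, rfl⟩)
  have h1 : q c₁ ^ i = q α := congrArg Subtype.val hi
  rw [← map_zpow] at h1
  obtain ⟨y, hy⟩ := QuotientGroup.eq.mp h1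
  refine ⟨i, y, ?_⟩
  rw [hy, mul_inv_cancel_left]

theorem eq_of_center {p : ℕ} [Fact p.Prime] {S : Type*} [Group S] [Finite S]
    (hz : ¬ p ∣ Nat.card (Subgroup.center S)) {x y : S} (hx : ∃ i, x ^ p ^ i = 1)
    (hy : ∃ i, y ^ p ^ i = 1) (h : y⁻¹ * x ∈ Subgroup.center S) : x = y := by
  obtain ⟨i, hi⟩ := hx
  obtain ⟨j, hj⟩ := hy
  have hc : Commute y x := by
    have h2 : Commute y (y⁻¹ * x) := Subgroup.mem_center_iff.mp h y
    have h5 : x = y * (y⁻¹ * x) := by group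
    rw [h5]
    exact (Commute.refl y).mul_right h2
  have h1 : (y⁻¹ * x) ^ p ^ (i + j) = 1 := by
    rw [hc.inv_left.mul_pow, pow_add, inv_pow, mul_comm (p ^ i), pow_mul y, hj, one_pow, inv_one,
      one_mul, mul_comm, pow_mul, hi, one_pow]
  have h3 : (y⁻¹ * x) ^ Nat.card (Subgroup.center S) = 1 :=
    congrArg Subtype.val (pow_card_eq_one' (x := (⟨y⁻¹ * x, h⟩ : Subgroup.center S)))
  have h4 : y⁻¹ * x = 1 := by
    have h5 := Nat.dvd_gcd (orderOf_dvd_of_pow_eq_one h1) (orderOf_dvd_of_pow_eq_one h3)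
    have h6 : Nat.Coprime (p ^ (i + j)) (Nat.card (Subgroup.center S)) :=
      Nat.Coprime.pow_left _ ((Nat.Prime.coprime_iff_not_dvd Fact.out).mpr hz)
    rw [h6.gcd_eq_one, Nat.dvd_one, orderOf_eq_one_iff] at h5
    exact h5
  exact (inv_mul_eq_one.mp h4).symm

/-- **The corner property**, outer actions on groups with a split parabolic system. -/
theorem corP_parOut {k : Type u} [Field k] [IsAlgClosed k] {p n : ℕ} [Fact p.Prime] [CharP k p]
    {G : Type} [Group G] [Finite G] {D L : Subgroup G} (hD : IsPGroup p D)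
    (hDn : Nat.card D ≤ n)
    (h : ParOut p L ((D.subgroupOf (Subgroup.normalizer (L : Set G))).map L.normalizerMonoidHom))
    (b : MonoidAlgebra k G) :
    H365.CorP p (bO n) b D L := by
  obtain ⟨⟨c₀, hc₀⟩, S, _, _, 𝒮, π, hπ, hLv, hpz, hcop, hcen, hst⟩ := h
  rintro R hRD hn e he heR hbr hz1 hz2
  have hp : p.Prime := Fact.out
  have hR : IsPGroup p R := hD.to_le hRD
  have hRn : Nat.card R ≤ n := (Subgroup.card_le_of_le hRD).trans hDn
  -- the action of `R`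
  have hRN : ∀ r ∈ R, r ∈ Subgroup.normalizer (L : Set G) := by
    intro r hr
    rw [Subgroup.mem_normalizer_iff]
    intro s
    refine ⟨hn r hr s, fun hs => ?_⟩
    have h1 := hn r⁻¹ (R.inv_mem hr) _ hs
    have h2 : r⁻¹ * (r * s * r⁻¹) * r⁻¹⁻¹ = s := by group
    rwa [h2] at h1
  obtain ⟨Γ', hΓ'⟩ : ∃ Γ' : Subgroup (MulAut L), Γ' =
      (R.subgroupOf (Subgroup.normalizer (L : Set G))).map L.normalizerMonoidHom := ⟨_, rfl⟩
  have hΓle : Γ' ≤
      (D.subgroupOf (Subgroup.normalizer (L : Set G))).map L.normalizerMonoidHom := by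
    rw [hΓ']
    exact Subgroup.map_mono fun x hx => hRD hx
  have hmem : ∀ α, α ∈ Γ' ↔ ∃ r ∈ R, ∀ s : L, ((α s : L) : G) = r * s * r⁻¹ := by
    intro α
    rw [hΓ']
    constructor
    · rintro ⟨x, hx, rfl⟩
      exact ⟨x, hx, fun s => rfl⟩
    · rintro ⟨r, hr, h1⟩
      refine ⟨⟨r, hRN r hr⟩, hr, ?_⟩
      ext s
      rw [h1]
      rfl
  have hact : ∀ r ∈ R, ∃ α ∈ Γ', ∀ s : L, ((α s : L) : G) = r * s * r⁻¹ := by
    intro r hr
    refine ⟨L.normalizerMonoidHom ⟨r, hRN r hr⟩, ?_, fun s => rfl⟩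
    rw [hmem]
    exact ⟨r, hr, fun s => rfl⟩
  -- the elements which act as inner automorphisms
  obtain ⟨R₂, hR₂⟩ : ∃ R₂, R₂ = R ⊓ (L ⊔ Subgroup.centralizer (L : Set G)) := ⟨_, rfl⟩
  have hLR₂ : L ⊓ R₂ = L ⊓ R := by
    rw [hR₂]
    refine le_antisymm (inf_le_inf_left _ inf_le_left) (le_inf inf_le_left (le_inf inf_le_right ?_))
    exact inf_le_left.trans le_sup_left
  have hinn : ∀ r ∈ R₂, ∃ q ∈ L ⊓ R₂, ∀ s ∈ L, r * s * r⁻¹ = q * s * q⁻¹ := by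
    obtain ⟨c₁, hc₁, hec₁⟩ := exists_coeff_of_br hbr
    obtain ⟨z, hz, hzF, hez⟩ := hz1
    have hc₁L : c₁ ∈ L := he.block.mem.1 c₁ hec₁
    refine inner_of_coeff (k := k) (p := p) (hR.to_le (by rw [hR₂]; exact inf_le_left)) ?_ (z := z)
      (e := e) (by rw [hLR₂]; exact hzF) (by rw [hLR₂]; exact hez) hc₁L
      (fun r hr => hc₁ r (by rw [hR₂] at hr; exact hr.1)) hec₁
    intro r hr
    rw [hR₂] at hr
    obtain ⟨s, hs, c, hc, h⟩ := mem_sup_of_commute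
      (fun s hs c hc => Subgroup.mem_centralizer_iff.mp hc s hs) hr.2
    exact ⟨s, hs, c, hc, h.symm⟩
  have hinn' : ∀ r ∈ R, ∀ y : L, (∀ s : L, r * s * r⁻¹ = y * s * (y : G)⁻¹) →
      ∃ q ∈ L ⊓ R, ∀ s ∈ L, r * s * r⁻¹ = q * s * q⁻¹ := by
    intro r hr y hy
    have hr₂ : r ∈ R₂ := by
      rw [hR₂]
      refine ⟨hr, ?_⟩
      have h1 : r = y * ((y : G)⁻¹ * r) := by group
      rw [h1]
      refine Subgroup.mul_mem_sup y.2 (Subgroup.mem_centralizer_iff.mpr fun s hs => ?_)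
      have h2 := hy ⟨s, hs⟩
      have h3 : r * s = y * s * (y : G)⁻¹ * r := by
        have h4 : r * s * r⁻¹ * r = y * s * (y : G)⁻¹ * r := by
          rw [show r * s * r⁻¹ = y * s * (y : G)⁻¹ from h2]
        rwa [inv_mul_cancel_right] at h4
      calc s * ((y : G)⁻¹ * r) = (y : G)⁻¹ * (y * s * (y : G)⁻¹ * r) := by group
        _ = (y : G)⁻¹ * (r * s) := by rw [h3]
        _ = (y : G)⁻¹ * r * s := by group
    obtain ⟨q, hq, h⟩ := hinn r hr₂
    exact ⟨q, by rw [← hLR₂]; exact hq, h⟩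
  -- the lift of `R ∩ L`
  have hQp : IsPGroup p (R.subgroupOf L) := hR.comap_of_injective L.subtype L.subtype_injective
  obtain ⟨Q₀, hQ₀, hQR⟩ := exists_lift (p := p) π hπ hQp
  have hpel : ∀ x ∈ Q₀, ∃ i, x ^ p ^ i = 1 := by
    intro x hx
    obtain ⟨i, hi⟩ := hQ₀ ⟨x, hx⟩
    exact ⟨i, congrArg Subtype.val hi⟩
  have hlift : ∀ y ∈ R, ∀ hy : y ∈ L, ∃ y₀ ∈ Q₀, ((π y₀ : L) : G) = y := by
    intro y hy hyL
    have h1 : (⟨y, hyL⟩ : L) ∈ Q₀.map π := by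
      rw [hQR]
      exact hy
    obtain ⟨y₀, hy₀, h⟩ := h1
    exact ⟨y₀, hy₀, congrArg Subtype.val h⟩
  have hQR' : ∀ x ∈ Q₀, ((π x : L) : G) ∈ R := by
    intro x hx
    have h1 : π x ∈ R.subgroupOf L := by
      rw [← hQR]
      exact ⟨x, hx, rfl⟩
    exact h1
  have hQ₀mem : ∀ x, x ∈ Q₀ ↔ (∃ i, x ^ p ^ i = 1) ∧ MulAut.conj (π x) ∈ Γ' := by
    intro x
    constructor
    · intro hx
      refine ⟨hpel x hx, (hmem _).mpr ⟨_, hQR' x hx, fun s => rfl⟩⟩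
    · rintro ⟨hx, hxΓ⟩
      obtain ⟨r, hr, h1⟩ := (hmem _).mp hxΓ
      obtain ⟨q, hq, h2⟩ := hinn' r hr (π x) fun s => (h1 s).symm
      obtain ⟨q₀, hq₀, h3⟩ := hlift q hq.2 hq.1
      have h4 : q₀⁻¹ * x ∈ Subgroup.center S := by
        apply hcen
        rw [Subgroup.mem_center_iff]
        intro s
        apply Subtype.ext
        have h5 : ((π x : L) : G) * s * ((π x : L) : G)⁻¹ = q * s * q⁻¹ :=
          (h1 s).trans (h2 s s.2)
        have h6 : ((π x : L) : G) * s = q * s * q⁻¹ * ((π x : L) : G) := by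
          rw [← h5]; group
        rw [map_mul, map_inv]
        change (s : G) * (((π q₀ : L) : G)⁻¹ * ((π x : L) : G)) =
          ((π q₀ : L) : G)⁻¹ * ((π x : L) : G) * s
        rw [h3]
        calc (s : G) * (q⁻¹ * ((π x : L) : G)) = q⁻¹ * (q * s * q⁻¹ * ((π x : L) : G)) := by group
          _ = q⁻¹ * (((π x : L) : G) * s) := by rw [h6]
          _ = q⁻¹ * ((π x : L) : G) * s := by group
      rw [eq_of_center hpz hx (hpel q₀ hq₀) h4]
      exact hq₀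
  obtain ⟨hQ₀ab, hst'⟩ := hst Γ' hΓle Q₀ hQ₀mem
  have hQab : ∀ x ∈ R.subgroupOf L, ∀ y ∈ R.subgroupOf L, x * y = y * x := by
    rw [← hQR]
    rintro _ ⟨x, hx, rfl⟩ _ ⟨y, hy, rfl⟩
    rw [← map_mul, ← map_mul, hQ₀ab x hx y hy]
  -- the kernel
  have hk : π.ker ≤ Subgroup.center S := by
    intro x hx
    apply hcen
    rw [MonoidHom.mem_ker.mp hx]
    exact Subgroup.one_mem _
  have hkd : Nat.card π.ker ∣ Nat.card (Subgroup.center S) := Subgroup.card_dvd_of_le hk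
  have hkp : ¬ p ∣ Nat.card π.ker := fun h => hpz (h.trans hkd)
  have hc : ∀ V ∈ 𝒮.car, (Nat.card V).Coprime (Nat.card π.ker) := fun V hV =>
    Nat.Coprime.coprime_dvd_right hkd (hcop V hV)
  -- the maximality of `R ∩ L`
  obtain ⟨f, w', hf, hwL, hwF, hfw, hfR, hbf, hbrf⟩ := exists_stable hR hn hQab he.block heR hbr hz1
  have hMx : Mx p (R.subgroupOf L) := mx_of_tr hQp hQab hf.ne_zero hf.mem.1 hwF hfw
  have hCe : Ce (R.subgroupOf L) = (Subgroup.centralizer (Q₀ : Set S)).map π := by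
    rw [← hQR]
    exact centralizer_image π hπ hk hkp hQ₀
  obtain ⟨V, hV, M, hpair, hMQ0, hMQ1, hstab⟩ := hst' (by
    rintro x hx hxp hxc
    have h1 : π x ∈ R.subgroupOf L := by
      refine hMx.max _ ?_ ?_ ?_
      · rw [hCe]
        exact ⟨x, hx, rfl⟩
      · intro y hy
        rw [hCe] at hy
        obtain ⟨y, hy, rfl⟩ := hy
        rw [← map_mul, ← map_mul, hxc y hy]
      · obtain ⟨i, hi⟩ := hxp
        exact ⟨i, by rw [← map_pow, hi, map_one]⟩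
    obtain ⟨q, hq, h2⟩ := hlift _ h1 (π x).2
    have h3 : π q = π x := Subtype.ext h2
    have h4 : q⁻¹ * x ∈ Subgroup.center S := by
      apply hk
      rw [MonoidHom.mem_ker, map_mul, map_inv, h3, inv_mul_cancel]
    rw [eq_of_center hpz hxp (hpel q hq) h4]
    exact hq)
  have hMC : ∀ x ∈ M, x ∈ Subgroup.centralizer (Q₀ : Set S) := by
    intro x hx
    rw [← hMQ1]
    exact Subgroup.mem_sup_left hx
  have hmemM : ∀ x, x ∈ (M.map π).map L.subtype ↔ ∃ x₀ ∈ M, ((π x₀ : L) : G) = x := by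
    intro x
    constructor
    · rintro ⟨_, ⟨x₀, hx₀, rfl⟩, rfl⟩
      exact ⟨x₀, hx₀, rfl⟩
    · rintro ⟨x₀, hx₀, rfl⟩
      exact ⟨_, ⟨x₀, hx₀, rfl⟩, rfl⟩
  have hMQ : ∀ x ∈ (M.map π).map L.subtype, ∀ y ∈ R, y ∈ L → y * x = x * y := by
    intro x hx y hy hyL
    obtain ⟨x₀, hx₀, rfl⟩ := (hmemM x).mp hx
    obtain ⟨y₀, hy₀, rfl⟩ := hlift y hy hyL
    have h1 : y₀ * x₀ = x₀ * y₀ := Subgroup.mem_centralizer_iff.mp (hMC x₀ hx₀) y₀ hy₀
    have h3 := congrArg (fun t => ((π t : L) : G)) h1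
    simp only [map_mul] at h3
    exact h3
  have hML : (M.map π).map L.subtype ≤ L := by
    intro x hx
    obtain ⟨x₀, -, rfl⟩ := (hmemM x).mp hx
    exact (π x₀).2
  have hinf : ∀ x ∈ (M.map π).map L.subtype, x ∈ R → x = 1 := by
    intro x hx hxR
    obtain ⟨x₀, hx₀, rfl⟩ := (hmemM x).mp hx
    obtain ⟨q, hq, hqx⟩ := hlift _ hxR (π x₀).2
    have hqx' : π q = π x₀ := Subtype.ext hqx
    have hzk : q⁻¹ * x₀ ∈ Subgroup.center S := by
      apply hk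
      rw [MonoidHom.mem_ker, map_mul, map_inv, hqx', inv_mul_cancel]
    have hcm : Commute q⁻¹ x₀ :=
      Commute.inv_left (Subgroup.mem_centralizer_iff.mp (hMC x₀ hx₀) q hq)
    have h3 : (q⁻¹ * x₀) ^ Nat.card (Subgroup.center S) = 1 :=
      congrArg Subtype.val (pow_card_eq_one' (x := (⟨q⁻¹ * x₀, hzk⟩ : Subgroup.center S)))
    rw [hcm.mul_pow] at h3
    have h4 : x₀ ^ Nat.card (Subgroup.center S) = q ^ Nat.card (Subgroup.center S) := by
      rw [inv_pow] at h3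
      exact (inv_mul_eq_one.mp h3).symm
    have h5 : q ^ Nat.card (Subgroup.center S) = 1 := by
      have h6 : q ^ Nat.card (Subgroup.center S) ∈ M ⊓ Q₀ :=
        ⟨by rw [← h4]; exact M.pow_mem hx₀ _, Q₀.pow_mem hq _⟩
      rw [hMQ0] at h6
      exact h6
    have h6 : q = 1 := by
      obtain ⟨i, hi⟩ := hpel q hq
      have h7 := Nat.dvd_gcd (orderOf_dvd_of_pow_eq_one hi) (orderOf_dvd_of_pow_eq_one h5)
      have h8 : Nat.Coprime (p ^ i) (Nat.card (Subgroup.center S)) :=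
        Nat.Coprime.pow_left _ ((Nat.Prime.coprime_iff_not_dvd Fact.out).mpr hpz)
      rw [h8.gcd_eq_one, Nat.dvd_one, orderOf_eq_one_iff] at h7
      exact h7
    rw [← hqx', h6, map_one]
    rfl
  have hcov : ∀ x ∈ L, (∀ y ∈ R, y ∈ L → y * x = x * y) →
      ∃ m ∈ (M.map π).map L.subtype, ∃ q ∈ L ⊓ R, x = m * q := by
    intro x hx hxc
    have h3 : (⟨x, hx⟩ : L) ∈ Ce (R.subgroupOf L) :=
      mem_Ce.mpr fun y hy => Subtype.ext (hxc y hy y.2)
    rw [hCe] at h3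
    obtain ⟨x₀, hx₀, hx₀x⟩ := h3
    rw [← hMQ1] at hx₀
    obtain ⟨m, hm, q, hq, rfl⟩ := mem_sup_of_commute (fun m hm q hq =>
      (Subgroup.mem_centralizer_iff.mp (hMC m hm) q hq).symm) hx₀
    refine ⟨(π m : L), (hmemM _).mpr ⟨m, hm, rfl⟩, (π q : L), ⟨(π q).2, hQR' q hq⟩, ?_⟩
    rw [map_mul] at hx₀x
    exact (congrArg Subtype.val hx₀x).symm
  have hVR : ∀ r ∈ R, ∀ v ∈ (V.map π).map L.subtype, r * v * r⁻¹ ∈ (V.map π).map L.subtype := by
    rintro r hr _ ⟨v, hv, rfl⟩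
    obtain ⟨α, hα, h1⟩ := hact r hr
    exact ⟨α v, (hstab α hα).1 v hv, h1 v⟩
  have hMR : ∀ r ∈ R, ∀ m ∈ (M.map π).map L.subtype, r * m * r⁻¹ ∈ (M.map π).map L.subtype := by
    rintro r hr _ ⟨m, hm, rfl⟩
    obtain ⟨α, hα, h1⟩ := hact r hr
    exact ⟨α m, (hstab α hα).2 m hm, h1 m⟩
  -- the cyclic action
  obtain ⟨c₁, hc₁, hgen⟩ := exists_gen (Γ := Γ') (c := c₀) fun α hα => hc₀ α (hΓle hα)
  obtain ⟨c, hcR, hcc⟩ := (hmem c₁).mp hc₁
  have hcpow : ∀ (j : ℤ) (s : L), (((c₁ ^ j) s : L) : G) = c ^ j * s * (c ^ j)⁻¹ := by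
    intro j s
    have h1 : L.normalizerMonoidHom ⟨c, hRN c hcR⟩ = c₁ := by
      ext s
      rw [hcc]
      rfl
    rw [← h1, ← map_zpow]
    rfl
  have hcyc : ∀ r ∈ R, ∃ j : ℤ, ∀ m ∈ (M.map π).map L.subtype,
      r * m * r⁻¹ = c ^ j * m * (c ^ j)⁻¹ := by
    intro r hr
    obtain ⟨α, hα, h1⟩ := hact r hr
    obtain ⟨j, y, hy⟩ := hgen α hα
    refine ⟨j, fun m hm => ?_⟩
    have hr₁ : (c ^ j)⁻¹ * r ∈ R := R.mul_mem (R.inv_mem (R.zpow_mem hcR j)) hr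
    obtain ⟨q, hq, hrq⟩ := hinn' _ hr₁ y (by
      intro s
      have h2 : ((c₁ ^ j) (y * s * y⁻¹) : L) = α s := by rw [hy]; rfl
      have h3 := congrArg Subtype.val h2
      rw [hcpow, h1] at h3
      have h4 : ((y * s * y⁻¹ : L) : G) = y * s * (y : G)⁻¹ := rfl
      rw [h4] at h3
      calc (c ^ j)⁻¹ * r * s * ((c ^ j)⁻¹ * r)⁻¹ = (c ^ j)⁻¹ * (r * s * r⁻¹) * c ^ j := by group
        _ = (c ^ j)⁻¹ * (c ^ j * (y * s * (y : G)⁻¹) * (c ^ j)⁻¹) * c ^ j := by rw [h3]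
        _ = _ := by group)
    have hmL : m ∈ L := hML hm
    have h3 : (c ^ j)⁻¹ * r * m * ((c ^ j)⁻¹ * r)⁻¹ = m := by
      rw [hrq m hmL, hMQ m hm q hq.2 hq.1, mul_inv_cancel_right]
    calc r * m * r⁻¹ = c ^ j * ((c ^ j)⁻¹ * r * m * ((c ^ j)⁻¹ * r)⁻¹) * (c ^ j)⁻¹ := by group
      _ = _ := by rw [h3]
  have hpair' : IsLeviPair (V.map π) (R.subgroupOf L) := by
    rw [← hQR]
    exact pair_image π hπ hk hkp hQ₀ (hc V hV) hpair
  exact cor_outer hR hRn hn (imageSys π 𝒮 hπ hk hc) (hasLevi_image π hπ hk hkp hc hLv)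
    (V := V.map π) ⟨_, hV, rfl⟩ hpair' hQab hVR hML hMQ hinf hcov hMR hcR hcyc he.block heR hbr
    hz1 hz2

end Vale.Agent.P180.R2.H799.BY
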