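import Vale.Agent.P180.R2.H799.CD3

/-!
P180: the corner property of the perfect central extensions of orthogonal groups, if all
automorphisms of odd order are given by semilinear similitudes.
-/

set_option linter.all false

namespace Vale.Agent.P180.R2.H799.CD

open Module Subgroup Vale.Agent.P180 Vale.Agent.P180.H768.Gd Vale.Agent.P180.R2.H799
  Vale.Agent.P180.R2.H954 Vale.Agent.P180.R2.H854 Vale.Agent.P180.R2.H799.BS
  Vale.Agent.P180.R2.H854.TD Vale.Agent.P180.R2.H365 Vale.Agent.P180.R2.H47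
open Vale.Agent.P180.R2.H471.Au (mem_normalizer_of)
open Vale.Agent.P180.R2.H471.El (AbEl)

universe u

/-- **The corner property of perfect central extensions of orthogonal groups** with the
automorphisms of odd order given by semilinear similitudes: if `N_D(L)` acts trivially on `D ∩ L`
modulo the centre or `D ∩ L` has exponent `p` modulo the centre. -/
theorem corP_coverT {k : Type u} [Field k] [IsAlgClosed k] {p n : ℕ} [Fact p.Prime] [CharP k p]
    {G : Type} [Group G] [Finite G] {D L : Subgroup G} (hD : IsPGroup p D)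
    (hDn : Nat.card D ≤ n) (hL : commutator L = ⊤) {K : Type} [Field K] [Finite K] {d : ℕ}
    (hd4 : 4 ≤ d) (hd : d < p) (hpK : ¬ p ∣ Nat.card K) (hodd : Odd (Nat.card K))
    (hK9 : 9 < Nat.card K)
    (hlin : LinPr p (RingHom.id K))
    {B : (Fin d → K) → (Fin d → K) → K} {X : Subgroup (SpecialLinearGroup K (Fin d → K))}
    {π : X →* L ⧸ center L} (hB : FormOn B (RingHom.id K) 1) (hX : IsoOn B X)
    (hπ : Function.Surjective π)
    (hker : ∀ x : X, π x = 1 → (x : SpecialLinearGroup K (Fin d → K)) ∈ center _)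
    (hsim : ∀ (β : MulAut (L ⧸ center L)) (j : ℕ), β ^ p ^ j = 1 →
      ∃ (σ : K ≃+* K) (c : K) (g : (Fin d → K) → (Fin d → K)), Function.Bijective g ∧
        (∀ v w, g (v + w) = g v + g w) ∧ (∀ (a : K) v, g (a • v) = σ a • g v) ∧
        (∀ v w, B (g v) (g w) = c * σ (B v w)) ∧
        ∀ x : X, ∃ y : X, (∀ v, g ((x : SpecialLinearGroup K (Fin d → K)) v) =
          (y : SpecialLinearGroup K (Fin d → K)) (g v)) ∧ β (π x) = π y)
    (hc : AbEl p D L ∨ ∀ y ∈ D, y ∈ L → ∀ l ∈ L, y ^ p * l = l * y ^ p)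
    (b : MonoidAlgebra k G) : H365.CorP p (bCv p n) b D L := by
  have hp : p.Prime := Fact.out
  have hp2 : Odd p := hp.odd_of_ne_two (by omega)
  have hab : AbEl p D L := by
    rcases hc with hc | hc
    · exact hc
    · exact Or.inr ⟨comm_of_quot hD hpK hd hπ, hc⟩
  let Γ : Subgroup (MulAut L) :=
    (D.subgroupOf (Subgroup.normalizer (L : Set G))).map L.normalizerMonoidHom
  refine corP_coverSim (c := True) (Γ := Γ) hD hDn ⟨hL, Γ.map (qa L), fun α hα => ⟨qa L α, ⟨α, hα, rfl⟩,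
    fun x => rfl⟩, K, inferInstance, inferInstance, d, Or.inr ⟨hd4, Or.inr trivial⟩, hd, hpK, hodd, hK9, hlin, B, X,
    π, hB, hX, hπ, fun x hx => ?_, ?_⟩ (fun r hr hrN => ⟨⟨r, hrN⟩, hr, rfl⟩) hab b
  · rw [CC.center_quot hL, Subgroup.mem_bot] at hx
    exact hker x hx
  rintro _ ⟨_, ⟨r, hr, rfl⟩, rfl⟩
  obtain ⟨i, hi⟩ := hD ⟨(r : G), hr⟩
  have h0 : r ^ p ^ i = 1 := by
    apply Subtype.ext
    rw [Subgroup.coe_pow]
    exact congrArg Subtype.val hi
  obtain ⟨σ, c, g, h1, h2, h3, h4, h5⟩ := hsim (qa L (L.normalizerMonoidHom r)) i (by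
    rw [← map_pow, ← map_pow, h0, map_one, map_one])
  exact ⟨σ, c, g, h1, h2, h3, h4, h5⟩

/-- The cases of `CC.OSim`. -/
theorem coverSim_cases {c : Prop} {p : ℕ} {L : Type} [Group L] {Γ : Subgroup (MulAut L)}
    (h : CC.OSim c p L Γ) : (CC.OPair p L ∧ ∀ α ∈ Γ, qa L α = 1) ∨ c ∨
      (commutator L = ⊤ ∧ ∃ (K : Type) (_ : Field K) (_ : Finite K) (d : ℕ),
        4 ≤ d ∧ d < p ∧ ¬ p ∣ Nat.card K ∧ Odd (Nat.card K) ∧ 9 < Nat.card K ∧
        LinPr p (RingHom.id K) ∧ RootIn p (RingHom.id K) ∧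
        ∃ (B : (Fin d → K) → (Fin d → K) → K) (X : Subgroup (SpecialLinearGroup K (Fin d → K)))
          (π : X →* L ⧸ center L), FormOn B (RingHom.id K) 1 ∧ IsoOn B X ∧
          Function.Surjective π ∧
          (∀ x : X, π x = 1 → (x : SpecialLinearGroup K (Fin d → K)) ∈ center _) ∧
          ∀ α ∈ Γ, ∃ (σ : K ≃+* K) (c : K) (g : (Fin d → K) → (Fin d → K)),
            Function.Bijective g ∧ (∀ v w, g (v + w) = g v + g w) ∧
            (∀ (a : K) v, g (a • v) = σ a • g v) ∧ (∀ v w, B (g v) (g w) = c * σ (B v w)) ∧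
            ∀ x : X, ∃ y : X, (∀ v, g ((x : SpecialLinearGroup K (Fin d → K)) v) =
              (y : SpecialLinearGroup K (Fin d → K)) (g v)) ∧ qa L α (π x) = π y) := by
  obtain ⟨hL, Γ', hΓ', K, iK, fK, d, hd4, hd, hpK, hodd, hK9, hlin, B, X, π, hB, hX, hπ, hcenX,
    hact⟩ := h
  have key : ∀ α ∈ Γ, qa L α ∈ Γ' := by
    intro α hα
    obtain ⟨β, hβ, h1⟩ := hΓ' α hα
    have h2 : qa L α = β := by
      apply MulEquiv.ext
      intro y
      obtain ⟨y, rfl⟩ := QuotientGroup.mk'_surjective (center L) y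
      rw [qa_mk]
      exact (h1 y).symm
    rwa [h2]
  rcases hd4 with h0 | ⟨hd4, hr | hc⟩
  · left
    subst h0
    exact ⟨⟨hL, K, iK, fK, d, Or.inl rfl, hd, hpK, hodd, hK9, hlin, B, X, π, hB, hX, hπ, hcenX,
      hact⟩, fun α hα => Subgroup.mem_bot.mp (key α hα)⟩
  · exact Or.inr (Or.inr ⟨hL, K, iK, fK, d, hd4, hd, hpK, hodd, hK9, hlin, hr, B, X, π, hB, hX, hπ,
      fun x hx => hcenX x (by rw [hx]; exact one_mem _), fun α hα => hact _ (key α hα)⟩)
  · exact Or.inr (Or.inl hc)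

/-- The case of the trivial action on `L / Z(L)`. -/
theorem corP_coverOne {k : Type u} [Field k] [IsAlgClosed k] {p n : ℕ} [Fact p.Prime]
    [CharP k p] {G : Type} [Group G] [Finite G] {D L : Subgroup G} (hD : IsPGroup p D)
    (hDn : Nat.card D ≤ n) (h : CC.OPair p L)
    (h1 : ∀ r ∈ D, ∀ hr : r ∈ Subgroup.normalizer (L : Set G),
      qa L (L.normalizerMonoidHom ⟨r, hr⟩) = 1)
    (b : MonoidAlgebra k G) : H365.CorP p (bCv p n) b D L := by
  refine (CC.corP_cover hD hDn h ?_ b).mono (le_max_left _ _)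
  rintro r ⟨hrD, hrN⟩
  obtain ⟨s, hs, c, hc, h⟩ := sup_of_conj h.1 hrN (t := 1) (by rw [h1 r hrD hrN, map_one])
  rw [h]
  exact Subgroup.mul_mem _ (Subgroup.mem_sup_left hs) (Subgroup.mem_sup_right hc)

end Vale.Agent.P180.R2.H799.CD
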