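import Vale.Agent.P180.R2.H799.CF3
import Vale.Agent.P180.R2.H799.CG0
import Vale.Agent.P180.R2.H365.OcC
import Vale.Agent.P180.R2.H259.Oq.C5
import Vale.Agent.P180.R2.H589.Oe.Fin
import Vale.Agent.P180.R2.H589.O8.Ev4

/-!
P180: components with `L / Z(L)` isomorphic to `Ω(Q)`, `|K|` even, of dimension less than `p`.
-/

set_option linter.all false

namespace Vale.Agent.P180.R2.H799.CG

open Module Subgroup Vale.Agent.P180 Vale.Agent.P180.H768.Gd Vale.Agent.P180.R2.H799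
  Vale.Agent.P180.R2.H954 Vale.Agent.P180.R2.H854 Vale.Agent.P180.R2.H799.BS
  Vale.Agent.P180.R2.H854.TD Vale.Agent.P180.R2.H365 Vale.Agent.P180.R2.H47
open Vale.Agent.P180.R2.H259.Loc Vale.Agent.P180.R2.H259.Oq
open Vale.Agent.P180.R2.H471.El (AbEl)
open Vale.Agent.P180.R2.H259.Cyc (cycB)
open Vale.Agent.P180.R2.H799.CD (qa qa_mk)
open Vale.Agent.P180.R2.H799.CF (ActQ corP_coverQ)
open Vale.Agent.P180.R2.H799.CC (OPair OSim OSmall ESmall)

universe u

/-- `α` acts on the quotient `T` of `X` by a semisimilitude of `Q`. -/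
def SimQ {K E T : Type} [Field K] [AddCommGroup E] [Module K E] [Group T] (Q : E → K)
    {X : Subgroup (SpecialLinearGroup K E)} (π : X →* T) (α : MulAut T) : Prop :=
  ∃ (σ : K ≃+* K) (c : K) (g : E → E), Function.Bijective g ∧
    (∀ v w, g (v + w) = g v + g w) ∧ (∀ (a : K) v, g (a • v) = σ a • g v) ∧
    (∀ v, Q (g v) = c * σ (Q v)) ∧
    ∀ x : X, ∃ y : X, (∀ v, g (x.1 v) = y.1 (g v)) ∧ α (π x) = π y

section

variable {K E : Type} [Field K] [AddCommGroup E] [Module K E] {T : Type} [Group T] {Q : E → K}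
  {Φ : HForm K E} {X : Subgroup (SpecialLinearGroup K E)} {π : X →* T} {α : MulAut T}

theorem SimQ.act (h : SimQ Q π α) : ∃ σ g, ActQ Q π α σ g := by
  obtain ⟨σ, c, g, h1, h2, h3, h4, h5⟩ := h
  exact ⟨σ, g, ⟨h1, h2, h3⟩, ⟨c, h4⟩, h5⟩

theorem SimQ.sim (hQ : QF Φ Q) (h : SimQ Q π α) : ∃ σ g, Oc.SimAct Φ π α σ g := by
  obtain ⟨σ, g, h⟩ := h.act
  exact ⟨σ, g, h.actT hQ⟩

end

/-- the bound -/
noncomputable def bOm (p n : ℕ) : ℕ :=
  max (bO n) (max (max (H799.BN.bnB n) (BZ.bdL p (CB.lvM p) n)) (cycB p n))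

theorem exists_root {p : ℕ} [Fact p.Prime] {K : Type} [Field K] [Finite K]
    (hp1 : p ∣ Nat.card K - 1) : ∃ ζ : K, ζ ^ p = 1 ∧ ζ ≠ 1 := by
  rw [← Nat.card_units] at hp1
  obtain ⟨u, hu⟩ := exists_prime_orderOf_dvd_card' p hp1
  refine ⟨u, ?_, ?_⟩
  · rw [← Units.val_pow_eq_pow_val, ← hu, pow_orderOf_eq_one, Units.val_one]
  · intro h
    have h1 : u = 1 := Units.ext h
    rw [h1, orderOf_one] at hu
    exact (Fact.out : p.Prime).one_lt.ne hu

/-- **Covering groups of `Ω(Q)`, `|K|` even, of dimension less than `p`**: the corner property. -/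
theorem corP_om {k : Type u} [Field k] [IsAlgClosed k] {p n : ℕ} [Fact p.Prime] [CharP k p]
    {K E : Type} [Field K] [Finite K] [AddCommGroup E] [Module K E] [FiniteDimensional K E]
    {G : Type} [Group G] [Finite G] {D L : Subgroup G} (hD : IsPGroup p D)
    (hDn : Nat.card D ≤ n) {Φ : HForm K E} {Q : E → K} {X : Subgroup (SpecialLinearGroup K E)}
    (hθ : ∀ a, Φ.θ a = a) (hQ : QF Φ Q) (hX : OmX Q X) (hd : 6 ≤ finrank K E)
    (hlt : finrank K E < p) (hK : 4 < Nat.card K) (hpK : ¬ p ∣ Nat.card K)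
    (hlin : LinPr p (RingHom.id K)) (hL : commutator L = ⊤) {π : X →* L ⧸ center L}
    (hπ : Function.Surjective π)
    (hker : ∀ x : X, π x = 1 → (x : SpecialLinearGroup K E) ∈ center _)
    (hc : Gam D L ≤ (MulAut.conj : L →* MulAut L).range ∨
      ((∀ α ∈ Gam D L, SimQ Q π (qa L α)) ∧ (RootIn p (RingHom.id K) ∨ AbEl p D L)))
    (b : MonoidAlgebra k G) : H365.CorP p (bOm p n) b D L := by
  have hp : p.Prime := Fact.out
  have hp2 : Odd p := hp.odd_of_ne_two (by omega)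
  have hlin' : ∀ j : ℕ, (∀ c : K, Φ.θ c = c ^ (ringChar K ^ j)) → ¬ p ∣ ringChar K ^ j + 1 :=
    fun j hj => hlin j fun a => by rw [← hj a, hθ]; rfl
  have hcen := CC.center_quot hL
  have hkk : (QuotientGroup.mk' (center L)).ker ≤ center L := (QuotientGroup.ker_mk' _).le
  have hZ : ¬ p ∣ Nat.card (center L) := by
    by_cases hp1 : p ∣ Nat.card K - 1
    · obtain ⟨ζ, hζ, hζ1⟩ := exists_root hp1
      exact not_dvd_centerQ hQ hX hp2 hζ hζ1 hlt hL
        (QuotientGroup.mk'_surjective (center L)) hkk π hπ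
    · exact not_dvd_centerQ' hQ hX hpK hp1 hlin' hlt hL
        (QuotientGroup.mk'_surjective (center L)) hkk π hπ
  have hBB : ∀ R : Subgroup G, R ≤ D →
      R ⊓ Subgroup.normalizer (L : Set G) ≤ L ⊔ Subgroup.centralizer (L : Set G) →
      H365.CorP p (max (H799.BN.bnB n) (BZ.bdL p (CB.lvM p) n)) b R L := by
    intro R hRD hRL
    have hRn : Nat.card R ≤ n :=
      (Nat.card_le_card_of_injective _ (Subgroup.inclusion_injective hRD)).trans hDn
    rcases H471.Or.pair_omega hQ hX hK (by omega) hlt hpK hlin' hL π hπ hker (R.subgroupOf L) with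
      h | h
    · exact (H259.Par.corP_parq (hD.to_le hRD) hRn h hRL b).mono (le_max_left _ _)
    · exact (BZ.corP_lev (hD.to_le hRD) hRn h hRL b).mono (le_max_right _ _)
  rcases hc with hin | ⟨hsim, hζ | hab⟩
  · exact (hBB D le_rfl (Oc.sup_of_Gam hin)).mono ((le_max_left _ _).trans (le_max_right _ _))
  · obtain ⟨ζ, hζ, hζ1, -⟩ := hζ
    refine (BY.corP_parOut hD hDn (parOut_cover hQ hX hp2 hζ hζ1 (by omega) hlt hL hπ hcen hker
      (H667.O2.coprime_OmX hQ hK hX hL π hπ hker)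
      (Γ := Gam D L) (Γ₁ := (Gam D L).map (qa L)) ((Oc.isPGroup_Gam hD).map _)
      (fun α hα => ⟨qa L α, ⟨α, hα, rfl⟩, fun s => rfl⟩) ?_) b).mono (le_max_left _ _)
    rintro _ ⟨α, hα, rfl⟩
    exact (hsim α hα).sim hQ
  · exact (corP_coverQ hD hDn hQ hX hd hpK hlin' hL hπ hker hZ
      (fun r hr hrN => (hsim _ ⟨⟨r, hrN⟩, hr, rfl⟩).act) hab b
      fun R hRD hRL => hBB R hRD (inf_le_left.trans hRL)).mono (le_max_right _ _)

/-- **The case `|K|` even of `CoverSim`.** -/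
theorem corP_simE {k : Type u} [Field k] [IsAlgClosed k] {p n : ℕ} [Fact p.Prime] [CharP k p]
    {G : Type} [Group G] [Finite G] {D L : Subgroup G} (hD : IsPGroup p D)
    (hDn : Nat.card D ≤ n) {c : Prop} (hL : commutator L = ⊤)
    {Γ' : Subgroup (MulAut (L ⧸ Subgroup.center L))}
    (hΓ : ∀ α ∈ Gam D L, ∃ β ∈ Γ', ∀ x : L, β x = (α x : L))
    (h : ESmall c p (L ⧸ Subgroup.center L) Γ') (hc : c → AbEl p D L)
    (b : MonoidAlgebra k G) : H365.CorP p (bOm p n) b D L := by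
  have key : ∀ α ∈ Gam D L, qa L α ∈ Γ' := by
    intro α hα
    obtain ⟨β, hβ, h1⟩ := hΓ α hα
    have h2 : qa L α = β := by
      apply MulEquiv.ext
      intro y
      obtain ⟨y, rfl⟩ := QuotientGroup.mk'_surjective (center L) y
      rw [qa_mk]
      exact (h1 y).symm
    rwa [h2]
  obtain ⟨K, iK, fK, d, h1, h2, h3, h4, h5, h6, h7⟩ := h
  obtain ⟨Φ, Q, X, π, hθ, hQ, hX, hπ, hker, hact⟩ := sim_data hL h7
  refine corP_om hD hDn hθ hQ hX (by rw [Module.finrank_fin_fun]; exact h4)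
    (by rw [Module.finrank_fin_fun]; exact h2) (by omega) h3 h6 hL hπ hker ?_ b
  rcases h1 with rfl | h1
  · left
    intro α hα
    refine Oc.inner_of_quot hL ?_
    have h8 : H589.autQ α = 1 := by
      apply MulEquiv.ext
      intro y
      obtain ⟨y, rfl⟩ := QuotientGroup.mk'_surjective (center L) y
      have h9 : qa L α = 1 := Subgroup.mem_bot.mp (key α hα)
      exact DFunLike.congr_fun h9 (QuotientGroup.mk' (center L) y)
    rw [h8]
    exact one_mem _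
  · right
    refine ⟨fun α hα => ?_, h1.imp_right hc⟩
    obtain ⟨σ, c, g, g1, g2, g3, g4, g5⟩ := hact _ (key α hα)
    exact ⟨σ, c, g, g1, g2, g3, g4, g5⟩

/-- the facts on the automorphisms of the simple group `T` -/
def OutPackQ (p : ℕ) {K E T : Type} [Field K] [AddCommGroup E] [Module K E] [Group T] (Q : E → K)
    {X : Subgroup (SpecialLinearGroup K E)} (π : X →* T) : Prop :=
  (∀ (α : MulAut T) (i : ℕ), α ^ p ^ i = 1 → SimQ Q π α) ∧
  (¬ p ∣ Nat.card (K ≃+* K) → ∀ (α : MulAut T) (i : ℕ), α ^ p ^ i = 1 →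
    α ∈ (MulAut.conj : T →* MulAut T).range) ∧
  ∃ l, derivedSeries (MulAut T) l ≤ (MulAut.conj : T →* MulAut T).range

/-- **Covering groups of `Ω(Q)`, `|K|` even, of dimension less than `p`**: the corner property and
the outer automorphisms. -/
theorem cor_omega {k : Type u} [Field k] [IsAlgClosed k] {p n : ℕ} [Fact p.Prime] [CharP k p]
    {K : Type} [Field K] [Finite K] {d : ℕ}
    {G : Type} [Group G] [Finite G] {D L : Subgroup G} (hD : IsPGroup p D)
    (hDn : Nat.card D ≤ n) {Φ : HForm K (Fin d → K)} {Q : (Fin d → K) → K}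
    {X : Subgroup (SpecialLinearGroup K (Fin d → K))}
    (hθ : ∀ a, Φ.θ a = a) (hQ : QF Φ Q) (hX : OmX Q X) (hd : 6 ≤ d)
    (hlt : d < p) (hK : 4 < Nat.card K) (hpK : ¬ p ∣ Nat.card K)
    (hlin : LinPr p (RingHom.id K)) (hL : commutator L = ⊤) {π : X →* L ⧸ center L}
    (hπ : Function.Surjective π)
    (hker : ∀ x : X, π x = 1 → (x : SpecialLinearGroup K (Fin d → K)) ∈ center _)
    (hout : OutPackQ p Q π)
    (hc : (RootIn p (RingHom.id K) ∨ ¬ p ∣ Nat.card (K ≃+* K)) ∨ AbEl p D L ∨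
      ∀ y ∈ D, y ∈ L → ∀ l ∈ L, y ^ p * l = l * y ^ p) (b : MonoidAlgebra k G) :
    SolvOut L ∧ H365.CorP p (bOm p n) b D L := by
  have hp : p.Prime := Fact.out
  have hp2 : Odd p := hp.odd_of_ne_two (by omega)
  obtain ⟨l, hl⟩ := hout.2.2
  refine ⟨⟨l, H589.solvOut_of_quot hL hl⟩, ?_⟩
  refine corP_om hD hDn hθ hQ hX (by rw [Module.finrank_fin_fun]; exact hd)
    (by rw [Module.finrank_fin_fun]; exact hlt) hK hpK hlin hL hπ hker ?_ b
  have hsim : ∀ α ∈ Gam D L, SimQ Q π (qa L α) := fun α hα =>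
    (Oc.pow_of_pgroup ((Oc.isPGroup_Gam hD).map (qa L)) ⟨α, hα, rfl⟩).elim fun i hi =>
      hout.1 _ i hi
  rcases hc with (hζ | hno) | hc | he
  · exact Or.inr ⟨hsim, Or.inl hζ⟩
  · left
    intro α hα
    refine Oc.inner_of_quot hL ?_
    obtain ⟨i, hi⟩ := Oc.pow_of_pgroup ((Oc.isPGroup_Gam hD).map H589.autQ) ⟨α, hα, rfl⟩
    exact hout.2.1 hno _ i hi
  · exact Or.inr ⟨hsim, Or.inr hc⟩
  · exact Or.inr ⟨hsim, Or.inr (Or.inr ⟨CD.comm_of_quot hD hpK hlt hπ, he⟩)⟩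

/-- the facts on the automorphisms of `Ω(Q)` -/
theorem out_packQ {p : ℕ} [Fact p.Prime] (hp2 : Odd p) {K E : Type} [Field K] [Finite K] [AddCommGroup E] [Module K E]
    [FiniteDimensional K E] {T : Type} [Group T] (h2 : 2 ∣ Nat.card K) (hK : 3 < Nat.card K)
    (hd : 7 ≤ finrank K E) (hd8 : p = 3 → finrank K E ≠ 8) {Φ : HForm K E} {Q : E → K}
    {X : Subgroup (SpecialLinearGroup K E)} (hQ : QF Φ Q) (hX : OmX Q X) {π : X →* T}
    (hπ : Function.Surjective π)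
    (hker : ∀ x : X, π x = 1 → (x : SpecialLinearGroup K E) ∈ center _) : OutPackQ p Q π := by
  have hev : Even (Nat.card K) := even_iff_two_dvd.mpr h2
  have h2X : ∀ g h : SpecialLinearGroup K E, g ∉ X → h ∉ X → (∀ x, Q (g x) = Q x) →
      (∀ x, Q (h x) = Q x) → g * h ∈ X := by
    intro g h hg hh hgQ hhQ
    have h1 : X.relIndex (IsoQ Q) ∣ 2 := H471.Or.relIndex_dvd hQ hX
    rcases (Nat.dvd_prime Nat.prime_two).mp h1 with h3 | h3
    · exact absurd (Subgroup.relIndex_eq_one.mp h3 hgQ) hg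
    · obtain ⟨a, ha, hab⟩ := Subgroup.relIndex_eq_two_iff.mp h3
      rcases hab g hgQ with ⟨h4, -⟩ | ⟨h4, -⟩
      · rcases hab h⁻¹ ((IsoQ Q).inv_mem hhQ) with ⟨h5, -⟩ | ⟨h5, -⟩
        · have h6 := X.mul_mem h4 (X.inv_mem h5)
          have h7 : g * a * (h⁻¹ * a)⁻¹ = g * h := by group
          rwa [h7] at h6
        · exact absurd (by simpa using X.inv_mem h5) hh
      · exact absurd h4 hg
  refine ⟨fun α i hi => ?_, fun hno α i hi => ?_, 4, ?_⟩
  · by_cases h3 : p = 3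
    · obtain ⟨σ, c, g, -, h1, h3, h4, h5, -, h6⟩ := H589.Oe.sim_of_aut hev hK hd (hd8 h3)
        Φ.add_left Φ.smul_left Φ.nondeg hQ.add hQ.smul (fun g => hX g) hπ hker α
      exact ⟨σ, c, g, h1, h3, h4, h5, h6⟩
    · obtain ⟨σ, c, g, -, h1, h3, h4, h5, -, h6⟩ := H589.E8.sim_of_aut hev hK hd Φ.add_left
        Φ.smul_left Φ.nondeg hQ.add hQ.smul (fun g => hX g) hπ hker (Oc.coprime_six hp2 h3 i) hi
      exact ⟨σ, c, g, h1, h3, h4, h5, h6⟩
  · have hc : (p ^ i).Coprime (Nat.card (K ≃+* K)) :=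
      Nat.Coprime.pow_left _ ((Nat.Prime.coprime_iff_not_dvd Fact.out).mpr hno)
    by_cases h3 : p = 3
    · exact H589.Oe.inner_of_coprime_T hev hK hd (hd8 h3) Φ.add_left
        Φ.smul_left Φ.nondeg hQ.add hQ.smul (fun g => hX g) h2X hπ hker hp2.pow hc hi
    · exact H589.E8.inner_of_coprime_T hev hK hd Φ.add_left
        Φ.smul_left Φ.nondeg hQ.add hQ.smul (fun g => hX g) h2X hπ hker
        (Oc.coprime_six hp2 h3 i) hc hi
  · exact H589.E8.derived_le_conj_T hev hK hd Φ.add_left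
      Φ.smul_left Φ.nondeg hQ.add hQ.smul (fun g => hX g) h2X hπ hker

end Vale.Agent.P180.R2.H799.CG
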