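import Vale.Agent.P180.R2.H365.OcD
import Vale.Agent.P180.R2.H799.CG1
import Vale.Agent.P180.R2.H589.Mz.Cen

/-!
P180: the centres of the perfect central extensions of the orthogonal groups have no elements of
order `p` if `p` is a linear prime.
-/

set_option linter.all false

namespace Vale.Agent.P180.R2.H799.CH

open Module Subgroup Vale.Agent.P180 Vale.Agent.P180.R2.H799 Vale.Agent.P180.R2.H854
  Vale.Agent.P180.R2.H365
open Vale.Agent.P180.R2.H259.Loc Vale.Agent.P180.R2.H259.Oq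

theorem ne_char {p r : ℕ} [Fact p.Prime] {K : Type} [Field K] [Finite K] [CharP K r]
    (hpK : ¬ p ∣ Nat.card K) : p ≠ r := by
  rintro rfl
  haveI : Fintype K := Fintype.ofFinite K
  apply hpK
  rw [← CharP.cast_eq_zero_iff K p, Nat.card_eq_fintype_card]
  exact Nat.cast_card_eq_zero K

theorem lin_char {p r : ℕ} {K : Type} [Field K] [CharP K r] (hlin : LinPr p (RingHom.id K)) :
    ∀ j, (∀ c : K, c = c ^ (r ^ j)) → ¬ p ∣ r ^ j + 1 := by
  obtain rfl : ringChar K = r := ringChar.eq K r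
  exact fun j hj => hlin j hj

theorem not_dvd_odd {p : ℕ} [Fact p.Prime] {K : Type} [Field K] [Finite K] {d : ℕ}
    (hodd : Odd (Nat.card K)) (hK : 9 < Nat.card K) (h7 : 7 ≤ d) (hpK : ¬ p ∣ Nat.card K)
    (hlin : LinPr p (RingHom.id K)) {L : Type} [Group L] [Finite L] (hL : commutator L = ⊤)
    {B : (Fin d → K) → (Fin d → K) → K}
    {X : Subgroup (SpecialLinearGroup K (Fin d → K))} {π : X →* L ⧸ center L}
    (hB : FormOn B (RingHom.id K) 1) (hX : IsoOn B X) (hπ : Function.Surjective π)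
    (hker : ∀ x : X, π x = 1 → (x : SpecialLinearGroup K (Fin d → K)) ∈ center _) :
    ¬ p ∣ Nat.card (center L) := by
  obtain ⟨f1, f2, -, -, f3', f4⟩ := hB
  obtain ⟨f5, f6, -⟩ := hX
  have f3 : ∀ x y, B y x = B x y := fun x y =>
    (f3' x y).trans (by rw [RingHom.id_apply, one_mul])
  have hfd : finrank K (Fin d → K) = d := by rw [Module.finrank_fin_fun]
  obtain ⟨r, hr, hcr, X', e, c, h, hev, -⟩ := H589.O8.exists_model' hodd (by omega)
    (by rw [hfd]; exact h7) f1 f2 f3 f4 f5 f6 hπ hker (Oc.perfect_quot hL) (CC.center_quot hL)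
  have h1 := H589.Mz.not_dvd_ker (H589.O8.sg_of_ctx c) (fun x hx => f4 x hx) hK
    (Fact.out : p.Prime) (ne_char (r := r) hpK) (lin_char hlin) h.surj
    (fun x hx => (h.ker x).mp hx) hL (QuotientGroup.mk' (center L))
    (QuotientGroup.mk'_surjective _) (QuotientGroup.ker_mk' _).le
  rwa [QuotientGroup.ker_mk'] at h1

theorem not_dvd_even {p : ℕ} [Fact p.Prime] {K E : Type} [Field K] [Finite K]
    [AddCommGroup E] [Module K E] [FiniteDimensional K E] (h2 : 2 ∣ Nat.card K)
    (hK : 9 < Nat.card K) (h7 : 7 ≤ finrank K E) (hpK : ¬ p ∣ Nat.card K)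
    (hlin : LinPr p (RingHom.id K)) {L : Type} [Group L] [Finite L] (hL : commutator L = ⊤)
    {Φ : HForm K E} {Q : E → K} {X : Subgroup (SpecialLinearGroup K E)} {π : X →* L ⧸ center L}
    (hQ : QF Φ Q) (hX : OmX Q X) (hπ : Function.Surjective π)
    (hker : ∀ x : X, π x = 1 → (x : SpecialLinearGroup K E) ∈ center _) :
    ¬ p ∣ Nat.card (center L) := by
  obtain ⟨hcr, X', e, c, hi', hev, -⟩ := H589.E8.exists_model' (even_iff_two_dvd.mpr h2)
    (by omega) h7 Φ.add_left Φ.smul_left Φ.nondeg hQ.add hQ.smul (fun g => hX g) hπ hker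
  haveI : Fact (Nat.Prime 2) := ⟨Nat.prime_two⟩
  have h1 := H589.Mz.not_dvd_ker (r := 2) (π := π.comp e.symm.toMonoidHom)
    (H589.E8.sg_of_ctx c) (fun x hx => Φ.nondeg x hx) hK
    (Fact.out : p.Prime) (ne_char (r := 2) hpK) (lin_char hlin) (hπ.comp e.symm.surjective)
    (fun x hx => ⟨1, fun v => ?_⟩) hL (QuotientGroup.mk' (center L))
    (QuotientGroup.mk'_surjective _) (QuotientGroup.ker_mk' _).le
  · rwa [QuotientGroup.ker_mk'] at h1
  · have h3 : x = 1 := hi' (hx.trans (map_one _).symm)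
    rw [h3, one_smul]
    rfl

end Vale.Agent.P180.R2.H799.CH
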