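import Vale.Agent.P180.R2.H799.BY2

/-!
P180: the groups with a split parabolic system and an outer action, central quotients.
-/

set_option linter.all false

namespace Vale.Agent.P180.R2.H799.BY

open Vale.Agent.P180 Vale.Agent.P180.R2.H799

section

variable {S S' : Type} [Group S] [Group S'] {f : S →* S'}

theorem center_of_map (hker : ∀ x, f x = 1 → ∀ y, x * y = y * x) (hS : commutator S = ⊤)
    {x : S} (hx : f x ∈ Subgroup.center S') : x ∈ Subgroup.center S := by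
  have hk : ∀ l : S, f (x * l * x⁻¹ * l⁻¹) = 1 := by
    intro l
    rw [map_mul, map_mul, map_mul, map_inv, map_inv,
      ← Subgroup.mem_center_iff.mp hx (f l), mul_inv_cancel_right, mul_inv_cancel]
  let c : S →* S := MonoidHom.mk' (fun l => x * l * x⁻¹ * l⁻¹) (by
    intro l l'
    have h1 := hker _ (hk l') l
    calc x * (l * l') * x⁻¹ * (l * l')⁻¹
        = x * l * x⁻¹ * ((x * l' * x⁻¹ * l'⁻¹) * l⁻¹) := by group
      _ = x * l * x⁻¹ * (l⁻¹ * (x * l' * x⁻¹ * l'⁻¹)) := by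
          rw [hker _ (hk l') l⁻¹]
      _ = _ := by group)
  have hc : ∀ l, c l = x * l * x⁻¹ * l⁻¹ := fun l => rfl
  have h2 : commutator S ≤ c.ker := by
    rw [commutator_def, Subgroup.commutator_le]
    intro a _ b _
    rw [MonoidHom.mem_ker, commutatorElement_def, map_mul, map_mul, map_mul, map_inv, map_inv]
    have h3 : c a * c b = c b * c a := hker _ (hk a) _
    rw [h3, mul_inv_cancel_right, mul_inv_cancel]
  rw [Subgroup.mem_center_iff]
  intro l
  have h3 : c l = 1 := MonoidHom.mem_ker.mp (h2 (by rw [hS]; exact Subgroup.mem_top l))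
  rw [hc] at h3
  calc l * x = (x * l * x⁻¹ * l⁻¹)⁻¹ * (x * l) := by group
    _ = x * l := by rw [h3, inv_one, one_mul]

/-- automorphisms of a perfect group which agree modulo central elements are equal -/
theorem aut_eq (hker : ∀ x, f x = 1 → ∀ y, x * y = y * x) (hS : commutator S = ⊤)
    {α β : MulAut S} (h : ∀ s, f (α s) = f (β s)) : α = β := by
  have hk : ∀ l : S, f ((β l)⁻¹ * α l) = 1 := by
    intro l
    rw [map_mul, map_inv, h, inv_mul_cancel]
  let c : S →* S := MonoidHom.mk' (fun l => (β l)⁻¹ * α l) (by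
    intro l l'
    have h1 := hker _ (hk l) (β l')⁻¹
    calc (β (l * l'))⁻¹ * α (l * l') = (β l')⁻¹ * ((β l)⁻¹ * α l) * α l' := by
          rw [map_mul, map_mul]; group
      _ = (β l)⁻¹ * α l * (β l')⁻¹ * α l' := by rw [h1]
      _ = _ := by group)
  have hc : ∀ l, c l = (β l)⁻¹ * α l := fun l => rfl
  have h2 : commutator S ≤ c.ker := by
    rw [commutator_def, Subgroup.commutator_le]
    intro a _ b _
    rw [MonoidHom.mem_ker, commutatorElement_def, map_mul, map_mul, map_mul, map_inv, map_inv]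
    have h3 : c a * c b = c b * c a := hker _ (hk a) _
    rw [h3, mul_inv_cancel_right, mul_inv_cancel]
  ext l
  have h3 : c l = 1 := MonoidHom.mem_ker.mp (h2 (by rw [hS]; exact Subgroup.mem_top l))
  rw [hc] at h3
  exact (inv_mul_eq_one.mp h3).symm

/-- **Closure** of the class under central quotients of perfect groups. -/
theorem parOut_map {p : ℕ} (hf : Function.Surjective f)
    (hker : ∀ x, f x = 1 → ∀ y, x * y = y * x) (hS : commutator S = ⊤)
    {Γ : Subgroup (MulAut S)} {Γ' : Subgroup (MulAut S')}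
    (hΓ : ∀ α' ∈ Γ', ∃ α ∈ Γ, ∀ s, f (α s) = α' (f s)) (h : ParOut p S Γ) : ParOut p S' Γ' := by
  obtain ⟨⟨c₀, hc₀⟩, X, _, _, 𝒮, π, hπ, hLv, hpz, hcop, hcen, hst⟩ := h
  -- the lift of a subgroup
  have hlift : ∀ Γ₁ : Subgroup (MulAut S'), Γ₁ ≤ Γ' → ∃ Δ ≤ Γ,
      (∀ α, α ∈ Δ ↔ ∃ α' ∈ Γ₁, ∀ s, f (α s) = α' (f s)) := by
    intro Γ₁ hΓ₁
    refine ⟨{ carrier := {α | ∃ α' ∈ Γ₁, ∀ s, f (α s) = α' (f s)}, mul_mem' := ?_,
              one_mem' := ?_, inv_mem' := ?_ }, ?_, fun α => Iff.rfl⟩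
    · rintro α β ⟨α', hα', h1⟩ ⟨β', hβ', h2⟩
      refine ⟨α' * β', Γ₁.mul_mem hα' hβ', fun s => ?_⟩
      rw [MulAut.mul_apply, MulAut.mul_apply, h1, h2]
    · exact ⟨1, Γ₁.one_mem, fun s => rfl⟩
    · rintro α ⟨α', hα', h1⟩
      refine ⟨α'⁻¹, Γ₁.inv_mem hα', fun s => ?_⟩
      have h2 := h1 (α⁻¹ s)
      rw [MulAut.apply_inv_self] at h2
      rw [h2, MulAut.inv_apply_self]
    · rintro α ⟨α', hα', h1⟩
      obtain ⟨β, hβ, h2⟩ := hΓ α' (hΓ₁ hα')
      have e : α = β := aut_eq hker hS fun s => by rw [h1, h2]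
      rw [e]
      exact hβ
  refine ⟨?_, X, inferInstance, inferInstance, 𝒮, f.comp π, hf.comp hπ, hLv, hpz, hcop, ?_, ?_⟩
  · obtain ⟨Δ, hΔ, hmem⟩ := hlift Γ' le_rfl
    obtain ⟨c₁, hc₁, hgen⟩ := exists_gen (Γ := Δ) (c := c₀) fun α hα => hc₀ α (hΔ hα)
    obtain ⟨c', hc', h1⟩ := (hmem c₁).mp hc₁
    have hpow : ∀ (n : ℕ) (s : S), f ((c₁ ^ n) s) = (c' ^ n) (f s) := by
      intro n
      induction n with
      | zero => intro s; rfl
      | succ n ih =>
        intro s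
        rw [pow_succ, pow_succ, MulAut.mul_apply, MulAut.mul_apply, ih, h1]
    have hzpow : ∀ (n : ℤ) (s : S), f ((c₁ ^ n) s) = (c' ^ n) (f s) := by
      intro n s
      obtain ⟨j, rfl | rfl⟩ := n.eq_nat_or_neg
      · rw [zpow_natCast, zpow_natCast, hpow]
      · rw [zpow_neg, zpow_neg, zpow_natCast, zpow_natCast]
        have h2 := hpow j ((c₁ ^ j)⁻¹ s)
        rw [MulAut.apply_inv_self] at h2
        rw [h2, MulAut.inv_apply_self]
    refine ⟨c', fun α' hα' => ?_⟩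
    obtain ⟨α, hα, h2⟩ := hΓ α' hα'
    obtain ⟨i, y, rfl⟩ := hgen α ((hmem α).mpr ⟨α', hα', h2⟩)
    refine ⟨i, f y, ?_⟩
    ext s'
    obtain ⟨s, rfl⟩ := hf s'
    have h4 : f (y * s * y⁻¹) = f y * f s * (f y)⁻¹ := by rw [map_mul, map_mul, map_inv]
    rw [← h2, MulAut.mul_apply, MulAut.mul_apply, hzpow, MulAut.conj_apply, MulAut.conj_apply, h4]
  · exact fun x hx => hcen x (center_of_map hker hS hx)
  · intro Γ₁ hΓ₁ Q hQ
    obtain ⟨Δ, hΔ, hmem⟩ := hlift Γ₁ hΓ₁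
    have hQ' : ∀ x, x ∈ Q ↔ (∃ i, x ^ p ^ i = 1) ∧ MulAut.conj (π x) ∈ Δ := by
      intro x
      rw [hQ]
      refine and_congr Iff.rfl ?_
      rw [hmem]
      constructor
      · intro h1
        refine ⟨_, h1, fun s => ?_⟩
        rw [MulAut.conj_apply, MulAut.conj_apply, map_mul, map_mul, map_inv]
        rfl
      · rintro ⟨α', hα', h1⟩
        have e : MulAut.conj ((f.comp π) x) = α' := by
          ext s'
          obtain ⟨s, rfl⟩ := hf s'
          rw [← h1, MulAut.conj_apply, MulAut.conj_apply, map_mul, map_mul, map_inv]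
          rfl
        rw [e]
        exact hα'
    obtain ⟨hab, h1⟩ := hst Δ hΔ Q hQ'
    refine ⟨hab, fun h2 => ?_⟩
    obtain ⟨V, hV, M, hpair, hM0, hM1, hstab⟩ := h1 h2
    refine ⟨V, hV, M, hpair, hM0, hM1, fun α' hα' => ?_⟩
    obtain ⟨α, hα, h3⟩ := hΓ α' (hΓ₁ hα')
    have h4 := hstab α ((hmem α).mpr ⟨α', hα', h3⟩)
    constructor
    · rintro _ ⟨v, hv, rfl⟩
      obtain ⟨w, hw, hwv⟩ := h4.1 (π v) ⟨v, hv, rfl⟩
      exact ⟨w, hw, by rw [MonoidHom.comp_apply, MonoidHom.comp_apply, hwv, h3]⟩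
    · rintro _ ⟨v, hv, rfl⟩
      obtain ⟨w, hw, hwv⟩ := h4.2 (π v) ⟨v, hv, rfl⟩
      exact ⟨w, hw, by rw [MonoidHom.comp_apply, MonoidHom.comp_apply, hwv, h3]⟩

end

end Vale.Agent.P180.R2.H799.BY
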