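import Mathlib

/-! Case (B) of the Schur multiplier argument for unitary groups in dimension
three: an `l`-subgroup of `GL(3, q)` whose non-trivial elements have no
eigenvector is cyclic. -/

namespace H799.BX

open Module

theorem no_inv {K V : Type} [Field K] [AddCommGroup V] [Module K V]
    (hd : finrank K V = 3) {f : V →ₗ[K] V}
    (hf : ∀ v : V, v ≠ 0 → ∀ c : K, f v ≠ c • v)
    {W : Submodule K V} (hW : ∀ w ∈ W, f w ∈ W) : W = ⊥ ∨ W = ⊤ := by
  have : Module.Finite K V := Module.finite_of_finrank_pos (by omega)
  by_contra hcon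
  rw [not_or] at hcon
  obtain ⟨hb, ht⟩ := hcon
  have h1 : 0 < finrank K W := by
    rw [Nat.pos_iff_ne_zero]
    intro h0
    exact hb (Submodule.finrank_eq_zero.mp h0)
  have h2 : finrank K W < 3 := by
    rw [← hd]
    exact Submodule.finrank_lt (lt_top_iff_ne_top.mpr ht).ne
  obtain h3 | h3 : finrank K W = 1 ∨ finrank K W = 2 := by omega
  · obtain ⟨w, hw0, hw⟩ := finrank_eq_one_iff'.mp h3
    obtain ⟨c, hc⟩ := hw ⟨f w, hW w w.2⟩
    refine hf w (fun h => hw0 (Subtype.ext h)) c ?_
    exact (congrArg Subtype.val hc).symm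
  · have hq : finrank K (V ⧸ W) = 1 := by
      have := W.finrank_quotient_add_finrank
      omega
    let g : (V ⧸ W) →ₗ[K] (V ⧸ W) := W.mapQ W f (fun w hw => hW w hw)
    obtain ⟨u, hu0, hu⟩ := finrank_eq_one_iff'.mp hq
    obtain ⟨c, hc⟩ := hu (g u)
    have hall : ∀ y : V ⧸ W, g y = c • y := by
      intro y
      obtain ⟨b, rfl⟩ := hu y
      rw [map_smul, ← hc, smul_comm]
    have hr : ∀ v : V, (f - c • (LinearMap.id : V →ₗ[K] V)) v ∈ W := by
      intro v
      rw [← Submodule.Quotient.mk_eq_zero]
      have := hall (Submodule.Quotient.mk v)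
      simp only [g, Submodule.mapQ_apply] at this
      rw [LinearMap.sub_apply, Submodule.Quotient.mk_sub, this]
      simp
    have hns : ¬ Function.Surjective (f - c • (LinearMap.id : V →ₗ[K] V)) := by
      intro hs
      apply ht
      rw [eq_top_iff]
      intro y _
      obtain ⟨v, rfl⟩ := hs y
      exact hr v
    have hni : ¬ Function.Injective (f - c • (LinearMap.id : V →ₗ[K] V)) := by
      intro hi
      exact hns (LinearMap.injective_iff_surjective.mp hi)
    rw [← LinearMap.ker_eq_bot] at hni
    obtain ⟨v, hv, hv0⟩ := (Submodule.ne_bot_iff _).mp hni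
    refine hf v hv0 c ?_
    rw [LinearMap.mem_ker, LinearMap.sub_apply, sub_eq_zero] at hv
    simpa using hv

theorem isCyclic_of_noeig {K V : Type} [Field K] [Finite K] [AddCommGroup V]
    [Module K V] (hd : finrank K V = 3) {l : ℕ} [Fact l.Prime]
    {S : Subgroup (V ≃ₗ[K] V)} (hS : IsPGroup l S)
    (hno : ∀ x ∈ S, x ≠ 1 → ∀ v : V, v ≠ 0 → ∀ c : K, x v ≠ c • v) :
    IsCyclic S := by
  have : Module.Finite K V := Module.finite_of_finrank_pos (by omega)
  have : Finite V := Module.finite_of_finite K
  have : Finite (V ≃ₗ[K] V) := DFunLike.finite _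
  have : Finite (Module.End K V) := DFunLike.finite _
  have : Finite S := inferInstance
  rcases subsingleton_or_nontrivial S with hss | hnt
  · exact isCyclic_of_subsingleton
  have := hnt
  have := hS.center_nontrivial
  obtain ⟨z, hz⟩ := exists_ne (1 : Subgroup.center S)
  let x : V ≃ₗ[K] V := ((z : S) : V ≃ₗ[K] V)
  have hx1 : x ≠ 1 := by
    intro h
    apply hz
    apply Subtype.ext
    apply Subtype.ext
    exact h
  let f : V →ₗ[K] V := x.toLinearMap
  have hf : ∀ v : V, v ≠ 0 → ∀ c : K, f v ≠ c • v := by
    intro v hv c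
    exact hno x z.1.2 hx1 v hv c
  let C : Subring (Module.End K V) := Subring.centralizer {f}
  have hC : ∀ c : Module.End K V, c ∈ C ↔ f * c = c * f := by
    intro c
    rw [Subring.mem_centralizer_iff]
    constructor
    · intro h
      exact h f rfl
    · intro h g hg
      rw [Set.mem_singleton_iff.mp hg]
      exact h
  have : Finite C := inferInstance
  have : Nontrivial V := Module.nontrivial_of_finrank_pos (R := K) (by omega)
  have : Nontrivial C := by
    refine ⟨⟨0, 1, ?_⟩⟩
    intro h
    have h' : (0 : Module.End K V) = 1 := congrArg Subtype.val h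
    exact zero_ne_one h'
  have hinj : ∀ c ∈ C, c ≠ 0 → LinearMap.ker c = ⊥ := by
    intro c hc hc0
    have hinv : ∀ w ∈ LinearMap.ker c, f w ∈ LinearMap.ker c := by
      intro w hw
      rw [LinearMap.mem_ker] at hw ⊢
      have := LinearMap.congr_fun ((hC c).mp hc) w
      rw [Module.End.mul_apply, Module.End.mul_apply, hw, map_zero] at this
      exact this.symm
    rcases no_inv hd hf hinv with h | h
    · exact h
    · exact absurd (LinearMap.ker_eq_top.mp h) hc0
  have : NoZeroDivisors C := by
    refine ⟨?_⟩
    intro a b hab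
    by_contra hcon
    rw [not_or] at hcon
    obtain ⟨ha, hb⟩ := hcon
    have ha' : (a : Module.End K V) ≠ 0 := fun h => ha (Subtype.ext h)
    apply hb
    apply Subtype.ext
    apply LinearMap.ext
    intro v
    have hk := hinj a a.2 ha'
    have h1 : (a : Module.End K V) ((b : Module.End K V) v) = 0 := by
      have := congrArg (fun t : C => (t : Module.End K V) v) hab
      exact this
    have h2 : (b : Module.End K V) v ∈ LinearMap.ker (a : Module.End K V) := h1
    rw [hk] at h2
    exact h2
  have : IsDomain C := NoZeroDivisors.to_isDomain C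
  have hfield : IsField C := Finite.isDomain_to_isField C
  let : CommRing C := { (inferInstance : Ring C) with mul_comm := hfield.mul_comm }
  have hmem : ∀ s : S, ((s : V ≃ₗ[K] V) : V →ₗ[K] V) ∈ C := by
    intro s
    rw [hC]
    have hc := (Subgroup.mem_center_iff.mp z.2) s
    apply LinearMap.ext
    intro v
    have := congrArg (fun t : S => (t : V ≃ₗ[K] V) v) hc
    exact this.symm
  let ψ : S →* C :=
    { toFun := fun s => ⟨((s : V ≃ₗ[K] V) : V →ₗ[K] V), hmem s⟩
      map_one' := by
        apply Subtype.ext
        rfl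
      map_mul' := by
        intro s t
        apply Subtype.ext
        rfl }
  have hψ : Function.Injective ψ := by
    intro s t hst
    have h := congrArg Subtype.val hst
    apply Subtype.ext
    apply LinearEquiv.ext
    intro v
    exact LinearMap.congr_fun h v
  exact isCyclic_of_injective_ringHom ψ hψ

end H799.BX
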