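import Vale.Agent.P180.R2.H799.Full
import Vale.Agent.P180.R2.H799.Nilp5

/-!
P180: the dimension of `b f kG b f`, for an idempotent `f` of `kX` not killed by the Brauer
homomorphism, is bounded by the dimension of `e f kX e f`.
-/

set_option linter.all false

namespace Vale.Agent.P180.R2.H799

open Vale.Agent.P180 Vale.Agent.P180.H768.Gd Vale.Agent.P180.R2.H365

universe u

variable {k : Type*} [Field k] {p : ℕ} [Fact p.Prime] [CharP k p] {G : Type u} [Group G] [Finite G]

/-- A central element of order prime to `p` acts on a block as a scalar. -/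
theorem exists_scalar [IsAlgClosed k] {D : Subgroup G}
    (hD : IsPGroup p D) {b a : MonoidAlgebra k G} (hb : IsBlockOf (⊤ : Subgroup G) b)
    (ha : a ∈ Fix (cj k G) D) (hba : b = tr (cj k G) D ⊤ a) {z : G} (hz : ∀ g, z * g = g * z)
    {m : ℕ} (hm : ¬ p ∣ m) (hzm : z ^ m = 1) :
    ∃ c : k, MonoidAlgebra.single z 1 * b = c • b := by
  obtain ⟨lam, -, hlam, -⟩ := exists_central_char hD hb ha hba
  have hzc : MonoidAlgebra.single z (1 : k) ∈ Subalgebra.center k (MonoidAlgebra k G) := by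
    rw [mem_center_iff_Fix_top]
    intro g _
    rw [cj_single, ← hz g, mul_inv_cancel_right]
  set c := lam ⟨_, hzc⟩ with hc
  obtain ⟨N, hN⟩ := hlam ⟨_, hzc⟩
  rw [← hc] at hN
  have hcop : Nat.Coprime p m := ((Fact.out : p.Prime).coprime_iff_not_dvd).mpr hm
  have hm0 : 0 < m := Nat.pos_of_ne_zero (by rintro rfl; exact hm (dvd_zero p))
  set t := m.totient * (N + 1) with ht
  have htN : N ≤ p ^ t := by
    have h1 : N < p ^ t := by
      calc N < 2 ^ N := Nat.lt_two_pow_self
        _ ≤ p ^ N := Nat.pow_le_pow_left (Fact.out : p.Prime).two_le N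
        _ ≤ p ^ t := by
          refine Nat.pow_le_pow_right (Fact.out : p.Prime).pos ?_
          rw [ht]
          have : 0 < m.totient := Nat.totient_pos.mpr hm0
          nlinarith
    exact h1.le
  have hmod : p ^ t ≡ 1 [MOD m] := by
    rw [ht, pow_mul]
    have := (Nat.ModEq.pow_totient hcop).pow (N + 1)
    rwa [one_pow] at this
  have hzt : z ^ (p ^ t) = z := by
    have hpos : 1 ≤ p ^ t := Nat.one_le_iff_ne_zero.mpr (pow_ne_zero _ (Fact.out : p.Prime).ne_zero)
    obtain ⟨s, hs⟩ := (Nat.modEq_iff_dvd' hpos).mp hmod.symm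
    have h2 : p ^ t = m * s + 1 := by omega
    rw [h2, pow_succ, pow_mul, hzm, one_pow, one_mul]
  have hbz : Commute (MonoidAlgebra.single z (1 : k)) b :=
    commute_of_mem (SubAlg_top _) hb.mem.2
  have hbb : ∀ n : ℕ, b ^ (n + 1) = b := fun n => hb.idem.pow_succ_eq n
  have hpt : ∃ s, p ^ t = s + 1 := ⟨p ^ t - 1, by
    have := pow_pos (Fact.out : p.Prime).pos t
    omega⟩
  obtain ⟨s, hs⟩ := hpt
  refine ⟨c ^ (p ^ t), ?_⟩
  have h3 : (MonoidAlgebra.single z (1 : k) * b) ^ (p ^ t) = MonoidAlgebra.single z 1 * b := by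
    rw [hbz.mul_pow, MonoidAlgebra.single_pow, one_pow, hzt, hs, hbb]
  have h4 : (MonoidAlgebra.single z (1 : k) * b - c • b) ^ (p ^ t) = 0 :=
    pow_eq_zero_of_le htN hN
  have hco : Commute (MonoidAlgebra.single z (1 : k) * b) (c • b) :=
    ((hbz.mul_left (Commute.refl b))).smul_right c
  have : CharP (MonoidAlgebra k G) p := charP_of_injective_algebraMap
    (algebraMap k (MonoidAlgebra k G)).injective p
  have h5 : (MonoidAlgebra.single z (1 : k) * b - c • b) ^ (p ^ t) =
      (MonoidAlgebra.single z (1 : k) * b) ^ (p ^ t) - (c • b) ^ (p ^ t) :=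
    sub_pow_char_pow_of_commute _ _ hco
  rw [h4, h3] at h5
  have h6 := (sub_eq_zero.mp h5.symm)
  rw [h6, smul_pow]
  congr 1
  rw [hs, hbb]

/-- Central `p'`-subgroups act on a block through scalars. -/
theorem exists_scalar_of_central [IsAlgClosed k] {Z D : Subgroup G}
    (hD : IsPGroup p D) {b a : MonoidAlgebra k G} (hb : IsBlockOf (⊤ : Subgroup G) b)
    (ha : a ∈ Fix (cj k G) D) (hba : b = tr (cj k G) D ⊤ a) (hZ : ∀ z ∈ Z, ∀ g, z * g = g * z)
    (hp : ¬ p ∣ Nat.card Z) : ∀ z ∈ Z, ∃ c : k, MonoidAlgebra.single z 1 * b = c • b := by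
  intro z hz
  refine exists_scalar hD hb ha hba (hZ z hz) hp ?_
  have : (⟨z, hz⟩ : Z) ^ Nat.card Z = 1 := pow_card_eq_one'
  exact congrArg Subtype.val this

/-- A block `b` which is nonzero on the stable block `e` of a normal subgroup lies under it. -/
theorem mul_eq_of_stable {X : Subgroup G} {b e : MonoidAlgebra k G}
    (hb : IsBlockOf (⊤ : Subgroup G) b) (he : IsBlockOf X e) (heF : e ∈ Fix (cj k G) ⊤)
    (hbe : e * b ≠ 0) : e * b = b := by
  have hz : e ∈ ZAlg k (⊤ : Subgroup G) := mem_ZAlg.mpr ⟨SubAlg_top _, heF⟩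
  have hc : e * b = b * e := commute_of_mem (SubAlg_top e) hb.mem.2
  rcases hb.primitive (e * b) ((ZAlg k _).mul_mem hz hb.mem) (by
    change e * b * (e * b) = e * b
    rw [hc, mul_assoc, ← mul_assoc e b, hc, mul_assoc b e e, he.idem.eq, ← mul_assoc, hb.idem.eq])
    (by rw [mul_assoc, hb.idem.eq]) with h | h
  · exact absurd h hbe
  · exact h

/-- Existence of a covered block. -/
theorem exists_covered {X : Subgroup G} {b : MonoidAlgebra k G} (hb0 : b ≠ 0) :
    ∃ e : MonoidAlgebra k G, IsBlockOf X e ∧ b * e ≠ 0 := by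
  have : FiniteDimensional k (MonoidAlgebra k G) :=
    Module.Finite.equiv (MonoidAlgebra.coeffLinearEquiv k (M := G) (S := k)).symm
  exact exists_isPrimIn (ZAlg k X) (by exact ZAlg_comm) hb0

/-- **The dimension of the corner** for an idempotent `f` of `kX` with `br_D (f b) ≠ 0`. -/
theorem corner_bound [IsAlgClosed k] {Z X D : Subgroup G} [X.Normal]
    {b a f : MonoidAlgebra k G} {β n : ℕ} (hD : IsPGroup p D)
    (hb : IsBlockOf (⊤ : Subgroup G) b)
    (ha : a ∈ Fix (cj k G) D) (hba : b = tr (cj k G) D ⊤ a)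
    (hZ : ∀ z ∈ Z, ∀ g, z * g = g * z) (hp : ¬ p ∣ Nat.card Z)
    (hidx : (Z ⊔ X).index ≤ β)
    (hst : ∀ e : MonoidAlgebra k G, IsBlockOf X e → b * e ≠ 0 → ∀ g, cj k G g e = e)
    (hff : f * f = f) (hfX : f ∈ SubAlg k X) (hfD : f ∈ Fix (cj k G) D)
    (hbr : br D (f * b) ≠ 0)
    (hn : ∀ e : MonoidAlgebra k G, IsBlockOf X e → e ∈ Fix (cj k G) ⊤ → e * b = b →
      (∃ z ∈ SubAlg k X, z ∈ Fix (cj k G) (X ⊓ D) ∧ e = tr (cj k G) (X ⊓ D) X z) →
      br (X ⊓ D) (f * e) ≠ 0 →
      Module.finrank k (NN (SubAlg k X) (e * f) (e * f)) ≤ n)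
    (hi : IsIdempotentElem (b * f)) :
    Module.finrank k hi.Corner ≤ β * (n * n) := by
  obtain ⟨e, he, hbe⟩ := exists_covered (X := X) hb.ne_zero
  have heF : e ∈ Fix (cj k G) ⊤ := fun g _ => hst e he hbe g
  have hc : e * b = b * e := commute_of_mem (SubAlg_top e) hb.mem.2
  have heb : e * b = b := mul_eq_of_stable hb he heF (by rw [hc]; exact hbe)
  exact finrank_corner_le hb.idem hb.mem
    (exists_scalar_of_central hD hb ha hba hZ hp) hidx he.idem he.mem heF heb hff hfX
    (exists_full hD he heF hb.idem heb ha hba hfX hfD hff hbr)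
    (hn e he heF heb (exists_tr_inf he heF hb.idem (by rw [heb]; exact hb.ne_zero) ha hba)
      (br_inf_ne_zero hD heF hb.mem.2 heb hfD hbr)) hi

end Vale.Agent.P180.R2.H799
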