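import Vale.Agent.P180.R2.H799.BS10
import Vale.Agent.P180.R2.H799.BNL5

/-!
P180: the complement of a diagonalisable `p`-subgroup in its centraliser.
-/

set_option linter.all false

namespace Vale.Agent.P180.R2.H799.BS

open Module Vale.Agent.P180.R2.H854 Vale.Agent.P180.R2.H799
open Vale.Agent.P180.R2.H799.BN (sl_smul sl_ext EV BD exists_diag sl_sum comm_of_BD coeff_of_comm
  levi_pair toEnd_pow pow_apply_eigen)

universe u v

variable {K : Type u} {E : Type v} [Field K] [AddCommGroup E] [Module K E] [FiniteDimensional K E]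

/-- the basis, the weights and the flag of a diagonalisable subgroup -/
theorem exists_pair_data {Q : Subgroup (SpecialLinearGroup K E)}
    (h : Submodule.span K (EV Q) = ⊤) :
    ∃ (ι : Type v) (_ : Fintype ι) (b : Basis ι K E) (w : ι → Q → K) (α : ι → ℕ) (N : ℕ)
      (F : Flag K E), (∀ l, Wt Q (w l) (b l)) ∧ (∀ l m, α l = α m ↔ w l = w m) ∧ (∀ l, α l < N) ∧
      Adapted b α F ∧ IsLeviPair (VF F) Q ∧
      ∀ g, g ∈ Subgroup.centralizer (Q : Set (SpecialLinearGroup K E)) ↔ BD b α g := by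
  classical
  let b := Basis.ofSpan h.ge
  have hb : ∀ l, b l ∈ EV Q := fun l => Basis.ofSpan_subset h.ge ⟨l, rfl⟩
  have _ : Finite _ := Module.Finite.finite_basis b
  have hF := Fintype.ofFinite ((linearIndepOn_empty K id).extend (Set.empty_subset (EV Q)))
  choose w hw using fun l (g : Q) => hb l g g.2
  obtain ⟨N, ⟨e⟩⟩ := Finite.exists_equiv_fin (Set.range w)
  let α := fun l => ((e ⟨w l, l, rfl⟩ : Fin N) : ℕ)
  have hα : ∀ l m, α l = α m ↔ w l = w m := by
    intro l m
    constructor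
    · intro h1
      have h2 := e.injective (Fin.ext h1)
      exact congrArg Subtype.val h2
    · intro h1
      simp only [α, h1]
  have hαN : ∀ l, α l < N := fun l => (e ⟨w l, l, rfl⟩).2
  let F : Flag K E :=
    { car := fun i => Submodule.span K (b '' {l | α l < i})
      mono := fun i j hij => Submodule.span_mono (Set.image_mono fun l hl => lt_of_lt_of_le hl hij)
      zero := by simp
      top := ⟨N, by
        have h1 : {l | α l < N} = Set.univ := by
          ext l
          simp only [Set.mem_setOf_eq, Set.mem_univ, iff_true]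
          exact hαN l
        rw [h1, Set.image_univ, b.span_eq]⟩ }
  have hC : ∀ g, g ∈ Subgroup.centralizer (Q : Set (SpecialLinearGroup K E)) ↔ BD b α g := by
    intro g
    rw [Subgroup.mem_centralizer_iff]
    constructor
    · intro hg l m hm
      rw [hα]
      funext z
      have := coeff_of_comm (b := b) (c := fun l => w l z) (fun l => hw l z) (hg z z.2) l m hm
      exact this
    · intro hg z hz
      refine comm_of_BD (c := fun l => w l ⟨z, hz⟩) hg (fun l => hw l ⟨z, hz⟩) ?_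
      intro l m hlm
      have := (hα l m).mp hlm
      simp only [this]
  exact ⟨_, hF, b, w, α, N, F, hw, hα, hαN, fun i => rfl,
    levi_pair (b := b) (α := α) (fun i => rfl) hC, hC⟩

variable {ι : Type*} [Fintype ι]

omit [FiniteDimensional K E] in
theorem det_toEnd (x : SpecialLinearGroup K E) : LinearMap.det (toEnd x) = 1 := by
  have h1 := congrArg (fun u : Kˣ => (u : K)) x.2
  rw [Units.val_one] at h1
  rw [← h1]
  exact (LinearEquiv.coe_det _).symm

theorem comm_sl (b : Basis ι K E) (α : ι → ℕ) {y : SpecialLinearGroup K E} (hy : BD b α y)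
    (i : ℕ) : toEnd y * pj b α i = pj b α i * toEnd y :=
  comm_pj b α (X := toEnd y) hy i

/-- the elements of the centraliser whose block determinants have order dividing `N'` -/
def M0 (b : Basis ι K E) (α : ι → ℕ) (Q : Subgroup (SpecialLinearGroup K E)) (N' : ℕ)
    (hC : ∀ g, g ∈ Subgroup.centralizer (Q : Set (SpecialLinearGroup K E)) → BD b α g) :
    Subgroup (SpecialLinearGroup K E) where
  carrier := {x | x ∈ Subgroup.centralizer (Q : Set (SpecialLinearGroup K E)) ∧
    ∀ i, bdet b α i (toEnd x) ^ N' = 1}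
  one_mem' := ⟨one_mem _, fun i => by rw [toEnd_one, bdet_one, one_pow]⟩
  mul_mem' := by
    rintro x y ⟨hx, hx'⟩ ⟨hy, hy'⟩
    refine ⟨mul_mem hx hy, fun i => ?_⟩
    rw [toEnd_mul, bdet_mul b α i (comm_sl b α (hC y hy) i), mul_pow, hx', hy', one_mul]
  inv_mem' := by
    rintro x ⟨hx, hx'⟩
    refine ⟨inv_mem hx, fun i => ?_⟩
    have h1 : bdet b α i (toEnd x⁻¹) * bdet b α i (toEnd x) = 1 := by
      rw [← bdet_mul b α i (comm_sl b α (hC x hx) i), ← toEnd_mul, inv_mul_cancel, toEnd_one,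
        bdet_one]
    have h2 := congrArg (fun t => t ^ N') h1
    simp only [mul_pow, hx', mul_one, one_pow] at h2
    exact h2

theorem mem_M0 {b : Basis ι K E} {α : ι → ℕ} {Q : Subgroup (SpecialLinearGroup K E)} {N' : ℕ}
    {hC : ∀ g, g ∈ Subgroup.centralizer (Q : Set (SpecialLinearGroup K E)) → BD b α g}
    {x : SpecialLinearGroup K E} : x ∈ M0 b α Q N' hC ↔
      x ∈ Subgroup.centralizer (Q : Set (SpecialLinearGroup K E)) ∧
        ∀ i, bdet b α i (toEnd x) ^ N' = 1 := Iff.rfl

theorem bdet_empty (b : Basis ι K E) (α : ι → ℕ) (i : ℕ) (h : ∀ l, α l ≠ i) (X : End K E) :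
    bdet b α i X = 1 := by
  have h1 : pj b α i = 0 := by
    refine b.ext fun l => ?_
    rw [pj_apply, if_neg (h l), LinearMap.zero_apply]
  unfold bdet blk
  rw [h1, mul_zero, sub_zero, zero_add]
  exact map_one LinearMap.det

theorem bd_diag {b : Basis ι K E} {α : ι → ℕ} {q : SpecialLinearGroup K E} {c : ι → K}
    (hq : ∀ l, q (b l) = c l • b l) : BD b α q := by
  classical
  intro l m hm
  rw [hq, map_smul, Finsupp.smul_apply, b.repr_self, Finsupp.single_apply] at hm
  split_ifs at hm with h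
  · rw [h]
  · exact absurd (smul_zero _) hm

/-- **The centraliser is covered.** -/
theorem exists_cov [Finite K] {p : ℕ} [Fact p.Prime] {b : Basis ι K E} {α : ι → ℕ}
    {Q : Subgroup (SpecialLinearGroup K E)} {N s N' : ℕ} (hι : Fintype.card ι < p)
    (hC : ∀ g, g ∈ Subgroup.centralizer (Q : Set (SpecialLinearGroup K E)) ↔ BD b α g)
    (hN : ∀ l, α l < N) (hq : Nat.card K - 1 = p ^ s * N') (hpN : ¬ p ∣ N') (hs : 0 < s)
    {x : SpecialLinearGroup K E}
    (hx : x ∈ Subgroup.centralizer (Q : Set (SpecialLinearGroup K E))) :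
    ∃ m ∈ M0 b α Q N' (fun g => (hC g).mp), ∃ q : SpecialLinearGroup K E, ∃ c : ℕ → K,
      (∀ i, c i ^ (p ^ s) = 1) ∧ (∀ l, q (b l) = c (α l) • b l) ∧ x = m * q := by
  classical
  have hp : p.Prime := Fact.out
  have _ := Fintype.ofFinite K
  let δ : ℕ → K := fun i => bdet b α i (toEnd x)
  let d : ℕ → ℕ := fun i => (Finset.univ.filter fun l => α l = i).card
  have hδ0 : ∀ i, δ i ≠ 0 := by
    intro i h0
    have h1 : bdet b α i (toEnd x⁻¹) * bdet b α i (toEnd x) = 1 := by
      rw [← bdet_mul b α i (comm_sl b α ((hC x).mp hx) i), ← toEnd_mul, inv_mul_cancel, toEnd_one,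
        bdet_one]
    have h2 : bdet b α i (toEnd x) = 0 := h0
    rw [h2, mul_zero] at h1
    exact zero_ne_one h1
  have hδ : ∀ i, δ i ^ (p ^ s * N') = 1 := by
    intro i
    rw [← hq, Nat.card_eq_fintype_card]
    exact FiniteField.pow_card_sub_one_eq_one _ (hδ0 i)
  have hco : (p ^ s).Coprime N' := Nat.Coprime.pow_left _ ((Nat.Prime.coprime_iff_not_dvd hp).mpr hpN)
  obtain ⟨u, hu1, hu2⟩ := Nat.chineseRemainder hco 1 0
  have hNu : N' ∣ u := (Nat.modEq_zero_iff_dvd).mp hu2
  have hps : 1 < p ^ s := Nat.one_lt_pow hs.ne' hp.one_lt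
  have ht : ∀ i, ∃ t, δ i ^ (u * t * d i) = δ i ^ u := by
    intro i
    rcases Nat.eq_zero_or_pos (d i) with h0 | h0
    · refine ⟨0, ?_⟩
      have h1 : δ i = 1 := by
        refine bdet_empty b α i (fun l hl => ?_) _
        have h2 : l ∈ Finset.univ.filter fun l => α l = i :=
          Finset.mem_filter.mpr ⟨Finset.mem_univ l, hl⟩
        rw [Finset.card_eq_zero.mp h0] at h2
        exact absurd h2 (Finset.notMem_empty l)
      rw [h1, one_pow, one_pow]
    · have h1 : d i < p := lt_of_le_of_lt (Finset.card_le_univ _) hι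
      have h2 : (d i).Coprime (p ^ s) := Nat.Coprime.pow_right _
        (Nat.Coprime.symm ((Nat.Prime.coprime_iff_not_dvd hp).mpr fun h =>
          absurd (Nat.le_of_dvd h0 h) (not_le.mpr h1)))
      obtain ⟨t, -, ht⟩ := Nat.exists_mul_mod_eq_one_of_coprime h2 hps
      refine ⟨t, pow_eq_pow_of_modEq (n := p ^ s * N') ?_ (hδ i)⟩
      rw [← Nat.modEq_and_modEq_iff_modEq_mul hco]
      constructor
      · have h3 : d i * t ≡ 1 [MOD p ^ s] := by
          unfold Nat.ModEq
          rw [ht, Nat.mod_eq_of_lt hps]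
        have h4 := h3.mul_left u
        rw [mul_one] at h4
        have h5 : u * t * d i = u * (d i * t) := by ring
        rw [h5]
        exact h4
      · exact (Nat.modEq_zero_iff_dvd.mpr (dvd_mul_of_dvd_left (dvd_mul_of_dvd_left hNu _) _)).trans
          hu2.symm
  choose t ht using ht
  let c : ℕ → K := fun i => δ i ^ (u * t i)
  have hcd : ∀ i, c i ^ d i = δ i ^ u := by
    intro i
    change (δ i ^ (u * t i)) ^ d i = _
    rw [← pow_mul, ht]
  have hc : ∀ i, c i ^ (p ^ s) = 1 := by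
    intro i
    change (δ i ^ (u * t i)) ^ (p ^ s) = 1
    obtain ⟨a, ha⟩ := hNu
    rw [← pow_mul, ha]
    have h1 : N' * a * t i * p ^ s = p ^ s * N' * (a * t i) := by ring
    rw [h1, pow_mul, hδ, one_pow]
  have hprod : ∏ l, c (α l) = 1 := by
    have h1 := Finset.prod_fiberwise_of_maps_to (s := Finset.univ) (t := Finset.range N) (g := α)
      (fun l _ => Finset.mem_range.mpr (hN l)) (fun l => c (α l))
    rw [← h1]
    have h2 : ∀ i ∈ Finset.range N, (∏ l ∈ Finset.univ.filter fun l => α l = i, c (α l)) =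
        δ i ^ u := by
      intro i _
      rw [← hcd i, ← Finset.prod_const]
      exact Finset.prod_congr rfl fun l hl => by rw [(Finset.mem_filter.mp hl).2]
    have h3 := det_eq_prod b α (comm_sl b α ((hC x).mp hx)) hN
    have h4 : LinearMap.det (toEnd x) = 1 := det_toEnd x
    rw [h4] at h3
    rw [Finset.prod_congr rfl h2, Finset.prod_pow]
    change (∏ i ∈ Finset.range N, bdet b α i (toEnd x)) ^ u = 1
    rw [← h3, one_pow]
  obtain ⟨q, hqb⟩ := exists_diag b (fun l => c (α l)) hprod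
  have hqC : q ∈ Subgroup.centralizer (Q : Set (SpecialLinearGroup K E)) :=
    (hC q).mpr (bd_diag hqb)
  refine ⟨x * q⁻¹, ⟨mul_mem hx (inv_mem hqC), fun i => ?_⟩, q, c, hc, hqb, by group⟩
  have h1 : bdet b α i (toEnd (x * q⁻¹)) * δ i ^ u = δ i := by
    have h2 : bdet b α i (toEnd q) = δ i ^ u := by
      rw [← hcd i]
      exact bdet_diag b α i (X := toEnd q) hqb
    rw [← h2, ← bdet_mul b α i (comm_sl b α ((hC q).mp hqC) i), ← toEnd_mul, inv_mul_cancel_right]
  have h2 := congrArg (fun y => y ^ N') h1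
  simp only [mul_pow] at h2
  have h3 : (δ i ^ u) ^ N' = δ i ^ N' := by
    rw [← pow_mul]
    refine pow_eq_pow_of_modEq (n := p ^ s * N') ?_ (hδ i)
    have h4 := hu1.mul_right' N'
    rwa [one_mul] at h4
  rw [h3] at h2
  exact mul_right_cancel₀ (pow_ne_zero N' (hδ0 i)) (h2.trans (one_mul _).symm)

/-- **The intersection is trivial.** -/
theorem m0_inf {p : ℕ} [Fact p.Prime] {b : Basis ι K E} {α : ι → ℕ}
    {Q : Subgroup (SpecialLinearGroup K E)} {N' : ℕ} (hι : Fintype.card ι < p)
    (hC : ∀ g, g ∈ Subgroup.centralizer (Q : Set (SpecialLinearGroup K E)) ↔ BD b α g)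
    {w : ι → Q → K} (hw : ∀ l, Wt Q (w l) (b l)) (hα : ∀ l m, α l = α m ↔ w l = w m)
    (hpN : ¬ p ∣ N') {x q z : SpecialLinearGroup K E}
    (hx : x ∈ M0 b α Q N' (fun g => (hC g).mp)) (hq : q ∈ Q) {m : ℕ} (hqm : q ^ (p ^ m) = 1)
    (hz : z ∈ Subgroup.center (SpecialLinearGroup K E)) {n : ℕ} (hn : ¬ p ∣ n) (hzn : z ^ n = 1)
    (hxqz : x = q * z) : q = 1 := by
  classical
  have hp : p.Prime := Fact.out
  obtain ⟨ζ, -, hζ⟩ := SpecialLinearGroup.mem_center_iff.mp hz
  have hζv : ∀ v, z v = ζ • v := fun v => congrArg (fun a : E →ₗ[K] E => a v) hζ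
  let c : ℕ → K := fun i => if h : ∃ l, α l = i then w h.choose ⟨q, hq⟩ else 1
  have hc : ∀ l, c (α l) = w l ⟨q, hq⟩ := by
    intro l
    have h1 : ∃ m, α m = α l := ⟨l, rfl⟩
    change (if h : ∃ m, α m = α l then w h.choose ⟨q, hq⟩ else 1) = _
    rw [dif_pos h1]
    have h2 := (hα _ _).mp h1.choose_spec
    rw [h2]
  have hqb : ∀ l, q (b l) = c (α l) • b l := by
    intro l
    rw [hc]
    exact hw l ⟨q, hq⟩
  have hzC : ∀ i, toEnd z * pj b α i = pj b α i * toEnd z :=
    comm_sl b α (bd_diag (q := z) (c := fun _ => ζ) fun l => hζv (b l))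
  refine sl_ext b fun l => ?_
  have h1 : bdet b α (α l) (toEnd x) = c (α l) ^ (Finset.univ.filter fun m => α m = α l).card *
      ζ ^ (Finset.univ.filter fun m => α m = α l).card := by
    rw [hxqz, toEnd_mul, bdet_mul b α (α l) (hzC _), bdet_diag b α (α l) (X := toEnd q) hqb,
      bdet_diag b α (α l) (X := toEnd z) (c := fun _ => ζ) fun m => hζv (b m)]
  have h2 := hx.2 (α l)
  obtain ⟨d, hd⟩ : ∃ d, d = (Finset.univ.filter fun m => α m = α l).card := ⟨_, rfl⟩
  rw [← hd] at h1
  have hd0 : 0 < d := by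
    rw [hd]
    exact Finset.card_pos.mpr ⟨l, Finset.mem_filter.mpr ⟨Finset.mem_univ l, rfl⟩⟩
  have hdp : d < p := by
    rw [hd]
    exact lt_of_le_of_lt (Finset.card_le_univ _) hι
  rw [h1, mul_pow, ← pow_mul, ← pow_mul] at h2
  have hbl := b.ne_zero l
  have hζn : ζ ^ n = 1 := by
    have h3 : (z ^ n) (b l) = ζ ^ n • b l := pow_apply_eigen (hζv (b l)) n
    rw [hzn] at h3
    have h4 : (ζ ^ n - 1) • b l = 0 := by
      rw [sub_smul, one_smul, ← h3]
      exact sub_self _
    rcases smul_eq_zero.mp h4 with h5 | h5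
    · exact sub_eq_zero.mp h5
    · exact absurd h5 hbl
  have hcm : c (α l) ^ (p ^ m) = 1 := by
    have h3 : (q ^ (p ^ m)) (b l) = c (α l) ^ (p ^ m) • b l := pow_apply_eigen (hqb l) _
    rw [hqm] at h3
    have h4 : (c (α l) ^ (p ^ m) - 1) • b l = 0 := by
      rw [sub_smul, one_smul, ← h3]
      exact sub_self _
    rcases smul_eq_zero.mp h4 with h5 | h5
    · exact sub_eq_zero.mp h5
    · exact absurd h5 hbl
  have h3 : c (α l) ^ (d * N' * n) = 1 := by
    have h4 := congrArg (fun y => y ^ n) h2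
    simp only [mul_pow, one_pow, ← pow_mul] at h4
    have h5 : ζ ^ (d * N' * n) = 1 := by rw [mul_comm, pow_mul, hζn, one_pow]
    rwa [h5, mul_one] at h4
  have hcop : Nat.Coprime (p ^ m) (d * N' * n) := by
    refine Nat.Coprime.pow_left _ ((Nat.Prime.coprime_iff_not_dvd hp).mpr fun h => ?_)
    rcases hp.dvd_mul.mp h with h | h
    · rcases hp.dvd_mul.mp h with h | h
      · exact absurd (Nat.le_of_dvd hd0 h) (not_le.mpr hdp)
      · exact hpN h
    · exact hn h
  have h4 : c (α l) ^ Nat.gcd (p ^ m) (d * N' * n) = 1 := pow_gcd_eq_one.mpr ⟨hcm, h3⟩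
  rw [hcop.gcd_eq_one, pow_one] at h4
  rw [hqb, h4, one_smul]
  rfl

end Vale.Agent.P180.R2.H799.BS
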