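import Vale.Agent.P180.R2.H799.BT1
import Vale.Agent.P180.R2.H799.BS11

/-!
P180: adjoints and the determinants on the weight spaces.
-/

set_option linter.all false

namespace Vale.Agent.P180.R2.H799.BS

open Module Vale.Agent.P180.R2.H854 Vale.Agent.P180.R2.H799
open Vale.Agent.P180.R2.H799.BN (sl_smul sl_ext EV BD exists_diag sl_sum comm_of_BD coeff_of_comm
  levi_pair toEnd_pow pow_apply_eigen)

universe u v

section

variable {K : Type u} {E : Type v} [Field K] [AddCommGroup E] [Module K E] [FiniteDimensional K E]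

variable {ι : Type*} [Fintype ι]

/-- **The centraliser is covered.** -/
theorem exists_cov2 [Finite K] {p : ℕ} [Fact p.Prime] {b : Basis ι K E} {α : ι → ℕ}
    {Q : Subgroup (SpecialLinearGroup K E)} {N s N' : ℕ} (hι : Fintype.card ι < p)
    (hC : ∀ g, g ∈ Subgroup.centralizer (Q : Set (SpecialLinearGroup K E)) ↔ BD b α g)
    (hN : ∀ l, α l < N) (hq : Nat.card K - 1 = p ^ s * N') (hpN : ¬ p ∣ N') (hs : 0 < s)
    {x : SpecialLinearGroup K E}
    (hx : x ∈ Subgroup.centralizer (Q : Set (SpecialLinearGroup K E))) :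
    ∃ m ∈ M0 b α Q N' (fun g => (hC g).mp), ∃ q : SpecialLinearGroup K E, ∃ (c : ℕ → K) (u : ℕ),
      (∀ i, c i ^ (Finset.univ.filter fun l => α l = i).card = bdet b α i (toEnd x) ^ u) ∧
      (∀ i, c i ^ (p ^ s) = 1) ∧ (∀ l, q (b l) = c (α l) • b l) ∧ x = m * q := by
  classical
  have hp : p.Prime := Fact.out
  have _ := Fintype.ofFinite K
  let δ : ℕ → K := fun i => bdet b α i (toEnd x)
  let d : ℕ → ℕ := fun i => (Finset.univ.filter fun l => α l = i).card
  have hδ0 : ∀ i, δ i ≠ 0 := by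
    intro i h0
    have h1 : bdet b α i (toEnd x⁻¹) * bdet b α i (toEnd x) = 1 := by
      rw [← bdet_mul b α i (comm_sl b α ((hC x).mp hx) i), ← toEnd_mul, inv_mul_cancel, toEnd_one,
        bdet_one]
    have h2 : bdet b α i (toEnd x) = 0 := h0
    rw [h2, mul_zero] at h1
    exact zero_ne_one h1
  have hδ : ∀ i, δ i ^ (p ^ s * N') = 1 := by
    intro i
    rw [← hq, Nat.card_eq_fintype_card]
    exact FiniteField.pow_card_sub_one_eq_one _ (hδ0 i)
  have hco : (p ^ s).Coprime N' := Nat.Coprime.pow_left _ ((Nat.Prime.coprime_iff_not_dvd hp).mpr hpN)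
  obtain ⟨u, hu1, hu2⟩ := Nat.chineseRemainder hco 1 0
  have hNu : N' ∣ u := (Nat.modEq_zero_iff_dvd).mp hu2
  have hps : 1 < p ^ s := Nat.one_lt_pow hs.ne' hp.one_lt
  have ht : ∀ i, ∃ t, δ i ^ (u * t * d i) = δ i ^ u := by
    intro i
    rcases Nat.eq_zero_or_pos (d i) with h0 | h0
    · refine ⟨0, ?_⟩
      have h1 : δ i = 1 := by
        refine bdet_empty b α i (fun l hl => ?_) _
        have h2 : l ∈ Finset.univ.filter fun l => α l = i :=
          Finset.mem_filter.mpr ⟨Finset.mem_univ l, hl⟩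
        rw [Finset.card_eq_zero.mp h0] at h2
        exact absurd h2 (Finset.notMem_empty l)
      rw [h1, one_pow, one_pow]
    · have h1 : d i < p := lt_of_le_of_lt (Finset.card_le_univ _) hι
      have h2 : (d i).Coprime (p ^ s) := Nat.Coprime.pow_right _
        (Nat.Coprime.symm ((Nat.Prime.coprime_iff_not_dvd hp).mpr fun h =>
          absurd (Nat.le_of_dvd h0 h) (not_le.mpr h1)))
      obtain ⟨t, -, ht⟩ := Nat.exists_mul_mod_eq_one_of_coprime h2 hps
      refine ⟨t, pow_eq_pow_of_modEq (n := p ^ s * N') ?_ (hδ i)⟩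
      rw [← Nat.modEq_and_modEq_iff_modEq_mul hco]
      constructor
      · have h3 : d i * t ≡ 1 [MOD p ^ s] := by
          unfold Nat.ModEq
          rw [ht, Nat.mod_eq_of_lt hps]
        have h4 := h3.mul_left u
        rw [mul_one] at h4
        have h5 : u * t * d i = u * (d i * t) := by ring
        rw [h5]
        exact h4
      · exact (Nat.modEq_zero_iff_dvd.mpr (dvd_mul_of_dvd_left (dvd_mul_of_dvd_left hNu _) _)).trans
          hu2.symm
  choose t ht using ht
  let c : ℕ → K := fun i => δ i ^ (u * t i)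
  have hcd : ∀ i, c i ^ d i = δ i ^ u := by
    intro i
    change (δ i ^ (u * t i)) ^ d i = _
    rw [← pow_mul, ht]
  have hc : ∀ i, c i ^ (p ^ s) = 1 := by
    intro i
    change (δ i ^ (u * t i)) ^ (p ^ s) = 1
    obtain ⟨a, ha⟩ := hNu
    rw [← pow_mul, ha]
    have h1 : N' * a * t i * p ^ s = p ^ s * N' * (a * t i) := by ring
    rw [h1, pow_mul, hδ, one_pow]
  have hprod : ∏ l, c (α l) = 1 := by
    have h1 := Finset.prod_fiberwise_of_maps_to (s := Finset.univ) (t := Finset.range N) (g := α)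
      (fun l _ => Finset.mem_range.mpr (hN l)) (fun l => c (α l))
    rw [← h1]
    have h2 : ∀ i ∈ Finset.range N, (∏ l ∈ Finset.univ.filter fun l => α l = i, c (α l)) =
        δ i ^ u := by
      intro i _
      rw [← hcd i, ← Finset.prod_const]
      exact Finset.prod_congr rfl fun l hl => by rw [(Finset.mem_filter.mp hl).2]
    have h3 := det_eq_prod b α (comm_sl b α ((hC x).mp hx)) hN
    have h4 : LinearMap.det (toEnd x) = 1 := det_toEnd x
    rw [h4] at h3
    rw [Finset.prod_congr rfl h2, Finset.prod_pow]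
    change (∏ i ∈ Finset.range N, bdet b α i (toEnd x)) ^ u = 1
    rw [← h3, one_pow]
  obtain ⟨q, hqb⟩ := exists_diag b (fun l => c (α l)) hprod
  have hqC : q ∈ Subgroup.centralizer (Q : Set (SpecialLinearGroup K E)) :=
    (hC q).mpr (bd_diag hqb)
  refine ⟨x * q⁻¹, ⟨mul_mem hx (inv_mem hqC), fun i => ?_⟩, q, c, u, hcd, hc, hqb, by group⟩
  have h1 : bdet b α i (toEnd (x * q⁻¹)) * δ i ^ u = δ i := by
    have h2 : bdet b α i (toEnd q) = δ i ^ u := by
      rw [← hcd i]
      exact bdet_diag b α i (X := toEnd q) hqb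
    rw [← h2, ← bdet_mul b α i (comm_sl b α ((hC q).mp hqC) i), ← toEnd_mul, inv_mul_cancel_right]
  have h2 := congrArg (fun y => y ^ N') h1
  simp only [mul_pow] at h2
  have h3 : (δ i ^ u) ^ N' = δ i ^ N' := by
    rw [← pow_mul]
    refine pow_eq_pow_of_modEq (n := p ^ s * N') ?_ (hδ i)
    have h4 := hu1.mul_right' N'
    rwa [one_mul] at h4
  rw [h3] at h2
  exact mul_right_cancel₀ (pow_ne_zero N' (hδ0 i)) (h2.trans (one_mul _).symm)

end

section

variable {K E : Type*} [Field K] [Finite K] [AddCommGroup E] [Module K E] [FiniteDimensional K E]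
  (Φ : HForm K E) {ι : Type*} [Fintype ι]

/-- the form in coordinates -/
theorem form_left (b : Basis ι K E) (x y : E) : Φ.B x y = ∑ l, b.repr x l * Φ.B (b l) y := by
  have h1 : Φ.fn y x = ∑ l, b.repr x l * Φ.fn y (b l) := by
    conv_lhs => rw [← b.sum_repr x, map_sum]
    exact Finset.sum_congr rfl fun l _ => by rw [map_smul, smul_eq_mul]
  exact h1

theorem form_right (b : Basis ι K E) (x y : E) :
    Φ.B x y = ∑ l, Φ.θ (b.repr y l) * Φ.B x (b l) := by
  rw [Φ.symm y x, form_left Φ b y x, map_sum, Finset.mul_sum]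
  refine Finset.sum_congr rfl fun l _ => ?_
  rw [map_mul, Φ.symm (b l) x]
  ring

/-- **The determinant of the adjoint.** -/
theorem det_adj (a : End K E) : Φ.θ (LinearMap.det (Φ.adj a)) = LinearMap.det a := by
  classical
  let b := finBasis K E
  let J : Matrix (Fin (finrank K E)) (Fin (finrank K E)) K := Matrix.of fun l m => Φ.B (b l) (b m)
  have hJ : J.det ≠ 0 := by
    intro h0
    obtain ⟨v, hv, hvJ⟩ := Matrix.exists_vecMul_eq_zero_iff.mpr h0
    have h1 : ∑ l, v l • b l = 0 := by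
      refine Φ.nondeg _ fun y => ?_
      rw [form_right Φ b]
      refine Finset.sum_eq_zero fun m _ => ?_
      have h2 : Φ.B (∑ l, v l • b l) (b m) = 0 := by
        rw [form_left Φ b]
        have h3 := congrFun hvJ m
        rw [Pi.zero_apply] at h3
        rw [← h3]
        refine Finset.sum_congr rfl fun l _ => ?_
        rw [b.repr_sum_self]
        rfl
      rw [h2, mul_zero]
    apply hv
    funext l
    have h2 := congrArg (fun t => b.repr t l) h1
    simp only [b.repr_sum_self, map_zero, Finsupp.coe_zero, Pi.zero_apply] at h2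
    exact h2
  have key : (LinearMap.toMatrix b b a).transpose * J = J * (LinearMap.toMatrix b b (Φ.adj a)).map Φ.θ := by
    ext l m
    rw [Matrix.mul_apply, Matrix.mul_apply]
    have h1 := form_left Φ b (a (b l)) (b m)
    have h2 := form_right Φ b (b l) (Φ.adj a (b m))
    rw [← Φ.adj_right, h1] at h2
    have e1 : ∀ j, (LinearMap.toMatrix b b a).transpose l j * J j m =
        b.repr (a (b l)) j * Φ.B (b j) (b m) := by
      intro j
      rw [Matrix.transpose_apply, LinearMap.toMatrix_apply]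
      rfl
    have e2 : ∀ j, J l j * ((LinearMap.toMatrix b b (Φ.adj a)).map Φ.θ) j m =
        Φ.θ (b.repr (Φ.adj a (b m)) j) * Φ.B (b l) (b j) := by
      intro j
      rw [Matrix.map_apply, LinearMap.toMatrix_apply, mul_comm]
      rfl
    rw [Finset.sum_congr rfl fun j _ => e1 j, Finset.sum_congr rfl fun j _ => e2 j]
    exact h2
  have h1 := congrArg Matrix.det key
  rw [Matrix.det_mul, Matrix.det_mul, Matrix.det_transpose, mul_comm] at h1
  have h2 := mul_left_cancel₀ hJ h1
  have h3 : ((LinearMap.toMatrix b b (Φ.adj a)).map Φ.θ).det =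
      Φ.θ (LinearMap.toMatrix b b (Φ.adj a)).det := (RingHom.map_det Φ.θ _).symm
  rw [h3, LinearMap.det_toMatrix, LinearMap.det_toMatrix] at h2
  exact h2.symm

variable {b : Basis ι K E} {α : ι → ℕ} {N : ℕ}

/-- the adjoint of a projection -/
theorem adj_pj (hB : ∀ l m, α l + α m + 1 ≠ N → Φ.B (b l) (b m) = 0) {i j : ℕ}
    (hij : i + j + 1 = N) : Φ.adj (pj b α i) = pj b α j := by
  refine Φ.ext_basis b fun l m => ?_
  rw [← Φ.adj_right, pj_apply, pj_apply]
  by_cases h : α l + α m + 1 = N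
  · by_cases h1 : α l = i
    · rw [if_pos h1, if_pos (by omega)]
    · rw [if_neg h1, if_neg (by omega), Φ.zero_left, Φ.zero_right]
  · have h1 := hB l m h
    split_ifs
    · rfl
    · rw [Φ.zero_right, h1]
    · rw [Φ.zero_left, h1]
    · rw [Φ.zero_left, Φ.zero_right]

/-- **The block determinants of the adjoint.** -/
theorem bdet_adj (hB : ∀ l m, α l + α m + 1 ≠ N → Φ.B (b l) (b m) = 0) {i j : ℕ}
    (hij : i + j + 1 = N) {X : End K E} (hX : X * pj b α i = pj b α i * X) :
    Φ.θ (bdet b α j (Φ.adj X)) = bdet b α i X := by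
  unfold bdet
  rw [← det_adj Φ (blk b α i X)]
  have h1 : Φ.adj (blk b α i X) = blk b α j (Φ.adj X) := by
    unfold blk
    rw [hX, Φ.adj_add, Φ.adj_mul, Φ.adj_sub, Φ.adj_one, adj_pj Φ hB hij]
  rw [h1]

/-- **The centraliser is covered**, isometries. -/
theorem exists_cov_iso {p : ℕ} [Fact p.Prime] (hp2 : Odd p) {ζ : K} (hζ : ζ ^ p = 1)
    (hζ1 : ζ ≠ 1) (hζθ : Φ.θ ζ = ζ) {Q : Subgroup (SpecialLinearGroup K E)} {s N' : ℕ}
    (hι : Fintype.card ι < p)
    (hC : ∀ g, g ∈ Subgroup.centralizer (Q : Set (SpecialLinearGroup K E)) ↔ BD b α g)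
    (hN : ∀ l, α l < N) (hB : ∀ l m, α l + α m + 1 ≠ N → Φ.B (b l) (b m) = 0)
    (hq : Nat.card K - 1 = p ^ s * N') (hpN : ¬ p ∣ N') (hs : 0 < s)
    {x : SpecialLinearGroup K E} (hxI : x ∈ Φ.Iso)
    (hx : x ∈ Subgroup.centralizer (Q : Set (SpecialLinearGroup K E))) :
    ∃ m ∈ M0 b α Q N' (fun g => (hC g).mp), ∃ q ∈ Φ.Iso, ∃ c : ℕ → K,
      (∀ i, c i ^ (p ^ s) = 1) ∧ (∀ l, q (b l) = c (α l) • b l) ∧ x = m * q := by
  classical
  have hp : p.Prime := Fact.out
  obtain ⟨m, hm, q, c, u, hcu, hcp, hqb, hxmq⟩ := exists_cov2 hι hC hN hq hpN hs hx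
  have hθ : ∀ i, Φ.θ (c i) = c i := fun i => Φ.theta_eq hp hp2 hζ hζ1 hζθ (hcp i)
  have hc0 : ∀ i, c i ≠ 0 := by
    intro i h0
    have h1 := hcp i
    rw [h0, zero_pow (pow_ne_zero _ hp.ne_zero)] at h1
    exact zero_ne_one h1
  -- the adjoint of a scalar
  have hsc : ∀ i j, i + j + 1 = N → ∀ z : K, Φ.θ z = z →
      z ^ (Finset.univ.filter fun l => α l = i).card =
        z ^ (Finset.univ.filter fun l => α l = j).card := by
    intro i j hij z hz
    have h1 := bdet_adj Φ hB hij (X := z • (1 : End K E)) (by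
      rw [smul_mul_assoc, one_mul, mul_smul_comm, mul_one])
    rw [Φ.adj_smul, Φ.adj_one, hz,
      bdet_diag b α j (X := z • (1 : End K E)) (c := fun _ => z) (fun l => rfl),
      bdet_diag b α i (X := z • (1 : End K E)) (c := fun _ => z) (fun l => rfl), map_pow, hz] at h1
    exact h1.symm
  -- the adjoint of `x`
  have hδ : ∀ i j, i + j + 1 = N →
      Φ.θ (bdet b α j (toEnd x)) * bdet b α i (toEnd x) = 1 := by
    intro i j hij
    have h1 : Φ.adj (toEnd x) * toEnd x = 1 := Φ.mem_Iso_iff.mp hxI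
    have h2 := bdet_adj Φ hB (i := j) (j := i) (by omega) (comm_sl b α ((hC x).mp hx) j)
    have h3 := congrArg (bdet b α i) h1
    rw [bdet_one, bdet_mul b α i (comm_sl b α ((hC x).mp hx) i)] at h3
    rw [← h2, Φ.θθ]
    exact h3
  have hcc : ∀ i j, i + j + 1 = N → (∃ l, α l = j) → c i * c j = 1 := by
    rintro i j hij ⟨l, hl⟩
    have h1 : (c i * c j) ^ (Finset.univ.filter fun l => α l = j).card = 1 := by
      rw [mul_pow, ← hsc i j hij (c i) (hθ i), hcu, hcu]
      have h2 : Φ.θ (bdet b α j (toEnd x) ^ u) = bdet b α j (toEnd x) ^ u := by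
        rw [← hcu, map_pow, hθ]
      rw [← h2, map_pow, ← mul_pow, mul_comm, hδ i j hij, one_pow]
    have h2 : (c i * c j) ^ (p ^ s) = 1 := by rw [mul_pow, hcp, hcp, one_mul]
    have h3 : 0 < (Finset.univ.filter fun l => α l = j).card :=
      Finset.card_pos.mpr ⟨l, Finset.mem_filter.mpr ⟨Finset.mem_univ l, hl⟩⟩
    have h4 : (Finset.univ.filter fun l => α l = j).card < p :=
      lt_of_le_of_lt (Finset.card_le_univ _) hι
    have h5 : Nat.Coprime (Finset.univ.filter fun l => α l = j).card (p ^ s) :=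
      Nat.Coprime.pow_right _ (Nat.Coprime.symm ((Nat.Prime.coprime_iff_not_dvd hp).mpr fun h =>
        absurd (Nat.le_of_dvd h3 h) (not_le.mpr h4)))
    have h6 : (c i * c j) ^ Nat.gcd (Finset.univ.filter fun l => α l = j).card (p ^ s) = 1 :=
      pow_gcd_eq_one.mpr ⟨h1, h2⟩
    rwa [h5.gcd_eq_one, pow_one] at h6
  refine ⟨m, hm, q, ?_, c, hcp, hqb, hxmq⟩
  rw [Φ.mem_Iso_iff]
  refine Φ.ext_basis b fun l k => ?_
  rw [End.mul_apply, ← Φ.adj_right]
  change Φ.B (q (b l)) (q (b k)) = Φ.B (b l) (b k)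
  rw [hqb, hqb, Φ.smul_left, Φ.smul_right, hθ]
  by_cases h : α l + α k + 1 = N
  · rw [← mul_assoc, hcc _ _ h ⟨k, rfl⟩, one_mul]
  · rw [hB l k h, mul_zero, mul_zero]

end

end Vale.Agent.P180.R2.H799.BS
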