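import Vale.Agent.P180.R2.H799.BS11

/-!
P180: semilinear actions on central quotients of the special linear group.
-/

set_option linter.all false

namespace Vale.Agent.P180.R2.H799.BS

open Module Vale.Agent.P180.R2.H854 Vale.Agent.P180.R2.H799
open Vale.Agent.P180.R2.H799.BN (sl_smul sl_ext finite_sl pow_apply_eigen)

variable {K E : Type*} [Field K] [AddCommGroup E] [Module K E]
variable {G : Type*} [Group G] {L : Subgroup G}

/-- `r` acts on the central quotient `L` by the semilinear bijection `g`. -/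
def Act (π : SpecialLinearGroup K E →* L) (r : G) (σ : K ≃+* K) (g : E → E) : Prop :=
  Semi σ g ∧ ∀ x : SpecialLinearGroup K E, ∃ y : SpecialLinearGroup K E, Tw g x y ∧
    r * (π x : G) * r⁻¹ = (π y : G)

variable {π : SpecialLinearGroup K E →* L}

theorem Semi.refl : Semi (K := K) (E := E) (RingEquiv.refl K) id where
  bij := Function.bijective_id
  add _ _ := rfl
  smul _ _ := rfl

theorem Act.one : Act π 1 (RingEquiv.refl K) id :=
  ⟨Semi.refl, fun x => ⟨x, fun _ => rfl, by rw [one_mul, inv_one, mul_one]⟩⟩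

theorem Act.mul {r r' : G} {σ σ' : K ≃+* K} {g g' : E → E} (h : Act π r σ g)
    (h' : Act π r' σ' g') : Act π (r * r') (σ'.trans σ) (g ∘ g') := by
  refine ⟨h.1.comp h'.1, fun x => ?_⟩
  obtain ⟨y, hy, hy'⟩ := h'.2 x
  obtain ⟨z, hz, hz'⟩ := h.2 y
  refine ⟨z, hy.comp hz, ?_⟩
  rw [← hz', ← hy']
  group

theorem Act.iter {r : G} {σ : K ≃+* K} {g : E → E} (h : Act π r σ g) (n : ℕ) :
    ∃ σ', Act π (r ^ n) σ' g^[n] := by
  induction n with
  | zero =>
    rw [pow_zero]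
    exact ⟨_, Act.one⟩
  | succ n ih =>
    obtain ⟨σ', h'⟩ := ih
    rw [pow_succ, Function.iterate_succ]
    exact ⟨_, h'.mul h⟩

variable [FiniteDimensional K E]

/-- a central element of order dividing the characteristic is trivial -/
theorem center_char {l : ℕ} [Fact l.Prime] [CharP K l] (h2 : 1 ≤ finrank K E)
    {z : SpecialLinearGroup K E} (hz : z ∈ Subgroup.center (SpecialLinearGroup K E))
    (hzl : z ^ l = 1) : z = 1 := by
  obtain ⟨ζ, -, hζ⟩ := SpecialLinearGroup.mem_center_iff.mp hz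
  have hζv : ∀ v, z v = ζ • v := fun v => congrArg (fun a : E →ₗ[K] E => a v) hζ
  have _ : Nontrivial E := Module.finrank_pos_iff.mp h2
  obtain ⟨v, hv⟩ := exists_ne (0 : E)
  have h3 : (z ^ l) v = ζ ^ l • v := pow_apply_eigen (hζv v) l
  rw [hzl] at h3
  have h4 : (ζ ^ l - 1) • v = 0 := by
    rw [sub_smul, one_smul, ← h3]
    exact sub_self _
  have h5 : ζ ^ l = 1 := by
    rcases smul_eq_zero.mp h4 with h5 | h5
    · exact sub_eq_zero.mp h5
    · exact absurd h5 hv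
  have h6 : frobenius K l ζ = frobenius K l 1 := by
    rw [map_one]
    exact h5
  have h7 : ζ = 1 := frobenius_inj K l h6
  refine SpecialLinearGroup.ext _ _ fun v => ?_
  rw [hζv, h7, one_smul]
  rfl

/-- the period -/
theorem Act.per [Finite K] {r : G} {σ : K ≃+* K} {g : E → E} (h : Act π r σ g)
    (hk : π.ker ≤ Subgroup.center _) (h2 : 2 ≤ finrank K E) {n : ℕ} (hr : r ^ n = 1) (v : E) :
    ∃ c : K, g^[n] v = c • v := by
  obtain ⟨l, hl⟩ := CharP.exists K
  have hlp : Fact l.Prime := ⟨CharP.char_is_prime K l⟩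
  obtain ⟨σ', h'⟩ := h.iter n
  refine h'.1.lines (l := l) (CharP.cast_eq_zero K l) h2 (fun x hx => ?_) v
  obtain ⟨y, hy, hxy⟩ := h'.2 x
  rw [hr, one_mul, inv_one, mul_one] at hxy
  have hzk : x⁻¹ * y ∈ π.ker := by
    rw [MonoidHom.mem_ker, map_mul, map_inv, ← Subtype.ext hxy, inv_mul_cancel]
  have hz := hk hzk
  have hyl : y ^ l = 1 := by
    have h3 := hy.pow l
    rw [hx] at h3
    exact Tw.unique h'.1.bij.2 h3 Tw.one
  have hzl : (x⁻¹ * y) ^ l = 1 := by
    have h3 : Commute x (x⁻¹ * y) := Subgroup.mem_center_iff.mp hz x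
    have h4 : (x * (x⁻¹ * y)) ^ l = x ^ l * (x⁻¹ * y) ^ l := h3.mul_pow l
    rw [mul_inv_cancel_left, hyl, hx, one_mul] at h4
    exact h4.symm
  have h3 := center_char (by omega) hz hzl
  have h4 : y = x := by
    have h5 : y = x * (x⁻¹ * y) := by group
    rw [h5, h3, mul_one]
  rw [h4] at hy
  exact hy

/-- a linear bijection acts as an element of the special linear group -/
theorem Act.linear [Finite K] {r : G} {g : E → E} (h : Act π r (RingEquiv.refl K) g)
    (hk : π.ker ≤ Subgroup.center _) (hπ : Function.Surjective π) (h2 : 2 ≤ finrank K E) {n : ℕ}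
    (hr : r ^ n = 1) (hn : n.Coprime (finrank K E)) :
    ∃ s ∈ L, ∃ c ∈ Subgroup.centralizer (L : Set G), r = s * c := by
  have hper := h.per hk h2 hr
  let T : E →ₗ[K] E := { toFun := g, map_add' := h.1.add, map_smul' := h.1.smul }
  have hTg : ∀ v, T v = g v := fun _ => rfl
  have hTn : ∀ (n : ℕ) (v : E), (T ^ n) v = g^[n] v := by
    intro n v
    rw [Module.End.pow_apply]
    rfl
  obtain ⟨μ, hμ⟩ := LinearMap.exists_eq_smul_id_of_forall_notLinearIndependent (f := T ^ n) (by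
    intro v hv
    rw [LinearIndependent.pair_iff] at hv
    obtain ⟨c, hc⟩ := hper v
    have h3 := (hv c (-1) (by rw [hTn, hc, neg_one_smul, add_neg_cancel])).2
    exact one_ne_zero (neg_eq_zero.mp h3))
  have hD0 : LinearMap.det T ≠ 0 := by
    have h3 := (LinearEquiv.ofBijective T h.1.bij).isUnit_det'
    exact h3.ne_zero
  have hdet : LinearMap.det T ^ n = μ ^ finrank K E := by
    have h3 : LinearMap.det (T ^ n) = LinearMap.det T ^ n := map_pow LinearMap.det T n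
    have h4 : LinearMap.det (μ • (1 : E →ₗ[K] E)) = μ ^ finrank K E * LinearMap.det (1 : E →ₗ[K] E) :=
      LinearMap.det_smul _ _
    have h5 : LinearMap.det (1 : E →ₗ[K] E) = 1 := map_one LinearMap.det
    rw [← h3, hμ, h4, h5, mul_one]
  have hμ0 : μ ≠ 0 := by
    intro h0
    rw [h0, zero_pow (by omega)] at hdet
    exact pow_ne_zero n hD0 hdet
  let D : Kˣ := Units.mk0 _ hD0
  let M : Kˣ := Units.mk0 _ hμ0
  have hDM : D ^ n = M ^ finrank K E := Units.ext (by
    rw [Units.val_pow_eq_pow_val, Units.val_pow_eq_pow_val]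
    exact hdet)
  obtain ⟨a, b, hab⟩ : ∃ a b : ℤ, a * n + b * (finrank K E : ℤ) = 1 :=
    Nat.isCoprime_iff_coprime.mpr hn
  obtain ⟨lam, hlam⟩ : ∃ lam : Kˣ, lam ^ finrank K E = D := by
    refine ⟨M ^ a * D ^ b, ?_⟩
    rw [mul_pow, ← zpow_natCast (M ^ a), ← zpow_mul, mul_comm a, zpow_mul, zpow_natCast, ← hDM,
      ← zpow_natCast D n, ← zpow_mul, ← zpow_natCast (D ^ b), ← zpow_mul, ← zpow_add, mul_comm _ a,
      hab, zpow_one]
  have hsdet : LinearMap.det (((lam⁻¹ : Kˣ) : K) • T) = 1 := by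
    rw [LinearMap.det_smul, ← Units.val_pow_eq_pow_val, inv_pow, hlam]
    exact Units.inv_mul D
  let s : SpecialLinearGroup K E := mkSL _ hsdet
  have hs : ∀ v, s v = ((lam⁻¹ : Kˣ) : K) • g v := fun v => rfl
  have key : ∀ x : SpecialLinearGroup K E, r * (π x : G) * r⁻¹ = π s * π x * (π s : G)⁻¹ := by
    intro x
    obtain ⟨y, hy, hxy⟩ := h.2 x
    have h3 : s * x = y * s := by
      refine SpecialLinearGroup.ext _ _ fun v => ?_
      change s (x v) = y (s v)
      rw [hs, hs, hy v, sl_smul]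
    have h4 : y = s * x * s⁻¹ := by rw [h3, mul_inv_cancel_right]
    rw [hxy, h4, map_mul, map_mul, map_inv]
    rfl
  refine ⟨π s, (π s).2, (π s : G)⁻¹ * r, ?_, by group⟩
  rw [Subgroup.mem_centralizer_iff]
  intro x hx
  obtain ⟨x₀, hx₀⟩ := hπ ⟨x, hx⟩
  have h3 := key x₀
  rw [hx₀] at h3
  have h4 : x = (π s : G)⁻¹ * (r * x * r⁻¹) * π s := by
    change r * x * r⁻¹ = π s * x * (π s : G)⁻¹ at h3
    rw [h3]
    group
  calc x * ((π s : G)⁻¹ * r) = (π s : G)⁻¹ * (r * x * r⁻¹) * π s * ((π s : G)⁻¹ * r) := by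
        rw [← h4]
    _ = (π s : G)⁻¹ * r * x := by group

/-- the automorphism group of a finite field is cyclic -/
theorem isCyclic_ringAut (K : Type*) [Field K] [Finite K] : IsCyclic (K ≃+* K) := by
  obtain ⟨l, hl⟩ := CharP.exists K
  have hlp : Fact l.Prime := ⟨CharP.char_is_prime K l⟩
  letI := ZMod.algebra K l
  let φ : (K ≃+* K) →* (K ≃ₐ[ZMod l] K) :=
    { toFun := fun σ => AlgEquiv.ofRingEquiv (f := σ) fun r => RingHom.congr_fun
        (Subsingleton.elim ((σ : K →+* K).comp (algebraMap (ZMod l) K)) (algebraMap (ZMod l) K)) r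
      map_one' := by ext; rfl
      map_mul' := fun σ τ => by ext; rfl }
  refine isCyclic_of_injective φ fun σ τ h => ?_
  refine RingEquiv.ext fun x => ?_
  exact congrArg (fun f : K ≃ₐ[ZMod l] K => f x) h

omit [FiniteDimensional K E] in
/-- **The action on the field is cyclic.** -/
theorem exists_cyc [Finite K] [Finite G] {R : Subgroup G} (h : ∀ r ∈ R, ∃ σ g, Act π r σ g) :
    ∃ c ∈ R, ∀ r ∈ R, ∃ (n : ℤ) (g : E → E), Act π ((c ^ n)⁻¹ * r) (RingEquiv.refl K) g := by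
  have hfin : Finite (K ≃+* K) :=
    Finite.of_injective (fun σ => (σ : K → K)) DFunLike.coe_injective
  let S : Submonoid (G × (K ≃+* K)) :=
    { carrier := {a | a.1 ∈ R ∧ ∃ g, Act π a.1 a.2 g}
      one_mem' := ⟨R.one_mem, id, Act.one⟩
      mul_mem' := by
        rintro ⟨r, σ⟩ ⟨r', σ'⟩ ⟨hr, g, hg⟩ ⟨hr', g', hg'⟩
        exact ⟨R.mul_mem hr hr', g ∘ g', hg.mul hg'⟩ }
  let Γ : Subgroup (G × (K ≃+* K)) :=
    { S with
      inv_mem' := by
        intro a ha
        have h1 : a⁻¹ = a ^ (orderOf a - 1) := by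
          symm
          refine eq_inv_of_mul_eq_one_left ?_
          rw [← pow_succ, Nat.sub_add_cancel (orderOf_pos a), pow_orderOf_eq_one]
        rw [h1]
        exact S.pow_mem ha _ }
  have hΓ : ∀ a, a ∈ Γ ↔ a.1 ∈ R ∧ ∃ g, Act π a.1 a.2 g := fun a => Iff.rfl
  have hcyc : IsCyclic (K ≃+* K) := isCyclic_ringAut K
  obtain ⟨⟨t, ht⟩, hgen⟩ := IsCyclic.exists_generator
    (α := (Γ.map (MonoidHom.snd G (K ≃+* K)) : Subgroup (K ≃+* K)))
  obtain ⟨a, ha, rfl⟩ := ht
  refine ⟨a.1, ((hΓ a).mp ha).1, fun r hr => ?_⟩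
  obtain ⟨σ, g, hg⟩ := h r hr
  have h1 : (r, σ) ∈ Γ := (hΓ _).mpr ⟨hr, g, hg⟩
  obtain ⟨n, hn⟩ := Subgroup.mem_zpowers_iff.mp
    (hgen ⟨(MonoidHom.snd G (K ≃+* K)) (r, σ), (r, σ), h1, rfl⟩)
  have h2 : a.2 ^ n = σ := congrArg Subtype.val hn
  have h3 : (a ^ n)⁻¹ * (r, σ) ∈ Γ := Γ.mul_mem (Γ.inv_mem (Γ.zpow_mem ha n)) h1
  obtain ⟨-, g', hg'⟩ := (hΓ _).mp h3
  refine ⟨n, g', ?_⟩
  have h4 : ((a ^ n)⁻¹ * (r, σ)).2 = 1 := by
    change (a.2 ^ n)⁻¹ * σ = 1
    rw [h2, inv_mul_cancel]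
  rw [h4] at hg'
  exact hg'

end Vale.Agent.P180.R2.H799.BS
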