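import Vale.Agent.P180.R2.H799.BT4
import Vale.Agent.P180.R2.H799.BNL5
import Vale.Agent.P180.R2.H799.BS12

/-!
P180: semilinear actions on central quotients of groups of isometries.
-/

set_option linter.all false

namespace Vale.Agent.P180.R2.H799.BS

open Module Vale.Agent.P180.R2.H854 Vale.Agent.P180.R2.H799
open Vale.Agent.P180.R2.H799.BN (sl_smul sl_ext finite_sl pow_apply_eigen)

variable {K E : Type*} [Field K] [AddCommGroup E] [Module K E]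
variable {G : Type*} [Group G] {L : Subgroup G} {X : Subgroup (SpecialLinearGroup K E)}

/-- `r` acts on the central quotient `L` of `X` by the semilinear similitude `g`. -/
def ActX (Φ : HForm K E) (π : X →* L) (r : G) (σ : K ≃+* K) (g : E → E) : Prop :=
  Semi σ g ∧ (∃ c : K, ∀ v w, Φ.B (g v) (g w) = c * σ (Φ.B v w)) ∧
    ∀ x : X, ∃ y : X, Tw g x.1 y.1 ∧ r * (π x : G) * r⁻¹ = (π y : G)

variable {Φ : HForm K E} {π : X →* L}

theorem ActX.one : ActX Φ π 1 (RingEquiv.refl K) id :=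
  ⟨Semi.refl, ⟨1, fun v w => (one_mul _).symm⟩,
    fun x => ⟨x, fun _ => rfl, by rw [one_mul, inv_one, mul_one]⟩⟩

theorem ActX.mul {r r' : G} {σ σ' : K ≃+* K} {g g' : E → E} (h : ActX Φ π r σ g)
    (h' : ActX Φ π r' σ' g') : ActX Φ π (r * r') (σ'.trans σ) (g ∘ g') := by
  obtain ⟨c, hc⟩ := h.2.1
  obtain ⟨c', hc'⟩ := h'.2.1
  refine ⟨h.1.comp h'.1, ⟨c * σ c', fun v w => ?_⟩, fun x => ?_⟩
  · rw [Function.comp_apply, Function.comp_apply, hc, hc', map_mul, mul_assoc]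
    rfl
  · obtain ⟨y, hy, hy'⟩ := h'.2.2 x
    obtain ⟨z, hz, hz'⟩ := h.2.2 y
    refine ⟨z, hy.comp hz, ?_⟩
    rw [← hz', ← hy']
    group

theorem ActX.iter {r : G} {σ : K ≃+* K} {g : E → E} (h : ActX Φ π r σ g) (n : ℕ) :
    ∃ σ', ActX Φ π (r ^ n) σ' g^[n] := by
  induction n with
  | zero =>
    rw [pow_zero]
    exact ⟨_, ActX.one⟩
  | succ n ih =>
    obtain ⟨σ', h'⟩ := ih
    rw [pow_succ, Function.iterate_succ]
    exact ⟨_, h'.mul h⟩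

/-- **The action on the field is cyclic.** -/
theorem exists_cycX [Finite K] [Finite G] {R : Subgroup G} (h : ∀ r ∈ R, ∃ σ g, ActX Φ π r σ g) :
    ∃ c ∈ R, ∀ r ∈ R, ∃ (n : ℤ) (g : E → E), ActX Φ π ((c ^ n)⁻¹ * r) (RingEquiv.refl K) g := by
  have hfin : Finite (K ≃+* K) :=
    Finite.of_injective (fun σ => (σ : K → K)) DFunLike.coe_injective
  let S : Submonoid (G × (K ≃+* K)) :=
    { carrier := {a | a.1 ∈ R ∧ ∃ g, ActX Φ π a.1 a.2 g}
      one_mem' := ⟨R.one_mem, id, ActX.one⟩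
      mul_mem' := by
        rintro ⟨r, σ⟩ ⟨r', σ'⟩ ⟨hr, g, hg⟩ ⟨hr', g', hg'⟩
        exact ⟨R.mul_mem hr hr', g ∘ g', hg.mul hg'⟩ }
  let Γ : Subgroup (G × (K ≃+* K)) :=
    { S with
      inv_mem' := by
        intro a ha
        have h1 : a⁻¹ = a ^ (orderOf a - 1) := by
          symm
          refine eq_inv_of_mul_eq_one_left ?_
          rw [← pow_succ, Nat.sub_add_cancel (orderOf_pos a), pow_orderOf_eq_one]
        rw [h1]
        exact S.pow_mem ha _ }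
  have hΓ : ∀ a, a ∈ Γ ↔ a.1 ∈ R ∧ ∃ g, ActX Φ π a.1 a.2 g := fun a => Iff.rfl
  have hcyc : IsCyclic (K ≃+* K) := isCyclic_ringAut K
  obtain ⟨⟨t, ht⟩, hgen⟩ := IsCyclic.exists_generator
    (α := (Γ.map (MonoidHom.snd G (K ≃+* K)) : Subgroup (K ≃+* K)))
  obtain ⟨a, ha, rfl⟩ := ht
  refine ⟨a.1, ((hΓ a).mp ha).1, fun r hr => ?_⟩
  obtain ⟨σ, g, hg⟩ := h r hr
  have h1 : (r, σ) ∈ Γ := (hΓ _).mpr ⟨hr, g, hg⟩
  obtain ⟨n, hn⟩ := Subgroup.mem_zpowers_iff.mp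
    (hgen ⟨(MonoidHom.snd G (K ≃+* K)) (r, σ), (r, σ), h1, rfl⟩)
  have h2 : a.2 ^ n = σ := congrArg Subtype.val hn
  have h3 : (a ^ n)⁻¹ * (r, σ) ∈ Γ := Γ.mul_mem (Γ.inv_mem (Γ.zpow_mem ha n)) h1
  obtain ⟨-, g', hg'⟩ := (hΓ _).mp h3
  refine ⟨n, g', ?_⟩
  have h4 : ((a ^ n)⁻¹ * (r, σ)).2 = 1 := by
    change (a.2 ^ n)⁻¹ * σ = 1
    rw [h2, inv_mul_cancel]
  rw [h4] at hg'
  exact hg'

theorem kerX_pow {p : ℕ} [Fact p.Prime] (hkp : ¬ p ∣ Nat.card π.ker) {z : X}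
    (hz : z ∈ π.ker) {m : ℕ} (hm : z ^ (p ^ m) = 1) : z = 1 := by
  have h3 : z ^ Nat.card π.ker = 1 :=
    congrArg Subtype.val (pow_card_eq_one' (x := (⟨z, hz⟩ : π.ker)))
  have h4 : z ^ Nat.gcd (p ^ m) (Nat.card π.ker) = 1 := pow_gcd_eq_one.mpr ⟨hm, h3⟩
  have h5 : Nat.Coprime (p ^ m) (Nat.card π.ker) :=
    Nat.Coprime.pow_left _ ((Nat.Prime.coprime_iff_not_dvd Fact.out).mpr hkp)
  rwa [h5.gcd_eq_one, pow_one] at h4

variable [FiniteDimensional K E]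

/-- the action on a `p`-subgroup -/
theorem exists_phiX [Finite K] {p : ℕ} [Fact p.Prime] (hk : π.ker ≤ Subgroup.center X)
    (hkp : ¬ p ∣ Nat.card π.ker) {R : Subgroup G} {Q : Subgroup X}
    (hQ : IsPGroup p Q) (hQR : Q.map π = R.subgroupOf L) {r : G} (hr : r ∈ R) {σ : K ≃+* K}
    {g : E → E} (h : ActX Φ π r σ g) : ∃ φ : Q.map X.subtype → Q.map X.subtype,
      Function.Surjective φ ∧ ∀ x : Q.map X.subtype,
        Tw g (x : SpecialLinearGroup K E) (φ x : SpecialLinearGroup K E) := by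
  have hfG : Finite (SpecialLinearGroup K E) := finite_sl
  have key : ∀ x : Q.map X.subtype, ∃ y : Q.map X.subtype,
      Tw g (x : SpecialLinearGroup K E) (y : SpecialLinearGroup K E) := by
    rintro ⟨_, x, hx, rfl⟩
    obtain ⟨y, hy, hxy⟩ := h.2.2 x
    have h1 : ((π x : L) : G) ∈ R := by
      have h2 : π x ∈ R.subgroupOf L := by rw [← hQR]; exact ⟨x, hx, rfl⟩
      exact h2
    have h2 : π y ∈ Q.map π := by
      rw [hQR]
      change ((π y : L) : G) ∈ R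
      rw [← hxy]
      exact R.mul_mem (R.mul_mem hr h1) (R.inv_mem hr)
    obtain ⟨q, hq, hqy⟩ := h2
    have hzk : q⁻¹ * y ∈ π.ker := by
      rw [MonoidHom.mem_ker, map_mul, map_inv, hqy, inv_mul_cancel]
    obtain ⟨m₁, hm₁⟩ := hQ ⟨x, hx⟩
    obtain ⟨m₂, hm₂⟩ := hQ ⟨q, hq⟩
    have h3 : y ^ (p ^ m₁) = 1 := by
      have h4 := hy.pow (p ^ m₁)
      have h5 : x ^ (p ^ m₁) = 1 := congrArg Subtype.val hm₁
      have h6 : (x : SpecialLinearGroup K E) ^ (p ^ m₁) = 1 := congrArg Subtype.val h5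
      rw [h6] at h4
      exact Subtype.ext (Tw.unique h.1.bij.2 h4 Tw.one)
    have h4 : q ^ (p ^ m₂) = 1 := congrArg Subtype.val hm₂
    have h5 : (q⁻¹ * y) ^ (p ^ (m₁ + m₂)) = 1 := by
      have h6 : Commute q (q⁻¹ * y) := Subgroup.mem_center_iff.mp (hk hzk) q
      have h7 : (q * (q⁻¹ * y)) ^ (p ^ (m₁ + m₂)) = q ^ (p ^ (m₁ + m₂)) *
        (q⁻¹ * y) ^ (p ^ (m₁ + m₂)) := h6.mul_pow _
      have h8 : y ^ (p ^ (m₁ + m₂)) = 1 := by rw [pow_add, pow_mul, h3, one_pow]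
      have h9 : q ^ (p ^ (m₁ + m₂)) = 1 := by rw [pow_add, mul_comm, pow_mul, h4, one_pow]
      rw [mul_inv_cancel_left, h8, h9, one_mul] at h7
      exact h7.symm
    have h6 := kerX_pow hkp hzk h5
    have h7 : y = q := by
      have h8 : y = q * (q⁻¹ * y) := by group
      rw [h8, h6, mul_one]
    rw [h7] at hy
    exact ⟨⟨q.1, q, hq, rfl⟩, hy⟩
  choose φ hφ using key
  refine ⟨φ, Finite.surjective_of_injective fun x x' hxx => Subtype.ext ?_, hφ⟩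
  refine SpecialLinearGroup.ext _ _ fun v => h.1.bij.1 ?_
  have h1 := hφ x v
  have h2 := hφ x' v
  rw [h1, h2, hxx]

/-- the period -/
theorem ActX.per [Finite K] {r : G} {σ : K ≃+* K} {g : E → E} (h : ActX Φ π r σ g)
    (hk : π.ker.map X.subtype ≤ Subgroup.center (SpecialLinearGroup K E))
    (hV : ∀ F, Φ.SD F → VF F ⊓ Φ.Iso ≤ X) (hL : Lines Φ) {n : ℕ} (hr : r ^ n = 1) (v : E) :
    ∃ c : K, g^[n] v = c • v := by
  have hfG : Finite (SpecialLinearGroup K E) := finite_sl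
  obtain ⟨σ', h'⟩ := h.iter n
  refine hL σ' _ h'.1 (fun F hF x hx => ?_) v
  obtain ⟨y, hy, hxy⟩ := h'.2.2 ⟨x, hV F hF hx⟩
  rw [hr, one_mul, inv_one, mul_one] at hxy
  have hzk : x⁻¹ * y.1 ∈ π.ker.map X.subtype := by
    refine ⟨⟨x, hV F hF hx⟩⁻¹ * y, ?_, rfl⟩
    change _ ∈ π.ker
    rw [MonoidHom.mem_ker, map_mul, map_inv, ← Subtype.ext hxy, inv_mul_cancel]
  have hz := hk hzk
  have hxc : x ^ Nat.card (VF F) = 1 :=
    congrArg Subtype.val (pow_card_eq_one' (x := (⟨x, hx.1⟩ : VF F)))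
  have hyc : y.1 ^ Nat.card (VF F) = 1 := by
    have h3 := hy.pow (Nat.card (VF F))
    rw [hxc] at h3
    exact Tw.unique h'.1.bij.2 h3 Tw.one
  have hzc : (x⁻¹ * y.1) ^ Nat.card (VF F) = 1 := by
    have h3 : Commute x (x⁻¹ * y.1) := Subgroup.mem_center_iff.mp hz x
    have h4 := h3.mul_pow (Nat.card (VF F))
    rw [mul_inv_cancel_left, hyc, hxc, one_mul] at h4
    exact h4.symm
  have hzc' : (x⁻¹ * y.1) ^ Nat.card (π.ker.map X.subtype) = 1 :=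
    congrArg Subtype.val (pow_card_eq_one' (x := (⟨_, hzk⟩ : π.ker.map X.subtype)))
  have h3 : (x⁻¹ * y.1) ^ Nat.gcd (Nat.card (VF F)) (Nat.card (π.ker.map X.subtype)) = 1 :=
    pow_gcd_eq_one.mpr ⟨hzc, hzc'⟩
  rw [(coprime_center hk F).gcd_eq_one, pow_one] at h3
  have h4 : y.1 = x := by
    have h5 : y.1 = x * (x⁻¹ * y.1) := by group
    rw [h5, h3, mul_one]
  rw [h4] at hy
  exact hy

end Vale.Agent.P180.R2.H799.BS
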