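import Vale.Agent.P180.R2.H799.CB2
import Vale.Agent.P180.R2.H799.BZ1

/-!
P180: the Levi subgroup of a commutative `p`-subgroup of an isometry group: the factors on which
the `p`-group acts, and the rest.
-/

set_option linter.all false

namespace Vale.Agent.P180.R2.H799.CB

open Module Vale.Agent.P180 Vale.Agent.P180.R2.H799 Vale.Agent.P180.R2.H854
  Vale.Agent.P180.R2.H954.Hc

variable {K E : Type} [Field K] [AddCommGroup E] [Module K E] [FiniteDimensional K E]
  [Finite K] {Φ : HForm K E} {Q : Subgroup (SpecialLinearGroup K E)}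

section Defs

variable (D : SDec Φ Q)

/-- the factors of the summands which are not selfdual -/
def AA (i : Fin D.r) : Subgroup (SpecialLinearGroup K E) where
  carrier := {g | g ∈ D.A i ∧ (Fin.rev i = i → g = 1)}
  one_mem' := ⟨(D.A i).one_mem, fun _ => rfl⟩
  mul_mem' := by
    rintro g h ⟨hg, hg'⟩ ⟨hh, hh'⟩
    exact ⟨(D.A i).mul_mem hg hh, fun hi => by rw [hg' hi, hh' hi, one_mul]⟩
  inv_mem' := by
    rintro g ⟨hg, hg'⟩
    exact ⟨(D.A i).inv_mem hg, fun hi => by rw [hg' hi, inv_one]⟩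

/-- the elements of the Levi subgroup which are scalar on each summand which is not selfdual -/
def BB : Subgroup (SpecialLinearGroup K E) where
  carrier := {g | g ∈ D.L ∧ ∀ i, Fin.rev i ≠ i → ∃ c : K, toEnd g * D.e i = c • D.e i}
  one_mem' := ⟨D.L.one_mem, fun i _ => ⟨1, by rw [toEnd_one, one_mul, one_smul]⟩⟩
  mul_mem' := by
    rintro g h ⟨hg, hg'⟩ ⟨hh, hh'⟩
    refine ⟨D.L.mul_mem hg hh, fun i hi => ?_⟩
    obtain ⟨c, hc⟩ := hg' i hi
    obtain ⟨d, hd⟩ := hh' i hi
    exact ⟨d * c, by rw [toEnd_mul, mul_assoc, hd, mul_smul_comm, hc, smul_smul]⟩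
  inv_mem' := by
    rintro g ⟨hg, hg'⟩
    refine ⟨D.L.inv_mem hg, fun i hi => ?_⟩
    obtain ⟨c, hc⟩ := hg' i hi
    have hc0 : c ≠ 0 := by
      rintro rfl
      rw [zero_smul] at hc
      apply D.ne i
      calc D.e i = toEnd g⁻¹ * (toEnd g * D.e i) := by
            rw [← mul_assoc, Dec.toEnd_inv_mul, one_mul]
        _ = 0 := by rw [hc, mul_zero]
    refine ⟨c⁻¹, ?_⟩
    have h1 : toEnd g⁻¹ * (toEnd g * D.e i) = c • (toEnd g⁻¹ * D.e i) := by
      rw [hc, mul_smul_comm]
    rw [← mul_assoc, Dec.toEnd_inv_mul, one_mul] at h1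
    rw [h1, smul_smul, inv_mul_cancel₀ hc0, one_smul]
    rw [← h1]

variable {D}

theorem AA_le (i : Fin D.r) : AA D i ≤ D.A i := fun _ h => h.1

theorem AA_conj {i : Fin D.r} {g h : SpecialLinearGroup K E} (hg : g ∈ D.L) (hh : h ∈ AA D i) :
    g * h * g⁻¹ ∈ AA D i :=
  ⟨SDec.A_conj hg hh.1, fun hi => by rw [hh.2 hi, mul_one, mul_inv_cancel]⟩

theorem BB_conj {g h : SpecialLinearGroup K E} (hg : g ∈ D.L) (hh : h ∈ BB D) :
    g * h * g⁻¹ ∈ BB D := by
  refine ⟨D.L.mul_mem (D.L.mul_mem hg hh.1) (D.L.inv_mem hg), fun i hi => ?_⟩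
  obtain ⟨c, hc⟩ := hh.2 i hi
  have h1 : toEnd g⁻¹ * D.e i = D.e i * toEnd g⁻¹ := (D.L.inv_mem hg).1 i
  refine ⟨c, ?_⟩
  calc toEnd (g * h * g⁻¹) * D.e i = toEnd g * (toEnd h * (toEnd g⁻¹ * D.e i)) := by
        rw [toEnd_mul, toEnd_mul]; simp only [mul_assoc]
    _ = toEnd g * (toEnd h * D.e i) * toEnd g⁻¹ := by rw [h1]; simp only [mul_assoc]
    _ = c • (toEnd g * D.e i * toEnd g⁻¹) := by
        rw [hc, mul_smul_comm, smul_mul_assoc]
    _ = c • D.e i := by
        have h2 : toEnd g * D.e i = D.e i * toEnd g := hg.1 i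
        rw [h2, mul_assoc, Dec.toEnd_mul_inv, mul_one]

/-- The elements of `BB` commute with the factors. -/
theorem BB_comm {i : Fin D.r} {g h : SpecialLinearGroup K E} (hg : g ∈ BB D) (hh : h ∈ AA D i) :
    g * h = h * g := by
  by_cases hi : Fin.rev i = i
  · rw [hh.2 hi, mul_one, one_mul]
  apply toEnd_injective
  rw [toEnd_mul, toEnd_mul]
  apply Dec.ext_e (D := D.toDec)
  intro l
  have hgl : toEnd g * D.e l = D.e l * toEnd g := hg.1.1 l
  have hhl : toEnd h * D.e l = D.e l * toEnd h := hh.1.1.1 l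
  by_cases hl : l = i ∨ l = Fin.rev i
  · have hl' : Fin.rev l ≠ l := by
      rcases hl with rfl | rfl
      · exact hi
      · rw [Fin.rev_rev]; exact Ne.symm hi
    obtain ⟨c, hc⟩ := hg.2 l hl'
    calc toEnd g * toEnd h * D.e l = toEnd g * D.e l * toEnd h := by
          rw [mul_assoc, hhl, mul_assoc]
      _ = c • (toEnd h * D.e l) := by rw [hc, smul_mul_assoc, hhl]
      _ = toEnd h * toEnd g * D.e l := by rw [mul_assoc, hc, mul_smul_comm]
  · push Not at hl
    have h1 : toEnd h * D.e l = D.e l := hh.1.2.1 l hl.1 hl.2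
    calc toEnd g * toEnd h * D.e l = D.e l * toEnd g := by rw [mul_assoc, h1, hgl]
      _ = toEnd h * D.e l * toEnd g := by rw [h1]
      _ = _ := by rw [mul_assoc, ← hgl, mul_assoc]

/-- The elements of `BB` commute with `Q`. -/
theorem BB_cent (hab : ∀ x ∈ Q, ∀ y ∈ Q, x * y = y * x) {g q : SpecialLinearGroup K E}
    (hg : g ∈ BB D) (hq : q ∈ Q) : g * q = q * g := by
  have hqL := SDec.Q_le hab hq (D := D)
  apply toEnd_injective
  rw [toEnd_mul, toEnd_mul]
  apply Dec.ext_e (D := D.toDec)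
  intro l
  have hgl : toEnd g * D.e l = D.e l * toEnd g := hg.1.1 l
  have hql : toEnd q * D.e l = D.e l * toEnd q := hqL.1 l
  by_cases hl : Fin.rev l = l
  · have h1 : toEnd q * D.e l = D.e l := D.triv l hl q hq
    calc toEnd g * toEnd q * D.e l = D.e l * toEnd g := by rw [mul_assoc, h1, hgl]
      _ = toEnd q * D.e l * toEnd g := by rw [h1]
      _ = _ := by rw [mul_assoc, ← hgl, mul_assoc]
  · obtain ⟨c, hc⟩ := hg.2 l hl
    calc toEnd g * toEnd q * D.e l = toEnd g * D.e l * toEnd q := by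
          rw [mul_assoc, hql, mul_assoc]
      _ = c • (toEnd q * D.e l) := by rw [hc, smul_mul_assoc, hql]
      _ = toEnd q * toEnd g * D.e l := by rw [mul_assoc, hc, mul_smul_comm]

theorem pow_mul_e {g : SpecialLinearGroup K E} {i : Fin D.r} {c : K}
    (h : toEnd g * D.e i = c • D.e i) (m : ℕ) : toEnd (g ^ m) * D.e i = c ^ m • D.e i := by
  induction m with
  | zero => rw [pow_zero, pow_zero, toEnd_one, one_mul, one_smul]
  | succ m ih => rw [pow_succ, toEnd_mul, mul_assoc, h, mul_smul_comm, ih, smul_smul, pow_succ']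

/-- `BB` intersects `Q` trivially if `p` does not divide `|K| - 1`. -/
theorem BB_inf {p : ℕ} (hp : p.Prime) (hK1 : ¬ p ∣ Nat.card K - 1) {g : SpecialLinearGroup K E}
    (hg : g ∈ BB D) (hq : g ∈ Q) {m : ℕ} (hm : g ^ p ^ m = 1) : g = 1 := by
  apply toEnd_injective
  rw [toEnd_one]
  apply Dec.ext_e (D := D.toDec)
  intro l
  rw [one_mul]
  by_cases hl : Fin.rev l = l
  · exact D.triv l hl g hq
  · obtain ⟨c, hc⟩ := hg.2 l hl
    have h1 := pow_mul_e hc (p ^ m)
    rw [hm, toEnd_one, one_mul] at h1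
    have h2 : (c ^ p ^ m - 1) • D.e l = 0 := by rw [sub_smul, one_smul, ← h1, sub_self]
    have h3 : c ^ p ^ m = 1 := sub_eq_zero.mp ((smul_eq_zero.mp h2).resolve_right (D.ne l))
    have hc0 : c ≠ 0 := by
      rintro rfl
      rw [zero_pow (pow_ne_zero _ hp.ne_zero)] at h3
      exact zero_ne_one h3
    have h4 : (Units.mk0 c hc0) ^ p ^ m = 1 := Units.ext (by simpa using h3)
    have h5 : orderOf (Units.mk0 c hc0) ∣ Nat.card K - 1 := by
      rw [← Nat.card_units]
      exact orderOf_dvd_natCard _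
    have h6 := Nat.dvd_gcd (orderOf_dvd_of_pow_eq_one h4) h5
    have h7 : Nat.Coprime (p ^ m) (Nat.card K - 1) :=
      Nat.Coprime.pow_left m ((Nat.Prime.coprime_iff_not_dvd hp).mpr hK1)
    rw [Nat.Coprime.gcd_eq_one h7] at h6
    have h8 := orderOf_eq_one_iff.mp (Nat.dvd_one.mp h6)
    have h9 : c = 1 := by simpa using congrArg Units.val h8
    rw [hc, h9, one_smul]

/-- The elements of `Q` are products of elements of the factors which are not selfdual. -/
theorem Q_le_AA [Finite Q] (hab : ∀ x ∈ Q, ∀ y ∈ Q, x * y = y * x)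
    (hQ1 : (Nat.card Q).Coprime (Nat.card K - 1)) : Q ≤ ⨆ i, AA D i := by
  -- the elements which are trivial on the selfdual summand
  let T : Subgroup (SpecialLinearGroup K E) :=
    { carrier := {g | ∀ i : Fin D.r, Fin.rev i = i → toEnd g * D.e i = D.e i}
      one_mem' := fun i _ => by rw [toEnd_one, one_mul]
      mul_mem' := by
        intro g h hg hh i hi
        rw [toEnd_mul, mul_assoc, hh i hi, hg i hi]
      inv_mem' := by
        intro g hg i hi
        conv_lhs => rw [← hg i hi]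
        rw [← mul_assoc, Dec.toEnd_inv_mul, one_mul] }
  intro g hg
  have h1 := SDec.mem_iSup_inf (D := D) (SDec.Q_le hab hg)
    (fun i => SDec.dt_eq_one hab hQ1 hg i) T (by
      intro i h' j hj
      rw [toEnd_mkSL]
      by_cases hji : j ∈ ({i, Fin.rev i} : Finset (Fin D.r))
      · rw [Dec.cp_mul_e_of_mem hji]
        exact D.triv j hj g hg
      · exact Dec.cp_mul_e_of_notMem hji g)
  have h2 : (⨆ i, (D.A i ⊓ T)) ≤ ⨆ i, AA D i := by
    refine iSup_mono fun i => ?_
    rintro x ⟨hx, hxT⟩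
    refine ⟨hx, fun hi => ?_⟩
    apply toEnd_injective
    rw [toEnd_one]
    apply Dec.ext_e (D := D.toDec)
    intro l
    rw [one_mul]
    by_cases hl : l = i
    · rw [hl]; exact hxT i hi
    · exact hx.2.1 l hl (by rw [hi]; exact hl)
  exact h2 h1

/-- `Q` acts on each factor through a cyclic group. -/
theorem cycLev_AA (hab : ∀ x ∈ Q, ∀ y ∈ Q, x * y = y * x) (i : Fin D.r) :
    CycLev Q (AA D i) := by
  obtain ⟨F, _, _, χ, hχ⟩ := D.cyc i
  have htriv : ∀ n ∈ χ.ker.map Q.subtype, n ∈ Q ∧ toEnd n * D.e i = D.e i := by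
    rintro _ ⟨q, hq, rfl⟩
    exact ⟨q.2, (hχ q).mp hq⟩
  refine ⟨χ.ker.map Q.subtype, fun n hn => (htriv n hn).1, ?_, ?_, ?_, ?_⟩
  · intro g hg
    rw [Subgroup.mem_normalizer_iff]
    intro x
    have key : ∀ x ∈ Q, g * x * g⁻¹ = x := fun x hx => by rw [hab g hg x hx, mul_inv_cancel_right]
    constructor
    · intro hx
      rw [key x (htriv x hx).1]
      exact hx
    · intro hx
      have h1 := (htriv _ hx).1
      have h2 : x ∈ Q := by
        have h3 : x = g⁻¹ * (g * x * g⁻¹) * g := by group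
        rw [h3]
        exact Q.mul_mem (Q.mul_mem (Q.inv_mem hg) h1) hg
      rwa [key x h2] at hx
  · intro n hn
    obtain ⟨hnQ, hne⟩ := htriv n hn
    have hnL := SDec.Q_le hab hnQ (D := D)
    rw [Subgroup.mem_centralizer_iff]
    intro a ha
    by_cases hi : Fin.rev i = i
    · rw [ha.2 hi, mul_one, one_mul]
    apply toEnd_injective
    rw [toEnd_mul, toEnd_mul]
    apply Dec.ext_e (D := D.toDec)
    intro l
    have hal : toEnd a * D.e l = D.e l * toEnd a := ha.1.1.1 l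
    have hnl : toEnd n * D.e l = D.e l * toEnd n := hnL.1 l
    by_cases hl : l = i ∨ l = Fin.rev i
    · have h1 : toEnd n * D.e l = D.e l := by
        rcases hl with rfl | rfl
        · exact hne
        · exact SDec.triv_rev hnL hne
      rw [mul_assoc, h1, hal, mul_assoc, hal, ← mul_assoc, h1]
    · push Not at hl
      have h1 : toEnd a * D.e l = D.e l := ha.1.2.1 l hl.1 hl.2
      rw [mul_assoc, hnl, ← mul_assoc, h1, mul_assoc, h1, hnl]
  · rw [eq_bot_iff]
    rintro x ⟨hx, hxA⟩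
    rw [Subgroup.mem_bot]
    obtain ⟨hxQ, hxe⟩ := htriv x hx
    by_cases hi : Fin.rev i = i
    · exact hxA.2 hi
    apply toEnd_injective
    rw [toEnd_one]
    apply Dec.ext_e (D := D.toDec)
    intro l
    rw [one_mul]
    by_cases hl : l = i
    · rw [hl]; exact hxe
    by_cases hl' : l = Fin.rev i
    · rw [hl']; exact SDec.triv_rev (SDec.Q_le hab hxQ (D := D)) hxe
    exact hxA.1.2.1 l hl hl'
  · have hcyc : IsCyclic χ.range := inferInstance
    obtain ⟨⟨_, x, rfl⟩, hx⟩ := hcyc.exists_generator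
    refine ⟨x, x.2, fun y hy => ?_⟩
    obtain ⟨j, hj⟩ := Subgroup.mem_zpowers_iff.mp (hx ⟨χ ⟨y, hy⟩, ⟨_, rfl⟩⟩)
    refine ⟨-j, ⟨⟨y, hy⟩ * x ^ (-j), ?_, rfl⟩⟩
    have h1 : (χ x) ^ j = χ ⟨y, hy⟩ := congrArg Subtype.val hj
    change χ (⟨y, hy⟩ * x ^ (-j)) = 1
    rw [map_mul, map_zpow, ← h1, zpow_neg, mul_inv_cancel]

theorem AA_perfect (hK : 3 < Nat.card K) (i : Fin D.r) :
    ⁅AA D i, AA D i⁆ = AA D i := by
  by_cases hi : Fin.rev i = i
  · have h1 : AA D i = ⊥ := by
      rw [Subgroup.eq_bot_iff_forall]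
      intro x hx
      exact hx.2 hi
    rw [h1, Subgroup.commutator_bot_left]
  · have h1 : AA D i = D.A i := le_antisymm (AA_le i) fun x hx => ⟨hx, fun h => absurd h hi⟩
    rw [h1]
    exact sdec_perfect D hK hi

/-- The index in the Levi subgroup. -/
theorem relIndex_le : (BB D ⊔ ⨆ i, AA D i).relIndex D.L ≤ finrank K E ^ finrank K E := by
  have hfinG : Finite (SpecialLinearGroup K E) := SDec.finite_sl
  have h1 : D.Z ⊔ ⨆ i, D.A i ≤ BB D ⊔ ⨆ i, AA D i := by
    refine sup_le (fun z hz => Subgroup.mem_sup_left ⟨SDec.Z_le hz, fun i _ => ?_⟩)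
      (iSup_le fun i => ?_)
    · obtain ⟨c, hc⟩ := Dec.mem_Z hz.1
      exact ⟨c i, by rw [hc]; exact Dec.sc_mul_e _ i⟩
    · by_cases hi : Fin.rev i = i
      · intro x hx
        refine Subgroup.mem_sup_left ⟨hx.1, fun j hj => ⟨1, ?_⟩⟩
        have hji : j ≠ i := by rintro rfl; exact hj hi
        rw [one_smul]
        exact hx.2.1 j hji (by rw [hi]; exact hji)
      · refine le_trans (fun x hx => ?_) (le_trans (le_iSup (AA D) i) le_sup_right)
        exact ⟨hx, fun h => absurd h hi⟩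
  exact (Subgroup.relIndex_le_of_le_left h1 Subgroup.index_ne_zero_of_finite).trans
    (SDec.relIndex_le.trans Dec.prod_n_le)

end Defs

end Vale.Agent.P180.R2.H799.CB
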