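import Vale.Agent.P180.R2.H799.CA3
import Vale.Agent.P180.R2.H799.CB3
import Vale.Agent.P180.R2.H854.TD4

/-!
P180: the Levi subgroups of the isometry groups, for the linear primes not dividing `|K| - 1`.
-/

set_option linter.all false

namespace Vale.Agent.P180.R2.H799.CB

open Module Vale.Agent.P180 Vale.Agent.P180.R2.H799 Vale.Agent.P180.R2.H854
  Vale.Agent.P180.R2.H954.Hc Vale.Agent.P180.R2.H799.CA Vale.Agent.P180.R2.H854.TD
  Vale.Agent.P180.R2.H471.Hd Vale.Agent.P180.R2.H471.Hc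

section Grp

variable {G : Type*} [Group G]

theorem perfect_le_of_relIndex {X I A : Subgroup G} (hX2 : X.relIndex I ∣ 2) (hA : A ≤ I)
    (hp : ⁅A, A⁆ = A) : A ≤ X := by
  rw [← hp, Subgroup.commutator_le]
  intro a ha b hb
  rcases (Nat.dvd_prime Nat.prime_two).mp hX2 with h | h
  · have h1 : I ≤ X := Subgroup.relIndex_eq_one.mp h
    have h2 : ∀ x ∈ A, x ∈ X := fun x hx => h1 (hA hx)
    rw [commutatorElement_def]
    exact X.mul_mem (X.mul_mem (X.mul_mem (h2 a ha) (h2 b hb)) (X.inv_mem (h2 a ha)))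
      (X.inv_mem (h2 b hb))
  · have h1 : (X.subgroupOf I).index = 2 := h
    have h2 : (⟨a, hA ha⟩ * ⟨b, hA hb⟩ * (⟨a, hA ha⟩ : I)⁻¹ * (⟨b, hA hb⟩ : I)⁻¹ : I) ∈
        X.subgroupOf I := by
      rw [Subgroup.mul_mem_iff_of_index_two h1, Subgroup.mul_mem_iff_of_index_two h1,
        Subgroup.mul_mem_iff_of_index_two h1, inv_mem_iff, inv_mem_iff]
      tauto
    rw [commutatorElement_def]
    exact h2

theorem mem_sup_comm {A B : Subgroup G} (h : ∀ a ∈ A, ∀ b ∈ B, a * b = b * a) {x : G}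
    (hx : x ∈ A ⊔ B) : ∃ a ∈ A, ∃ b ∈ B, x = a * b := by
  let T : Subgroup G :=
    { carrier := {x | ∃ a ∈ A, ∃ b ∈ B, x = a * b}
      one_mem' := ⟨1, A.one_mem, 1, B.one_mem, by simp⟩
      mul_mem' := by
        rintro _ _ ⟨a, ha, b, hb, rfl⟩ ⟨c, hc, d, hd, rfl⟩
        refine ⟨a * c, A.mul_mem ha hc, b * d, B.mul_mem hb hd, ?_⟩
        calc a * b * (c * d) = a * (b * c) * d := by group
          _ = a * (c * b) * d := by rw [h c hc b hb]
          _ = _ := by group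
      inv_mem' := by
        rintro _ ⟨a, ha, b, hb, rfl⟩
        refine ⟨a⁻¹, A.inv_mem ha, b⁻¹, B.inv_mem hb, ?_⟩
        rw [mul_inv_rev, h a⁻¹ (A.inv_mem ha) b⁻¹ (B.inv_mem hb)] }
  have h1 : A ⊔ B ≤ T := sup_le (fun a ha => ⟨a, ha, 1, B.one_mem, by simp⟩)
    fun b hb => ⟨1, A.one_mem, b, hb, by simp⟩
  exact h1 hx

end Grp

variable {K E : Type} [Field K] [AddCommGroup E] [Module K E] [FiniteDimensional K E]
  [Finite K]

/-- the bound -/
def lvM (d : ℕ) : ℕ := max (cIsoM d) (max (d + 2) (d ^ d))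

/-- **The Levi subgroup of a commutative `p`-subgroup.** -/
theorem levSubP_form {p : ℕ} (hp : p.Prime) (Φ : HForm K E)
    {X : Subgroup (SpecialLinearGroup K E)} (hXI : X ≤ Φ.Iso) (hX2 : X.relIndex Φ.Iso ∣ 2)
    (hV : ∀ F : Flag K E, Φ.SD F → VF F ⊓ Φ.Iso ≤ X)
    (hN : ∀ F : Flag K E, Φ.SD F →
      Subgroup.normalizer (((VF F).subgroupOf X : Subgroup X) : Set X) = (PF F).subgroupOf X)
    (hK : ¬ p ∣ Nat.card K) (hK1 : ¬ p ∣ Nat.card K - 1) (hK3 : 3 < Nat.card K)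
    (hlin : ∀ j : ℕ, (∀ c, Φ.θ c = c ^ (ringChar K ^ j)) → ¬ p ∣ ringChar K ^ j + 1)
    {Q : Subgroup X} (hQ : IsPGroup p Q) (hab : ∀ x ∈ Q, ∀ y ∈ Q, x * y = y * x)
    {m : ℕ} (hm : lvM (finrank K E) ≤ m) :
    ∃ F : Flag K E, Φ.SD F ∧ ∃ M : Subgroup X, LevSubP m ((VF F).subgroupOf X) M Q := by
  classical
  have hfinG : Finite (SpecialLinearGroup K E) := SDec.finite_sl
  have hpF : Fact p.Prime := ⟨hp⟩
  have hm1 : finrank K E + 2 ≤ m :=
    ((le_max_left _ _).trans (le_max_right _ _)).trans hm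
  have hm2 : finrank K E ^ finrank K E ≤ m :=
    ((le_max_right _ _).trans (le_max_right _ _)).trans hm
  -- the subgroup of the special linear group
  set Q' : Subgroup (SpecialLinearGroup K E) := Q.map X.subtype with hQ'
  have hQ'p : IsPGroup p Q' := hQ.map _
  have hQ'X : Q' ≤ X := by
    rintro _ ⟨x, -, rfl⟩
    exact x.2
  have hQQ' : ∀ x ∈ Q, (x : SpecialLinearGroup K E) ∈ Q' := fun x hx => ⟨x, hx, rfl⟩
  have hQ'Q : ∀ x : X, (x : SpecialLinearGroup K E) ∈ Q' → x ∈ Q := by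
    rintro x ⟨y, hy, hyx⟩
    rwa [← (Subtype.ext hyx : y = x)]
  have hab' : ∀ x ∈ Q', ∀ y ∈ Q', x * y = y * x := by
    rintro _ ⟨x, hx, rfl⟩ _ ⟨y, hy, rfl⟩
    exact congrArg Subtype.val (hab x hx y hy)
  obtain ⟨l, hl⟩ := IsPGroup.iff_card.mp hQ'p
  have hcop : (Nat.card K).Coprime (Nat.card Q') := by
    rw [hl]
    exact (Nat.Coprime.pow_left l ((Nat.Prime.coprime_iff_not_dvd hp).mpr hK)).symm
  have hcop1 : (Nat.card Q').Coprime (Nat.card K - 1) := by
    rw [hl]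
    exact Nat.Coprime.pow_left l ((Nat.Prime.coprime_iff_not_dvd hp).mpr hK1)
  obtain ⟨D₀, hD1, hD2⟩ := exists_sdec Φ hp hQ'p hcop (hQ'X.trans hXI) hab' hlin
  let D : SDec Φ Q' := { D₀ with adj_e := hD1, triv := hD2, le := hQ'X.trans hXI }
  have hr : D.r ≤ finrank K E := Dec.r_le
  have hAAp : ∀ i, ⁅AA D i, AA D i⁆ = AA D i := AA_perfect hK3
  have hAAL : ∀ i, AA D i ≤ D.L := fun i => (AA_le i).trans (SDec.A_le_L i)
  have hAAX : ∀ i, AA D i ≤ X := fun i =>
    perfect_le_of_relIndex hX2 ((hAAL i).trans inf_le_right) (hAAp i)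
  have hQAA : Q' ≤ ⨆ i, AA D i := Q_le_AA hab' hcop1
  have hsub : ∀ {H : Subgroup (SpecialLinearGroup K E)}, H ≤ X → (H.subgroupOf X).map X.subtype = H :=
    fun h => Subgroup.map_subgroupOf_eq_of_le h
  have hcent : ∀ g : X, g ∈ Subgroup.centralizer (Q : Set X) →
      (g : SpecialLinearGroup K E) ∈ Subgroup.centralizer (Q' : Set (SpecialLinearGroup K E)) := by
    intro g hg
    rw [Subgroup.mem_centralizer_iff] at hg ⊢
    rintro _ ⟨x, hx, rfl⟩
    exact congrArg Subtype.val (hg x hx)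
  have hQA : Q ≤ ⨆ i, (AA D i).subgroupOf X := by
    intro x hx
    have h1 := hQAA (hQQ' x hx)
    have h2 : (⨆ i, AA D i) = (⨆ i, (AA D i).subgroupOf X).map X.subtype := by
      rw [Subgroup.map_iSup]
      exact iSup_congr fun i => (hsub (hAAX i)).symm
    rw [h2] at h1
    obtain ⟨y, hy, hyx⟩ := h1
    rwa [← (Subtype.ext hyx : y = x)]
  refine ⟨D.flag, SDec.sd_flag, D.L.subgroupOf X, ?_, ?_, ?_, ?_, D.r,
    fun i => (AA D i).subgroupOf X, (BB D).subgroupOf X, by omega, ?_, ?_, ?_,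
    ⟨?_, ?_, ?_, ?_⟩, ?_, ?_⟩
  · rw [eq_bot_iff]
    rintro x ⟨hx, hxL⟩
    have hxL' : (x : SpecialLinearGroup K E) ∈ D.L := hxL
    have h1 : (x : SpecialLinearGroup K E) ∈ VF D.flag ⊓ D.toDec.L := ⟨hx, hxL'.1⟩
    rw [Dec.VF_inf_L, Subgroup.mem_bot] at h1
    exact Subgroup.mem_bot.mpr (Subtype.ext h1)
  · rw [hN _ SDec.sd_flag]
    apply le_antisymm
    · exact sup_le (fun x hx => VF_le_PF _ hx) fun x hx => SDec.L_le_PF hx
    · intro x hx
      obtain ⟨g, hg, u, hu, huI, hxe⟩ := SDec.exists_levi (D := D) hx (hXI x.2)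
      have huX : u ∈ X := hV _ SDec.sd_flag ⟨hu, huI⟩
      have hgX : g ∈ X := by
        have h1 : g = (x : SpecialLinearGroup K E) * u⁻¹ := by
          change g = X.subtype x * u⁻¹
          rw [hxe, mul_inv_cancel_right]
        rw [h1]
        exact X.mul_mem x.2 (X.inv_mem huX)
      have h2 : x = (⟨g, hgX⟩ : X) * ⟨u, huX⟩ := Subtype.ext hxe
      rw [h2]
      exact Subgroup.mul_mem _ (Subgroup.mem_sup_right hg) (Subgroup.mem_sup_left hu)
  · exact fun x hx => SDec.Q_le hab' (hQQ' x hx)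
  · exact fun g hg => SDec.cent_le (hXI g.2) (hcent g hg)
  · intro j
    refine ⟨fun x hx => hAAL j hx, ?_, ?_, ?_⟩
    · intro g hg
      rw [Subgroup.mem_normalizer_iff]
      have key : ∀ g x : X, (g : SpecialLinearGroup K E) ∈ D.L → x ∈ (AA D j).subgroupOf X →
          g * x * g⁻¹ ∈ (AA D j).subgroupOf X := fun g x hg hx => AA_conj hg hx
      intro x
      refine ⟨key g x hg, fun hx => ?_⟩
      have h1 := key g⁻¹ _ (D.L.inv_mem hg) hx
      have h2 : g⁻¹ * (g * x * g⁻¹) * g⁻¹⁻¹ = x := by group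
      rwa [h2] at h1
    · obtain ⟨N, h1, h2, h3, h4, x₀, hx₀, h5⟩ := cycLev_AA (D := D) hab' j
      refine ⟨N.subgroupOf X, fun x hx => hQ'Q x (h1 hx), ?_, ?_, ?_, ?_⟩
      · intro g hg
        rw [Subgroup.mem_normalizer_iff]
        intro x
        exact Subgroup.mem_normalizer_iff.mp (h2 (hQQ' g hg)) x
      · intro n hn
        rw [Subgroup.mem_centralizer_iff]
        intro a ha
        exact Subtype.ext (Subgroup.mem_centralizer_iff.mp (h3 hn) a ha)
      · rw [eq_bot_iff]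
        rintro x ⟨hx, hxA⟩
        have h6 : (x : SpecialLinearGroup K E) ∈ N ⊓ AA D j := ⟨hx, hxA⟩
        rw [h4, Subgroup.mem_bot] at h6
        exact Subgroup.mem_bot.mpr (Subtype.ext h6)
      · obtain ⟨x₁, hx₁, rfl⟩ := hx₀
        refine ⟨x₁, hx₁, fun y hy => ?_⟩
        obtain ⟨i, hi⟩ := h5 y (hQQ' y hy)
        exact ⟨i, hi⟩
    · apply Subgroup.map_injective X.subtype_injective
      rw [Subgroup.map_commutator, hsub (hAAX j), hAAp j]
  · intro i j hij x hx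
    rw [Subgroup.mem_centralizer_iff]
    intro y hy
    exact Subtype.ext (SDec.A_comm hij.symm (AA_le j hy) (AA_le i hx))
  · intro j x hx
    rw [Subgroup.mem_centralizer_iff]
    intro y hy
    exact Subtype.ext (BB_comm hx hy).symm
  · exact fun x hx => hx.1
  · intro g hg
    rw [Subgroup.mem_normalizer_iff]
    have key : ∀ g x : X, (g : SpecialLinearGroup K E) ∈ D.L → x ∈ (BB D).subgroupOf X →
        g * x * g⁻¹ ∈ (BB D).subgroupOf X := fun g x hg hx => BB_conj hg hx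
    intro x
    refine ⟨key g x hg, fun hx => ?_⟩
    have h1 := key g⁻¹ _ (D.L.inv_mem hg) hx
    have h2 : g⁻¹ * (g * x * g⁻¹) * g⁻¹⁻¹ = x := by group
    rwa [h2] at h1
  · intro b hb
    rw [Subgroup.mem_centralizer_iff]
    intro q hq
    exact Subtype.ext (BB_cent hab' hb (hQQ' q hq)).symm
  · rw [eq_bot_iff]
    rintro x ⟨hx, hxQ⟩
    obtain ⟨i, hi⟩ := hQ ⟨x, hxQ⟩
    have h1 : (x : SpecialLinearGroup K E) ^ p ^ i = 1 :=
      congrArg (fun w : Q => (w.1 : SpecialLinearGroup K E)) hi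
    exact Subgroup.mem_bot.mpr (Subtype.ext (BB_inf hp hK1 hx (hQQ' x hxQ) h1))
  · intro g hg q hq
    refine Subgroup.mem_sup_left ?_
    have h1 : (⨆ i, (AA D i).subgroupOf X) ≤
        (⨆ i, (AA D i).subgroupOf X).comap (MulAut.conj g).toMonoidHom := by
      conv_lhs => rw [← iSup_congr fun _ => rfl]
      refine iSup_le fun i x hx => ?_
      exact (le_iSup (fun i => (AA D i).subgroupOf X) i) (AA_conj hg hx)
    exact h1 (hQA hq)
  · set W := BB D ⊔ ⨆ i, AA D i with hW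
    have h1 : W ⊓ (D.L ⊓ X) ≤ ((BB D ⊓ X) ⊔ ⨆ i, AA D i) := by
      rintro x ⟨hx, -, hxX⟩
      obtain ⟨b, hb, a, ha, rfl⟩ := mem_sup_comm (A := BB D) (B := ⨆ i, AA D i) (by
        intro b hb a ha
        have h2 : (⨆ i, AA D i) ≤ Subgroup.centralizer {b} := iSup_le fun i a ha => by
          rw [Subgroup.mem_centralizer_singleton_iff]
          exact (BB_comm hb ha).symm
        exact (Subgroup.mem_centralizer_singleton_iff.mp (h2 ha)).symm) hx
      have haX : a ∈ X := (iSup_le hAAX) ha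
      have hbX : b ∈ X := by
        have h2 : b = b * a * a⁻¹ := by group
        rw [h2]
        exact X.mul_mem hxX (X.inv_mem haX)
      exact Subgroup.mul_mem_sup ⟨hb, hbX⟩ ha
    have h2 : ((BB D).subgroupOf X ⊔ ⨆ i, (AA D i).subgroupOf X).relIndex (D.L.subgroupOf X) =
        ((BB D ⊓ X) ⊔ ⨆ i, AA D i).relIndex (D.L ⊓ X) := by
      rw [← Subgroup.relIndex_map_map_of_injective _ _ X.subtype_injective, Subgroup.map_sup,
        Subgroup.map_iSup, map_subgroupOf', map_subgroupOf',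
        iSup_congr fun i => hsub (hAAX i)]
    rw [h2]
    refine (Subgroup.relIndex_le_of_le_left h1 Subgroup.index_ne_zero_of_finite).trans ?_
    rw [Subgroup.inf_relIndex_right]
    refine (Subgroup.relIndex_le_of_le_right inf_le_left Subgroup.index_ne_zero_of_finite).trans ?_
    exact relIndex_le.trans hm2

end Vale.Agent.P180.R2.H799.CB
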