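import Vale.Agent.P180.H768.Brauer

/-!
P180: split parabolic systems; the double cosets of two parabolic subgroups which are associate.
-/

set_option linter.all false

namespace Vale.Agent.P180.R2.H799.BN

open Vale.Agent.P180 Vale.Agent.P180.H768.Gd

variable {p : ℕ} [Fact p.Prime] {G : Type*} [Group G] [Finite G]

/-- the normaliser -/
abbrev Nm (V : Subgroup G) : Subgroup G := Subgroup.normalizer (V : Set G)

/-- the centraliser -/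
abbrev Ce (Z : Subgroup G) : Subgroup G := Subgroup.centralizer (Z : Set G)

theorem mem_Ce {Z : Subgroup G} {x : G} : x ∈ Ce Z ↔ ∀ z ∈ Z, z * x = x * z :=
  Subgroup.mem_centralizer_iff

theorem mem_Nm {V : Subgroup G} {x : G} : x ∈ Nm V ↔ ∀ v, v ∈ V ↔ x * v * x⁻¹ ∈ V :=
  Subgroup.mem_normalizer_iff

/-- `N(V)` is the semidirect product of `V` and `C(Z)`. -/
structure Lv (V Z : Subgroup G) : Prop where
  inf : ∀ x ∈ V, x ∈ Ce Z → x = 1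
  le : Ce Z ≤ Nm V
  cov : ∀ x ∈ Nm V, ∃ v ∈ V, ∃ c ∈ Ce Z, x = v * c

/-- `Z` is the largest `p`-subgroup of the centre of its centraliser. -/
structure Mx (p : ℕ) (Z : Subgroup G) : Prop where
  pg : IsPGroup p Z
  ab : ∀ x ∈ Z, ∀ y ∈ Z, x * y = y * x
  max : ∀ x ∈ Ce Z, (∀ y ∈ Ce Z, x * y = y * x) → (∃ m : ℕ, x ^ (p ^ m) = 1) → x ∈ Z

theorem Mx.le {Z : Subgroup G} (h : Mx p Z) : Z ≤ Ce Z := fun x hx =>
  mem_Ce.mpr fun y hy => h.ab y hy x hx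

theorem Nm_mul_mem {V : Subgroup G} {x v : G} (hx : x ∈ Nm V) (hv : v ∈ V) : x * v * x⁻¹ ∈ V :=
  (mem_Nm.mp hx v).mp hv

theorem Nm_inv_mul_mem {V : Subgroup G} {x v : G} (hx : x ∈ Nm V) (hv : v ∈ V) :
    x⁻¹ * v * x ∈ V := by
  have := Nm_mul_mem ((Nm V).inv_mem hx) hv
  rwa [inv_inv] at this

theorem le_Nm (V : Subgroup G) : V ≤ Nm V := Subgroup.le_normalizer

theorem mem_Nm_conjS {V : Subgroup G} {g x : G} : x ∈ Nm (conjS g V) ↔ g⁻¹ * x * g ∈ Nm V := by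
  rw [mem_Nm, mem_Nm]
  constructor
  · intro h v
    have h1 := h (g * v * g⁻¹)
    rw [mem_conjS, mem_conjS] at h1
    have e1 : g⁻¹ * (g * v * g⁻¹) * g = v := by group
    have e2 : g⁻¹ * (x * (g * v * g⁻¹) * x⁻¹) * g = g⁻¹ * x * g * v * (g⁻¹ * x * g)⁻¹ := by group
    rw [e1, e2] at h1
    exact h1
  · intro h v
    have h1 := h (g⁻¹ * v * g)
    rw [mem_conjS, mem_conjS]
    have e2 : g⁻¹ * (x * v * x⁻¹) * g = g⁻¹ * x * g * (g⁻¹ * v * g) * (g⁻¹ * x * g)⁻¹ := by group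
    rw [e2]
    exact h1

theorem mem_Ce_conjS {Z : Subgroup G} {g x : G} : x ∈ Ce (conjS g Z) ↔ g⁻¹ * x * g ∈ Ce Z := by
  rw [mem_Ce, mem_Ce]
  constructor
  · intro h z hz
    have h1 := h (g * z * g⁻¹) (mem_conjS.mpr (by simpa [mul_assoc] using hz))
    calc z * (g⁻¹ * x * g) = g⁻¹ * ((g * z * g⁻¹) * x) * g := by group
      _ = g⁻¹ * (x * (g * z * g⁻¹)) * g := by rw [h1]
      _ = _ := by group
  · intro h z hz
    have h1 := h _ (mem_conjS.mp hz)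
    calc z * x = g * ((g⁻¹ * z * g) * (g⁻¹ * x * g)) * g⁻¹ := by group
      _ = g * ((g⁻¹ * x * g) * (g⁻¹ * z * g)) * g⁻¹ := by rw [h1]
      _ = _ := by group

theorem Lv.conj {V Z : Subgroup G} (h : Lv V Z) (g : G) : Lv (conjS g V) (conjS g Z) := by
  refine ⟨?_, ?_, ?_⟩
  · intro x hx hx'
    have h1 := h.inf _ (mem_conjS.mp hx) (mem_Ce_conjS.mp hx')
    have h2 : x = g * (g⁻¹ * x * g) * g⁻¹ := by group
    rw [h2, h1]; group
  · intro x hx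
    exact mem_Nm_conjS.mpr (h.le (mem_Ce_conjS.mp hx))
  · intro x hx
    obtain ⟨v, hv, c, hc, hx'⟩ := h.cov _ (mem_Nm_conjS.mp hx)
    refine ⟨g * v * g⁻¹, mem_conjS.mpr (by simpa [mul_assoc] using hv), g * c * g⁻¹,
      mem_Ce_conjS.mpr (by simpa [mul_assoc] using hc), ?_⟩
    calc x = g * (g⁻¹ * x * g) * g⁻¹ := by group
      _ = g * (v * c) * g⁻¹ := by rw [hx']
      _ = _ := by group

theorem Mx.conj {Z : Subgroup G} (h : Mx p Z) (g : G) : Mx p (conjS g Z) := by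
  refine ⟨h.pg.map _, ?_, ?_⟩
  · intro x hx y hy
    have h1 := h.ab _ (mem_conjS.mp hx) _ (mem_conjS.mp hy)
    calc x * y = g * ((g⁻¹ * x * g) * (g⁻¹ * y * g)) * g⁻¹ := by group
      _ = g * ((g⁻¹ * y * g) * (g⁻¹ * x * g)) * g⁻¹ := by rw [h1]
      _ = _ := by group
  · rintro x hx hc ⟨m, hm⟩
    refine mem_conjS.mpr (h.max _ (mem_Ce_conjS.mp hx) ?_ ⟨m, ?_⟩)
    · intro y hy
      have h1 := hc (g * y * g⁻¹) (mem_Ce_conjS.mpr (by simpa [mul_assoc] using hy))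
      calc g⁻¹ * x * g * y = g⁻¹ * (x * (g * y * g⁻¹)) * g := by group
        _ = g⁻¹ * ((g * y * g⁻¹) * x) * g := by rw [h1]
        _ = _ := by group
    · have h2 : (g⁻¹ * x * g) ^ (p ^ m) = g⁻¹ * x ^ (p ^ m) * g := by
        have := conj_pow (a := g⁻¹) (b := x) (i := p ^ m)
        rwa [inv_inv] at this
      rw [h2, hm]; group

/-- A `p`-subgroup of `V E`, where `V` has order prime to `p`, is `V`-conjugate into `E`. -/
theorem exists_conj {A E P V : Subgroup G} (hEA : E ≤ A) (hPA : P ≤ A) (hVA : V ≤ A)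
    (hP : IsPGroup p P) (hV : ¬ p ∣ Nat.card V) (hcov : ∀ a ∈ A, ∃ v ∈ V, v⁻¹ * a ∈ E) :
    ∃ v ∈ V, ∀ x ∈ P, v⁻¹ * x * v ∈ E := by
  let E' : Subgroup A := E.subgroupOf A
  have hcard : ¬ p ∣ Nat.card (A ⧸ E') := by
    let _ : MulAction V (A ⧸ E') := MulAction.compHom _ (Subgroup.inclusion hVA)
    have hsm : ∀ (v : V) (a : A), v • (a : A ⧸ E') = ((Subgroup.inclusion hVA v * a : A) : A ⧸ E') :=
      fun _ _ => rfl
    have h1 : ∀ q : A ⧸ E', ∃ v : V, v • ((1 : A) : A ⧸ E') = q := by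
      intro q
      obtain ⟨a, rfl⟩ := QuotientGroup.mk_surjective q
      obtain ⟨v, hv, hva⟩ := hcov a a.2
      refine ⟨⟨v, hv⟩, ?_⟩
      rw [hsm, QuotientGroup.eq, mul_one, Subgroup.mem_subgroupOf]
      exact hva
    have h2 : MulAction.IsPretransitive V (A ⧸ E') := by
      refine ⟨fun x y => ?_⟩
      obtain ⟨v, rfl⟩ := h1 x
      obtain ⟨w, rfl⟩ := h1 y
      exact ⟨w * v⁻¹, by rw [← mul_smul, inv_mul_cancel_right]⟩
    intro hdvd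
    apply hV
    rw [← MulAction.index_stabilizer_of_transitive V ((1 : A) : A ⧸ E')] at hdvd
    exact hdvd.trans (Subgroup.index_dvd_card _)
  let _ : MulAction P (A ⧸ E') := MulAction.compHom _ (Subgroup.inclusion hPA)
  have hsm : ∀ (v : P) (a : A), v • (a : A ⧸ E') = ((Subgroup.inclusion hPA v * a : A) : A ⧸ E') :=
    fun _ _ => rfl
  obtain ⟨q, hq⟩ := hP.nonempty_fixed_point_of_prime_not_dvd_card _ hcard
  obtain ⟨a, rfl⟩ := QuotientGroup.mk_surjective q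
  obtain ⟨v, hv, hva⟩ := hcov a a.2
  refine ⟨v, hv, fun x hx => ?_⟩
  have h1 : (⟨x, hx⟩ : P) • ((a : A ⧸ E')) = (a : A ⧸ E') := hq ⟨x, hx⟩
  rw [hsm, eq_comm, QuotientGroup.eq, Subgroup.mem_subgroupOf] at h1
  have h2 : (a : G)⁻¹ * (x * a) ∈ E := h1
  have h3 : v⁻¹ * x * v = (v⁻¹ * a) * ((a : G)⁻¹ * (x * a)) * (v⁻¹ * a)⁻¹ := by group
  rw [h3]
  exact E.mul_mem (E.mul_mem hva h2) (E.inv_mem hva)

/-- the subgroup `V Z` -/
def VZ (V Z : Subgroup G) (hZ : Z ≤ Nm V) : Subgroup G where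
  carrier := {x | ∃ v ∈ V, ∃ z ∈ Z, x = v * z}
  one_mem' := ⟨1, V.one_mem, 1, Z.one_mem, (one_mul 1).symm⟩
  mul_mem' := by
    rintro _ _ ⟨v, hv, z, hz, rfl⟩ ⟨w, hw, y, hy, rfl⟩
    refine ⟨v * (z * w * z⁻¹), V.mul_mem hv (Nm_mul_mem (hZ hz) hw), z * y, Z.mul_mem hz hy, ?_⟩
    group
  inv_mem' := by
    rintro _ ⟨v, hv, z, hz, rfl⟩
    refine ⟨z⁻¹ * v⁻¹ * z, Nm_inv_mul_mem (hZ hz) (V.inv_mem hv), z⁻¹, Z.inv_mem hz, ?_⟩
    group

theorem mem_VZ {V Z : Subgroup G} {hZ : Z ≤ Nm V} {x : G} :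
    x ∈ VZ V Z hZ ↔ ∃ v ∈ V, ∃ z ∈ Z, x = v * z := Iff.rfl

theorem comm_mod {V : Subgroup G} {x y w u : G} (hx : x ∈ Nm V) (hy : y ∈ Nm V) (hw : w ∈ V)
    (hu : u ∈ V) (h : (w * x) * (u * y) * (w * x)⁻¹ * (u * y)⁻¹ ∈ V) : x * y * x⁻¹ * y⁻¹ ∈ V := by
  have e1 : x * y * x⁻¹ * y⁻¹ = (w * (x * u * x⁻¹))⁻¹ *
      ((w * x) * (u * y) * (w * x)⁻¹ * (u * y)⁻¹) * ((y * w⁻¹ * y⁻¹) * u⁻¹)⁻¹ := by group
  rw [e1]
  exact V.mul_mem (V.mul_mem (V.inv_mem (V.mul_mem hw (Nm_mul_mem hx hu))) h)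
    (V.inv_mem (V.mul_mem (Nm_mul_mem hy (V.inv_mem hw)) (V.inv_mem hu)))

theorem pow_mod {V : Subgroup G} {w c : G} (hw : w ∈ V) (hc : c ∈ Nm V) (n : ℕ) :
    ∃ w' ∈ V, (w * c) ^ n = w' * c ^ n := by
  induction n with
  | zero => exact ⟨1, V.one_mem, by simp⟩
  | succ n ih =>
    obtain ⟨w', hw', h⟩ := ih
    refine ⟨w' * (c ^ n * w * (c ^ n)⁻¹), V.mul_mem hw' (Nm_mul_mem ((Nm V).pow_mem hc n) hw), ?_⟩
    rw [pow_succ, h, pow_succ]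
    group

/-- The half of the comparison of the centres of the Levi subgroups. -/
theorem mem_of_assoc {V Z V' Z' : Subgroup G} (hL : Lv V Z) (hZ : Mx p Z) (hL' : Lv V' Z')
    (hZ' : Mx p Z') (h1 : ∀ x ∈ Nm V', x ∈ V → x ∈ V')
    (hcov : ∀ x ∈ Nm V', ∃ v ∈ V', v * x ∈ Nm V) {x : G} (hxN : x ∈ Nm V')
    (hx : ∃ v ∈ V, ∃ z ∈ Z, x = v * z) : ∃ v ∈ V', ∃ z ∈ Z', x = v * z := by
  obtain ⟨v, hv, z, hz, hxv⟩ := hx
  obtain ⟨w, hw, c, hc, hxw⟩ := hL'.cov x hxN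
  have hzN : z ∈ Nm V := hL.le (hZ.le hz)
  have hxV : x ∈ Nm V := by
    rw [hxv]
    exact (Nm V).mul_mem (le_Nm V hv) hzN
  -- commutators with elements of `N(V) ∩ N(V')` lie in `V`
  have hcomm : ∀ y ∈ Nm V, y ∈ Nm V' → x * y * x⁻¹ * y⁻¹ ∈ V' := by
    intro y hy hy'
    apply h1
    · exact (Nm V').mul_mem ((Nm V').mul_mem ((Nm V').mul_mem hxN hy') ((Nm V').inv_mem hxN))
        ((Nm V').inv_mem hy')
    · obtain ⟨u, hu, d, hd, hyd⟩ := hL.cov y hy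
      have hzd : z * d = d * z := mem_Ce.mp hd z hz
      have e1 : x * y * x⁻¹ * y⁻¹ =
          v * (z * u * z⁻¹) * (d * v⁻¹ * d⁻¹) * u⁻¹ := by
        rw [hxv, hyd]
        calc v * z * (u * d) * (v * z)⁻¹ * (u * d)⁻¹
            = v * (z * u * z⁻¹) * (z * d * z⁻¹) * v⁻¹ * d⁻¹ * u⁻¹ := by group
          _ = v * (z * u * z⁻¹) * (d * z * z⁻¹) * v⁻¹ * d⁻¹ * u⁻¹ := by rw [hzd]
          _ = _ := by group
      rw [e1]
      exact V.mul_mem (V.mul_mem (V.mul_mem hv (Nm_mul_mem hzN hu))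
        (Nm_mul_mem (hL.le hd) (V.inv_mem hv))) (V.inv_mem hu)
  have hcN : c ∈ Nm V' := hL'.le hc
  refine ⟨w, hw, c, hZ'.max c hc ?_ ?_, hxw⟩
  · intro y hy
    obtain ⟨u, hu, huy⟩ := hcov y (hL'.le hy)
    have h2 := hcomm (u * y) huy ((Nm V').mul_mem (le_Nm V' hu) (hL'.le hy))
    rw [hxw] at h2
    have h3 : c * y * c⁻¹ * y⁻¹ ∈ V' := comm_mod hcN (hL'.le hy) hw hu h2
    have h4 : c * y * c⁻¹ * y⁻¹ = 1 := by
      refine hL'.inf _ h3 ?_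
      exact (Ce Z').mul_mem ((Ce Z').mul_mem ((Ce Z').mul_mem hc hy) ((Ce Z').inv_mem hc))
        ((Ce Z').inv_mem hy)
    have h6 : c * y * c⁻¹ * y⁻¹ * (y * c) = c * y := by group
    rw [← h6, h4, one_mul]
  · obtain ⟨m, hm⟩ := hZ.pg ⟨z, hz⟩
    have hm' : z ^ p ^ m = 1 := congrArg Subtype.val hm
    refine ⟨m, ?_⟩
    obtain ⟨v', hv', hv2⟩ := pow_mod hv hzN (p ^ m)
    obtain ⟨w', hw', hw2⟩ := pow_mod hw hcN (p ^ m)
    rw [← hxv, hm', mul_one] at hv2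
    rw [← hxw] at hw2
    have h2 : x ^ p ^ m ∈ V' := h1 _ ((Nm V').pow_mem hxN _) (by rw [hv2]; exact hv')
    have h3 : c ^ p ^ m ∈ V' := by
      have e : c ^ p ^ m = w'⁻¹ * x ^ p ^ m := by rw [hw2]; group
      rw [e]
      exact V'.mul_mem (V'.inv_mem hw') h2
    exact hL'.inf _ h3 ((Ce Z').pow_mem hc _)

theorem mem_Nm_of_conj {Z : Subgroup G} {n : G} (h : ∀ z ∈ Z, n⁻¹ * z * n ∈ Z) : n ∈ Nm Z := by
  have h1 : conjS n⁻¹ Z ≤ Z := by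
    intro x hx
    have h2 := h _ (mem_conjS.mp hx)
    have e : n⁻¹ * ((n⁻¹)⁻¹ * x * n⁻¹) * n = x := by group
    rwa [e] at h2
  have h2 : conjS n⁻¹ Z = Z := by
    refine Subgroup.eq_of_le_of_card_ge h1 (le_of_eq ?_)
    exact Nat.card_congr (Z.equivMapOfInjective _ (MulAut.conj n⁻¹).injective).toEquiv
  rw [mem_Nm]
  intro v
  constructor
  · intro hv
    rw [← h2, mem_conjS, inv_inv] at hv
    exact hv
  · intro hv
    rw [← h2, mem_conjS, inv_inv]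
    exact hv

/-- **Associate parabolic subgroups.** If no `N(V) ∩ V^g` and `N(V^g) ∩ V` enlarge `V` and `V^g`
then `g` lies in `V N(Z) V`. -/
theorem assoc {V Z : Subgroup G} (hV : ¬ p ∣ Nat.card V) (hL : Lv V Z) (hZ : Mx p Z)
    {g : G}
    (h1 : ∀ x ∈ Nm V, x ∈ conjS g V → x ∈ V) (h2 : ∀ x ∈ Nm (conjS g V), x ∈ V → x ∈ conjS g V)
    (hc1 : ∀ x ∈ Nm V, ∃ v ∈ V, v * x ∈ Nm (conjS g V))
    (hc2 : ∀ x ∈ Nm (conjS g V), ∃ v ∈ conjS g V, v * x ∈ Nm V) :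
    ∃ v ∈ V, ∃ v' ∈ V, ∃ n ∈ Nm Z, g = v * n * v' := by
  set V' := conjS g V with hV'
  set Z' := conjS g Z with hZ'
  have hL' : Lv V' Z' := hL.conj g
  have hMx' : Mx p Z' := hZ.conj g
  have hZN : Z ≤ Nm V := hZ.le.trans hL.le
  have hZN' : Z' ≤ Nm V' := hMx'.le.trans hL'.le
  set A := VZ V Z hZN with hA
  set B := VZ V' Z' hZN' with hB
  have hVA : V ≤ A := fun v hv => ⟨v, hv, 1, Z.one_mem, (mul_one v).symm⟩
  have hZA : Z ≤ A := fun z hz => ⟨1, V.one_mem, z, hz, (one_mul z).symm⟩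
  have hVB : V' ≤ B := fun v hv => ⟨v, hv, 1, Z'.one_mem, (mul_one v).symm⟩
  have hZB : Z' ≤ B := fun z hz => ⟨1, V'.one_mem, z, hz, (one_mul z).symm⟩
  have hAN : A ≤ Nm V := by
    rintro _ ⟨v, hv, z, hz, rfl⟩
    exact (Nm V).mul_mem (le_Nm V hv) (hZN hz)
  -- the first conjugation
  obtain ⟨v, hv, hvZ⟩ := exists_conj (A := A) (E := A ⊓ Nm V') (P := Z) (V := V) inf_le_left hZA
    hVA hZ.pg hV (by
      intro a ha
      obtain ⟨w, hw, hwa⟩ := hc1 a (hAN ha)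
      exact ⟨w⁻¹, V.inv_mem hw, by
        rw [inv_inv]
        exact ⟨A.mul_mem (hVA hw) ha, hwa⟩⟩)
  -- the second conjugation
  have hAB : A ⊓ Nm V' ≤ B := by
    rintro x ⟨hxA, hxN⟩
    exact mem_of_assoc hL hZ hL' hMx' h2 hc2 hxN hxA
  have hcardV' : ¬ p ∣ Nat.card V' := by
    rw [hV', Nat.card_congr (V.equivMapOfInjective _ (MulAut.conj g).injective).toEquiv.symm]
    exact hV
  obtain ⟨w, hw, hwZ⟩ := exists_conj (A := B) (E := Z') (P := conjS v⁻¹ Z) (V := V') hZB (by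
      intro x hx
      rw [mem_conjS, inv_inv] at hx
      have h3 := hvZ _ hx
      have e1 : v⁻¹ * (v * x * v⁻¹) * v = x := by group
      rw [e1] at h3
      exact hAB h3) hVB (hZ.pg.map _) hcardV' (by
      rintro _ ⟨v, hv, z, hz, rfl⟩
      exact ⟨v, hv, by rw [inv_mul_cancel_left]; exact hz⟩)
  -- conclusion
  have hw' : g⁻¹ * w * g ∈ V := mem_conjS.mp hw
  set u := g⁻¹ * w * g with hu
  refine ⟨v⁻¹, V.inv_mem hv, u⁻¹, V.inv_mem hw', v * g * u, ?_, by group⟩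
  have hwg : w * g = g * u := by rw [hu]; group
  refine mem_Nm_of_conj fun z hz => ?_
  have h3 : v⁻¹ * z * v ∈ conjS v⁻¹ Z := by
    rw [mem_conjS, inv_inv]
    have e1 : v * (v⁻¹ * z * v) * v⁻¹ = z := by group
    rw [e1]; exact hz
  have h4 := mem_conjS.mp (hwZ _ h3)
  have e2 : g⁻¹ * (w⁻¹ * (v⁻¹ * z * v) * w) * g = (v * (w * g))⁻¹ * z * (v * (w * g)) := by group
  rw [e2, hwg] at h4
  rw [mul_assoc v g u]
  exact h4

end Vale.Agent.P180.R2.H799.BN
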