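import Vale.Agent.P180.R2.H799.BN3

/-!
P180: the cuspidality theorem for parabolic systems.
-/

set_option linter.all false

namespace Vale.Agent.P180.R2.H799.BN

open Vale.Agent.P180 Vale.Agent.P180.H768.Gd Vale.Agent.P180.R2.H799

variable {k : Type*} [Field k] {p : ℕ} [Fact p.Prime] [CharP k p] {G : Type*} [Group G] [Finite G]

omit [Fact p.Prime] [Finite G] in
theorem card_ne {V : Subgroup G} (hV : ¬ p ∣ Nat.card V) : ((Nat.card V : ℕ) : k) ≠ 0 :=
  fun h => hV ((CharP.cast_eq_zero_iff k p _).1 h)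

omit [Fact p.Prime] [Finite G] in
theorem card_le_ne {K V : Subgroup G} (hKV : K ≤ V) (hV : ¬ p ∣ Nat.card V) :
    ¬ p ∣ Nat.card K := fun h => hV (h.trans (Subgroup.card_dvd_of_le hKV))

/-- `av W = av (W ∩ C(Q)) av V` -/
theorem av_split {V Q W : Subgroup G} (hL : Lv V Q) (hVW : V ≤ W) (hWV : W ≤ Nm V)
    (hW : ¬ p ∣ Nat.card W) : av k (W ⊓ Ce Q) * av k V = av k W := by
  refine av_sup' (card_ne (p := p) (card_le_ne hVW hW)) (card_ne (p := p) (card_le_ne inf_le_left hW))
    (card_ne (p := p) hW) (inf_le_right.trans hL.le) hVW inf_le_left fun w hw => ?_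
  obtain ⟨v, hv, c, hc, e⟩ := hL.cov w (hWV hw)
  refine ⟨v, hv, c, ⟨?_, hc⟩, e⟩
  have : c = v⁻¹ * w := by rw [e]; group
  rw [this]
  exact W.mul_mem (W.inv_mem (hVW hv)) hw

/-- central idempotents of `kC(Q)` commute with `av W` -/
theorem av_comm_W {V Q W : Subgroup G} (hL : Lv V Q) (hVW : V ≤ W) (hWV : W ≤ Nm V)
    (hW : ¬ p ∣ Nat.card W) {e : MonoidAlgebra k G} (he : e ∈ SubAlg k (Ce Q))
    (heF : e ∈ Fix (cj k G) (Ce Q)) : e * av k W = av k W * e := by
  rw [← av_split (p := p) hL hVW hWV hW]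
  have h1 : av k (W ⊓ Ce Q) ∈ SubAlg k (Ce Q) := SubAlg_mono inf_le_right (av_mem _)
  calc e * (av k (W ⊓ Ce Q) * av k V) = (e * av k (W ⊓ Ce Q)) * av k V := by
        rw [mul_assoc]
    _ = av k (W ⊓ Ce Q) * (e * av k V) := by rw [← commute_of_mem h1 heF, mul_assoc]
    _ = _ := by rw [av_comm hL.le he, mul_assoc]

/-- **Cuspidality.** Let `N(V)` be the semidirect product of `V` and `C(Q)` and let `e` be an
idempotent of `kC(Q)` which is a relative trace from `Q`. Then `e` is orthogonal to the averages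
over all smaller unipotent radicals. -/
theorem cusp (𝒮 : ParSys p G) (hLv : 𝒮.HasLevi) {V Q : Subgroup G} (hV : V ∈ 𝒮.car)
    (hL : Lv V Q) (hQ : IsPGroup p Q) (hQab : ∀ x ∈ Q, ∀ y ∈ Q, x * y = y * x)
    {e a : MonoidAlgebra k G} (haL : a ∈ SubAlg k (Ce Q)) (ha : a ∈ Fix (cj k G) Q)
    (hea : e = tr (cj k G) Q (Ce Q) a) (hee : e * e = e) :
    ∀ n : ℕ, ∀ W ∈ 𝒮.car, V ≤ W → Nm W ≤ Nm V → W ≠ V → Nat.card G < n + Nat.card W →
      e * av k W = 0 := by
  classical
  have heF : e ∈ Fix (cj k G) (Ce Q) := by rw [hea]; exact tr_mem_Fix ha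
  have heL : e ∈ SubAlg k (Ce Q) := by rw [hea]; exact tr_mem_SubAlg le_rfl haL
  intro n
  induction n with
  | zero =>
    intro W hW hVW hWN hne hcard
    exfalso
    rw [zero_add] at hcard
    exact absurd (Subgroup.card_le_card_group W) (not_le.mpr hcard)
  | succ n ih =>
    intro W hW hVW hWN hne hcard
    have hp := 𝒮.card W hW
    have hIH : ∀ W' ∈ 𝒮.car, W ≤ W' → Nm W' ≤ Nm W → (∃ x ∈ W', x ∉ W) → e * av k W' = 0 := by
      rintro W' hW' hWW' hN ⟨x, hx, hxW⟩
      have hlt : Nat.card W < Nat.card W' := by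
        refine lt_of_le_of_ne (Nat.card_le_card_of_injective _
          (Subgroup.inclusion_injective hWW')) fun h => hxW ?_
        rw [Subgroup.eq_of_le_of_card_ge hWW' h.ge]
        exact hx
      refine ih W' hW' (hVW.trans hWW') (hN.trans hWN) ?_ (by omega)
      rintro rfl
      exact hxW (hVW hx)
    -- the enlargement of `W`
    have hstar : ∀ g : G, W ⊔ (Nm W ⊓ conjS g W) ∈ 𝒮.car ∧
        Nm (W ⊔ (Nm W ⊓ conjS g W)) = W ⊔ (Nm W ⊓ Nm (conjS g W)) := fun g =>
      ⟨𝒮.star W hW _ (𝒮.conj W hW g), 𝒮.norm W hW _ (𝒮.conj W hW g)⟩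
    have hzero : ∀ g : G, (∃ x ∈ Nm W, x ∈ conjS g W ∧ x ∉ W) →
        e * av k (W ⊔ (Nm W ⊓ conjS g W)) = 0 := by
      rintro g ⟨x, hxN, hxg, hxW⟩
      refine hIH _ (hstar g).1 le_sup_left ?_ ⟨x, Subgroup.mem_sup_right ⟨hxN, hxg⟩, hxW⟩
      rw [(hstar g).2]
      exact sup_le (le_Nm W) inf_le_left
    have hcardg : ∀ g : G, ¬ p ∣ Nat.card (conjS g W) := fun g => 𝒮.card _ (𝒮.conj W hW g)
    have hav : ∀ g : G, av k W * av k (Nm W ⊓ conjS g W) = av k (W ⊔ (Nm W ⊓ conjS g W)) := by
      intro g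
      exact av_sup (card_ne (p := p) hp) (card_ne (p := p) (card_le_ne inf_le_right (hcardg g)))
        (card_ne (p := p) (𝒮.card _ (hstar g).1)) inf_le_left le_sup_left le_sup_right
        fun w hw => mem_sup_Nm inf_le_left hw
    have hav' : ∀ g : G, av k (Nm W ⊓ conjS g W) * av k W = av k (W ⊔ (Nm W ⊓ conjS g W)) := by
      intro g
      exact av_sup' (card_ne (p := p) hp) (card_ne (p := p) (card_le_ne inf_le_right (hcardg g)))
        (card_ne (p := p) (𝒮.card _ (hstar g).1)) inf_le_left le_sup_left le_sup_right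
        fun w hw => mem_sup_Nm inf_le_left hw
    -- the Levi subgroup
    obtain ⟨Z₀, hZ₀, hab₀, hpair⟩ := hLv W hW
    obtain ⟨Z, hMx, hLW, hQZ⟩ := exists_levi hL hQ hQab hVW hWN hp (lv_of_pair hpair) hZ₀ hab₀
    have hCZ : Ce Z ≤ Ce Q := Subgroup.centralizer_le hQZ
    have hQc : ∀ q ∈ Q, ∀ l ∈ Ce Q, q * l = l * q := fun q hq l hl => mem_Ce.mp hl q hq
    have hWV : W ≤ Nm V := (le_Nm W).trans hWN
    have hZQ : ∃ z ∈ Z, z ∉ Q := by
      by_contra hcon
      push Not at hcon
      apply hne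
      refine le_antisymm (fun w hw => ?_) hVW
      obtain ⟨v, hv, l, hl, e1⟩ := hL.cov w (hWV hw)
      have hlW : l ∈ W := by
        have : l = v⁻¹ * w := by rw [e1]; group
        rw [this]
        exact W.mul_mem (W.inv_mem (hVW hv)) hw
      have hl1 : l = 1 := hLW.inf l hlW (Subgroup.centralizer_le hcon hl)
      rw [e1, hl1, mul_one]
      exact hv
    have hcomm := av_comm_W (k := k) (p := p) hL hVW hWV hp heL heF
    refine cusp_alg (Q := Q) (Z := Z) (L := Ce Q) (a := a) (ν := av k (W ⊓ Ce Q))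
      (η := av k V) (hMx.le.trans hCZ) hMx.pg hMx.ab hQc hZQ haL ha heL hea hee
      (SubAlg_mono inf_le_right (av_mem _)) (fun x hx => av_comm hL.le hx)
      (av_idem (card_ne (p := p) (𝒮.card V hV))) (av_split (p := p) hL hVW hWV hp).symm
      (av_idem (card_ne (p := p) hp))
      (fun z hz => av_comm hLW.le (single_mem_SubAlg (hMx.le hz) 1)) ?_
    intro g hg
    have hgav : MonoidAlgebra.single g (1 : k) * av k W =
        av k (conjS g W) * MonoidAlgebra.single g 1 := single_mul_av W g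
    by_cases h1 : ∀ x ∈ Nm W, x ∈ conjS g W → x ∈ W
    swap
    · left
      push Not at h1
      have h2 := hzero g h1
      have h3 : av k (Nm W ⊓ conjS g W) * av k (conjS g W) = av k (conjS g W) :=
        av_le_left (card_ne (p := p) (card_le_ne inf_le_right (hcardg g))) inf_le_right
      calc e * av k W * MonoidAlgebra.single g 1 * av k W
          = e * av k W * (MonoidAlgebra.single g 1 * av k W) := by simp only [mul_assoc]
        _ = e * (av k W * av k (Nm W ⊓ conjS g W)) * av k (conjS g W) *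
            MonoidAlgebra.single g 1 := by
            rw [hgav]
            conv_lhs => rw [← h3]
            simp only [mul_assoc]
        _ = 0 := by rw [hav, h2, zero_mul, zero_mul]
    by_cases h2 : ∀ x ∈ Nm (conjS g W), x ∈ W → x ∈ conjS g W
    swap
    · left
      push Not at h2
      obtain ⟨x, hxN, hxW, hxg⟩ := h2
      have h3 := hzero g⁻¹ ⟨g⁻¹ * x * g, mem_Nm_conjS.mp hxN, by
        rw [mem_conjS, inv_inv]
        have e1 : g * (g⁻¹ * x * g) * g⁻¹ = x := by group
        rw [e1]; exact hxW, fun h => hxg (mem_conjS.mpr h)⟩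
      have h4 : av k (conjS g⁻¹ W) * av k (Nm W ⊓ conjS g⁻¹ W) = av k (conjS g⁻¹ W) :=
        av_le_right (card_ne (p := p) (card_le_ne inf_le_right (hcardg g⁻¹))) inf_le_right
      have h5 : av k W * MonoidAlgebra.single g (1 : k) =
          MonoidAlgebra.single g 1 * av k (conjS g⁻¹ W) := by
        rw [single_mul_av]
        congr 1
        congr 1
        ext y
        rw [mem_conjS, mem_conjS, inv_inv]
        have e1 : g * (g⁻¹ * y * g) * g⁻¹ = y := by group
        rw [e1]
      have hW' : W ⊔ (Nm W ⊓ conjS g⁻¹ W) ≤ Nm V :=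
        (sup_le (le_Nm W) inf_le_left).trans hWN
      have h6 := av_comm_W (k := k) (p := p) hL (hVW.trans le_sup_left) hW'
        (𝒮.card _ (hstar g⁻¹).1) heL heF
      have hge : MonoidAlgebra.single g (1 : k) * e = e * MonoidAlgebra.single g 1 :=
        commute_of_mem (single_mem_SubAlg hg 1) heF
      calc e * av k W * MonoidAlgebra.single g 1 * av k W
          = av k W * MonoidAlgebra.single g 1 * e * av k W := by
            rw [hcomm, mul_assoc (av k W) e, ← hge, ← mul_assoc]
        _ = MonoidAlgebra.single g 1 * av k (conjS g⁻¹ W) * (e * av k W) := by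
            rw [h5]; simp only [mul_assoc]
        _ = MonoidAlgebra.single g 1 * (av k (conjS g⁻¹ W) * av k (Nm W ⊓ conjS g⁻¹ W)) *
            (av k W * e) := by rw [h4, hcomm]
        _ = MonoidAlgebra.single g 1 * av k (conjS g⁻¹ W) *
            ((av k (Nm W ⊓ conjS g⁻¹ W) * av k W) * e) := by simp only [mul_assoc]
        _ = 0 := by rw [hav', ← h6, h3, mul_zero]
    right
    -- the associate case
    have hc1 : ∀ x ∈ Nm W, ∃ v ∈ W, v * x ∈ Nm (conjS g W) := by
      intro x hx
      have h3 : W ⊔ (Nm W ⊓ conjS g W) = W :=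
        sup_eq_left.mpr fun y hy => h1 y hy.1 hy.2
      have h4 := (hstar g).2
      rw [h3] at h4
      rw [h4] at hx
      obtain ⟨v, hv, y, hy, rfl⟩ := mem_sup_Nm inf_le_left hx
      exact ⟨v⁻¹, W.inv_mem hv, by rw [inv_mul_cancel_left]; exact hy.2⟩
    have hc2 : ∀ x ∈ Nm (conjS g W), ∃ v ∈ conjS g W, v * x ∈ Nm W := by
      intro x hx
      have h3 : conjS g W ⊔ (Nm (conjS g W) ⊓ W) = conjS g W :=
        sup_eq_left.mpr fun y hy => h2 y hy.1 hy.2
      have h4 := 𝒮.norm _ (𝒮.conj W hW g) W hW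
      change Nm (conjS g W ⊔ (Nm (conjS g W) ⊓ W)) =
        conjS g W ⊔ (Nm (conjS g W) ⊓ Nm W) at h4
      rw [h3] at h4
      rw [h4] at hx
      obtain ⟨v, hv, y, hy, rfl⟩ := mem_sup_Nm inf_le_left hx
      exact ⟨v⁻¹, (conjS g W).inv_mem hv, by rw [inv_mul_cancel_left]; exact hy.2⟩
    obtain ⟨v, hv, v', hv', m, hm, hgm⟩ := assoc hp hLW hMx h1 h2 hc1 hc2
    have h7 : av k W * MonoidAlgebra.single g (1 : k) * av k W =
        av k W * MonoidAlgebra.single m 1 * av k W := by
      have e1 : MonoidAlgebra.single g (1 : k) = MonoidAlgebra.single v 1 *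
          MonoidAlgebra.single m 1 * MonoidAlgebra.single v' 1 := by
        rw [MonoidAlgebra.single_mul_single, MonoidAlgebra.single_mul_single, one_mul, one_mul,
          ← hgm]
      rw [e1]
      calc av k W * (MonoidAlgebra.single v 1 * MonoidAlgebra.single m 1 *
            MonoidAlgebra.single v' 1) * av k W
          = (av k W * MonoidAlgebra.single v 1) * MonoidAlgebra.single m 1 *
            (MonoidAlgebra.single v' 1 * av k W) := by simp only [mul_assoc]
        _ = _ := by rw [av_right W hv, av_left W hv']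
    intro z hz
    refine ⟨m * z * m⁻¹, (mem_Nm.mp hm z).mp hz, ?_⟩
    have hz1 : av k W * MonoidAlgebra.single z (1 : k) = MonoidAlgebra.single z 1 * av k W :=
      (av_comm hLW.le (single_mem_SubAlg (hMx.le hz) 1)).symm
    have hz2 : MonoidAlgebra.single (m * z * m⁻¹) (1 : k) * av k W =
        av k W * MonoidAlgebra.single (m * z * m⁻¹) 1 :=
      av_comm hLW.le (single_mem_SubAlg (hMx.le ((mem_Nm.mp hm z).mp hz)) 1)
    have hz3 : MonoidAlgebra.single m (1 : k) * MonoidAlgebra.single z 1 =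
        MonoidAlgebra.single (m * z * m⁻¹) 1 * MonoidAlgebra.single m 1 := by
      rw [MonoidAlgebra.single_mul_single, MonoidAlgebra.single_mul_single, one_mul,
        inv_mul_cancel_right]
    rw [h7]
    calc av k W * MonoidAlgebra.single m 1 * av k W * MonoidAlgebra.single z 1
        = av k W * (MonoidAlgebra.single m 1 * MonoidAlgebra.single z 1) * av k W := by
          rw [mul_assoc _ (av k W), hz1]; simp only [mul_assoc]
      _ = (av k W * MonoidAlgebra.single (m * z * m⁻¹) 1) * MonoidAlgebra.single m 1 *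
          av k W := by rw [hz3]; simp only [mul_assoc]
      _ = _ := by rw [← hz2]; simp only [mul_assoc]

end Vale.Agent.P180.R2.H799.BN
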