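import Vale.Agent.P180.R2.H799.BN4

/-!
P180: cuspidality of the blocks of a Levi subgroup, general defect groups.
-/

set_option linter.all false

namespace Vale.Agent.P180.R2.H799.BN

open Vale.Agent.P180 Vale.Agent.P180.H768.Gd Vale.Agent.P180.R2.H799

variable {k : Type*} [Field k] {p : ℕ} [Fact p.Prime] [CharP k p] {G : Type*} [Group G] [Finite G]

/-- The algebra of the cuspidality lemma, for a subgroup `Q` no conjugate of which contains `Z`. -/
theorem cusp_alg' {Q Z L : Subgroup G} (hZL : Z ≤ L) (hZ : IsPGroup p Z)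
    (hZab : ∀ x ∈ Z, ∀ y ∈ Z, x * y = y * x) (hno : ∀ x ∈ L, ∃ z ∈ Z, x⁻¹ * z * x ∉ Q)
    {e a : MonoidAlgebra k G} (haL : a ∈ SubAlg k L)
    (ha : a ∈ Fix (cj k G) Q) (heL : e ∈ SubAlg k L) (hea : e = tr (cj k G) Q L a) (hee : e * e = e)
    {ν η ε : MonoidAlgebra k G} (hν : ν ∈ SubAlg k L) (hη : ∀ x ∈ SubAlg k L, x * η = η * x)
    (hηη : η * η = η) (hε : ε = ν * η) (hεε : ε * ε = ε)
    (hZε : ∀ z ∈ Z, MonoidAlgebra.single z (1 : k) * ε = ε * MonoidAlgebra.single z 1)
    (hkey : ∀ g ∈ L, e * ε * MonoidAlgebra.single g 1 * ε = 0 ∨ ∀ z ∈ Z, ∃ z' ∈ Z,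
      ε * MonoidAlgebra.single g 1 * ε * MonoidAlgebra.single z 1 =
        MonoidAlgebra.single z' 1 * (ε * MonoidAlgebra.single g 1 * ε)) : e * ε = 0 := by
  classical
  have heF : e ∈ Fix (cj k G) L := by rw [hea]; exact tr_mem_Fix ha
  have hec : ∀ x ∈ SubAlg k L, e * x = x * e := fun x hx => (commute_of_mem hx heF).symm
  have heε : e * ε = ε * e := by
    rw [hε, ← mul_assoc, hec ν hν, mul_assoc, hη e heL, mul_assoc]
  have hηε : η * ε = ε := by rw [hε, ← mul_assoc, ← hη ν hν, mul_assoc, hηη]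
  have hzL : ∀ z ∈ Z, MonoidAlgebra.single z (1 : k) ∈ SubAlg k L := fun z hz =>
    single_mem_SubAlg (hZL hz) 1
  let M : Submodule k (MonoidAlgebra k G) :=
    { carrier := {y | ∃ x ∈ SubAlg k L, y = e * ε * x * ε}
      zero_mem' := ⟨0, zero_mem _, by simp⟩
      add_mem' := by
        rintro _ _ ⟨x, hx, rfl⟩ ⟨y, hy, rfl⟩
        exact ⟨x + y, add_mem hx hy, by rw [mul_add, add_mul]⟩
      smul_mem' := by
        rintro c _ ⟨x, hx, rfl⟩
        exact ⟨c • x, Subalgebra.smul_mem _ hx c, by rw [mul_smul_comm, smul_mul_assoc]⟩ }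
  have hM : ∀ {y}, y ∈ M ↔ ∃ x ∈ SubAlg k L, y = e * ε * x * ε := Iff.rfl
  let M' : Submodule k (MonoidAlgebra k G) :=
    Submodule.span k {w | ∃ z ∈ Z, ∃ x ∈ M, w = MonoidAlgebra.single z (1 : k) * x - x}
  have hMleft : ∀ z ∈ Z, ∀ x ∈ M, MonoidAlgebra.single z (1 : k) * x ∈ M := by
    rintro z hz _ ⟨x, hx, rfl⟩
    refine ⟨MonoidAlgebra.single z 1 * x, Subalgebra.mul_mem _ (hzL z hz) hx, ?_⟩
    calc MonoidAlgebra.single z (1 : k) * (e * ε * x * ε)
        = (MonoidAlgebra.single z (1 : k) * e) * ε * x * ε := by simp only [mul_assoc]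
      _ = e * (MonoidAlgebra.single z (1 : k) * ε) * x * ε := by
          rw [← hec _ (hzL z hz)]; simp only [mul_assoc]
      _ = e * ε * (MonoidAlgebra.single z 1 * x) * ε := by
          rw [hZε z hz]; simp only [mul_assoc]
  have hMright : ∀ z ∈ Z, ∀ x ∈ M, x * MonoidAlgebra.single z (1 : k) ∈ M := by
    rintro z hz _ ⟨x, hx, rfl⟩
    refine ⟨x * MonoidAlgebra.single z 1, Subalgebra.mul_mem _ hx (hzL z hz), ?_⟩
    rw [mul_assoc, ← hZε z hz]
    simp only [mul_assoc]
  have hright : ∀ z ∈ Z, ∀ x ∈ M, x * MonoidAlgebra.single z (1 : k) - x ∈ M' := by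
    rintro z hz _ ⟨x, hx, rfl⟩
    refine SuppIn.induction (P := fun x => e * ε * x * ε * MonoidAlgebra.single z (1 : k) -
      e * ε * x * ε ∈ M') hx ?_ ?_ ?_
    · simp
    · intro x y h1 h2
      have h3 := add_mem h1 h2
      have e1 : e * ε * (x + y) * ε * MonoidAlgebra.single z (1 : k) - e * ε * (x + y) * ε =
          (e * ε * x * ε * MonoidAlgebra.single z (1 : k) - e * ε * x * ε) +
          (e * ε * y * ε * MonoidAlgebra.single z (1 : k) - e * ε * y * ε) := by
        simp only [mul_add, add_mul]; abel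
      rw [e1]; exact h3
    · intro g hg c
      have e1 : e * ε * (c • MonoidAlgebra.single g (1 : k)) * ε * MonoidAlgebra.single z (1 : k) -
          e * ε * (c • MonoidAlgebra.single g (1 : k)) * ε =
          c • (e * ε * MonoidAlgebra.single g (1 : k) * ε * MonoidAlgebra.single z (1 : k) -
            e * ε * MonoidAlgebra.single g (1 : k) * ε) := by
        simp only [mul_smul_comm, smul_mul_assoc, smul_sub]
      rw [e1]
      refine Submodule.smul_mem _ c ?_
      rcases hkey g hg with h | h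
      · rw [h, zero_mul, sub_zero]; exact zero_mem _
      · obtain ⟨z', hz', h'⟩ := h z hz
        refine Submodule.subset_span ⟨z', hz', e * ε * MonoidAlgebra.single g 1 * ε,
          ⟨_, single_mem_SubAlg hg 1, rfl⟩, ?_⟩
        congr 1
        calc e * ε * MonoidAlgebra.single g (1 : k) * ε * MonoidAlgebra.single z (1 : k)
            = e * (ε * MonoidAlgebra.single g (1 : k) * ε * MonoidAlgebra.single z (1 : k)) := by
              simp only [mul_assoc]
          _ = (e * MonoidAlgebra.single z' 1) * (ε * MonoidAlgebra.single g 1 * ε) := by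
              rw [h']; simp only [mul_assoc]
          _ = _ := by rw [hec _ (hzL z' hz')]; simp only [mul_assoc]
  -- right multiplication by `b ε`
  have hMb : ∀ y ∈ M, ∀ b ∈ SubAlg k L, y * b * ε ∈ M := by
    rintro _ ⟨x, hx, rfl⟩ b hb
    refine ⟨x * ν * b, Subalgebra.mul_mem _ (Subalgebra.mul_mem _ hx hν) hb, ?_⟩
    calc e * ε * x * ε * b * ε = e * ε * x * (ν * η) * b * ε := by rw [← hε]
      _ = e * ε * x * ν * (η * b) * ε := by simp only [mul_assoc]
      _ = e * ε * x * ν * b * (η * ε) := by rw [← hη b hb]; simp only [mul_assoc]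
      _ = _ := by rw [hηε]; simp only [mul_assoc]
  have hcjL : ∀ g ∈ L, cj k G g a ∈ SubAlg k L := by
    intro g hg h hh
    rw [cj_coeff] at hh
    have h1 := L.mul_mem (L.mul_mem hg (haL _ hh)) (L.inv_mem hg)
    have e1 : g * (g⁻¹ * h * g) * g⁻¹ = h := by group
    rwa [e1] at h1
  have hMM' : M ≤ M' := by
    intro y hy
    by_contra hyM'
    obtain ⟨lam, hlam, hker⟩ := Submodule.exists_le_ker_of_notMem hyM'
    apply hlam
    have _ := Fintype.ofFinite (L ⧸ Q.subgroupOf L)
    let F : G → MonoidAlgebra k G := fun g => y * cj k G g a * ε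
    have hy1 : y = ∑ q : L ⧸ Q.subgroupOf L, F ((q.out : L) : G) := by
      have h1 : y * e * ε = y := by
        obtain ⟨x, hx, rfl⟩ := hy
        calc e * ε * x * ε * e * ε = e * ε * x * (ε * e) * ε := by simp only [mul_assoc]
          _ = e * ε * (x * e) * (ε * ε) := by rw [← heε]; simp only [mul_assoc]
          _ = e * (ε * e) * x * ε := by rw [← hec x hx, hεε]; simp only [mul_assoc]
          _ = (e * e) * ε * x * ε := by rw [← heε]; simp only [mul_assoc]
          _ = _ := by rw [hee]
      conv_lhs => rw [← h1, hea, tr_def, Finset.mul_sum, Finset.sum_mul]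
    let α : Z →* Equiv.Perm (L ⧸ Q.subgroupOf L) :=
      (MulAction.toPermHom L (L ⧸ Q.subgroupOf L)).comp (Subgroup.inclusion hZL)
    have hα : ∀ (v : Z) (x : L), α v (x : L ⧸ Q.subgroupOf L) =
        ((⟨v, hZL v.2⟩ * x : L) : L ⧸ Q.subgroupOf L) := fun _ _ => rfl
    have hout : ∀ x : L, F ((((x : L ⧸ Q.subgroupOf L).out : L)) : G) = F (x : G) := by
      intro x
      have h1 : (x : L)⁻¹ * (x : L ⧸ Q.subgroupOf L).out ∈ Q.subgroupOf L := by
        rw [← QuotientGroup.eq, QuotientGroup.out_eq']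
      have h2 := ha _ (Subgroup.mem_subgroupOf.mp h1)
      rw [Subgroup.coe_mul, Subgroup.coe_inv, map_mul_act] at h2
      have h3 : cj k G (((x : L ⧸ Q.subgroupOf L).out : L) : G) a = cj k G (x : G) a := by
        calc cj k G (((x : L ⧸ Q.subgroupOf L).out : L) : G) a
            = cj k G (x : G) (cj k G (x : G)⁻¹
              (cj k G (((x : L ⧸ Q.subgroupOf L).out : L) : G) a)) := by
              rw [map_act_inv]
          _ = cj k G (x : G) a := by rw [h2]
      change y * cj k G (((x : L ⧸ Q.subgroupOf L).out : L) : G) a * ε = _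
      rw [h3]
    have hFM : ∀ g ∈ L, F g ∈ M := fun g hg => hMb y hy _ (hcjL g hg)
    have hFz : ∀ z ∈ Z, ∀ g ∈ L, lam (F (z * g)) = lam (F g) := by
      intro z hz g hg
      have hsz : MonoidAlgebra.single z (1 : k) * MonoidAlgebra.single z⁻¹ 1 = 1 := by
        rw [MonoidAlgebra.single_mul_single, mul_inv_cancel, one_mul]; rfl
      have hsz' : MonoidAlgebra.single z⁻¹ (1 : k) * MonoidAlgebra.single z 1 = 1 := by
        rw [MonoidAlgebra.single_mul_single, inv_mul_cancel, one_mul]; rfl
      have hcz : cj k G (z * g) a = MonoidAlgebra.single z 1 * cj k G g a *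
          MonoidAlgebra.single z⁻¹ 1 := by
        rw [map_mul_act, cj_eq z]
      have hzε' : MonoidAlgebra.single z⁻¹ (1 : k) * ε = ε * MonoidAlgebra.single z⁻¹ 1 :=
        hZε _ (Z.inv_mem hz)
      -- right multiplication does not change `lam`
      have hr : ∀ z ∈ Z, ∀ x ∈ M, lam (x * MonoidAlgebra.single z 1) = lam x := by
        intro z hz x hx
        have h1 := hker (hright z hz x hx)
        rw [LinearMap.mem_ker, map_sub, sub_eq_zero] at h1
        exact h1
      have hl : ∀ z ∈ Z, ∀ x ∈ M, lam (MonoidAlgebra.single z 1 * x) = lam x := by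
        intro z hz x hx
        have h1 := hker (Submodule.subset_span ⟨z, hz, x, hx, rfl⟩)
        rw [LinearMap.mem_ker, map_sub, sub_eq_zero] at h1
        exact h1
      have h1 : F (z * g) = (y * MonoidAlgebra.single z 1 * cj k G g a * ε) *
          MonoidAlgebra.single z⁻¹ 1 := by
        change y * cj k G (z * g) a * ε = _
        rw [hcz]
        calc y * (MonoidAlgebra.single z 1 * cj k G g a * MonoidAlgebra.single z⁻¹ 1) * ε
            = y * MonoidAlgebra.single z 1 * cj k G g a *
              (MonoidAlgebra.single z⁻¹ 1 * ε) := by simp only [mul_assoc]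
          _ = _ := by rw [hzε']; simp only [mul_assoc]
      have hyzM : y * MonoidAlgebra.single z 1 ∈ M := hMright z hz y hy
      rw [h1, hr z⁻¹ (Z.inv_mem hz) _ (hMb _ hyzM _ (hcjL g hg))]
      -- move `z` to the left
      have h2 : ∀ b ∈ SubAlg k L, lam (y * MonoidAlgebra.single z 1 * b * ε) = lam (y * b * ε) := by
        intro b hb
        obtain ⟨x, hx, rfl⟩ := hy
        refine SuppIn.induction (P := fun x => lam (e * ε * x * ε * MonoidAlgebra.single z 1 *
          b * ε) = lam (e * ε * x * ε * b * ε)) hx ?_ ?_ ?_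
        · simp
        · intro u v hu hv
          simp only [mul_add, add_mul, map_add]
          rw [hu, hv]
        · intro u hu c
          simp only [mul_smul_comm, smul_mul_assoc, map_smul]
          congr 1
          rcases hkey u hu with h | h
          · rw [h]; simp
          · obtain ⟨z', hz', h'⟩ := h z hz
            have h3 : e * ε * MonoidAlgebra.single u (1 : k) * ε * MonoidAlgebra.single z (1 : k) =
                MonoidAlgebra.single z' 1 * (e * ε * MonoidAlgebra.single u 1 * ε) := by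
              calc e * ε * MonoidAlgebra.single u (1 : k) * ε * MonoidAlgebra.single z (1 : k)
                  = e * (ε * MonoidAlgebra.single u (1 : k) * ε *
                    MonoidAlgebra.single z (1 : k)) := by simp only [mul_assoc]
                _ = (e * MonoidAlgebra.single z' 1) * (ε * MonoidAlgebra.single u 1 * ε) := by
                    rw [h']; simp only [mul_assoc]
                _ = _ := by rw [hec _ (hzL z' hz')]; simp only [mul_assoc]
            rw [h3, mul_assoc, mul_assoc]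
            rw [hl z' hz' _ ?_]
            · simp only [mul_assoc]
            · rw [← mul_assoc]
              exact hMb _ ⟨_, single_mem_SubAlg hu 1, rfl⟩ b hb
      exact h2 _ (hcjL g hg)
    have hsum : lam y = ∑ q : L ⧸ Q.subgroupOf L, lam (F ((q.out : L) : G)) := by
      conv_lhs => rw [hy1, map_sum]
    rw [hsum, sum_fixed hZ α (fun q => lam (F ((q.out : L) : G))) ?_ (fun _ => False) ?_]
    · simp
    · intro v q
      obtain ⟨x, rfl⟩ := QuotientGroup.mk_surjective q
      rw [hα, hout, hout]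
      exact hFz v v.2 x x.2
    · intro q
      obtain ⟨x, rfl⟩ := QuotientGroup.mk_surjective q
      refine ⟨fun h => h.elim, fun h => ?_⟩
      obtain ⟨z, hz, hzQ⟩ := hno x x.2
      have h1 := h ⟨z, hz⟩
      rw [hα, eq_comm, QuotientGroup.eq, Subgroup.mem_subgroupOf] at h1
      have h2 : (x : G)⁻¹ * (z * x) ∈ Q := h1
      apply hzQ
      rwa [← mul_assoc] at h2
  -- Nakayama
  have hMbot : M ≤ ⊥ := by
    have _ := Fintype.ofFinite Z
    refine nak (Finset.univ.image fun z : Z => MonoidAlgebra.single (z : G) (1 : k) - 1)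
      ?_ ?_ ⊥ M ?_ ?_ ?_
    · intro t ht
      obtain ⟨z, -, rfl⟩ := Finset.mem_image.mp ht
      obtain ⟨m, hm⟩ := hZ z
      have hm' : (z : G) ^ p ^ m = 1 := congrArg Subtype.val hm
      refine ⟨p ^ m, ?_⟩
      have _ : CharP (MonoidAlgebra k G) p :=
        charP_of_injective_algebraMap (algebraMap k (MonoidAlgebra k G)).injective p
      rw [sub_pow_char_pow_of_commute p m (Commute.one_right _), one_pow,
        MonoidAlgebra.single_pow, one_pow, hm', ← MonoidAlgebra.one_def, sub_self]
    · intro s hs t ht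
      obtain ⟨y, -, rfl⟩ := Finset.mem_image.mp hs
      obtain ⟨z, -, rfl⟩ := Finset.mem_image.mp ht
      have h1 : MonoidAlgebra.single (y : G) (1 : k) * MonoidAlgebra.single (z : G) 1 =
          MonoidAlgebra.single (z : G) 1 * MonoidAlgebra.single (y : G) 1 := by
        rw [MonoidAlgebra.single_mul_single, MonoidAlgebra.single_mul_single,
          hZab y y.2 z z.2]
      have h2 : Commute (MonoidAlgebra.single (y : G) (1 : k)) (MonoidAlgebra.single (z : G) 1) := h1
      exact ((h2.sub_left (Commute.one_left _)).sub_right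
        ((Commute.one_right _).sub_left (Commute.one_left _)))
    · intro t _ x hx
      rw [(Submodule.mem_bot k).mp hx, mul_zero]
      exact zero_mem _
    · intro t ht x hx
      obtain ⟨z, -, rfl⟩ := Finset.mem_image.mp ht
      rw [sub_mul, one_mul]
      exact sub_mem (hMleft z z.2 x hx) hx
    · refine hMM'.trans (le_sup_of_le_right (Submodule.span_le.mpr ?_))
      rintro _ ⟨z, hz, x, hx, rfl⟩
      refine Submodule.subset_span ⟨MonoidAlgebra.single z 1 - 1,
        Finset.mem_image.mpr ⟨⟨z, hz⟩, Finset.mem_univ _, rfl⟩, x, hx, ?_⟩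
      rw [sub_mul, one_mul]
  have h1 : e * ε ∈ M := ⟨1, Subalgebra.one_mem _, by rw [mul_one, mul_assoc, hεε]⟩
  exact (Submodule.mem_bot k).mp (hMbot h1)

/-- **Cuspidality**, second version. Let `N(V)` be the semidirect product of `V` and `C(Q)` and let
`e` be an idempotent of `kC(Q)` which is a relative trace from the subgroup `P` of `C(Q)`. If no
conjugate of `P` in `C(Q)` contains the centre of a proper Levi subgroup, then `e` is orthogonal to
the averages over all smaller unipotent radicals. -/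
theorem cusp' (𝒮 : ParSys p G) (hLv : 𝒮.HasLevi) {V Q P : Subgroup G} (hV : V ∈ 𝒮.car)
    (hL : Lv V Q) (hQ : IsPGroup p Q) (hQab : ∀ x ∈ Q, ∀ y ∈ Q, x * y = y * x)
    {e a : MonoidAlgebra k G} (haL : a ∈ SubAlg k (Ce Q)) (ha : a ∈ Fix (cj k G) P)
    (hea : e = tr (cj k G) P (Ce Q) a) (hee : e * e = e)
    (hno : ∀ W ∈ 𝒮.car, V ≤ W → Nm W ≤ Nm V → W ≠ V → ∀ Z, Mx p Z → Lv W Z → Q ≤ Z →
      ∀ x ∈ Ce Q, ∃ z ∈ Z, x⁻¹ * z * x ∉ P) :
    ∀ n : ℕ, ∀ W ∈ 𝒮.car, V ≤ W → Nm W ≤ Nm V → W ≠ V → Nat.card G < n + Nat.card W →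
      e * av k W = 0 := by
  classical
  have heF : e ∈ Fix (cj k G) (Ce Q) := by rw [hea]; exact tr_mem_Fix ha
  have heL : e ∈ SubAlg k (Ce Q) := by rw [hea]; exact tr_mem_SubAlg le_rfl haL
  intro n
  induction n with
  | zero =>
    intro W hW hVW hWN hne hcard
    exfalso
    rw [zero_add] at hcard
    exact absurd (Subgroup.card_le_card_group W) (not_le.mpr hcard)
  | succ n ih =>
    intro W hW hVW hWN hne hcard
    have hp := 𝒮.card W hW
    have hIH : ∀ W' ∈ 𝒮.car, W ≤ W' → Nm W' ≤ Nm W → (∃ x ∈ W', x ∉ W) → e * av k W' = 0 := by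
      rintro W' hW' hWW' hN ⟨x, hx, hxW⟩
      have hlt : Nat.card W < Nat.card W' := by
        refine lt_of_le_of_ne (Nat.card_le_card_of_injective _
          (Subgroup.inclusion_injective hWW')) fun h => hxW ?_
        rw [Subgroup.eq_of_le_of_card_ge hWW' h.ge]
        exact hx
      refine ih W' hW' (hVW.trans hWW') (hN.trans hWN) ?_ (by omega)
      rintro rfl
      exact hxW (hVW hx)
    -- the enlargement of `W`
    have hstar : ∀ g : G, W ⊔ (Nm W ⊓ conjS g W) ∈ 𝒮.car ∧
        Nm (W ⊔ (Nm W ⊓ conjS g W)) = W ⊔ (Nm W ⊓ Nm (conjS g W)) := fun g =>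
      ⟨𝒮.star W hW _ (𝒮.conj W hW g), 𝒮.norm W hW _ (𝒮.conj W hW g)⟩
    have hzero : ∀ g : G, (∃ x ∈ Nm W, x ∈ conjS g W ∧ x ∉ W) →
        e * av k (W ⊔ (Nm W ⊓ conjS g W)) = 0 := by
      rintro g ⟨x, hxN, hxg, hxW⟩
      refine hIH _ (hstar g).1 le_sup_left ?_ ⟨x, Subgroup.mem_sup_right ⟨hxN, hxg⟩, hxW⟩
      rw [(hstar g).2]
      exact sup_le (le_Nm W) inf_le_left
    have hcardg : ∀ g : G, ¬ p ∣ Nat.card (conjS g W) := fun g => 𝒮.card _ (𝒮.conj W hW g)
    have hav : ∀ g : G, av k W * av k (Nm W ⊓ conjS g W) = av k (W ⊔ (Nm W ⊓ conjS g W)) := by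
      intro g
      exact av_sup (card_ne (p := p) hp) (card_ne (p := p) (card_le_ne inf_le_right (hcardg g)))
        (card_ne (p := p) (𝒮.card _ (hstar g).1)) inf_le_left le_sup_left le_sup_right
        fun w hw => mem_sup_Nm inf_le_left hw
    have hav' : ∀ g : G, av k (Nm W ⊓ conjS g W) * av k W = av k (W ⊔ (Nm W ⊓ conjS g W)) := by
      intro g
      exact av_sup' (card_ne (p := p) hp) (card_ne (p := p) (card_le_ne inf_le_right (hcardg g)))
        (card_ne (p := p) (𝒮.card _ (hstar g).1)) inf_le_left le_sup_left le_sup_right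
        fun w hw => mem_sup_Nm inf_le_left hw
    -- the Levi subgroup
    obtain ⟨Z₀, hZ₀, hab₀, hpair⟩ := hLv W hW
    obtain ⟨Z, hMx, hLW, hQZ⟩ := exists_levi hL hQ hQab hVW hWN hp (lv_of_pair hpair) hZ₀ hab₀
    have hCZ : Ce Z ≤ Ce Q := Subgroup.centralizer_le hQZ
    have hWV : W ≤ Nm V := (le_Nm W).trans hWN
    have hcomm := av_comm_W (k := k) (p := p) hL hVW hWV hp heL heF
    refine cusp_alg' (Q := P) (Z := Z) (L := Ce Q) (a := a) (ν := av k (W ⊓ Ce Q))
      (η := av k V) (hMx.le.trans hCZ) hMx.pg hMx.ab (hno W hW hVW hWN hne Z hMx hLW hQZ) haL ha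
      heL hea hee
      (SubAlg_mono inf_le_right (av_mem _)) (fun x hx => av_comm hL.le hx)
      (av_idem (card_ne (p := p) (𝒮.card V hV))) (av_split (p := p) hL hVW hWV hp).symm
      (av_idem (card_ne (p := p) hp))
      (fun z hz => av_comm hLW.le (single_mem_SubAlg (hMx.le hz) 1)) ?_
    intro g hg
    have hgav : MonoidAlgebra.single g (1 : k) * av k W =
        av k (conjS g W) * MonoidAlgebra.single g 1 := single_mul_av W g
    by_cases h1 : ∀ x ∈ Nm W, x ∈ conjS g W → x ∈ W
    swap
    · left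
      push Not at h1
      have h2 := hzero g h1
      have h3 : av k (Nm W ⊓ conjS g W) * av k (conjS g W) = av k (conjS g W) :=
        av_le_left (card_ne (p := p) (card_le_ne inf_le_right (hcardg g))) inf_le_right
      calc e * av k W * MonoidAlgebra.single g 1 * av k W
          = e * av k W * (MonoidAlgebra.single g 1 * av k W) := by simp only [mul_assoc]
        _ = e * (av k W * av k (Nm W ⊓ conjS g W)) * av k (conjS g W) *
            MonoidAlgebra.single g 1 := by
            rw [hgav]
            conv_lhs => rw [← h3]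
            simp only [mul_assoc]
        _ = 0 := by rw [hav, h2, zero_mul, zero_mul]
    by_cases h2 : ∀ x ∈ Nm (conjS g W), x ∈ W → x ∈ conjS g W
    swap
    · left
      push Not at h2
      obtain ⟨x, hxN, hxW, hxg⟩ := h2
      have h3 := hzero g⁻¹ ⟨g⁻¹ * x * g, mem_Nm_conjS.mp hxN, by
        rw [mem_conjS, inv_inv]
        have e1 : g * (g⁻¹ * x * g) * g⁻¹ = x := by group
        rw [e1]; exact hxW, fun h => hxg (mem_conjS.mpr h)⟩
      have h4 : av k (conjS g⁻¹ W) * av k (Nm W ⊓ conjS g⁻¹ W) = av k (conjS g⁻¹ W) :=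
        av_le_right (card_ne (p := p) (card_le_ne inf_le_right (hcardg g⁻¹))) inf_le_right
      have h5 : av k W * MonoidAlgebra.single g (1 : k) =
          MonoidAlgebra.single g 1 * av k (conjS g⁻¹ W) := by
        rw [single_mul_av]
        congr 1
        congr 1
        ext y
        rw [mem_conjS, mem_conjS, inv_inv]
        have e1 : g * (g⁻¹ * y * g) * g⁻¹ = y := by group
        rw [e1]
      have hW' : W ⊔ (Nm W ⊓ conjS g⁻¹ W) ≤ Nm V :=
        (sup_le (le_Nm W) inf_le_left).trans hWN
      have h6 := av_comm_W (k := k) (p := p) hL (hVW.trans le_sup_left) hW'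
        (𝒮.card _ (hstar g⁻¹).1) heL heF
      have hge : MonoidAlgebra.single g (1 : k) * e = e * MonoidAlgebra.single g 1 :=
        commute_of_mem (single_mem_SubAlg hg 1) heF
      calc e * av k W * MonoidAlgebra.single g 1 * av k W
          = av k W * MonoidAlgebra.single g 1 * e * av k W := by
            rw [hcomm, mul_assoc (av k W) e, ← hge, ← mul_assoc]
        _ = MonoidAlgebra.single g 1 * av k (conjS g⁻¹ W) * (e * av k W) := by
            rw [h5]; simp only [mul_assoc]
        _ = MonoidAlgebra.single g 1 * (av k (conjS g⁻¹ W) * av k (Nm W ⊓ conjS g⁻¹ W)) *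
            (av k W * e) := by rw [h4, hcomm]
        _ = MonoidAlgebra.single g 1 * av k (conjS g⁻¹ W) *
            ((av k (Nm W ⊓ conjS g⁻¹ W) * av k W) * e) := by simp only [mul_assoc]
        _ = 0 := by rw [hav', ← h6, h3, mul_zero]
    right
    -- the associate case
    have hc1 : ∀ x ∈ Nm W, ∃ v ∈ W, v * x ∈ Nm (conjS g W) := by
      intro x hx
      have h3 : W ⊔ (Nm W ⊓ conjS g W) = W :=
        sup_eq_left.mpr fun y hy => h1 y hy.1 hy.2
      have h4 := (hstar g).2
      rw [h3] at h4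
      rw [h4] at hx
      obtain ⟨v, hv, y, hy, rfl⟩ := mem_sup_Nm inf_le_left hx
      exact ⟨v⁻¹, W.inv_mem hv, by rw [inv_mul_cancel_left]; exact hy.2⟩
    have hc2 : ∀ x ∈ Nm (conjS g W), ∃ v ∈ conjS g W, v * x ∈ Nm W := by
      intro x hx
      have h3 : conjS g W ⊔ (Nm (conjS g W) ⊓ W) = conjS g W :=
        sup_eq_left.mpr fun y hy => h2 y hy.1 hy.2
      have h4 := 𝒮.norm _ (𝒮.conj W hW g) W hW
      change Nm (conjS g W ⊔ (Nm (conjS g W) ⊓ W)) =
        conjS g W ⊔ (Nm (conjS g W) ⊓ Nm W) at h4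
      rw [h3] at h4
      rw [h4] at hx
      obtain ⟨v, hv, y, hy, rfl⟩ := mem_sup_Nm inf_le_left hx
      exact ⟨v⁻¹, (conjS g W).inv_mem hv, by rw [inv_mul_cancel_left]; exact hy.2⟩
    obtain ⟨v, hv, v', hv', m, hm, hgm⟩ := assoc hp hLW hMx h1 h2 hc1 hc2
    have h7 : av k W * MonoidAlgebra.single g (1 : k) * av k W =
        av k W * MonoidAlgebra.single m 1 * av k W := by
      have e1 : MonoidAlgebra.single g (1 : k) = MonoidAlgebra.single v 1 *
          MonoidAlgebra.single m 1 * MonoidAlgebra.single v' 1 := by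
        rw [MonoidAlgebra.single_mul_single, MonoidAlgebra.single_mul_single, one_mul, one_mul,
          ← hgm]
      rw [e1]
      calc av k W * (MonoidAlgebra.single v 1 * MonoidAlgebra.single m 1 *
            MonoidAlgebra.single v' 1) * av k W
          = (av k W * MonoidAlgebra.single v 1) * MonoidAlgebra.single m 1 *
            (MonoidAlgebra.single v' 1 * av k W) := by simp only [mul_assoc]
        _ = _ := by rw [av_right W hv, av_left W hv']
    intro z hz
    refine ⟨m * z * m⁻¹, (mem_Nm.mp hm z).mp hz, ?_⟩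
    have hz1 : av k W * MonoidAlgebra.single z (1 : k) = MonoidAlgebra.single z 1 * av k W :=
      (av_comm hLW.le (single_mem_SubAlg (hMx.le hz) 1)).symm
    have hz2 : MonoidAlgebra.single (m * z * m⁻¹) (1 : k) * av k W =
        av k W * MonoidAlgebra.single (m * z * m⁻¹) 1 :=
      av_comm hLW.le (single_mem_SubAlg (hMx.le ((mem_Nm.mp hm z).mp hz)) 1)
    have hz3 : MonoidAlgebra.single m (1 : k) * MonoidAlgebra.single z 1 =
        MonoidAlgebra.single (m * z * m⁻¹) 1 * MonoidAlgebra.single m 1 := by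
      rw [MonoidAlgebra.single_mul_single, MonoidAlgebra.single_mul_single, one_mul,
        inv_mul_cancel_right]
    rw [h7]
    calc av k W * MonoidAlgebra.single m 1 * av k W * MonoidAlgebra.single z 1
        = av k W * (MonoidAlgebra.single m 1 * MonoidAlgebra.single z 1) * av k W := by
          rw [mul_assoc _ (av k W), hz1]; simp only [mul_assoc]
      _ = (av k W * MonoidAlgebra.single (m * z * m⁻¹) 1) * MonoidAlgebra.single m 1 *
          av k W := by rw [hz3]; simp only [mul_assoc]
      _ = _ := by rw [← hz2]; simp only [mul_assoc]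

end Vale.Agent.P180.R2.H799.BN
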