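import Vale.Agent.P180.R2.H799.BNL2

/-!
P180: diagonalisable `p`-subgroups of the special linear group and Levi pairs.
-/

set_option linter.all false

namespace Vale.Agent.P180.R2.H799.BN

open Module Vale.Agent.P180.R2.H854 Vale.Agent.P180.R2.H799

section Eig

variable {K E : Type*} [Field K] [AddCommGroup E] [Module K E]

/-- an endomorphism `T` with `T ^ (q - 1) = 1` over a field with `q` elements is diagonalisable -/
theorem iSup_eigenspace [Finite K] (T : End K E) (hT : T ^ (Nat.card K - 1) = 1) :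
    ⨆ μ : K, T.eigenspace μ = ⊤ := by
  classical
  have _ := Fintype.ofFinite K
  have hq : Nat.card K = Fintype.card K := Nat.card_eq_fintype_card
  rw [hq] at hT
  set q := Fintype.card K with hqd
  have hq1 : 1 < q := Fintype.one_lt_card
  rw [eq_top_iff]
  rintro v -
  let w : Kˣ → E := fun μ => ∑ j ∈ Finset.range (q - 1), ((μ⁻¹ : Kˣ) : K) ^ j • (T ^ j) v
  have hw : ∀ μ : Kˣ, w μ ∈ T.eigenspace (μ : K) := by
    intro μ
    rw [End.mem_eigenspace_iff]
    have h1 : T (w μ) = (μ : K) • ∑ j ∈ Finset.range (q - 1),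
        ((μ⁻¹ : Kˣ) : K) ^ (j + 1) • (T ^ (j + 1)) v := by
      simp only [w]
      rw [map_sum, Finset.smul_sum]
      refine Finset.sum_congr rfl fun j _ => ?_
      rw [map_smul, smul_smul, pow_succ', pow_succ', ← mul_assoc, Units.mul_inv, one_mul,
        End.mul_apply]
    rw [h1]
    congr 1
    have h2 := Finset.sum_range_succ' (fun j => ((μ⁻¹ : Kˣ) : K) ^ j • (T ^ j) v) (q - 1)
    rw [Finset.sum_range_succ, hT] at h2
    have h3 : ((μ⁻¹ : Kˣ) : K) ^ (q - 1) = 1 := by
      have h4 : (μ⁻¹ : Kˣ) ^ (q - 1) = 1 := by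
        rw [hqd, ← Fintype.card_units]
        exact pow_card_eq_one
      rw [← Units.val_pow_eq_pow_val, h4, Units.val_one]
    rw [h3, pow_zero, pow_zero] at h2
    exact (add_right_cancel h2).symm
  have hsum : ∑ μ : Kˣ, w μ = -v := by
    simp only [w]
    rw [Finset.sum_comm]
    have h1 : ∀ j ∈ Finset.range (q - 1), ∑ μ : Kˣ, ((μ⁻¹ : Kˣ) : K) ^ j • (T ^ j) v =
        if j = 0 then -v else 0 := by
      intro j hj
      rw [← Finset.sum_smul]
      have h2 : ∑ μ : Kˣ, ((μ⁻¹ : Kˣ) : K) ^ j = ∑ μ : Kˣ, (μ : K) ^ j :=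
        Equiv.sum_comp (Equiv.inv Kˣ) (fun μ : Kˣ => (μ : K) ^ j)
      rw [h2]
      have h3 := FiniteField.sum_pow_units K j
      have h4 : ∑ μ : Kˣ, (μ : K) ^ j = if q - 1 ∣ j then -1 else 0 := h3
      rw [h4]
      by_cases hj0 : j = 0
      · subst hj0
        rw [if_pos (dvd_zero _), if_pos rfl, neg_one_smul, pow_zero]
        rfl
      · rw [if_neg hj0, if_neg, zero_smul]
        intro hd
        exact absurd (Nat.le_of_dvd (Nat.pos_of_ne_zero hj0) hd)
          (not_le.mpr (Finset.mem_range.mp hj))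
    rw [Finset.sum_congr rfl h1, Finset.sum_ite_eq' (Finset.range (q - 1)) 0]
    rw [if_pos (Finset.mem_range.mpr (by omega))]
  have h5 : v = -∑ μ : Kˣ, w μ := by rw [hsum, neg_neg]
  rw [h5]
  refine Submodule.neg_mem _ (Submodule.sum_mem _ fun μ _ => ?_)
  exact (le_iSup (fun μ : K => T.eigenspace μ) (μ : K)) (hw μ)

end Eig

section EV

variable {K E : Type*} [Field K] [AddCommGroup E] [Module K E] [FiniteDimensional K E]

/-- the common eigenvectors -/
def EV (Q : Subgroup (SpecialLinearGroup K E)) : Set E :=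
  {v | ∀ g ∈ Q, ∃ c : K, g v = c • v}

theorem toEnd_pow (g : SpecialLinearGroup K E) (n : ℕ) : toEnd (g ^ n) = toEnd g ^ n := by
  induction n with
  | zero => rw [pow_zero, pow_zero, toEnd_one]
  | succ n ih => rw [pow_succ, pow_succ, toEnd_mul, ih]

/-- a commuting family of elements of order dividing `q - 1` is diagonalisable -/
theorem span_EV_of_comm [Finite K] {Q : Subgroup (SpecialLinearGroup K E)}
    (hc : ∀ x ∈ Q, ∀ y ∈ Q, x * y = y * x) (he : ∀ g ∈ Q, g ^ (Nat.card K - 1) = 1) :
    Submodule.span K (EV Q) = ⊤ := by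
  have _ := Fintype.ofFinite K
  let f : Q → End K E := fun g => toEnd (g : SpecialLinearGroup K E)
  have hf1 : ∀ g, f g ^ (Nat.card K - 1) = 1 := by
    intro g
    change toEnd _ ^ _ = 1
    rw [← toEnd_pow, he _ g.2, toEnd_one]
  have hss : ∀ g, (f g).IsSemisimple := by
    intro g
    have hq1 : 1 < Fintype.card K := Fintype.one_lt_card
    have hne : ((Nat.card K - 1 : ℕ) : K) ≠ 0 := by
      rw [Nat.card_eq_fintype_card, Nat.cast_sub hq1.le, FiniteField.cast_card_eq_zero,
        Nat.cast_one, zero_sub]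
      exact neg_ne_zero.mpr one_ne_zero
    refine End.isSemisimple_of_squarefree_aeval_eq_zero
      (p := Polynomial.X ^ (Nat.card K - 1) - Polynomial.C 1)
      (Polynomial.separable_X_pow_sub_C 1 hne one_ne_zero).squarefree ?_
    rw [map_sub, map_pow, Polynomial.aeval_X, Polynomial.aeval_C, map_one, hf1, sub_self]
  have h1 : ∀ g, ⨆ μ, (f g).maxGenEigenspace μ = ⊤ := by
    intro g
    rw [(hss g).iSup_maxGenEigenspace_eq_top_iff]
    exact iSup_eigenspace _ (hf1 g)
  have h2 := End.iSup_iInf_maxGenEigenspace_eq_top_of_iSup_maxGenEigenspace_eq_top_of_commute f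
    (fun i j _ => by
      change toEnd _ * toEnd _ = toEnd _ * toEnd _
      rw [← toEnd_mul, ← toEnd_mul, hc _ i.2 _ j.2]) h1
  rw [eq_top_iff, ← h2]
  refine iSup_le fun χ => ?_
  intro v hv
  refine Submodule.subset_span fun g hg => ⟨χ ⟨g, hg⟩, ?_⟩
  have h3 := (Submodule.mem_iInf _).mp hv ⟨g, hg⟩
  rw [(hss ⟨g, hg⟩).isFinitelySemisimple.maxGenEigenspace_eq_eigenspace,
    End.mem_eigenspace_iff] at h3
  exact h3

/-- **Levi pairs** of diagonalisable groups -/
theorem exists_pair_of_span {Q : Subgroup (SpecialLinearGroup K E)}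
    (h : Submodule.span K (EV Q) = ⊤) :
    ∃ F : Flag K E, IsLeviPair (VF F) Q := by
  classical
  let b := Basis.ofSpan h.ge
  have hb : ∀ l, b l ∈ EV Q := fun l => Basis.ofSpan_subset h.ge ⟨l, rfl⟩
  have _ : Finite _ := Module.Finite.finite_basis b
  have _ := Fintype.ofFinite ((linearIndepOn_empty K id).extend (Set.empty_subset (EV Q)))
  choose w hw using fun l (g : Q) => hb l g g.2
  obtain ⟨N, ⟨e⟩⟩ := Finite.exists_equiv_fin (Set.range w)
  let α := fun l => ((e ⟨w l, l, rfl⟩ : Fin N) : ℕ)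
  have hα : ∀ l m, α l = α m ↔ w l = w m := by
    intro l m
    constructor
    · intro h1
      have h2 := e.injective (Fin.ext h1)
      exact congrArg Subtype.val h2
    · intro h1
      simp only [α, h1]
  let F : Flag K E :=
    { car := fun i => Submodule.span K (b '' {l | α l < i})
      mono := fun i j hij => Submodule.span_mono (Set.image_mono fun l hl => lt_of_lt_of_le hl hij)
      zero := by simp
      top := ⟨N, by
        have h1 : {l | α l < N} = Set.univ := by
          ext l
          simp only [Set.mem_setOf_eq, Set.mem_univ, iff_true]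
          exact (e ⟨w l, l, rfl⟩).2
        rw [h1, Set.image_univ, b.span_eq]⟩ }
  refine ⟨F, levi_pair (b := b) (α := α) (fun i => rfl) fun g => ?_⟩
  rw [Subgroup.mem_centralizer_iff]
  constructor
  · intro hg l m hm
    rw [hα]
    funext z
    have := coeff_of_comm (b := b) (c := fun l => w l z) (fun l => hw l z) (hg z z.2) l m hm
    exact this
  · intro hg z hz
    refine comm_of_BD (c := fun l => w l ⟨z, hz⟩) hg (fun l => hw l ⟨z, hz⟩) ?_
    intro l m hlm
    have := (hα l m).mp hlm
    simp only [this]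

theorem comm_of_span {Q : Subgroup (SpecialLinearGroup K E)}
    (h : Submodule.span K (EV Q) = ⊤) : ∀ x ∈ Q, ∀ y ∈ Q, x * y = y * x := by
  intro x hx y hy
  let b := Basis.ofSpan h.ge
  have hb : ∀ l, b l ∈ EV Q := fun l => Basis.ofSpan_subset h.ge ⟨l, rfl⟩
  refine sl_ext b fun l => ?_
  obtain ⟨c, hc⟩ := hb l x hx
  obtain ⟨d, hd⟩ := hb l y hy
  rw [mul_apply', mul_apply', hd, hc, sl_smul, sl_smul, hc, hd, smul_smul, smul_smul, mul_comm]

end EV

end Vale.Agent.P180.R2.H799.BN
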