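import Vale.Agent.P180.R2.H854.FlagGL
import Vale.Agent.P180.R2.H799.BNL3

/-!
P180: Levi subgroups in the general linear group as centralisers of diagonal `p`-subgroups.
-/

set_option linter.all false

namespace Vale.Agent.P180.R2.H799.BG

open Module Vale.Agent.P180.R2.H854 Vale.Agent.P180.R2.H854.GL Vale.Agent.P180.R2.H799

variable {K E : Type*} [Field K] [AddCommGroup E] [Module K E] [FiniteDimensional K E]

/-- `g` preserves the spans of the basis vectors with a given value of `α`. -/
def BD {ι : Type*} (b : Basis ι K E) (α : ι → ℕ) (g : E ≃ₗ[K] E) : Prop :=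
  ∀ l m, b.repr (g (b l)) m ≠ 0 → α m = α l

theorem levi_pair {ι : Type*} [Fintype ι] {b : Basis ι K E} {α : ι → ℕ} {F : Flag K E}
    (h : Adapted b α F) {Z : Subgroup (E ≃ₗ[K] E)}
    (hZ : ∀ g, g ∈ Subgroup.centralizer (Z : Set (E ≃ₗ[K] E)) ↔ BD b α g) :
    IsLeviPair (VG F) Z := by
  classical
  have hle : Subgroup.centralizer (Z : Set (E ≃ₗ[K] E)) ≤ PG F := by
    intro g hg
    rw [mem_PG_iff, h.mem_Pa_iff]
    intro l m hm
    exact ((hZ g).mp hg l m hm).le
  constructor
  · rw [eq_bot_iff]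
    rintro g ⟨hgV, hgC⟩
    have h1 : tE g - 1 ∈ Jr F := hgV
    have h2 := (hZ g).mp hgC
    rw [h.mem_Jr_iff] at h1
    have h3 : tE g - 1 = 0 := by
      refine b.ext fun l => ?_
      rw [LinearMap.zero_apply, ← b.repr.map_eq_zero_iff]
      ext m
      by_contra hm
      have hlt := h1 l m hm
      have hne : l ≠ m := by rintro rfl; exact lt_irrefl _ hlt
      have h4 : b.repr (g (b l)) m ≠ 0 := by
        intro h0
        apply hm
        rw [LinearMap.sub_apply, map_sub, Finsupp.sub_apply, tE_apply, h0]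
        simp [Finsupp.single_apply, hne]
      exact absurd (h2 l m h4) hlt.ne
    rw [Subgroup.mem_bot]
    apply tE_injective
    rw [tE_one]
    exact sub_eq_zero.mp h3
  · rw [normalizer_VG]
    apply le_antisymm
    · exact sup_le (VG_le_PG F) hle
    · intro g hg
      let c2 : ι → E := fun l => ∑ m, (if α m = α l then b.repr (g (b l)) m else 0) • b m
      let a2 : End K E := b.constr K c2
      have e2 : ∀ l m, b.repr (a2 (b l)) m = if α m = α l then b.repr (g (b l)) m else 0 := by
        intro l m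
        have h1 : a2 (b l) = c2 l := b.constr_basis K c2 l
        rw [h1]
        simp only [c2, map_sum, map_smul, Basis.repr_self, Finsupp.coe_finsetSum,
          Finset.sum_apply, Finsupp.smul_apply, Finsupp.single_apply, smul_eq_mul, mul_ite, mul_one,
          mul_zero]
        rw [Finset.sum_ite_eq' Finset.univ m]
        simp
      have hle' : ∀ l m, b.repr (g (b l)) m ≠ 0 → α m ≤ α l := h.mem_Pa_iff.mp (mem_PG_iff.mp hg)
      have h1 : tE g - a2 ∈ Jr F := by
        rw [h.mem_Jr_iff]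
        intro l m hm
        rw [LinearMap.sub_apply, map_sub, Finsupp.sub_apply, e2, tE_apply] at hm
        split_ifs at hm with h1
        · exact absurd (sub_self _) hm
        · rw [sub_zero] at hm
          exact lt_of_le_of_ne (hle' l m hm) h1
      obtain ⟨u, hu, hug⟩ := exists_factor hg h1
      rw [sub_sub_cancel] at hug
      have h2 : u * g ∈ Subgroup.centralizer (Z : Set (E ≃ₗ[K] E)) := by
        rw [hZ]
        intro l m hm
        have h3 : (u * g) (b l) = a2 (b l) := congrArg (fun a : End K E => a (b l)) hug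
        rw [h3, e2] at hm
        split_ifs at hm with h4
        · exact h4
        · exact absurd rfl hm
      have h3 : g = u⁻¹ * (u * g) := by group
      rw [h3]
      exact Subgroup.mul_mem_sup ((VG F).inv_mem hu) h2

theorem g_sum {ι : Type*} [Fintype ι] (z : E ≃ₗ[K] E) (r : ι → K) (x : ι → E) :
    z (∑ i, r i • x i) = ∑ i, r i • z (x i) := by
  rw [map_sum]
  exact Finset.sum_congr rfl fun i _ => map_smul z _ _

theorem comm_of_BD {ι : Type*} [Fintype ι] {b : Basis ι K E} {α : ι → ℕ}
    {g z : E ≃ₗ[K] E} (hg : BD b α g) {c : ι → K} (hz : ∀ l, z (b l) = c l • b l)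
    (hc : ∀ l m, α l = α m → c l = c m) : z * g = g * z := by
  apply tE_injective
  refine b.ext fun l => ?_
  rw [tE_apply, tE_apply, GL.mul_apply, GL.mul_apply, hz, map_smul]
  conv_lhs => rw [← b.sum_repr (g (b l)), g_sum]
  conv_rhs => rw [← b.sum_repr (g (b l)), Finset.smul_sum]
  refine Finset.sum_congr rfl fun m _ => ?_
  rw [hz]
  by_cases h : b.repr (g (b l)) m = 0
  · rw [h, zero_smul, zero_smul, smul_zero]
  · rw [hc m l (hg l m h), smul_comm]

theorem coeff_of_comm {ι : Type*} [Fintype ι] {b : Basis ι K E}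
    {g z : E ≃ₗ[K] E} {c : ι → K} (hz : ∀ l, z (b l) = c l • b l)
    (h : z * g = g * z) (l m : ι) (hm : b.repr (g (b l)) m ≠ 0) : c m = c l := by
  classical
  have h1 : z (g (b l)) = c l • g (b l) := by
    have h2 : (z * g) (b l) = (g * z) (b l) := by rw [h]
    rw [GL.mul_apply, GL.mul_apply, hz, map_smul] at h2
    exact h2
  have h3 : b.repr (z (g (b l))) m = c m * b.repr (g (b l)) m := by
    conv_lhs => rw [← b.sum_repr (g (b l))]
    have h4 : z (∑ i, b.repr (g (b l)) i • b i) = ∑ i, (b.repr (g (b l)) i * c i) • b i := by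
      rw [g_sum]
      refine Finset.sum_congr rfl fun i _ => ?_
      rw [hz, smul_smul]
    rw [h4, map_sum, Finsupp.coe_finsetSum, Finset.sum_apply]
    simp only [map_smul, Basis.repr_self, Finsupp.smul_apply, Finsupp.single_apply, smul_eq_mul,
      mul_ite, mul_one, mul_zero]
    rw [Finset.sum_ite_eq' Finset.univ m]
    simp [mul_comm]
  rw [h1, map_smul, Finsupp.smul_apply, smul_eq_mul] at h3
  exact (mul_right_cancel₀ hm h3).symm

theorem g_ext {ι : Type*} (b : Basis ι K E) {x y : E ≃ₗ[K] E}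
    (h : ∀ l, x (b l) = y (b l)) : x = y :=
  tE_injective (b.ext fun l => h l)

/-- a diagonal element of the general linear group -/
theorem exists_diag {ι : Type*} (b : Basis ι K E) (d : ι → Kˣ) :
    ∃ z : E ≃ₗ[K] E, ∀ l, z (b l) = (d l : K) • b l := by
  refine ⟨LinearEquiv.ofLinear (b.constr K fun l => (d l : K) • b l)
    (b.constr K fun l => ((d l)⁻¹ : Kˣ) • b l) ?_ ?_, fun l => ?_⟩
  · refine b.ext fun l => ?_
    rw [LinearMap.comp_apply, b.constr_basis, Units.smul_def, map_smul, b.constr_basis, smul_smul,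
      Units.inv_mul, one_smul, LinearMap.id_apply]
  · refine b.ext fun l => ?_
    rw [LinearMap.comp_apply, b.constr_basis, map_smul, b.constr_basis, Units.smul_def, smul_smul,
      Units.mul_inv, one_smul, LinearMap.id_apply]
  · change (b.constr K fun l => (d l : K) • b l) (b l) = _
    rw [b.constr_basis]

theorem inv_eigen {z : E ≃ₗ[K] E} {x : E} {c : K} (hc : c ≠ 0) (h : z x = c • x) :
    z⁻¹ x = c⁻¹ • x := by
  have h1 : z (c⁻¹ • x) = x := by
    rw [map_smul, h, smul_smul, inv_mul_cancel₀ hc, one_smul]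
  calc z⁻¹ x = z⁻¹ (z (c⁻¹ • x)) := by rw [h1]
    _ = _ := inv_apply_self z _

/-- the diagonal elements of order dividing `p` with equal eigenvalues on the blocks -/
def Zd {ι : Type*} (p : ℕ) [Fact p.Prime] (b : Basis ι K E) (α : ι → ℕ) :
    Subgroup (E ≃ₗ[K] E) where
  carrier := {z | ∃ c : ℕ → K, (∀ i, c i ^ p = 1) ∧ ∀ l, z (b l) = c (α l) • b l}
  one_mem' := ⟨fun _ => 1, fun _ => one_pow p, fun l => by rw [one_smul]; rfl⟩
  mul_mem' := by
    rintro x y ⟨c, hc, hx⟩ ⟨d, hd, hy⟩
    refine ⟨fun i => c i * d i, fun i => by rw [mul_pow, hc, hd, one_mul], fun l => ?_⟩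
    rw [GL.mul_apply, hy, map_smul, hx, smul_smul, mul_comm]
  inv_mem' := by
    rintro x ⟨c, hc, hx⟩
    refine ⟨fun i => (c i)⁻¹, fun i => by rw [inv_pow, hc, inv_one], fun l => ?_⟩
    refine inv_eigen ?_ (hx l)
    intro h0
    have := hc (α l)
    rw [h0, zero_pow (Fact.out : p.Prime).ne_zero] at this
    exact zero_ne_one this

theorem pow_apply_eigen {z : E ≃ₗ[K] E} {x : E} {c : K} (h : z x = c • x) (m : ℕ) :
    (z ^ m) x = c ^ m • x := by
  induction m with
  | zero => rw [pow_zero, pow_zero, one_smul]; rfl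
  | succ m ih => rw [pow_succ, GL.mul_apply, h, map_smul, ih, smul_smul, pow_succ, mul_comm]

theorem Zd_pow {ι : Type*} {p : ℕ} [Fact p.Prime] {b : Basis ι K E} {α : ι → ℕ} :
    ∀ z ∈ Zd p b α, z ^ p = 1 := by
  rintro z ⟨c, hc, hz⟩
  refine g_ext b fun l => ?_
  rw [pow_apply_eigen (hz l), hc, one_smul]
  rfl

theorem Zd_isPGroup {ι : Type*} {p : ℕ} [Fact p.Prime] {b : Basis ι K E} {α : ι → ℕ} :
    IsPGroup p (Zd p b α) := by
  rintro ⟨z, hz⟩
  refine ⟨1, Subtype.ext ?_⟩
  rw [pow_one]
  exact Zd_pow z hz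

theorem Zd_comm {ι : Type*} {p : ℕ} [Fact p.Prime] {b : Basis ι K E} {α : ι → ℕ} :
    ∀ x ∈ Zd p b α, ∀ y ∈ Zd p b α, x * y = y * x := by
  rintro x ⟨c, hc, hx⟩ y ⟨d, hd, hy⟩
  refine g_ext b fun l => ?_
  rw [GL.mul_apply, GL.mul_apply, hx, hy, map_smul, map_smul, hx, hy, smul_smul, smul_smul, mul_comm]

/-- the centraliser of `Zd` -/
theorem cent_Zd [Finite K] {ι : Type*} [Fintype ι] {p : ℕ} [Fact p.Prime] (b : Basis ι K E)
    (α : ι → ℕ) (hp1 : p ∣ Nat.card K - 1) (g : E ≃ₗ[K] E) :
    g ∈ Subgroup.centralizer (Zd p b α : Set (E ≃ₗ[K] E)) ↔ BD b α g := by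
  classical
  have _ := Fintype.ofFinite K
  rw [Subgroup.mem_centralizer_iff]
  constructor
  · intro h l m hm
    by_contra hne
    have hdvd : p ∣ Fintype.card Kˣ := by
      rw [Fintype.card_units, ← Nat.card_eq_fintype_card]
      exact hp1
    obtain ⟨ζ, hζ⟩ := exists_prime_orderOf_dvd_card p hdvd
    have hζp : ζ ^ p = 1 := by
      have := pow_orderOf_eq_one ζ
      rwa [hζ] at this
    obtain ⟨z, hz⟩ := exists_diag b (fun i => if α i = α l then ζ else 1)
    have hzZ : z ∈ Zd p b α := by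
      refine ⟨fun i => ((if i = α l then ζ else 1 : Kˣ) : K), fun i => ?_, hz⟩
      change ((if i = α l then ζ else 1 : Kˣ) : K) ^ p = 1
      split_ifs
      · rw [← Units.val_pow_eq_pow_val, hζp, Units.val_one]
      · rw [Units.val_one, one_pow]
    have h2 := coeff_of_comm hz (h z hzZ) l m hm
    have h3 := Units.ext h2
    rw [if_neg hne, if_pos rfl] at h3
    rw [← h3, orderOf_one] at hζ
    exact (Fact.out : p.Prime).one_lt.ne hζ
  · rintro hg z ⟨c, hc, hz⟩
    exact comm_of_BD (c := fun l => c (α l)) hg hz fun l m h => by simp only [h]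

/-- the common eigenvectors -/
def EV (Q : Subgroup (E ≃ₗ[K] E)) : Set E := {v | ∀ g ∈ Q, ∃ c : K, g v = c • v}

/-- **Levi pairs** of diagonalisable groups -/
theorem exists_pair_of_span {Q : Subgroup (E ≃ₗ[K] E)}
    (h : Submodule.span K (EV Q) = ⊤) :
    ∃ F : Flag K E, IsLeviPair (VG F) Q := by
  classical
  let b := Basis.ofSpan h.ge
  have hb : ∀ l, b l ∈ EV Q := fun l => Basis.ofSpan_subset h.ge ⟨l, rfl⟩
  have _ : Finite _ := Module.Finite.finite_basis b
  have _ := Fintype.ofFinite ((linearIndepOn_empty K id).extend (Set.empty_subset (EV Q)))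
  choose w hw using fun l (g : Q) => hb l g g.2
  obtain ⟨N, ⟨e⟩⟩ := Finite.exists_equiv_fin (Set.range w)
  let α := fun l => ((e ⟨w l, l, rfl⟩ : Fin N) : ℕ)
  have hα : ∀ l m, α l = α m ↔ w l = w m := by
    intro l m
    constructor
    · intro h1
      have h2 := e.injective (Fin.ext h1)
      exact congrArg Subtype.val h2
    · intro h1
      simp only [α, h1]
  let F : Flag K E :=
    { car := fun i => Submodule.span K (b '' {l | α l < i})
      mono := fun i j hij => Submodule.span_mono (Set.image_mono fun l hl => lt_of_lt_of_le hl hij)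
      zero := by simp
      top := ⟨N, by
        have h1 : {l | α l < N} = Set.univ := by
          ext l
          simp only [Set.mem_setOf_eq, Set.mem_univ, iff_true]
          exact (e ⟨w l, l, rfl⟩).2
        rw [h1, Set.image_univ, b.span_eq]⟩ }
  refine ⟨F, levi_pair (b := b) (α := α) (fun i => rfl) fun g => ?_⟩
  rw [Subgroup.mem_centralizer_iff]
  constructor
  · intro hg l m hm
    rw [hα]
    funext z
    have := coeff_of_comm (b := b) (c := fun l => w l z) (fun l => hw l z) (hg z z.2) l m hm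
    exact this
  · intro hg z hz
    refine comm_of_BD (c := fun l => w l ⟨z, hz⟩) hg (fun l => hw l ⟨z, hz⟩) ?_
    intro l m hlm
    have := (hα l m).mp hlm
    simp only [this]

theorem comm_of_span {Q : Subgroup (E ≃ₗ[K] E)}
    (h : Submodule.span K (EV Q) = ⊤) : ∀ x ∈ Q, ∀ y ∈ Q, x * y = y * x := by
  intro x hx y hy
  let b := Basis.ofSpan h.ge
  have hb : ∀ l, b l ∈ EV Q := fun l => Basis.ofSpan_subset h.ge ⟨l, rfl⟩
  refine g_ext b fun l => ?_
  obtain ⟨c, hc⟩ := hb l x hx
  obtain ⟨d, hd⟩ := hb l y hy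
  rw [GL.mul_apply, GL.mul_apply, hd, hc, map_smul, map_smul, hc, hd, smul_smul, smul_smul, mul_comm]

end Vale.Agent.P180.R2.H799.BG
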