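import Vale.Agent.P180.R2.H799.BNR9
import Vale.Agent.P180.R2.H471.Hc7
import Vale.Agent.P180.R2.H471.Hc8

/-!
P180: relative parabolic systems; the bound for the blocks of the normal subgroup.
-/

set_option linter.all false

namespace Vale.Agent.P180.R2.H799.BN

open Vale.Agent.P180 Vale.Agent.P180.H768.Gd Vale.Agent.P180.R2.H799
open Vale.Agent.P180.R2.H365 (br_self)
open Vale.Agent.P180.R2.H471.Hc (OneBd exists_block_br tr_of_br)

universe u

section Fin

variable {k : Type u} [Field k] {p : ℕ} [Fact p.Prime] [CharP k p] {H : Type} [Group H] [Finite H]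

/-- From an idempotent of `f kH` to an idempotent of the block `e`, where `f` is a block of
`k C(Q)` below `e`. -/
theorem oneBd_aux {Q : Subgroup H} (hQ : IsPGroup p Q) {e f F : MonoidAlgebra k H}
    (he : IsBlockOf (⊤ : Subgroup H) e) (hf : IsBlockOf (Ce Q) f) (hef : br Q e * br Q f ≠ 0)
    (hFQ : F ∈ Fix (cj k H) Q) (hFF : F * F = F) (hfF : f * F = F) (hbr : br Q F ≠ 0) {C : ℕ}
    (hdim : Module.finrank k (NN (⊤ : Subalgebra k (MonoidAlgebra k H)) F F) ≤ C) :
    ∃ i ∈ Fix (cj k H) Q, i * i = i ∧ e * i = i ∧ br Q i ≠ 0 ∧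
      Module.finrank k (NN (⊤ : Subalgebra k (MonoidAlgebra k H)) i i) ≤ C := by
  have hfin : FiniteDimensional k (MonoidAlgebra k H) :=
    Module.Finite.equiv (MonoidAlgebra.coeffLinearEquiv k (M := H) (S := k)).symm
  have hec : ∀ x : MonoidAlgebra k H, x * e = e * x := fun x =>
    commute_of_mem (SubAlg_top x) he.mem.2
  have heQ : e ∈ Fix (cj k H) Q := Fix_mono _ le_top he.mem.2
  have hfL : f ∈ SubAlg k (Ce Q) := hf.mem.1
  have hfQ : f ∈ Fix (cj k H) Q := H365.fix_of_cent hfL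
  have hbf : br Q f = f := br_self hfL
  have hbeL : br Q e ∈ SubAlg k (Ce Q) := by
    intro g hg
    rw [br_coeff] at hg
    split_ifs at hg with h
    · exact h
    · exact absurd rfl hg
  have hbeF : br Q e ∈ Fix (cj k H) (Ce Q) := by
    intro g hg
    have h1 : g ∈ Subgroup.normalizer (Q : Set H) := Ce_le_Nm Q hg
    have h2 := br_cj_norm (k := k) h1 e
    rw [he.mem.2 g trivial] at h2
    exact h2.symm
  have hbee : br Q e * br Q e = br Q e := by
    rw [← br_mul hQ heQ heQ, he.idem.eq]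
  -- `br Q e * f = f`
  have h1 : br Q e * f = f := by
    have hcf : br Q e * f = f * br Q e := commute_of_mem hbeL hf.mem.2
    rcases hf.primitive (br Q e * f) ⟨Subalgebra.mul_mem _ hbeL hfL,
      Subalgebra.mul_mem _ hbeF hf.mem.2⟩ (by
        change br Q e * f * (br Q e * f) = br Q e * f
        calc br Q e * f * (br Q e * f) = br Q e * (f * br Q e) * f := by simp only [mul_assoc]
          _ = (br Q e * br Q e) * (f * f) := by rw [← hcf]; simp only [mul_assoc]
          _ = _ := by rw [hbee, hf.idem.eq]) (by rw [mul_assoc, hf.idem.eq]) with h | h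
    · rw [hbf] at hef
      exact absurd h hef
    · exact h
  refine ⟨e * F, Subalgebra.mul_mem _ heQ hFQ, ?_, ?_, ?_, ?_⟩
  · calc e * F * (e * F) = e * (F * e) * F := by simp only [mul_assoc]
      _ = (e * e) * (F * F) := by rw [hec]; simp only [mul_assoc]
      _ = _ := by rw [he.idem.eq, hFF]
  · rw [← mul_assoc, he.idem.eq]
  · have h2 : br Q F = f * br Q F := by
      conv_lhs => rw [← hfF]
      rw [br_mul hQ hfQ hFQ, hbf]
    rw [br_mul hQ heQ hFQ, h2, ← mul_assoc, h1, ← h2]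
    exact hbr
  · refine (Submodule.finrank_mono ?_).trans hdim
    rintro x ⟨hx, hx1, hx2⟩
    refine ⟨hx, ?_, ?_⟩
    · conv_lhs => rw [← hx1]
      calc F * (e * F * x) = (F * e) * F * x := by simp only [mul_assoc]
        _ = e * (F * F) * x := by rw [hec]; simp only [mul_assoc]
        _ = x := by rw [hFF, hx1]
    · conv_lhs => rw [← hx2]
      calc x * (e * F) * F = x * (e * (F * F)) := by simp only [mul_assoc]
        _ = x := by rw [hFF, hx2]

end Fin

variable {k : Type u} [Field k] [IsAlgClosed k] {p : ℕ} [Fact p.Prime] [CharP k p] {G : Type}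
  [Group G] [Finite G]

/-- **The bound for the blocks of the normal subgroup.** -/
theorem oneBd_rel {𝒮 : ParSys p G} {H : Subgroup G} (hn : ∀ g : G, ∀ h ∈ H, g * h * g⁻¹ ∈ H)
    {e₀ c₀ m₀ : ℕ} (hR : RelLevi 𝒮 H e₀ c₀) {Q : Subgroup H} (hQ : IsPGroup p Q)
    (hab : ∀ x ∈ Q, ∀ y ∈ Q, x * y = y * x) {V : Subgroup G} (hV : V ∈ 𝒮.car)
    (hL : Lv V (Q.map H.subtype))
    (hm : ∀ Y : Subgroup H, Y ≤ Q → (∀ x ∈ Y, x ^ e₀ = 1) → Nat.card Y ≤ m₀) :
    OneBd k Q (Nat.card Q * rbd (c₀ * m₀)) := by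
  classical
  intro e a he ha hea hbr
  have hbe : br Q (br Q e) ≠ 0 := by
    rw [br_self]
    · exact hbr
    · intro g hg
      rw [br_coeff] at hg
      split_ifs at hg with h
      · exact h
      · exact absurd rfl hg
  obtain ⟨f, hf, hef⟩ := exists_block_br (Ce Q) Q hbr
  have hQC : Q ≤ Ce Q := fun x hx => mem_Ce.mpr fun y hy => hab y hy x hx
  obtain ⟨w, hwL, hwF, hfw⟩ := tr_of_br hQC hQ le_rfl he.idem.eq ha hea hf hef
  set R : Subgroup G := Q.map H.subtype with hRdef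
  have hRH : R ≤ H := by
    rintro _ ⟨x, -, rfl⟩
    exact x.2
  have hRinf : R ⊓ H = R := inf_eq_left.mpr hRH
  have hCe : (Ce Q).map H.subtype = Ce R ⊓ H := by
    ext x
    constructor
    · rintro ⟨y, hy, rfl⟩
      refine ⟨mem_Ce.mpr ?_, y.2⟩
      rintro _ ⟨q, hq, rfl⟩
      exact congrArg Subtype.val (mem_Ce.mp hy q hq)
    · rintro ⟨hx, hxH⟩
      refine ⟨⟨x, hxH⟩, mem_Ce.mpr fun q hq => Subtype.ext ?_, rfl⟩
      exact mem_Ce.mp hx (q : G) ⟨q, hq, rfl⟩
  have hRD : RD 𝒮 H R V (incl k H f) (incl k H w) := by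
    refine ⟨hn, hV, hL, hQ.map _, ?_, ?_, ?_, ?_⟩
    · rintro _ ⟨x, hx, rfl⟩ _ ⟨y, hy, rfl⟩
      rw [← map_mul, hab x hx y hy, map_mul]
    · rw [← hCe]
      exact (isBlockOf_map_iff H (Ce Q) f).mpr hf
    · rw [← hCe]
      exact (incl_mem_SubAlg_iff H (Ce Q) w).mpr hwL
    · rw [← hCe, hRinf, hRdef, ← incl_tr_gen H hwF, ← hfw]
  have hm' : ∀ Y : Subgroup G, Y ≤ R ⊓ H → (∀ x ∈ Y, x ^ e₀ = 1) → Nat.card Y ≤ m₀ := by
    intro Y hY hexp
    have h1 : Nat.card (Y.subgroupOf H) = Nat.card Y :=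
      Nat.card_congr (Subgroup.subgroupOfEquivOfLe (hY.trans inf_le_right)).toEquiv
    rw [← h1]
    refine hm _ ?_ ?_
    · intro x hx
      obtain ⟨y, hy, hyx⟩ := (hY (Subgroup.mem_subgroupOf.mp hx)).1
      have h2 : y = x := Subtype.ext hyx
      rw [← h2]; exact hy
    · intro x hx
      exact Subtype.ext (hexp _ (Subgroup.mem_subgroupOf.mp hx))
  obtain ⟨F, hFH, hFR, hFF, hfF, hbF, hdim⟩ := hRD.exists_F hR hm'
  obtain ⟨F', rfl⟩ := exists_incl H hFH
  have hcard : Nat.card (R ⊓ H : Subgroup G) = Nat.card Q := by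
    rw [hRinf]
    exact (Nat.card_congr (Q.equivMapOfInjective _ H.subtype_injective).toEquiv).symm
  rw [hcard, finrank_NN_incl] at hdim
  refine oneBd_aux hQ he hf hef ((incl_mem_Fix_iff H Q F').mp hFR) ?_ ?_ ?_ hdim
  · exact incl_injective (k := k) H (by rw [map_mul, hFF])
  · exact incl_injective (k := k) H (by rw [map_mul, hfF])
  · intro h0
    apply hbF
    rw [← Vale.Agent.P180.R2.H365.Src.incl_br, h0, map_zero]

end Vale.Agent.P180.R2.H799.BN
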