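import Vale.Agent.P180.R2.H799.BNG1
import Vale.Agent.P180.R2.H799.BNR10
import Vale.Agent.P180.R2.H799.BNL5

/-!
P180: the special linear group as a normal subgroup of the general linear group.
-/

set_option linter.all false

namespace Vale.Agent.P180.R2.H799.BG

open Module Vale.Agent.P180.R2.H854 Vale.Agent.P180.R2.H854.GL Vale.Agent.P180.R2.H799
open Vale.Agent.P180.R2.H799.BN (RelLevi Lv lv_of_pair oneBd_rel rbd)
open Vale.Agent.P180.R2.H471.Hc (OneBd)

universe u

section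

variable {K E : Type*} [Field K] [AddCommGroup E] [Module K E]

/-- the special linear group as a subgroup -/
noncomputable def SLs (K E : Type*) [Field K] [AddCommGroup E] [Module K E] :
    Subgroup (E ≃ₗ[K] E) :=
  (LinearEquiv.det (R := K) (M := E)).ker

theorem mem_SLs {g : E ≃ₗ[K] E} : g ∈ SLs K E ↔ LinearEquiv.det g = 1 := Iff.rfl

theorem SLs_normal : ∀ g : E ≃ₗ[K] E, ∀ h ∈ SLs K E, g * h * g⁻¹ ∈ SLs K E := by
  intro g h hh
  rw [mem_SLs] at hh ⊢
  rw [map_mul, map_mul, hh, mul_one, map_inv, mul_inv_cancel]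

/-- the isomorphism -/
noncomputable def slIso (K E : Type*) [Field K] [AddCommGroup E] [Module K E] :
    SLs K E ≃* SpecialLinearGroup K E where
  toFun x := ⟨x.1, x.2⟩
  invFun x := ⟨x.1, x.2⟩
  left_inv x := rfl
  right_inv x := rfl
  map_mul' x y := rfl

end

variable {K E : Type} [Field K] [Finite K] [AddCommGroup E] [Module K E] [FiniteDimensional K E]

theorem finite_gl : Finite (E ≃ₗ[K] E) := by
  have hfin : Finite E := Module.finite_of_finite K
  exact Finite.of_injective (fun g : E ≃ₗ[K] E => (fun x => g x : E → E)) fun g h hgh =>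
    LinearEquiv.ext fun x => congrFun hgh x

/-- **The relative Levi property.** -/
theorem relLevi_gl {p : ℕ} (hp : p.Prime) (hK : ¬ p ∣ Nat.card K) (hp1 : p ∣ Nat.card K - 1) :
    RelLevi (glSys K E p hp hK) (SLs K E) p p := by
  have _ : Fact p.Prime := ⟨hp⟩
  have _ : Finite (E ≃ₗ[K] E) := finite_gl
  refine ⟨?_, ?_, ?_⟩
  · rintro _ ⟨F, rfl⟩ g hg
    exact det_of_mem_VG hg
  · rintro _ ⟨F, rfl⟩
    obtain ⟨N, hN⟩ := F.top
    obtain ⟨b, hb, -⟩ := exists_adapted F F hN hN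
    exact ⟨Zd p b (fun l => (l.1.1 : ℕ)), Zd_isPGroup, Zd_comm, Zd_pow,
      levi_pair hb (cent_Zd b _ hp1)⟩
  · intro Z _ _ hexp
    let φ : Z →* Kˣ := (LinearEquiv.det (R := K) (M := E)).comp Z.subtype
    have h1 : Nat.card Z = Nat.card φ.ker * Nat.card φ.range := by
      rw [mul_comm, ← Nat.card_congr (QuotientGroup.quotientKerEquivRange φ).toEquiv,
        ← Subgroup.card_eq_card_quotient_mul_card_subgroup φ.ker]
    have h2 : Nat.card φ.range ≤ p := by
      have h3 : φ.range ≤ rootsOfUnity p K := by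
        rintro _ ⟨z, rfl⟩
        rw [mem_rootsOfUnity, ← map_pow]
        have : z ^ p = 1 := Subtype.ext (hexp z z.2)
        rw [this, map_one]
      have : NeZero p := ⟨hp.ne_zero⟩
      refine (Nat.card_le_card_of_injective _ (Subgroup.inclusion_injective h3)).trans ?_
      exact card_rootsOfUnity K p
    have h3 : Nat.card φ.ker ≤ Nat.card (Z ⊓ SLs K E : Subgroup (E ≃ₗ[K] E)) := by
      refine Nat.card_le_card_of_injective
        (fun x : φ.ker => (⟨((x : Z) : E ≃ₗ[K] E), (x : Z).2, x.2⟩ :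
          (Z ⊓ SLs K E : Subgroup (E ≃ₗ[K] E)))) ?_
      intro x y hxy
      have h5 : ((x : Z) : E ≃ₗ[K] E) = ((y : Z) : E ≃ₗ[K] E) :=
        congrArg (fun w : (Z ⊓ SLs K E : Subgroup (E ≃ₗ[K] E)) => (w : E ≃ₗ[K] E)) hxy
      exact Subtype.ext (Subtype.ext h5)
    rw [h1, mul_comm]
    exact Nat.mul_le_mul h2 h3

/-- the bound for the special linear group -/
theorem oneBd_sls {k : Type u} [Field k] [IsAlgClosed k] {p : ℕ} [Fact p.Prime] [CharP k p]
    (hp1 : p ∣ Nat.card K - 1) [Finite (E ≃ₗ[K] E)] {Q : Subgroup (SLs K E)} (hQ : IsPGroup p Q)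
    (hspan : Submodule.span K (EV (Q.map (SLs K E).subtype)) = ⊤) {m : ℕ}
    (hm : ∀ Y : Subgroup (SLs K E), Y ≤ Q → (∀ x ∈ Y, x ^ p = 1) → Nat.card Y ≤ m) :
    OneBd k Q (Nat.card Q * rbd (p * m)) := by
  have hp : p.Prime := Fact.out
  have hq1 : 1 < Nat.card K := Finite.one_lt_card
  have hK : ¬ p ∣ Nat.card K := by
    intro hd
    have h1 := Nat.dvd_sub hd hp1
    rw [Nat.sub_sub_self hq1.le, Nat.dvd_one] at h1
    exact hp.one_lt.ne' h1
  obtain ⟨F, hF⟩ := exists_pair_of_span hspan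
  refine oneBd_rel (𝒮 := glSys K E p hp hK) SLs_normal (relLevi_gl hp hK hp1) hQ ?_
    (V := VG F) ⟨F, rfl⟩ (lv_of_pair hF) hm
  intro x hx y hy
  exact Subtype.ext (comm_of_span hspan _ ⟨x, hx, rfl⟩ _ ⟨y, hy, rfl⟩)

end Vale.Agent.P180.R2.H799.BG
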