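import Vale.Agent.P180.R2.H854.FlagStar

/-!
P180: Levi subgroups in the special linear group as centralisers of diagonal `p`-subgroups.
-/

set_option linter.all false

namespace Vale.Agent.P180.R2.H799.BN

open Module Vale.Agent.P180.R2.H854 Vale.Agent.P180.R2.H799

variable {K E : Type*} [Field K] [AddCommGroup E] [Module K E] [FiniteDimensional K E]

/-- `g` preserves the spans of the basis vectors with a given value of `α`. -/
def BD {ι : Type*} (b : Basis ι K E) (α : ι → ℕ) (g : SpecialLinearGroup K E) : Prop :=
  ∀ l m, b.repr (g (b l)) m ≠ 0 → α m = α l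

/-- The stabiliser of a flag is the semidirect product of its unipotent radical and of the
centraliser of `Z` if the latter consists of the block diagonal elements of an adapted basis. -/
theorem levi_pair {ι : Type*} [Fintype ι] {b : Basis ι K E} {α : ι → ℕ} {F : Flag K E}
    (h : Adapted b α F) {Z : Subgroup (SpecialLinearGroup K E)}
    (hZ : ∀ g, g ∈ Subgroup.centralizer (Z : Set (SpecialLinearGroup K E)) ↔ BD b α g) :
    IsLeviPair (VF F) Z := by
  classical
  have hle : Subgroup.centralizer (Z : Set (SpecialLinearGroup K E)) ≤ PF F := by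
    intro g hg
    rw [mem_PF_iff, h.mem_Pa_iff]
    intro l m hm
    exact ((hZ g).mp hg l m hm).le
  constructor
  · rw [eq_bot_iff]
    rintro g ⟨hgV, hgC⟩
    have h1 : toEnd g - 1 ∈ Jr F := hgV
    have h2 := (hZ g).mp hgC
    rw [h.mem_Jr_iff] at h1
    have h3 : toEnd g - 1 = 0 := by
      refine b.ext fun l => ?_
      rw [LinearMap.zero_apply, ← b.repr.map_eq_zero_iff]
      ext m
      by_contra hm
      have hlt := h1 l m hm
      have hne : l ≠ m := by rintro rfl; exact lt_irrefl _ hlt
      have h4 : b.repr (g (b l)) m ≠ 0 := by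
        intro h0
        apply hm
        rw [LinearMap.sub_apply, map_sub, Finsupp.sub_apply, toEnd_apply, h0]
        simp [Finsupp.single_apply, hne]
      exact absurd (h2 l m h4) hlt.ne
    rw [Subgroup.mem_bot]
    apply toEnd_injective
    rw [toEnd_one]
    exact sub_eq_zero.mp h3
  · rw [normalizer_VF]
    apply le_antisymm
    · exact sup_le (VF_le_PF F) hle
    · intro g hg
      let c2 : ι → E := fun l => ∑ m, (if α m = α l then b.repr (g (b l)) m else 0) • b m
      let a2 : End K E := b.constr K c2
      have e2 : ∀ l m, b.repr (a2 (b l)) m = if α m = α l then b.repr (g (b l)) m else 0 := by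
        intro l m
        have h1 : a2 (b l) = c2 l := b.constr_basis K c2 l
        rw [h1]
        simp only [c2, map_sum, map_smul, Basis.repr_self, Finsupp.coe_finsetSum,
          Finset.sum_apply, Finsupp.smul_apply, Finsupp.single_apply, smul_eq_mul, mul_ite, mul_one,
          mul_zero]
        rw [Finset.sum_ite_eq' Finset.univ m]
        simp
      have hle' : ∀ l m, b.repr (g (b l)) m ≠ 0 → α m ≤ α l := h.mem_Pa_iff.mp (mem_PF_iff.mp hg)
      have h1 : toEnd g - a2 ∈ Jr F := by
        rw [h.mem_Jr_iff]
        intro l m hm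
        rw [LinearMap.sub_apply, map_sub, Finsupp.sub_apply, e2, toEnd_apply] at hm
        split_ifs at hm with h1
        · exact absurd (sub_self _) hm
        · rw [sub_zero] at hm
          exact lt_of_le_of_ne (hle' l m hm) h1
      obtain ⟨u, hu, hug⟩ := exists_factor hg h1
      rw [sub_sub_cancel] at hug
      have h2 : u * g ∈ Subgroup.centralizer (Z : Set (SpecialLinearGroup K E)) := by
        rw [hZ]
        intro l m hm
        have h3 : (u * g) (b l) = a2 (b l) := congrArg (fun a : End K E => a (b l)) hug
        rw [h3, e2] at hm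
        split_ifs at hm with h4
        · exact h4
        · exact absurd rfl hm
      have h3 : g = u⁻¹ * (u * g) := by group
      rw [h3]
      exact Subgroup.mul_mem_sup ((VF F).inv_mem hu) h2

theorem sl_sum {ι : Type*} [Fintype ι] (z : SpecialLinearGroup K E) (r : ι → K) (x : ι → E) :
    z (∑ i, r i • x i) = ∑ i, r i • z (x i) := by
  have h5 := map_sum (toEnd z) (fun i => r i • x i) Finset.univ
  simp only [map_smul] at h5
  exact h5

/-- elements with eigenvectors `b l` commute with the block diagonal elements -/
theorem comm_of_BD {ι : Type*} [Fintype ι] {b : Basis ι K E} {α : ι → ℕ}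
    {g z : SpecialLinearGroup K E} (hg : BD b α g) {c : ι → K} (hz : ∀ l, z (b l) = c l • b l)
    (hc : ∀ l m, α l = α m → c l = c m) : z * g = g * z := by
  apply toEnd_injective
  refine b.ext fun l => ?_
  rw [toEnd_mul, toEnd_mul, End.mul_apply, End.mul_apply, toEnd_apply, toEnd_apply z, hz,
    map_smul, toEnd_apply]
  conv_lhs => rw [← b.sum_repr (g (b l)), sl_sum]
  conv_rhs => rw [← b.sum_repr (g (b l)), Finset.smul_sum]
  refine Finset.sum_congr rfl fun m _ => ?_
  rw [hz]
  by_cases h : b.repr (g (b l)) m = 0
  · rw [h, zero_smul, zero_smul, smul_zero]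
  · rw [hc m l (hg l m h), smul_comm]

/-- the coefficients of an element commuting with `z` -/
theorem coeff_of_comm {ι : Type*} [Fintype ι] {b : Basis ι K E}
    {g z : SpecialLinearGroup K E} {c : ι → K} (hz : ∀ l, z (b l) = c l • b l)
    (h : z * g = g * z) (l m : ι) (hm : b.repr (g (b l)) m ≠ 0) : c m = c l := by
  classical
  have h1 : z (g (b l)) = c l • g (b l) := by
    have h2 : (z * g) (b l) = (g * z) (b l) := by rw [h]
    rw [mul_apply', mul_apply', hz] at h2
    rw [h2]
    exact map_smul (toEnd g) _ _
  have h3 : b.repr (z (g (b l))) m = c m * b.repr (g (b l)) m := by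
    conv_lhs => rw [← b.sum_repr (g (b l))]
    have h4 : z (∑ i, b.repr (g (b l)) i • b i) = ∑ i, (b.repr (g (b l)) i * c i) • b i := by
      rw [sl_sum]
      refine Finset.sum_congr rfl fun i _ => ?_
      rw [hz, smul_smul]
    rw [h4, map_sum, Finsupp.coe_finsetSum, Finset.sum_apply]
    simp only [map_smul, Basis.repr_self, Finsupp.smul_apply, Finsupp.single_apply, smul_eq_mul,
      mul_ite, mul_one, mul_zero]
    rw [Finset.sum_ite_eq' Finset.univ m]
    simp [mul_comm]
  rw [h1, map_smul, Finsupp.smul_apply, smul_eq_mul] at h3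
  exact (mul_right_cancel₀ hm h3).symm

end Vale.Agent.P180.R2.H799.BN
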