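import Vale.Agent.P180.R2.H799.BN2
import Vale.Agent.P180.R2.H799.BN5

/-!
P180: central idempotents lift along quotients by central `p`-subgroups.
-/

set_option linter.all false

namespace Vale.Agent.P180.R2.H799.BN

open Vale.Agent.P180 Vale.Agent.P180.H768.Gd Vale.Agent.P180.R2.H799

universe u

section Abs

variable {k A : Type*} [Field k] {p : ℕ} [Fact p.Prime] [CharP k p] [Ring A] [Algebra k A]
  [FiniteDimensional k A] [Nontrivial A]

/-- Central idempotents lift modulo an ideal generated by central nilpotent elements. -/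
theorem lift_central (T : Finset A) (hT : ∀ t ∈ T, IsNilpotent t)
    (hTc : ∀ t ∈ T, ∀ x, t * x = x * t) {y : A}
    (hy : ∀ x, y * x - x * y ∈ Submodule.span k {w | ∃ t ∈ T, ∃ a : A, w = t * a})
    (hyy : y * y - y ∈ Submodule.span k {w | ∃ t ∈ T, ∃ a : A, w = t * a}) :
    ∃ n : ℕ, (∀ x, y ^ (p ^ n) * x = x * y ^ (p ^ n)) ∧
      y ^ (p ^ n) * y ^ (p ^ n) = y ^ (p ^ n) := by
  classical
  obtain ⟨M, hM0, hMs⟩ : ∃ M : ℕ → Submodule k A, M 0 = ⊤ ∧
      ∀ n, M (n + 1) = Submodule.span k {w | ∃ t ∈ T, ∃ x ∈ M n, w = t * x} :=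
    ⟨fun n => Nat.rec ⊤ (fun _ N => Submodule.span k {w | ∃ t ∈ T, ∃ x ∈ N, w = t * x}) n,
      rfl, fun _ => rfl⟩
  have hM1 : ∀ z ∈ Submodule.span k {w | ∃ t ∈ T, ∃ a : A, w = t * a}, z ∈ M (0 + 1) := by
    intro z hz
    rw [hMs]
    refine Submodule.span_mono ?_ hz
    rintro w ⟨t, ht, a, rfl⟩
    exact ⟨t, ht, a, by rw [hM0]; trivial, rfl⟩
  have hle : ∀ n, M (n + 1) ≤ M n := by
    intro n
    induction n with
    | zero => rw [hM0]; exact le_top
    | succ n ih =>
      rw [hMs (n + 1), hMs n]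
      refine Submodule.span_mono ?_
      rintro w ⟨t, ht, x, hx, rfl⟩
      exact ⟨t, ht, x, ih (by rw [hMs]; exact hx), rfl⟩
  have hid : ∀ n (a x : A), x ∈ M n → a * x ∈ M n := by
    intro n
    induction n with
    | zero => intro a x _; rw [hM0]; trivial
    | succ n ih =>
      intro a x hx
      rw [hMs] at hx ⊢
      induction hx using Submodule.span_induction with
      | mem x hx =>
        obtain ⟨t, ht, x', hx', rfl⟩ := hx
        refine Submodule.subset_span ⟨t, ht, a * x', ih a x' hx', ?_⟩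
        rw [← mul_assoc, ← hTc t ht, mul_assoc]
      | zero => rw [mul_zero]; exact zero_mem _
      | add u v _ _ hu hv => rw [mul_add]; exact add_mem hu hv
      | smul c u _ hu => rw [mul_smul_comm]; exact Submodule.smul_mem _ c hu
  have hT1 : ∀ n, ∀ t ∈ T, ∀ x ∈ M n, t * x ∈ M (n + 1) := by
    intro n t ht x hx
    rw [hMs]
    exact Submodule.subset_span ⟨t, ht, x, hx, rfl⟩
  have hJ : ∀ n, ∀ z ∈ Submodule.span k {w | ∃ t ∈ T, ∃ a : A, w = t * a}, ∀ x ∈ M n,
      z * x ∈ M (n + 1) := by
    intro n z hz x hx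
    induction hz using Submodule.span_induction with
    | mem z hz =>
      obtain ⟨t, ht, a, rfl⟩ := hz
      rw [mul_assoc]
      exact hT1 n t ht _ (hid n a x hx)
    | zero => rw [zero_mul]; exact zero_mem _
    | add u v _ _ hu hv => rw [add_mul]; exact add_mem hu hv
    | smul c u _ hu => rw [smul_mul_assoc]; exact Submodule.smul_mem _ c hu
  obtain ⟨N, hN⟩ : ∃ N, M N = ⊥ := by
    have hanti : Antitone M := antitone_nat_of_succ_le hle
    obtain ⟨n, hn⟩ := IsArtinian.monotone_stabilizes (R := k) (M := A)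
      ⟨fun n => OrderDual.toDual (M n), fun a b hab => hanti hab⟩
    have h1 : M n = M (n + 1) := hn (n + 1) (Nat.le_succ n)
    refine ⟨n, le_bot_iff.mp (nak T hT (fun s hs t _ => hTc s hs t) ⊥ (M n) ?_ ?_ ?_)⟩
    · intro t _ x hx
      rw [(Submodule.mem_bot k).mp hx, mul_zero]
      exact zero_mem _
    · intro t ht x hx
      exact hle n (hT1 n t ht x hx)
    · rw [bot_sup_eq, ← hMs]
      exact h1.le
  have hNle : ∀ m, N ≤ m → ∀ x ∈ M m, x = 0 := by
    intro m hm x hx
    have hanti : Antitone M := antitone_nat_of_succ_le hle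
    have h1 := hanti hm hx
    rw [hN, Submodule.mem_bot] at h1
    exact h1
  have hp : p.Prime := Fact.out
  have hNp : N ≤ p ^ N := (Nat.lt_pow_self hp.one_lt).le
  -- the derivation
  have _ : CharP (Module.End k A) p :=
    charP_of_injective_algebraMap (algebraMap k (Module.End k A)).injective p
  have _ : CharP A p := charP_of_injective_algebraMap (algebraMap k A).injective p
  let D : Module.End k A := LinearMap.mulLeft k y - LinearMap.mulRight k y
  have hDx : ∀ x, D x = y * x - x * y := fun x => rfl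
  have hDM : ∀ n, ∀ x ∈ M n, D x ∈ M (n + 1) := by
    intro n
    induction n with
    | zero =>
      intro x _
      rw [hDx]
      exact hM1 _ (hy x)
    | succ n ih =>
      intro x hx
      rw [hMs] at hx
      induction hx using Submodule.span_induction with
      | mem x hx =>
        obtain ⟨t, ht, x', hx', rfl⟩ := hx
        have e : D (t * x') = t * D x' := by
          rw [hDx, hDx, mul_sub, ← mul_assoc, ← mul_assoc, ← hTc t ht y, mul_assoc t x' y]
        rw [e]
        exact hT1 _ t ht _ (ih x' hx')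
      | zero => rw [map_zero]; exact zero_mem _
      | add u v _ _ hu hv => rw [map_add]; exact add_mem hu hv
      | smul c u _ hu => rw [map_smul]; exact Submodule.smul_mem _ c hu
  have hDn : ∀ n x, (D ^ n) x ∈ M n := by
    intro n
    induction n with
    | zero => intro x; rw [hM0]; trivial
    | succ n ih =>
      intro x
      rw [pow_succ', Module.End.mul_apply]
      exact hDM n _ (ih x)
  have hcen : ∀ m, N ≤ p ^ m → ∀ x, y ^ (p ^ m) * x = x * y ^ (p ^ m) := by
    intro m hm x
    have h1 : (D ^ (p ^ m)) x = 0 := hNle _ hm _ (hDn _ x)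
    have h2 : D ^ (p ^ m) = LinearMap.mulLeft k (y ^ (p ^ m)) -
        LinearMap.mulRight k (y ^ (p ^ m)) := by
      have h3 := sub_pow_char_pow_of_commute p m
        (LinearMap.commute_mulLeft_right (R := k) y y)
      rw [LinearMap.pow_mulLeft, LinearMap.pow_mulRight] at h3
      exact h3
    rw [h2, LinearMap.sub_apply, LinearMap.mulLeft_apply, LinearMap.mulRight_apply,
      sub_eq_zero] at h1
    exact h1
  -- the idempotent
  have hzn : ∀ n, (y * y - y) ^ n ∈ M n := by
    intro n
    induction n with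
    | zero => rw [hM0]; trivial
    | succ n ih =>
      rw [pow_succ']
      exact hJ n _ hyy _ ih
  have h0 : (y * y - y) ^ (p ^ N) = 0 := hNle _ hNp _ (hzn _)
  refine ⟨N, hcen N hNp, ?_⟩
  have hc : Commute (y * y) y := (Commute.refl y).mul_left (Commute.refl y)
  rw [sub_pow_char_pow_of_commute p N hc, (Commute.refl y).mul_pow, sub_eq_zero] at h0
  exact h0

end Abs

section Grp

variable {k : Type u} [Field k] {p : ℕ} [Fact p.Prime] [CharP k p] {S : Type} [Group S] [Finite S]

/-- central idempotents lift along quotients by central `p`-subgroups -/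
theorem exists_central_lift {Y : Subgroup S} [Y.Normal] (hY : IsPGroup p Y)
    (hYc : Y ≤ Subgroup.center S) {e : MonoidAlgebra k (S ⧸ Y)} (he : ∀ x, e * x = x * e)
    (hee : e * e = e) :
    ∃ e' : MonoidAlgebra k S, (∀ x, e' * x = x * e') ∧ e' * e' = e' ∧ KP.qmap k Y e' = e := by
  classical
  have hfin : FiniteDimensional k (MonoidAlgebra k S) :=
    Module.Finite.equiv (MonoidAlgebra.coeffLinearEquiv k (M := S) (S := k)).symm
  have _ := Fintype.ofFinite Y
  obtain ⟨y, rfl⟩ := KP.qmap_surjective (k := k) Y e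
  set T : Finset (MonoidAlgebra k S) :=
    Finset.univ.image fun q : Y => MonoidAlgebra.single (q : S) (1 : k) - 1 with hT
  have hspan : ∀ x : MonoidAlgebra k S, KP.qmap k Y x = 0 →
      x ∈ Submodule.span k {w | ∃ t ∈ T, ∃ a : MonoidAlgebra k S, w = t * a} := by
    intro x hx
    refine Submodule.span_mono ?_ (mem_span_of_qmap hx)
    rintro w ⟨q, hq, a, rfl⟩
    exact ⟨_, Finset.mem_image.mpr ⟨⟨q, hq⟩, Finset.mem_univ _, rfl⟩, a, rfl⟩
  have hp0 : 0 < p := (Fact.out : p.Prime).pos
  obtain ⟨n, h1, h2⟩ := lift_central (k := k) (p := p) T (y := y) (by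
    intro t ht
    obtain ⟨z, -, rfl⟩ := Finset.mem_image.mp ht
    obtain ⟨m, hm⟩ := hY z
    exact H365.single_sub_one_nilp ⟨m, congrArg Subtype.val hm⟩) (by
    intro t ht x
    obtain ⟨z, -, rfl⟩ := Finset.mem_image.mp ht
    have h3 : x ∈ Fix (cj k S) Y := KP.mem_Fix_of_central hYc x
    rw [mem_Fix_cj_iff] at h3
    rw [sub_mul, mul_sub, h3 z z.2, one_mul, mul_one]) (by
    intro x
    refine hspan _ ?_
    rw [map_sub, map_mul, map_mul, he, sub_self]) (by
    refine hspan _ ?_
    rw [map_sub, map_mul, hee, sub_self])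
  refine ⟨y ^ (p ^ n), h1, h2, ?_⟩
  rw [map_pow]
  exact IsIdempotentElem.pow_eq (show IsIdempotentElem (KP.qmap k Y y) from hee)
    (pow_pos hp0 n).ne'

end Grp



end Vale.Agent.P180.R2.H799.BN
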