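import Vale.Agent.P180.R2.H799.BNR3

/-!
P180: dimensions in a block with a central defect group.
-/

set_option linter.all false

namespace Vale.Agent.P180.R2.H799.BN

open Vale.Agent.P180 Vale.Agent.P180.H768.Gd Vale.Agent.P180.R2.H799
open Vale.Agent.P180.R2.H259.Cyc (PrimIn)

universe u

variable {k : Type u} [Field k] [IsAlgClosed k] {p : ℕ} [Fact p.Prime] [CharP k p] {H : Type}
  [Group H] [Finite H]

theorem finrank_NN_sq {Q : Subgroup H} {f w j x y : MonoidAlgebra k H} (h : CB p Q f w j)
    (hfx : f * x = x) (hyy : y * y = y) :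
    Module.finrank k ((NN (⊤ : Subalgebra k (MonoidAlgebra k H)) x y).map
      (LinearMap.mulLeft k (sq k Q))) ≤
      Module.finrank k (Fx Q j x) * Module.finrank k (Fx Q j y) := by
  classical
  have hfin : FiniteDimensional k (MonoidAlgebra k H) :=
    Module.Finite.equiv (MonoidAlgebra.coeffLinearEquiv k (M := H) (S := k)).symm
  set X := NN (⊤ : Subalgebra k (MonoidAlgebra k H)) x y with hX
  let Φ : X →ₗ[k] (Fx Q j y →ₗ[k] Fx Q j x) :=
    { toFun := fun u =>
        { toFun := fun v => ⟨u.1 * v.1, mul_mem_Soc h.le v.2.1 _, by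
            rw [← mul_assoc, u.2.2.1]⟩
          map_add' := fun v w => Subtype.ext (mul_add u.1 v.1 w.1)
          map_smul' := fun c v => Subtype.ext (mul_smul_comm c u.1 v.1) }
      map_add' := fun u u' => LinearMap.ext fun v => Subtype.ext (add_mul u.1 u'.1 v.1)
      map_smul' := fun c u => LinearMap.ext fun v => Subtype.ext (smul_mul_assoc c u.1 v.1) }
  let S1 : X →ₗ[k] MonoidAlgebra k H := (LinearMap.mulLeft k (sq k Q)).comp X.subtype
  have hker : LinearMap.ker Φ ≤ LinearMap.ker S1 := by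
    intro u hu
    rw [LinearMap.mem_ker] at hu ⊢
    change sq k Q * u.1 = 0
    by_contra hne
    have hfu : f * u.1 = u.1 := by
      conv_lhs => rw [← u.2.2.1, ← mul_assoc, hfx]
      exact u.2.2.1
    obtain ⟨z, hz⟩ := h.exists_ne' (v := sq k Q * u.1) (by
      rw [← mul_assoc, ← h.comm, mul_assoc, hfu]) hne
    apply hz
    have hv : y * (sq k Q * z * j) ∈ Fx Q j y :=
      ⟨mul_mem_Soc h.le ⟨z, rfl⟩ _, by rw [← mul_assoc, hyy]⟩
    have h1 := congrArg Subtype.val (LinearMap.congr_fun hu ⟨_, hv⟩)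
    have h2 : u.1 * (y * (sq k Q * z * j)) = 0 := h1
    calc sq k Q * u.1 * z * j = u.1 * sq k Q * z * j := by rw [sq_comm h.le]
      _ = (u.1 * y) * sq k Q * z * j := by rw [u.2.2.2]
      _ = u.1 * (y * (sq k Q * z * j)) := by simp only [mul_assoc]
      _ = 0 := h2
  have hr : X.map (LinearMap.mulLeft k (sq k Q)) = LinearMap.range S1 := by
    rw [LinearMap.range_comp, Submodule.range_subtype]
  rw [hr]
  have h1 := LinearMap.finrank_range_add_finrank_ker S1
  have h2 := LinearMap.finrank_range_add_finrank_ker (K := k) (V := X)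
    (V₂ := (Fx Q j y →ₗ[k] Fx Q j x)) Φ
  have h3 := Submodule.finrank_mono hker
  have h4 : Module.finrank k (LinearMap.range Φ) ≤
      Module.finrank k (Fx Q j y →ₗ[k] Fx Q j x) := Submodule.finrank_le _
  rw [Module.finrank_linearMap] at h4
  have h5 : Module.finrank k (Fx Q j y) * Module.finrank k (Fx Q j x) =
    Module.finrank k (Fx Q j x) * Module.finrank k (Fx Q j y) := mul_comm _ _
  omega

theorem finrank_NN_le_sq {Q : Subgroup H} (hQ : IsPGroup p Q) (hQc : Q ≤ Subgroup.center H)
    {x y : MonoidAlgebra k H} (hxx : x * x = x) (hyy : y * y = y) :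
    Module.finrank k (NN (⊤ : Subalgebra k (MonoidAlgebra k H)) x y) ≤
      Nat.card Q * Module.finrank k ((NN (⊤ : Subalgebra k (MonoidAlgebra k H)) x y).map
        (LinearMap.mulLeft k (sq k Q))) := by
  classical
  have hfin : FiniteDimensional k (MonoidAlgebra k H) :=
    Module.Finite.equiv (MonoidAlgebra.coeffLinearEquiv k (M := H) (S := k)).symm
  have hQn : Q.Normal := by
    refine ⟨fun q hq l => ?_⟩
    rw [Subgroup.mem_center_iff.mp (hQc hq) l, mul_inv_cancel_right]
    exact hq
  have _ := Fintype.ofFinite Q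
  set X := NN (⊤ : Subalgebra k (MonoidAlgebra k H)) x y with hX
  set B := X.map (LinearMap.mulLeft k (sq k Q)) with hB
  let b := Module.finBasis k B
  choose u hu huB using fun i => (b i).2
  set T : Finset (MonoidAlgebra k H) :=
    Finset.univ.image fun q : Q => MonoidAlgebra.single (q : H) (1 : k) - 1 with hT
  have hTq : ∀ q ∈ Q, MonoidAlgebra.single q (1 : k) - 1 ∈ T := fun q hq =>
    Finset.mem_image.mpr ⟨⟨q, hq⟩, Finset.mem_univ _, rfl⟩
  have hcen : ∀ q ∈ Q, ∀ x : MonoidAlgebra k H,
      MonoidAlgebra.single q (1 : k) * x = x * MonoidAlgebra.single q 1 := by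
    intro q hq x
    have h1 : x ∈ Fix (cj k H) Q := KP.mem_Fix_of_central hQc x
    rw [mem_Fix_cj_iff] at h1
    exact h1 q hq
  have hTc : ∀ t ∈ T, ∀ x, t * x = x * t := by
    intro t ht x
    obtain ⟨q, -, rfl⟩ := Finset.mem_image.mp ht
    rw [sub_mul, mul_sub, hcen q q.2, one_mul, mul_one]
  have hTn : ∀ t ∈ T, IsNilpotent t := by
    intro t ht
    obtain ⟨z, -, rfl⟩ := Finset.mem_image.mp ht
    obtain ⟨m, hm⟩ := hQ z
    exact H365.single_sub_one_nilp ⟨m, congrArg Subtype.val hm⟩
  have hTX : ∀ t ∈ T, ∀ z ∈ X, t * z ∈ X := by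
    intro t ht z hz
    refine ⟨Algebra.mem_top, ?_, by rw [mul_assoc, hz.2.2]⟩
    rw [← mul_assoc, ← hTc t ht x, mul_assoc, hz.2.1]
  have hker : ∀ z ∈ X, KP.qmap k Q z = 0 →
      z ∈ Submodule.span k {w | ∃ t ∈ T, ∃ v ∈ X, w = t * v} := by
    intro z hz h0
    have h1 : ∀ v ∈ Submodule.span k {w | ∃ q ∈ Q, ∃ y : MonoidAlgebra k H,
        w = (MonoidAlgebra.single q (1 : k) - 1) * y},
        x * v * y ∈ Submodule.span k {w | ∃ t ∈ T, ∃ v ∈ X, w = t * v} := by
      intro v hv
      induction hv using Submodule.span_induction with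
      | mem v hv =>
        obtain ⟨q, hq, z, rfl⟩ := hv
        refine Submodule.subset_span ⟨_, hTq q hq, x * z * y, ⟨Algebra.mem_top, ?_, ?_⟩, ?_⟩
        · rw [← mul_assoc, ← mul_assoc, hxx]
        · rw [mul_assoc, hyy]
        · rw [← mul_assoc x, ← hTc _ (hTq q hq) x]; simp only [mul_assoc]
      | zero => rw [mul_zero, zero_mul]; exact zero_mem _
      | add u v _ _ hu hv => rw [mul_add, add_mul]; exact add_mem hu hv
      | smul c u _ hu => rw [mul_smul_comm, smul_mul_assoc]; exact Submodule.smul_mem _ c hu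
    have h2 := h1 z (mem_span_of_qmap h0)
    rwa [hz.2.1, hz.2.2] at h2
  set M₀ : Submodule k (MonoidAlgebra k H) :=
    Submodule.span k (Set.range fun r : Q × Fin (Module.finrank k B) =>
      MonoidAlgebra.single (r.1 : H) (1 : k) * u r.2) with hM₀
  have hle : X ≤ M₀ := by
    refine nak T hTn (fun s hs t _ => hTc s hs t) M₀ X ?_ hTX ?_
    · intro t ht z hz
      obtain ⟨q, -, rfl⟩ := Finset.mem_image.mp ht
      induction hz using Submodule.span_induction with
      | mem z hz =>
        obtain ⟨r, rfl⟩ := hz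
        rw [sub_mul, one_mul, ← mul_assoc, MonoidAlgebra.single_mul_single, one_mul]
        exact sub_mem (Submodule.subset_span ⟨(q * r.1, r.2), rfl⟩)
          (Submodule.subset_span ⟨r, rfl⟩)
      | zero => rw [mul_zero]; exact zero_mem _
      | add u v _ _ hu hv => rw [mul_add]; exact add_mem hu hv
      | smul c u _ hu => rw [mul_smul_comm]; exact Submodule.smul_mem _ c hu
    · intro z hz
      have hzB : sq k Q * z ∈ B := ⟨z, hz, rfl⟩
      set c := b.repr ⟨_, hzB⟩ with hc
      have h1 : sq k Q * z = ∑ i, c i • (b i : MonoidAlgebra k H) := by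
        have := congrArg Subtype.val (b.sum_repr ⟨_, hzB⟩)
        calc sq k Q * z = ((∑ i, b.repr ⟨_, hzB⟩ i • b i : B) : MonoidAlgebra k H) := this.symm
          _ = _ := by rw [Submodule.coe_sum]; rfl
      set z₀ := ∑ i, c i • u i with hz₀
      have hz₀X : z₀ ∈ X := Submodule.sum_mem _ fun i _ => Submodule.smul_mem _ _ (hu i)
      have h2 : sq k Q * (z - z₀) = 0 := by
        rw [mul_sub, h1, hz₀, Finset.mul_sum, sub_eq_zero]
        refine Finset.sum_congr rfl fun i _ => ?_
        rw [mul_smul_comm, ← huB i]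
        rfl
      have h3 : z = z₀ + (z - z₀) := by abel
      rw [h3]
      refine Submodule.add_mem_sup ?_ (hker _ (sub_mem hz hz₀X) (ker_sq hQc h2))
      refine Submodule.sum_mem _ fun i _ => Submodule.smul_mem _ _ (Submodule.subset_span
        ⟨(1, i), ?_⟩)
      change MonoidAlgebra.single ((1 : Q) : H) (1 : k) * u i = u i
      rw [OneMemClass.coe_one, ← MonoidAlgebra.one_def, one_mul]
  calc Module.finrank k X ≤ Module.finrank k M₀ := Submodule.finrank_mono hle
    _ ≤ Fintype.card (Q × Fin (Module.finrank k B)) := finrank_range_le_card _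
    _ = Nat.card Q * Module.finrank k B := by
        rw [Fintype.card_prod, Fintype.card_fin, Nat.card_eq_fintype_card]

/-- **The dimension bound.** -/
theorem finrank_levi_le {Q M N : Subgroup H} {f w j φ : MonoidAlgebra k H} (h : CB p Q f w j)
    (hM : MK f φ M N) {c d : MonoidAlgebra k H} (hc : PrimIn (SubAlg k M) c)
    (hd : PrimIn (SubAlg k M) d) :
    Module.finrank k (NN (⊤ : Subalgebra k (MonoidAlgebra k H)) (c * φ) (d * φ)) ≤
      Nat.card Q * (M.relIndex N * M.relIndex N) := by
  have hidem : ∀ c, PrimIn (SubAlg k M) c → (c * φ) * (c * φ) = c * φ := by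
    intro c hc
    calc c * φ * (c * φ) = c * (φ * c) * φ := by simp only [mul_assoc]
      _ = (c * c) * (φ * φ) := by rw [← hM.comm c hc.mem]; simp only [mul_assoc]
      _ = _ := by rw [hc.idem, hM.idem]
  have hf : f * (c * φ) = c * φ := by
    rw [← mul_assoc, ← h.comm, mul_assoc, hM.mul]
  refine (finrank_NN_le_sq h.pg h.le (hidem c hc) (hidem d hd)).trans ?_
  refine Nat.mul_le_mul_left _ ((finrank_NN_sq h hf (hidem d hd)).trans ?_)
  exact Nat.mul_le_mul (rank_le h hM hc) (rank_le h hM hd)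

end Vale.Agent.P180.R2.H799.BN
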