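import Vale.Agent.P180.R2.H799.BNP1
import Vale.Agent.P180.R2.H799.BNR4

/-!
P180: the dimension of a corner modulo a central `p`-subgroup.
-/

set_option linter.all false

namespace Vale.Agent.P180.R2.H799.BN

open Vale.Agent.P180 Vale.Agent.P180.H768.Gd Vale.Agent.P180.R2.H799

universe u

section Kill

variable {k : Type u} [Field k] {p : ℕ} [Fact p.Prime] [CharP k p] {Y : Type} [Group Y] [Finite Y]

/-- a nonzero vector of a free module over the group algebra of an abelian `p`-group has a multiple
which is a nonzero fixed vector -/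
theorem kill (hY : IsPGroup p Y) (hc : ∀ x y : Y, x * y = y * x) {r : ℕ}
    {v : Fin r → MonoidAlgebra k Y} (hv : v ≠ 0) :
    ∃ c : MonoidAlgebra k Y, (fun i => c * v i) ≠ 0 ∧
      ∀ (y : Y) (i : Fin r), MonoidAlgebra.single y (1 : k) * (c * v i) = c * v i := by
  classical
  have _ := Fintype.ofFinite Y
  have hcomm : ∀ a b : MonoidAlgebra k Y, a * b = b * a := by
    intro a b
    have h1 : b ∈ Fix (cj k Y) (⊤ : Subgroup Y) := by
      refine KP.mem_Fix_of_central (fun y _ => ?_) b
      rw [Subgroup.mem_center_iff]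
      exact fun g => hc g y
    exact commute_of_mem (SubAlg_top a) h1
  suffices H : ∀ T : Finset Y, ∃ c : MonoidAlgebra k Y, (fun i => c * v i) ≠ 0 ∧
      ∀ y ∈ T, ∀ (i : Fin r), MonoidAlgebra.single y (1 : k) * (c * v i) = c * v i by
    obtain ⟨c, h1, h2⟩ := H Finset.univ
    exact ⟨c, h1, fun y i => h2 y (Finset.mem_univ y) i⟩
  intro T
  induction T using Finset.induction_on with
  | empty => exact ⟨1, by simpa using hv, by simp⟩
  | insert z T hz ih =>
    obtain ⟨c, hc1, hc2⟩ := ih
    set t : MonoidAlgebra k Y := MonoidAlgebra.single z (1 : k) - 1 with ht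
    obtain ⟨n, hn⟩ : IsNilpotent t := by
      obtain ⟨m, hm⟩ := hY z
      exact H365.single_sub_one_nilp ⟨m, hm⟩
    have hex : ∃ n, (fun i => t ^ n * (c * v i)) = 0 := ⟨n, by
      funext i
      rw [hn, zero_mul]
      rfl⟩
    set m := Nat.find hex with hm
    have hm1 : (fun i => t ^ m * (c * v i)) = 0 := Nat.find_spec hex
    have hm0 : m ≠ 0 := by
      intro h0
      rw [h0] at hm1
      apply hc1
      funext i
      have h1 := congrFun hm1 i
      simp only [pow_zero, one_mul] at h1
      exact h1
    have hm2 : (fun i => t ^ (m - 1) * (c * v i)) ≠ 0 := Nat.find_min hex (by omega)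
    refine ⟨t ^ (m - 1) * c, ?_, ?_⟩
    · intro h0
      apply hm2
      funext i
      have h1 := congrFun h0 i
      simp only [mul_assoc] at h1
      exact h1
    · intro y hy i
      rw [mul_assoc (t ^ (m - 1)) c]
      rcases Finset.mem_insert.mp hy with rfl | hy
      · have h1 : t * (t ^ (m - 1) * (c * v i)) = 0 := by
          rw [← mul_assoc, ← pow_succ', Nat.sub_add_cancel (by omega)]
          exact congrFun hm1 i
        rw [ht, sub_mul, one_mul, sub_eq_zero] at h1
        rw [ht]
        exact h1
      · rw [← mul_assoc, hcomm (MonoidAlgebra.single y 1) (t ^ (m - 1)), mul_assoc, hc2 y hy i]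

end Kill

variable {k : Type u} [Field k] {p : ℕ} [Fact p.Prime] [CharP k p] {S : Type} [Group S] [Finite S]

theorem card_mul_finrank_sq_le {Y : Subgroup S} (hY : IsPGroup p Y)
    (hYc : Y ≤ Subgroup.center S) (X : Submodule k (MonoidAlgebra k S))
    (hX : ∀ y ∈ Y, ∀ x ∈ X, MonoidAlgebra.single y (1 : k) * x ∈ X) :
    Nat.card Y * Module.finrank k (X.map (LinearMap.mulLeft k (sq k Y))) ≤
      Module.finrank k X := by
  classical
  have hfin : FiniteDimensional k (MonoidAlgebra k S) :=
    Module.Finite.equiv (MonoidAlgebra.coeffLinearEquiv k (M := S) (S := k)).symm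
  have hfinY : FiniteDimensional k (MonoidAlgebra k Y) :=
    Module.Finite.equiv (MonoidAlgebra.coeffLinearEquiv k (M := Y) (S := k)).symm
  letI := Fintype.ofFinite Y
  set B := X.map (LinearMap.mulLeft k (sq k Y)) with hB
  let b := Module.finBasis k B
  choose u hu huB using fun i => (b i).2
  have huB' : ∀ i, sq k Y * u i = (b i : MonoidAlgebra k S) := fun i => huB i
  let Φ : (Fin (Module.finrank k B) → MonoidAlgebra k Y) →ₗ[k] MonoidAlgebra k S :=
    { toFun := fun a => ∑ i, incl k Y (a i) * u i
      map_add' := fun a a' => by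
        simp only [Pi.add_apply, map_add, add_mul, Finset.sum_add_distrib]
      map_smul' := fun c a => by
        simp only [Pi.smul_apply, map_smul, smul_mul_assoc, Finset.smul_sum, RingHom.id_apply] }
  have hΦ : ∀ a, Φ a = ∑ i, incl k Y (a i) * u i := fun _ => rfl
  have hmem : ∀ a, Φ a ∈ X := by
    intro a
    rw [hΦ]
    refine Submodule.sum_mem _ fun i _ => ?_
    have h1 := incl_mem (k := k) Y (a i)
    refine SuppIn.induction (P := fun x => x * u i ∈ X) h1 ?_ ?_ ?_
    · rw [zero_mul]; exact zero_mem _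
    · intro x y hx hy
      rw [add_mul]; exact add_mem hx hy
    · intro x hx c
      rw [smul_mul_assoc]
      exact Submodule.smul_mem _ c (hX x hx _ (hu i))
  have hcY : ∀ x y : Y, x * y = y * x := fun x y => Subtype.ext
    (Subgroup.mem_center_iff.mp (hYc y.2) x)
  have hker : LinearMap.ker Φ = ⊥ := by
    rw [eq_bot_iff]
    intro a ha
    rw [LinearMap.mem_ker] at ha
    rw [Submodule.mem_bot]
    by_contra hne
    obtain ⟨c, hc1, hc2⟩ := kill hY hcY hne
    -- the coefficients are constant
    have h1 : ∀ i, c * a i = ((c * a i).coeff 1) • (sq k (⊤ : Subgroup Y)) := by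
      intro i
      have hcoef : ∀ y : Y, (c * a i).coeff y = (c * a i).coeff 1 := by
        intro y
        have h2 := congrArg (fun x : MonoidAlgebra k Y => x.coeff y) (hc2 y i)
        simp only [MonoidAlgebra.coeff_single_mul_apply, one_mul, inv_mul_cancel] at h2
        exact h2.symm
      apply MonoidAlgebra.coeff_injective
      ext y
      have e1 : (sq k (⊤ : Subgroup Y)).coeff y = 1 := by
        unfold sq
        letI := Fintype.ofFinite (⊤ : Subgroup Y)
        rw [MonoidAlgebra.coeff_sum, Finsupp.finsetSum_apply,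
          Finset.sum_eq_single (⟨y, trivial⟩ : (⊤ : Subgroup Y))]
        · simp
        · intro z _ hz
          rw [MonoidAlgebra.coeff_single, Finsupp.single_apply, if_neg]
          intro h
          exact hz (Subtype.ext h)
        · intro h; exact absurd (Finset.mem_univ _) h
      rw [MonoidAlgebra.coeff_smul, Finsupp.smul_apply, smul_eq_mul, e1, mul_one, hcoef]
    have h2 : incl k Y (sq k (⊤ : Subgroup Y)) = sq k Y := by
      unfold sq
      letI := Fintype.ofFinite (⊤ : Subgroup Y)
      rw [map_sum]
      refine Fintype.sum_equiv (Subgroup.topEquiv (G := Y)).toEquiv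
        (fun x : (⊤ : Subgroup Y) => incl k Y (MonoidAlgebra.single (x : Y) 1))
        (fun x : Y => MonoidAlgebra.single (x : S) 1) fun x => ?_
      rw [incl_single]
      rfl
    have h3 : ∑ i, ((c * a i).coeff 1) • (b i : MonoidAlgebra k S) = 0 := by
      have h4 : incl k Y c * Φ a = 0 := by rw [ha, mul_zero]
      rw [hΦ, Finset.mul_sum] at h4
      rw [← h4]
      refine Finset.sum_congr rfl fun i _ => ?_
      rw [← mul_assoc, ← map_mul, ← huB']
      conv_rhs => rw [h1 i, map_smul, h2, smul_mul_assoc]
    have h4 : ∑ i, ((c * a i).coeff 1) • b i = 0 := by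
      apply Subtype.ext
      calc ((∑ i, ((c * a i).coeff 1) • b i : B) : MonoidAlgebra k S)
          = ∑ i, ((((c * a i).coeff 1) • b i : B) : MonoidAlgebra k S) :=
            Submodule.coe_sum _ _ _
        _ = 0 := h3
    have h5 := Fintype.linearIndependent_iff.mp b.linearIndependent _ h4
    apply hc1
    funext i
    rw [h1 i, h5 i, zero_smul]
    rfl
  have h0 : Module.finrank k (MonoidAlgebra k Y) = Nat.card Y := by
    have e1 : MonoidAlgebra k Y ≃ₗ[k] (Y →₀ k) := MonoidAlgebra.coeffLinearEquiv k
    rw [LinearEquiv.finrank_eq e1, Module.finrank_finsupp_self, Nat.card_eq_fintype_card]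
  have h1 : Module.finrank k (Fin (Module.finrank k B) → MonoidAlgebra k Y) =
      Nat.card Y * Module.finrank k B := by
    rw [Module.finrank_pi_fintype, Finset.sum_const, Finset.card_univ, Fintype.card_fin,
      smul_eq_mul, mul_comm, h0]
  rw [← h1]
  have h2 := LinearMap.finrank_le_finrank_of_injective (f := Φ.codRestrict X hmem) (by
    intro a a' haa
    have h3 : Φ a = Φ a' := congrArg Subtype.val haa
    exact LinearMap.ker_eq_bot.mp hker h3)
  exact h2

/-- the corner modulo a central `p`-subgroup -/
theorem card_mul_finrank_quot_le {Y : Subgroup S} [Y.Normal] (hY : IsPGroup p Y)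
    (hYc : Y ≤ Subgroup.center S) {i : MonoidAlgebra k S} (hi : i * i = i) :
    Nat.card Y * Module.finrank k (NN (⊤ : Subalgebra k (MonoidAlgebra k (S ⧸ Y)))
      (KP.qmap k Y i) (KP.qmap k Y i)) ≤
      Module.finrank k (NN (⊤ : Subalgebra k (MonoidAlgebra k S)) i i) := by
  classical
  have hfin : FiniteDimensional k (MonoidAlgebra k S) :=
    Module.Finite.equiv (MonoidAlgebra.coeffLinearEquiv k (M := S) (S := k)).symm
  have hfin' : FiniteDimensional k (MonoidAlgebra k (S ⧸ Y)) :=
    Module.Finite.equiv (MonoidAlgebra.coeffLinearEquiv k (M := S ⧸ Y) (S := k)).symm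
  set X := NN (⊤ : Subalgebra k (MonoidAlgebra k S)) i i with hX
  refine le_trans ?_ (card_mul_finrank_sq_le hY hYc X ?_)
  · refine Nat.mul_le_mul_left _ ?_
    let Q1 : X →ₗ[k] MonoidAlgebra k (S ⧸ Y) := (KP.qmap k Y).toLinearMap.comp X.subtype
    let S1 : X →ₗ[k] MonoidAlgebra k S := (LinearMap.mulLeft k (sq k Y)).comp X.subtype
    have hQ1 : NN (⊤ : Subalgebra k (MonoidAlgebra k (S ⧸ Y))) (KP.qmap k Y i) (KP.qmap k Y i) ≤
        LinearMap.range Q1 := by
      rintro x ⟨-, hx1, hx2⟩
      obtain ⟨y, rfl⟩ := KP.qmap_surjective (k := k) Y x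
      refine ⟨⟨i * y * i, Algebra.mem_top, ?_, ?_⟩, ?_⟩
      · rw [← mul_assoc, ← mul_assoc, hi]
      · rw [mul_assoc, hi]
      · change KP.qmap k Y (i * y * i) = _
        rw [map_mul, map_mul, hx1, hx2]
    have hr : X.map (LinearMap.mulLeft k (sq k Y)) = LinearMap.range S1 := by
      rw [LinearMap.range_comp, Submodule.range_subtype]
    have hker : LinearMap.ker S1 ≤ LinearMap.ker Q1 := by
      intro x hx
      rw [LinearMap.mem_ker] at hx ⊢
      exact ker_sq hYc hx
    rw [hr]
    have h1 := LinearMap.finrank_range_add_finrank_ker S1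
    have h2 := LinearMap.finrank_range_add_finrank_ker Q1
    have h3 := Submodule.finrank_mono hker
    have h4 := Submodule.finrank_mono hQ1
    omega
  · rintro y hy x ⟨-, hx1, hx2⟩
    have hyF : ∀ z : MonoidAlgebra k S, MonoidAlgebra.single y (1 : k) * z =
        z * MonoidAlgebra.single y 1 := by
      intro z
      have h3 : z ∈ Fix (cj k S) Y := KP.mem_Fix_of_central hYc z
      rw [mem_Fix_cj_iff] at h3
      exact h3 y hy
    refine ⟨Algebra.mem_top, ?_, ?_⟩
    · rw [← mul_assoc, ← hyF, mul_assoc, hx1]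
    · rw [mul_assoc, hx2]

end Vale.Agent.P180.R2.H799.BN
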