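import Vale.Agent.P180.R2.H799.BN5

/-!
P180: the socle of a block with a central defect group.
-/

set_option linter.all false

namespace Vale.Agent.P180.R2.H799.BN

open Vale.Agent.P180 Vale.Agent.P180.H768.Gd Vale.Agent.P180.R2.H799
open Vale.Agent.P180.R2.H259.Cyc (PrimIn)

universe u

section Sq

variable {k : Type u} [Field k] {H : Type} [Group H] [Finite H]

/-- the sum of the elements of `Q` -/
noncomputable def sq (k : Type u) [Field k] (Q : Subgroup H) : MonoidAlgebra k H :=
  letI := Fintype.ofFinite Q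
  ∑ q : Q, MonoidAlgebra.single (q : H) (1 : k)

theorem sq_left (Q : Subgroup H) {v : H} (hv : v ∈ Q) :
    MonoidAlgebra.single v (1 : k) * sq k Q = sq k Q := by
  unfold sq
  letI := Fintype.ofFinite Q
  rw [Finset.mul_sum]
  refine Fintype.sum_equiv (Equiv.mulLeft (⟨v, hv⟩ : Q))
    (fun w : Q => MonoidAlgebra.single v (1 : k) * MonoidAlgebra.single (w : H) 1)
    (fun w : Q => MonoidAlgebra.single (w : H) 1) fun w => ?_
  rw [MonoidAlgebra.single_mul_single, one_mul]
  rfl

theorem sq_comm {Q : Subgroup H} (hQc : Q ≤ Subgroup.center H) (x : MonoidAlgebra k H) :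
    sq k Q * x = x * sq k Q := by
  unfold sq
  letI := Fintype.ofFinite Q
  rw [Finset.mul_sum, Finset.sum_mul]
  refine Finset.sum_congr rfl fun q _ => ?_
  have h1 : x ∈ Fix (cj k H) Q := KP.mem_Fix_of_central hQc x
  rw [mem_Fix_cj_iff] at h1
  exact h1 q q.2

theorem sq_ker {Q : Subgroup H} [Q.Normal] (hQc : Q ≤ Subgroup.center H) {x : MonoidAlgebra k H}
    (hx : KP.qmap k Q x = 0) : sq k Q * x = 0 := by
  have key : ∀ x ∈ Submodule.span k {w | ∃ q ∈ Q, ∃ y : MonoidAlgebra k H,
      w = (MonoidAlgebra.single q (1 : k) - 1) * y}, sq k Q * x = 0 := by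
    intro x h1
    induction h1 using Submodule.span_induction with
    | mem x hx' =>
      obtain ⟨q, hq, y, rfl⟩ := hx'
      rw [← mul_assoc, mul_sub, sq_comm hQc, sq_left Q hq, mul_one, sub_self, zero_mul]
    | zero => rw [mul_zero]
    | add x y _ _ hx hy => rw [mul_add, hx, hy, add_zero]
    | smul c x _ hx => rw [mul_smul_comm, hx, smul_zero]
  exact key x (mem_span_of_qmap hx)

theorem ker_sq {Q : Subgroup H} [Q.Normal] (hQc : Q ≤ Subgroup.center H) {x : MonoidAlgebra k H}
    (hx : sq k Q * x = 0) : KP.qmap k Q x = 0 := by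
  classical
  letI := Fintype.ofFinite Q
  let F : MonoidAlgebra k (H ⧸ Q) →ₗ[k] MonoidAlgebra k H :=
    MonoidAlgebra.mapDomainLinearMap k k (fun y : H ⧸ Q => y.out)
  have hF : ∀ (c : H ⧸ Q) (r : k), F (MonoidAlgebra.single c r) = MonoidAlgebra.single c.out r :=
    fun c r => MonoidAlgebra.mapDomainLinearMap_single _ _ _
  -- the coefficients of `sq * F v`
  have h1 : ∀ (v : MonoidAlgebra k (H ⧸ Q)) (g : H),
      (sq k Q * F v).coeff g = v.coeff (g : H ⧸ Q) := by
    intro v g
    induction v using MonoidAlgebra.induction_linear with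
    | zero => simp
    | add v w hv hw =>
      rw [map_add, mul_add, MonoidAlgebra.coeff_add, Finsupp.add_apply, hv, hw,
        MonoidAlgebra.coeff_add, Finsupp.add_apply]
    | single c r =>
      rw [hF]
      unfold sq
      rw [Finset.sum_mul, MonoidAlgebra.coeff_sum, Finsupp.finsetSum_apply]
      simp only [MonoidAlgebra.single_mul_single, one_mul, MonoidAlgebra.coeff_single,
        Finsupp.single_apply]
      by_cases hc : c = (g : H ⧸ Q)
      · rw [if_pos hc]
        have h2 : g * c.out⁻¹ ∈ Q := by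
          have h4 : c.out⁻¹ * g ∈ Q := by
            rw [← QuotientGroup.eq, QuotientGroup.out_eq', hc]
          have h5 := (inferInstance : Q.Normal).conj_mem _ h4 c.out
          have e : c.out * (c.out⁻¹ * g) * c.out⁻¹ = g * c.out⁻¹ := by group
          rwa [e] at h5
        rw [Finset.sum_eq_single (⟨g * c.out⁻¹, h2⟩ : Q)]
        · rw [if_pos]
          simp
        · intro q _ hq
          rw [if_neg]
          intro h3
          apply hq
          apply Subtype.ext
          change (q : H) = g * c.out⁻¹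
          rw [← h3, mul_inv_cancel_right]
        · intro h3
          exact absurd (Finset.mem_univ _) h3
      · rw [if_neg hc]
        refine Finset.sum_eq_zero fun q _ => ?_
        rw [if_neg]
        intro h3
        apply hc
        rw [← h3]
        have h5 : ((q : H) * c.out : H) = c.out * (c.out⁻¹ * q * c.out) := by group
        have h6 : c.out⁻¹ * (q : H) * c.out ∈ Q := by
          have := (inferInstance : Q.Normal).conj_mem _ q.2 c.out⁻¹
          rwa [inv_inv] at this
        rw [h5]
        rw [QuotientGroup.mk_mul_of_mem _ h6, QuotientGroup.out_eq']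
  have h2 : ∀ x : MonoidAlgebra k H, sq k Q * x = sq k Q * F (KP.qmap k Q x) := by
    intro x
    have h3 : KP.qmap k Q (x - F (KP.qmap k Q x)) = 0 := by
      have h4 : ∀ v : MonoidAlgebra k (H ⧸ Q), KP.qmap k Q (F v) = v := by
        intro v
        induction v using MonoidAlgebra.induction_linear with
        | zero => simp
        | add v w hv hw => rw [map_add, map_add, hv, hw]
        | single c r => rw [hF, KP.qmap_single, QuotientGroup.out_eq']
      rw [map_sub, h4, sub_self]
    have h4 := sq_ker hQc h3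
    rwa [mul_sub, sub_eq_zero] at h4
  rw [h2] at hx
  apply MonoidAlgebra.coeff_injective
  ext c
  obtain ⟨g, rfl⟩ := QuotientGroup.mk_surjective c
  rw [← h1, hx]
  rfl

end Sq

section Full

variable {k : Type u} [Field k] {p : ℕ} [Fact p.Prime] [CharP k p] {H : Type} [Group H] [Finite H]

theorem isBlock_primIn {f : MonoidAlgebra k H} (hf : IsBlockOf (⊤ : Subgroup H) f) :
    PrimIn (ZAlg k (⊤ : Subgroup H)) f :=
  ⟨hf.mem, hf.idem, hf.ne_zero, fun c hc hcc hcf _ => hf.primitive c hc hcc hcf⟩

/-- The two-sided ideal generated by an element of a block with central defect group contains the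
block idempotent if the element is not in the kernel of `kH → k[H/Q]`. -/
theorem full_of_ne {Q : Subgroup H} [Q.Normal] (hQc : Q ≤ Subgroup.center H)
    {f w : MonoidAlgebra k H} (hf : IsBlockOf (⊤ : Subgroup H) f)
    (hfw : f = tr (cj k H) Q ⊤ w) {u : MonoidAlgebra k H} (hfu : f * u = u)
    (hu : KP.qmap k Q u ≠ 0) :
    f ∈ Submodule.span k {z | ∃ x y : MonoidAlgebra k H, z = x * u * y} := by
  classical
  have _ := Fintype.ofFinite H
  have _ := Fintype.ofFinite (H ⧸ Q)
  have hFix : ∀ x : MonoidAlgebra k H, x ∈ Fix (cj k H) Q := fun x =>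
    KP.mem_Fix_of_central hQc x
  have hfc : ∀ x : MonoidAlgebra k H, x * f = f * x := fun x =>
    commute_of_mem (SubAlg_top x) hf.mem.2
  have huf : u * f = u := by rw [hfc, hfu]
  have h1 : KP.qmap k Q u * H365.TT (KP.qmap k Q w) = KP.qmap k Q u := by
    rw [← H365.qmap_tr Q (hFix w), ← hfw, ← map_mul, huf]
  obtain ⟨v, -, hv⟩ := H365.exists_not_nilp (K := (⊤ : Subgroup (H ⧸ Q)))
    (SubAlg_top (KP.qmap k Q w)) (SubAlg_top (KP.qmap k Q u)) h1 hu
  obtain ⟨v, rfl⟩ := KP.qmap_surjective Q v
  rw [← map_mul, ← H365.qmap_tr Q (hFix _)] at hv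
  set z := tr (cj k H) Q ⊤ (u * v) with hz
  have hzF : z ∈ Fix (cj k H) ⊤ := tr_mem_Fix (hFix _)
  have hzZ : z ∈ ZAlg k (⊤ : Subgroup H) := mem_ZAlg.mpr ⟨SubAlg_top _, hzF⟩
  have hfz : f * z = z := by
    rw [hz, mul_tr hf.mem.2, ← mul_assoc, hfu]
  have hzf : z * f = z := by rw [hfc, hfz]
  have hzS : z ∈ Submodule.span k {z | ∃ x y : MonoidAlgebra k H, z = x * u * y} := by
    have _ := Fintype.ofFinite (↥(⊤ : Subgroup H) ⧸ Q.subgroupOf ⊤)
    rw [hz, tr_def]
    refine Submodule.sum_mem _ fun q _ => Submodule.subset_span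
      ⟨MonoidAlgebra.single ((q.out : (⊤ : Subgroup H)) : H) 1,
        v * MonoidAlgebra.single ((q.out : (⊤ : Subgroup H)) : H)⁻¹ 1, ?_⟩
    rw [cj_eq]
    simp only [mul_assoc]
  rcases (isBlock_primIn hf).dichotomy hzZ hfz hzf with ⟨n, hn⟩ | ⟨y, -, -, -, hzy, -⟩
  · exact absurd ⟨n, by rw [← map_pow, hn, map_zero]⟩ hv
  · rw [← hzy]
    have h2 : ∀ s ∈ Submodule.span k {z | ∃ x y : MonoidAlgebra k H, z = x * u * y},
        s * y ∈ Submodule.span k {z | ∃ x y : MonoidAlgebra k H, z = x * u * y} := by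
      intro s hs
      induction hs using Submodule.span_induction with
      | mem s hs =>
        obtain ⟨x, t, rfl⟩ := hs
        exact Submodule.subset_span ⟨x, t * y, by rw [mul_assoc]⟩
      | zero => rw [zero_mul]; exact zero_mem _
      | add a b _ _ ha hb => rw [add_mul]; exact add_mem ha hb
      | smul c a _ ha => rw [smul_mul_assoc]; exact Submodule.smul_mem _ c ha
    exact h2 z hzS

end Full

end Vale.Agent.P180.R2.H799.BN
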