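import Vale.Agent.P180.R2.H799.BNR1

/-!
P180: the rank of idempotents in a block with a central defect group.
-/

set_option linter.all false

namespace Vale.Agent.P180.R2.H799.BN

open Vale.Agent.P180 Vale.Agent.P180.H768.Gd Vale.Agent.P180.R2.H799
open Vale.Agent.P180.R2.H259.Cyc (PrimIn)

universe u

section Prim

variable {k : Type u} [Field k] {p : ℕ} [Fact p.Prime] [CharP k p] {H : Type} [Group H] [Finite H]

/-- an idempotent in the kernel of `kH → k[H/Q]` is zero, `Q` a central `p`-subgroup -/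
theorem idem_ker {Q : Subgroup H} [Q.Normal] (hQ : IsPGroup p Q)
    (hQc : Q ≤ Subgroup.center H) {x : MonoidAlgebra k H} (hxx : x * x = x)
    (h0 : KP.qmap k Q x = 0) : x = 0 :=
  H365.ker_idem (C := ⊤) hQ (fun c _ y hy => (Subgroup.mem_center_iff.mp (hQc hy) c).symm)
    (SubAlg_top x) hxx h0

/-- the corner at a primitive idempotent -/
theorem qmap_scalar [IsAlgClosed k] {Q : Subgroup H} [Q.Normal] (hQ : IsPGroup p Q)
    (hQc : Q ≤ Subgroup.center H) {f w j : MonoidAlgebra k H}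
    (hfw : f = tr (cj k H) Q ⊤ w) (hj : PrimIn (⊤ : Subalgebra k (MonoidAlgebra k H)) j)
    (hfj : f * j = j) (x : MonoidAlgebra k H) :
    ∃ c : k, KP.qmap k Q (j * x * j) = c • KP.qmap k Q j := by
  classical
  have _ := Fintype.ofFinite (H ⧸ Q)
  have hne : KP.qmap k Q j ≠ 0 := fun h0 => hj.ne_zero (idem_ker hQ hQc hj.idem h0)
  have hprim : PrimIn (⊤ : Subalgebra k (MonoidAlgebra k (H ⧸ Q))) (KP.qmap k Q j) := by
    refine ⟨Algebra.mem_top, by rw [← map_mul, hj.idem], hne, ?_⟩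
    intro c _ hcc hci hic
    obtain ⟨c', rfl⟩ := KP.qmap_surjective Q c
    set x := j * c' * j with hx
    have hxc : KP.qmap k Q x = KP.qmap k Q c' := by
      rw [hx, map_mul, map_mul, hic, hci]
    rcases hj.dichotomy (x := x) Algebra.mem_top (by rw [hx, ← mul_assoc, ← mul_assoc, hj.idem])
      (by rw [hx, mul_assoc, hj.idem]) with ⟨n, hn⟩ | ⟨y, -, -, -, hxy, -⟩
    · left
      have h1 : (KP.qmap k Q c') ^ (n + 1) = 0 := by
        rw [← hxc, ← map_pow, pow_succ, hn, zero_mul, map_zero]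
      have h2 : (KP.qmap k Q c') ^ (n + 1) = KP.qmap k Q c' := by
        have : IsIdempotentElem (KP.qmap k Q c') := hcc
        exact this.pow_succ_eq n
      rw [← h2, h1]
    · right
      have h1 : KP.qmap k Q c' * KP.qmap k Q y = KP.qmap k Q j := by
        rw [← hxc, ← map_mul, hxy]
      calc KP.qmap k Q c' = KP.qmap k Q c' * KP.qmap k Q j := hci.symm
        _ = KP.qmap k Q c' * (KP.qmap k Q c' * KP.qmap k Q y) := by rw [h1]
        _ = KP.qmap k Q c' * KP.qmap k Q y := by rw [← mul_assoc, hcc]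
        _ = KP.qmap k Q j := h1
  have hone : Module.finrank k (NN (⊤ : Subalgebra k (MonoidAlgebra k (H ⧸ Q)))
      (KP.qmap k Q j) (KP.qmap k Q j)) ≤ 1 :=
    H259.Cyc.dim_one (z := KP.qmap k Q w) (e := KP.qmap k Q f) hprim
      (by rw [hfw, H365.qmap_tr Q (KP.mem_Fix_of_central hQc w)]) (by rw [← map_mul, hfj])
  have h1 : KP.qmap k Q j ∈ NN (⊤ : Subalgebra k (MonoidAlgebra k (H ⧸ Q)))
      (KP.qmap k Q j) (KP.qmap k Q j) := ⟨Algebra.mem_top, hprim.idem, hprim.idem⟩
  have h2 : KP.qmap k Q (j * x * j) ∈ NN (⊤ : Subalgebra k (MonoidAlgebra k (H ⧸ Q)))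
      (KP.qmap k Q j) (KP.qmap k Q j) :=
    ⟨Algebra.mem_top, by rw [← map_mul, ← mul_assoc, ← mul_assoc, hj.idem],
      by rw [← map_mul, mul_assoc, hj.idem]⟩
  obtain ⟨v, hv⟩ := finrank_le_one_iff.mp hone
  obtain ⟨c₀, hc₀⟩ := hv ⟨_, h1⟩
  obtain ⟨c₁, hc₁⟩ := hv ⟨_, h2⟩
  have e0 : c₀ • (v : MonoidAlgebra k (H ⧸ Q)) = KP.qmap k Q j := congrArg Subtype.val hc₀
  have e1 : c₁ • (v : MonoidAlgebra k (H ⧸ Q)) = KP.qmap k Q (j * x * j) :=
    congrArg Subtype.val hc₁
  have hc0 : c₀ ≠ 0 := by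
    rintro rfl
    rw [zero_smul] at e0
    exact hne e0.symm
  refine ⟨c₁ * c₀⁻¹, ?_⟩
  rw [← e0, ← e1, smul_smul, mul_assoc, inv_mul_cancel₀ hc0, mul_one]

end Prim

section Soc

variable {k : Type u} [Field k] {H : Type} [Group H] [Finite H]

/-- the simple module of the block with the primitive idempotent `j` -/
noncomputable def Soc (Q : Subgroup H) (j : MonoidAlgebra k H) : Submodule k (MonoidAlgebra k H) where
  carrier := {y | ∃ x, y = sq k Q * x * j}
  zero_mem' := ⟨0, by rw [mul_zero, zero_mul]⟩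
  add_mem' := by
    rintro _ _ ⟨x, rfl⟩ ⟨y, rfl⟩
    exact ⟨x + y, by rw [mul_add, add_mul]⟩
  smul_mem' := by
    rintro c _ ⟨x, rfl⟩
    exact ⟨c • x, by rw [mul_smul_comm, smul_mul_assoc]⟩

theorem mem_Soc {Q : Subgroup H} {j y : MonoidAlgebra k H} :
    y ∈ Soc Q j ↔ ∃ x, y = sq k Q * x * j := Iff.rfl

theorem mul_mem_Soc {Q : Subgroup H} (hQc : Q ≤ Subgroup.center H) {j y : MonoidAlgebra k H}
    (hy : y ∈ Soc Q j) (x : MonoidAlgebra k H) : x * y ∈ Soc Q j := by
  obtain ⟨z, rfl⟩ := hy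
  refine ⟨x * z, ?_⟩
  calc x * (sq k Q * z * j) = (x * sq k Q) * z * j := by simp only [mul_assoc]
    _ = _ := by rw [← sq_comm hQc]; simp only [mul_assoc]

/-- the elements of `Soc` fixed by the left multiplication with `x` -/
noncomputable def Fx (Q : Subgroup H) (j x : MonoidAlgebra k H) :
    Submodule k (MonoidAlgebra k H) where
  carrier := {y | y ∈ Soc Q j ∧ x * y = y}
  zero_mem' := ⟨zero_mem _, mul_zero _⟩
  add_mem' := fun ha hb => ⟨add_mem ha.1 hb.1, by rw [mul_add, ha.2, hb.2]⟩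
  smul_mem' := fun c a ha => ⟨Submodule.smul_mem _ c ha.1, by rw [mul_smul_comm, ha.2]⟩

theorem mem_Fx {Q : Subgroup H} {j x y : MonoidAlgebra k H} :
    y ∈ Fx Q j x ↔ y ∈ Soc Q j ∧ x * y = y := Iff.rfl

end Soc

section Gen

variable {k : Type u} [Field k] [IsAlgClosed k] {p : ℕ} [Fact p.Prime] [CharP k p] {H : Type}
  [Group H] [Finite H]

/-- the data of a block with a central defect group and a primitive idempotent -/
structure CB (p : ℕ) (Q : Subgroup H) (f w j : MonoidAlgebra k H) : Prop where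
  pg : IsPGroup p Q
  le : Q ≤ Subgroup.center H
  blk : IsBlockOf (⊤ : Subgroup H) f
  tr : f = tr (cj k H) Q ⊤ w
  prim : PrimIn (⊤ : Subalgebra k (MonoidAlgebra k H)) j
  mul : f * j = j

theorem CB.comm {Q : Subgroup H} {f w j : MonoidAlgebra k H} (h : CB p Q f w j)
    (x : MonoidAlgebra k H) : x * f = f * x :=
  commute_of_mem (SubAlg_top x) h.blk.mem.2

theorem CB.normal {Q : Subgroup H} {f w j : MonoidAlgebra k H} (h : CB p Q f w j) : Q.Normal := by
  refine ⟨fun q hq l => ?_⟩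
  rw [Subgroup.mem_center_iff.mp (h.le hq) l, mul_inv_cancel_right]
  exact hq

theorem CB.fix {Q : Subgroup H} {f w j : MonoidAlgebra k H} (h : CB p Q f w j)
    {y : MonoidAlgebra k H} (hy : y ∈ Soc Q j) : f * y = y := by
  obtain ⟨x, rfl⟩ := hy
  calc f * (sq k Q * x * j) = (f * (sq k Q * x)) * j := by simp only [mul_assoc]
    _ = sq k Q * x * (f * j) := by rw [← h.comm]; simp only [mul_assoc]
    _ = _ := by rw [h.mul]

theorem CB.full {Q : Subgroup H} {f w j : MonoidAlgebra k H} (h : CB p Q f w j) :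
    f ∈ Submodule.span k {z | ∃ x y : MonoidAlgebra k H, z = x * j * y} := by
  have _ := h.normal
  exact full_of_ne h.le h.blk h.tr h.mul fun h0 =>
    h.prim.ne_zero (idem_ker h.pg h.le h.prim.idem h0)

/-- a nonzero element which is fixed by `f` is not killed by all `j y` -/
theorem CB.exists_ne {Q : Subgroup H} {f w j : MonoidAlgebra k H} (h : CB p Q f w j)
    {v : MonoidAlgebra k H} (hfv : f * v = v) (hv : v ≠ 0) : ∃ y, j * y * v ≠ 0 := by
  by_contra hcon
  push Not at hcon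
  apply hv
  rw [← hfv]
  have key : ∀ s ∈ Submodule.span k {z | ∃ x y : MonoidAlgebra k H, z = x * j * y}, s * v = 0 := by
    intro s hs
    induction hs using Submodule.span_induction with
    | mem s hs =>
      obtain ⟨x, y, rfl⟩ := hs
      rw [mul_assoc x, mul_assoc x, hcon, mul_zero]
    | zero => rw [zero_mul]
    | add a b _ _ ha hb => rw [add_mul, ha, hb, add_zero]
    | smul c a _ ha => rw [smul_mul_assoc, ha, smul_zero]
  exact key f h.full

theorem CB.exists_ne' {Q : Subgroup H} {f w j : MonoidAlgebra k H} (h : CB p Q f w j)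
    {v : MonoidAlgebra k H} (hfv : f * v = v) (hv : v ≠ 0) : ∃ y, v * y * j ≠ 0 := by
  by_contra hcon
  push Not at hcon
  apply hv
  have hvf : v * f = v := by rw [h.comm, hfv]
  rw [← hvf]
  have key : ∀ s ∈ Submodule.span k {z | ∃ x y : MonoidAlgebra k H, z = x * j * y}, v * s = 0 := by
    intro s hs
    induction hs using Submodule.span_induction with
    | mem s hs =>
      obtain ⟨x, y, rfl⟩ := hs
      rw [← mul_assoc, ← mul_assoc, hcon, zero_mul]
    | zero => rw [mul_zero]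
    | add a b _ _ ha hb => rw [mul_add, ha, hb, add_zero]
    | smul c a _ ha => rw [mul_smul_comm, ha, smul_zero]
  exact key f h.full

/-- each nonzero element generates `Soc` -/
theorem CB.gen {Q : Subgroup H} {f w j : MonoidAlgebra k H} (h : CB p Q f w j)
    {v u : MonoidAlgebra k H} (hv : v ∈ Soc Q j) (hv0 : v ≠ 0) (hu : u ∈ Soc Q j) :
    ∃ x, x * v = u := by
  have _ := h.normal
  obtain ⟨y, hy⟩ := h.exists_ne (h.fix hv) hv0
  obtain ⟨x', rfl⟩ := hv
  obtain ⟨x'', rfl⟩ := hu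
  obtain ⟨c, hc⟩ := qmap_scalar h.pg h.le h.tr h.prim h.mul (y * x')
  have h1 : j * y * (sq k Q * x' * j) = c • (sq k Q * j) := by
    have h2 : sq k Q * (j * (y * x') * j - c • j) = 0 :=
      sq_ker h.le (by rw [map_sub, map_smul, hc, sub_self])
    rw [mul_sub, sub_eq_zero, mul_smul_comm] at h2
    rw [← h2]
    calc j * y * (sq k Q * x' * j) = (j * y * sq k Q) * x' * j := by simp only [mul_assoc]
      _ = _ := by rw [← sq_comm h.le]; simp only [mul_assoc]
  have hc0 : c ≠ 0 := by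
    rintro rfl
    rw [zero_smul] at h1
    exact hy h1
  refine ⟨c⁻¹ • (x'' * (j * y)), ?_⟩
  rw [smul_mul_assoc, mul_assoc x'', h1, mul_smul_comm, smul_smul, inv_mul_cancel₀ hc0, one_smul,
    ← mul_assoc, ← sq_comm h.le]

end Gen

end Vale.Agent.P180.R2.H799.BN
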