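import Vale.Agent.P180.R2.H799.BNR2

/-!
P180: the rank of the primitive idempotents of a Levi subgroup.
-/

set_option linter.all false

namespace Vale.Agent.P180.R2.H799.BN

open Vale.Agent.P180 Vale.Agent.P180.H768.Gd Vale.Agent.P180.R2.H799
open Vale.Agent.P180.R2.H259.Cyc (PrimIn)

universe u

variable {k : Type u} [Field k] [IsAlgClosed k] {p : ℕ} [Fact p.Prime] [CharP k p] {H : Type}
  [Group H] [Finite H]

/-- the Mackey property of the idempotent `φ` -/
structure MK (f φ : MonoidAlgebra k H) (M N : Subgroup H) : Prop where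
  idem : φ * φ = φ
  ne : φ ≠ 0
  mul : f * φ = φ
  comm : ∀ x ∈ SubAlg k M, x * φ = φ * x
  le : M ≤ N
  conj : ∀ n ∈ N, ∀ m ∈ M, n * m * n⁻¹ ∈ M
  mackey : ∀ g : H, φ * MonoidAlgebra.single g (1 : k) * φ = 0 ∨
    ∃ n ∈ N, φ * MonoidAlgebra.single g (1 : k) * φ = φ * MonoidAlgebra.single n 1 * φ

/-- a minimal `kM`-submodule -/
structure Mn (Q M : Subgroup H) (j φ : MonoidAlgebra k H) (S₀ : Submodule k (MonoidAlgebra k H)) :
    Prop where
  ne : S₀ ≠ ⊥
  soc : ∀ v ∈ S₀, v ∈ Soc Q j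
  fix : ∀ v ∈ S₀, φ * v = v
  stab : ∀ m ∈ M, ∀ v ∈ S₀, MonoidAlgebra.single m (1 : k) * v ∈ S₀
  min : ∀ T : Submodule k (MonoidAlgebra k H), T ≠ ⊥ → T ≤ S₀ →
    (∀ m ∈ M, ∀ v ∈ T, MonoidAlgebra.single m (1 : k) * v ∈ T) → T = S₀

theorem exists_Mn {Q M N : Subgroup H} {f w j φ : MonoidAlgebra k H} (h : CB p Q f w j)
    (hM : MK f φ M N) : ∃ S₀, Mn Q M j φ S₀ := by
  have hfin : FiniteDimensional k (MonoidAlgebra k H) :=
    Module.Finite.equiv (MonoidAlgebra.coeffLinearEquiv k (M := H) (S := k)).symm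
  have _ := h.normal
  let P : Set (Submodule k (MonoidAlgebra k H)) := {T | T ≠ ⊥ ∧ T ≤ Fx Q j φ ∧
    ∀ m ∈ M, ∀ v ∈ T, MonoidAlgebra.single m (1 : k) * v ∈ T}
  have hne : P.Nonempty := by
    refine ⟨Fx Q j φ, ?_, le_rfl, ?_⟩
    · intro hbot
      have h1 : sq k Q * φ ≠ 0 := fun h0 => hM.ne (idem_ker h.pg h.le hM.idem (ker_sq h.le h0))
      have h2 : f * (sq k Q * φ) = sq k Q * φ := by
        rw [← mul_assoc, ← h.comm, mul_assoc, hM.mul]
      obtain ⟨y, hy⟩ := h.exists_ne' h2 h1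
      apply hy
      have h3 : φ * (sq k Q * y * j) ∈ Fx Q j φ :=
        ⟨mul_mem_Soc h.le ⟨y, rfl⟩ φ, by rw [← mul_assoc, hM.idem]⟩
      rw [hbot, Submodule.mem_bot] at h3
      calc sq k Q * φ * y * j = φ * sq k Q * y * j := by rw [sq_comm h.le]
        _ = φ * (sq k Q * y * j) := by simp only [mul_assoc]
        _ = 0 := h3
    · intro m hm v hv
      refine ⟨mul_mem_Soc h.le hv.1 _, ?_⟩
      rw [← mul_assoc, ← hM.comm _ (single_mem_SubAlg hm 1), mul_assoc, hv.2]
  obtain ⟨S₀, ⟨h1, h2, h3⟩, hmin⟩ := (wellFounded_lt (α := Submodule k (MonoidAlgebra k H))).has_min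
    P hne
  refine ⟨S₀, h1, fun v hv => (h2 hv).1, fun v hv => (h2 hv).2, h3, fun T hT hTS hst => ?_⟩
  by_contra hne'
  exact hmin T ⟨hT, hTS.trans h2, hst⟩ (lt_of_le_of_ne hTS hne')

theorem Mn.stab' {Q M : Subgroup H} {j φ : MonoidAlgebra k H}
    {S₀ : Submodule k (MonoidAlgebra k H)} (h : Mn Q M j φ S₀) {x v : MonoidAlgebra k H}
    (hx : x ∈ SubAlg k M) (hv : v ∈ S₀) : x * v ∈ S₀ := by
  refine SuppIn.induction (P := fun x => x * v ∈ S₀) hx ?_ ?_ ?_
  · rw [zero_mul]; exact zero_mem _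
  · intro a b ha hb
    rw [add_mul]; exact add_mem ha hb
  · intro m hm c
    rw [smul_mul_assoc]
    exact Submodule.smul_mem _ c (h.stab m hm v hv)

theorem Mn.gen {Q M : Subgroup H} {j φ : MonoidAlgebra k H}
    {S₀ : Submodule k (MonoidAlgebra k H)} (h : Mn Q M j φ S₀) {u v : MonoidAlgebra k H}
    (hv : v ∈ S₀) (hv0 : v ≠ 0) (hu : u ∈ S₀) : ∃ x ∈ SubAlg k M, x * v = u := by
  let T : Submodule k (MonoidAlgebra k H) :=
    { carrier := {y | ∃ x ∈ SubAlg k M, x * v = y}
      zero_mem' := ⟨0, zero_mem _, zero_mul _⟩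
      add_mem' := by
        rintro _ _ ⟨x, hx, rfl⟩ ⟨y, hy, rfl⟩
        exact ⟨x + y, add_mem hx hy, by rw [add_mul]⟩
      smul_mem' := by
        rintro c _ ⟨x, hx, rfl⟩
        exact ⟨c • x, Subalgebra.smul_mem _ hx c, by rw [smul_mul_assoc]⟩ }
  have hT : T = S₀ := by
    refine h.min T ?_ ?_ ?_
    · intro hb
      have h1 : v ∈ T := ⟨1, Subalgebra.one_mem _, one_mul v⟩
      rw [hb, Submodule.mem_bot] at h1
      exact hv0 h1
    · rintro _ ⟨x, hx, rfl⟩
      exact h.stab' hx hv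
    · rintro m hm _ ⟨x, hx, rfl⟩
      exact ⟨MonoidAlgebra.single m 1 * x, Subalgebra.mul_mem _ (single_mem_SubAlg hm 1) hx,
        by rw [mul_assoc]⟩
  rw [← hT] at hu
  exact hu

/-- a primitive idempotent of `kM` has rank at most one on a minimal submodule -/
theorem Mn.line {Q M : Subgroup H} {j φ : MonoidAlgebra k H}
    {S₀ : Submodule k (MonoidAlgebra k H)} (h : Mn Q M j φ S₀) {c : MonoidAlgebra k H}
    (hc : PrimIn (SubAlg k M) c) {v t : MonoidAlgebra k H} (hv : v ∈ S₀) (ht : t ∈ S₀)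
    (hcv : c * v = v) (hct : c * t = t) (hv0 : v ≠ 0) : ∃ a : k, t = a • v := by
  have hfin : FiniteDimensional k (MonoidAlgebra k H) :=
    Module.Finite.equiv (MonoidAlgebra.coeffLinearEquiv k (M := H) (S := k)).symm
  obtain ⟨x, hx, hxv⟩ := h.gen hv hv0 ht
  have hcxc : c * x * c ∈ SubAlg k M := Subalgebra.mul_mem _ (Subalgebra.mul_mem _ hc.mem hx) hc.mem
  obtain ⟨a, ha⟩ := hc.exists_scalar (x := c * x * c) hcxc
    (by rw [← mul_assoc, ← mul_assoc, hc.idem]) (by rw [mul_assoc, hc.idem])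
  set n := c * x * c - a • c with hn
  have hnM : n ∈ SubAlg k M := Subalgebra.sub_mem _ hcxc (Subalgebra.smul_mem _ hc.mem a)
  have hcn : c * n = n := by
    rw [hn, mul_sub, mul_smul_comm, hc.idem, ← mul_assoc, ← mul_assoc, hc.idem]
  have hnc : n * c = n := by
    rw [hn, sub_mul, smul_mul_assoc, hc.idem, mul_assoc, hc.idem]
  refine ⟨a, ?_⟩
  have h1 : t = n * v + a • v := by
    rw [hn, sub_mul, smul_mul_assoc, hcv, sub_add_cancel]
    calc t = c * (x * v) := by rw [hxv, hct]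
      _ = c * x * (c * v) := by rw [hcv, mul_assoc]
      _ = _ := by simp only [mul_assoc]
  have h2 : n * v = 0 := by
    by_contra hne
    have hnv : n * v ∈ S₀ := h.stab' hnM hv
    obtain ⟨y, hy, hyv⟩ := h.gen hnv hne hv
    have hcyc : c * y * c ∈ SubAlg k M :=
      Subalgebra.mul_mem _ (Subalgebra.mul_mem _ hc.mem hy) hc.mem
    have h3 : (c * y * c) * n * v = v := by
      calc (c * y * c) * n * v = c * (y * ((c * n) * v)) := by simp only [mul_assoc]
        _ = v := by rw [hcn, hyv, hcv]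
    have h4 : IsNilpotent (n * (c * y * c)) := hc.mul_nilp hnM hcyc hcn hnc
      (by rw [← mul_assoc, ← mul_assoc, hc.idem]) (by rw [mul_assoc, hc.idem]) ha
    have h5 : IsNilpotent ((c * y * c) * n) := by
      obtain ⟨m, hm⟩ := h4
      refine ⟨m + 1, ?_⟩
      have h6 : ∀ m : ℕ, ((c * y * c) * n) ^ (m + 1) =
          (c * y * c) * (n * (c * y * c)) ^ m * n := by
        intro m
        induction m with
        | zero => simp
        | succ m ih =>
          rw [pow_succ, ih, pow_succ]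
          simp only [mul_assoc]
      rw [h6, hm, mul_zero, zero_mul]
    obtain ⟨m, hm⟩ := h5
    have h6 : ∀ m : ℕ, ((c * y * c) * n) ^ m * v = v := by
      intro m
      induction m with
      | zero => rw [pow_zero, one_mul]
      | succ m ih => rw [pow_succ, mul_assoc, h3, ih]
    have h7 := h6 m
    rw [hm, zero_mul] at h7
    exact hv0 h7.symm
  rw [h1, h2, zero_add]

theorem primIn_conj {M : Subgroup H} {c : MonoidAlgebra k H} {n : H}
    (hn : ∀ m, m ∈ M ↔ n * m * n⁻¹ ∈ M) (hc : PrimIn (SubAlg k M) c) :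
    PrimIn (SubAlg k M) (cj k H n c) := by
  have h1 : ∀ x ∈ SubAlg k M, cj k H n x ∈ SubAlg k M := fun x hx =>
    cj_mem_of_conj (fun m hm => (hn m).mp hm) hx
  have h2 : ∀ x ∈ SubAlg k M, cj k H n⁻¹ x ∈ SubAlg k M := fun x hx =>
    cj_mem_of_conj (fun m hm => by
      rw [hn]
      have e : n * (n⁻¹ * m * n⁻¹⁻¹) * n⁻¹ = m := by group
      rwa [e]) hx
  refine ⟨h1 c hc.mem, by rw [← map_mul, hc.idem], ?_, ?_⟩
  · intro h0
    apply hc.ne_zero
    have e := map_inv_act (cj k H) n c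
    rw [h0, map_zero] at e
    exact e.symm
  · intro d hd hdd hdc hcd
    have e := map_act_inv (cj k H) n d
    rcases hc.prim (cj k H n⁻¹ d) (h2 d hd) (by rw [← map_mul, hdd])
      (by
        have e1 := map_inv_act (cj k H) n c
        conv_lhs => rw [← e1]
        rw [← map_mul, hdc])
      (by
        have e1 := map_inv_act (cj k H) n c
        conv_lhs => rw [← e1]
        rw [← map_mul, hcd]) with h | h
    · left
      rw [← e, h, map_zero]
    · right
      rw [← e, h]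

/-- **The rank bound.** -/
theorem rank_le {Q M N : Subgroup H} {f w j φ : MonoidAlgebra k H} (h : CB p Q f w j)
    (hM : MK f φ M N) {c : MonoidAlgebra k H} (hc : PrimIn (SubAlg k M) c) :
    Module.finrank k (Fx Q j (c * φ)) ≤ M.relIndex N := by
  classical
  have hfin : FiniteDimensional k (MonoidAlgebra k H) :=
    Module.Finite.equiv (MonoidAlgebra.coeffLinearEquiv k (M := H) (S := k)).symm
  obtain ⟨S₀, hS⟩ := exists_Mn h hM
  obtain ⟨v₀, hv₀, hv0⟩ := (Submodule.ne_bot_iff _).mp hS.ne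
  have _ := Fintype.ofFinite (N ⧸ M.subgroupOf N)
  -- the lines
  let T : (N ⧸ M.subgroupOf N) → Submodule k (MonoidAlgebra k H) := fun q =>
    { carrier := {y | y ∈ S₀ ∧ cj k H ((q.out : N) : H)⁻¹ c * y = y}
      zero_mem' := ⟨zero_mem _, mul_zero _⟩
      add_mem' := fun ha hb => ⟨add_mem ha.1 hb.1, by rw [mul_add, ha.2, hb.2]⟩
      smul_mem' := fun r a ha => ⟨Submodule.smul_mem _ r ha.1, by rw [mul_smul_comm, ha.2]⟩ }
  have hconj : ∀ n ∈ N, ∀ m, m ∈ M ↔ n * m * n⁻¹ ∈ M := by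
    intro n hn m
    refine ⟨fun hm => hM.conj n hn m hm, fun hm => ?_⟩
    have h1 := hM.conj n⁻¹ (N.inv_mem hn) _ hm
    have e : n⁻¹ * (n * m * n⁻¹) * n⁻¹⁻¹ = m := by group
    rwa [e] at h1
  have hT1 : ∀ q, Module.finrank k (T q) ≤ 1 := by
    intro q
    have hcq : PrimIn (SubAlg k M) (cj k H ((q.out : N) : H)⁻¹ c) :=
      primIn_conj (hconj _ (N.inv_mem q.out.2)) hc
    by_cases hb : T q = ⊥
    · rw [hb, finrank_bot]; exact Nat.zero_le _
    · obtain ⟨v, hv, hvne⟩ := (Submodule.ne_bot_iff _).mp hb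
      have h1 : T q ≤ Submodule.span k {v} := by
        intro t ht
        obtain ⟨a, rfl⟩ := hS.line hcq hv.1 ht.1 hv.2 ht.2 hvne
        exact Submodule.smul_mem _ a (Submodule.mem_span_singleton_self v)
      refine (Submodule.finrank_mono h1).trans ?_
      exact (finrank_span_le_card ({v} : Set (MonoidAlgebra k H))).trans (by simp)
  let B : (N ⧸ M.subgroupOf N) → Submodule k (MonoidAlgebra k H) := fun q =>
    (T q).map (LinearMap.mulLeft k (φ * MonoidAlgebra.single ((q.out : N) : H) 1))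
  have hcφ : c * φ = φ * c := hM.comm c hc.mem
  have key : ∀ x : MonoidAlgebra k H, c * φ * x * φ * v₀ ∈ ⨆ q, B q := by
    intro x
    induction x using MonoidAlgebra.induction_linear with
    | zero => rw [mul_zero, zero_mul, zero_mul]; exact zero_mem _
    | add x y hx hy => rw [mul_add, add_mul, add_mul]; exact add_mem hx hy
    | single g r =>
      have hr : MonoidAlgebra.single g r = r • MonoidAlgebra.single g (1 : k) := by
        rw [MonoidAlgebra.smul_single, smul_eq_mul, mul_one]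
      rw [hr, mul_smul_comm, smul_mul_assoc, smul_mul_assoc]
      refine Submodule.smul_mem _ r ?_
      have e0 : c * φ * MonoidAlgebra.single g 1 * φ * v₀ =
          c * (φ * MonoidAlgebra.single g 1 * φ) * v₀ := by simp only [mul_assoc]
      rw [e0]
      rcases hM.mackey g with h0 | ⟨n, hn, h0⟩
      · rw [h0, mul_zero, zero_mul]; exact zero_mem _
      rw [h0]
      let q : N ⧸ M.subgroupOf N := ((⟨n, hn⟩ : N) : N ⧸ M.subgroupOf N)
      set κ : H := ((q.out : N) : H) with hκ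
      have hm : κ⁻¹ * n ∈ M := by
        have h1 : (q.out)⁻¹ * (⟨n, hn⟩ : N) ∈ M.subgroupOf N := by
          rw [← QuotientGroup.eq, QuotientGroup.out_eq']
        exact Subgroup.mem_subgroupOf.mp h1
      refine Submodule.mem_iSup_of_mem q ⟨cj k H κ⁻¹ c *
        (MonoidAlgebra.single (κ⁻¹ * n) 1 * v₀), ⟨?_, ?_⟩, ?_⟩
      · refine hS.stab' ?_ (hS.stab _ hm _ hv₀)
        exact (primIn_conj (hconj _ (N.inv_mem q.out.2)) hc).mem
      · rw [← mul_assoc, ← map_mul, hc.idem]
      · rw [LinearMap.mulLeft_apply]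
        have e1 : MonoidAlgebra.single κ (1 : k) * cj k H κ⁻¹ c =
            c * MonoidAlgebra.single κ 1 := by
          have := cj_mul_single (k := k) κ (cj k H κ⁻¹ c)
          rw [map_act_inv] at this
          exact this.symm
        have e2 : MonoidAlgebra.single κ (1 : k) * MonoidAlgebra.single (κ⁻¹ * n) 1 =
            MonoidAlgebra.single n 1 := by
          rw [MonoidAlgebra.single_mul_single, mul_inv_cancel_left, one_mul]
        calc φ * MonoidAlgebra.single κ 1 * (cj k H κ⁻¹ c *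
              (MonoidAlgebra.single (κ⁻¹ * n) 1 * v₀))
            = φ * (MonoidAlgebra.single κ 1 * cj k H κ⁻¹ c) *
              MonoidAlgebra.single (κ⁻¹ * n) 1 * v₀ := by simp only [mul_assoc]
          _ = (φ * c) * (MonoidAlgebra.single κ 1 * MonoidAlgebra.single (κ⁻¹ * n) 1) * v₀ := by
              rw [e1]; simp only [mul_assoc]
          _ = c * φ * MonoidAlgebra.single n 1 * (φ * v₀) := by
              rw [← hcφ, e2, hS.fix v₀ hv₀]
          _ = _ := by simp only [mul_assoc]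
  have hle : Fx Q j (c * φ) ≤ ⨆ q, B q := by
    rintro u ⟨hu, hcu⟩
    obtain ⟨x, hx⟩ := h.gen (hS.soc v₀ hv₀) hv0 hu
    have h1 : u = c * φ * x * φ * v₀ := by
      calc u = c * φ * (x * v₀) := by rw [hx, hcu]
        _ = c * φ * (x * (φ * v₀)) := by rw [hS.fix v₀ hv₀]
        _ = _ := by simp only [mul_assoc]
    rw [h1]
    exact key x
  calc Module.finrank k (Fx Q j (c * φ)) ≤ Module.finrank k (⨆ q, B q : Submodule k _) :=
        Submodule.finrank_mono hle
    _ ≤ ∑ q, Module.finrank k (B q) := finrank_iSup_le _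
    _ ≤ ∑ _q : N ⧸ M.subgroupOf N, 1 :=
        Finset.sum_le_sum fun q _ => (Submodule.finrank_map_le _ _).trans (hT1 q)
    _ = M.relIndex N := by
        rw [Finset.sum_const, Finset.card_univ, smul_eq_mul, mul_one, Subgroup.relIndex,
          Subgroup.index, Nat.card_eq_fintype_card]

end Vale.Agent.P180.R2.H799.BN
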