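import Vale.Agent.P180.R2.H799.BN4

/-!
P180: relative parabolic systems: a normal subgroup containing the unipotent radicals.
-/

set_option linter.all false

namespace Vale.Agent.P180.R2.H799.BN

open Vale.Agent.P180 Vale.Agent.P180.H768.Gd Vale.Agent.P180.R2.H799

section Lev

variable {p : ℕ} [Fact p.Prime] {G : Type*} [Group G] [Finite G]

/-- the Levi subgroup of a smaller parabolic subgroup can be chosen inside the given one -/
theorem exists_levi_conj {V Q W Zm : Subgroup G} (hL : Lv V Q) (hQ : IsPGroup p Q)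
    (hQab : ∀ x ∈ Q, ∀ y ∈ Q, x * y = y * x) (hVW : V ≤ W) (hWN : Nm W ≤ Nm V)
    (hW : ¬ p ∣ Nat.card W) (hLm : Lv W Zm) (hMx : Mx p Zm) : ∃ w ∈ W, Q ≤ conjS w Zm := by
  have hQC : Q ≤ Ce Q := fun x hx => mem_Ce.mpr fun y hy => hQab y hy x hx
  have hQV : Q ≤ Nm V := hQC.trans hL.le
  have hWV : W ≤ Nm V := (le_Nm W).trans hWN
  have hconj : ∀ q ∈ Q, ∀ w ∈ W, q * w * q⁻¹ ∈ W := by
    intro q hq w hw
    obtain ⟨v, hv, l, hl, rfl⟩ := hL.cov w (hWV hw)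
    have hlW : l ∈ W := by
      have : l = v⁻¹ * (v * l) := by group
      rw [this]; exact W.mul_mem (W.inv_mem (hVW hv)) hw
    have h1 : q * (v * l) * q⁻¹ = (q * v * q⁻¹) * l := by
      have h2 := mem_Ce.mp hl q hq
      calc q * (v * l) * q⁻¹ = q * v * q⁻¹ * (q * l) * q⁻¹ := by group
        _ = q * v * q⁻¹ * (l * q) * q⁻¹ := by rw [h2]
        _ = _ := by group
    rw [h1]
    exact W.mul_mem (hVW (Nm_mul_mem (hQV hq) hv)) hlW
  have hQW : Q ≤ Nm W := by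
    intro q hq
    rw [mem_Nm]
    intro w
    refine ⟨hconj q hq w, fun h => ?_⟩
    have h1 := hconj q⁻¹ (Q.inv_mem hq) _ h
    have e : q⁻¹ * (q * w * q⁻¹) * q⁻¹⁻¹ = w := by group
    rwa [e] at h1
  have hZmW : Zm ≤ Nm W := hMx.le.trans hLm.le
  have hQA : Q ≤ VZ W Zm hZmW := by
    intro q hq
    obtain ⟨w, hw, c, hc, hqc⟩ := hLm.cov q (hQW hq)
    have hcN : c ∈ Nm W := hLm.le hc
    refine ⟨w, hw, c, hMx.max c hc ?_ ?_, hqc⟩
    · intro y hy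
      obtain ⟨v, hv, l, hl, hyv⟩ := hL.cov y (hWN (hLm.le hy))
      have h1 : q * y * q⁻¹ * y⁻¹ ∈ W := by
        have h2 := mem_Ce.mp hl q hq
        have e : q * y * q⁻¹ * y⁻¹ = (q * v * q⁻¹) * v⁻¹ := by
          rw [hyv]
          calc q * (v * l) * q⁻¹ * (v * l)⁻¹ = q * v * q⁻¹ * (q * l) * q⁻¹ * l⁻¹ * v⁻¹ := by group
            _ = q * v * q⁻¹ * (l * q) * q⁻¹ * l⁻¹ * v⁻¹ := by rw [h2]
            _ = _ := by group
        rw [e]
        exact hVW (V.mul_mem (Nm_mul_mem (hQV hq) hv) (V.inv_mem hv))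
      have h3 : c * y * c⁻¹ * y⁻¹ ∈ W := by
        refine comm_mod (w := w) (u := 1) hcN (hLm.le hy) hw W.one_mem ?_
        rw [← hqc, one_mul]
        exact h1
      have h4 : c * y * c⁻¹ * y⁻¹ = 1 := by
        refine hLm.inf _ h3 ?_
        exact (Ce Zm).mul_mem ((Ce Zm).mul_mem ((Ce Zm).mul_mem hc hy) ((Ce Zm).inv_mem hc))
          ((Ce Zm).inv_mem hy)
      have h6 : c * y * c⁻¹ * y⁻¹ * (y * c) = c * y := by group
      rw [← h6, h4, one_mul]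
    · obtain ⟨m, hm⟩ := hQ ⟨q, hq⟩
      have hm' : q ^ p ^ m = 1 := congrArg Subtype.val hm
      refine ⟨m, ?_⟩
      obtain ⟨w', hw', hw2⟩ := pow_mod hw hcN (p ^ m)
      rw [← hqc, hm'] at hw2
      refine hLm.inf _ ?_ ((Ce Zm).pow_mem hc _)
      have e : c ^ p ^ m = w'⁻¹ := (inv_eq_of_mul_eq_one_right hw2.symm).symm
      rw [e]
      exact W.inv_mem hw'
  obtain ⟨w, hw, hwQ⟩ := exists_conj (A := VZ W Zm hZmW) (E := Zm) (P := Q) (V := W)
    (fun z hz => ⟨1, W.one_mem, z, hz, (one_mul z).symm⟩) hQA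
    (fun v hv => ⟨v, hv, 1, Zm.one_mem, (mul_one v).symm⟩) hQ hW (by
      rintro _ ⟨v, hv, z, hz, rfl⟩
      exact ⟨v, hv, by rw [inv_mul_cancel_left]; exact hz⟩)
  exact ⟨w, hw, fun q hq => mem_conjS.mpr (hwQ q hq)⟩


theorem relIndex_le' (Q : Subgroup G) :
    (Ce Q).relIndex (Nm Q) ≤ (Nat.card Q).factorial := by
  classical
  have _ := Fintype.ofFinite Q
  have h1 : (Ce Q).relIndex (Nm Q) = Nat.card (Subgroup.normalizerMonoidHom Q).range := by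
    rw [Subgroup.relIndex, ← Subgroup.index_ker, Subgroup.normalizerMonoidHom_ker]
  rw [h1]
  calc Nat.card (Subgroup.normalizerMonoidHom Q).range ≤ Nat.card (Equiv.Perm Q) := by
        refine Nat.card_le_card_of_injective
          (fun x : (Subgroup.normalizerMonoidHom Q).range => (x : MulAut Q).toEquiv) ?_
        intro x y h
        apply Subtype.ext
        apply MulEquiv.ext
        intro q
        exact congrArg (fun f : Q ≃ Q => f q) h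
    _ = _ := by rw [Nat.card_eq_fintype_card, Fintype.card_perm, Nat.card_eq_fintype_card]

/-- The unipotent radicals lie in `H`, the Levi complements are centralisers of abelian `p`-groups
of exponent dividing `e`, and these have order at most `c` times the order of their intersection
with `H`. -/
structure RelLevi (𝒮 : ParSys p G) (H : Subgroup G) (e c : ℕ) : Prop where
  le : ∀ V ∈ 𝒮.car, V ≤ H
  levi : ∀ V ∈ 𝒮.car, ∃ Z : Subgroup G, IsPGroup p Z ∧ (∀ x ∈ Z, ∀ y ∈ Z, x * y = y * x) ∧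
    (∀ x ∈ Z, x ^ e = 1) ∧ IsLeviPair V Z
  rank : ∀ Z : Subgroup G, IsPGroup p Z → (∀ x ∈ Z, ∀ y ∈ Z, x * y = y * x) →
    (∀ x ∈ Z, x ^ e = 1) → Nat.card Z ≤ c * Nat.card (Z ⊓ H : Subgroup G)

theorem exists_levi_rel {𝒮 : ParSys p G} {H : Subgroup G} {e c : ℕ} (hR : RelLevi 𝒮 H e c)
    {V Q W : Subgroup G} (hL : Lv V Q) (hQ : IsPGroup p Q)
    (hQab : ∀ x ∈ Q, ∀ y ∈ Q, x * y = y * x) (hVW : V ≤ W) (hWN : Nm W ≤ Nm V)
    (hW : W ∈ 𝒮.car) : ∃ Z Z₁, Mx p Z ∧ Lv W Z ∧ Q ≤ Z ∧ Z₁ ≤ Z ∧ Ce Z₁ = Ce Z ∧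
      ∀ x ∈ Z₁, x ^ e = 1 := by
  obtain ⟨Z₀, hZ₀, hab₀, hexp, hpair⟩ := hR.levi W hW
  obtain ⟨Zm, hMx, hCe, hle⟩ := exists_Mx hZ₀ hab₀
  have hLm : Lv W Zm := (lv_of_pair hpair).congr hCe
  obtain ⟨w, hw, hwQ⟩ := exists_levi_conj hL hQ hQab hVW hWN (𝒮.card W hW) hLm hMx
  refine ⟨conjS w Zm, conjS w Z₀, hMx.conj w, ?_, hwQ, ?_, ?_, ?_⟩
  · have h1 := hLm.conj w
    rwa [conjS_eq_of_mem_Nm (le_Nm W hw)] at h1
  · intro x hx
    exact mem_conjS.mpr (hle (mem_conjS.mp hx))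
  · ext x
    rw [mem_Ce_conjS, mem_Ce_conjS, hCe]
  · intro x hx
    have h1 := hexp _ (mem_conjS.mp hx)
    have h2 : (w⁻¹ * x * w) ^ e = w⁻¹ * x ^ e * w := by
      have := conj_pow (a := w⁻¹) (b := x) (i := e)
      rwa [inv_inv] at this
    rw [h2] at h1
    calc x ^ e = w * (w⁻¹ * x ^ e * w) * w⁻¹ := by group
      _ = 1 := by rw [h1]; group

/-- the elements of `Z` of order dividing `e` -/
def Om (Z : Subgroup G) (hab : ∀ x ∈ Z, ∀ y ∈ Z, x * y = y * x) (e : ℕ) : Subgroup G where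
  carrier := {x | x ∈ Z ∧ x ^ e = 1}
  one_mem' := ⟨Z.one_mem, one_pow e⟩
  mul_mem' := by
    rintro x y ⟨hx, hx1⟩ ⟨hy, hy1⟩
    refine ⟨Z.mul_mem hx hy, ?_⟩
    have : Commute x y := hab x hx y hy
    rw [this.mul_pow, hx1, hy1, one_mul]
  inv_mem' := by
    rintro x ⟨hx, hx1⟩
    exact ⟨Z.inv_mem hx, by rw [inv_pow, hx1, inv_one]⟩

/-- **The index of the Levi subgroup in its normaliser.** -/
theorem index_levi_le {𝒮 : ParSys p G} {H : Subgroup G} {e c : ℕ} (hR : RelLevi 𝒮 H e c)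
    {Q Z Z₁ : Subgroup G} (hMx : Mx p Z) (hZ₁ : Z₁ ≤ Z) (hC : Ce Z₁ = Ce Z)
    (hexp : ∀ x ∈ Z₁, x ^ e = 1) (hZQ : Z ⊓ H ≤ Q) {m : ℕ}
    (hm : ∀ Y : Subgroup G, Y ≤ Q → (∀ x ∈ Y, x ^ e = 1) → Nat.card Y ≤ m) :
    (Ce Z ⊓ H).relIndex (Nm Z ⊓ H) ≤ (c * m).factorial := by
  set Y := Om Z hMx.ab e with hY
  have hYZ : Y ≤ Z := fun x hx => hx.1
  have hZY : Z₁ ≤ Y := fun x hx => ⟨hZ₁ hx, hexp x hx⟩
  have hCY : Ce Y = Ce Z := by
    apply le_antisymm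
    · rw [← hC]; exact Subgroup.centralizer_le hZY
    · exact Subgroup.centralizer_le hYZ
  have hNY : Nm Z ≤ Nm Y := by
    intro n hn
    rw [mem_Nm]
    intro x
    have hx : (n * x * n⁻¹) ^ e = n * x ^ e * n⁻¹ := conj_pow
    constructor
    · rintro ⟨h1, h2⟩
      exact ⟨(mem_Nm.mp hn x).mp h1, by rw [hx, h2, mul_one, mul_inv_cancel]⟩
    · rintro ⟨h1, h2⟩
      refine ⟨(mem_Nm.mp hn x).mpr h1, ?_⟩
      rw [hx] at h2
      calc x ^ e = n⁻¹ * (n * x ^ e * n⁻¹) * n := by group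
        _ = 1 := by rw [h2]; group
  have hcard : Nat.card Y ≤ c * m := by
    refine (hR.rank Y (hMx.pg.to_le hYZ) (fun x hx y hy => hMx.ab x (hYZ hx) y (hYZ hy))
      fun x hx => hx.2).trans (Nat.mul_le_mul_left _ ?_)
    exact hm _ ((inf_le_inf_right H hYZ).trans hZQ) fun x hx => hx.1.2
  have h1 : (Ce Z ⊓ H).relIndex (Nm Z ⊓ H) = (Ce Z).relIndex (Nm Z ⊓ H) := by
    have e1 : (Ce Z ⊓ H) ⊓ (Nm Z ⊓ H) = Ce Z ⊓ (Nm Z ⊓ H) := by
      ext x
      simp only [Subgroup.mem_inf]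
      tauto
    rw [← Subgroup.inf_relIndex_right, e1, Subgroup.inf_relIndex_right]
  rw [h1, ← hCY]
  calc (Ce Y).relIndex (Nm Z ⊓ H) ≤ (Ce Y).relIndex (Nm Y) :=
        Subgroup.relIndex_le_of_le_right (inf_le_left.trans hNY)
          Subgroup.index_ne_zero_of_finite
    _ ≤ (Nat.card Y).factorial := relIndex_le' Y
    _ ≤ _ := Nat.factorial_le hcard

end Lev

end Vale.Agent.P180.R2.H799.BN
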