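import Vale.Agent.P180.R2.H799.BNR4
import Vale.Agent.P180.R2.H799.BNR5

/-!
P180: the Mackey formula and the cuspidal pairs of a relative parabolic system.
-/

set_option linter.all false

namespace Vale.Agent.P180.R2.H799.BN

open Vale.Agent.P180 Vale.Agent.P180.H768.Gd Vale.Agent.P180.R2.H799

universe u

variable {k : Type u} [Field k] {p : ℕ} [Fact p.Prime] [CharP k p] {G : Type} [Group G] [Finite G]

/-- **Mackey.** -/
theorem mackey_W (𝒮 : ParSys p G) {W Z : Subgroup G} (hW : W ∈ 𝒮.car) (hLW : Lv W Z)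
    (hMx : Mx p Z) {f : MonoidAlgebra k G}
    (hcom : ∀ W' ∈ 𝒮.car, W ≤ W' → W' ≤ Nm W → f * av k W' = av k W' * f)
    (hmax : ∀ W' ∈ 𝒮.car, W ≤ W' → Nm W' ≤ Nm W → (∃ x ∈ W', x ∉ W) → f * av k W' = 0)
    (g : G) : f * av k W * MonoidAlgebra.single g 1 * av k W * f = 0 ∨
      ∃ v ∈ W, ∃ v' ∈ W, ∃ n ∈ Nm Z, g = v * n * v' := by
  classical
  have hp := 𝒮.card W hW
  have hstar : ∀ g : G, W ⊔ (Nm W ⊓ conjS g W) ∈ 𝒮.car ∧
      Nm (W ⊔ (Nm W ⊓ conjS g W)) = W ⊔ (Nm W ⊓ Nm (conjS g W)) := fun g =>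
    ⟨𝒮.star W hW _ (𝒮.conj W hW g), 𝒮.norm W hW _ (𝒮.conj W hW g)⟩
  have hzero : ∀ g : G, (∃ x ∈ Nm W, x ∈ conjS g W ∧ x ∉ W) →
      f * av k (W ⊔ (Nm W ⊓ conjS g W)) = 0 := by
    rintro g ⟨x, hxN, hxg, hxW⟩
    refine hmax _ (hstar g).1 le_sup_left ?_ ⟨x, Subgroup.mem_sup_right ⟨hxN, hxg⟩, hxW⟩
    rw [(hstar g).2]
    exact sup_le (le_Nm W) inf_le_left
  have hcardg : ∀ g : G, ¬ p ∣ Nat.card (conjS g W) := fun g => 𝒮.card _ (𝒮.conj W hW g)
  have hav : ∀ g : G, av k W * av k (Nm W ⊓ conjS g W) = av k (W ⊔ (Nm W ⊓ conjS g W)) := by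
    intro g
    exact av_sup (card_ne (p := p) hp) (card_ne (p := p) (card_le_ne inf_le_right (hcardg g)))
      (card_ne (p := p) (𝒮.card _ (hstar g).1)) inf_le_left le_sup_left le_sup_right
      fun w hw => mem_sup_Nm inf_le_left hw
  have hav' : ∀ g : G, av k (Nm W ⊓ conjS g W) * av k W = av k (W ⊔ (Nm W ⊓ conjS g W)) := by
    intro g
    exact av_sup' (card_ne (p := p) hp) (card_ne (p := p) (card_le_ne inf_le_right (hcardg g)))
      (card_ne (p := p) (𝒮.card _ (hstar g).1)) inf_le_left le_sup_left le_sup_right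
      fun w hw => mem_sup_Nm inf_le_left hw
  have hgav : MonoidAlgebra.single g (1 : k) * av k W =
      av k (conjS g W) * MonoidAlgebra.single g 1 := single_mul_av W g
  by_cases h1 : ∀ x ∈ Nm W, x ∈ conjS g W → x ∈ W
  swap
  · left
    push Not at h1
    have h2 := hzero g h1
    have h3 : av k (Nm W ⊓ conjS g W) * av k (conjS g W) = av k (conjS g W) :=
      av_le_left (card_ne (p := p) (card_le_ne inf_le_right (hcardg g))) inf_le_right
    calc f * av k W * MonoidAlgebra.single g 1 * av k W * f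
        = f * av k W * (MonoidAlgebra.single g 1 * av k W) * f := by simp only [mul_assoc]
      _ = f * (av k W * av k (Nm W ⊓ conjS g W)) * av k (conjS g W) *
          MonoidAlgebra.single g 1 * f := by
          rw [hgav]
          conv_lhs => rw [← h3]
          simp only [mul_assoc]
      _ = 0 := by rw [hav, h2, zero_mul, zero_mul, zero_mul]
  by_cases h2 : ∀ x ∈ Nm (conjS g W), x ∈ W → x ∈ conjS g W
  swap
  · left
    push Not at h2
    obtain ⟨x, hxN, hxW, hxg⟩ := h2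
    have h3 := hzero g⁻¹ ⟨g⁻¹ * x * g, mem_Nm_conjS.mp hxN, by
      rw [mem_conjS, inv_inv]
      have e1 : g * (g⁻¹ * x * g) * g⁻¹ = x := by group
      rw [e1]; exact hxW, fun h => hxg (mem_conjS.mpr h)⟩
    have h4 : av k (conjS g⁻¹ W) * av k (Nm W ⊓ conjS g⁻¹ W) = av k (conjS g⁻¹ W) :=
      av_le_right (card_ne (p := p) (card_le_ne inf_le_right (hcardg g⁻¹))) inf_le_right
    have h5 : av k W * MonoidAlgebra.single g (1 : k) =
        MonoidAlgebra.single g 1 * av k (conjS g⁻¹ W) := by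
      rw [single_mul_av]
      congr 1
      congr 1
      ext y
      rw [mem_conjS, mem_conjS, inv_inv]
      have e1 : g * (g⁻¹ * y * g) * g⁻¹ = y := by group
      rw [e1]
    have hW' : W ⊔ (Nm W ⊓ conjS g⁻¹ W) ≤ Nm W := sup_le (le_Nm W) inf_le_left
    have h6 := hcom _ (hstar g⁻¹).1 le_sup_left hW'
    calc f * av k W * MonoidAlgebra.single g 1 * av k W * f
        = f * (av k W * MonoidAlgebra.single g 1) * (av k W * f) := by simp only [mul_assoc]
      _ = f * MonoidAlgebra.single g 1 *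
          (av k (conjS g⁻¹ W) * av k (Nm W ⊓ conjS g⁻¹ W)) * (av k W * f) := by
          rw [h5, h4]; simp only [mul_assoc]
      _ = f * MonoidAlgebra.single g 1 * av k (conjS g⁻¹ W) *
          ((av k (Nm W ⊓ conjS g⁻¹ W) * av k W) * f) := by simp only [mul_assoc]
      _ = 0 := by rw [hav', ← h6, h3, mul_zero]
  right
  have hc1 : ∀ x ∈ Nm W, ∃ v ∈ W, v * x ∈ Nm (conjS g W) := by
    intro x hx
    have h3 : W ⊔ (Nm W ⊓ conjS g W) = W :=
      sup_eq_left.mpr fun y hy => h1 y hy.1 hy.2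
    have h4 := (hstar g).2
    rw [h3] at h4
    rw [h4] at hx
    obtain ⟨v, hv, y, hy, rfl⟩ := mem_sup_Nm inf_le_left hx
    exact ⟨v⁻¹, W.inv_mem hv, by rw [inv_mul_cancel_left]; exact hy.2⟩
  have hc2 : ∀ x ∈ Nm (conjS g W), ∃ v ∈ conjS g W, v * x ∈ Nm W := by
    intro x hx
    have h3 : conjS g W ⊔ (Nm (conjS g W) ⊓ W) = conjS g W :=
      sup_eq_left.mpr fun y hy => h2 y hy.1 hy.2
    have h4 := 𝒮.norm _ (𝒮.conj W hW g) W hW
    change Nm (conjS g W ⊔ (Nm (conjS g W) ⊓ W)) =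
      conjS g W ⊔ (Nm (conjS g W) ⊓ Nm W) at h4
    rw [h3] at h4
    rw [h4] at hx
    obtain ⟨v, hv, y, hy, rfl⟩ := mem_sup_Nm inf_le_left hx
    exact ⟨v⁻¹, (conjS g W).inv_mem hv, by rw [inv_mul_cancel_left]; exact hy.2⟩
  obtain ⟨v, hv, v', hv', m, hm, hgm⟩ := assoc hp hLW hMx h1 h2 hc1 hc2
  exact ⟨v, hv, v', hv', m, hm, hgm⟩

/-- `av W * g * av W` for `g = v n v'` -/
theorem av_single_av {W : Subgroup G} {v v' n : G} (hv : v ∈ W) (hv' : v' ∈ W) :
    av k W * MonoidAlgebra.single (v * n * v') (1 : k) * av k W =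
      av k W * MonoidAlgebra.single n 1 * av k W := by
  have e1 : MonoidAlgebra.single (v * n * v') (1 : k) = MonoidAlgebra.single v 1 *
      MonoidAlgebra.single n 1 * MonoidAlgebra.single v' 1 := by
    rw [MonoidAlgebra.single_mul_single, MonoidAlgebra.single_mul_single, one_mul, one_mul]
  rw [e1]
  calc av k W * (MonoidAlgebra.single v 1 * MonoidAlgebra.single n 1 *
        MonoidAlgebra.single v' 1) * av k W
      = (av k W * MonoidAlgebra.single v 1) * MonoidAlgebra.single n 1 *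
        (MonoidAlgebra.single v' 1 * av k W) := by simp only [mul_assoc]
    _ = _ := by rw [av_right W hv, av_left W hv']

/-- the element `n` of `g = v n v'` centralises `Q` if `g` does -/
theorem mem_Ce_of_mackey {V Q W Z : Subgroup G} (hL : Lv V Q)
    (hQab : ∀ x ∈ Q, ∀ y ∈ Q, x * y = y * x) (hQZ : Q ≤ Z)
    (hZQ : Z ≤ Ce Q) (hWN : W ≤ Nm V) {g v v' n : G} (hv : v ∈ W) (hv' : v' ∈ W)
    (hn : n ∈ Nm Z) (hg : g ∈ Ce Q) (h : g = v * n * v') : n ∈ Ce Q := by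
  have hnV : n ∈ Nm V := by
    have e : n = v⁻¹ * g * v'⁻¹ := by rw [h]; group
    rw [e]
    exact (Nm V).mul_mem ((Nm V).mul_mem ((Nm V).inv_mem (hWN hv)) (hL.le hg))
      ((Nm V).inv_mem (hWN hv'))
  obtain ⟨a, ha, l, hl, hnal⟩ := hL.cov n hnV
  have hQC : Q ≤ Ce Q := fun x hx => mem_Ce.mpr fun y hy => hQab y hy x hx
  have ha1 : a = 1 := by
    refine hL.inf a ha (mem_Ce.mpr fun q hq => ?_)
    -- `a q a⁻¹ q⁻¹` lies in `V` and in `Z`
    have h1 : n * q * n⁻¹ ∈ Z := (mem_Nm.mp hn q).mp (hQZ hq)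
    have h2 : n * q * n⁻¹ = a * q * a⁻¹ := by
      have h3 := mem_Ce.mp hl q hq
      rw [hnal]
      calc a * l * q * (a * l)⁻¹ = a * (l * q) * l⁻¹ * a⁻¹ := by group
        _ = a * (q * l) * l⁻¹ * a⁻¹ := by rw [h3]
        _ = _ := by group
    rw [h2] at h1
    have h3 : a * q * a⁻¹ * q⁻¹ ∈ V := by
      have e : a * q * a⁻¹ * q⁻¹ = a * (q * a⁻¹ * q⁻¹) := by group
      rw [e]
      exact V.mul_mem ha (Nm_mul_mem (hL.le (hQC hq)) (V.inv_mem ha))
    have h4 : a * q * a⁻¹ * q⁻¹ ∈ Ce Q := hZQ (Z.mul_mem h1 (Z.inv_mem (hQZ hq)))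
    have h5 := hL.inf _ h3 h4
    calc q * a = (a * q * a⁻¹ * q⁻¹)⁻¹ * (a * q) := by group
      _ = a * q := by rw [h5, inv_one, one_mul]
  rw [hnal, ha1, one_mul]
  exact hl

end Vale.Agent.P180.R2.H799.BN
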