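import Vale.Agent.P180.R2.H799.BNR6
import Vale.Agent.P180.R2.H799.BN6

/-!
P180: relative parabolic systems; the cuspidal pair below a block of `C_H(R)`.
-/

set_option linter.all false

namespace Vale.Agent.P180.R2.H799.BN

open Vale.Agent.P180 Vale.Agent.P180.H768.Gd Vale.Agent.P180.R2.H799
open Vale.Agent.P180.R2.H259.Cyc (PrimIn)
open Vale.Agent.P180.R2.H365 (br_self)

universe u

variable {k : Type u} [Field k] {p : ℕ} [Fact p.Prime] [CharP k p] {G : Type} [Group G] [Finite G]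

/-- The data: a normal subgroup `H`, an abelian `p`-subgroup `R` whose centraliser is a Levi
complement of `N(V)`, and a block of `C_H(R)` which is a relative trace from `R ∩ H`. -/
structure RD (𝒮 : ParSys p G) (H R V : Subgroup G) (f w : MonoidAlgebra k G) : Prop where
  hn : ∀ g : G, ∀ h ∈ H, g * h * g⁻¹ ∈ H
  mem : V ∈ 𝒮.car
  lv : Lv V R
  pg : IsPGroup p R
  ab : ∀ x ∈ R, ∀ y ∈ R, x * y = y * x
  blk : IsBlockOf (Ce R ⊓ H) f
  wL : w ∈ SubAlg k (Ce R ⊓ H)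
  tr : f = tr (cj k G) (R ⊓ H) (Ce R ⊓ H) w

section

variable {𝒮 : ParSys p G} {H R V : Subgroup G} {f w : MonoidAlgebra k G}

theorem RD.leC (h : RD 𝒮 H R V f w) : R ≤ Ce R := fun x hx => mem_Ce.mpr fun y hy => h.ab y hy x hx

theorem RD.central (h : RD 𝒮 H R V f w) : ∀ q ∈ R, ∀ l ∈ Ce R ⊓ H, q * l = l * q :=
  fun q hq l hl => mem_Ce.mp hl.1 q hq

/-- `f` commutes with the averages over the unipotent radicals between `V` and `N(V)` -/
theorem RD.com (h : RD 𝒮 H R V f w) (hle : ∀ V ∈ 𝒮.car, V ≤ H) {W : Subgroup G}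
    (hW : W ∈ 𝒮.car) (hVW : V ≤ W) (hWV : W ≤ Nm V) : f * av k W = av k W * f := by
  have hfL : f ∈ SubAlg k (Ce R ⊓ H) := h.blk.mem.1
  have hfF : f ∈ Fix (cj k G) (Ce R ⊓ H) := h.blk.mem.2
  rw [← av_split (p := p) h.lv hVW hWV (𝒮.card W hW)]
  have h1 : av k (W ⊓ Ce R) ∈ SubAlg k (Ce R ⊓ H) :=
    SubAlg_mono (le_inf inf_le_right (inf_le_left.trans (hle W hW))) (av_mem _)
  calc f * (av k (W ⊓ Ce R) * av k V) = (f * av k (W ⊓ Ce R)) * av k V := by
        rw [mul_assoc]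
    _ = av k (W ⊓ Ce R) * (f * av k V) := by rw [← commute_of_mem h1 hfF, mul_assoc]
    _ = _ := by rw [av_comm (inf_le_left.trans h.lv.le) hfL, mul_assoc]

theorem RD.br_f (h : RD 𝒮 H R V f w) {x : MonoidAlgebra k G} (hx : x ∈ SubAlg k (Ce R ⊓ H)) :
    br R x = x := br_self (SubAlg_mono inf_le_left hx)

theorem RD.fix (h : RD 𝒮 H R V f w) {x : MonoidAlgebra k G} (hx : x ∈ SubAlg k (Ce R)) :
    x ∈ Fix (cj k G) R := H365.fix_of_cent hx

theorem RD.av_fix (h : RD 𝒮 H R V f w) : av k V ∈ Fix (cj k G) R := by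
  intro q hq
  rw [cj_av, conjS_eq_of_mem_Nm (h.lv.le (h.leC hq))]

/-- the Brauer homomorphism on `x av V` -/
theorem RD.br_av (h : RD 𝒮 H R V f w) {x : MonoidAlgebra k G} (hx : x ∈ SubAlg k (Ce R ⊓ H)) :
    br R (x * av k V) = ((Nat.card V : ℕ) : k)⁻¹ • x := by
  rw [br_mul h.pg (h.fix (SubAlg_mono inf_le_left hx)) h.av_fix, h.br_f hx,
    BN.br_av h.pg (𝒮.card V h.mem) h.lv.inf, mul_smul_comm, mul_one]

/-- `x ↦ x av V` is injective on `k C_H(R)` -/
theorem RD.inj (h : RD 𝒮 H R V f w) {x y : MonoidAlgebra k G} (hx : x ∈ SubAlg k (Ce R ⊓ H))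
    (hy : y ∈ SubAlg k (Ce R ⊓ H)) (hxy : x * av k V = y * av k V) : x = y := by
  have h1 := h.br_av hx
  rw [hxy, h.br_av hy] at h1
  exact (smul_right_injective _ (inv_ne_zero (card_ne (p := p) (𝒮.card V h.mem))) h1).symm

/-- the smallest parabolic subgroup not killing `f` -/
theorem RD.exists_W (h : RD 𝒮 H R V f w) : ∃ W ∈ 𝒮.car, V ≤ W ∧ Nm W ≤ Nm V ∧ f * av k W ≠ 0 ∧
    ∀ W' ∈ 𝒮.car, W ≤ W' → Nm W' ≤ Nm W → (∃ x ∈ W', x ∉ W) → f * av k W' = 0 := by
  classical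
  have hfin : Finite (Subgroup G) := inferInstance
  let S : Set (Subgroup G) := {W | W ∈ 𝒮.car ∧ V ≤ W ∧ Nm W ≤ Nm V ∧ f * av k W ≠ 0}
  have hS : S.Nonempty := by
    refine ⟨V, h.mem, le_rfl, le_rfl, fun h0 => ?_⟩
    have h1 := h.br_av h.blk.mem.1
    rw [h0, br_self (Subalgebra.zero_mem _)] at h1
    have h2 : f = 0 := by
      rcases smul_eq_zero.mp h1.symm with h3 | h3
      · exact absurd h3 (inv_ne_zero (card_ne (p := p) (𝒮.card V h.mem)))
      · exact h3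
    exact h.blk.ne_zero h2
  obtain ⟨W, hW, hmax⟩ := S.toFinite.exists_maximal hS
  refine ⟨W, hW.1, hW.2.1, hW.2.2.1, hW.2.2.2, ?_⟩
  rintro W' hW' hWW' hN ⟨x, hx, hxW⟩
  by_contra hne
  exact hxW (hmax ⟨hW', hW.2.1.trans hWW', hN.trans hW.2.2.1, hne⟩ hWW' hx)

end

/-- the second data: a smallest parabolic subgroup `N(W)` not killing `f` -/
structure RW (𝒮 : ParSys p G) (H R V W Z : Subgroup G) (f w : MonoidAlgebra k G) : Prop
    extends RD 𝒮 H R V f w where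
  le : ∀ V ∈ 𝒮.car, V ≤ H
  memW : W ∈ 𝒮.car
  VW : V ≤ W
  NW : Nm W ≤ Nm V
  ne : f * av k W ≠ 0
  max : ∀ W' ∈ 𝒮.car, W ≤ W' → Nm W' ≤ Nm W → (∃ x ∈ W', x ∉ W) → f * av k W' = 0
  mx : Mx p Z
  lvW : Lv W Z
  RZ : R ≤ Z

section

variable {𝒮 : ParSys p G} {H R V W Z : Subgroup G} {f w : MonoidAlgebra k G}

theorem RW.WN (h : RW 𝒮 H R V W Z f w) : W ≤ Nm V := (le_Nm W).trans h.NW

theorem RW.CeZ (h : RW 𝒮 H R V W Z f w) : Ce Z ≤ Ce R := Subgroup.centralizer_le h.RZ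

theorem RW.ZC (h : RW 𝒮 H R V W Z f w) : Z ≤ Ce R := h.mx.le.trans h.CeZ

/-- the idempotent `φ` -/
noncomputable def phi (k : Type u) [Field k] (W R : Subgroup G) (f : MonoidAlgebra k G) :
    MonoidAlgebra k G := f * av k (W ⊓ Ce R)

theorem RW.av_mem (h : RW 𝒮 H R V W Z f w) : av k (W ⊓ Ce R) ∈ SubAlg k (Ce R ⊓ H) :=
  SubAlg_mono (le_inf inf_le_right (inf_le_left.trans (h.le W h.memW))) (BN.av_mem _)

theorem RW.phi_mem (h : RW 𝒮 H R V W Z f w) : phi k W R f ∈ SubAlg k (Ce R ⊓ H) :=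
  Subalgebra.mul_mem _ h.blk.mem.1 h.av_mem

theorem RW.fcom (h : RW 𝒮 H R V W Z f w) {x : MonoidAlgebra k G}
    (hx : x ∈ SubAlg k (Ce R ⊓ H)) : x * f = f * x := commute_of_mem hx h.blk.mem.2

theorem RW.Vcom (h : RW 𝒮 H R V W Z f w) {x : MonoidAlgebra k G}
    (hx : x ∈ SubAlg k (Ce R ⊓ H)) : x * av k V = av k V * x :=
  av_comm (inf_le_left.trans h.lv.le) hx

theorem RW.split (h : RW 𝒮 H R V W Z f w) : av k (W ⊓ Ce R) * av k V = av k W :=
  av_split (p := p) h.lv h.VW h.WN (𝒮.card W h.memW)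

theorem RW.phi_av (h : RW 𝒮 H R V W Z f w) : phi k W R f * av k V = f * av k W := by
  rw [phi, mul_assoc, h.split]

theorem RW.phi_idem (h : RW 𝒮 H R V W Z f w) : phi k W R f * phi k W R f = phi k W R f := by
  have h1 : av k (W ⊓ Ce R) * av k (W ⊓ Ce R) = av k (W ⊓ Ce R) :=
    av_idem (card_ne (p := p) (card_le_ne inf_le_left (𝒮.card W h.memW)))
  unfold phi
  calc f * av k (W ⊓ Ce R) * (f * av k (W ⊓ Ce R))
      = f * (av k (W ⊓ Ce R) * f) * av k (W ⊓ Ce R) := by simp only [mul_assoc]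
    _ = (f * f) * (av k (W ⊓ Ce R) * av k (W ⊓ Ce R)) := by
        rw [h.fcom h.av_mem]; simp only [mul_assoc]
    _ = _ := by rw [h1, h.blk.idem.eq]

theorem RW.phi_ne (h : RW 𝒮 H R V W Z f w) : phi k W R f ≠ 0 := by
  intro h0
  apply h.ne
  rw [← h.phi_av, h0, zero_mul]

theorem RW.f_phi (h : RW 𝒮 H R V W Z f w) : f * phi k W R f = phi k W R f := by
  unfold phi
  rw [← mul_assoc, h.blk.idem.eq]

theorem RW.comW (h : RW 𝒮 H R V W Z f w) : f * av k W = av k W * f :=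
  h.com h.le h.memW h.VW h.WN

/-- Mackey -/
theorem RW.mackey (h : RW 𝒮 H R V W Z f w) (g : G) :
    f * av k W * MonoidAlgebra.single g 1 * av k W * f = 0 ∨
      ∃ v ∈ W, ∃ v' ∈ W, ∃ n ∈ Nm Z, g = v * n * v' :=
  mackey_W 𝒮 h.memW h.lvW h.mx
    (fun W' hW' h1 h2 => h.com h.le hW' (h.VW.trans h1) (h2.trans h.NW)) h.max g

/-- The intersection of `Z` with `H` lies in `R`. -/
theorem RW.inf_le (h : RW 𝒮 H R V W Z f w) : Z ⊓ H ≤ R ⊓ H := by
  intro z₀ hz₀
  refine ⟨?_, hz₀.2⟩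
  by_contra hz₀R
  apply h.ne
  have hZL : Z ⊓ H ≤ Ce R ⊓ H := inf_le_inf_right H h.ZC
  refine cusp_alg (Q := R ⊓ H) (Z := Z ⊓ H) (L := Ce R ⊓ H) (e := f) (a := w)
    (ν := av k (W ⊓ Ce R)) (η := av k V) (ε := av k W) hZL (h.mx.pg.to_le inf_le_left)
    (fun x hx y hy => h.mx.ab x hx.1 y hy.1) (fun q hq l hl => h.central q hq.1 l hl)
    ⟨z₀, hz₀, fun hz => hz₀R hz.1⟩ h.wL ?_ h.blk.mem.1 h.tr h.blk.idem.eq h.av_mem
    (fun x hx => h.Vcom hx) (av_idem (card_ne (p := p) (𝒮.card V h.mem))) h.split.symm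
    (av_idem (card_ne (p := p) (𝒮.card W h.memW))) ?_ ?_
  · exact Fix_mono _ inf_le_left (h.fix (SubAlg_mono inf_le_left h.wL))
  · intro z hz
    exact av_comm (h.mx.le.trans h.lvW.le) (single_mem_SubAlg hz.1 1)
  · intro g hg
    have hgL : MonoidAlgebra.single g (1 : k) ∈ SubAlg k (Ce R ⊓ H) := single_mem_SubAlg hg 1
    rcases h.mackey g with h0 | ⟨v, hv, v', hv', n, hn, hgn⟩
    · left
      rw [← h0]
      calc f * av k W * MonoidAlgebra.single g 1 * av k W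
          = (f * f) * av k W * MonoidAlgebra.single g 1 * av k W := by rw [h.blk.idem.eq]
        _ = f * (f * av k W) * MonoidAlgebra.single g 1 * av k W := by simp only [mul_assoc]
        _ = f * (av k W * f) * MonoidAlgebra.single g 1 * av k W := by rw [h.comW]
        _ = f * av k W * (f * MonoidAlgebra.single g 1) * av k W := by simp only [mul_assoc]
        _ = f * av k W * (MonoidAlgebra.single g 1 * f) * av k W := by rw [h.fcom hgL]
        _ = f * av k W * MonoidAlgebra.single g 1 * (f * av k W) := by simp only [mul_assoc]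
        _ = f * av k W * MonoidAlgebra.single g 1 * (av k W * f) := by rw [h.comW]
        _ = _ := by simp only [mul_assoc]
    · right
      intro z hz
      refine ⟨n * z * n⁻¹, ⟨(mem_Nm.mp hn z).mp hz.1, h.hn n z hz.2⟩, ?_⟩
      have hzW : MonoidAlgebra.single z (1 : k) * av k W = av k W * MonoidAlgebra.single z 1 :=
        av_comm (h.mx.le.trans h.lvW.le) (single_mem_SubAlg hz.1 1)
      have hzW' : MonoidAlgebra.single (n * z * n⁻¹) (1 : k) * av k W =
          av k W * MonoidAlgebra.single (n * z * n⁻¹) 1 :=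
        av_comm (h.mx.le.trans h.lvW.le)
          (single_mem_SubAlg ((mem_Nm.mp hn z).mp hz.1) 1)
      rw [hgn, av_single_av hv hv']
      calc av k W * MonoidAlgebra.single n 1 * av k W * MonoidAlgebra.single z 1
          = av k W * (MonoidAlgebra.single n 1 * MonoidAlgebra.single z 1) * av k W := by
            rw [mul_assoc _ (av k W), ← hzW]; simp only [mul_assoc]
        _ = av k W * (MonoidAlgebra.single (n * z * n⁻¹) 1 * MonoidAlgebra.single n 1) *
            av k W := by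
            rw [MonoidAlgebra.single_mul_single, MonoidAlgebra.single_mul_single,
              inv_mul_cancel_right]
        _ = _ := by
            rw [← mul_assoc, ← hzW']
            simp only [mul_assoc]

end

end Vale.Agent.P180.R2.H799.BN
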