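import Vale.Agent.P180.R2.H799.BNR8

/-!
P180: relative parabolic systems; the small idempotent of `kH` fixed by `R`.
-/

set_option linter.all false

namespace Vale.Agent.P180.R2.H799.BN

open Vale.Agent.P180 Vale.Agent.P180.H768.Gd Vale.Agent.P180.R2.H799
open Vale.Agent.P180.R2.H259.Cyc (PrimIn)
open Vale.Agent.P180.R2.H365 (br_self)

universe u

variable {k : Type u} [Field k] [IsAlgClosed k] {p : ℕ} [Fact p.Prime] [CharP k p] {G : Type}
  [Group G] [Finite G]

variable {𝒮 : ParSys p G} {H R V W Z : Subgroup G} {f w : MonoidAlgebra k G}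

/-- the covering of the corner -/
theorem RW.cover (h : RW 𝒮 H R V W Z f w) {c : MonoidAlgebra k G}
    (hc : PrimIn (SubAlg k (Ce Z ⊓ H)) c) {β : ℕ}
    (hβ : (Ce Z ⊓ H).relIndex (Nm Z ⊓ H) ≤ β) :
    Module.finrank k (NN (SubAlg k H) (c * (f * av k W)) (c * (f * av k W))) ≤
      β * (Nat.card (R ⊓ H : Subgroup G) * (β * β)) := by
  classical
  have hfin : FiniteDimensional k (MonoidAlgebra k G) :=
    Module.Finite.equiv (MonoidAlgebra.coeffLinearEquiv k (M := G) (S := k)).symm
  set L : Subgroup G := Ce R ⊓ H with hL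
  set M : Subgroup G := Ce Z ⊓ H with hM
  set N : Subgroup G := Nm Z ⊓ H with hN
  set φ := phi k W R f with hφ
  set F := c * (f * av k W) with hF
  have hWH : W ≤ H := h.le W h.memW
  have hML : M ≤ L := h.ML
  have hMN : M ≤ N := inf_le_inf_right H (Ce_le_Nm Z)
  have hcM : c ∈ SubAlg k M := hc.mem
  have hcL : c ∈ SubAlg k L := SubAlg_mono hML hcM
  have hMW : M ≤ Nm W := inf_le_left.trans h.lvW.le
  have _ := Fintype.ofFinite (N ⧸ M.subgroupOf N)
  have hcφ : c * φ = φ * c := h.phi_comm hcM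
  have hcf : c * f = f * c := h.fcom hcL
  have hcW : c * av k W = av k W * c := av_comm hMW hcM
  have hconj : ∀ n ∈ N, ∀ m, m ∈ M ↔ n * m * n⁻¹ ∈ M := by
    have h0 : ∀ n ∈ N, ∀ m ∈ M, n * m * n⁻¹ ∈ M := fun n hn m hm =>
      ⟨conj_mem_Ce hn.1 hm.1, h.hn n m hm.2⟩
    intro n hn m
    refine ⟨fun hm => h0 n hn m hm, fun hm => ?_⟩
    have h1 := h0 n⁻¹ (N.inv_mem hn) _ hm
    have e : n⁻¹ * (n * m * n⁻¹) * n⁻¹⁻¹ = m := by group
    rwa [e] at h1
  have hF2 : F = f * av k W * c := by
    rw [hF, ← mul_assoc, hcf, mul_assoc, hcW, mul_assoc]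
  have hF3 : F = c * (f * av k W) := rfl
  let cq : (N ⧸ M.subgroupOf N) → MonoidAlgebra k G := fun q => cj k G ((q.out : N) : G)⁻¹ c
  have hcq : ∀ q, PrimIn (SubAlg k M) (cq q) := fun q =>
    primIn_conj (hconj _ (N.inv_mem q.out.2)) hc
  let B : (N ⧸ M.subgroupOf N) → Submodule k (MonoidAlgebra k G) := fun q =>
    (NN (SubAlg k L) (cq q * φ) (c * φ)).map
      ((LinearMap.mulLeft k (f * av k W * MonoidAlgebra.single ((q.out : N) : G) 1)).comp
        (LinearMap.mulRight k (av k V)))
  have hφφ : φ * φ = φ := h.phi_idem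
  have hφav : φ * av k V = f * av k W := h.phi_av
  -- the elements `F g F`
  have key : ∀ g ∈ H, F * MonoidAlgebra.single g (1 : k) * F ∈ ⨆ q, B q := by
    intro g hg
    have e0 : F * MonoidAlgebra.single g (1 : k) * F =
        c * (f * av k W * MonoidAlgebra.single g 1 * av k W * f) * c := by
      conv_lhs => rw [hF2]
      rw [← hF2]
      conv_lhs => rw [hF3]
      calc c * (f * av k W) * MonoidAlgebra.single g 1 * (c * (f * av k W))
          = c * (f * av k W) * MonoidAlgebra.single g 1 * (f * av k W * c) := by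
            rw [← hF3, hF2]
        _ = c * (f * av k W) * MonoidAlgebra.single g 1 * (av k W * f * c) := by rw [h.comW]
        _ = _ := by simp only [mul_assoc]
    rw [e0]
    rcases h.mackey g with h0 | ⟨v, hv, v', hv', n, hn, hgn⟩
    · rw [h0, mul_zero, zero_mul]; exact zero_mem _
    have hnH : n ∈ H := by
      have e : n = v⁻¹ * g * v'⁻¹ := by rw [hgn]; group
      rw [e]
      exact H.mul_mem (H.mul_mem (H.inv_mem (hWH hv)) hg) (H.inv_mem (hWH hv'))
    have hnN : n ∈ N := ⟨hn, hnH⟩
    have e1 : f * av k W * MonoidAlgebra.single g 1 * av k W * f =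
        f * av k W * MonoidAlgebra.single n 1 * (f * av k W) := by
      have h1 := av_single_av (k := k) (W := W) (n := n) hv hv'
      rw [← hgn] at h1
      calc f * av k W * MonoidAlgebra.single g 1 * av k W * f
          = f * (av k W * MonoidAlgebra.single g 1 * av k W) * f := by simp only [mul_assoc]
        _ = f * av k W * MonoidAlgebra.single n 1 * (av k W * f) := by
            rw [h1]; simp only [mul_assoc]
        _ = _ := by rw [h.comW]
    rw [e1]
    let q : N ⧸ M.subgroupOf N := ((⟨n, hnN⟩ : N) : N ⧸ M.subgroupOf N)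
    set κ : G := ((q.out : N) : G) with hκ
    have hm : κ⁻¹ * n ∈ M := by
      have h1 : (q.out)⁻¹ * (⟨n, hnN⟩ : N) ∈ M.subgroupOf N := by
        rw [← QuotientGroup.eq, QuotientGroup.out_eq']
      exact Subgroup.mem_subgroupOf.mp h1
    set m := κ⁻¹ * n with hmdef
    have hmL : MonoidAlgebra.single m (1 : k) ∈ SubAlg k L := single_mem_SubAlg (hML hm) 1
    have hmM : MonoidAlgebra.single m (1 : k) ∈ SubAlg k M := single_mem_SubAlg hm 1
    have hmφ : MonoidAlgebra.single m (1 : k) * φ = φ * MonoidAlgebra.single m 1 :=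
      h.phi_comm hmM
    have hcqφ : cq q * φ = φ * cq q := h.phi_comm (hcq q).mem
    have e2 : MonoidAlgebra.single n (1 : k) = MonoidAlgebra.single κ 1 *
        MonoidAlgebra.single m 1 := by
      rw [MonoidAlgebra.single_mul_single, hmdef, mul_inv_cancel_left, one_mul]
    have e3 : MonoidAlgebra.single κ (1 : k) * cq q = c * MonoidAlgebra.single κ 1 := by
      have h1 := cj_mul_single (k := k) κ (cj k G κ⁻¹ c)
      rw [map_act_inv] at h1
      exact h1.symm
    refine Submodule.mem_iSup_of_mem q ⟨cq q * φ * MonoidAlgebra.single m 1 * (c * φ),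
      ⟨?_, ?_, ?_⟩, ?_⟩
    · exact Subalgebra.mul_mem _ (Subalgebra.mul_mem _ (Subalgebra.mul_mem _
        (SubAlg_mono hML (hcq q).mem) h.phi_mem) hmL) (Subalgebra.mul_mem _ hcL h.phi_mem)
    · have h1 : (cq q * φ) * (cq q * φ) = cq q * φ := by
        calc (cq q * φ) * (cq q * φ) = cq q * (φ * cq q) * φ := by simp only [mul_assoc]
          _ = (cq q * cq q) * (φ * φ) := by rw [← hcqφ]; simp only [mul_assoc]
          _ = _ := by rw [(hcq q).idem, hφφ]
      calc cq q * φ * (cq q * φ * MonoidAlgebra.single m 1 * (c * φ))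
          = ((cq q * φ) * (cq q * φ)) * MonoidAlgebra.single m 1 * (c * φ) := by
            simp only [mul_assoc]
        _ = _ := by rw [h1]
    · have h1 : (c * φ) * (c * φ) = c * φ := by
        calc (c * φ) * (c * φ) = c * (φ * c) * φ := by simp only [mul_assoc]
          _ = (c * c) * (φ * φ) := by rw [← hcφ]; simp only [mul_assoc]
          _ = _ := by rw [hc.idem, hφφ]
      rw [mul_assoc, h1]
    · change f * av k W * MonoidAlgebra.single κ 1 * (cq q * φ * MonoidAlgebra.single m 1 *
          (c * φ) * av k V) = _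
      have hVm : av k V * MonoidAlgebra.single m (1 : k) = MonoidAlgebra.single m 1 * av k V :=
        (h.Vcom hmL).symm
      have hVc : av k V * c = c * av k V := (h.Vcom hcL).symm
      have h5 : φ * (c * φ) = c * φ := by
        rw [← mul_assoc, ← hcφ, mul_assoc, hφφ]
      symm
      calc c * (f * av k W * MonoidAlgebra.single n 1 * (f * av k W)) * c
          = (c * (f * av k W)) * MonoidAlgebra.single n 1 * ((f * av k W) * c) := by
            simp only [mul_assoc]
        _ = (f * av k W * c) * MonoidAlgebra.single n 1 * (c * (f * av k W)) := by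
            rw [← hF2, ← hF3, hF2]
        _ = f * av k W * (c * MonoidAlgebra.single κ 1) * MonoidAlgebra.single m 1 *
            (c * (φ * av k V)) := by
            rw [e2, hφav]; simp only [mul_assoc]
        _ = f * av k W * (c * MonoidAlgebra.single κ 1) * MonoidAlgebra.single m 1 *
            ((c * φ) * av k V) := by simp only [mul_assoc]
        _ = f * av k W * (c * MonoidAlgebra.single κ 1) * MonoidAlgebra.single m 1 *
            ((φ * (c * φ)) * av k V) := by rw [h5]
        _ = f * av k W * (c * MonoidAlgebra.single κ 1) * (MonoidAlgebra.single m 1 * φ) *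
            (c * φ) * av k V := by simp only [mul_assoc]
        _ = f * av k W * (MonoidAlgebra.single κ 1 * cq q) * (φ * MonoidAlgebra.single m 1) *
            (c * φ) * av k V := by rw [hmφ, e3]
        _ = _ := by simp only [mul_assoc]
  have hle : NN (SubAlg k H) F F ≤ ⨆ q, B q := by
    rintro x ⟨hx, h1, h2⟩
    have h3 : ∀ y ∈ SubAlg k H, F * y * F ∈ ⨆ q, B q := by
      intro y hy
      refine SuppIn.induction (P := fun y => F * y * F ∈ ⨆ q, B q) hy ?_ ?_ ?_
      · rw [mul_zero, zero_mul]; exact zero_mem _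
      · intro y z hy hz
        rw [mul_add, add_mul]; exact add_mem hy hz
      · intro g hg r
        rw [mul_smul_comm, smul_mul_assoc]
        exact Submodule.smul_mem _ r (key g hg)
    have h4 := h3 x hx
    rwa [h1, h2] at h4
  calc Module.finrank k (NN (SubAlg k H) F F)
      ≤ Module.finrank k (⨆ q, B q : Submodule k _) := Submodule.finrank_mono hle
    _ ≤ ∑ q, Module.finrank k (B q) := finrank_iSup_le _
    _ ≤ ∑ _q : N ⧸ M.subgroupOf N, Nat.card (R ⊓ H : Subgroup G) * (β * β) :=
        Finset.sum_le_sum fun q _ => (Submodule.finrank_map_le _ _).trans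
          (h.finrank_L (hcq q) hc hβ)
    _ = M.relIndex N * (Nat.card (R ⊓ H : Subgroup G) * (β * β)) := by
        rw [Finset.sum_const, Finset.card_univ, smul_eq_mul, Subgroup.relIndex,
          Subgroup.index, ← Nat.card_eq_fintype_card (α := N ⧸ M.subgroupOf N)]
    _ ≤ _ := Nat.mul_le_mul_right _ hβ

/-- the bound -/
def rbd (m : ℕ) : ℕ := m.factorial * (m.factorial * m.factorial)

/-- **The small idempotent.** -/
theorem RD.exists_F (h : RD 𝒮 H R V f w) {e₀ c₀ m₀ : ℕ} (hR : RelLevi 𝒮 H e₀ c₀)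
    (hm : ∀ Y : Subgroup G, Y ≤ R ⊓ H → (∀ x ∈ Y, x ^ e₀ = 1) → Nat.card Y ≤ m₀) :
    ∃ F ∈ SubAlg k H, F ∈ Fix (cj k G) R ∧ F * F = F ∧ f * F = F ∧ br R F ≠ 0 ∧
      Module.finrank k (NN (SubAlg k H) F F) ≤
        Nat.card (R ⊓ H : Subgroup G) * rbd (c₀ * m₀) := by
  classical
  have hfin : FiniteDimensional k (MonoidAlgebra k G) :=
    Module.Finite.equiv (MonoidAlgebra.coeffLinearEquiv k (M := G) (S := k)).symm
  obtain ⟨W, hW, hVW, hNW, hne, hmax⟩ := h.exists_W
  obtain ⟨Z, Z₁, hMx, hLW, hRZ, hZ₁, hCe, hexp⟩ := exists_levi_rel hR h.lv h.pg h.ab hVW hNW hW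
  have hw : RW 𝒮 H R V W Z f w :=
    { toRD := h, le := hR.le, memW := hW, VW := hVW, NW := hNW, ne := hne, max := hmax,
      mx := hMx, lvW := hLW, RZ := hRZ }
  have hβ := index_levi_le hR hMx hZ₁ hCe hexp hw.inf_le hm
  obtain ⟨m, x, hx, hsum⟩ := H954.exists_prim_decomp (SubAlg k (Ce Z ⊓ H)) _ 1
    (Subalgebra.one_mem _) (one_mul 1) le_rfl
  obtain ⟨l, -, hl⟩ : ∃ l ∈ Finset.univ, x l * (f * av k W) ≠ 0 := by
    refine Finset.exists_ne_zero_of_sum_ne_zero ?_
    rw [← Finset.sum_mul, ← hsum, one_mul]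
    exact hne
  set c := x l with hc
  have hcP : PrimIn (SubAlg k (Ce Z ⊓ H)) c := (hx l).1
  have hcL : c ∈ SubAlg k (Ce R ⊓ H) := SubAlg_mono hw.ML hcP.mem
  have hF : c * (f * av k W) = (c * phi k W R f) * av k V := by
    rw [← hw.phi_av, mul_assoc]
  have hcφL : c * phi k W R f ∈ SubAlg k (Ce R ⊓ H) := Subalgebra.mul_mem _ hcL hw.phi_mem
  have hcf : c * f = f * c := hw.fcom hcL
  refine ⟨c * (f * av k W), ?_, ?_, ?_, ?_, ?_, ?_⟩
  · exact Subalgebra.mul_mem _ (SubAlg_mono inf_le_right hcP.mem)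
      (Subalgebra.mul_mem _ (SubAlg_mono inf_le_right h.blk.mem.1)
        (SubAlg_mono (hR.le W hW) (BN.av_mem W)))
  · rw [hF]
    exact Subalgebra.mul_mem _ (h.fix (SubAlg_mono inf_le_left hcφL)) h.av_fix
  · have h1 : (f * av k W) * c = c * (f * av k W) := by
      have hcW : c * av k W = av k W * c := av_comm (inf_le_left.trans hLW.le) hcP.mem
      rw [← mul_assoc, hcf, mul_assoc, mul_assoc, hcW]
    have h2 : (f * av k W) * (f * av k W) = f * av k W := by
      have h3 : av k W * av k W = av k W := av_idem (card_ne (p := p) (𝒮.card W hW))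
      calc (f * av k W) * (f * av k W) = f * (av k W * f) * av k W := by simp only [mul_assoc]
        _ = (f * f) * (av k W * av k W) := by rw [← hw.comW]; simp only [mul_assoc]
        _ = _ := by rw [h3, h.blk.idem.eq]
    calc c * (f * av k W) * (c * (f * av k W)) = c * ((f * av k W) * c) * (f * av k W) := by
          simp only [mul_assoc]
      _ = (c * c) * ((f * av k W) * (f * av k W)) := by rw [h1]; simp only [mul_assoc]
      _ = _ := by rw [h2, hcP.idem]
  · rw [← mul_assoc, ← mul_assoc, ← hcf, mul_assoc c, h.blk.idem.eq, mul_assoc]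
  · rw [hF, h.br_av hcφL]
    intro h0
    rcases smul_eq_zero.mp h0 with h1 | h1
    · exact inv_ne_zero (card_ne (p := p) (𝒮.card V h.mem)) h1
    · apply hl
      rw [hF, h1, zero_mul]
  · refine (hw.cover hcP hβ).trans (le_of_eq ?_)
    unfold rbd
    ring

end Vale.Agent.P180.R2.H799.BN
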