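import Vale.Agent.P180.R2.H799.Cross
import Vale.Agent.P180.R2.H799.Chain

/-!
P180: automorphisms of order a power of `p` of a matrix algebra; the idempotents of the fixed
algebra.
-/

set_option linter.all false

namespace Vale.Agent.P180.R2.H799.BS

open Vale.Agent.P180 Vale.Agent.P180.R2.H799

variable {k : Type*} [Field k] {A : Type*} [Ring A] [Algebra k A]

/-- elements of the ideal generated by `ε` -/
theorem exists_rep {ε z : A} (hz : z ∈ Submodule.span k {w | ∃ x y : A, w = x * ε * y}) :
    ∃ (ι : Type) (_ : Fintype ι) (p q : ι → A), z = ∑ i, p i * ε * q i := by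
  induction hz using Submodule.span_induction with
  | mem z hz =>
    obtain ⟨x, y, rfl⟩ := hz
    exact ⟨Unit, inferInstance, fun _ => x, fun _ => y, by simp⟩
  | zero => exact ⟨Empty, inferInstance, fun _ => 0, fun _ => 0, by simp⟩
  | add u v _ _ hu hv =>
    obtain ⟨ι, _, p, q, rfl⟩ := hu
    obtain ⟨κ, _, p', q', rfl⟩ := hv
    exact ⟨ι ⊕ κ, inferInstance, Sum.elim p p', Sum.elim q q', by
      rw [Fintype.sum_sum_type]; rfl⟩
  | smul c u _ hu =>
    obtain ⟨ι, _, p, q, rfl⟩ := hu
    exact ⟨ι, inferInstance, fun i => c • p i, q, by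
      rw [Finset.smul_sum]
      exact Finset.sum_congr rfl fun i _ => by rw [smul_mul_assoc, smul_mul_assoc]⟩

/-- `f` is the unit element of a matrix algebra with the primitive idempotent `ε`. -/
structure MA (k : Type*) [Field k] {A : Type*} [Ring A] [Algebra k A] (f ε : A) : Prop where
  cen : ∀ x, f * x = x * f
  ff : f * f = f
  fe : f * ε = ε
  ee : ε * ε = ε
  ne : ε ≠ 0
  one : ∀ x, ∃ c : k, ε * x * ε = c • ε
  full : f ∈ Submodule.span k {w | ∃ x y : A, w = x * ε * y}

variable {f ε : A}

theorem MA.ef (h : MA k f ε) : ε * f = ε := by rw [← h.cen, h.fe]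

/-- nonzero elements are seen by `ε` -/
theorem MA.exists_ne (h : MA k f ε) {y : A} (hfy : f * y = y) (hy : y ≠ 0) :
    ∃ a b, ε * a * y * b * ε ≠ 0 := by
  by_contra hcon
  push Not at hcon
  apply hy
  obtain ⟨ι, _, p, q, hf⟩ := exists_rep h.full
  have h1 : y = f * y * f := by rw [hfy, ← h.cen, hfy]
  rw [h1, hf, Finset.sum_mul, Finset.sum_mul]
  refine Finset.sum_eq_zero fun i _ => ?_
  rw [Finset.mul_sum]
  refine Finset.sum_eq_zero fun l _ => ?_
  calc p i * ε * q i * y * (p l * ε * q l) = p i * (ε * q i * y * p l * ε) * q l := by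
        simp only [mul_assoc]
    _ = 0 := by rw [hcon, mul_zero, zero_mul]

/-- the centre -/
theorem MA.center (h : MA k f ε) {z : A} (hz : ∀ x, z * x = x * z) (hfz : f * z = z) :
    ∃ c : k, z = c • f := by
  obtain ⟨c, hc⟩ := h.one z
  refine ⟨c, ?_⟩
  obtain ⟨ι, _, p, q, hf⟩ := exists_rep h.full
  have h1 : z * ε = c • ε := by rw [← hc, ← hz, mul_assoc, h.ee]
  have h2 : z = z * f := by rw [← h.cen, hfz]
  rw [h2]
  conv_lhs => rw [hf, Finset.mul_sum]
  conv_rhs => rw [hf, Finset.smul_sum]
  refine Finset.sum_congr rfl fun i _ => ?_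
  calc z * (p i * ε * q i) = p i * (z * ε) * q i := by
        rw [← mul_assoc, ← mul_assoc, hz (p i)]; simp only [mul_assoc]
    _ = _ := by rw [h1, mul_smul_comm, smul_mul_assoc]

/-- **Skolem-Noether.** -/
theorem MA.inner (h : MA k f ε) (x : A ≃ₐ[k] A) (hxf : x f = f) :
    ∃ X Y : A, (∀ a, X * a = x a * X) ∧ X * Y = f ∧ Y * X = f ∧ f * X = X ∧ f * Y = Y := by
  set ε' := x ε with hε'
  have hee' : ε' * ε' = ε' := by rw [hε', ← map_mul, h.ee]
  have hne' : ε' ≠ 0 := fun h0 => h.ne (x.injective (by rw [map_zero]; exact h0))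
  have hfe' : f * ε' = ε' := by rw [hε', ← hxf, ← map_mul, h.fe]
  have hone' : ∀ y, ∃ c : k, ε' * y * ε' = c • ε' := by
    intro y
    obtain ⟨c, hc⟩ := h.one (x.symm y)
    refine ⟨c, ?_⟩
    have h1 := congrArg x hc
    rw [map_mul, map_mul, map_smul, x.apply_symm_apply] at h1
    exact h1
  obtain ⟨ι, _, p, q, hf⟩ := exists_rep h.full
  -- the elements `u` and `v`
  obtain ⟨u, v, huv, hvu, hue, heu, hev, hve⟩ : ∃ u v : A, u * v = ε' ∧ v * u = ε ∧ u * ε = u ∧
      ε' * u = u ∧ ε * v = v ∧ v * ε' = v := by
    have h1 : ∃ i, ε' * (p i * ε * q i) * ε' ≠ 0 := by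
      by_contra hcon
      push Not at hcon
      apply hne'
      calc ε' = ε' * f * ε' := by rw [← h.cen, hfe', hee']
        _ = 0 := by
          rw [hf, Finset.mul_sum, Finset.sum_mul]
          exact Finset.sum_eq_zero fun i _ => hcon i
    obtain ⟨i, hi⟩ := h1
    obtain ⟨c, hc⟩ := hone' (p i * ε * q i)
    have hc0 : c ≠ 0 := by
      rintro rfl
      rw [zero_smul] at hc
      exact hi hc
    set u := ε' * p i * ε with hu
    set v := c⁻¹ • (ε * q i * ε') with hv
    have hue : u * ε = u := by rw [hu, mul_assoc, h.ee]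
    have heu : ε' * u = u := by rw [hu, ← mul_assoc, ← mul_assoc, hee']
    have hev : ε * v = v := by rw [hv, mul_smul_comm, ← mul_assoc, ← mul_assoc, h.ee]
    have hve : v * ε' = v := by rw [hv, smul_mul_assoc, mul_assoc, hee']
    have huv : u * v = ε' := by
      rw [hu, hv, mul_smul_comm]
      have h2 : ε' * p i * ε * (ε * q i * ε') = ε' * (p i * ε * q i) * ε' := by
        calc ε' * p i * ε * (ε * q i * ε') = ε' * p i * (ε * ε) * q i * ε' := by
              simp only [mul_assoc]
          _ = _ := by rw [h.ee]; simp only [mul_assoc]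
      rw [h2, hc, smul_smul, inv_mul_cancel₀ hc0, one_smul]
    refine ⟨u, v, huv, ?_, hue, heu, hev, hve⟩
    obtain ⟨d, hd⟩ := h.one (v * u)
    have h3 : v * u = d • ε := by
      calc v * u = (ε * v) * (u * ε) := by rw [hev, hue]
        _ = ε * (v * u) * ε := by simp only [mul_assoc]
        _ = _ := hd
    have h4 : d • u = u := by
      calc d • u = u * (d • ε) := by rw [mul_smul_comm, hue]
        _ = u * (v * u) := by rw [h3]
        _ = (u * v) * u := (mul_assoc _ _ _).symm
        _ = u := by rw [huv, heu]
    have hu0 : u ≠ 0 := by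
      rintro h0
      apply hne'
      rw [← huv, h0, zero_mul]
    have h5 : d = 1 := by
      have h6 : (d - 1) • u = 0 := by rw [sub_smul, h4, one_smul, sub_self]
      rcases smul_eq_zero.mp h6 with h7 | h7
      · exact sub_eq_zero.mp h7
      · exact absurd h7 hu0
    rw [h3, h5, one_smul]
  -- `u y = x y u` on `ε A ε`
  have key : ∀ y, u * (ε * y * ε) = x (ε * y * ε) * u := by
    intro y
    obtain ⟨c, hc⟩ := h.one y
    rw [hc, map_smul, ← hε', mul_smul_comm, smul_mul_assoc, hue, heu]
  have key' : ∀ y, (ε * y * ε) * v = v * x (ε * y * ε) := by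
    intro y
    obtain ⟨c, hc⟩ := h.one y
    rw [hc, map_smul, ← hε', mul_smul_comm, smul_mul_assoc, hev, hve]
  set X := ∑ i, x (p i) * u * q i with hX
  set Y := ∑ i, p i * v * x (q i) with hY
  have hXa : ∀ a, X * a = x a * X := by
    intro a
    have h1 : x a * X = ∑ l, ∑ m, x (p m) * u * (ε * (q m * a * p l) * ε) * q l := by
      rw [hX, Finset.mul_sum]
      refine Finset.sum_congr rfl fun l _ => ?_
      have h2 : a * p l * ε = ∑ m, p m * (ε * (q m * a * p l) * ε) := by
        calc a * p l * ε = f * (a * p l * ε) := by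
              rw [h.cen, mul_assoc (a * p l), h.ef]
          _ = _ := by
              rw [hf, Finset.sum_mul]
              exact Finset.sum_congr rfl fun m _ => by simp only [mul_assoc]
      calc x a * (x (p l) * u * q l) = x (a * p l * ε) * u * q l := by
            rw [map_mul, map_mul, ← hε']
            calc x a * (x (p l) * u * q l) = x a * x (p l) * (ε' * u) * q l := by
                  rw [heu]; simp only [mul_assoc]
              _ = _ := by simp only [mul_assoc]
        _ = ∑ m, x (p m) * (x (ε * (q m * a * p l) * ε) * u) * q l := by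
            rw [h2, map_sum, Finset.sum_mul, Finset.sum_mul]
            exact Finset.sum_congr rfl fun m _ => by rw [map_mul]; simp only [mul_assoc]
        _ = _ := by
            refine Finset.sum_congr rfl fun m _ => ?_
            rw [← key]; simp only [mul_assoc]
    rw [h1, Finset.sum_comm, hX, Finset.sum_mul]
    refine Finset.sum_congr rfl fun m _ => ?_
    have h3 : q m * a * f = ∑ l, q m * a * (p l * ε * q l) := by
      conv_lhs => rw [hf, Finset.mul_sum]
    have h4 : u * (q m * a) = u * ε * (q m * a * f) := by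
      rw [hue, ← h.cen]
      conv_lhs => rw [← hue]
      conv_rhs => rw [← hue]
      rw [mul_assoc, mul_assoc, ← mul_assoc ε f, h.ef]
    calc x (p m) * u * q m * a = x (p m) * (u * (q m * a)) := by simp only [mul_assoc]
      _ = x (p m) * (u * ε * ∑ l, q m * a * (p l * ε * q l)) := by rw [h4, h3]
      _ = _ := by
          rw [Finset.mul_sum, Finset.mul_sum]
          exact Finset.sum_congr rfl fun l _ => by simp only [mul_assoc]
  have hYa : ∀ a, a * Y = Y * x a := by
    intro a
    have h1 : a * Y = ∑ l, ∑ m, p m * (ε * (q m * a * p l) * ε) * v * x (q l) := by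
      rw [hY, Finset.mul_sum]
      refine Finset.sum_congr rfl fun l _ => ?_
      have h2 : a * p l * ε = ∑ m, p m * (ε * (q m * a * p l) * ε) := by
        calc a * p l * ε = f * (a * p l * ε) := by
              rw [h.cen, mul_assoc (a * p l), h.ef]
          _ = _ := by
              rw [hf, Finset.sum_mul]
              exact Finset.sum_congr rfl fun m _ => by simp only [mul_assoc]
      calc a * (p l * v * x (q l)) = (a * p l * ε) * v * x (q l) := by
            conv_lhs => rw [← hev]
            simp only [mul_assoc]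
        _ = _ := by
            rw [h2, Finset.sum_mul, Finset.sum_mul]
    rw [h1, Finset.sum_comm, hY, Finset.sum_mul]
    refine Finset.sum_congr rfl fun m _ => ?_
    have h3 : q m * a = ∑ l, q m * a * (p l * ε * q l) + (q m * a - q m * a * f) := by
      conv_rhs => rw [← Finset.mul_sum, ← hf]
      abel
    have h5 : v * x (q m * a) = ∑ l, v * x (q m * a * (p l * ε * q l)) := by
      have h6 : v * x (q m * a - q m * a * f) = 0 := by
        rw [map_sub, map_mul x (q m * a) f, hxf, ← h.cen, mul_sub]
        have h7 : v * (f * x (q m * a)) = v * x (q m * a) := by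
          rw [← mul_assoc]
          conv_lhs => rw [← hve]
          rw [mul_assoc v, ← h.cen, hfe', hve]
        rw [h7, sub_self]
      conv_lhs => rw [h3, map_add, mul_add, h6, add_zero, map_sum, Finset.mul_sum]
    calc ∑ l, p m * (ε * (q m * a * p l) * ε) * v * x (q l)
        = ∑ l, p m * (v * x (q m * a * (p l * ε * q l))) := by
          refine Finset.sum_congr rfl fun l _ => ?_
          calc p m * (ε * (q m * a * p l) * ε) * v * x (q l)
              = p m * ((ε * (q m * a * p l) * ε) * v) * x (q l) := by simp only [mul_assoc]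
            _ = p m * (v * x (ε * (q m * a * p l) * ε)) * x (q l) := by rw [key']
            _ = p m * ((v * ε') * (x (q m * a * p l) * ε' * x (q l))) := by
                rw [map_mul, map_mul, ← hε']; simp only [mul_assoc]
            _ = _ := by
                rw [hve, hε', ← map_mul, ← map_mul]; simp only [mul_assoc]
      _ = p m * (v * x (q m * a)) := by rw [← Finset.mul_sum, ← h5]
      _ = _ := by rw [map_mul]; simp only [mul_assoc]
  have hfX : f * X = X := by
    rw [hX, Finset.mul_sum]
    refine Finset.sum_congr rfl fun i _ => ?_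
    have h1 : f * u = u := by rw [← heu, ← mul_assoc, hfe']
    calc f * (x (p i) * u * q i) = (f * x (p i)) * u * q i := by simp only [mul_assoc]
      _ = x (p i) * (f * u) * q i := by rw [h.cen]; simp only [mul_assoc]
      _ = _ := by rw [h1]
  have hfY : f * Y = Y := by
    rw [hY, Finset.mul_sum]
    refine Finset.sum_congr rfl fun i _ => ?_
    have h1 : f * v = v := by rw [← hev, ← mul_assoc, h.fe]
    calc f * (p i * v * x (q i)) = (f * p i) * v * x (q i) := by simp only [mul_assoc]
      _ = p i * (f * v) * x (q i) := by rw [h.cen]; simp only [mul_assoc]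
      _ = _ := by rw [h1]
  have hXe : X * ε = u := by
    calc X * ε = ∑ i, x (p i) * (u * (ε * q i * ε)) := by
          rw [hX, Finset.sum_mul]
          refine Finset.sum_congr rfl fun i _ => ?_
          conv_lhs => rw [← hue]
          simp only [mul_assoc]
      _ = ∑ i, x (p i * ε * q i) * (ε' * u) := by
          refine Finset.sum_congr rfl fun i _ => ?_
          rw [key, map_mul x (ε * q i) ε, ← hε', map_mul, map_mul, map_mul]
          simp only [mul_assoc]
      _ = u := by rw [← Finset.sum_mul, ← map_sum, ← hf, hxf, heu, ← heu, ← mul_assoc, hfe']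
  have heY : ε * Y = v := by
    calc ε * Y = ∑ i, ((ε * p i * ε) * v) * x (q i) := by
          rw [hY, Finset.mul_sum]
          refine Finset.sum_congr rfl fun i _ => ?_
          conv_lhs => rw [← hev]
          simp only [mul_assoc]
      _ = ∑ i, v * (ε' * x (p i * ε * q i)) := by
          refine Finset.sum_congr rfl fun i _ => ?_
          rw [key', map_mul, map_mul, ← hε', map_mul, map_mul, ← hε']
          simp only [mul_assoc]
      _ = v := by
          rw [← Finset.mul_sum, ← Finset.mul_sum, ← map_sum, ← hf, hxf, ← h.cen, hfe', hve]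
  refine ⟨X, Y, hXa, ?_, ?_, hfX, hfY⟩
  · obtain ⟨c, hc⟩ := h.center (z := X * Y) (fun y => by
      obtain ⟨y, rfl⟩ := x.surjective y
      rw [mul_assoc, ← hYa, ← mul_assoc, hXa, mul_assoc]) (by rw [← mul_assoc, hfX])
    have h1 : c • ε' = ε' := by
      calc c • ε' = ε' * (c • f) := by rw [mul_smul_comm, ← h.cen, hfe']
        _ = (ε' * X) * Y := by rw [← hc, mul_assoc]
        _ = (X * ε) * Y := by rw [hXa]
        _ = (X * ε) * (ε * Y) := by
            conv_lhs => rw [← h.ee]
            simp only [mul_assoc]
        _ = ε' := by rw [hXe, heY, huv]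
    have h2 : c = 1 := by
      have h6 : (c - 1) • ε' = 0 := by rw [sub_smul, h1, one_smul, sub_self]
      rcases smul_eq_zero.mp h6 with h7 | h7
      · exact sub_eq_zero.mp h7
      · exact absurd h7 hne'
    rw [hc, h2, one_smul]
  · obtain ⟨c, hc⟩ := h.center (z := Y * X) (fun y => by
      rw [mul_assoc, hXa, ← mul_assoc, ← hYa, mul_assoc]) (by rw [← mul_assoc, hfY])
    have h1 : c • ε = ε := by
      calc c • ε = (c • f) * ε := by rw [smul_mul_assoc, h.fe]
        _ = Y * (X * ε) := by rw [← hc, mul_assoc]
        _ = Y * (ε' * u) := by rw [hXe, heu]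
        _ = (ε * Y) * u := by rw [hε', ← mul_assoc, ← hYa]
        _ = ε := by rw [heY, hvu]
    have h2 : c = 1 := by
      have h6 : (c - 1) • ε = 0 := by rw [sub_smul, h1, one_smul, sub_self]
      rcases smul_eq_zero.mp h6 with h7 | h7
      · exact sub_eq_zero.mp h7
      · exact absurd h7 h.ne
    rw [hc, h2, one_smul]

end Vale.Agent.P180.R2.H799.BS
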