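import Vale.Agent.P180.R2.H799.BS9
import Vale.Agent.P180.R2.H854.FlagB

/-!
P180: the determinants on the weight spaces.
-/

set_option linter.all false

namespace Vale.Agent.P180.R2.H799.BS

open Module Vale.Agent.P180.R2.H854 Vale.Agent.P180.R2.H799
open Vale.Agent.P180.R2.H799.BN (sl_smul sl_ext EV BD exists_diag sl_sum)

variable {K E : Type*} [Field K] [AddCommGroup E] [Module K E] {ι : Type*} [Fintype ι]

/-- the projection to the span of the basis vectors with `α l = i` -/
noncomputable def pj (b : Basis ι K E) (α : ι → ℕ) (i : ℕ) : End K E :=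
  b.constr K fun l => if α l = i then b l else 0

theorem pj_apply (b : Basis ι K E) (α : ι → ℕ) (i : ℕ) (l : ι) :
    pj b α i (b l) = if α l = i then b l else 0 := b.constr_basis K _ l

theorem pj_mul (b : Basis ι K E) (α : ι → ℕ) (i j : ℕ) :
    pj b α i * pj b α j = if i = j then pj b α i else 0 := by
  refine b.ext fun l => ?_
  rw [End.mul_apply, pj_apply]
  by_cases hij : i = j
  · subst hij
    rw [if_pos rfl]
    by_cases h : α l = i
    · rw [if_pos h]
    · rw [if_neg h, map_zero, pj_apply, if_neg h]
  · rw [if_neg hij, LinearMap.zero_apply]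
    by_cases h : α l = j
    · rw [if_pos h, pj_apply, if_neg]
      intro h'
      exact hij (h'.symm.trans h)
    · rw [if_neg h, map_zero]

/-- elements of the span of a block -/
theorem pj_of_repr (b : Basis ι K E) (α : ι → ℕ) (i j : ℕ) {v : E}
    (h : ∀ m, b.repr v m ≠ 0 → α m = j) : pj b α i v = if j = i then v else 0 := by
  have h1 : pj b α i v = ∑ m, b.repr v m • pj b α i (b m) := by
    conv_lhs => rw [← b.sum_repr v, map_sum]
    exact Finset.sum_congr rfl fun m _ => map_smul _ _ _
  rw [h1]
  by_cases hij : j = i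
  · rw [if_pos hij]
    conv_rhs => rw [← b.sum_repr v]
    refine Finset.sum_congr rfl fun m _ => ?_
    by_cases h0 : b.repr v m = 0
    · rw [h0, zero_smul, zero_smul]
    · rw [pj_apply, if_pos ((h m h0).trans hij)]
  · rw [if_neg hij]
    refine Finset.sum_eq_zero fun m _ => ?_
    by_cases h0 : b.repr v m = 0
    · rw [h0, zero_smul]
    · rw [pj_apply, if_neg, smul_zero]
      intro h2
      exact hij ((h m h0).symm.trans h2)

/-- `x` on one block and the identity on the others -/
noncomputable def blk (b : Basis ι K E) (α : ι → ℕ) (i : ℕ) (X : End K E) : End K E :=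
  X * pj b α i + (1 - pj b α i)

theorem blk_mul (b : Basis ι K E) (α : ι → ℕ) (i : ℕ) {X Y : End K E}
    (hY : Y * pj b α i = pj b α i * Y) :
    blk b α i (X * Y) = blk b α i X * blk b α i Y := by
  have hP : pj b α i * pj b α i = pj b α i := by rw [pj_mul, if_pos rfl]
  unfold blk
  have e1 : X * pj b α i * (Y * pj b α i) = X * Y * pj b α i := by
    rw [hY, mul_assoc, ← mul_assoc (pj b α i) (pj b α i), hP, ← hY, mul_assoc]
  have e2 : X * pj b α i * (1 - pj b α i) = 0 := by
    rw [mul_assoc, mul_sub, mul_one, hP, sub_self, mul_zero]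
  have e3 : (1 - pj b α i) * (Y * pj b α i) = 0 := by
    rw [hY, ← mul_assoc, sub_mul, one_mul, hP, sub_self, zero_mul]
  have e4 : (1 - pj b α i) * (1 - pj b α i) = 1 - pj b α i := by
    rw [mul_sub, mul_one, sub_mul, one_mul, hP, sub_self, sub_zero]
  rw [add_mul, mul_add, mul_add, e1, e2, e3, e4, add_zero, zero_add]

theorem blk_one (b : Basis ι K E) (α : ι → ℕ) (i : ℕ) : blk b α i 1 = 1 := by
  unfold blk
  rw [one_mul, add_sub_cancel]

/-- the determinant on one block -/
noncomputable def bdet (b : Basis ι K E) (α : ι → ℕ) (i : ℕ) (X : End K E) : K :=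
  LinearMap.det (blk b α i X)

theorem bdet_mul (b : Basis ι K E) (α : ι → ℕ) (i : ℕ) {X Y : End K E}
    (hY : Y * pj b α i = pj b α i * Y) :
    bdet b α i (X * Y) = bdet b α i X * bdet b α i Y := by
  unfold bdet
  rw [blk_mul b α i hY]
  exact map_mul LinearMap.det _ _

theorem bdet_one (b : Basis ι K E) (α : ι → ℕ) (i : ℕ) : bdet b α i 1 = 1 := by
  unfold bdet
  rw [blk_one]
  exact map_one LinearMap.det

/-- the product of the determinants on the blocks -/
theorem det_eq_prod (b : Basis ι K E) (α : ι → ℕ) {X : End K E}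
    (hX : ∀ i, X * pj b α i = pj b α i * X) {N : ℕ} (hN : ∀ l, α l < N) :
    LinearMap.det X = ∏ i ∈ Finset.range N, bdet b α i X := by
  let S : ℕ → End K E := fun n => ∑ i ∈ Finset.range n, pj b α i
  have hS : ∀ n, S (n + 1) = S n + pj b α n := fun n => Finset.sum_range_succ _ _
  have hSP : ∀ n, S n * pj b α n = 0 := by
    intro n
    change (∑ i ∈ Finset.range n, pj b α i) * pj b α n = 0
    rw [Finset.sum_mul]
    refine Finset.sum_eq_zero fun i hi => ?_
    rw [pj_mul, if_neg (Finset.mem_range.mp hi).ne]
  have key : ∀ n, LinearMap.det (X * S n + (1 - S n)) = ∏ i ∈ Finset.range n, bdet b α i X := by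
    intro n
    induction n with
    | zero =>
      have : S 0 = 0 := Finset.sum_range_zero _
      rw [this, mul_zero, sub_zero, zero_add, Finset.range_zero, Finset.prod_empty]
      exact map_one LinearMap.det
    | succ n ih =>
      rw [Finset.prod_range_succ, ← ih, bdet, ← map_mul LinearMap.det]
      congr 1
      rw [hS, blk]
      have e1 : X * S n * (X * pj b α n) = 0 := by
        rw [hX n, mul_assoc, ← mul_assoc (S n), hSP, zero_mul, mul_zero]
      have e2 : X * S n * (1 - pj b α n) = X * S n := by
        rw [mul_sub, mul_one, mul_assoc, hSP, mul_zero, sub_zero]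
      have e3 : (1 - S n) * (X * pj b α n) = X * pj b α n := by
        rw [sub_mul, one_mul, hX n, ← mul_assoc, hSP, zero_mul, sub_zero]
      have e4 : (1 - S n) * (1 - pj b α n) = 1 - (S n + pj b α n) := by
        rw [mul_sub, mul_one, sub_mul, one_mul, hSP, sub_zero]
        abel
      rw [add_mul, mul_add (X * S n), mul_add (1 - S n), e1, e2, e3, e4, zero_add, mul_add]
      abel
  have hSN : S N = 1 := by
    refine b.ext fun l => ?_
    change (∑ i ∈ Finset.range N, pj b α i) (b l) = b l
    rw [LinearMap.sum_apply, Finset.sum_eq_single (α l)]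
    · rw [pj_apply, if_pos rfl]
    · intro i _ hi
      rw [pj_apply, if_neg hi.symm]
    · intro h
      exact absurd (Finset.mem_range.mpr (hN l)) h
  rw [← key N, hSN, mul_one, sub_self, add_zero]

/-- the determinant of a scalar on a block -/
theorem bdet_diag (b : Basis ι K E) (α : ι → ℕ) (i : ℕ) {X : End K E} {c : ℕ → K}
    (hX : ∀ l, X (b l) = c (α l) • b l) :
    bdet b α i X = c i ^ (Finset.univ.filter fun l => α l = i).card := by
  classical
  have h1 : LinearMap.toMatrix b b (blk b α i X) =
      Matrix.diagonal fun l => if α l = i then c i else 1 := by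
    ext m l
    rw [LinearMap.toMatrix_apply]
    have h2 : blk b α i X (b l) = (if α l = i then c i else 1) • b l := by
      unfold blk
      rw [LinearMap.add_apply, LinearMap.sub_apply, End.mul_apply, pj_apply, End.one_apply]
      by_cases h : α l = i
      · rw [if_pos h, if_pos h, hX, sub_self, add_zero, h]
      · rw [if_neg h, if_neg h, map_zero, zero_add, sub_zero, one_smul]
    rw [h2, map_smul, Finsupp.smul_apply, b.repr_self, Matrix.diagonal_apply, smul_eq_mul,
      Finsupp.single_apply]
    by_cases hml : m = l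
    · subst hml
      rw [if_pos rfl, if_pos rfl, mul_one]
    · rw [if_neg (Ne.symm hml), if_neg hml, mul_zero]
  unfold bdet
  rw [← LinearMap.det_toMatrix b, h1, Matrix.det_diagonal, Finset.prod_ite, Finset.prod_const,
    Finset.prod_const_one, mul_one]

/-- conjugation with a semilinear bijection which preserves the blocks -/
theorem bdet_semi [FiniteDimensional K E] (b : Basis ι K E) (α : ι → ℕ) (i : ℕ) {σ : K ≃+* K}
    {g : E → E} (hg : Semi σ g) (hgb : ∀ l m, b.repr (g (b l)) m ≠ 0 → α m = α l)
    {X Y : End K E} (hXY : ∀ v, g (X v) = Y (g v)) : bdet b α i Y = σ (bdet b α i X) := by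
  have hgP : ∀ v, g (pj b α i v) = pj b α i (g v) := by
    intro v
    have h1 : pj b α i v = ∑ m, b.repr v m • pj b α i (b m) := by
      conv_lhs => rw [← b.sum_repr v, map_sum]
      exact Finset.sum_congr rfl fun m _ => map_smul _ _ _
    rw [h1, hg.sum]
    conv_rhs => rw [← b.sum_repr v, hg.sum, map_sum]
    refine Finset.sum_congr rfl fun m _ => ?_
    rw [map_smul, pj_of_repr b α i (α m) (hgb m), pj_apply]
    by_cases h : α m = i
    · rw [if_pos h, if_pos h]
    · rw [if_neg h, if_neg h, hg.zero]
  refine hg.det fun v => ?_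
  unfold blk
  rw [LinearMap.add_apply, LinearMap.sub_apply, End.mul_apply, End.one_apply, hg.add, hg.sub, hXY,
    hgP, LinearMap.add_apply, LinearMap.sub_apply, End.mul_apply, End.one_apply]

/-- block diagonal elements commute with the projections -/
theorem comm_pj (b : Basis ι K E) (α : ι → ℕ) {X : End K E}
    (hX : ∀ l m, b.repr (X (b l)) m ≠ 0 → α m = α l) (i : ℕ) :
    X * pj b α i = pj b α i * X := by
  refine b.ext fun l => ?_
  rw [End.mul_apply, End.mul_apply, pj_apply, pj_of_repr b α i (α l) (hX l)]
  by_cases h : α l = i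
  · rw [if_pos h, if_pos h]
  · rw [if_neg h, if_neg h, map_zero]

/-- **The unipotent radical is stable.** -/
theorem VF_semi [Finite K] [FiniteDimensional K E] {b : Basis ι K E} {α : ι → ℕ} {F : Flag K E}
    (hF : Adapted b α F) {σ : K ≃+* K} {g : E → E} (hg : Semi σ g)
    (hgb : ∀ l m, b.repr (g (b l)) m ≠ 0 → α m = α l) {x y : SpecialLinearGroup K E}
    (hxy : Tw g x y) (hx : x ∈ VF F) : y ∈ VF F := by
  have hfin : Finite E := Module.finite_of_finite K
  have hgF : ∀ i, ∀ v ∈ F i, g v ∈ F i := by
    intro i v hv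
    rw [← b.sum_repr v, hg.sum]
    refine Submodule.sum_mem _ fun l _ => ?_
    by_cases h0 : b.repr v l = 0
    · rw [h0, map_zero, zero_smul]; exact zero_mem _
    · refine Submodule.smul_mem _ _ (hF.mem_iff.mpr fun m hm => ?_)
      rw [hgb l m hm]
      exact hF.mem_iff.mp hv l h0
  have hsurj : ∀ i, ∀ u ∈ F i, ∃ v ∈ F i, g v = u := by
    intro i u hu
    let γ : F i → F i := fun v => ⟨g v, hgF i v v.2⟩
    have hγ : Function.Surjective γ := Finite.surjective_of_injective fun v w hvw =>
      Subtype.ext (hg.bij.1 (congrArg Subtype.val hvw))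
    obtain ⟨v, hv⟩ := hγ ⟨u, hu⟩
    exact ⟨v, v.2, congrArg Subtype.val hv⟩
  intro i u hu
  obtain ⟨v, hv, rfl⟩ := hsurj (i + 1) u hu
  rw [← hxy v, ← hg.sub]
  exact hgF i _ (hx i v hv)

end Vale.Agent.P180.R2.H799.BS
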