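import Vale.Agent.P180.R2.H799.BS8
import Vale.Agent.P180.R2.H799.BS12
import Vale.Agent.P180.R2.H799.BNL5

/-!
P180: the corner property of central quotients of special linear groups of dimension less than `p`,
`p ∣ q - 1`, for a `p`-group which acts by semilinear maps.
-/

set_option linter.all false

namespace Vale.Agent.P180.R2.H799.BS

open Module Vale.Agent.P180 Vale.Agent.P180.H768.Gd Vale.Agent.P180.R2.H365
  Vale.Agent.P180.R2.H799 Vale.Agent.P180.R2.H954 Vale.Agent.P180.R2.H854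
open Vale.Agent.P180.R2.H799.BN (Ce Nm Mx mem_Ce mem_Nm exists_lift not_dvd_center finite_sl
  span_EV_of_lt comm_of_span imageSys hasLevi_image hasLevi_sl pair_image centralizer_image
  sl_smul sl_ext sl_sum comm_of_BD pow_apply_eigen)

universe u

section

variable {K E : Type*} [Field K] [AddCommGroup E] [Module K E] [FiniteDimensional K E]

/-- the coefficients of a weight vector -/
theorem wt_repr {Q : Subgroup (SpecialLinearGroup K E)} {ι : Type*} [Fintype ι] (b : Basis ι K E)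
    (w : ι → Q → K) (hw : ∀ l, Wt Q (w l) (b l)) {u : Q → K} {v : E} (h : Wt Q u v) {i : ι}
    (hi : b.repr v i ≠ 0) : w i = u := by
  classical
  funext x
  have h1 := h x
  have h2 : b.repr ((x : SpecialLinearGroup K E) v) i = w i x * b.repr v i := by
    conv_lhs => rw [← b.sum_repr v, sl_sum]
    rw [map_sum, Finsupp.finsetSum_apply, Finset.sum_eq_single i]
    · rw [hw i x, smul_smul, map_smul, Finsupp.smul_apply, b.repr_self, Finsupp.single_eq_same,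
        smul_eq_mul, mul_one, mul_comm]
    · intro j _ hj
      rw [hw j x, smul_smul, map_smul, Finsupp.smul_apply, b.repr_self,
        Finsupp.single_eq_of_ne (Ne.symm hj), smul_zero]
    · intro h0
      exact absurd (Finset.mem_univ i) h0
  rw [h1, map_smul, Finsupp.smul_apply, smul_eq_mul] at h2
  exact (mul_right_cancel₀ hi h2).symm

variable {G : Type*} [Group G] {L : Subgroup G} {π : SpecialLinearGroup K E →* L}

theorem ker_pow {p : ℕ} [Fact p.Prime] (hkp : ¬ p ∣ Nat.card π.ker) {z : SpecialLinearGroup K E}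
    (hz : z ∈ π.ker) {m : ℕ} (hm : z ^ (p ^ m) = 1) : z = 1 := by
  have h3 : z ^ Nat.card π.ker = 1 :=
    congrArg Subtype.val (pow_card_eq_one' (x := (⟨z, hz⟩ : π.ker)))
  have h4 : z ^ Nat.gcd (p ^ m) (Nat.card π.ker) = 1 := pow_gcd_eq_one.mpr ⟨hm, h3⟩
  have h5 : Nat.Coprime (p ^ m) (Nat.card π.ker) :=
    Nat.Coprime.pow_left _ ((Nat.Prime.coprime_iff_not_dvd Fact.out).mpr hkp)
  rwa [h5.gcd_eq_one, pow_one] at h4

/-- the action on a `p`-subgroup -/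
theorem exists_phi [Finite K] {p : ℕ} [Fact p.Prime] (hk : π.ker ≤ Subgroup.center _)
    (hkp : ¬ p ∣ Nat.card π.ker) {R : Subgroup G} {Q : Subgroup (SpecialLinearGroup K E)}
    (hQ : IsPGroup p Q) (hQR : Q.map π = R.subgroupOf L) {r : G} (hr : r ∈ R) {σ : K ≃+* K}
    {g : E → E} (h : Act π r σ g) : ∃ φ : Q → Q, Function.Surjective φ ∧
      ∀ x : Q, Tw g (x : SpecialLinearGroup K E) (φ x : SpecialLinearGroup K E) := by
  have hfG : Finite (SpecialLinearGroup K E) := finite_sl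
  have key : ∀ x : Q, ∃ y : Q, Tw g (x : SpecialLinearGroup K E) (y : SpecialLinearGroup K E) := by
    intro x
    obtain ⟨y, hy, hxy⟩ := h.2 x
    have h1 : ((π x : L) : G) ∈ R := by
      have h2 : π x ∈ R.subgroupOf L := by rw [← hQR]; exact ⟨x, x.2, rfl⟩
      exact h2
    have h2 : π y ∈ Q.map π := by
      rw [hQR]
      change ((π y : L) : G) ∈ R
      rw [← hxy]
      exact R.mul_mem (R.mul_mem hr h1) (R.inv_mem hr)
    obtain ⟨q, hq, hqy⟩ := h2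
    have hzk : q⁻¹ * y ∈ π.ker := by
      rw [MonoidHom.mem_ker, map_mul, map_inv, hqy, inv_mul_cancel]
    obtain ⟨m₁, hm₁⟩ := hQ x
    obtain ⟨m₂, hm₂⟩ := hQ ⟨q, hq⟩
    have h3 : y ^ (p ^ m₁) = 1 := by
      have h4 := hy.pow (p ^ m₁)
      have h5 : (x : SpecialLinearGroup K E) ^ (p ^ m₁) = 1 := congrArg Subtype.val hm₁
      rw [h5] at h4
      exact Tw.unique h.1.bij.2 h4 Tw.one
    have h4 : q ^ (p ^ m₂) = 1 := congrArg Subtype.val hm₂
    have h5 : (q⁻¹ * y) ^ (p ^ (m₁ + m₂)) = 1 := by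
      have h6 : Commute q (q⁻¹ * y) := Subgroup.mem_center_iff.mp (hk hzk) q
      have h7 : (q * (q⁻¹ * y)) ^ (p ^ (m₁ + m₂)) = q ^ (p ^ (m₁ + m₂)) *
        (q⁻¹ * y) ^ (p ^ (m₁ + m₂)) := h6.mul_pow _
      have h8 : y ^ (p ^ (m₁ + m₂)) = 1 := by rw [pow_add, pow_mul, h3, one_pow]
      have h9 : q ^ (p ^ (m₁ + m₂)) = 1 := by rw [pow_add, mul_comm, pow_mul, h4, one_pow]
      rw [mul_inv_cancel_left, h8, h9, one_mul] at h7
      exact h7.symm
    have h6 := ker_pow hkp hzk h5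
    have h7 : y = q := by
      have h8 : y = q * (q⁻¹ * y) := by group
      rw [h8, h6, mul_one]
    rw [h7] at hy
    exact ⟨⟨q, hq⟩, hy⟩
  choose φ hφ using key
  refine ⟨φ, Finite.surjective_of_injective fun x x' hxx => Subtype.ext ?_, hφ⟩
  refine SpecialLinearGroup.ext _ _ fun v => h.1.bij.1 ?_
  have h1 := hφ x v
  have h2 := hφ x' v
  rw [h1, h2, hxx]

end

/-- **The corner property for a semilinear action.** -/
theorem cor_semi {k : Type u} [Field k] [IsAlgClosed k] {p : ℕ} [Fact p.Prime] [CharP k p]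
    {G : Type} [Group G] [Finite G] {L R : Subgroup G} {n : ℕ} (hR : IsPGroup p R)
    (hRn : Nat.card R ≤ n) (hn : ∀ x ∈ R, ∀ s ∈ L, x * s * x⁻¹ ∈ L)
    {K E : Type*} [Field K] [Finite K] [AddCommGroup E] [Module K E] [FiniteDimensional K E]
    (π : SpecialLinearGroup K E →* L) (hπ : Function.Surjective π)
    (hk : π.ker ≤ Subgroup.center _) (hp1 : p ∣ Nat.card K - 1) (h2 : 2 ≤ finrank K E)
    (hlt : finrank K E < p) (hact : ∀ r ∈ R, ∃ σ g, Act π r σ g)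
    {e : MonoidAlgebra k G} (he : IsBlockOf L e) (heR : e ∈ Fix (cj k G) R) (hbr : br R e ≠ 0)
    (hz1 : ∃ z ∈ SubAlg k L, z ∈ Fix (cj k G) (L ⊓ R) ∧ e = tr (cj k G) (L ⊓ R) L z)
    (hz2 : ∃ z ∈ SubAlg k L, z ∈ Fix (cj k G) R ∧ e = tr (cj k G) R (L ⊔ R) z) :
    Cor (bO n) L R e := by
  classical
  have hp : p.Prime := Fact.out
  have hfG : Finite (SpecialLinearGroup K E) := finite_sl
  have hq1 : 1 < Nat.card K := Finite.one_lt_card
  have hK : ¬ p ∣ Nat.card K := by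
    intro hd
    have h1 := Nat.dvd_sub hd hp1
    rw [Nat.sub_sub_self hq1.le, Nat.dvd_one] at h1
    exact hp.one_lt.ne' h1
  have hnd : ¬ p ∣ finrank K E := fun h => absurd (Nat.le_of_dvd (by omega) h) (by omega)
  have hkp : ¬ p ∣ Nat.card π.ker := not_dvd_center hnd hk
  have hc : ∀ V ∈ (slSys K E p hp hK).car, (Nat.card V).Coprime (Nat.card π.ker) := by
    rintro _ ⟨F, rfl⟩
    exact coprime_center hk F
  have hQp : IsPGroup p (R.subgroupOf L) := hR.comap_of_injective L.subtype L.subtype_injective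
  obtain ⟨Q₀, hQ₀, hQR⟩ := exists_lift (p := p) π hπ hQp
  have hspan : Submodule.span K (BN.EV Q₀) = ⊤ := span_EV_of_lt hQ₀ hp1 hlt
  have hQ₀ab := comm_of_span hspan
  obtain ⟨ι, hι, b, w, α, N, F, hw, hα, hN, hF, hpair, hC⟩ := exists_pair_data hspan
  have hcard : Fintype.card ι < p := by rw [← finrank_eq_card_basis b]; exact hlt
  -- `|K| - 1`
  obtain ⟨s, N', hpN, hq⟩ : ∃ s N' : ℕ, ¬ p ∣ N' ∧ Nat.card K - 1 = p ^ s * N' :=
    Nat.exists_eq_pow_mul_and_not_dvd (by omega) p hp.ne_one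
  have hs : 0 < s := by
    rw [Nat.pos_iff_ne_zero]
    intro h0
    rw [h0, pow_zero, one_mul] at hq
    rw [hq] at hp1
    exact hpN hp1
  obtain ⟨M₀, hM₀⟩ : ∃ M₀, M₀ = M0 b α Q₀ N' (fun g => (hC g).mp) := ⟨_, rfl⟩
  have hM₀C : ∀ x ∈ M₀, x ∈ Subgroup.centralizer (Q₀ : Set (SpecialLinearGroup K E)) := by
    intro x hx
    rw [hM₀] at hx
    exact hx.1
  have hQab : ∀ x ∈ R.subgroupOf L, ∀ y ∈ R.subgroupOf L, x * y = y * x := by
    rw [← hQR]
    rintro _ ⟨x, hx, rfl⟩ _ ⟨y, hy, rfl⟩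
    rw [← map_mul, ← map_mul, hQ₀ab x hx y hy]
  have hmemM : ∀ x, x ∈ (M₀.map π).map L.subtype ↔ ∃ x₀ ∈ M₀, ((π x₀ : L) : G) = x := by
    intro x
    constructor
    · rintro ⟨_, ⟨x₀, hx₀, rfl⟩, rfl⟩
      exact ⟨x₀, hx₀, rfl⟩
    · rintro ⟨x₀, hx₀, rfl⟩
      exact ⟨_, ⟨x₀, hx₀, rfl⟩, rfl⟩
  -- the elements of `R ∩ L`
  have hlift : ∀ y ∈ R, ∀ hy : y ∈ L, ∃ y₀ ∈ Q₀, ((π y₀ : L) : G) = y := by
    intro y hy hyL
    have h1 : (⟨y, hyL⟩ : L) ∈ Q₀.map π := by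
      rw [hQR]
      exact hy
    obtain ⟨y₀, hy₀, h⟩ := h1
    exact ⟨y₀, hy₀, congrArg Subtype.val h⟩
  have hMQ : ∀ x ∈ (M₀.map π).map L.subtype, ∀ y ∈ R, y ∈ L → y * x = x * y := by
    intro x hx y hy hyL
    obtain ⟨x₀, hx₀, rfl⟩ := (hmemM x).mp hx
    obtain ⟨y₀, hy₀, rfl⟩ := hlift y hy hyL
    have h1 : y₀ * x₀ = x₀ * y₀ := Subgroup.mem_centralizer_iff.mp (hM₀C x₀ hx₀) y₀ hy₀
    have h3 := congrArg (fun t => ((π t : L) : G)) h1
    simp only [map_mul] at h3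
    exact h3
  -- the powers
  have hRpow : ∀ r ∈ R, ∃ m : ℕ, r ^ (p ^ m) = 1 := by
    intro r hr
    obtain ⟨m, hm⟩ := hR ⟨r, hr⟩
    exact ⟨m, congrArg Subtype.val hm⟩
  -- the blocks are preserved
  have hgb : ∀ r ∈ R, ∀ (σ : K ≃+* K) (g : E → E), Act π r σ g →
      ∀ l m, b.repr (g (b l)) m ≠ 0 → α m = α l := by
    intro r hr σ g hg l m hm
    obtain ⟨φ, hφ, hφg⟩ := exists_phi hk hkp hQ₀ hQR hr hg
    obtain ⟨j, hj⟩ := hRpow r hr
    have h1 := wt_fixed b w hw hcard hg.1 φ hφ hφg (m := j) (hg.per hk h2 hj) l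
    rw [hα]
    exact wt_repr b w hw h1 hm
  have hVR : ∀ r ∈ R, ∀ v ∈ ((VF F).map π).map L.subtype,
      r * v * r⁻¹ ∈ ((VF F).map π).map L.subtype := by
    rintro r hr _ ⟨_, ⟨x, hx, rfl⟩, rfl⟩
    obtain ⟨σ, g, hg⟩ := hact r hr
    obtain ⟨y, hy, hxy⟩ := hg.2 x
    exact ⟨π y, ⟨y, VF_semi hF hg.1 (hgb r hr σ g hg) hy hx, rfl⟩, hxy.symm⟩
  have hMR : ∀ r ∈ R, ∀ m ∈ (M₀.map π).map L.subtype, r * m * r⁻¹ ∈ (M₀.map π).map L.subtype := by
    intro r hr m hm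
    obtain ⟨x, hx, rfl⟩ := (hmemM m).mp hm
    obtain ⟨σ, g, hg⟩ := hact r hr
    obtain ⟨y, hy, hxy⟩ := hg.2 x
    refine (hmemM _).mpr ⟨y, ?_, hxy.symm⟩
    obtain ⟨φ, hφ, hφg⟩ := exists_phi hk hkp hQ₀ hQR hr hg
    rw [hM₀] at hx ⊢
    refine ⟨?_, fun i => ?_⟩
    · rw [Subgroup.mem_centralizer_iff]
      intro q hq
      obtain ⟨q', hq'⟩ := hφ ⟨q, hq⟩
      have h3 := hφg q'
      rw [hq'] at h3
      have h4 : (q' : SpecialLinearGroup K E) * x = x * q' :=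
        Subgroup.mem_centralizer_iff.mp hx.1 _ q'.2
      have h5 := h3.mul hy
      have h6 := hy.mul h3
      rw [← h4] at h6
      exact Tw.unique hg.1.bij.2 h5 h6
    · have h3 : bdet b α i (toEnd y) = σ (bdet b α i (toEnd x)) :=
        bdet_semi b α i hg.1 (hgb r hr σ g hg) (X := toEnd x) (Y := toEnd y) hy
      rw [h3, ← map_pow, hx.2 i, map_one]
  have hinf : ∀ x ∈ (M₀.map π).map L.subtype, x ∈ R → x = 1 := by
    intro x hx hxR
    obtain ⟨x₀, hx₀, rfl⟩ := (hmemM x).mp hx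
    obtain ⟨q, hq, hqx⟩ := hlift _ hxR (π x₀).2
    have hqx' : π q = π x₀ := Subtype.ext hqx
    have hzk : q⁻¹ * x₀ ∈ π.ker := by
      rw [MonoidHom.mem_ker, map_mul, map_inv, hqx', inv_mul_cancel]
    obtain ⟨m, hm⟩ := hQ₀ ⟨q, hq⟩
    rw [hM₀] at hx₀
    have h3 := m0_inf hcard hC hw hα hpN hx₀ hq (congrArg Subtype.val hm) (hk hzk) hkp
      (congrArg Subtype.val (pow_card_eq_one' (x := (⟨_, hzk⟩ : π.ker)))) (by group)
    rw [← hqx', h3, map_one]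
    rfl
  -- the maximality of `R ∩ L`
  obtain ⟨f, w', hf, hwL, hwF, hfw, hfR, hbf, hbrf⟩ := exists_stable hR hn hQab he heR hbr hz1
  have hMx : Mx p (R.subgroupOf L) := mx_of_tr hQp hQab hf.ne_zero hf.mem.1 hwF hfw
  have hCe : Ce (R.subgroupOf L) =
      (Subgroup.centralizer (Q₀ : Set (SpecialLinearGroup K E))).map π := by
    rw [← hQR]
    exact centralizer_image π hπ hk hkp hQ₀
  have hcov : ∀ x ∈ L, (∀ y ∈ R, y ∈ L → y * x = x * y) →
      ∃ m ∈ (M₀.map π).map L.subtype, ∃ q ∈ L ⊓ R, x = m * q := by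
    intro x hx hxc
    have h3 : (⟨x, hx⟩ : L) ∈ Ce (R.subgroupOf L) :=
      mem_Ce.mpr fun y hy => Subtype.ext (hxc y hy y.2)
    rw [hCe] at h3
    obtain ⟨x₀, hx₀, hx₀x⟩ := h3
    obtain ⟨m, hm, q, c, hcp, hqb, hxmq⟩ := exists_cov hcard hC hN hq hpN hs hx₀
    have hqC : q ∈ Subgroup.centralizer (Q₀ : Set (SpecialLinearGroup K E)) :=
      (hC q).mpr (bd_diag hqb)
    have hqR : π q ∈ R.subgroupOf L := by
      refine hMx.max _ ?_ ?_ ⟨s, ?_⟩
      · rw [hCe]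
        exact ⟨q, hqC, rfl⟩
      · intro y hy
        rw [hCe] at hy
        obtain ⟨y₀, hy₀, rfl⟩ := hy
        rw [← map_mul, ← map_mul, comm_of_BD (c := fun l => c (α l)) ((hC y₀).mp hy₀) hqb
          fun l m h => by simp only [h]]
      · rw [← map_pow]
        have h4 : q ^ (p ^ s) = 1 := sl_ext b fun l => by
          rw [pow_apply_eigen (hqb l), hcp, one_smul]
          rfl
        rw [h4, map_one]
    refine ⟨(π m : L), (hmemM _).mpr ⟨m, by rw [hM₀]; exact hm, rfl⟩, (π q : L), ⟨(π q).2, hqR⟩, ?_⟩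
    have h4 : π x₀ = π m * π q := by rw [hxmq, map_mul]
    rw [hx₀x] at h4
    exact congrArg Subtype.val h4
  -- the cyclic action
  obtain ⟨c, hcR, hcyc⟩ := exists_cyc (R := R) hact
  obtain ⟨R₂, hR₂⟩ : ∃ R₂, R₂ = R ⊓ (L ⊔ Subgroup.centralizer (L : Set G)) := ⟨_, rfl⟩
  have hLR₂ : L ⊓ R₂ = L ⊓ R := by
    rw [hR₂]
    refine le_antisymm (inf_le_inf_left _ inf_le_left) (le_inf inf_le_left (le_inf inf_le_right ?_))
    exact inf_le_left.trans le_sup_left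
  have hinn : ∀ r ∈ R₂, ∃ q ∈ L ⊓ R₂, ∀ s ∈ L, r * s * r⁻¹ = q * s * q⁻¹ := by
    obtain ⟨c₁, hc₁, hec₁⟩ := exists_coeff_of_br hbr
    obtain ⟨z, hz, hzF, hez⟩ := hz1
    have hc₁L : c₁ ∈ L := he.mem.1 c₁ hec₁
    refine inner_of_coeff (k := k) (p := p) (hR.to_le (by rw [hR₂]; exact inf_le_left)) ?_ (z := z)
      (e := e) (by rw [hLR₂]; exact hzF) (by rw [hLR₂]; exact hez) hc₁L
      (fun r hr => hc₁ r (by rw [hR₂] at hr; exact hr.1)) hec₁
    intro r hr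
    rw [hR₂] at hr
    obtain ⟨s, hs, c, hc, h⟩ := mem_sup_of_commute
      (fun s hs c hc => Subgroup.mem_centralizer_iff.mp hc s hs) hr.2
    exact ⟨s, hs, c, hc, h.symm⟩
  have hcyc' : ∀ r ∈ R, ∃ n : ℤ, ∀ m ∈ (M₀.map π).map L.subtype,
      r * m * r⁻¹ = c ^ n * m * (c ^ n)⁻¹ := by
    intro r hr
    obtain ⟨j, g, hg⟩ := hcyc r hr
    refine ⟨j, fun m hm => ?_⟩
    have hr₁ : (c ^ j)⁻¹ * r ∈ R := R.mul_mem (R.inv_mem (R.zpow_mem hcR j)) hr
    obtain ⟨a, ha⟩ := hRpow _ hr₁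
    obtain ⟨s', hs', c', hc', hrs⟩ := hg.linear hk hπ h2 ha
      (Nat.Coprime.pow_left _ ((Nat.Prime.coprime_iff_not_dvd hp).mpr hnd))
    have hr₂ : (c ^ j)⁻¹ * r ∈ R₂ := by
      rw [hR₂]
      refine ⟨hr₁, ?_⟩
      rw [hrs]
      exact Subgroup.mul_mem_sup hs' hc'
    obtain ⟨q, hq, hrq⟩ := hinn _ hr₂
    have hmL : m ∈ L := by
      obtain ⟨x₀, -, rfl⟩ := (hmemM m).mp hm
      exact (π x₀).2
    have h3 : (c ^ j)⁻¹ * r * m * ((c ^ j)⁻¹ * r)⁻¹ = m := by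
      rw [hrq m hmL]
      rw [hLR₂] at hq
      rw [hMQ m hm q hq.2 hq.1, mul_inv_cancel_right]
    calc r * m * r⁻¹ = c ^ j * ((c ^ j)⁻¹ * r * m * ((c ^ j)⁻¹ * r)⁻¹) * (c ^ j)⁻¹ := by group
      _ = _ := by rw [h3]
  have hQ₀V : IsLeviPair ((VF F).map π) (R.subgroupOf L) := by
    rw [← hQR]
    exact pair_image π hπ hk hkp hQ₀ (hc _ ⟨F, rfl⟩) hpair
  have hML : (M₀.map π).map L.subtype ≤ L := by
    intro x hx
    obtain ⟨x₀, -, rfl⟩ := (hmemM x).mp hx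
    exact (π x₀).2
  exact cor_outer hR hRn hn (imageSys π (slSys K E p hp hK) hπ hk hc)
    (hasLevi_image π hπ hk hkp hc (hasLevi_sl hp hK hp1 hnd)) (V := (VF F).map π)
    ⟨VF F, ⟨F, rfl⟩, rfl⟩ hQ₀V hQab hVR hML hMQ hinf hcov hMR hcR hcyc' he heR hbr hz1 hz2

end Vale.Agent.P180.R2.H799.BS
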