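import Vale.Agent.P180.R2.H799.BNG3
import Vale.Agent.P180.R2.H799.BS13

/-!
P180: the class of the central quotients of special linear groups of dimension less than `p`,
`p ∣ q - 1`, with an arbitrary semilinear action of the `p`-group.
-/

set_option linter.all false

namespace Vale.Agent.P180.R2.H799.BS

open Module Vale.Agent.P180 Vale.Agent.P180.H768.Gd Vale.Agent.P180.R2.H365
  Vale.Agent.P180.R2.H799 Vale.Agent.P180.R2.H954 Vale.Agent.P180.R2.H854

universe u

/-- `L` is a central quotient of the special linear group of `K^d`, `d < p`, `p ∣ |K| - 1`, and the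
elements of `D` which normalise `L` act on `L` by semilinear bijections. -/
def SemiSL (p : ℕ) {G : Type} [Group G] (D L : Subgroup G) : Prop :=
  ∃ (K : Type) (_ : Field K) (_ : Finite K) (d : ℕ)
    (π : SpecialLinearGroup K (Fin d → K) →* L), Function.Surjective π ∧
      π.ker ≤ Subgroup.center _ ∧ p ∣ Nat.card K - 1 ∧ d < p ∧
      ∀ r ∈ D, (∀ s ∈ L, r * s * r⁻¹ ∈ L) →
        ∃ (σ : K ≃+* K) (g : (Fin d → K) → (Fin d → K)), Act π r σ g

/-- the bound -/
def bS (p n : ℕ) : ℕ := bO n + BG.bnC p n

/-- **The corner property** of special linear groups with a semilinear action. -/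
theorem corP_semi {k : Type u} [Field k] [IsAlgClosed k] {p n : ℕ} [Fact p.Prime] [CharP k p]
    {G : Type} [Group G] [Finite G] {D L : Subgroup G} (hD : IsPGroup p D)
    (hDn : Nat.card D ≤ n) (h : SemiSL p D L) (b : MonoidAlgebra k G) :
    H365.CorP p (bS p n) b D L := by
  obtain ⟨K, _, _, d, π, hπ, hk, hp1, hd, hact⟩ := h
  have hfd : finrank K (Fin d → K) = d := by rw [Module.finrank_fin_fun]
  rcases Nat.lt_or_ge d 2 with hd2 | hd2
  · -- the group is trivial
    refine CorP.mono (C := BG.bnC p n) ?_ (Nat.le_add_left _ _)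
    have hsub : ∀ x y : SpecialLinearGroup K (Fin d → K), x = y := by
      have h1 : ∀ x : SpecialLinearGroup K (Fin d → K), x = 1 := by
        intro x
        obtain ⟨μ, hμ⟩ : ∃ μ : K, toEnd x = μ • (1 : End K (Fin d → K)) := by
          rcases Nat.lt_or_ge d 1 with h0 | h0
          · refine ⟨0, LinearMap.ext fun v => ?_⟩
            have h2 : d = 0 := by omega
            subst h2
            exact Subsingleton.elim _ _
          · have h2 : d = 1 := by omega
            subst h2
            obtain ⟨v, hv⟩ : ∃ v : Fin 1 → K, v ≠ 0 := ⟨fun _ => 1, fun h => one_ne_zero (congrFun h 0)⟩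
            have h3 := (finrank_eq_one_iff_of_nonzero' v hv).mp hfd
            obtain ⟨μ, hμ⟩ := h3 (toEnd x v)
            refine ⟨μ, LinearMap.ext fun u => ?_⟩
            obtain ⟨c, rfl⟩ := h3 u
            rw [map_smul, ← hμ, LinearMap.smul_apply, End.one_apply, smul_comm]
        have h2 := det_toEnd x
        rw [hμ, LinearMap.det_smul, hfd] at h2
        have h3 : LinearMap.det (1 : End K (Fin d → K)) = 1 := map_one LinearMap.det
        rw [h3, mul_one] at h2
        have h4 : μ ^ d = 1 := h2
        rcases Nat.lt_or_ge d 1 with h0 | h0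
        · have h5 : d = 0 := by omega
          subst h5
          exact SpecialLinearGroup.ext _ _ fun v => Subsingleton.elim _ _
        · have h5 : d = 1 := by omega
          rw [h5, pow_one] at h4
          rw [h4, one_smul] at hμ
          exact toEnd_injective (hμ.trans toEnd_one.symm)
      intro x y
      rw [h1 x, h1 y]
    refine BG.corP_sl2 hD hDn ⟨K, inferInstance, inferInstance, d, π, hπ, hk, hp1, Or.inl hd⟩ ?_ b
    intro x _
    refine Subgroup.mem_sup_right (Subgroup.mem_centralizer_iff.mpr fun y hy => ?_)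
    obtain ⟨y₀, hy₀⟩ := hπ ⟨y, hy⟩
    rw [hsub y₀ 1, map_one] at hy₀
    have h1 : y = 1 := (congrArg Subtype.val hy₀).symm
    rw [h1, one_mul, mul_one]
  · refine CorP.mono (C := bO n) ?_ (Nat.le_add_right _ _)
    rintro R hRD hn e he heR hbr hz1 hz2
    have hR : IsPGroup p R := hD.to_le hRD
    have hRn : Nat.card R ≤ n := (Subgroup.card_le_of_le hRD).trans hDn
    exact cor_semi hR hRn hn π hπ hk hp1 (by rw [hfd]; exact hd2) (by rw [hfd]; exact hd)
      (fun r hr => hact r (hRD hr) (hn r hr)) he.block heR hbr hz1 hz2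

end Vale.Agent.P180.R2.H799.BS
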