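import Vale.Agent.P180.R2.H799.BS1

/-!
P180: the rank of the primitive idempotents of the fixed algebra of an automorphism of order a
power of `p` of a matrix algebra in characteristic `p`.
-/

set_option linter.all false

namespace Vale.Agent.P180.R2.H799.BS

open Vale.Agent.P180 Vale.Agent.P180.R2.H799

variable {k : Type*} [Field k] {A : Type*} [Ring A] [Algebra k A] {f ε : A}

/-- The automorphism is the conjugation with an element `X` with `X ^ q = f`. -/
theorem MA.inner_pow [IsAlgClosed k] (h : MA k f ε) (x : A ≃ₐ[k] A) (hxf : x f = f) {q : ℕ}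
    (hq : 0 < q) (hx : ∀ y, (⇑x)^[q] y = y) :
    ∃ X Y : A, (∀ a, X * a = x a * X) ∧ X * Y = f ∧ Y * X = f ∧ f * X = X ∧ f * Y = Y ∧
      X ^ q = f := by
  obtain ⟨X, Y, hXa, hXY, hYX, hfX, hfY⟩ := h.inner x hxf
  have hf0 : f ≠ 0 := by
    intro h0
    exact h.ne (by rw [← h.fe, h0, zero_mul])
  have h1 : ∀ (n : ℕ) (y : A), X ^ n * y = (⇑x)^[n] y * X ^ n := by
    intro n
    induction n with
    | zero => intro y; simp
    | succ n ih =>
      intro y
      rw [pow_succ, mul_assoc, hXa, ← mul_assoc, ih, Function.iterate_succ_apply, mul_assoc]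
  have h2 : ∀ n : ℕ, f * X ^ (n + 1) = X ^ (n + 1) := fun n => by
    rw [pow_succ', ← mul_assoc, hfX]
  have h3 : ∀ n : ℕ, X ^ (n + 1) * Y ^ (n + 1) = f := by
    intro n
    induction n with
    | zero => rw [zero_add, pow_one, pow_one, hXY]
    | succ n ih =>
      rw [pow_succ X, pow_succ' Y]
      calc X ^ (n + 1) * X * (Y * Y ^ (n + 1)) = X ^ (n + 1) * (X * Y) * Y ^ (n + 1) := by
            simp only [mul_assoc]
        _ = f * X ^ (n + 1) * Y ^ (n + 1) := by rw [hXY, h.cen]
        _ = f := by rw [h2, ih]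
  obtain ⟨q, rfl⟩ : ∃ n, q = n + 1 := ⟨q - 1, by omega⟩
  obtain ⟨c, hc⟩ := h.center (z := X ^ (q + 1)) (fun y => by rw [h1, hx]) (h2 q)
  have hc0 : c ≠ 0 := by
    rintro rfl
    apply hf0
    rw [← h3 q, hc, zero_smul, zero_mul]
  obtain ⟨d, hd⟩ := IsAlgClosed.exists_pow_nat_eq c (Nat.succ_pos q)
  have hd0 : d ≠ 0 := by
    rintro rfl
    apply hc0
    rw [← hd, zero_pow (Nat.succ_ne_zero q)]
  refine ⟨d⁻¹ • X, d • Y, fun a => ?_, ?_, ?_, ?_, ?_, ?_⟩
  · rw [smul_mul_assoc, hXa, mul_smul_comm]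
  · rw [smul_mul_assoc, mul_smul_comm, smul_smul, inv_mul_cancel₀ hd0, one_smul, hXY]
  · rw [smul_mul_assoc, mul_smul_comm, smul_smul, mul_inv_cancel₀ hd0, one_smul, hYX]
  · rw [mul_smul_comm, hfX]
  · rw [mul_smul_comm, hfY]
  · rw [smul_pow, hc, smul_smul]
    have : d⁻¹ ^ (q + 1) * c = 1 := by
      rw [← hd, ← mul_pow, inv_mul_cancel₀ hd0, one_pow]
    rw [this, one_smul]

/-- **The rank of a primitive idempotent of the fixed algebra.** -/
theorem MA.rank [IsAlgClosed k] [FiniteDimensional k A] {p : ℕ} [Fact p.Prime] [CharP k p]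
    (h : MA k f ε) (x : A ≃ₐ[k] A) (hxf : x f = f) {a : ℕ}
    (hx : ∀ y, (⇑x)^[p ^ a] y = y) {j : A} (hxj : x j = j) (hjj : j * j = j) (hfj : f * j = j)
    (hj0 : j ≠ 0)
    (hprim : ∀ c, x c = c → c * c = c → j * c = c → c * j = c → c = 0 ∨ c = j) :
    Module.finrank k (NN (⊤ : Subalgebra k A) j j) ≤ p ^ a * p ^ a := by
  have hq : 0 < p ^ a := pow_pos (Fact.out : p.Prime).pos a
  obtain ⟨X, Y, hXa, hXY, hYX, hfX, hfY, hXq⟩ := h.inner_pow x hxf hq hx
  have hnt : Nontrivial A := ⟨⟨j, 0, hj0⟩⟩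
  have hcp : CharP A p := charP_of_injective_algebraMap (algebraMap k A).injective p
  have hjf : j * f = j := by rw [← h.cen, hfj]
  -- `N`
  obtain ⟨N, hN⟩ : ∃ N, N = X - f := ⟨_, rfl⟩
  have hXN : X = N + f := by rw [hN, sub_add_cancel]
  have hfN : f * N = N := by rw [hN, mul_sub, hfX, h.ff]
  have hNq : N ^ (p ^ a) = 0 := by
    rw [hN, sub_pow_char_pow_of_commute (p := p) a (show Commute X f from (h.cen X).symm), hXq]
    have h1 : f ^ (p ^ a) = f := by
      obtain ⟨n, hn⟩ : ∃ n, p ^ a = n + 1 := ⟨p ^ a - 1, by omega⟩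
      rw [hn]
      exact (show IsIdempotentElem f from h.ff).pow_succ_eq n
    rw [h1, sub_self]
  have hNj : N * j = j * N := by
    rw [hN, sub_mul, mul_sub, hXa, hxj, hfj, hjf]
  have hNnj : ∀ n, N ^ n * j = j * N ^ n := fun n => (show Commute N j from hNj).pow_left n
  -- `m`
  obtain ⟨m, hmq, hm, hm1⟩ : ∃ m, m < p ^ a ∧ N ^ m * j ≠ 0 ∧ N ^ (m + 1) * j = 0 := by
    classical
    have hex : ∃ n, N ^ n * j = 0 := ⟨p ^ a, by rw [hNq, zero_mul]⟩
    have h1 := Nat.find_spec hex
    have h2 : Nat.find hex ≠ 0 := by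
      intro h0
      rw [h0, pow_zero, one_mul] at h1
      exact hj0 h1
    obtain ⟨m, hm⟩ : ∃ m, Nat.find hex = m + 1 := ⟨Nat.find hex - 1, by omega⟩
    have h3 : Nat.find hex ≤ p ^ a := Nat.find_min' hex (by rw [hNq, zero_mul])
    refine ⟨m, by omega, Nat.find_min hex (by omega), ?_⟩
    rw [← hm]; exact h1
  obtain ⟨a₀, b₀, hab⟩ := h.exists_ne (y := N ^ m * j) (by
    rw [← mul_assoc, h.cen, mul_assoc, hfj]) hm
  obtain ⟨c, hc⟩ := h.one (a₀ * (N ^ m * j) * b₀)
  have hc' : ε * a₀ * (N ^ m * j) * b₀ * ε = c • ε := by rw [← hc]; simp only [mul_assoc]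
  have hc0 : c ≠ 0 := by
    rintro rfl
    rw [zero_smul] at hc'
    exact hab hc'
  obtain ⟨u, hu⟩ : ∃ u, u = j * b₀ * ε := ⟨_, rfl⟩
  obtain ⟨v, hv⟩ : ∃ v, v = c⁻¹ • (ε * a₀ * j) := ⟨_, rfl⟩
  have hue : u * ε = u := by rw [hu, mul_assoc, h.ee]
  have hju : j * u = u := by rw [hu, ← mul_assoc, ← mul_assoc, hjj]
  have hev : ε * v = v := by rw [hv, mul_smul_comm, ← mul_assoc, ← mul_assoc, h.ee]
  have hvj : v * j = v := by rw [hv, smul_mul_assoc, mul_assoc, hjj]
  have hvu : v * N ^ m * u = ε := by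
    rw [hv, hu, smul_mul_assoc, smul_mul_assoc]
    have h1 : ε * a₀ * j * N ^ m * (j * b₀ * ε) = ε * a₀ * (N ^ m * j) * b₀ * ε := by
      calc ε * a₀ * j * N ^ m * (j * b₀ * ε) = ε * a₀ * (j * N ^ m) * j * b₀ * ε := by
            simp only [mul_assoc]
        _ = ε * a₀ * (N ^ m * (j * j)) * b₀ * ε := by rw [← hNnj]; simp only [mul_assoc]
        _ = _ := by rw [hjj]
    rw [h1, hc', smul_smul, inv_mul_cancel₀ hc0, one_smul]
  have hNu : N ^ (m + 1) * u = 0 := by
    rw [← hju, ← mul_assoc, hm1, zero_mul]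
  have hvN : v * N ^ (m + 1) = 0 := by
    rw [← hvj, mul_assoc, ← hNnj, hm1, mul_zero]
  -- the element `P`
  obtain ⟨P, hP⟩ : ∃ P, P = ∑ i ∈ Finset.range (m + 1), N ^ i * u * v * N ^ (m - i) := ⟨_, rfl⟩
  have hNP : N * P = P * N := by
    let g : ℕ → A := fun i => N ^ i * u * v * N ^ (m + 1 - i)
    have h1 : N * P = ∑ i ∈ Finset.range (m + 1), g (i + 1) := by
      rw [hP, Finset.mul_sum]
      refine Finset.sum_congr rfl fun i _ => ?_
      change _ = N ^ (i + 1) * u * v * N ^ (m + 1 - (i + 1))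
      rw [pow_succ', Nat.add_sub_add_right]
      simp only [mul_assoc]
    have h2 : P * N = ∑ i ∈ Finset.range (m + 1), g i := by
      rw [hP, Finset.sum_mul]
      refine Finset.sum_congr rfl fun i hi => ?_
      change _ = N ^ i * u * v * N ^ (m + 1 - i)
      have h3 : m + 1 - i = (m - i) + 1 := by
        have := Finset.mem_range.mp hi
        omega
      rw [h3, pow_succ, ← mul_assoc]
    have h3 := Finset.sum_range_succ g (m + 1)
    have h4 := Finset.sum_range_succ' g (m + 1)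
    have h5 : g 0 = 0 := by
      change N ^ 0 * u * v * N ^ (m + 1 - 0) = 0
      rw [pow_zero, one_mul, Nat.sub_zero, mul_assoc, hvN, mul_zero]
    have h6 : g (m + 1) = 0 := by
      change N ^ (m + 1) * u * v * N ^ (m + 1 - (m + 1)) = 0
      rw [hNu, zero_mul, zero_mul]
    rw [h1, h2]
    rw [h5, add_zero] at h4
    rw [h6, add_zero] at h3
    rw [← h4, h3]
  have hfu : f * u = u := by
    rw [← hju, ← mul_assoc, hfj]
  have hfP : f * P = P := by
    rw [hP, Finset.mul_sum]
    refine Finset.sum_congr rfl fun i _ => ?_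
    calc f * (N ^ i * u * v * N ^ (m - i)) = (f * N ^ i) * u * v * N ^ (m - i) := by
          simp only [mul_assoc]
      _ = N ^ i * (f * u) * v * N ^ (m - i) := by rw [h.cen]; simp only [mul_assoc]
      _ = _ := by rw [hfu]
  have hPf : P * f = P := by rw [← h.cen, hfP]
  have hjP : j * P = P := by
    rw [hP, Finset.mul_sum]
    refine Finset.sum_congr rfl fun i _ => ?_
    calc j * (N ^ i * u * v * N ^ (m - i)) = (j * N ^ i) * u * v * N ^ (m - i) := by
          simp only [mul_assoc]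
      _ = N ^ i * (j * u) * v * N ^ (m - i) := by rw [← hNnj]; simp only [mul_assoc]
      _ = _ := by rw [hju]
  have hPj : P * j = P := by
    rw [hP, Finset.sum_mul]
    refine Finset.sum_congr rfl fun i _ => ?_
    calc N ^ i * u * v * N ^ (m - i) * j = N ^ i * u * (v * (N ^ (m - i) * j)) := by
          simp only [mul_assoc]
      _ = N ^ i * u * ((v * j) * N ^ (m - i)) := by rw [hNnj]; simp only [mul_assoc]
      _ = _ := by rw [hvj]; simp only [mul_assoc]
  have hxP : x P = P := by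
    have h1 : x P * X = P * X := by
      rw [← hXa, hXN, add_mul, mul_add, hNP, h.cen]
    calc x P = x (P * f) := by rw [hPf]
      _ = x P * (X * Y) := by rw [map_mul, hxf, hXY]
      _ = P * (X * Y) := by rw [← mul_assoc, h1, mul_assoc]
      _ = P := by rw [hXY, hPf]
  -- `P` is not nilpotent
  have hcoef : ∀ l : A, ∃ r : k, v * l * u = r • ε := by
    intro l
    obtain ⟨r, hr⟩ := h.one (v * l * u)
    refine ⟨r, ?_⟩
    rw [← hr]
    calc v * l * u = (ε * v) * l * (u * ε) := by rw [hev, hue]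
      _ = _ := by simp only [mul_assoc]
  have hnil : ¬ IsNilpotent P := by
    choose r hr using fun i : ℕ => hcoef (N ^ (m - (i + 1)))
    obtain ⟨W, hW⟩ : ∃ W, W = ∑ i ∈ Finset.range m, r i • N ^ i := ⟨_, rfl⟩
    have hWN : W * N = N * W := by
      rw [hW, Finset.sum_mul, Finset.mul_sum]
      refine Finset.sum_congr rfl fun i _ => ?_
      rw [smul_mul_assoc, mul_smul_comm, ← pow_succ, ← pow_succ']
    have hPu : P * u = (1 + N * W) * u := by
      have h1 : P * u = ∑ i ∈ Finset.range (m + 1), N ^ i * u * (v * N ^ (m - i) * u) := by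
        rw [hP, Finset.sum_mul]
        exact Finset.sum_congr rfl fun i _ => by simp only [mul_assoc]
      rw [h1, Finset.sum_range_succ', pow_zero, one_mul, Nat.sub_zero, hvu, hue, add_mul, one_mul,
        add_comm, hW, Finset.mul_sum, Finset.sum_mul]
      congr 1
      refine Finset.sum_congr rfl fun i _ => ?_
      rw [hr, mul_smul_comm, mul_assoc (N ^ (i + 1)), hue, mul_smul_comm, smul_mul_assoc, pow_succ']
    have hPU : P * (1 + N * W) = (1 + N * W) * P := by
      have h1 : Commute P N := hNP.symm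
      have h2 : Commute P W := by
        rw [hW]
        exact Commute.sum_right _ _ _ fun i _ => (h1.pow_right i).smul_right (r i)
      exact (Commute.one_right P).add_right (h1.mul_right h2)
    have hPn : ∀ n : ℕ, P ^ n * u = (1 + N * W) ^ n * u := by
      intro n
      induction n with
      | zero => rw [pow_zero, pow_zero]
      | succ n ih =>
        rw [pow_succ', mul_assoc, ih]
        have h1 : P * (1 + N * W) ^ n = (1 + N * W) ^ n * P :=
          (show Commute P (1 + N * W) from hPU).pow_right n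
        rw [← mul_assoc, h1, mul_assoc, hPu, ← mul_assoc, ← pow_succ]
    rintro ⟨n, hn⟩
    have h1 : IsNilpotent (N * W) :=
      (show Commute N W from hWN.symm).isNilpotent_mul_right ⟨_, hNq⟩
    have h2 : IsUnit ((1 + N * W) ^ n) := (h1.isUnit_one_add).pow n
    have h3 : (1 + N * W) ^ n * u = 0 := by rw [← hPn, hn, zero_mul]
    have h4 : u = 0 := by
      obtain ⟨w, hw⟩ := h2
      rw [← hw] at h3
      exact (Units.mul_right_eq_zero w).mp h3
    apply h.ne
    rw [← hvu, h4, mul_zero]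
  -- `P` is invertible
  have hloc : Loc (AlgHom.equalizer (x : A →ₐ[k] A) (AlgHom.id k A)) j :=
    loc_of_prim (S := AlgHom.equalizer (x : A →ₐ[k] A) (AlgHom.id k A)) hxj hjj
      (fun c hc hcc h1 h2 => hprim c hc hcc h1 h2)
  rcases hloc P hxP hjP hPj with h1 | ⟨y, -, hjy, hyj, hPy, hyP⟩
  · exact absurd h1 hnil
  let b : Fin (m + 1) × Fin (m + 1) → A := fun t => N ^ (t.1 : ℕ) * u * v * N ^ (m - (t.2 : ℕ))
  have hle : NN (⊤ : Subalgebra k A) j j ≤ Submodule.span k (Set.range b) := by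
    rintro z ⟨-, hjz, hzj⟩
    have h1 : z = P * (y * z * y) * P := by
      calc z = j * z * j := by rw [hjz, hzj]
        _ = (P * y) * z * (y * P) := by rw [hPy, hyP]
        _ = _ := by simp only [mul_assoc]
    have h2 : P * (y * z * y) * P = ∑ i ∈ Finset.range (m + 1), ∑ l ∈ Finset.range (m + 1),
        N ^ i * u * (v * (N ^ (m - i) * (y * z * y) * N ^ l) * u) * v * N ^ (m - l) := by
      rw [hP, Finset.sum_mul, Finset.sum_mul]
      refine Finset.sum_congr rfl fun i _ => ?_
      rw [Finset.mul_sum]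
      exact Finset.sum_congr rfl fun l _ => by simp only [mul_assoc]
    rw [h1, h2]
    refine Submodule.sum_mem _ fun i hi => Submodule.sum_mem _ fun l hl => ?_
    obtain ⟨r, hr⟩ := hcoef (N ^ (m - i) * (y * z * y) * N ^ l)
    rw [hr, mul_smul_comm, smul_mul_assoc, smul_mul_assoc, mul_assoc (N ^ i), hue]
    exact Submodule.smul_mem _ r (Submodule.subset_span
      ⟨(⟨i, Finset.mem_range.mp hi⟩, ⟨l, Finset.mem_range.mp hl⟩), rfl⟩)
  calc Module.finrank k (NN (⊤ : Subalgebra k A) j j)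
      ≤ Module.finrank k (Submodule.span k (Set.range b)) := Submodule.finrank_mono hle
    _ ≤ Fintype.card (Fin (m + 1) × Fin (m + 1)) := finrank_range_le_card b
    _ = (m + 1) * (m + 1) := by rw [Fintype.card_prod, Fintype.card_fin]
    _ ≤ _ := Nat.mul_le_mul hmq hmq

end Vale.Agent.P180.R2.H799.BS
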