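import Vale.Agent.P180.R2.H799.BN6

/-!
P180: the corner at `j av(V)` in a group with a parabolic system.
-/

set_option linter.all false

namespace Vale.Agent.P180.R2.H799.BN

open Vale.Agent.P180 Vale.Agent.P180.H768.Gd Vale.Agent.P180.R2.H799 Vale.Agent.P180.R2.H365

universe u

variable {k : Type u} [Field k] {p : ℕ} [Fact p.Prime] [CharP k p] {G : Type} [Group G] [Finite G]

/-- **The corner at `j av(V)`**, for an idempotent `j` below a cuspidal block `f` of `C(Q)`. -/
theorem corner_av (𝒮 : ParSys p G) {V Q : Subgroup G} (hV : V ∈ 𝒮.car) (hL : Lv V Q)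
    (hMx : Mx p Q) {f j : MonoidAlgebra k G} (hf : IsBlockOf (Ce Q) f)
    (hcusp : ∀ W ∈ 𝒮.car, V ≤ W → Nm W ≤ Nm V → (∃ x ∈ W, x ∉ V) → f * av k W = 0)
    (hjL : j ∈ SubAlg k (Ce Q)) (hjj : j * j = j) (hfj : f * j = j)
    (hfull : f ∈ Submodule.span k
      {z | ∃ x ∈ SubAlg k (Ce Q), ∃ y ∈ SubAlg k (Ce Q), z = x * j * y}) :
    Module.finrank k (NN (⊤ : Subalgebra k (MonoidAlgebra k G)) (j * av k V) (j * av k V)) ≤
      (Ce Q).relIndex (Nm Q) * (Module.finrank k (NN (SubAlg k (Ce Q)) j j) *
        Module.finrank k (NN (SubAlg k (Ce Q)) j j)) := by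
  classical
  have hfin : FiniteDimensional k (MonoidAlgebra k G) :=
    Module.Finite.equiv (MonoidAlgebra.coeffLinearEquiv k (M := G) (S := k)).symm
  have hpV := 𝒮.card V hV
  have hfF : f ∈ Fix (cj k G) (Ce Q) := hf.mem.2
  have hfL : f ∈ SubAlg k (Ce Q) := hf.mem.1
  have hjf : j * f = j := by rw [commute_of_mem hjL hfF, hfj]
  -- the idempotent `F`
  set ε := av k V with hε
  have hεε : ε * ε = ε := av_idem (card_ne (p := p) hpV)
  have hεL : ∀ x ∈ SubAlg k (Ce Q), x * ε = ε * x := fun x hx => av_comm hL.le hx
  set F := j * ε with hF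
  have hFF : F * F = F := by
    calc j * ε * (j * ε) = j * (ε * j) * ε := by simp only [mul_assoc]
      _ = (j * j) * (ε * ε) := by rw [← hεL j hjL]; simp only [mul_assoc]
      _ = F := by rw [hjj, hεε]
  have hF2 : F = ε * j := hεL j hjL
  have hcover : NN (⊤ : Subalgebra k (MonoidAlgebra k G)) F F ≤
      (NN (SubAlg k (Nm Q)) j j).map ((LinearMap.mulLeft k ε).comp (LinearMap.mulRight k ε)) := by
    have key : ∀ y : MonoidAlgebra k G, F * y * F ∈
        (NN (SubAlg k (Nm Q)) j j).map ((LinearMap.mulLeft k ε).comp (LinearMap.mulRight k ε)) := by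
      intro y
      induction y using MonoidAlgebra.induction_linear with
      | zero => rw [mul_zero, zero_mul]; exact zero_mem _
      | add y z hy hz => rw [mul_add, add_mul]; exact add_mem hy hz
      | single g r =>
        have hr : MonoidAlgebra.single g r = r • MonoidAlgebra.single g (1 : k) := by
          rw [MonoidAlgebra.smul_single, smul_eq_mul, mul_one]
        rw [hr, mul_smul_comm, smul_mul_assoc]
        refine Submodule.smul_mem _ r ?_
        -- the enlargement of `V`
        have hstar : ∀ g : G, V ⊔ (Nm V ⊓ conjS g V) ∈ 𝒮.car ∧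
            Nm (V ⊔ (Nm V ⊓ conjS g V)) = V ⊔ (Nm V ⊓ Nm (conjS g V)) := fun g =>
          ⟨𝒮.star V hV _ (𝒮.conj V hV g), 𝒮.norm V hV _ (𝒮.conj V hV g)⟩
        have hzero : ∀ g : G, (∃ x ∈ Nm V, x ∈ conjS g V ∧ x ∉ V) →
            f * av k (V ⊔ (Nm V ⊓ conjS g V)) = 0 := by
          rintro g ⟨x, hxN, hxg, hxV⟩
          refine hcusp _ (hstar g).1 le_sup_left ?_ ⟨x, Subgroup.mem_sup_right ⟨hxN, hxg⟩, hxV⟩
          rw [(hstar g).2]
          exact sup_le (le_Nm V) inf_le_left
        have hcardg : ∀ g : G, ¬ p ∣ Nat.card (conjS g V) := fun g => 𝒮.card _ (𝒮.conj V hV g)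
        have hav : ∀ g : G, av k V * av k (Nm V ⊓ conjS g V) = av k (V ⊔ (Nm V ⊓ conjS g V)) := by
          intro g
          exact av_sup (card_ne (p := p) hpV)
            (card_ne (p := p) (card_le_ne inf_le_right (hcardg g)))
            (card_ne (p := p) (𝒮.card _ (hstar g).1)) inf_le_left le_sup_left le_sup_right
            fun w hw => mem_sup_Nm inf_le_left hw
        have hav' : ∀ g : G, av k (Nm V ⊓ conjS g V) * av k V =
            av k (V ⊔ (Nm V ⊓ conjS g V)) := by
          intro g
          exact av_sup' (card_ne (p := p) hpV)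
            (card_ne (p := p) (card_le_ne inf_le_right (hcardg g)))
            (card_ne (p := p) (𝒮.card _ (hstar g).1)) inf_le_left le_sup_left le_sup_right
            fun w hw => mem_sup_Nm inf_le_left hw
        have hgav : MonoidAlgebra.single g (1 : k) * av k V =
            av k (conjS g V) * MonoidAlgebra.single g 1 := single_mul_av V g
        by_cases h1 : ∀ x ∈ Nm V, x ∈ conjS g V → x ∈ V
        swap
        · push Not at h1
          have h2 := hzero g h1
          have h3 : av k (Nm V ⊓ conjS g V) * av k (conjS g V) = av k (conjS g V) :=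
            av_le_left (card_ne (p := p) (card_le_ne inf_le_right (hcardg g))) inf_le_right
          have h4 : F * MonoidAlgebra.single g 1 * F = 0 := by
            calc F * MonoidAlgebra.single g 1 * F
                = j * ε * MonoidAlgebra.single g 1 * (ε * j) := by rw [← hF2, ← hF]
              _ = j * av k V * (MonoidAlgebra.single g 1 * av k V) * j := by
                  rw [hε]; simp only [mul_assoc]
              _ = (j * f) * (av k V * av k (Nm V ⊓ conjS g V)) * av k (conjS g V) *
                  MonoidAlgebra.single g 1 * j := by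
                  rw [hgav, hjf]
                  conv_lhs => rw [← h3]
                  simp only [mul_assoc]
              _ = j * (f * av k (V ⊔ (Nm V ⊓ conjS g V))) * av k (conjS g V) *
                  MonoidAlgebra.single g 1 * j := by rw [hav]; simp only [mul_assoc]
              _ = 0 := by rw [h2]; simp
          rw [h4]; exact zero_mem _
        by_cases h2 : ∀ x ∈ Nm (conjS g V), x ∈ V → x ∈ conjS g V
        swap
        · push Not at h2
          obtain ⟨x, hxN, hxW, hxg⟩ := h2
          have h3 := hzero g⁻¹ ⟨g⁻¹ * x * g, mem_Nm_conjS.mp hxN, by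
            rw [mem_conjS, inv_inv]
            have e1 : g * (g⁻¹ * x * g) * g⁻¹ = x := by group
            rw [e1]; exact hxW, fun h => hxg (mem_conjS.mpr h)⟩
          have h4 : av k (conjS g⁻¹ V) * av k (Nm V ⊓ conjS g⁻¹ V) = av k (conjS g⁻¹ V) :=
            av_le_right (card_ne (p := p) (card_le_ne inf_le_right (hcardg g⁻¹))) inf_le_right
          have h5 : av k V * MonoidAlgebra.single g (1 : k) =
              MonoidAlgebra.single g 1 * av k (conjS g⁻¹ V) := by
            rw [single_mul_av]
            congr 1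
            congr 1
            ext y
            rw [mem_conjS, mem_conjS, inv_inv]
            have e1 : g * (g⁻¹ * y * g) * g⁻¹ = y := by group
            rw [e1]
          have hW' : V ⊔ (Nm V ⊓ conjS g⁻¹ V) ≤ Nm V := sup_le (le_Nm V) inf_le_left
          have h6 := av_comm_W (k := k) (p := p) hL le_sup_left hW'
            (𝒮.card _ (hstar g⁻¹).1) hfL hfF
          have h7 : F * MonoidAlgebra.single g 1 * F = 0 := by
            calc F * MonoidAlgebra.single g 1 * F
                = j * ε * MonoidAlgebra.single g 1 * (ε * j) := by rw [← hF2, ← hF]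
              _ = j * (av k V * MonoidAlgebra.single g 1) * (av k V * j) := by
                  rw [hε]; simp only [mul_assoc]
              _ = j * MonoidAlgebra.single g 1 *
                  (av k (conjS g⁻¹ V) * av k (Nm V ⊓ conjS g⁻¹ V)) * (av k V * (f * j)) := by
                  rw [h5, h4, hfj]; simp only [mul_assoc]
              _ = j * MonoidAlgebra.single g 1 * av k (conjS g⁻¹ V) *
                  ((av k (Nm V ⊓ conjS g⁻¹ V) * av k V) * f) * j := by simp only [mul_assoc]
              _ = 0 := by rw [hav', ← h6, h3]; simp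
          rw [h7]; exact zero_mem _
        -- the associate case
        have hc1 : ∀ x ∈ Nm V, ∃ v ∈ V, v * x ∈ Nm (conjS g V) := by
          intro x hx
          have h3 : V ⊔ (Nm V ⊓ conjS g V) = V :=
            sup_eq_left.mpr fun y hy => h1 y hy.1 hy.2
          have h4 := (hstar g).2
          rw [h3] at h4
          rw [h4] at hx
          obtain ⟨v, hv, y, hy, rfl⟩ := mem_sup_Nm inf_le_left hx
          exact ⟨v⁻¹, V.inv_mem hv, by rw [inv_mul_cancel_left]; exact hy.2⟩
        have hc2 : ∀ x ∈ Nm (conjS g V), ∃ v ∈ conjS g V, v * x ∈ Nm V := by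
          intro x hx
          have h3 : conjS g V ⊔ (Nm (conjS g V) ⊓ V) = conjS g V :=
            sup_eq_left.mpr fun y hy => h2 y hy.1 hy.2
          have h4 := 𝒮.norm _ (𝒮.conj V hV g) V hV
          change Nm (conjS g V ⊔ (Nm (conjS g V) ⊓ V)) =
            conjS g V ⊔ (Nm (conjS g V) ⊓ Nm V) at h4
          rw [h3] at h4
          rw [h4] at hx
          obtain ⟨v, hv, y, hy, rfl⟩ := mem_sup_Nm inf_le_left hx
          exact ⟨v⁻¹, (conjS g V).inv_mem hv, by rw [inv_mul_cancel_left]; exact hy.2⟩
        obtain ⟨v, hv, v', hv', m, hm, hgm⟩ := assoc hpV hL hMx h1 h2 hc1 hc2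
        refine ⟨j * MonoidAlgebra.single m 1 * j, ⟨?_, ?_, ?_⟩, ?_⟩
        · exact Subalgebra.mul_mem _ (Subalgebra.mul_mem _ (SubAlg_mono (Ce_le_Nm Q) hjL)
            (single_mem_SubAlg hm 1)) (SubAlg_mono (Ce_le_Nm Q) hjL)
        · rw [← mul_assoc, ← mul_assoc, hjj]
        · rw [mul_assoc, hjj]
        · change ε * (j * MonoidAlgebra.single m 1 * j * ε) = F * MonoidAlgebra.single g 1 * F
          have e1 : MonoidAlgebra.single g (1 : k) = MonoidAlgebra.single v 1 *
              MonoidAlgebra.single m 1 * MonoidAlgebra.single v' 1 := by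
            rw [MonoidAlgebra.single_mul_single, MonoidAlgebra.single_mul_single, one_mul, one_mul,
              ← hgm]
          rw [e1]
          calc ε * (j * MonoidAlgebra.single m 1 * j * ε)
              = (ε * j) * MonoidAlgebra.single m 1 * (j * ε) := by simp only [mul_assoc]
            _ = j * ε * MonoidAlgebra.single m 1 * (ε * j) := by
                rw [← hεL j hjL]
            _ = j * (ε * MonoidAlgebra.single v 1) * MonoidAlgebra.single m 1 *
                ((MonoidAlgebra.single v' 1 * ε) * j) := by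
                rw [hε, av_right V hv, av_left V hv']
            _ = (j * ε) * (MonoidAlgebra.single v 1 * MonoidAlgebra.single m 1 *
                MonoidAlgebra.single v' 1) * (ε * j) := by simp only [mul_assoc]
            _ = _ := by rw [← hεL j hjL]
    intro x hx
    have h1 := key x
    rwa [hx.2.1, hx.2.2] at h1
  have hN : Module.finrank k (NN (SubAlg k (Nm Q)) j j) ≤
      (Ce Q).relIndex (Nm Q) * (Module.finrank k (NN (SubAlg k (Ce Q)) j j) *
        Module.finrank k (NN (SubAlg k (Ce Q)) j j)) := by
    refine corner_N (e := f) (Ce_le_Nm Q) (fun t ht c hc => conj_mem_Ce ht hc) hf.idem.eq hf.mem hjj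
      hjL hfj hfull ?_
    · intro t ht
      refine block_dich (fun n => ⟨fun hn => conj_mem_Ce ht hn, fun hn => ?_⟩) hf
      have h1 := conj_mem_Ce ((Nm Q).inv_mem ht) hn
      have e1 : t⁻¹ * (t * n * t⁻¹) * t⁻¹⁻¹ = n := by group
      rwa [e1] at h1
  calc Module.finrank k (NN (⊤ : Subalgebra k (MonoidAlgebra k G)) F F)
      ≤ Module.finrank k ((NN (SubAlg k (Nm Q)) j j).map
          ((LinearMap.mulLeft k ε).comp (LinearMap.mulRight k ε))) :=
        Submodule.finrank_mono hcover
    _ ≤ Module.finrank k (NN (SubAlg k (Nm Q)) j j) := Submodule.finrank_map_le _ _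
    _ ≤ _ := hN

end Vale.Agent.P180.R2.H799.BN
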