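import Vale.Agent.P180.R2.H799.BS2
import Vale.Agent.P180.R2.H259.Desc

/-!
P180: a block of a subgroup stable under a `p`-group and not killed by the Brauer homomorphism.
-/

set_option linter.all false

namespace Vale.Agent.P180.R2.H799.BS

open Vale.Agent.P180 Vale.Agent.P180.H768.Gd Vale.Agent.P180.R2.H365 Vale.Agent.P180.R2.H799

variable {k : Type*} [Field k] {p : ℕ} [Fact p.Prime] [CharP k p] {G : Type*} [Group G] [Finite G]

/-- An `R`-stable block which is not killed by the Brauer homomorphism. -/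
theorem exists_stable_block {N R : Subgroup G} (hR : IsPGroup p R)
    (hn : ∀ r ∈ R, ∀ x, x ∈ N ↔ r * x * r⁻¹ ∈ N) {b : MonoidAlgebra k G} (hb : b ∈ ZAlg k N)
    (hbR : b ∈ Fix (cj k G) R) (hbb : b * b = b) (hbr : br R b ≠ 0) :
    ∃ f, IsBlockOf N f ∧ f ∈ Fix (cj k G) R ∧ b * f = f ∧ br R f ≠ 0 := by
  classical
  have hfin : FiniteDimensional k (MonoidAlgebra k G) :=
    Module.Finite.equiv (MonoidAlgebra.coeffLinearEquiv k (M := G) (S := k)).symm
  have hcomm : ∀ x ∈ ZAlg k N ⊓ Fix (cj k G) R, ∀ y ∈ ZAlg k N ⊓ Fix (cj k G) R,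
      x * y = y * x := fun x hx y hy => (by exact ZAlg_comm x hx.1 y hy.1)
  obtain ⟨g, hg, hbg⟩ := H259.exists_isPrimIn' (ZAlg k N ⊓ Fix (cj k G) R) hcomm
    (fun f => br R (b * f) ≠ 0) (by rwa [mul_one]) (by
      rw [mul_zero]
      exact fun h => h (br_self (Subalgebra.zero_mem _))) (by
      intro f c hf
      by_contra hcon
      push Not at hcon
      apply hf
      have h1 : b * f = b * c + b * (f - c) := by rw [mul_sub, add_sub_cancel]
      rw [h1, br_add, hcon.1, hcon.2, add_zero])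
  have hbg0 : b * g ≠ 0 := by
    intro h0
    apply hbg
    rw [h0]
    exact br_self (Subalgebra.zero_mem _)
  have hgZ : g ∈ ZAlg k N := hg.mem.1
  have hbgc : b * g = g * b := (by exact ZAlg_comm b hb g hgZ)
  have hbge : b * g = g := by
    rcases hg.primitive (b * g) (Subalgebra.mul_mem _ ⟨hb, hbR⟩ hg.mem) (by
      change b * g * (b * g) = b * g
      calc b * g * (b * g) = b * (g * b) * g := by simp only [mul_assoc]
        _ = (b * b) * (g * g) := by rw [← hbgc]; simp only [mul_assoc]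
        _ = _ := by rw [hbb, hg.idem.eq]) (by rw [mul_assoc, hg.idem.eq]) with h | h
    · exact absurd h hbg0
    · exact h
  obtain ⟨f₀, hf₀, hgf⟩ := exists_isPrimIn (ZAlg k N) (by exact ZAlg_comm) hg.ne_zero
  have hf₀' : IsBlockOf N f₀ := hf₀
  have hgfc : g * f₀ = f₀ * g := (by exact ZAlg_comm g hgZ f₀ hf₀.mem)
  have hgf' : g * f₀ = f₀ := by
    rcases hf₀.primitive (g * f₀) (Subalgebra.mul_mem _ hgZ hf₀.mem) (by
      change g * f₀ * (g * f₀) = g * f₀
      calc g * f₀ * (g * f₀) = g * (f₀ * g) * f₀ := by simp only [mul_assoc]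
        _ = (g * g) * (f₀ * f₀) := by rw [← hgfc]; simp only [mul_assoc]
        _ = _ := by rw [hg.idem.eq, hf₀.idem.eq]) (by rw [mul_assoc, hf₀.idem.eq]) with h | h
    · exact absurd h hgf
    · exact h
  let R₀ : Subgroup G := R ⊓ stabE f₀
  have hR₀ : R₀ ≤ R := inf_le_left
  have hf₀R : f₀ ∈ Fix (cj k G) R₀ := fun r hr => hr.2
  by_cases hRR : R₀ = R
  · have h1 : f₀ ∈ Fix (cj k G) R := hRR ▸ hf₀R
    rcases hg.primitive f₀ ⟨hf₀.mem, h1⟩ hf₀.idem (by rw [← hgfc, hgf']) with h | h
    · exact absurd h hf₀.ne_zero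
    · refine ⟨f₀, hf₀', h1, by rw [h, hbge], ?_⟩
      rw [h, ← hbge]
      exact hbg
  · exfalso
    have _ := Fintype.ofFinite (R ⧸ R₀.subgroupOf R)
    obtain ⟨T, hT⟩ : ∃ T, T = tr (cj k G) R₀ R f₀ := ⟨_, rfl⟩
    have hTR : T ∈ Fix (cj k G) R := by rw [hT]; exact tr_mem_Fix hf₀R
    have hTs : T = ∑ q : R ⧸ R₀.subgroupOf R, cj k G ((q.out : R) : G) f₀ := by rw [hT, tr_def]
    have hblk : ∀ q : R ⧸ R₀.subgroupOf R, IsBlockOf N (cj k G ((q.out : R) : G) f₀) := fun q =>
      isBlockOf_conj (hn _ (q.out : R).2) hf₀'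
    have hTZ : T ∈ ZAlg k N := by
      rw [hTs]
      exact Subalgebra.sum_mem _ fun q _ => (hblk q).mem
    have horth : ∀ q q' : R ⧸ R₀.subgroupOf R, q ≠ q' →
        cj k G ((q.out : R) : G) f₀ * cj k G ((q'.out : R) : G) f₀ = 0 := by
      intro q q' hqq
      rcases IsPrimIn.eq_or_mul_eq_zero (by exact ZAlg_comm) (hblk q) (hblk q') with h | h
      · exfalso
        apply hqq
        rw [← QuotientGroup.out_eq' q, ← QuotientGroup.out_eq' q', QuotientGroup.eq,
          Subgroup.mem_subgroupOf]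
        refine ⟨?_, ?_⟩
        · exact (((q.out : R)⁻¹ * q'.out : R)).2
        · change cj k G ((((q.out : R)⁻¹ * q'.out : R)) : G) f₀ = f₀
          rw [Subgroup.coe_mul, Subgroup.coe_inv, map_mul_act, ← h, map_inv_act]
      · exact h
    have hTT : IsIdempotentElem T := by
      change T * T = T
      rw [hTs, Finset.sum_mul_sum]
      refine Finset.sum_congr rfl fun q _ => ?_
      rw [Finset.sum_eq_single q]
      · rw [← map_mul, hf₀.idem.eq]
      · intro q' _ hne
        exact horth q q' (Ne.symm hne)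
      · intro h
        exact absurd (Finset.mem_univ q) h
    have hTg : T * g = T := by
      rw [hTs, Finset.sum_mul]
      refine Finset.sum_congr rfl fun q _ => ?_
      have h1 : cj k G ((q.out : R) : G) g = g := hg.mem.2 _ (q.out : R).2
      conv_lhs => rw [← h1]
      rw [← map_mul, ← hgfc, hgf']
    rcases hg.primitive T ⟨hTZ, hTR⟩ hTT hTg with h | h
    · -- `T f₀ = f₀`
      let q₀ : R ⧸ R₀.subgroupOf R := ((1 : R) : R ⧸ R₀.subgroupOf R)
      have h1 : cj k G ((q₀.out : R) : G) f₀ = f₀ := by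
        have h2 : (1 : R)⁻¹ * q₀.out ∈ R₀.subgroupOf R := by
          rw [← QuotientGroup.eq, QuotientGroup.out_eq']
        rw [inv_one, one_mul] at h2
        exact hf₀R _ (Subgroup.mem_subgroupOf.mp h2)
      have h2 : T * f₀ = f₀ := by
        rw [hTs, Finset.sum_mul, Finset.sum_eq_single q₀]
        · rw [h1, hf₀.idem.eq]
        · intro q _ hne
          have h3 := horth q q₀ hne
          rwa [h1] at h3
        · intro h
          exact absurd (Finset.mem_univ q₀) h
      apply hf₀.ne_zero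
      rw [← h2, h, zero_mul]
    · apply hbg
      rw [hbge, ← h, hT]
      exact br_tr_eq_zero hR hR₀ hRR

end Vale.Agent.P180.R2.H799.BS
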