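import Vale.Agent.P180.R2.H799.BS4
import Vale.Agent.P180.R2.H799.BN6

/-!
P180: blocks of direct products `M × Q`, `Q` a `p`-group; blocks of defect zero.
-/

set_option linter.all false

namespace Vale.Agent.P180.R2.H799.BS

open Vale.Agent.P180 Vale.Agent.P180.H768.Gd Vale.Agent.P180.R2.H365 Vale.Agent.P180.R2.H799
open Vale.Agent.P180.R2.H259.Cyc (PrimIn)

universe u

section Split

variable {k : Type*} [Field k] {p : ℕ} [Fact p.Prime] [CharP k p] {H : Type*} [Group H] [Finite H]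

/-- the projection to the first factor -/
noncomputable def th (k : Type*) [Field k] (ρ : H →* H) : MonoidAlgebra k H →ₐ[k] MonoidAlgebra k H :=
  MonoidAlgebra.mapDomainAlgHom k k ρ

omit [Finite H] in
theorem th_single (ρ : H →* H) (h : H) (c : k) :
    th k ρ (MonoidAlgebra.single h c) = MonoidAlgebra.single (ρ h) c := by
  change MonoidAlgebra.mapDomain ρ (MonoidAlgebra.single h c) = _
  exact MonoidAlgebra.mapDomain_single

theorem th_mem {ρ : H →* H} {M : Subgroup H} (hρ : ∀ x, ρ x ∈ M) (a : MonoidAlgebra k H) :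
    th k ρ a ∈ SubAlg k M := by
  induction a using MonoidAlgebra.induction_linear with
  | zero => rw [map_zero]; exact Subalgebra.zero_mem _
  | add x y hx hy => rw [map_add]; exact Subalgebra.add_mem _ hx hy
  | single h c =>
    rw [th_single]
    exact single_mem_SubAlg (hρ h) c

theorem qmap_th {ρ : H →* H} {Q : Subgroup H} [Q.Normal] (hρ : ∀ x, (ρ x)⁻¹ * x ∈ Q)
    (a : MonoidAlgebra k H) : KP.qmap k Q (th k ρ a) = KP.qmap k Q a := by
  induction a using MonoidAlgebra.induction_linear with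
  | zero => rw [map_zero]
  | add x y hx hy => rw [map_add, map_add, map_add, hx, hy]
  | single h c =>
    rw [th_single, KP.qmap_single, KP.qmap_single]
    congr 1
    exact QuotientGroup.eq.mpr (hρ h)

/-- **Blocks of a direct product** with a `p`-group. -/
theorem mem_of_split {ρ : H →* H} {M Q : Subgroup H} [Q.Normal] (hQ : IsPGroup p Q)
    (hQc : ∀ q ∈ Q, ∀ x : H, q * x = x * q) (hρM : ∀ x, ρ x ∈ M) (hρQ : ∀ x, (ρ x)⁻¹ * x ∈ Q)
    {f : MonoidAlgebra k H} (hf : f ∈ ZAlg k (⊤ : Subgroup H)) (hff : f * f = f) :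
    th k ρ f = f := by
  obtain ⟨g, hg⟩ : ∃ g, g = th k ρ f := ⟨_, rfl⟩
  have hgg : g * g = g := by rw [hg, ← map_mul, hff]
  have hfc : ∀ x, f * x = x * f := fun x => (commute_of_mem (SubAlg_top x) hf.2).symm
  have hq : KP.qmap k Q g = KP.qmap k Q f := by rw [hg]; exact qmap_th hρQ f
  have hqf : KP.qmap k Q f * KP.qmap k Q f = KP.qmap k Q f := by rw [← map_mul, hff]
  have hC : ∀ c ∈ (⊤ : Subgroup H), ∀ y ∈ Q, y * c = c * y := fun c _ y hy => hQc y hy c
  have h1 : f - f * g = 0 := by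
    refine ker_idem (Y := Q) hQ hC (SubAlg_top _) ?_ ?_
    · rw [sub_mul, mul_sub, mul_sub, hff]
      have e1 : f * (f * g) = f * g := by rw [← mul_assoc, hff]
      have e2 : f * g * f = f * g := by rw [mul_assoc, ← hfc, e1]
      have e3 : f * g * (f * g) = f * g := by
        rw [← mul_assoc, e2, mul_assoc, hgg]
      rw [e1, e2, e3, sub_self, sub_zero]
    · rw [map_sub, map_mul, hq, hqf, sub_self]
  have h2 : g - g * f = 0 := by
    refine ker_idem (Y := Q) hQ hC (SubAlg_top _) ?_ ?_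
    · rw [sub_mul, mul_sub, mul_sub, hgg]
      have e1 : g * (g * f) = g * f := by rw [← mul_assoc, hgg]
      have e2 : g * f * g = g * f := by rw [mul_assoc, hfc, ← mul_assoc, hgg]
      have e3 : g * f * (g * f) = g * f := by
        rw [← mul_assoc, e2, mul_assoc, hff]
      rw [e1, e2, e3, sub_self, sub_zero]
    · rw [map_sub, map_mul, hq, hqf, sub_self]
  rw [← hg, sub_eq_zero.mp h2, ← hfc, ← sub_eq_zero.mp h1]

/-- the traces -/
theorem tr_of_split {ρ : H →* H} {M Q : Subgroup H} (hρM : ∀ x, ρ x ∈ M)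
    (hρQ : ∀ x, ρ x = 1 ↔ x ∈ Q) (hρm : ∀ x ∈ M, ρ x = x) {f w : MonoidAlgebra k H}
    (hf : th k ρ f = f) (hw : f = tr (cj k H) Q ⊤ w) :
    f = tr (cj k H) ⊥ M (th k ρ w) := by
  classical
  have _ := Fintype.ofFinite ((⊤ : Subgroup H) ⧸ Q.subgroupOf ⊤)
  have _ := Fintype.ofFinite (M ⧸ (⊥ : Subgroup H).subgroupOf M)
  have hcj : ∀ (g : H) (a : MonoidAlgebra k H), th k ρ (cj k H g a) = cj k H (ρ g) (th k ρ a) := by
    intro g a
    rw [cj_eq, cj_eq, map_mul, map_mul, th_single, th_single, map_inv]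
  conv_lhs => rw [← hf, hw, tr_def, map_sum]
  rw [tr_def]
  let φ : (⊤ : Subgroup H) ⧸ Q.subgroupOf ⊤ → M ⧸ (⊥ : Subgroup H).subgroupOf M := fun q =>
    ((⟨ρ ((q.out : (⊤ : Subgroup H)) : H), hρM _⟩ : M) : M ⧸ (⊥ : Subgroup H).subgroupOf M)
  have hout : ∀ x : M, ((x : M ⧸ (⊥ : Subgroup H).subgroupOf M).out : M) = x := by
    intro x
    have h1 : (x : M)⁻¹ * (x : M ⧸ (⊥ : Subgroup H).subgroupOf M).out ∈
        (⊥ : Subgroup H).subgroupOf M := by
      rw [← QuotientGroup.eq, QuotientGroup.out_eq']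
    have h2 : ((x : M)⁻¹ * (x : M ⧸ (⊥ : Subgroup H).subgroupOf M).out : M) = 1 := by
      apply Subtype.ext
      exact (Subgroup.mem_bot.mp (Subgroup.mem_subgroupOf.mp h1))
    exact (inv_mul_eq_one.mp h2).symm
  refine Fintype.sum_bijective φ ⟨?_, ?_⟩ _ _ fun q => ?_
  · intro q q' hqq
    have h1 := congrArg Quotient.out hqq
    rw [hout, hout] at h1
    have h2 : ρ ((q.out : (⊤ : Subgroup H)) : H) = ρ ((q'.out : (⊤ : Subgroup H)) : H) :=
      congrArg Subtype.val h1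
    rw [← QuotientGroup.out_eq' q, ← QuotientGroup.out_eq' q', QuotientGroup.eq,
      Subgroup.mem_subgroupOf]
    apply (hρQ _).mp
    rw [Subgroup.coe_mul, Subgroup.coe_inv, map_mul, map_inv, h2, inv_mul_cancel]
  · intro q
    obtain ⟨x, rfl⟩ := QuotientGroup.mk_surjective q
    refine ⟨(((⟨(x : H), trivial⟩ : (⊤ : Subgroup H))) : (⊤ : Subgroup H) ⧸ Q.subgroupOf ⊤), ?_⟩
    change ((⟨ρ _, _⟩ : M) : M ⧸ (⊥ : Subgroup H).subgroupOf M) = _
    congr 1
    apply Subtype.ext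
    change ρ _ = (x : H)
    set y : (⊤ : Subgroup H) := ⟨(x : H), trivial⟩ with hy
    have h1 : (y : (⊤ : Subgroup H))⁻¹ * (y : (⊤ : Subgroup H) ⧸ Q.subgroupOf ⊤).out ∈
        Q.subgroupOf ⊤ := by
      rw [← QuotientGroup.eq, QuotientGroup.out_eq']
    have h2 := (hρQ _).mpr (Subgroup.mem_subgroupOf.mp h1)
    rw [Subgroup.coe_mul, Subgroup.coe_inv, map_mul, map_inv, inv_mul_eq_one] at h2
    rw [← h2]
    exact hρm _ x.2
  · rw [hcj]
    change _ = cj k H (((φ q).out : M) : H) _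
    rw [show φ q = ((⟨ρ ((q.out : (⊤ : Subgroup H)) : H), hρM _⟩ : M) :
      M ⧸ (⊥ : Subgroup H).subgroupOf M) from rfl, hout]

end Split

section Zero

variable {k : Type u} [Field k] {H : Type} [Group H] [Finite H]

/-- **Blocks of defect zero** are matrix algebras. -/
theorem exists_MA (p : ℕ) [Fact p.Prime] [CharP k p] [IsAlgClosed k] {f w : MonoidAlgebra k H} (hf : IsBlockOf (⊤ : Subgroup H) f)
    (hfw : f = tr (cj k H) ⊥ ⊤ w) : ∃ ε, MA k f ε := by
  classical
  have hfin : FiniteDimensional k (MonoidAlgebra k H) :=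
    Module.Finite.equiv (MonoidAlgebra.coeffLinearEquiv k (M := H) (S := k)).symm
  have hfc : ∀ x, f * x = x * f := fun x => (commute_of_mem (SubAlg_top x) hf.mem.2).symm
  obtain ⟨m, g, hg, hsum⟩ := H954.exists_prim_decomp (⊤ : Subalgebra k (MonoidAlgebra k H)) _ f
    Algebra.mem_top hf.idem.eq le_rfl
  have hm : 0 < m := by
    rcases Nat.eq_zero_or_pos m with h | h
    · subst h
      exfalso
      apply hf.ne_zero
      rw [hsum]
      simp
    · exact h
  obtain ⟨ε, hε⟩ : ∃ ε, ε = g ⟨0, hm⟩ := ⟨_, rfl⟩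
  have hprim : PrimIn (⊤ : Subalgebra k (MonoidAlgebra k H)) ε := by rw [hε]; exact (hg _).1
  have hfe : f * ε = ε := by rw [hε]; exact (hg _).2.1
  have h1 := BN.base_gen (p := p) (Q := (⊥ : Subgroup H)) IsPGroup.of_bot bot_le (mem_Fix_bot w) hfw hprim hfe
  rw [Subgroup.card_bot] at h1
  have hbr : br (⊥ : Subgroup H) (ε * f) ≠ 0 := by
    rw [br_self (by
      intro x _
      exact mem_cent.mpr fun y hy => by rw [Subgroup.mem_bot.mp hy]; group), ← hfc, hfe]
    exact hprim.ne_zero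
  obtain ⟨w', -, -, hfw'⟩ := gen (p := p) hf IsPGroup.of_bot (mem_Fix_bot w) hfw (mem_Fix_bot ε) hprim.idem
    hbr
  refine ⟨ε, ⟨hfc, hf.idem.eq, hfe, hprim.idem, hprim.ne_zero, ?_, ?_⟩⟩
  · intro x
    have hεM : ε ∈ NN (⊤ : Subalgebra k (MonoidAlgebra k H)) ε ε :=
      ⟨Algebra.mem_top, hprim.idem, hprim.idem⟩
    have hxM : ε * x * ε ∈ NN (⊤ : Subalgebra k (MonoidAlgebra k H)) ε ε :=
      mul_mul_mem_NN hprim.idem hprim.idem Algebra.mem_top Algebra.mem_top Algebra.mem_top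
    have h2 := finrank_le_one_iff.mp h1
    obtain ⟨v, hv⟩ := h2
    obtain ⟨c, hc⟩ := hv ⟨ε, hεM⟩
    obtain ⟨d, hd⟩ := hv ⟨ε * x * ε, hxM⟩
    have hc' : c • (v : MonoidAlgebra k H) = ε := congrArg Subtype.val hc
    have hd' : d • (v : MonoidAlgebra k H) = ε * x * ε := congrArg Subtype.val hd
    have hc0 : c ≠ 0 := by
      rintro rfl
      rw [zero_smul] at hc'
      exact hprim.ne_zero hc'.symm
    refine ⟨d * c⁻¹, ?_⟩
    rw [← hd', show (d * c⁻¹) • ε = (d * c⁻¹) • (c • (v : MonoidAlgebra k H)) by rw [hc'],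
      smul_smul, mul_assoc, inv_mul_cancel₀ hc0, mul_one]
  · have _ := Fintype.ofFinite ((⊤ : Subgroup H) ⧸ (⊥ : Subgroup H).subgroupOf ⊤)
    rw [hfw', tr_def]
    refine Submodule.sum_mem _ fun q _ => Submodule.subset_span
      ⟨MonoidAlgebra.single ((q.out : (⊤ : Subgroup H)) : H) 1,
        w' * MonoidAlgebra.single ((q.out : (⊤ : Subgroup H)) : H)⁻¹ 1, ?_⟩
    rw [cj_eq]
    simp only [mul_assoc]

end Zero

end Vale.Agent.P180.R2.H799.BS
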