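import Vale.Agent.P180.R2.H799.BS5

/-!
P180: the small idempotents of `kM` fixed by a `p`-group which acts through a cyclic group.
-/

set_option linter.all false

namespace Vale.Agent.P180.R2.H799.BS

open Vale.Agent.P180 Vale.Agent.P180.H768.Gd Vale.Agent.P180.R2.H365 Vale.Agent.P180.R2.H799
open Vale.Agent.P180.R2.H259.Cyc (PrimIn)

universe u

theorem exists_proj {H : Type*} [Group H] {M Q : Subgroup H} (hQc : ∀ q ∈ Q, ∀ x : H, q * x = x * q)
    (hinf : ∀ x ∈ M, x ∈ Q → x = 1) (hcov : ∀ x : H, ∃ m ∈ M, ∃ q ∈ Q, x = m * q) :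
    ∃ ρ : H →* H, (∀ x, ρ x ∈ M) ∧ (∀ x, (ρ x)⁻¹ * x ∈ Q) ∧ (∀ x, ρ x = 1 ↔ x ∈ Q) ∧
      ∀ x ∈ M, ρ x = x := by
  choose f hf g hg hfg using hcov
  have huniq : ∀ m ∈ M, ∀ m' ∈ M, ∀ q ∈ Q, ∀ q' ∈ Q, m * q = m' * q' → m = m' := by
    intro m hm m' hm' q hq q' hq' h
    have h1 : m'⁻¹ * m = q' * q⁻¹ := by
      calc m'⁻¹ * m = m'⁻¹ * (m * q) * q⁻¹ := by group
        _ = m'⁻¹ * (m' * q') * q⁻¹ := by rw [h]
        _ = _ := by group
    have h2 := hinf _ (M.mul_mem (M.inv_mem hm') hm) (by rw [h1]; exact Q.mul_mem hq' (Q.inv_mem hq))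
    exact (inv_mul_eq_one.mp h2).symm
  refine ⟨⟨⟨f, ?_⟩, ?_⟩, hf, ?_, ?_, ?_⟩
  · exact huniq _ (hf 1) 1 M.one_mem _ (hg 1) 1 Q.one_mem (by rw [← hfg, one_mul])
  · intro x y
    refine huniq (f (x * y)) (hf _) (f x * f y) (M.mul_mem (hf x) (hf y)) (g (x * y)) (hg _)
      (g x * g y) (Q.mul_mem (hg x) (hg y)) ?_
    have h1 := hQc _ (hg x) (f y)
    calc f (x * y) * g (x * y) = x * y := (hfg _).symm
      _ = (f x * g x) * (f y * g y) := by rw [← hfg x, ← hfg y]
      _ = f x * (g x * f y) * g y := by group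
      _ = f x * (f y * g x) * g y := by rw [h1]
      _ = _ := by group
  · intro x
    change (f x)⁻¹ * x ∈ Q
    have h2 : (f x)⁻¹ * x = g x := by
      have h3 := hfg x
      calc (f x)⁻¹ * x = (f x)⁻¹ * (f x * g x) := by rw [← h3]
        _ = g x := inv_mul_cancel_left _ _
    rw [h2]
    exact hg x
  · intro x
    change f x = 1 ↔ x ∈ Q
    constructor
    · intro h
      rw [hfg x, h, one_mul]
      exact hg x
    · intro h
      exact huniq _ (hf x) 1 M.one_mem _ (hg x) x h (by rw [← hfg, one_mul])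
  · intro x hx
    exact huniq _ (hf x) x hx _ (hg x) 1 Q.one_mem (by rw [← hfg, mul_one])

variable {k : Type u} [Field k] {p : ℕ} [Fact p.Prime] [CharP k p] {G : Type} [Group G] [Finite G]

/-- The block `f` of `C = M × Q` is a matrix algebra over `kQ` if it is a trace from `Q`. -/
theorem exists_MA_split [IsAlgClosed k] {C M Q : Subgroup G} (hMC : M ≤ C) (hQC : Q ≤ C)
    (hQ : IsPGroup p Q) (hQc : ∀ q ∈ Q, ∀ x ∈ C, q * x = x * q) (hinf : ∀ x ∈ M, x ∈ Q → x = 1)
    (hcov : ∀ x ∈ C, ∃ m ∈ M, ∃ q ∈ Q, x = m * q) {f w : MonoidAlgebra k G} (hf : IsBlockOf C f)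
    (hw : w ∈ SubAlg k C) (hfw : f = tr (cj k G) Q C w) :
    ∃ f' : MonoidAlgebra k M, incl k M f' = f ∧ ∃ ε, MA k f' ε := by
  classical
  let M' : Subgroup C := M.subgroupOf C
  let Q' : Subgroup C := Q.subgroupOf C
  have hM' : M'.map C.subtype = M := by
    rw [Subgroup.subgroupOf_map_subtype, inf_eq_left.mpr hMC]
  have hQ' : Q'.map C.subtype = Q := by
    rw [Subgroup.subgroupOf_map_subtype, inf_eq_left.mpr hQC]
  have hQ'c : ∀ q ∈ Q', ∀ x : C, q * x = x * q := fun q hq x => Subtype.ext (hQc q hq x x.2)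
  have hQ'n : Q'.Normal := ⟨fun q hq x => by rw [← hQ'c q hq x, mul_inv_cancel_right]; exact hq⟩
  have hQ'p : IsPGroup p Q' := hQ.comap_of_injective C.subtype C.subtype_injective
  have hQ'cen : Q' ≤ Subgroup.center C := fun q hq => Subgroup.mem_center_iff.mpr fun x =>
    (hQ'c q hq x).symm
  obtain ⟨ρ, hρM, hρQ, hρ1, hρm⟩ := exists_proj (M := M') (Q := Q') hQ'c
    (fun x hx hx' => Subtype.ext (hinf x hx hx'))
    (fun x => by
      obtain ⟨m, hm, q, hq, h⟩ := hcov x x.2
      exact ⟨⟨m, hMC hm⟩, hm, ⟨q, hQC hq⟩, hq, Subtype.ext h⟩)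
  obtain ⟨fC, hfC⟩ := exists_incl C hf.mem.1
  obtain ⟨wC, hwC⟩ := exists_incl C hw
  have htopC : (⊤ : Subgroup C).map C.subtype = C := by
    rw [← MonoidHom.range_eq_map, Subgroup.range_subtype]
  have hfCb : IsBlockOf (⊤ : Subgroup C) fC := by
    rw [← isBlockOf_map_iff C ⊤ fC, htopC, hfC]
    exact hf
  have hwCF : wC ∈ Fix (cj k C) Q' := KP.mem_Fix_of_central hQ'cen _
  have hfCw : fC = tr (cj k C) Q' ⊤ wC := by
    apply incl_injective (k := k) C
    rw [incl_tr C Q' hwCF, hQ', hfC, hwC]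
    exact hfw
  have hth : th k ρ fC = fC := mem_of_split (M := M') hQ'p hQ'c hρM hρQ hfCb.mem hfCb.idem.eq
  have hfCM : fC = tr (cj k C) ⊥ M' (th k ρ wC) := tr_of_split hρM hρ1 hρm hth hfCw
  have hbotC : (⊥ : Subgroup C).map C.subtype = ⊥ := Subgroup.map_bot _
  have hu : incl k C (th k ρ wC) ∈ SubAlg k M := by
    rw [← hM', incl_mem_SubAlg_iff]
    exact th_mem hρM wC
  have hfM : f ∈ SubAlg k M := by
    rw [← hfC, ← hM', incl_mem_SubAlg_iff, ← hth]
    exact th_mem hρM fC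
  have hftr : f = tr (cj k G) ⊥ M (incl k C (th k ρ wC)) := by
    rw [← hfC]
    conv_lhs => rw [hfCM]
    rw [incl_tr_gen C (mem_Fix_bot _), hbotC, hM']
  obtain ⟨f', hf'⟩ := exists_incl M hfM
  obtain ⟨u', hu'⟩ := exists_incl M hu
  refine ⟨f', hf', ?_⟩
  have htopM : (⊤ : Subgroup M).map M.subtype = M := by
    rw [← MonoidHom.range_eq_map, Subgroup.range_subtype]
  have hf'b : IsBlockOf (⊤ : Subgroup M) f' := by
    rw [← isBlockOf_map_iff M ⊤ f', htopM, hf']
    refine ⟨⟨hfM, Fix_mono _ hMC hf.mem.2⟩, hf.idem, hf.ne_zero, ?_⟩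
    intro c hc hcc hcf
    refine hf.primitive c ⟨SubAlg_mono hMC hc.1, ?_⟩ hcc hcf
    intro x hx
    obtain ⟨m, hm, q, hq, rfl⟩ := hcov x hx
    have h1 : cj k G q c = c := by
      refine SuppIn.induction (P := fun c => cj k G q c = c) hc.1 (map_zero _) ?_ ?_
      · intro a b ha hb; rw [map_add, ha, hb]
      · intro y hy r
        rw [map_smul, cj_single]
        have h2 : q * y * q⁻¹ = y := by rw [hQc q hq y (hMC hy), mul_inv_cancel_right]
        rw [h2]
    rw [map_mul_act, h1]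
    exact hc.2 m hm
  refine exists_MA p hf'b (w := u') ?_
  apply incl_injective (k := k) M
  rw [incl_tr M ⊥ (mem_Fix_bot _), Subgroup.map_bot, hf', hu']
  exact hftr

/-- conjugation -/
def cE {M : Subgroup G} {c : G} (hc : ∀ m, m ∈ M ↔ c * m * c⁻¹ ∈ M) : M ≃* M where
  toFun m := ⟨c * m * c⁻¹, (hc m).mp m.2⟩
  invFun m := ⟨c⁻¹ * m * c, (hc _).mpr (by
    have : c * (c⁻¹ * (m : G) * c) * c⁻¹ = m := by group
    rw [this]; exact m.2)⟩
  left_inv m := Subtype.ext (by simp [mul_assoc])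
  right_inv m := Subtype.ext (by simp [mul_assoc])
  map_mul' m n := Subtype.ext (by
    change c * ((m : G) * n) * c⁻¹ = (c * m * c⁻¹) * (c * n * c⁻¹)
    group)

omit [Finite G] in
theorem incl_cE {M : Subgroup G} {c : G} (hc : ∀ m, m ∈ M ↔ c * m * c⁻¹ ∈ M)
    (a : MonoidAlgebra k M) :
    incl k M (MonoidAlgebra.domCongr k k (cE hc) a) = cj k G c (incl k M a) := by
  induction a using MonoidAlgebra.induction_linear with
  | zero => rw [map_zero, map_zero, map_zero]
  | add x y hx hy => rw [map_add, map_add, map_add, map_add, hx, hy]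
  | single h r =>
    rw [MonoidAlgebra.domCongr_single, incl_single, incl_single]
    have e1 : ∀ g : G, MonoidAlgebra.single g r = r • MonoidAlgebra.single g (1 : k) := fun g => by
      rw [MonoidAlgebra.smul_single, smul_eq_mul, mul_one]
    rw [e1, e1 (h : G), map_smul, cj_single]
    rfl

omit [Finite G] [Fact p.Prime] [CharP k p] in
/-- a nonzero element of a matrix algebra generates it -/
theorem full_of_ne {A : Type*} [Ring A] [Algebra k A] {f ε j : A} (hMA : MA k f ε)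
    (hfj : f * j = j) (hj0 : j ≠ 0) : f ∈ Submodule.span k {z | ∃ x y : A, z = x * j * y} := by
  obtain ⟨a, b, hab⟩ := hMA.exists_ne hfj hj0
  obtain ⟨t, ht⟩ := hMA.one (a * j * b)
  have ht' : ε * a * j * b * ε = t • ε := by rw [← ht]; simp only [mul_assoc]
  have ht0 : t ≠ 0 := by
    rintro rfl
    rw [zero_smul] at ht'
    exact hab ht'
  have hε : ε = (t⁻¹ • (ε * a)) * j * (b * ε) := by
    rw [smul_mul_assoc, smul_mul_assoc]
    have e1 : ε * a * j * (b * ε) = ε * a * j * b * ε := by simp only [mul_assoc]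
    rw [e1, ht', smul_smul, inv_mul_cancel₀ ht0, one_smul]
  have h1 : ∀ z ∈ Submodule.span k {w | ∃ x y : A, w = x * ε * y},
      z ∈ Submodule.span k {z | ∃ x y : A, z = x * j * y} := by
    intro z hz
    induction hz using Submodule.span_induction with
    | mem z hz =>
      obtain ⟨u, v, rfl⟩ := hz
      refine Submodule.subset_span ⟨u * (t⁻¹ • (ε * a)), b * ε * v, ?_⟩
      conv_lhs => rw [hε]
      simp only [mul_assoc]
    | zero => exact zero_mem _
    | add u v _ _ hu hv => exact add_mem hu hv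
    | smul c u _ hu => exact Submodule.smul_mem _ c hu
  exact h1 f hMA.full

/-- The rank bound for the algebra of a subgroup `M` on which `R` acts through a cyclic group. -/
theorem rank_fix [IsAlgClosed k] {M R : Subgroup G} (hR : IsPGroup p R)
    (hMR : ∀ r ∈ R, ∀ m, m ∈ M ↔ r * m * r⁻¹ ∈ M) {c : G} (hcR : c ∈ R)
    (hcyc : ∀ r ∈ R, ∃ n : ℤ, ∀ m ∈ M, r * m * r⁻¹ = c ^ n * m * (c ^ n)⁻¹)
    {f' ε : MonoidAlgebra k M} (hMA : MA k f' ε) (hfR : incl k M f' ∈ Fix (cj k G) R)
    {j' : MonoidAlgebra k M} (hjp : PrimIn (SubAlg k M ⊓ Fix (cj k G) R) (incl k M j'))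
    (hf'j' : f' * j' = j') :
    Module.finrank k (NN (⊤ : Subalgebra k (MonoidAlgebra k M)) j' j') ≤
      Nat.card R * Nat.card R := by
  have hfinM : FiniteDimensional k (MonoidAlgebra k M) :=
    Module.Finite.equiv (MonoidAlgebra.coeffLinearEquiv k (M := M) (S := k)).symm
  have hinj := incl_injective (k := k) M
  have hj'j' : j' * j' = j' := hinj (by rw [map_mul, hjp.idem])
  have hj'0 : j' ≠ 0 := by
    intro h0
    exact hjp.ne_zero (by rw [h0, map_zero])
  have hcM : ∀ m, m ∈ M ↔ c * m * c⁻¹ ∈ M := hMR c hcR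
  obtain ⟨x, hx⟩ : ∃ x : MonoidAlgebra k M ≃ₐ[k] MonoidAlgebra k M,
      ∀ a, incl k M (x a) = cj k G c (incl k M a) := ⟨_, incl_cE hcM⟩
  have hxn : ∀ (n : ℕ) (a : MonoidAlgebra k M), incl k M ((⇑x)^[n] a) =
      cj k G (c ^ n) (incl k M a) := by
    intro n
    induction n with
    | zero => intro a; rw [pow_zero, map_one_act]; rfl
    | succ n ih =>
      intro a
      rw [Function.iterate_succ_apply', hx, ih, pow_succ', map_mul_act]
  obtain ⟨s, hs⟩ := IsPGroup.iff_card.mp hR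
  have hcs : c ^ (p ^ s) = 1 := by
    rw [← hs]
    exact congrArg Subtype.val (pow_card_eq_one' (x := (⟨c, hcR⟩ : R)))
  have hcfix : ∀ a : MonoidAlgebra k M, x a = a → incl k M a ∈ Fix (cj k G) R := by
    intro a ha r hr
    obtain ⟨n, hn⟩ := hcyc r hr
    have h1 : cj k G c (incl k M a) = incl k M a := by rw [← hx, ha]
    have h2 : Subgroup.zpowers c ≤ stabE (incl k M a) := (Subgroup.zpowers_le).mpr h1
    have h3 : cj k G (c ^ n) (incl k M a) = incl k M a := h2 ⟨n, rfl⟩
    have h4 : cj k G r (incl k M a) = cj k G (c ^ n) (incl k M a) := by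
      refine SuppIn.induction (P := fun b => cj k G r b = cj k G (c ^ n) b) (incl_mem M a)
        (by rw [map_zero, map_zero]) ?_ ?_
      · intro u v hu hv; rw [map_add, map_add, hu, hv]
      · intro u hu t
        rw [map_smul, map_smul, cj_single, cj_single, hn u hu]
    rw [h4, h3]
  rw [hs]
  refine hMA.rank (p := p) x (hinj ?_) (a := s) (fun y => hinj ?_) (j := j') (hinj ?_) hj'j' hf'j'
    hj'0 ?_
  · rw [hx]; exact hfR c hcR
  · rw [hxn, hcs, map_one_act]
  · rw [hx]; exact hjp.mem.2 c hcR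
  · intro a ha haa hja haj
    rcases hjp.prim (incl k M a) ⟨incl_mem M a, hcfix a ha⟩ (by rw [← map_mul, haa])
      (by rw [← map_mul, haj]) (by rw [← map_mul, hja]) with h | h
    · exact Or.inl (hinj (by rw [h, map_zero]))
    · exact Or.inr (hinj h)

/-- **Small fixed idempotents.** -/
theorem exists_small_fix [IsAlgClosed k] {M R : Subgroup G} (hR : IsPGroup p R)
    (hMR : ∀ r ∈ R, ∀ m, m ∈ M ↔ r * m * r⁻¹ ∈ M) {c : G} (hcR : c ∈ R)
    (hcyc : ∀ r ∈ R, ∃ n : ℤ, ∀ m ∈ M, r * m * r⁻¹ = c ^ n * m * (c ^ n)⁻¹)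
    {f' ε : MonoidAlgebra k M} (hMA : MA k f' ε) (hfR : incl k M f' ∈ Fix (cj k G) R)
    (hbr : br R (incl k M f') ≠ 0) :
    ∃ j ∈ SubAlg k M, j ∈ Fix (cj k G) R ∧ j * j = j ∧ incl k M f' * j = j ∧ br R j ≠ 0 ∧
      Module.finrank k (NN (SubAlg k M) j j) ≤ Nat.card R * Nat.card R ∧
      incl k M f' ∈ Submodule.span k
        {z | ∃ x ∈ SubAlg k M, ∃ y ∈ SubAlg k M, z = x * j * y} := by
  classical
  have hfin : FiniteDimensional k (MonoidAlgebra k G) :=
    Module.Finite.equiv (MonoidAlgebra.coeffLinearEquiv k (M := G) (S := k)).symm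
  have hff : incl k M f' * incl k M f' = incl k M f' := by rw [← map_mul, hMA.ff]
  obtain ⟨m, g, hg, hsum⟩ := H954.exists_prim_decomp (SubAlg k M ⊓ Fix (cj k G) R) _ (incl k M f')
    ⟨incl_mem M f', hfR⟩ hff le_rfl
  obtain ⟨l, hl⟩ : ∃ l, br R (g l) ≠ 0 := by
    by_contra hcon
    push Not at hcon
    apply hbr
    rw [hsum, br_linear_sum]
    exact Finset.sum_eq_zero fun l _ => hcon l
  obtain ⟨hjp, hfj, -⟩ := hg l
  obtain ⟨j', hj'⟩ := exists_incl M hjp.mem.1
  rw [← hj'] at hjp hfj hl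
  have hinj := incl_injective (k := k) M
  have hf'j' : f' * j' = j' := hinj (by rw [map_mul, hfj])
  have hj'0 : j' ≠ 0 := by
    intro h0
    exact hjp.ne_zero (by rw [h0, map_zero])
  have h1 := rank_fix hR hMR hcR hcyc hMA hfR hjp hf'j'
  have h2 := finrank_NN_hom (k := k) (φ := M.subtype) M.subtype_injective j' j'
  rw [Subgroup.range_subtype] at h2
  have h3 : Module.finrank k (NN (SubAlg k M) (incl k M j') (incl k M j')) =
      Module.finrank k (NN (⊤ : Subalgebra k (MonoidAlgebra k M)) j' j') := h2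
  refine ⟨incl k M j', incl_mem M j', hjp.mem.2, hjp.idem, hfj, hl, by rw [h3]; exact h1, ?_⟩
  have hfull : ∀ z ∈ Submodule.span k {w | ∃ x y : MonoidAlgebra k M, w = x * j' * y},
      incl k M z ∈ Submodule.span k
        {z | ∃ x ∈ SubAlg k M, ∃ y ∈ SubAlg k M, z = x * incl k M j' * y} := by
    intro z hz
    induction hz using Submodule.span_induction with
    | mem z hz =>
      obtain ⟨u, v, rfl⟩ := hz
      exact Submodule.subset_span ⟨incl k M u, incl_mem _ _, incl k M v, incl_mem _ _, by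
        rw [← map_mul, ← map_mul]⟩
    | zero => rw [map_zero]; exact zero_mem _
    | add u v _ _ hu hv => rw [map_add]; exact add_mem hu hv
    | smul c u _ hu => rw [map_smul]; exact Submodule.smul_mem _ c hu
  exact hfull f' (full_of_ne hMA hf'j' hj'0)

/-- the corner in `M Q` -/
theorem finrank_split_le {C M Q : Subgroup G} (hQc : ∀ q ∈ Q, ∀ x ∈ C, q * x = x * q)
    (hMC : M ≤ C) (hcov : ∀ x ∈ C, ∃ m ∈ M, ∃ q ∈ Q, x = m * q) {j : MonoidAlgebra k G}
    (hj : j ∈ SubAlg k M) (hjj : j * j = j) :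
    Module.finrank k (NN (SubAlg k C) j j) ≤
      Nat.card Q * Module.finrank k (NN (SubAlg k M) j j) := by
  classical
  have hfin : FiniteDimensional k (MonoidAlgebra k G) :=
    Module.Finite.equiv (MonoidAlgebra.coeffLinearEquiv k (M := G) (S := k)).symm
  have _ := Fintype.ofFinite Q
  have hQj : ∀ q ∈ Q, MonoidAlgebra.single q (1 : k) * j = j * MonoidAlgebra.single q 1 := by
    intro q hq
    refine SuppIn.induction (P := fun j => MonoidAlgebra.single q (1 : k) * j =
      j * MonoidAlgebra.single q 1) hj (by rw [mul_zero, zero_mul]) ?_ ?_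
    · intro a b ha hb; rw [mul_add, add_mul, ha, hb]
    · intro x hx c
      rw [mul_smul_comm, smul_mul_assoc, MonoidAlgebra.single_mul_single,
        MonoidAlgebra.single_mul_single, hQc q hq x (hMC hx)]
  let S : Q → Submodule k (MonoidAlgebra k G) := fun q =>
    (NN (SubAlg k M) j j).map (LinearMap.mulRight k (MonoidAlgebra.single (q : G) (1 : k)))
  have hle : NN (SubAlg k C) j j ≤ ⨆ q, S q := by
    rintro z ⟨hz, hjz, hzj⟩
    have h1 : j * z * j ∈ ⨆ q, S q := by
      refine SuppIn.induction (P := fun z => j * z * j ∈ ⨆ q, S q) hz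
        (by rw [mul_zero, zero_mul]; exact zero_mem _) ?_ ?_
      · intro a b ha hb; rw [mul_add, add_mul]; exact add_mem ha hb
      · intro x hx c
        rw [mul_smul_comm, smul_mul_assoc]
        refine Submodule.smul_mem _ c ?_
        obtain ⟨m, hm, q, hq, rfl⟩ := hcov x hx
        refine (le_iSup S ⟨q, hq⟩) ⟨j * MonoidAlgebra.single m 1 * j, ?_, ?_⟩
        · exact mul_mul_mem_NN hjj hjj hj hj (single_mem_SubAlg hm 1)
        · change j * MonoidAlgebra.single m (1 : k) * j * MonoidAlgebra.single q 1 = _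
          have e1 : MonoidAlgebra.single (m * q) (1 : k) = MonoidAlgebra.single m 1 *
              MonoidAlgebra.single q 1 := by rw [MonoidAlgebra.single_mul_single, one_mul]
          rw [e1, mul_assoc _ j, ← hQj q hq]
          simp only [mul_assoc]
    rwa [hjz, hzj] at h1
  calc Module.finrank k (NN (SubAlg k C) j j) ≤ Module.finrank k (⨆ q, S q : Submodule k _) :=
        Submodule.finrank_mono hle
    _ ≤ ∑ q : Q, Module.finrank k (S q) := finrank_iSup_le S
    _ ≤ ∑ _q : Q, Module.finrank k (NN (SubAlg k M) j j) :=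
        Finset.sum_le_sum fun q _ => Submodule.finrank_map_le _ _
    _ = _ := by rw [Finset.sum_const, Finset.card_univ, Nat.card_eq_fintype_card, smul_eq_mul]

end Vale.Agent.P180.R2.H799.BS
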