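import Vale.Agent.P180.R2.H799.BS6
import Vale.Agent.P180.R2.H799.BS3
import Vale.Agent.P180.R2.H365.Src

/-!
P180: the stable block of the centraliser of `L ∩ R`.
-/

set_option linter.all false

namespace Vale.Agent.P180.R2.H799.BS

open Vale.Agent.P180 Vale.Agent.P180.H768.Gd Vale.Agent.P180.R2.H365 Vale.Agent.P180.R2.H799
open Vale.Agent.P180.R2.H799.BN (Ce Nm Mx Lv mem_Ce mem_Nm av)
open Vale.Agent.P180.R2.H259.Cyc (PrimIn)

universe u

variable {k : Type u} [Field k] {p : ℕ} [Fact p.Prime] [CharP k p] {G : Type} [Group G] [Finite G]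

theorem mx_of_tr {Q : Subgroup G} (hQ : IsPGroup p Q) (hQab : ∀ x ∈ Q, ∀ y ∈ Q, x * y = y * x)
    {f w : MonoidAlgebra k G} (hf0 : f ≠ 0) (hfL : f ∈ SubAlg k (Ce Q)) (hwF : w ∈ Fix (cj k G) Q)
    (hfw : f = tr (cj k G) Q (Ce Q) w) : Mx p Q := by
  have hQC : Q ≤ Ce Q := fun x hx => mem_Ce.mpr fun y hy => hQab y hy x hx
  refine ⟨hQ, hQab, ?_⟩
  rintro x hx hxc ⟨m, hm⟩
  have hxp : IsPGroup p (Subgroup.zpowers x) := by
    rintro ⟨y, hy⟩
    obtain ⟨n, rfl⟩ := Subgroup.mem_zpowers_iff.mp hy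
    refine ⟨m, Subtype.ext ?_⟩
    change (x ^ n) ^ p ^ m = 1
    rw [← zpow_natCast, ← zpow_mul, mul_comm, zpow_mul, zpow_natCast, hm, one_zpow]
  obtain ⟨c, hc⟩ : ∃ c, f.coeff c ≠ 0 := by
    by_contra hcon
    push Not at hcon
    apply hf0
    apply MonoidAlgebra.coeff_injective
    ext c
    exact hcon c
  have hcL : c ∈ Ce Q := hfL c hc
  obtain ⟨y, hy, hyx⟩ := conj_le_of_coeff (N := Ce Q) (P := Q) (Q := Subgroup.zpowers x) hQC
    ((Subgroup.zpowers_le).mpr hx) hxp hwF hfw (c := c) (by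
      intro h hh
      obtain ⟨n, rfl⟩ := Subgroup.mem_zpowers_iff.mp hh
      have h1 : Commute x c := hxc c hcL
      have h2 : x ^ n * c = c * x ^ n := (h1.zpow_left n)
      rw [h2, mul_inv_cancel_right]) hc
  have h1 := hyx x (Subgroup.mem_zpowers x)
  have h2 : y⁻¹ * x * y = x := by
    rw [mul_assoc, hxc y hy, ← mul_assoc, inv_mul_cancel, one_mul]
  rwa [h2] at h1

omit [Fact p.Prime] [CharP k p] in
theorem incl_av {L : Subgroup G} (V : Subgroup L) :
    incl k L (av k V) = av k (V.map L.subtype) := by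
  unfold av
  letI := Fintype.ofFinite V
  letI := Fintype.ofFinite (V.map L.subtype)
  rw [map_smul, map_sum, Nat.card_congr (V.equivMapOfInjective _ L.subtype_injective).toEquiv]
  congr 1
  refine Fintype.sum_equiv (V.equivMapOfInjective _ L.subtype_injective).toEquiv
    (fun v : V => incl k L (MonoidAlgebra.single (v : L) 1))
    (fun w : V.map L.subtype => MonoidAlgebra.single (w : G) 1) fun v => ?_
  rw [incl_single]
  rfl

/-- The stable block of the centraliser of `L ∩ R`. -/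
theorem exists_stable [IsAlgClosed k] {L R : Subgroup G} (hR : IsPGroup p R)
    (hn : ∀ x ∈ R, ∀ s ∈ L, x * s * x⁻¹ ∈ L)
    (hQab : ∀ x ∈ R.subgroupOf L, ∀ y ∈ R.subgroupOf L, x * y = y * x)
    {e : MonoidAlgebra k G} (he : IsBlockOf L e) (heR : e ∈ Fix (cj k G) R) (hbr : br R e ≠ 0)
    (hz1 : ∃ z ∈ SubAlg k L, z ∈ Fix (cj k G) (L ⊓ R) ∧ e = tr (cj k G) (L ⊓ R) L z) :
    ∃ f w : MonoidAlgebra k L, IsBlockOf (Ce (R.subgroupOf L)) f ∧
      w ∈ SubAlg k (Ce (R.subgroupOf L)) ∧ w ∈ Fix (cj k L) (R.subgroupOf L) ∧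
      f = tr (cj k L) (R.subgroupOf L) (Ce (R.subgroupOf L)) w ∧
      incl k L f ∈ Fix (cj k G) R ∧ br (L ⊓ R) e * incl k L f = incl k L f ∧
      br R (incl k L f) ≠ 0 := by
  classical
  obtain ⟨Q, hQdef⟩ : ∃ Q, Q = R.subgroupOf L := ⟨_, rfl⟩
  rw [← hQdef] at hQab ⊢
  have hfinL : FiniteDimensional k (MonoidAlgebra k L) :=
    Module.Finite.equiv (MonoidAlgebra.coeffLinearEquiv k (M := L) (S := k)).symm
  have hmapQ : Q.map L.subtype = L ⊓ R := by
    rw [hQdef, Subgroup.subgroupOf_map_subtype, inf_comm]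
  have hQp : IsPGroup p Q := by
    rw [hQdef]; exact hR.comap_of_injective L.subtype L.subtype_injective
  have hQGp : IsPGroup p (L ⊓ R : Subgroup G) := hR.to_le inf_le_right
  -- the centraliser
  obtain ⟨C, hCdef⟩ : ∃ C, C = (Ce Q).map L.subtype := ⟨_, rfl⟩
  have hmemC : ∀ x, x ∈ C ↔ x ∈ L ∧ ∀ y ∈ L ⊓ R, y * x = x * y := by
    intro x
    rw [hCdef]
    constructor
    · rintro ⟨x, hx, rfl⟩
      refine ⟨x.2, fun y hy => ?_⟩
      have hy' : (⟨y, hy.1⟩ : L) ∈ Q := by rw [hQdef]; exact hy.2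
      exact congrArg Subtype.val (mem_Ce.mp hx _ hy')
    · rintro ⟨hx, h⟩
      refine ⟨⟨x, hx⟩, mem_Ce.mpr fun y hy => Subtype.ext (h _ ⟨y.2, ?_⟩), rfl⟩
      rw [hQdef] at hy
      exact hy
  have hCeq : C = L ⊓ Subgroup.centralizer ((L ⊓ R : Subgroup G) : Set G) := by
    ext x
    rw [hmemC, Subgroup.mem_inf]
    exact and_congr Iff.rfl Subgroup.mem_centralizer_iff.symm
  have hCL : C ≤ L := fun x hx => ((hmemC x).mp hx).1
  have hCc : C ≤ Subgroup.centralizer ((L ⊓ R : Subgroup G) : Set G) := by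
    rw [hCeq]; exact inf_le_right
  have hRN : R ≤ Subgroup.normalizer ((L ⊓ R : Subgroup G) : Set G) := by
    have key : ∀ r ∈ R, ∀ x ∈ L ⊓ R, r * x * r⁻¹ ∈ L ⊓ R := fun r hr x hx =>
      ⟨hn r hr x hx.1, R.mul_mem (R.mul_mem hr hx.2) (R.inv_mem hr)⟩
    intro r hr
    rw [Subgroup.mem_normalizer_iff]
    intro x
    refine ⟨key r hr x, fun h => ?_⟩
    have := key r⁻¹ (R.inv_mem hr) _ h
    simpa [mul_assoc] using this
  have hCN : C ≤ Subgroup.normalizer ((L ⊓ R : Subgroup G) : Set G) :=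
    hCc.trans (Subgroup.centralizer_le_normalizer _)
  -- the Brauer image
  obtain ⟨b, hb⟩ : ∃ b, b = br (L ⊓ R) e := ⟨_, rfl⟩
  have heL : e ∈ Fix (cj k G) L := he.mem.2
  have heQ : e ∈ Fix (cj k G) (L ⊓ R) := Fix_mono _ inf_le_left heL
  have hbC : b ∈ ZAlg k C := by
    refine mem_ZAlg.mpr ⟨?_, ?_⟩
    · rw [hb, hCeq]
      exact Src.br_SubAlg he.mem.1
    · rw [hb]
      exact br_fix_of_le hCN (Fix_mono _ hCL heL)
  have hbR : b ∈ Fix (cj k G) R := by rw [hb]; exact br_fix_of_le hRN heR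
  have hbb : b * b = b := by rw [hb, ← br_mul hQGp heQ heQ, he.idem.eq]
  have hbrb : br R b ≠ 0 := by rw [hb, br_br inf_le_right]; exact hbr
  have hnC : ∀ r ∈ R, ∀ x, x ∈ C ↔ r * x * r⁻¹ ∈ C := by
    have key : ∀ r ∈ R, ∀ x ∈ C, r * x * r⁻¹ ∈ C := by
      intro r hr x hx
      obtain ⟨h1, h2⟩ := (hmemC x).mp hx
      refine (hmemC _).mpr ⟨hn r hr x h1, fun y hy => ?_⟩
      have hy' : r⁻¹ * y * r ∈ L ⊓ R := by
        have := (Subgroup.mem_normalizer_iff.mp ((Subgroup.normalizer _).inv_mem (hRN hr)) y).mp hy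
        rwa [inv_inv] at this
      have h3 := h2 _ hy'
      calc y * (r * x * r⁻¹) = r * ((r⁻¹ * y * r) * x) * r⁻¹ := by group
        _ = r * (x * (r⁻¹ * y * r)) * r⁻¹ := by rw [h3]
        _ = _ := by group
    intro r hr x
    refine ⟨key r hr x, fun h => ?_⟩
    have := key r⁻¹ (R.inv_mem hr) _ h
    simpa [mul_assoc] using this
  obtain ⟨fG, hfG, hfGR, hbfG, hbrfG⟩ := exists_stable_block hR hnC hbC hbR hbb hbrb
  obtain ⟨f, hf⟩ := exists_incl L (SubAlg_mono hCL hfG.mem.1)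
  have hinj := incl_injective (k := k) L
  have hfb : IsBlockOf (Ce Q) f := by
    rw [← isBlockOf_map_iff L (Ce Q) f, ← hCdef, hf]
    exact hfG
  -- the type-level data
  obtain ⟨z, hz, hzF, hez⟩ := hz1
  obtain ⟨e', he'⟩ := exists_incl L he.mem.1
  obtain ⟨z', hz'⟩ := exists_incl L hz
  have hz'F : z' ∈ Fix (cj k L) Q := by
    rw [← incl_mem_Fix_iff, hmapQ, hz']; exact hzF
  have he'z : e' = tr (cj k L) Q ⊤ z' := by
    apply hinj
    rw [incl_tr L Q hz'F, hmapQ, he', hz']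
    exact hez
  have he'e' : e' * e' = e' := hinj (by rw [map_mul, he', he.idem.eq])
  have hbr' : incl k L (br Q e') = b := by rw [Src.incl_br, hmapQ, he', hb]
  have hbf' : br Q e' * f = f := hinj (by rw [map_mul, hbr', hf, hbfG])
  have he'F : e' ∈ Fix (cj k L) Q := by rw [he'z]; exact Fix_mono _ le_top (tr_mem_Fix hz'F)
  obtain ⟨m, g, hg, hsum⟩ := H954.exists_prim_decomp (Fix (cj k L) Q) _ e' he'F he'e' le_rfl
  obtain ⟨l, hl⟩ : ∃ l, br Q (g l) * f ≠ 0 := by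
    by_contra hcon
    push Not at hcon
    apply hfb.ne_zero
    rw [← hbf', hsum, br_linear_sum, Finset.sum_mul]
    exact Finset.sum_eq_zero fun l _ => hcon l
  obtain ⟨hi, hei, -⟩ := hg l
  have hbri : br Q (g l) ≠ 0 := fun h0 => hl (by rw [h0, zero_mul])
  have hloc : Loc (Fix (cj k L) Q) (g l) := loc_of_prim hi.mem hi.idem
    (fun c hc hcc h1 h2 => hi.prim c hc hcc h2 h1)
  obtain ⟨f₂, hf₂, hf₂j, w, hwL, hwF, hwf, hfw⟩ := exists_block (R := Q) hQp hQab le_rfl hi.mem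
    hi.idem hloc hbri he'e' hei hz'F he'z
  have hff : f₂ = f := by
    rcases IsPrimIn.eq_or_mul_eq_zero (by exact ZAlg_comm) hf₂ hfb with h | h
    · exact h
    · exfalso
      apply hl
      have h1 : br Q (g l) * f₂ = f₂ * br Q (g l) := commute_of_mem (br_mem Q _) hf₂.mem.2
      rw [← hf₂j, ← h1, mul_assoc, h, mul_zero]
  subst hff
  have hjL : br Q (g l) ∈ SubAlg k (Ce Q) := br_mem Q _
  have hjF : br Q (g l) ∈ Fix (cj k L) Q := H365.fix_of_cent hjL
  exact ⟨f₂, br Q (g l) * w, hfb, Subalgebra.mul_mem _ hjL hwL, Subalgebra.mul_mem _ hjF hwF, hfw,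
    by rw [hf]; exact hfGR, by rw [hf, ← hb]; exact hbfG, by rw [hf]; exact hbrfG⟩

end Vale.Agent.P180.R2.H799.BS
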