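import Vale.Agent.P180.R2.H799.BNL4

/-!
P180: semilinear bijections which normalise a diagonalisable `p`-subgroup.
-/

set_option linter.all false

namespace Vale.Agent.P180.R2.H799.BS

open Module Vale.Agent.P180.R2.H854 Vale.Agent.P180.R2.H799
open Vale.Agent.P180.R2.H799.BN (sl_smul sl_ext EV)

variable {K E : Type*} [Field K] [AddCommGroup E] [Module K E]

/-- semilinear bijections -/
structure Semi (σ : K ≃+* K) (g : E → E) : Prop where
  bij : Function.Bijective g
  add : ∀ v w, g (v + w) = g v + g w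
  smul : ∀ (c : K) (v : E), g (c • v) = σ c • g v

theorem Semi.zero {σ : K ≃+* K} {g : E → E} (h : Semi σ g) : g 0 = 0 := by
  have h1 := h.smul 0 0
  rwa [zero_smul, map_zero, zero_smul] at h1

theorem Semi.sub {σ : K ≃+* K} {g : E → E} (h : Semi σ g) (v w : E) : g (v - w) = g v - g w := by
  have h1 := h.add (v - w) w
  rw [sub_add_cancel] at h1
  rw [h1, add_sub_cancel_right]

theorem Semi.sum {σ : K ≃+* K} {g : E → E} (h : Semi σ g) {ι : Type*} (s : Finset ι) (c : ι → K)
    (v : ι → E) : g (∑ i ∈ s, c i • v i) = ∑ i ∈ s, σ (c i) • g (v i) := by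
  classical
  induction s using Finset.induction_on with
  | empty => rw [Finset.sum_empty, Finset.sum_empty, h.zero]
  | insert i s hi ih => rw [Finset.sum_insert hi, Finset.sum_insert hi, h.add, h.smul, ih]

theorem Semi.comp {σ τ : K ≃+* K} {g h : E → E} (hg : Semi σ g) (hh : Semi τ h) :
    Semi (τ.trans σ) (g ∘ h) where
  bij := hg.bij.comp hh.bij
  add v w := by rw [Function.comp_apply, hh.add, hg.add]; rfl
  smul c v := by rw [Function.comp_apply, hh.smul, hg.smul]; rfl

theorem Semi.inv {σ : K ≃+* K} {g g' : E → E} (h : Semi σ g) (hl : ∀ v, g' (g v) = v)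
    (hr : ∀ v, g (g' v) = v) : Semi σ.symm g' where
  bij := ⟨fun v w hvw => by rw [← hr v, ← hr w, hvw], fun v => ⟨g v, hl v⟩⟩
  add v w := h.bij.1 (by rw [hr, h.add, hr, hr])
  smul c v := h.bij.1 (by rw [hr, h.smul, hr, RingEquiv.apply_symm_apply])

/-- the determinant of a semilinear conjugate -/
theorem Semi.det [FiniteDimensional K E] {σ : K ≃+* K} {g : E → E} (h : Semi σ g) {X Y : End K E}
    (hXY : ∀ v, g (X v) = Y (g v)) : LinearMap.det Y = σ (LinearMap.det X) := by
  classical
  let b := finBasis K E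
  let mat : (E → E) → Matrix (Fin (finrank K E)) (Fin (finrank K E)) K := fun f =>
    Matrix.of fun i j => b.repr (f (b j)) i
  obtain ⟨g', hl, hr⟩ : ∃ g' : E → E, (∀ v, g' (g v) = v) ∧ ∀ v, g (g' v) = v := by
    refine ⟨(Equiv.ofBijective g h.bij).symm, fun v => ?_, fun v => ?_⟩
    · exact (Equiv.ofBijective g h.bij).symm_apply_apply v
    · exact (Equiv.ofBijective g h.bij).apply_symm_apply v
  -- the matrix of a composition
  have key : ∀ f : E → E, mat (g ∘ f) = mat g * (mat f).map σ := by
    intro f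
    ext i j
    rw [Matrix.mul_apply]
    change b.repr (g (f (b j))) i = _
    conv_lhs => rw [← b.sum_repr (f (b j)), h.sum]
    rw [map_sum, Finsupp.finsetSum_apply]
    refine Finset.sum_congr rfl fun l _ => ?_
    rw [map_smul, Finsupp.smul_apply, smul_eq_mul, mul_comm]
    rfl
  have h1 : mat (g ∘ g') = 1 := by
    ext i j
    change b.repr (g (g' (b j))) i = _
    rw [hr, b.repr_self, Finsupp.single_apply, Matrix.one_apply]
    simp only [eq_comm]
  have h2 : (mat g).det ≠ 0 := by
    intro h0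
    have h3 := congrArg Matrix.det h1
    rw [key, Matrix.det_mul, h0, zero_mul, Matrix.det_one] at h3
    exact zero_ne_one h3
  have hX : mat X = LinearMap.toMatrix b b X := by
    ext i j
    rw [LinearMap.toMatrix_apply]
    rfl
  have h3 : mat (g ∘ X) = LinearMap.toMatrix b b Y * mat g := by
    ext i j
    rw [Matrix.mul_apply]
    change b.repr (g (X (b j))) i = _
    rw [hXY]
    conv_lhs => rw [← b.sum_repr (g (b j)), map_sum]
    rw [map_sum, Finsupp.finsetSum_apply]
    refine Finset.sum_congr rfl fun l _ => ?_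
    rw [map_smul, map_smul, Finsupp.smul_apply, smul_eq_mul, LinearMap.toMatrix_apply, mul_comm]
    rfl
  rw [key] at h3
  have h4 := congrArg Matrix.det h3
  rw [Matrix.det_mul, Matrix.det_mul, hX, mul_comm] at h4
  have h5 := mul_right_cancel₀ h2 h4
  rw [LinearMap.det_toMatrix] at h5
  rw [← h5]
  have h6 : ((LinearMap.toMatrix b b X).map σ).det = σ (LinearMap.toMatrix b b X).det :=
    (RingHom.map_det (σ : K →+* K) _).symm
  rw [h6, LinearMap.det_toMatrix]

/-- `y = g x g⁻¹` -/
def Tw (g : E → E) (x y : SpecialLinearGroup K E) : Prop := ∀ v, g (x v) = y (g v)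

theorem Tw.unique {g : E → E} (hg : Function.Surjective g) {x y y' : SpecialLinearGroup K E}
    (h : Tw g x y) (h' : Tw g x y') : y = y' := by
  refine SpecialLinearGroup.ext _ _ fun v => ?_
  obtain ⟨w, rfl⟩ := hg v
  rw [← h w, ← h' w]

theorem Tw.one {g : E → E} : Tw g (1 : SpecialLinearGroup K E) 1 := fun _ => rfl

theorem Tw.mul {g : E → E} {x y x' y' : SpecialLinearGroup K E} (h : Tw g x y) (h' : Tw g x' y') :
    Tw g (x * x') (y * y') := fun v => by
  change g (x (x' v)) = y (y' (g v))
  rw [h, h']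

theorem Tw.pow {g : E → E} {x y : SpecialLinearGroup K E} (h : Tw g x y) (n : ℕ) :
    Tw g (x ^ n) (y ^ n) := by
  induction n with
  | zero => rw [pow_zero, pow_zero]; exact Tw.one
  | succ n ih => rw [pow_succ, pow_succ]; exact ih.mul h

theorem Tw.inv {g : E → E} {x y : SpecialLinearGroup K E} (h : Tw g x y) :
    Tw g x⁻¹ y⁻¹ := fun v => by
  have h1 := h (x⁻¹ v)
  have h2 : x (x⁻¹ v) = v := (x : E ≃ₗ[K] E).apply_symm_apply v
  rw [h2] at h1
  rw [h1]
  exact ((y : E ≃ₗ[K] E).symm_apply_apply _).symm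

theorem Tw.comp {g h : E → E} {x y z : SpecialLinearGroup K E} (h1 : Tw g x y) (h2 : Tw h y z) :
    Tw (h ∘ g) x z := fun v => by
  change h (g (x v)) = z (h (g v))
  rw [h1, h2]

variable [FiniteDimensional K E]

/-- a semilinear bijection which commutes with the elements of order `char K` preserves all lines -/
theorem Semi.lines {σ : K ≃+* K} {h : E → E} (hh : Semi σ h) {l : ℕ} (hl : (l : K) = 0)
    (h2 : 2 ≤ finrank K E) (hc : ∀ x : SpecialLinearGroup K E, x ^ l = 1 → Tw h x x) (v : E) :
    ∃ c : K, h v = c • v := by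
  classical
  -- a linear form
  obtain ⟨f, hfv, hf0⟩ : ∃ f : Dual K E, f v = 0 ∧ f ≠ 0 := by
    have hlt : (Submodule.span K {v}) < ⊤ := by
      refine lt_top_iff_ne_top.mpr fun h0 => ?_
      have h3 : finrank K (Submodule.span K {v}) ≤ 1 := by
        have h4 := finrank_span_le_card (R := K) ({v} : Set E)
        simpa using h4
      rw [h0, finrank_top] at h3
      omega
    obtain ⟨f, hf, hf'⟩ := Submodule.exists_le_ker_of_lt_top _ hlt
    exact ⟨f, hf' (Submodule.mem_span_singleton_self v), hf⟩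
  let t : SpecialLinearGroup K E := ⟨LinearEquiv.transvection hfv, by
    exact LinearEquiv.transvection.det_eq_one hfv⟩
  have ht : ∀ x, t x = x + f x • v := fun x => rfl
  have htn : ∀ (n : ℕ) (x : E), (t ^ n) x = x + ((n : K) * f x) • v := by
    intro n
    induction n with
    | zero => intro x; rw [pow_zero, Nat.cast_zero, zero_mul, zero_smul, add_zero]; rfl
    | succ n ih =>
      intro x
      rw [pow_succ]
      change (t ^ n) (t x) = _
      rw [ht, ih, map_add, map_smul, hfv, smul_zero, add_zero, add_assoc, ← add_smul,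
        Nat.cast_succ]
      congr 2
      ring
  have htl : t ^ l = 1 := by
    refine SpecialLinearGroup.ext _ _ fun x => ?_
    rw [htn, hl, zero_mul, zero_smul, add_zero]
    rfl
  have h3 := hc t htl
  obtain ⟨x, hx⟩ : ∃ x, f x ≠ 0 := by
    by_contra hcon
    push Not at hcon
    exact hf0 (LinearMap.ext hcon)
  have h4 := h3 x
  rw [ht, ht, hh.add, hh.smul] at h4
  have h5 : σ (f x) • h v = f (h x) • v := add_left_cancel h4
  have h6 : σ (f x) ≠ 0 := fun h0 => hx ((map_eq_zero_iff σ σ.injective).mp h0)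
  refine ⟨(σ (f x))⁻¹ * f (h x), ?_⟩
  rw [mul_smul, ← h5, smul_smul, inv_mul_cancel₀ h6, one_smul]

/-- `v` has the weight `u` for the subgroup `Q` -/
def Wt (Q : Subgroup (SpecialLinearGroup K E)) (u : Q → K) (v : E) : Prop :=
  ∀ x : Q, (x : SpecialLinearGroup K E) v = u x • v

omit [FiniteDimensional K E] in
theorem Wt.unique {Q : Subgroup (SpecialLinearGroup K E)} {u u' : Q → K} {v : E} (hv : v ≠ 0)
    (h : Wt Q u v) (h' : Wt Q u' v) : u = u' := by
  funext x
  have h1 := (h x).symm.trans (h' x)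
  have h2 : (u x - u' x) • v = 0 := by rw [sub_smul, h1, sub_self]
  rcases smul_eq_zero.mp h2 with h3 | h3
  · exact sub_eq_zero.mp h3
  · exact absurd h3 hv

/-- **The weight spaces are fixed.** -/
theorem wt_fixed {p : ℕ} [Fact p.Prime] {Q : Subgroup (SpecialLinearGroup K E)} {ι : Type*}
    [Fintype ι] (b : Basis ι K E) (w : ι → Q → K) (hw : ∀ l, Wt Q (w l) (b l))
    (hι : Fintype.card ι < p) {σ : K ≃+* K} {g : E → E} (hg : Semi σ g) (φ : Q → Q)
    (hφ : Function.Surjective φ)
    (hφg : ∀ x : Q, Tw g (x : SpecialLinearGroup K E) (φ x : SpecialLinearGroup K E)) {m : ℕ}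
    (hper : ∀ v, ∃ c : K, g^[p ^ m] v = c • v) (l : ι) : Wt Q (w l) (g (b l)) := by
  classical
  obtain ⟨ψ, hψ⟩ := hφ.hasRightInverse
  let T : (Q → K) → (Q → K) := fun u y => σ (u (ψ y))
  have hT : ∀ (u : Q → K) (v : E), Wt Q u v → Wt Q (T u) (g v) := by
    intro u v hv y
    have h1 := hφg (ψ y) v
    rw [hψ y, hv (ψ y), hg.smul] at h1
    exact h1.symm
  have hg0 : ∀ v, v ≠ 0 → g v ≠ 0 := fun v hv h0 => hv (hg.bij.1 (by rw [h0, hg.zero]))
  have hTn : ∀ (n : ℕ) (u : Q → K) (v : E), v ≠ 0 → Wt Q u v →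
      g^[n] v ≠ 0 ∧ Wt Q (T^[n] u) (g^[n] v) := by
    intro n
    induction n with
    | zero => intro u v hv h; exact ⟨hv, h⟩
    | succ n ih =>
      intro u v hv h
      rw [Function.iterate_succ_apply, Function.iterate_succ_apply]
      exact ih _ _ (hg0 v hv) (hT u v h)
  have hbl : b l ≠ 0 := b.ne_zero l
  have hperT : Function.IsPeriodicPt T (p ^ m) (w l) := by
    obtain ⟨h1, h2⟩ := hTn (p ^ m) _ _ hbl (hw l)
    obtain ⟨c, hc⟩ := hper (b l)
    rw [hc] at h1 h2
    have h3 : Wt Q (w l) (c • b l) := by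
      intro x
      rw [sl_smul, hw l x, smul_comm]
    exact Wt.unique h1 h2 h3
  -- all the weights belong to the basis
  have hmem : ∀ (u : Q → K) (v : E), v ≠ 0 → Wt Q u v → u ∈ Set.range w := by
    intro u v hv h
    obtain ⟨i, hi⟩ : ∃ i, b.repr v i ≠ 0 := by
      by_contra hcon
      push Not at hcon
      exact hv (b.repr.map_eq_zero_iff.mp (Finsupp.ext hcon))
    refine ⟨i, ?_⟩
    funext x
    have h1 := h x
    have h2 : b.repr ((x : SpecialLinearGroup K E) v) i = w i x * b.repr v i := by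
      conv_lhs => rw [← b.sum_repr v, BN.sl_sum]
      rw [map_sum, Finsupp.finsetSum_apply, Finset.sum_eq_single i]
      · rw [hw i x, smul_smul, map_smul, Finsupp.smul_apply, b.repr_self, Finsupp.single_eq_same,
          smul_eq_mul, mul_one, mul_comm]
      · intro j _ hj
        rw [hw j x, smul_smul, map_smul, Finsupp.smul_apply, b.repr_self,
          Finsupp.single_eq_of_ne (Ne.symm hj), smul_zero]
      · intro h0
        exact absurd (Finset.mem_univ i) h0
    rw [h1, map_smul, Finsupp.smul_apply, smul_eq_mul] at h2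
    exact (mul_right_cancel₀ hi h2).symm
  have hp : p.Prime := Fact.out
  have h1 : Function.minimalPeriod T (w l) = 1 := by
    have h2 := hperT.minimalPeriod_dvd
    obtain ⟨j, -, hj⟩ := (Nat.dvd_prime_pow hp).mp h2
    rcases Nat.eq_zero_or_pos j with h0 | h0
    · rw [hj, h0, pow_zero]
    exfalso
    have h3 : p ≤ Function.minimalPeriod T (w l) := by
      rw [hj]
      calc p = p ^ 1 := (pow_one p).symm
        _ ≤ p ^ j := Nat.pow_le_pow_right hp.pos h0
    have h4 : Set.InjOn (fun n => T^[n] (w l)) (Finset.range p : Set ℕ) := by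
      refine (Function.iterate_injOn_Iio_minimalPeriod (f := T) (x := w l)).mono ?_
      intro n hn
      rw [Finset.coe_range, Set.mem_Iio] at hn
      exact lt_of_lt_of_le hn h3
    have h5 : ((Finset.range p).image fun n => T^[n] (w l)) ⊆ Finset.univ.image w := by
      intro u hu
      obtain ⟨n, -, rfl⟩ := Finset.mem_image.mp hu
      obtain ⟨h6, h7⟩ := hTn n _ _ hbl (hw l)
      obtain ⟨i, hi⟩ := hmem _ _ h6 h7
      exact Finset.mem_image.mpr ⟨i, Finset.mem_univ _, hi⟩
    have h6 := Finset.card_le_card h5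
    rw [Finset.card_image_of_injOn h4, Finset.card_range] at h6
    have h7 : (Finset.univ.image w).card ≤ Fintype.card ι := Finset.card_image_le
    omega
  have h2 : T (w l) = w l := by
    have h3 := Function.iterate_minimalPeriod (f := T) (x := w l)
    rwa [h1, Function.iterate_one] at h3
  have h3 := hT _ _ (hw l)
  rwa [h2] at h3

end Vale.Agent.P180.R2.H799.BS
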