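import Vale.Agent.P180.R2.H854.TNorm
import Vale.Agent.P180.R2.H799.BT2

/-!
P180: semilinear bijections which commute with the unipotent isometries are scalar.
-/

set_option linter.all false

namespace Vale.Agent.P180.R2.H799.BS

open Module Vale.Agent.P180.R2.H854 Vale.Agent.P180.R2.H799
open Vale.Agent.P180.R2.H799.BN (sl_smul sl_ext)

universe u v

variable {K : Type u} {E : Type v} [Field K] [Finite K] [AddCommGroup E] [Module K E]
  [FiniteDimensional K E] (Φ : HForm K E)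

/-- every semilinear bijection which commutes with the unipotent isometries is scalar on every
line -/
def Lines : Prop := ∀ (σ : K ≃+* K) (h : E → E), Semi σ h →
  (∀ F, Φ.SD F → ∀ x ∈ VF F ⊓ Φ.Iso, Tw h x x) → ∀ v, ∃ c : K, h v = c • v

/-- the flag of an isotropic vector -/
theorem exists_flag {w : E} (hw : Φ.B w w = 0) : ∃ F : Flag K E, (∀ i ≤ 3, Φ.perp (F i) = F (3 - i)) ∧
    F 3 = ⊤ ∧ F 1 = Submodule.span K {w} ∧ F 1 ≤ Φ.perp (F 1) := by
  have hle : Submodule.span K {w} ≤ Φ.perp (Submodule.span K {w}) := by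
    rw [Submodule.span_le]
    rintro _ rfl
    rw [SetLike.mem_coe, Φ.mem_perp']
    intro z hz
    obtain ⟨c, rfl⟩ := Submodule.mem_span_singleton.mp hz
    rw [Φ.smul_left, hw, mul_zero]
  let F : Flag K E :=
    { car := fun i => match i with
        | 0 => ⊥
        | 1 => Submodule.span K {w}
        | 2 => Φ.perp (Submodule.span K {w})
        | _ + 3 => ⊤
      mono := by
        refine monotone_nat_of_le_succ fun i => ?_
        match i with
        | 0 => exact bot_le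
        | 1 => exact hle
        | 2 => exact le_top
        | _ + 3 => exact le_top
      zero := rfl
      top := ⟨3, rfl⟩ }
  have h0 : F 0 = ⊥ := rfl
  have h1 : F 1 = Submodule.span K {w} := rfl
  have h2 : F 2 = Φ.perp (Submodule.span K {w}) := rfl
  have h3 : F 3 = ⊤ := rfl
  refine ⟨F, fun i hi => ?_, h3, h1, by rw [h1]; exact hle⟩
  match i, hi with
  | 0, _ => rw [h0, Φ.perp_bot, Nat.sub_zero, h3]
  | 1, _ =>
    rw [h1, ← h2]
    rfl
  | 2, _ =>
    rw [h2, Φ.perp_perp, ← h1]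
    rfl
  | 3, _ => rw [h3, Φ.perp_top, Nat.sub_self, h0]

/-- the commuting relation -/
theorem siegel_rel {c : K} (hc : c + Φ.θ c = 1 ∨ ∀ x, Φ.B x x = 0) {σ : K ≃+* K} {h : E → E}
    (hh : Semi σ h) (hcom : ∀ F, Φ.SD F → ∀ x ∈ VF F ⊓ Φ.Iso, Tw h x x) {w u : E}
    (hw : Φ.B w w = 0) (hu : Φ.B u w = 0) (y : E) :
    σ (Φ.B y u) • h w - σ (Φ.θ Φ.ε * Φ.B y w) • h u -
        σ (c * (Φ.θ Φ.ε * Φ.B y w * Φ.B u u)) • h w =
      Φ.B (h y) u • w - (Φ.θ Φ.ε * Φ.B (h y) w) • u -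
        (c * (Φ.θ Φ.ε * Φ.B (h y) w * Φ.B u u)) • w := by
  obtain ⟨F, hF, hF3, hF1, hiso⟩ := exists_flag Φ hw
  obtain ⟨v, hv, hvy⟩ := Φ.exists_siegelT hc hF (i := 1) (by omega) hiso (u := u) (w := w)
    (by rw [hF1]; exact Submodule.mem_span_singleton_self w) (by
      rw [hF1]
      intro z hz
      obtain ⟨a, rfl⟩ := Submodule.mem_span_singleton.mp hz
      rw [Φ.smul_right, hu, mul_zero])
  have h1 := hcom F ⟨3, by omega, hF3, hF⟩ v hv y
  have h2 : h (v y - y) = v (h y) - h y := by rw [hh.sub, h1]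
  rw [hvy, hvy, hh.sub, hh.sub, hh.smul, hh.smul, hh.smul] at h2
  exact h2

/-- a vector outside a small subspace -/
theorem exists_notin {S W : Submodule K E} (h : finrank K S < finrank K W) : ∃ x ∈ W, x ∉ S := by
  by_contra hcon
  push Not at hcon
  exact absurd (Submodule.finrank_mono (show W ≤ S from hcon)) (not_le.mpr h)

theorem exists_pair {w : E} (hw0 : w ≠ 0) : ∃ y, Φ.B y w = 1 := by
  obtain ⟨y, hy⟩ : ∃ y, Φ.B w y ≠ 0 := by
    by_contra hcon
    push Not at hcon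
    exact hw0 (Φ.nondeg w hcon)
  have hy' : Φ.B y w ≠ 0 := fun h0 => hy (Φ.eq_zero_comm h0)
  exact ⟨(Φ.B y w)⁻¹ • y, by rw [Φ.smul_left, inv_mul_cancel₀ hy']⟩

theorem mem_perp_singleton {w x : E} : x ∈ Φ.perp (Submodule.span K {w}) ↔ Φ.B x w = 0 := by
  constructor
  · intro h
    exact h w (Submodule.mem_span_singleton_self w)
  · intro h z hz
    obtain ⟨a, rfl⟩ := Submodule.mem_span_singleton.mp hz
    rw [Φ.smul_right, h, mul_zero]

theorem theta_eps_ne : Φ.θ Φ.ε ≠ 0 := by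
  intro h0
  have h1 := Φ.εε
  rw [h0, mul_zero] at h1
  exact zero_ne_one h1

/-- **Isotropic lines are preserved.** -/
theorem iso_line {c : K} (hc : c + Φ.θ c = 1 ∨ ∀ x, Φ.B x x = 0) {σ : K ≃+* K} {h : E → E}
    (hh : Semi σ h) (hcom : ∀ F, Φ.SD F → ∀ x ∈ VF F ⊓ Φ.Iso, Tw h x x)
    (hd : 4 ≤ finrank K E ∨ ∃ a, Φ.θ a ≠ a) {w : E} (hw : Φ.B w w = 0) (hw0 : w ≠ 0) :
    ∃ a : K, h w = a • w := by
  classical
  rcases hd with hd | ⟨a, ha⟩
  · have hs1 : finrank K (Submodule.span K {w}) = 1 := finrank_span_singleton hw0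
    have hp1 := Φ.finrank_add_finrank_perp (Submodule.span K {w})
    -- the span condition
    have key : ∀ u, Φ.B u w = 0 → u ∉ Submodule.span K {w} →
        h w ∈ Submodule.span K {w, u} := by
      intro u hu hun
      rw [← Φ.perp_perp (Submodule.span K {w})] at hun
      obtain ⟨y, hy, hyu⟩ : ∃ y ∈ Φ.perp (Submodule.span K {w}), Φ.B u y ≠ 0 := by
        by_contra hcon
        push Not at hcon
        exact hun hcon
      rw [mem_perp_singleton] at hy
      have hyu' : Φ.B y u ≠ 0 := fun h0 => hyu (Φ.eq_zero_comm h0)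
      have h1 := siegel_rel Φ hc hh hcom hw hu y
      rw [hy, mul_zero, zero_mul, mul_zero, map_zero, zero_smul, zero_smul, sub_zero, sub_zero] at h1
      have h2 : σ (Φ.B y u) ≠ 0 := fun h0 => hyu' ((map_eq_zero_iff σ σ.injective).mp h0)
      have h3 : h w = (σ (Φ.B y u))⁻¹ • (σ (Φ.B y u) • h w) := by
        rw [smul_smul, inv_mul_cancel₀ h2, one_smul]
      rw [h3, h1]
      have hwm : w ∈ Submodule.span K {w, u} := Submodule.subset_span (Or.inl rfl)
      have hum : u ∈ Submodule.span K {w, u} := Submodule.subset_span (Or.inr rfl)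
      exact Submodule.smul_mem _ _ (Submodule.sub_mem _ (Submodule.sub_mem _
        (Submodule.smul_mem _ _ hwm) (Submodule.smul_mem _ _ hum)) (Submodule.smul_mem _ _ hwm))
    obtain ⟨u, hu, hun⟩ := exists_notin (K := K) (S := Submodule.span K {w})
      (W := Φ.perp (Submodule.span K {w})) (by omega)
    have hs2 : finrank K (Submodule.span K {w, u}) ≤ 2 := by
      have h4 := finrank_span_le_card (R := K) ({w, u} : Set E)
      refine h4.trans ?_
      rw [Set.toFinset_card]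
      simpa using Finset.card_le_two (a := w) (b := u)
    obtain ⟨u', hu', hun'⟩ := exists_notin (K := K) (S := Submodule.span K {w, u})
      (W := Φ.perp (Submodule.span K {w})) (by omega)
    rw [mem_perp_singleton] at hu hu'
    have h1 := key u hu hun
    have h2 := key u' hu' fun h0 => hun' (Submodule.span_mono (by
      intro x hx
      exact Or.inl hx) h0)
    obtain ⟨a, b, hab⟩ := Submodule.mem_span_pair.mp h2
    by_cases hb : b = 0
    · exact ⟨a, by rw [← hab, hb, zero_smul, add_zero]⟩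
    · exfalso
      apply hun'
      have h3 : u' = b⁻¹ • (h w - a • w) := by
        rw [← hab, add_sub_cancel_left, smul_smul, inv_mul_cancel₀ hb, one_smul]
      rw [h3]
      exact Submodule.smul_mem _ _ (Submodule.sub_mem _ h1
        (Submodule.smul_mem _ _ (Submodule.subset_span (Or.inl rfl))))
  · have hne : ∃ a, Φ.θ a ≠ Φ.θ Φ.ε * a := by
      by_contra hcon
      push Not at hcon
      have h1 := hcon 1
      rw [map_one, mul_one] at h1
      exact ha (by rw [hcon a, ← h1, one_mul])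
    obtain ⟨a, ha⟩ := hne
    obtain ⟨y, hy⟩ := exists_pair Φ hw0
    have h1 := siegel_rel Φ hc hh hcom (u := a • w) hw (by rw [Φ.smul_left, hw, mul_zero]) y
    simp only [Φ.smul_right, Φ.smul_left, hw, hy, mul_zero, mul_one, map_zero, zero_smul,
      sub_zero, hh.smul, smul_smul] at h1
    rw [← map_mul, ← sub_smul, ← map_sub, ← sub_smul] at h1
    have h2 : σ (Φ.θ a - Φ.θ Φ.ε * a) ≠ 0 := fun h0 =>
      ha (sub_eq_zero.mp ((map_eq_zero_iff σ σ.injective).mp h0))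
    refine ⟨(σ (Φ.θ a - Φ.θ Φ.ε * a))⁻¹ *
      (Φ.θ a * Φ.B (h y) w - Φ.θ Φ.ε * Φ.B (h y) w * a), ?_⟩
    rw [mul_smul, ← h1, smul_smul, inv_mul_cancel₀ h2, one_smul]

/-- the action on the orthogonal space of an isotropic vector -/
theorem perp_scalar {c : K} (hc : c + Φ.θ c = 1 ∨ ∀ x, Φ.B x x = 0) {σ : K ≃+* K} {h : E → E}
    (hh : Semi σ h) (hcom : ∀ F, Φ.SD F → ∀ x ∈ VF F ⊓ Φ.Iso, Tw h x x) {w : E}
    (hw : Φ.B w w = 0) (hw0 : w ≠ 0) {a : K} (ha : h w = a • w) :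
    ∃ lam : K, ∀ u, Φ.B u w = 0 → ∃ μ : K, h u = lam • u + μ • w := by
  obtain ⟨y, hy⟩ := exists_pair Φ hw0
  have hε := theta_eps_ne Φ
  have h2 : σ (Φ.θ Φ.ε) ≠ 0 := fun h0 => hε ((map_eq_zero_iff σ σ.injective).mp h0)
  refine ⟨(σ (Φ.θ Φ.ε))⁻¹ * (Φ.θ Φ.ε * Φ.B (h y) w), fun u hu => ?_⟩
  have h1 := siegel_rel Φ hc hh hcom hw hu y
  rw [hy, mul_one, ha, smul_smul, smul_smul] at h1
  refine ⟨(σ (Φ.θ Φ.ε))⁻¹ * (σ (Φ.B y u) * a - σ (c * (Φ.θ Φ.ε * Φ.B u u)) * a - Φ.B (h y) u +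
    c * (Φ.θ Φ.ε * Φ.B (h y) w * Φ.B u u)), ?_⟩
  have h3 : σ (Φ.θ Φ.ε) • h u = (Φ.θ Φ.ε * Φ.B (h y) w) • u + (σ (Φ.B y u) * a -
      σ (c * (Φ.θ Φ.ε * Φ.B u u)) * a - Φ.B (h y) u +
        c * (Φ.θ Φ.ε * Φ.B (h y) w * Φ.B u u)) • w := by
    calc σ (Φ.θ Φ.ε) • h u = (σ (Φ.B y u) * a) • w -
          (σ (c * (Φ.θ Φ.ε * Φ.B u u)) * a) • w - ((σ (Φ.B y u) * a) • w -
          σ (Φ.θ Φ.ε) • h u - (σ (c * (Φ.θ Φ.ε * Φ.B u u)) * a) • w) := by abel
      _ = _ := by
        rw [h1]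
        module
  have h4 : h u = (σ (Φ.θ Φ.ε))⁻¹ • (σ (Φ.θ Φ.ε) • h u) := by
    rw [smul_smul, inv_mul_cancel₀ h2, one_smul]
  rw [h4, h3, smul_add, smul_smul, smul_smul]

end Vale.Agent.P180.R2.H799.BS
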