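import Vale.Agent.P180.R2.H799.BT6
import Vale.Agent.P180.R2.H799.BS13
import Vale.Agent.P180.R2.H854.FormCor
import Vale.Agent.P180.R2.H854.TX

/-!
P180: the corner property of central quotients of groups of isometries of dimension less than `p`,
for a `p`-group which acts by semilinear similitudes.
-/

set_option linter.all false

namespace Vale.Agent.P180.R2.H799.BS

open Module Vale.Agent.P180 Vale.Agent.P180.H768.Gd Vale.Agent.P180.R2.H365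
  Vale.Agent.P180.R2.H799 Vale.Agent.P180.R2.H954 Vale.Agent.P180.R2.H854
open Vale.Agent.P180.R2.H799.BN (Ce Nm Mx mem_Ce mem_Nm exists_lift not_dvd_center finite_sl
  span_EV_of_lt comm_of_span imageSys hasLevi_image hasLevi_sl pair_image centralizer_image
  sl_smul sl_ext sl_sum comm_of_BD pow_apply_eigen)

universe u

/-- **The corner property for a semilinear action on a group of isometries.** -/
theorem cor_semiX {k : Type u} [Field k] [IsAlgClosed k] {p : ℕ} [Fact p.Prime] [CharP k p]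
    {G : Type} [Group G] [Finite G] {L R : Subgroup G} {n : ℕ} (hR : IsPGroup p R)
    (hRn : Nat.card R ≤ n) (hn : ∀ x ∈ R, ∀ s ∈ L, x * s * x⁻¹ ∈ L)
    {K E : Type*} [Field K] [Finite K] [AddCommGroup E] [Module K E] [FiniteDimensional K E]
    (Φ : HForm K E) (hp2 : Odd p) (hT : Φ.Tr) (hnorm : Φ.NormCond) {ζ : K} (hζ : ζ ^ p = 1)
    (hζ1 : ζ ≠ 1) (hζθ : Φ.θ ζ = ζ) {X : Subgroup (SpecialLinearGroup K E)} (hXI : X ≤ Φ.Iso)
    (hX2 : X.relIndex Φ.Iso ∣ 2) (hV : ∀ F, Φ.SD F → VF F ⊓ Φ.Iso ≤ X)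
    (π : X →* L) (hπ : Function.Surjective π)
    (hk : π.ker.map X.subtype ≤ Subgroup.center (SpecialLinearGroup K E))
    (h1 : 1 ≤ finrank K E) (hlt : finrank K E < p) (hL : Lines Φ)
    (hact : ∀ r ∈ R, ∃ σ g, ActX Φ π r σ g)
    {e : MonoidAlgebra k G} (he : IsBlockOf L e) (heR : e ∈ Fix (cj k G) R) (hbr : br R e ≠ 0)
    (hz1 : ∃ z ∈ SubAlg k L, z ∈ Fix (cj k G) (L ⊓ R) ∧ e = tr (cj k G) (L ⊓ R) L z)
    (hz2 : ∃ z ∈ SubAlg k L, z ∈ Fix (cj k G) R ∧ e = tr (cj k G) R (L ⊔ R) z) :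
    Cor (bO n) L R e := by
  classical
  have hp : p.Prime := Fact.out
  have hfG : Finite (SpecialLinearGroup K E) := finite_sl
  have hq1 : 1 < Nat.card K := Finite.one_lt_card
  have hζ0 : ζ ≠ 0 := by
    rintro rfl
    rw [zero_pow hp.ne_zero] at hζ
    exact zero_ne_one hζ
  have hp1 : p ∣ Nat.card K - 1 := by
    have h1 : orderOf (Units.mk0 ζ hζ0) = p := by
      apply orderOf_eq_prime
      · ext
        simpa using hζ
      · intro h
        exact hζ1 (by simpa using congrArg Units.val h)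
    rw [← Nat.card_units, ← h1]
    exact orderOf_dvd_natCard _
  have hK : ¬ p ∣ Nat.card K := by
    intro hd
    have h1 := Nat.dvd_sub hd hp1
    rw [Nat.sub_sub_self hq1.le, Nat.dvd_one] at h1
    exact hp.one_lt.ne' h1
  have hkc : π.ker ≤ Subgroup.center X := by
    intro z hz
    have h1 : z.1 ∈ Subgroup.center (SpecialLinearGroup K E) := hk ⟨z, hz, rfl⟩
    rw [Subgroup.mem_center_iff]
    intro g
    exact Subtype.ext (Subgroup.mem_center_iff.mp h1 g.1)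
  have hkcard : Nat.card π.ker = Nat.card (π.ker.map X.subtype) :=
    (Subgroup.card_map_of_injective X.subtype_injective).symm
  have hkp : ¬ p ∣ Nat.card π.ker := by
    intro hd
    obtain ⟨z, hz⟩ := exists_prime_orderOf_dvd_card' p hd
    have h1 : z.1.1 ^ p ^ 1 = 1 := by
      have h2 : z ^ p = 1 := by
        rw [← hz]
        exact pow_orderOf_eq_one z
      rw [pow_one]
      exact congrArg (fun w : π.ker => w.1.1) h2
    have h3 := Φ.scalar_eq_one hp hp2 hζ hζ1 hζθ (hXI z.1.2) (hk ⟨z.1, z.2, rfl⟩) h1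
    have h4 : z = 1 := Subtype.ext (Subtype.ext h3)
    rw [h4, orderOf_one] at hz
    exact hp.one_lt.ne hz
  obtain ⟨S, hS⟩ : ∃ S, S = (Φ.flagGeo hT hnorm hXI hV).sys p hp hK := ⟨_, rfl⟩
  have hc : ∀ V ∈ S.car, (Nat.card V).Coprime (Nat.card π.ker) := by
    rw [hS]
    rintro _ ⟨_, ⟨F, hF, rfl⟩, rfl⟩
    have h1 : Nat.card ((VF F).subgroupOf X) ∣ Nat.card (VF F) := by
      have e : Nat.card ((VF F).subgroupOf X) =
          Nat.card (VF F ⊓ X : Subgroup (SpecialLinearGroup K E)) := by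
        rw [← map_subgroupOf_eq]
        exact (Subgroup.card_map_of_injective X.subtype_injective).symm
      rw [e]
      exact Subgroup.card_dvd_of_le inf_le_left
    rw [hkcard]
    exact Nat.Coprime.coprime_dvd_left h1 (coprime_center hk F)
  have hQp : IsPGroup p (R.subgroupOf L) := hR.comap_of_injective L.subtype L.subtype_injective
  obtain ⟨Q₀, hQ₀, hQR⟩ := exists_lift (p := p) π hπ hQp
  -- the image in the special linear group
  obtain ⟨Q', hQ'⟩ : ∃ Q', Q' = Q₀.map X.subtype := ⟨_, rfl⟩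
  have hQ'p : IsPGroup p Q' := by rw [hQ']; exact hQ₀.map _
  have hQ'X : Q' ≤ X := by
    rw [hQ']
    rintro _ ⟨x, -, rfl⟩
    exact x.2
  have hQ'Q : Q'.subgroupOf X = Q₀ := by
    apply Subgroup.map_injective X.subtype_injective
    rw [map_subgroupOf_eq, inf_eq_left.mpr hQ'X, hQ']
  have hspan : Submodule.span K (BN.EV Q') = ⊤ := span_EV_of_lt hQ'p hp1 hlt
  have hQ'ab := comm_of_span hspan
  obtain ⟨F, N, ι, hι, b, α, w, hw, hα, hN0, hFN, hFp, hF, hB, hC⟩ :=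
    Φ.exists_sd_data hp hp2 hζ hζ1 hζθ (hQ'X.trans hXI) hQ'p hspan
  have hFS : Φ.SD F := ⟨N, hN0, hFN, hFp⟩
  have hN : ∀ l, α l < N := fun l => hF.self_mem_iff.mp (by rw [hFN]; trivial)
  have hpair : IsLeviPair ((VF F).subgroupOf X) Q₀ := by
    rw [← hQ'Q]
    exact (Φ.flagGeo hT hnorm hXI hV).levi hFS hF
      (Φ.dg_mem_X hXI (hV F hFS) hF hFN hFp hB) hQ'X hC
  have hcard : Fintype.card ι < p := by rw [← finrank_eq_card_basis b]; exact hlt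
  -- `|K| - 1`
  obtain ⟨s, N', hpN, hq⟩ : ∃ s N' : ℕ, ¬ p ∣ N' ∧ Nat.card K - 1 = p ^ s * N' :=
    Nat.exists_eq_pow_mul_and_not_dvd (by omega) p hp.ne_one
  have hs : 0 < s := by
    rw [Nat.pos_iff_ne_zero]
    intro h0
    rw [h0, pow_zero, one_mul] at hq
    rw [hq] at hp1
    exact hpN hp1
  obtain ⟨M₀, hM₀⟩ : ∃ M₀ : Subgroup X, M₀ = (M0 b α Q' N' (fun g => (hC g).mp)).subgroupOf X :=
    ⟨_, rfl⟩
  have hM₀' : ∀ x : X, x ∈ M₀ ↔ (x : SpecialLinearGroup K E) ∈ M0 b α Q' N'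
      (fun g => (hC g).mp) := by
    intro x
    rw [hM₀]
    exact Iff.rfl
  have hM₀C : ∀ x ∈ M₀, (x : SpecialLinearGroup K E) ∈
      Subgroup.centralizer (Q' : Set (SpecialLinearGroup K E)) := by
    intro x hx
    rw [hM₀'] at hx
    exact hx.1
  have hmemQ' : ∀ y ∈ Q₀, (y : SpecialLinearGroup K E) ∈ Q' := by
    intro y hy
    rw [hQ']
    exact ⟨y, hy, rfl⟩
  have hQ₀ab : ∀ x ∈ Q₀, ∀ y ∈ Q₀, x * y = y * x := fun x hx y hy =>
    Subtype.ext (hQ'ab x (hmemQ' x hx) y (hmemQ' y hy))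
  have hQab : ∀ x ∈ R.subgroupOf L, ∀ y ∈ R.subgroupOf L, x * y = y * x := by
    rw [← hQR]
    rintro _ ⟨x, hx, rfl⟩ _ ⟨y, hy, rfl⟩
    rw [← map_mul, ← map_mul, hQ₀ab x hx y hy]
  have hmemM : ∀ x, x ∈ (M₀.map π).map L.subtype ↔ ∃ x₀ ∈ M₀, ((π x₀ : L) : G) = x := by
    intro x
    constructor
    · rintro ⟨_, ⟨x₀, hx₀, rfl⟩, rfl⟩
      exact ⟨x₀, hx₀, rfl⟩
    · rintro ⟨x₀, hx₀, rfl⟩
      exact ⟨_, ⟨x₀, hx₀, rfl⟩, rfl⟩
  -- the elements of `R ∩ L`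
  have hlift : ∀ y ∈ R, ∀ hy : y ∈ L, ∃ y₀ ∈ Q₀, ((π y₀ : L) : G) = y := by
    intro y hy hyL
    have h1 : (⟨y, hyL⟩ : L) ∈ Q₀.map π := by
      rw [hQR]
      exact hy
    obtain ⟨y₀, hy₀, h⟩ := h1
    exact ⟨y₀, hy₀, congrArg Subtype.val h⟩
  have hMQ : ∀ x ∈ (M₀.map π).map L.subtype, ∀ y ∈ R, y ∈ L → y * x = x * y := by
    intro x hx y hy hyL
    obtain ⟨x₀, hx₀, rfl⟩ := (hmemM x).mp hx
    obtain ⟨y₀, hy₀, rfl⟩ := hlift y hy hyL
    have h1 : y₀ * x₀ = x₀ * y₀ :=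
      Subtype.ext (Subgroup.mem_centralizer_iff.mp (hM₀C x₀ hx₀) y₀ (hmemQ' y₀ hy₀))
    have h3 := congrArg (fun t => ((π t : L) : G)) h1
    simp only [map_mul] at h3
    exact h3
  -- the powers
  have hRpow : ∀ r ∈ R, ∃ m : ℕ, r ^ (p ^ m) = 1 := by
    intro r hr
    obtain ⟨m, hm⟩ := hR ⟨r, hr⟩
    exact ⟨m, congrArg Subtype.val hm⟩
  -- the blocks are preserved
  have hphi : ∀ r ∈ R, ∀ (σ : K ≃+* K) (g : E → E), ActX Φ π r σ g → ∃ φ : Q' → Q',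
      Function.Surjective φ ∧ ∀ x : Q',
        Tw g (x : SpecialLinearGroup K E) (φ x : SpecialLinearGroup K E) := by
    intro r hr σ g hg
    rw [hQ']
    exact exists_phiX hkc hkp hQ₀ hQR hr hg
  have hgb : ∀ r ∈ R, ∀ (σ : K ≃+* K) (g : E → E), ActX Φ π r σ g →
      ∀ l m, b.repr (g (b l)) m ≠ 0 → α m = α l := by
    intro r hr σ g hg l m hm
    obtain ⟨φ, hφ, hφg⟩ := hphi r hr σ g hg
    obtain ⟨j, hj⟩ := hRpow r hr
    have h1 := wt_fixed b w hw hcard hg.1 φ hφ hφg (m := j) (hg.per hk hV hL hj) l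
    rw [hα]
    exact wt_repr b w hw h1 hm
  have hVR : ∀ r ∈ R, ∀ v ∈ (((VF F).subgroupOf X).map π).map L.subtype,
      r * v * r⁻¹ ∈ (((VF F).subgroupOf X).map π).map L.subtype := by
    rintro r hr _ ⟨_, ⟨x, hx, rfl⟩, rfl⟩
    obtain ⟨σ, g, hg⟩ := hact r hr
    obtain ⟨y, hy, hxy⟩ := hg.2.2 x
    exact ⟨π y, ⟨y, VF_semi hF hg.1 (hgb r hr σ g hg) hy hx, rfl⟩, hxy.symm⟩
  have hMR : ∀ r ∈ R, ∀ m ∈ (M₀.map π).map L.subtype, r * m * r⁻¹ ∈ (M₀.map π).map L.subtype := by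
    intro r hr m hm
    obtain ⟨x, hx, rfl⟩ := (hmemM m).mp hm
    obtain ⟨σ, g, hg⟩ := hact r hr
    obtain ⟨y, hy, hxy⟩ := hg.2.2 x
    refine (hmemM _).mpr ⟨y, ?_, hxy.symm⟩
    obtain ⟨φ, hφ, hφg⟩ := hphi r hr σ g hg
    rw [hM₀'] at hx ⊢
    refine ⟨?_, fun i => ?_⟩
    · rw [Subgroup.mem_centralizer_iff]
      intro q hq
      obtain ⟨q', hq'⟩ := hφ ⟨q, hq⟩
      have h3 := hφg q'
      rw [hq'] at h3
      have h4 : (q' : SpecialLinearGroup K E) * x = x * q' :=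
        Subgroup.mem_centralizer_iff.mp hx.1 _ q'.2
      have h5 := h3.mul hy
      have h6 := hy.mul h3
      rw [← h4] at h6
      exact Tw.unique hg.1.bij.2 h5 h6
    · have h3 : bdet b α i (toEnd y.1) = σ (bdet b α i (toEnd x.1)) :=
        bdet_semi b α i hg.1 (hgb r hr σ g hg) (X := toEnd x.1) (Y := toEnd y.1) hy
      rw [h3, ← map_pow, hx.2 i, map_one]
  have hinf : ∀ x ∈ (M₀.map π).map L.subtype, x ∈ R → x = 1 := by
    intro x hx hxR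
    obtain ⟨x₀, hx₀, rfl⟩ := (hmemM x).mp hx
    obtain ⟨q, hq, hqx⟩ := hlift _ hxR (π x₀).2
    have hqx' : π q = π x₀ := Subtype.ext hqx
    have hzk : q⁻¹ * x₀ ∈ π.ker := by
      rw [MonoidHom.mem_ker, map_mul, map_inv, hqx', inv_mul_cancel]
    obtain ⟨m, hm⟩ := hQ₀ ⟨q, hq⟩
    have hm' : q ^ (p ^ m) = 1 := congrArg Subtype.val hm
    have hn' : (q⁻¹ * x₀) ^ Nat.card π.ker = 1 :=
      congrArg Subtype.val (pow_card_eq_one' (x := (⟨_, hzk⟩ : π.ker)))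
    rw [hM₀'] at hx₀
    have h3 := m0_inf hcard hC hw hα hpN hx₀ (hmemQ' q hq) (congrArg Subtype.val hm')
      (hk ⟨_, hzk, rfl⟩) hkp (congrArg Subtype.val hn')
      (show x₀.1 = q.1 * (q.1⁻¹ * x₀.1) by group)
    have h4 : q = 1 := Subtype.ext h3
    rw [← hqx', h4, map_one]
    rfl
  -- the maximality of `R ∩ L`
  obtain ⟨f, w', hf, hwL, hwF, hfw, hfR, hbf, hbrf⟩ := exists_stable hR hn hQab he heR hbr hz1
  have hMx : Mx p (R.subgroupOf L) := mx_of_tr hQp hQab hf.ne_zero hf.mem.1 hwF hfw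
  have hCe : Ce (R.subgroupOf L) = (Subgroup.centralizer (Q₀ : Set X)).map π := by
    rw [← hQR]
    exact centralizer_image π hπ hkc hkp hQ₀
  have hCX : ∀ x : X, x ∈ Subgroup.centralizer (Q₀ : Set X) ↔
      (x : SpecialLinearGroup K E) ∈ Subgroup.centralizer (Q' : Set (SpecialLinearGroup K E)) := by
    intro x
    rw [Subgroup.mem_centralizer_iff, Subgroup.mem_centralizer_iff]
    constructor
    · intro h y hy
      rw [hQ'] at hy
      obtain ⟨y, hy, rfl⟩ := hy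
      exact congrArg Subtype.val (h y hy)
    · intro h y hy
      exact Subtype.ext (h y.1 (hmemQ' y hy))
  have hcov : ∀ x ∈ L, (∀ y ∈ R, y ∈ L → y * x = x * y) →
      ∃ m ∈ (M₀.map π).map L.subtype, ∃ q ∈ L ⊓ R, x = m * q := by
    intro x hx hxc
    have h3 : (⟨x, hx⟩ : L) ∈ Ce (R.subgroupOf L) :=
      mem_Ce.mpr fun y hy => Subtype.ext (hxc y hy y.2)
    rw [hCe] at h3
    obtain ⟨x₀, hx₀, hx₀x⟩ := h3
    obtain ⟨m, hm, q, hqI, c, hcp, hqb, hxmq⟩ := exists_cov_iso Φ hp2 hζ hζ1 hζθ hcard hC hN hB hq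
      hpN hs (hXI x₀.2) ((hCX x₀).mp hx₀)
    have hqs : q ^ (p ^ s) = 1 := sl_ext b fun l => by
      rw [pow_apply_eigen (hqb l), hcp, one_smul]
      rfl
    have hqX : q ∈ X := mem_of_relIndex_dvd_two hX2 hqI (hp2.pow (n := s)) hqs
    have hmX : m ∈ X := by
      have h4 : m = x₀ * q⁻¹ := by rw [hxmq, mul_inv_cancel_right]
      rw [h4]
      exact X.mul_mem x₀.2 (X.inv_mem hqX)
    have hqC : (⟨q, hqX⟩ : X) ∈ Subgroup.centralizer (Q₀ : Set X) :=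
      (hCX _).mpr ((hC q).mpr (bd_diag hqb))
    have hqR : π ⟨q, hqX⟩ ∈ R.subgroupOf L := by
      refine hMx.max _ ?_ ?_ ⟨s, ?_⟩
      · rw [hCe]
        exact ⟨_, hqC, rfl⟩
      · intro y hy
        rw [hCe] at hy
        obtain ⟨y₀, hy₀, rfl⟩ := hy
        have h4 : (⟨q, hqX⟩ : X) * y₀ = y₀ * ⟨q, hqX⟩ := by
          have h5 := comm_of_BD (c := fun l => c (α l)) ((hC y₀.1).mp ((hCX y₀).mp hy₀)) hqb
            fun l m h => by simp only [h]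
          exact Subtype.ext h5
        rw [← map_mul, ← map_mul, h4]
      · rw [← map_pow]
        have h4 : (⟨q, hqX⟩ : X) ^ (p ^ s) = 1 := Subtype.ext hqs
        rw [h4, map_one]
    refine ⟨(π ⟨m, hmX⟩ : L), (hmemM _).mpr ⟨⟨m, hmX⟩, by rw [hM₀']; exact hm, rfl⟩,
      (π ⟨q, hqX⟩ : L), ⟨(π ⟨q, hqX⟩).2, hqR⟩, ?_⟩
    have h4 : π x₀ = π ⟨m, hmX⟩ * π ⟨q, hqX⟩ := by
      rw [← map_mul]
      congr 1
      exact Subtype.ext hxmq
    rw [hx₀x] at h4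
    exact congrArg Subtype.val h4
  -- the cyclic action
  obtain ⟨c, hcR, hcyc⟩ := exists_cycX (R := R) hact
  obtain ⟨R₂, hR₂⟩ : ∃ R₂, R₂ = R ⊓ (L ⊔ Subgroup.centralizer (L : Set G)) := ⟨_, rfl⟩
  have hLR₂ : L ⊓ R₂ = L ⊓ R := by
    rw [hR₂]
    refine le_antisymm (inf_le_inf_left _ inf_le_left) (le_inf inf_le_left (le_inf inf_le_right ?_))
    exact inf_le_left.trans le_sup_left
  have hinn : ∀ r ∈ R₂, ∃ q ∈ L ⊓ R₂, ∀ s ∈ L, r * s * r⁻¹ = q * s * q⁻¹ := by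
    obtain ⟨c₁, hc₁, hec₁⟩ := exists_coeff_of_br hbr
    obtain ⟨z, hz, hzF, hez⟩ := hz1
    have hc₁L : c₁ ∈ L := he.mem.1 c₁ hec₁
    refine inner_of_coeff (k := k) (p := p) (hR.to_le (by rw [hR₂]; exact inf_le_left)) ?_ (z := z)
      (e := e) (by rw [hLR₂]; exact hzF) (by rw [hLR₂]; exact hez) hc₁L
      (fun r hr => hc₁ r (by rw [hR₂] at hr; exact hr.1)) hec₁
    intro r hr
    rw [hR₂] at hr
    obtain ⟨s, hs, c, hc, h⟩ := mem_sup_of_commute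
      (fun s hs c hc => Subgroup.mem_centralizer_iff.mp hc s hs) hr.2
    exact ⟨s, hs, c, hc, h.symm⟩
  have hcyc' : ∀ r ∈ R, ∃ n : ℤ, ∀ m ∈ (M₀.map π).map L.subtype,
      r * m * r⁻¹ = c ^ n * m * (c ^ n)⁻¹ := by
    intro r hr
    obtain ⟨j, g, hg⟩ := hcyc r hr
    refine ⟨j, fun m hm => ?_⟩
    have hr₁ : (c ^ j)⁻¹ * r ∈ R := R.mul_mem (R.inv_mem (R.zpow_mem hcR j)) hr
    obtain ⟨a, ha⟩ := hRpow _ hr₁
    obtain ⟨s', hs', c', hc', hrs⟩ := hg.linear hp2 hζ hζ1 hζθ h1 hX2 hV hL hk hπ ha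
    have hr₂ : (c ^ j)⁻¹ * r ∈ R₂ := by
      rw [hR₂]
      refine ⟨hr₁, ?_⟩
      rw [hrs]
      exact Subgroup.mul_mem_sup hs' hc'
    obtain ⟨q, hq, hrq⟩ := hinn _ hr₂
    have hmL : m ∈ L := by
      obtain ⟨x₀, -, rfl⟩ := (hmemM m).mp hm
      exact (π x₀).2
    have h3 : (c ^ j)⁻¹ * r * m * ((c ^ j)⁻¹ * r)⁻¹ = m := by
      rw [hrq m hmL]
      rw [hLR₂] at hq
      rw [hMQ m hm q hq.2 hq.1, mul_inv_cancel_right]
    calc r * m * r⁻¹ = c ^ j * ((c ^ j)⁻¹ * r * m * ((c ^ j)⁻¹ * r)⁻¹) * (c ^ j)⁻¹ := by group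
      _ = _ := by rw [h3]
  have hmem : (VF F).subgroupOf X ∈ S.car := by
    rw [hS]
    exact ⟨VF F, ⟨F, hFS, rfl⟩, rfl⟩
  have hQ₀V : IsLeviPair (((VF F).subgroupOf X).map π) (R.subgroupOf L) := by
    rw [← hQR]
    exact pair_image π hπ hkc hkp hQ₀ (hc _ hmem) hpair
  have hML : (M₀.map π).map L.subtype ≤ L := by
    intro x hx
    obtain ⟨x₀, -, rfl⟩ := (hmemM x).mp hx
    exact (π x₀).2
  have hLv : S.HasLevi := by
    rw [hS]
    exact Φ.hasLeviT hp hK hT hnorm hXI hX2 hV hp2 hζ hζ1 hζθ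
  exact cor_outer hR hRn hn (imageSys π S hπ hkc hc)
    (hasLevi_image π hπ hkc hkp hc hLv) (V := ((VF F).subgroupOf X).map π)
    ⟨_, hmem, rfl⟩ hQ₀V hQab hVR hML hMQ hinf hcov hMR hcR hcyc' he heR hbr hz1 hz2

end Vale.Agent.P180.R2.H799.BS
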