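import Vale.Agent.P180.R2.H799.BS3
import Vale.Agent.P180.R2.H799.BNA1
import Vale.Agent.P180.R2.H799.BNG3
import Vale.Agent.P180.R2.H471.Hc7
import Vale.Agent.P180.R2.H471.Hc8

/-!
P180: the Harish-Chandra step for parabolic systems whose Levi subgroups are centralisers of
subgroups of exponent `p`.
-/

set_option linter.all false

namespace Vale.Agent.P180.R2.H799.BN

open Vale.Agent.P180 Vale.Agent.P180.H768.Gd Vale.Agent.P180.R2.H799
open Vale.Agent.P180.R2.H365 (br_self)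
open Vale.Agent.P180.R2.H471.Hc (OneBd exists_block_br tr_of_br)

universe u

section Grp

variable {p : ℕ} {G : Type*} [Group G]

/-- Each normaliser `N(V)` is the semidirect product of `V` and the centraliser of an abelian
subgroup of exponent `p`. -/
def LeviP (𝒮 : ParSys p G) : Prop :=
  ∀ V ∈ 𝒮.car, ∃ Z : Subgroup G, (∀ z ∈ Z, z ^ p = 1) ∧ (∀ x ∈ Z, ∀ y ∈ Z, x * y = y * x) ∧
    IsLeviPair V Z

theorem isPGroup_of_pow {Z : Subgroup G} (h : ∀ z ∈ Z, z ^ p = 1) : IsPGroup p Z := fun z =>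
  ⟨1, Subtype.ext (by rw [pow_one]; exact h z z.2)⟩

theorem LeviP.hasLevi {𝒮 : ParSys p G} (h : LeviP 𝒮) : 𝒮.HasLevi := by
  intro V hV
  obtain ⟨Z, h1, h2, h3⟩ := h V hV
  exact ⟨Z, isPGroup_of_pow h1, h2, h3⟩

theorem Lv.ce_eq [Finite G] {W Z Z' : Subgroup G} (h : Lv W Z) (h' : Lv W Z') (hle : Ce Z ≤ Ce Z') :
    Ce Z' = Ce Z := by
  refine le_antisymm (fun x hx => ?_) hle
  obtain ⟨w, hw, c, hc, e⟩ := h.cov x (h'.le hx)
  have h1 : w = x * c⁻¹ := by rw [e]; group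
  have h2 : w = 1 := h'.inf w hw (by rw [h1]; exact mul_mem hx (inv_mem (hle hc)))
  rw [e, h2, one_mul]
  exact hc

/-- A complement `C(Z₀)` of `W`: `Z₀` is conjugate into the largest `Z`. -/
theorem exists_conj_levi [Finite G] [Fact p.Prime] {W Z Z₀ : Subgroup G} (hW : ¬ p ∣ Nat.card W)
    (hL : Lv W Z) (hMx : Mx p Z) (hL₀ : Lv W Z₀) (hZ₀ : IsPGroup p Z₀)
    (hab₀ : ∀ x ∈ Z₀, ∀ y ∈ Z₀, x * y = y * x) : ∃ w ∈ W, ∀ z ∈ Z₀, w⁻¹ * z * w ∈ Z := by
  have hQC : Z₀ ≤ Ce Z₀ := fun x hx => mem_Ce.mpr fun y hy => hab₀ y hy x hx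
  have hQW : Z₀ ≤ Nm W := hQC.trans hL₀.le
  have hZW : Z ≤ Nm W := hMx.le.trans hL.le
  have hQA : Z₀ ≤ VZ W Z hZW := by
    intro q hq
    obtain ⟨w, hw, c, hc, hqc⟩ := hL.cov q (hQW hq)
    have hcN : c ∈ Nm W := hL.le hc
    refine ⟨w, hw, c, hMx.max c hc ?_ ?_, hqc⟩
    · intro y hy
      obtain ⟨v, hv, l, hl, hyv⟩ := hL₀.cov y (hL.le hy)
      have h1 : q * y * q⁻¹ * y⁻¹ ∈ W := by
        have h2 := mem_Ce.mp hl q hq
        have e : q * y * q⁻¹ * y⁻¹ = (q * v * q⁻¹) * v⁻¹ := by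
          rw [hyv]
          calc q * (v * l) * q⁻¹ * (v * l)⁻¹ = q * v * q⁻¹ * (q * l) * q⁻¹ * l⁻¹ * v⁻¹ := by group
            _ = q * v * q⁻¹ * (l * q) * q⁻¹ * l⁻¹ * v⁻¹ := by rw [h2]
            _ = _ := by group
        rw [e]
        exact W.mul_mem (Nm_mul_mem (hQW hq) hv) (W.inv_mem hv)
      have h3 : c * y * c⁻¹ * y⁻¹ ∈ W := by
        refine comm_mod (w := w) (u := 1) hcN (hL.le hy) hw W.one_mem ?_
        rw [← hqc, one_mul]
        exact h1
      have h4 : c * y * c⁻¹ * y⁻¹ = 1 := by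
        refine hL.inf _ h3 ?_
        exact (Ce Z).mul_mem ((Ce Z).mul_mem ((Ce Z).mul_mem hc hy) ((Ce Z).inv_mem hc))
          ((Ce Z).inv_mem hy)
      have h6 : c * y * c⁻¹ * y⁻¹ * (y * c) = c * y := by group
      rw [← h6, h4, one_mul]
    · obtain ⟨m, hm⟩ := hZ₀ ⟨q, hq⟩
      have hm' : q ^ p ^ m = 1 := congrArg Subtype.val hm
      refine ⟨m, ?_⟩
      obtain ⟨w', hw', hw2⟩ := pow_mod hw hcN (p ^ m)
      rw [← hqc, hm'] at hw2
      refine hL.inf _ ?_ ((Ce Z).pow_mem hc _)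
      have e : c ^ p ^ m = w'⁻¹ := (inv_eq_of_mul_eq_one_right hw2.symm).symm
      rw [e]
      exact W.inv_mem hw'
  exact exists_conj (A := VZ W Z hZW) (E := Z) (P := Z₀) (V := W)
    (fun z hz => ⟨1, W.one_mem, z, hz, (one_mul z).symm⟩) hQA
    (fun v hv => ⟨v, hv, 1, Z.one_mem, (mul_one v).symm⟩) hZ₀ hW (by
      rintro _ ⟨v, hv, z, hz, rfl⟩
      exact ⟨v, hv, by rw [inv_mul_cancel_left]; exact hz⟩)

/-- The largest homothety group contains a subgroup of exponent `p` with the same centraliser. -/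
theorem exists_expP [Finite G] [Fact p.Prime] {𝒮 : ParSys p G} (hLv : LeviP 𝒮) {W Z : Subgroup G}
    (hW : W ∈ 𝒮.car) (hL : Lv W Z) (hMx : Mx p Z) :
    ∃ Z₁ : Subgroup G, Z₁ ≤ Z ∧ (∀ z ∈ Z₁, z ^ p = 1) ∧ Ce Z₁ = Ce Z := by
  obtain ⟨Z₀, he, hab, hpair⟩ := hLv W hW
  have hL₀ := lv_of_pair hpair
  obtain ⟨w, hw, hwZ⟩ := exists_conj_levi (𝒮.card W hW) hL hMx hL₀ (isPGroup_of_pow he) hab
  have hle : conjS w⁻¹ Z₀ ≤ Z := by
    intro z hz
    have h1 := hwZ _ (mem_conjS.mp hz)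
    have e : w⁻¹ * ((w⁻¹)⁻¹ * z * w⁻¹) * w = z := by group
    rwa [e] at h1
  have hL1 : Lv W (conjS w⁻¹ Z₀) := by
    have h1 := hL₀.conj w⁻¹
    rwa [conjS_eq_of_mem_Nm (le_Nm W (W.inv_mem hw))] at h1
  refine ⟨conjS w⁻¹ Z₀, hle, ?_, hL.ce_eq hL1 (Subgroup.centralizer_le hle)⟩
  intro z hz
  have h1 := he _ (mem_conjS.mp hz)
  have h2 : ((w⁻¹)⁻¹ * z * w⁻¹) ^ p = w * z ^ p * w⁻¹ := by
    rw [inv_inv]
    exact conj_pow
  rw [h2] at h1
  have h3 : z ^ p = w⁻¹ * (w * z ^ p * w⁻¹) * w := by group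
  rw [h3, h1]
  group

end Grp

section Main

variable {k : Type u} [Field k] {p : ℕ} [Fact p.Prime] [CharP k p] {G : Type} [Group G] [Finite G]

/-- The idempotent of `kL` from `OneBd` for a subgroup `L`. -/
theorem exists_j {L Q : Subgroup G} (hQL : Q ≤ L) {f w : MonoidAlgebra k G} (hf : IsBlockOf L f)
    (hwL : w ∈ SubAlg k L) (hwF : w ∈ Fix (cj k G) Q) (hfw : f = tr (cj k G) Q L w)
    (hbr : br Q f ≠ 0) {C : ℕ} (hC : OneBd k (Q.subgroupOf L) C) :
    ∃ j ∈ SubAlg k L, j ∈ Fix (cj k G) Q ∧ j * j = j ∧ f * j = j ∧ br Q j ≠ 0 ∧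
      Module.finrank k (NN (SubAlg k L) j j) ≤ C := by
  obtain ⟨f', rfl⟩ := exists_incl L hf.mem.1
  obtain ⟨w', rfl⟩ := exists_incl L hwL
  have hmap : (Q.subgroupOf L).map L.subtype = Q := by
    rw [Subgroup.subgroupOf_map_subtype, inf_eq_left.mpr hQL]
  have he' : IsBlockOf (⊤ : Subgroup L) f' := by
    unfold IsBlockOf
    rw [ZAlg_top]
    exact (isBlockOf_incl_iff L f').mp hf
  have hw'F : w' ∈ Fix (cj k L) (Q.subgroupOf L) := by
    rw [← incl_mem_Fix_iff, hmap]; exact hwF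
  have hf'w : f' = tr (cj k L) (Q.subgroupOf L) ⊤ w' := by
    apply incl_injective (k := k) L
    rw [incl_tr L (Q.subgroupOf L) hw'F, hmap]
    exact hfw
  have hbr' : br (Q.subgroupOf L) f' ≠ 0 := by
    intro h0
    apply hbr
    rw [← hmap, ← Vale.Agent.P180.R2.H365.Src.incl_br, h0, map_zero]
  obtain ⟨i, hi, hii, hfi, hbi, hdi⟩ := hC f' w' he' hw'F hf'w hbr'
  refine ⟨incl k L i, incl_mem L i, ?_, ?_, ?_, ?_, ?_⟩
  · have h1 := (incl_mem_Fix_iff L (Q.subgroupOf L) i).mpr hi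
    rwa [hmap] at h1
  · rw [← map_mul, hii]
  · rw [← map_mul, hfi]
  · intro h0
    apply hbi
    apply incl_injective (k := k) L
    rw [Vale.Agent.P180.R2.H365.Src.incl_br, hmap, h0, map_zero]
  · exact (H365.finrank_NN_incl L i).trans hdi

/-- From an idempotent of `f kG` to an idempotent of the block `e`, where `f` is a block of
`k C(Z)` below `e`. -/
theorem oneBd_aux2 {Q Z : Subgroup G} (hQ : IsPGroup p Q) (hZQ : Z ≤ Q) (hQZ : Q ≤ Ce Z)
    {e f F : MonoidAlgebra k G}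
    (he : IsBlockOf (⊤ : Subgroup G) e) (hf : IsBlockOf (Ce Z) f) (hef : br Q e * br Q f ≠ 0)
    (hFQ : F ∈ Fix (cj k G) Q) (hFF : F * F = F) (hfF : f * F = F) (hbr : br Q F ≠ 0) {C : ℕ}
    (hdim : Module.finrank k (NN (⊤ : Subalgebra k (MonoidAlgebra k G)) F F) ≤ C) :
    ∃ i ∈ Fix (cj k G) Q, i * i = i ∧ e * i = i ∧ br Q i ≠ 0 ∧
      Module.finrank k (NN (⊤ : Subalgebra k (MonoidAlgebra k G)) i i) ≤ C := by
  have hfin : FiniteDimensional k (MonoidAlgebra k G) :=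
    Module.Finite.equiv (MonoidAlgebra.coeffLinearEquiv k (M := G) (S := k)).symm
  have hec : ∀ x : MonoidAlgebra k G, x * e = e * x := fun x =>
    commute_of_mem (SubAlg_top x) he.mem.2
  have heQ : e ∈ Fix (cj k G) Q := Fix_mono _ le_top he.mem.2
  have heZ : e ∈ Fix (cj k G) Z := Fix_mono _ le_top he.mem.2
  have hfL : f ∈ SubAlg k (Ce Z) := hf.mem.1
  have hfQ : f ∈ Fix (cj k G) Q := Fix_mono _ hQZ hf.mem.2
  have hbeL : br Z e ∈ SubAlg k (Ce Z) := by
    intro g hg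
    rw [br_coeff] at hg
    split_ifs at hg with h
    · exact h
    · exact absurd rfl hg
  have hbeF : br Z e ∈ Fix (cj k G) (Ce Z) := by
    intro g hg
    have h1 : g ∈ Subgroup.normalizer (Z : Set G) := Ce_le_Nm Z hg
    have h2 := br_cj_norm (k := k) h1 e
    rw [he.mem.2 g trivial] at h2
    exact h2.symm
  have hZp : IsPGroup p Z := hQ.to_le hZQ
  have hbee : br Z e * br Z e = br Z e := by
    rw [← br_mul hZp heZ heZ, he.idem.eq]
  have hbeQ : br Z e ∈ Fix (cj k G) Q := Fix_mono _ hQZ hbeF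
  have hbb : br Q (br Z e) = br Q e := br_br hZQ e
  -- `br Z e * f = f`
  have h1 : br Z e * f = f := by
    have hcf : br Z e * f = f * br Z e := commute_of_mem hbeL hf.mem.2
    rcases hf.primitive (br Z e * f) ⟨Subalgebra.mul_mem _ hbeL hfL,
      Subalgebra.mul_mem _ hbeF hf.mem.2⟩ (by
        change br Z e * f * (br Z e * f) = br Z e * f
        calc br Z e * f * (br Z e * f) = br Z e * (f * br Z e) * f := by simp only [mul_assoc]
          _ = (br Z e * br Z e) * (f * f) := by rw [← hcf]; simp only [mul_assoc]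
          _ = _ := by rw [hbee, hf.idem.eq]) (by rw [mul_assoc, hf.idem.eq]) with h | h
    · exfalso
      apply hef
      rw [← hbb, ← br_mul hQ hbeQ hfQ, h]
      exact br_self (Subalgebra.zero_mem _)
    · exact h
  have h2 : br Q e * br Q f = br Q f := by
    rw [← hbb, ← br_mul hQ hbeQ hfQ, h1]
  refine ⟨e * F, Subalgebra.mul_mem _ heQ hFQ, ?_, ?_, ?_, ?_⟩
  · calc e * F * (e * F) = e * (F * e) * F := by simp only [mul_assoc]
      _ = (e * e) * (F * F) := by rw [hec]; simp only [mul_assoc]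
      _ = _ := by rw [he.idem.eq, hFF]
  · rw [← mul_assoc, he.idem.eq]
  · have h3 : br Q F = br Q f * br Q F := by
      conv_lhs => rw [← hfF]
      rw [br_mul hQ hfQ hFQ]
    rw [br_mul hQ heQ hFQ, h3, ← mul_assoc, h2, ← h3]
    exact hbr
  · refine (Submodule.finrank_mono ?_).trans hdim
    rintro x ⟨hx, hx1, hx2⟩
    refine ⟨hx, ?_, ?_⟩
    · conv_lhs => rw [← hx1]
      calc F * (e * F * x) = (F * e) * F * x := by simp only [mul_assoc]
        _ = e * (F * F) * x := by rw [hec]; simp only [mul_assoc]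
        _ = x := by rw [hFF, hx1]
    · conv_lhs => rw [← hx2]
      calc x * (e * F) * F = x * (e * (F * F)) := by simp only [mul_assoc]
        _ = x := by rw [hFF, hx2]

/-- `Z ≤ Q` if `Z` is central in `L` and a block of `kL` is a relative trace from `Q`. -/
theorem le_of_tr {L Z Q : Subgroup G} (hQL : Q ≤ L) (hZL : Z ≤ L) (hZp : IsPGroup p Z)
    (hZc : ∀ z ∈ Z, ∀ l ∈ L, z * l = l * z)
    {f w : MonoidAlgebra k G} (hf : f ∈ SubAlg k L) (hf0 : f ≠ 0) (hwF : w ∈ Fix (cj k G) Q)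
    (hfw : f = tr (cj k G) Q L w) : Z ≤ Q := by
  obtain ⟨c, hc⟩ : ∃ c, f.coeff c ≠ 0 := by
    by_contra hcon
    push Not at hcon
    apply hf0
    apply MonoidAlgebra.coeff_injective
    ext c
    exact hcon c
  have hcL : c ∈ L := hf c hc
  intro x hx
  obtain ⟨y, hy, hyx⟩ := conj_le_of_coeff (N := L) (P := Q) (Q := Z) hQL hZL hZp hwF hfw (c := c)
    (fun h hh => by rw [hZc h hh c hcL, mul_inv_cancel_right]) hc
  have h1 := hyx x hx
  have h2 : y⁻¹ * x * y = x := by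
    rw [mul_assoc, hZc x hx y hy, ← mul_assoc, inv_mul_cancel, one_mul]
  rwa [h2] at h1

theorem oneBd_hc0 (𝒮 : ParSys p G) (hLv : LeviP 𝒮) {V Z Q : Subgroup G} (hV : V ∈ 𝒮.car)
    (hL : Lv V Z) (hMx : Mx p Z) (hQ : IsPGroup p Q) (hQZ : Q ≤ Ce Z) (hCQ : Ce Q ≤ Ce Z)
    (hcen : ∀ x ∈ Q, x ^ p = 1 → ∀ l ∈ Ce Z, x * l = l * x) {C : ℕ}
    (hC : OneBd k (Q.subgroupOf (Ce Z)) C) :
    OneBd k Q ((Nat.card Q).factorial * (C * C)) := by
  classical
  intro e a he ha hea hbr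
  have hpV := 𝒮.card V hV
  obtain ⟨f, hf, hef⟩ := exists_block_br (Ce Z) Q hbr
  obtain ⟨w, hwL, hwF, hfw⟩ := tr_of_br hQZ hQ hCQ he.idem.eq ha hea hf hef
  have hbf : br Q f ≠ 0 := fun h => hef (by rw [h, mul_zero])
  have hZQ : Z ≤ Q := le_of_tr hQZ hMx.le hMx.pg (fun z hz l hl => mem_Ce.mp hl z hz) hf.mem.1
    hf.ne_zero hwF hfw
  obtain ⟨j, hjL, hjQ, hjj, hfj, hbj, hdj⟩ := exists_j hQZ hf hwL hwF hfw hbf hC
  -- fullness
  have hfull : f ∈ Submodule.span k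
      {z | ∃ x ∈ SubAlg k (Ce Z), ∃ y ∈ SubAlg k (Ce Z), z = x * j * y} := by
    obtain ⟨u, huL, huF, -, hfu⟩ := gen_sub hQZ hQ hf hwL hwF hfw hjL hjQ hjj (by
      rw [commute_of_mem hjL hf.mem.2, hfj]
      exact hbj)
    have _ := Fintype.ofFinite (Ce Z ⧸ Q.subgroupOf (Ce Z))
    rw [hfu, tr_def]
    refine Submodule.sum_mem _ fun q _ => Submodule.subset_span
      ⟨MonoidAlgebra.single ((q.out : Ce Z) : G) 1, single_mem_SubAlg (q.out : Ce Z).2 1,
        u * MonoidAlgebra.single ((q.out : Ce Z) : G)⁻¹ 1,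
        Subalgebra.mul_mem _ huL (single_mem_SubAlg ((Ce Z).inv_mem (q.out : Ce Z).2) 1), ?_⟩
    rw [cj_eq]
    simp only [mul_assoc]
  -- cuspidality
  have hcusp : ∀ W ∈ 𝒮.car, V ≤ W → Nm W ≤ Nm V → (∃ x ∈ W, x ∉ V) → f * av k W = 0 := by
    rintro W hW hVW hN ⟨x, hx, hxV⟩
    refine cusp' 𝒮 hLv.hasLevi hV hL hMx.pg hMx.ab hwL hwF hfw hf.idem.eq ?_
      (Nat.card G + 1) W hW hVW hN ?_ (by omega)
    · intro W hW hVW hN hne Z' hMx' hL' hZZ' x hx
      by_contra hcon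
      push Not at hcon
      obtain ⟨Z₁, hle, hexp, hCe⟩ := exists_expP hLv hW hL' hMx'
      have h1 : Ce Z ≤ Ce Z' := by
        rw [← hCe]
        intro l hl
        refine mem_Ce.mpr fun z hz => ?_
        have h2 := hcon z (hle hz)
        have h3 : (x⁻¹ * z * x) ^ p = 1 := by
          have h4 := conj_pow (a := x⁻¹) (b := z) (i := p)
          rw [inv_inv] at h4
          rw [h4, hexp z hz]
          group
        have h4 := hcen _ h2 h3 (x⁻¹ * l * x) (mul_mem (mul_mem (inv_mem hx) hl) hx)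
        have h5 : z * l = x * ((x⁻¹ * z * x) * (x⁻¹ * l * x)) * x⁻¹ := by group
        rw [h5, h4]
        group
      apply hne
      refine le_antisymm (fun w hw => ?_) hVW
      obtain ⟨v, hv, l, hl, e1⟩ := hL.cov w (((le_Nm W).trans hN) hw)
      have hlW : l ∈ W := by
        have : l = v⁻¹ * w := by rw [e1]; group
        rw [this]
        exact W.mul_mem (W.inv_mem (hVW hv)) hw
      have hl1 : l = 1 := hL'.inf l hlW (h1 hl)
      rw [e1, hl1, mul_one]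
      exact hv
    · rintro rfl
      exact hxV hx
  -- the idempotent `F`
  have hεε : av k V * av k V = av k V := av_idem (card_ne (p := p) hpV)
  have hεL : ∀ x ∈ SubAlg k (Ce Z), x * av k V = av k V * x := fun x hx => av_comm hL.le hx
  have hεF : av k V ∈ Fix (cj k G) Q := by
    intro q hq
    rw [cj_av, conjS_eq_of_mem_Nm (hL.le (hQZ hq))]
  have hFQ : j * av k V ∈ Fix (cj k G) Q := Subalgebra.mul_mem _ hjQ hεF
  have hFF : (j * av k V) * (j * av k V) = j * av k V := by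
    calc j * av k V * (j * av k V) = j * (av k V * j) * av k V := by simp only [mul_assoc]
      _ = (j * j) * (av k V * av k V) := by rw [← hεL j hjL]; simp only [mul_assoc]
      _ = _ := by rw [hjj, hεε]
  have hfF : f * (j * av k V) = j * av k V := by rw [← mul_assoc, hfj]
  have hbrF : br Q (j * av k V) ≠ 0 := by
    rw [br_mul hQ hjQ hεF, br_av hQ hpV (fun x hx hx' => hL.inf x hx (hCQ hx')), mul_smul_comm,
      mul_one]
    exact smul_ne_zero (inv_ne_zero (card_ne (p := p) hpV)) hbj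
  refine oneBd_aux2 hQ hZQ hQZ he hf hef hFQ hFF hfF hbrF ?_
  refine (corner_av 𝒮 hV hL hMx hf hcusp hjL hjj hfj hfull).trans ?_
  have hcard : Nat.card Z ≤ Nat.card Q :=
    Nat.card_le_card_of_injective _ (Subgroup.inclusion_injective hZQ)
  exact Nat.mul_le_mul ((relIndex_le Z).trans (Nat.factorial_le hcard)) (Nat.mul_le_mul hdj hdj)

/-- **The Harish-Chandra step.** Let the Levi subgroups of the parabolic system be centralisers of
abelian subgroups of exponent `p`; let `N(V)` be the semidirect product of `V` and `L = C(Z)`, and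
let `Q` be a `p`-subgroup of `L` with `C(Q) ≤ L` such that the elements of order `p` of `Q` are
central in `L`. Then a bound for the blocks of `L` with defect group `Q` gives a bound for the
blocks of `G` with defect group `Q`. -/
theorem oneBd_hc (𝒮 : ParSys p G) (hLv : LeviP 𝒮) {V Z Q : Subgroup G} (hV : V ∈ 𝒮.car)
    (hL : Lv V Z) (hZ : IsPGroup p Z) (hZab : ∀ x ∈ Z, ∀ y ∈ Z, x * y = y * x)
    (hQ : IsPGroup p Q) (hQZ : Q ≤ Ce Z) (hCQ : Ce Q ≤ Ce Z)
    (hcen : ∀ x ∈ Q, x ^ p = 1 → ∀ l ∈ Ce Z, x * l = l * x) {C : ℕ}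
    (hC : OneBd k (Q.subgroupOf (Ce Z)) C) :
    OneBd k Q ((Nat.card Q).factorial * (C * C)) := by
  obtain ⟨Z', hMx, hCe, -⟩ := exists_Mx hZ hZab
  refine oneBd_hc0 𝒮 hLv hV (hL.congr hCe) hMx hQ (by rw [hCe]; exact hQZ) (by rw [hCe]; exact hCQ)
    (fun x hx hxp l hl => hcen x hx hxp l (by rw [← hCe]; exact hl)) (C := C) ?_
  rw [hCe]
  exact hC

end Main

end Vale.Agent.P180.R2.H799.BN
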