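import Vale.Agent.P180.R2.H954.Hc3a

/-!
P180: the decomposition of a vector space over a finite field under a commutative group of order
prime to the characteristic (for a homomorphism to the endomorphism ring).
-/

set_option linter.all false

namespace Vale.Agent.P180.R2.H799.BV

open Module Vale.Agent.P180.R2.H854 Vale.Agent.P180.R2.H954.Hc

/-- A decomposition of `E` under `Q`. -/
structure DecG {K E Q : Type} [Field K] [AddCommGroup E] [Module K E] [Group Q]
    (ρ : Q →* End K E) where
  /-- the number of summands -/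
  r : ℕ
  /-- the projections -/
  e : Fin r → End K E
  idem : ∀ i, e i * e i = e i
  orth : ∀ i j, i ≠ j → e i * e j = 0
  sum : ∑ i, e i = 1
  ne : ∀ i, e i ≠ 0
  mem : ∀ i, e i ∈ Submodule.span K (Set.range ρ)
  cyc : ∀ i, ∃ (F : Type) (_ : Field F) (_ : Finite F) (χ : Q →* Fˣ),
    ∀ q : Q, χ q = 1 ↔ ρ q * e i = e i

/-- **Decomposition of a module under a commutative group.** -/
theorem exists_decG {K E Q : Type} [Field K] [Finite K] [AddCommGroup E] [Module K E]
    [Group Q] [Finite Q] (hQ : (Nat.card K).Coprime (Nat.card Q)) (hab : ∀ x y : Q, x * y = y * x)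
    (ρ : Q →* End K E) : Nonempty (DecG ρ) := by
  classical
  letI : CommGroup Q := { (inferInstance : Group Q) with mul_comm := hab }
  have hred : IsReduced (MonoidAlgebra K Q) := isReduced hQ
  have hfin : Finite (MonoidAlgebra K Q) := by
    have h1 : Module.Finite K (MonoidAlgebra K Q) :=
      Module.Finite.equiv (MonoidAlgebra.coeffLinearEquiv K (M := Q) (S := K)).symm
    exact Module.finite_of_finite K
  have hart : IsArtinianRing (MonoidAlgebra K Q) := inferInstance
  have hMfin : Finite (MaximalSpectrum (MonoidAlgebra K Q)) := inferInstance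
  let Φ : MonoidAlgebra K Q →ₐ[K] End K E := MonoidAlgebra.lift K (End K E) Q ρ
  have hΦ : ∀ q : Q, Φ (MonoidAlgebra.single q 1) = ρ q := by
    intro q
    change MonoidAlgebra.lift K (End K E) Q ρ (MonoidAlgebra.single q 1) = _
    rw [MonoidAlgebra.lift_single, one_smul]
  let ψ := IsArtinianRing.equivPi (MonoidAlgebra K Q)
  let ε : MaximalSpectrum (MonoidAlgebra K Q) → MonoidAlgebra K Q := fun I => ψ.symm (Pi.single I 1)
  have hεI : ∀ I, ε I * ε I = ε I := by
    intro I
    change ψ.symm _ * ψ.symm _ = ψ.symm _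
    rw [← map_mul, ← Pi.single_mul, one_mul]
  have hεIJ : ∀ I J, I ≠ J → ε I * ε J = 0 := by
    intro I J hIJ
    change ψ.symm _ * ψ.symm _ = 0
    rw [← map_mul]
    have : (Pi.single I 1 : ∀ I : MaximalSpectrum (MonoidAlgebra K Q), MonoidAlgebra K Q ⧸ I.asIdeal) *
        Pi.single J 1 = 0 := by
      funext L
      rw [Pi.mul_apply, Pi.zero_apply]
      by_cases hL : L = I
      · subst hL
        rw [Pi.single_eq_of_ne hIJ, mul_zero]
      · rw [Pi.single_eq_of_ne hL, zero_mul]
    rw [this, map_zero]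
  have := Fintype.ofFinite (MaximalSpectrum (MonoidAlgebra K Q))
  have hεs : ∑ I, ε I = 1 := by
    change ∑ I, ψ.symm (Pi.single I 1) = 1
    rw [← map_sum]
    have : ∑ I : MaximalSpectrum (MonoidAlgebra K Q), (Pi.single I 1 :
        ∀ I : MaximalSpectrum (MonoidAlgebra K Q), MonoidAlgebra K Q ⧸ I.asIdeal) = 1 := by
      exact Finset.univ_sum_single (1 : ∀ I : MaximalSpectrum (MonoidAlgebra K Q),
        MonoidAlgebra K Q ⧸ I.asIdeal)
    rw [this, map_one]
  have hmem : ∀ I x, x * ε I = 0 ↔ x ∈ I.asIdeal := by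
    intro I x
    have h1 : x * ε I = 0 ↔ ψ (x * ε I) = 0 := by
      rw [map_eq_zero_iff ψ ψ.injective]
    rw [h1, map_mul]
    have h2 : ψ (ε I) = Pi.single I 1 := ψ.apply_symm_apply _
    rw [h2]
    constructor
    · intro h
      have h3 := congrFun h I
      rw [Pi.mul_apply, Pi.single_eq_same, mul_one, Pi.zero_apply] at h3
      exact Ideal.Quotient.eq_zero_iff_mem.mp h3
    · intro h
      funext L
      rw [Pi.mul_apply, Pi.zero_apply]
      by_cases hL : L = I
      · subst hL
        rw [Pi.single_eq_same, mul_one]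
        exact Ideal.Quotient.eq_zero_iff_mem.mpr h
      · rw [Pi.single_eq_of_ne hL, mul_zero]
  have hspan : ∀ x, Φ x ∈ Submodule.span K (Set.range ρ) := by
    intro x
    induction x using MonoidAlgebra.induction_linear with
    | zero => rw [map_zero]; exact Submodule.zero_mem _
    | add x y hx hy => rw [map_add]; exact Submodule.add_mem _ hx hy
    | single q c =>
      have h2 : MonoidAlgebra.single q c = c • MonoidAlgebra.single q (1 : K) := by
        rw [MonoidAlgebra.smul_single, smul_eq_mul, mul_one]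
      rw [h2, map_smul, hΦ]
      exact Submodule.smul_mem _ _ (Submodule.subset_span ⟨q, rfl⟩)
  -- reindex
  let T := {I : MaximalSpectrum (MonoidAlgebra K Q) // Φ (ε I) ≠ 0}
  let eqv := Fintype.equivFin T
  refine ⟨⟨Fintype.card T, fun i => Φ (ε (eqv.symm i).1), ?_, ?_, ?_, ?_, ?_, ?_⟩⟩
  · intro i
    rw [← map_mul, hεI]
  · intro i j hij
    rw [← map_mul, hεIJ, map_zero]
    intro h
    exact hij (eqv.symm.injective (Subtype.ext h))
  · rw [Equiv.sum_comp eqv.symm (fun I : T => Φ (ε I.1))]
    have h1 : ∑ I : T, Φ (ε I.1) = ∑ I, Φ (ε I) := by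
      refine Eq.trans ?_ (Finset.sum_filter_ne_zero (s := Finset.univ) (f := fun I => Φ (ε I)))
      exact (Finset.sum_subtype (Finset.univ.filter fun I => Φ (ε I) ≠ 0)
        (fun x => by rw [Finset.mem_filter]; exact ⟨fun h => h.2, fun h => ⟨Finset.mem_univ _, h⟩⟩)
        (fun I => Φ (ε I))).symm
    rw [h1, ← map_sum, hεs, map_one]
  · intro i
    exact (eqv.symm i).2
  · intro i
    exact hspan _
  · intro i
    set I := (eqv.symm i).1 with hI
    have hfield : IsField (MonoidAlgebra K Q ⧸ I.asIdeal) :=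
      (Ideal.Quotient.maximal_ideal_iff_isField_quotient _).mp I.isMaximal
    have hFf : Finite (MonoidAlgebra K Q ⧸ I.asIdeal) :=
      Finite.of_surjective _ Ideal.Quotient.mk_surjective
    refine ⟨MonoidAlgebra K Q ⧸ I.asIdeal, hfield.toField, hFf, ?_⟩
    refine ⟨(Units.map (Ideal.Quotient.mk I.asIdeal).toMonoidHom).comp
      (MonoidAlgebra.of K Q).toHomUnits, fun q => ?_⟩
    have h1 : (Units.map (Ideal.Quotient.mk I.asIdeal).toMonoidHom).comp
      (MonoidAlgebra.of K Q).toHomUnits q = 1 ↔
        (MonoidAlgebra.single q (1 : K) - 1) ∈ I.asIdeal := by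
      rw [← Ideal.Quotient.eq_zero_iff_mem, map_sub, sub_eq_zero, map_one, Units.ext_iff]
      rfl
    have h2 : Φ ((MonoidAlgebra.single q (1 : K) - 1) * ε I) = 0 ↔
        ρ q * Φ (ε I) = Φ (ε I) := by
      rw [map_mul, map_sub, map_one, sub_mul, one_mul, sub_eq_zero, hΦ]
    refine Iff.trans h1 (Iff.trans ?_ h2)
    rw [← hmem]
    refine ⟨fun h => by rw [h, map_zero], fun h => ?_⟩
    by_contra hne
    rw [hmem] at hne
    have hne' : Ideal.Quotient.mk I.asIdeal (MonoidAlgebra.single q (1 : K) - 1) ≠ 0 := by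
      rw [Ne, Ideal.Quotient.eq_zero_iff_mem]
      exact hne
    obtain ⟨y, hy⟩ := hfield.mul_inv_cancel hne'
    obtain ⟨y, rfl⟩ := Ideal.Quotient.mk_surjective y
    have h3 : ((MonoidAlgebra.single q (1 : K) - 1) * y - 1) ∈ I.asIdeal := by
      rw [← Ideal.Quotient.eq_zero_iff_mem, map_sub, map_mul, hy, map_one, sub_self]
    rw [← hmem, sub_mul, one_mul, sub_eq_zero] at h3
    apply (eqv.symm i).2
    change Φ (ε I) = 0
    rw [← h3, mul_assoc, mul_comm y, ← mul_assoc, map_mul, h, zero_mul]

namespace DecG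

variable {K E Q : Type} [Field K] [AddCommGroup E] [Module K E] [Group Q] {ρ : Q →* End K E}
  (D : DecG ρ)

theorem comm {a : End K E} (h : ∀ q, a * ρ q = ρ q * a) (i : Fin D.r) : a * D.e i = D.e i * a := by
  have h1 : ∀ x ∈ Submodule.span K (Set.range ρ), a * x = x * a := by
    intro x hx
    induction hx using Submodule.span_induction with
    | mem x hx =>
      obtain ⟨q, rfl⟩ := hx
      exact h q
    | zero => simp
    | add x y _ _ hx hy => rw [mul_add, add_mul, hx, hy]
    | smul c x _ hx => rw [mul_smul_comm, smul_mul_assoc, hx]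
  exact h1 _ (D.mem i)

theorem linInd : LinearIndependent K D.e := by
  classical
  rw [Fintype.linearIndependent_iff]
  intro g hg i
  have h1 : D.e i * ∑ j, g j • D.e j = 0 := by rw [hg, mul_zero]
  rw [Finset.mul_sum, Finset.sum_eq_single i] at h1
  · rw [mul_smul_comm, D.idem] at h1
    rcases smul_eq_zero.mp h1 with h | h
    · exact h
    · exact absurd h (D.ne i)
  · intro j _ hj
    rw [mul_smul_comm, D.orth i j (Ne.symm hj), smul_zero]
  · intro h
    exact absurd (Finset.mem_univ i) h

theorem r_le [Finite Q] [FiniteDimensional K E] : D.r ≤ Nat.card Q := by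
  classical
  have _ := Fintype.ofFinite Q
  have h1 : LinearIndependent K (fun i => (⟨D.e i, D.mem i⟩ : Submodule.span K (Set.range ρ))) := by
    refine LinearIndependent.of_comp (Submodule.span K (Set.range ρ)).subtype ?_
    exact D.linInd
  have h2 := h1.fintype_card_le_finrank
  rw [Fintype.card_fin] at h2
  refine h2.trans ((finrank_range_le_card (R := K) (ρ : Q → End K E)).trans ?_)
  rw [Nat.card_eq_fintype_card]

/-- each group of `p`-torsion in the group of units of a field is generated by an element of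
order `p` -/
theorem _root_.Vale.Agent.P180.R2.H799.BV.pow_of_order {F : Type} [Field F] {p : ℕ} (hp : p.Prime)
    {ζ x : Fˣ} (hζ : orderOf ζ = p) (hx : x ^ p = 1) : ∃ t : ℕ, x = ζ ^ t := by
  have h1 : IsPrimitiveRoot ζ p := by rw [← hζ]; exact IsPrimitiveRoot.orderOf ζ
  have h2 : IsPrimitiveRoot (ζ : F) p := IsPrimitiveRoot.coe_units_iff.mpr h1
  have _ : NeZero p := ⟨hp.ne_zero⟩
  have h3 : (x : F) ^ p = 1 := by
    rw [← Units.val_pow_eq_pow_val, hx, Units.val_one]
  obtain ⟨t, -, ht⟩ := h2.eq_pow_of_pow_eq_one h3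
  exact ⟨t, Units.ext (by rw [Units.val_pow_eq_pow_val]; exact ht.symm)⟩

end DecG

end Vale.Agent.P180.R2.H799.BV
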