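import Vale.Agent.P180.R2.H799.BV3
import Vale.Agent.P180.R2.H471.He8
import Vale.Agent.P180.R2.H471.Hc8

/-!
P180: the blocks of a product of general linear groups for a commutative defect group which is
homogeneous on each factor.
-/

set_option linter.all false

namespace Vale.Agent.P180.R2.H799.BV

open Module Vale.Agent.P180 Vale.Agent.P180.H768.Gd Vale.Agent.P180.R2.H854
  Vale.Agent.P180.R2.H954.Hc Vale.Agent.P180.R2.H799
open Vale.Agent.P180.R2.H471.He (CycOn exists_jr)
open Vale.Agent.P180.R2.H471.Hc (OneBd)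
open Vale.Agent.P180.R2.H259.Cyc (cycB cycB_mono)

universe u

variable {K E : Type} [Field K] [AddCommGroup E] [Module K E] {R : Subgroup (End K E)ˣ}

/-- the natural representation of a subgroup of the general linear group -/
def rh (R : Subgroup (End K E)ˣ) : R →* End K E := (Units.coeHom (End K E)).comp R.subtype

theorem rh_apply (x : R) : rh R x = ((x : (End K E)ˣ) : End K E) := rfl

variable (D : DecG (rh R))

/-- the elements which commute with the projections -/
def Gm : Subgroup (End K E)ˣ where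
  carrier := {g | ∀ i, (g : End K E) * D.e i = D.e i * g}
  one_mem' := fun i => by rw [Units.val_one, one_mul, mul_one]
  mul_mem' := by
    intro x y hx hy i
    rw [Units.val_mul, mul_assoc, hy i, ← mul_assoc, hx i, mul_assoc]
  inv_mem' := by
    intro x hx i
    have h1 := hx i
    calc ((x⁻¹ : (End K E)ˣ) : End K E) * D.e i
        = (x⁻¹ : (End K E)ˣ) * (D.e i * (x : End K E)) * (x⁻¹ : (End K E)ˣ) := by
          rw [mul_assoc, mul_assoc, Units.mul_inv, mul_one]
      _ = D.e i * (x⁻¹ : (End K E)ˣ) := by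
          rw [← h1, ← mul_assoc, Units.inv_mul, one_mul]

theorem mem_Gm {g : (End K E)ˣ} : g ∈ Gm D ↔ ∀ i, (g : End K E) * D.e i = D.e i * g := Iff.rfl

theorem R_le_Gm (hab : ∀ x ∈ R, ∀ y ∈ R, x * y = y * x) : R ≤ Gm D := fun x hx =>
  D.comm (a := (x : End K E)) fun q => by
    rw [rh_apply, ← Units.val_mul, ← Units.val_mul, hab x hx q q.2]

/-- the factors -/
def Af (j : Fin D.r) : Subgroup (Gm D) where
  carrier := {g | ∀ i, i ≠ j → ((g : (End K E)ˣ) : End K E) * D.e i = D.e i}
  one_mem' := fun i _ => by rw [Subgroup.coe_one, Units.val_one, one_mul]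
  mul_mem' := by
    intro x y hx hy i hi
    rw [Subgroup.coe_mul, Units.val_mul, mul_assoc, hy i hi, hx i hi]
  inv_mem' := by
    intro x hx i hi
    have h1 := hx i hi
    rw [Subgroup.coe_inv]
    conv_lhs => rw [← h1, ← mul_assoc, Units.inv_mul, one_mul]

theorem mem_Af {j : Fin D.r} {g : Gm D} :
    g ∈ Af D j ↔ ∀ i, i ≠ j → ((g : (End K E)ˣ) : End K E) * D.e i = D.e i := Iff.rfl

theorem ext_e {a b : End K E} (h : ∀ i, a * D.e i = b * D.e i) : a = b := by
  have h1 : ∑ i, a * D.e i = ∑ i, b * D.e i := Finset.sum_congr rfl fun i _ => h i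
  rwa [← Finset.mul_sum, ← Finset.mul_sum, D.sum, mul_one, mul_one] at h1

theorem cp_mul_aux {A : Type*} [Ring A] {e x y : A} (he : e * e = e) (hy : y * e = e * y) :
    x * y * e + (1 - e) = (x * e + (1 - e)) * (y * e + (1 - e)) := by
  have a1 : x * e * (y * e) = x * y * e := by
    calc x * e * (y * e) = x * e * (e * y) := by rw [hy]
      _ = x * (e * e) * y := by simp only [mul_assoc]
      _ = x * (e * y) := by rw [he, mul_assoc]
      _ = x * y * e := by rw [← hy, mul_assoc]
  have a2 : x * e * (1 - e) = 0 := by rw [mul_assoc, mul_sub, mul_one, he, sub_self, mul_zero]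
  have a3 : (1 - e) * (y * e) = 0 := by
    rw [hy, ← mul_assoc, sub_mul, one_mul, he, sub_self, zero_mul]
  have a4 : (1 - e) * (1 - e) = 1 - e := by
    rw [mul_sub, mul_one, sub_mul, one_mul, he, sub_self, sub_zero]
  rw [mul_add, add_mul, add_mul, a1, a2, a3, a4, add_zero, zero_add]

/-- the component -/
noncomputable def cpM (j : Fin D.r) : Gm D →* End K E where
  toFun g := ((g : (End K E)ˣ) : End K E) * D.e j + (1 - D.e j)
  map_one' := by
    rw [Subgroup.coe_one, Units.val_one, one_mul, add_sub_cancel]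
  map_mul' x y := by
    rw [Subgroup.coe_mul, Units.val_mul]
    exact cp_mul_aux (D.idem j) (y.2 j)

theorem cpM_apply (j : Fin D.r) (g : Gm D) :
    cpM D j g = ((g : (End K E)ˣ) : End K E) * D.e j + (1 - D.e j) := rfl

/-- the component as a unit -/
noncomputable def cpU (j : Fin D.r) : Gm D →* (End K E)ˣ := (cpM D j).toHomUnits

theorem cpU_val (j : Fin D.r) (g : Gm D) :
    ((cpU D j g : (End K E)ˣ) : End K E) = ((g : (End K E)ˣ) : End K E) * D.e j + (1 - D.e j) := rfl

theorem cpU_mem (j : Fin D.r) (g : Gm D) : cpU D j g ∈ Gm D := by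
  intro i
  rw [cpU_val]
  have h1 := g.2 i
  by_cases hi : i = j
  · subst hi
    rw [add_mul, mul_add, sub_mul, mul_sub, one_mul, mul_one, D.idem, sub_self, add_zero, add_zero,
      mul_assoc, D.idem, h1, ← mul_assoc, D.idem]
  · rw [add_mul, mul_add, sub_mul, mul_sub, one_mul, mul_one, mul_assoc, D.orth i j hi,
      D.orth j i (Ne.symm hi), mul_zero, ← mul_assoc, ← h1, mul_assoc, D.orth i j hi, mul_zero]

/-- the component as an element of the factor -/
theorem cp_mem_Af (j : Fin D.r) (g : Gm D) : (⟨cpU D j g, cpU_mem D j g⟩ : Gm D) ∈ Af D j := by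
  intro i hi
  change ((cpU D j g : (End K E)ˣ) : End K E) * D.e i = D.e i
  rw [cpU_val, add_mul, sub_mul, one_mul, mul_assoc, D.orth j i (Ne.symm hi), mul_zero, sub_zero,
    zero_add]

theorem cp_of_mem_Af {j : Fin D.r} {g : Gm D} (hg : g ∈ Af D j) :
    cpU D j g = (g : (End K E)ˣ) := by
  apply Units.ext
  refine ext_e D fun i => ?_
  rw [cpU_val]
  by_cases hi : i = j
  · subst hi
    rw [add_mul, sub_mul, one_mul, D.idem, sub_self, add_zero, mul_assoc, D.idem]
  · rw [add_mul, sub_mul, one_mul, mul_assoc, D.orth j i (Ne.symm hi), mul_zero, sub_zero,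
      zero_add, hg i hi]

theorem iSup_Af : ⨆ j, Af D j = ⊤ := by
  classical
  rw [eq_top_iff]
  intro g _
  have key : ∀ s : Finset (Fin D.r), ∃ x ∈ ⨆ j, Af D j,
      ((x : (End K E)ˣ) : End K E) = ((g : (End K E)ˣ) : End K E) * (∑ i ∈ s, D.e i) +
        (1 - ∑ i ∈ s, D.e i) := by
    intro s
    induction s using Finset.induction_on with
    | empty =>
      exact ⟨1, one_mem _, by rw [Finset.sum_empty, mul_zero, zero_add, sub_zero]; rfl⟩
    | insert i s hi ih =>
      obtain ⟨x, hx, hxv⟩ := ih
      refine ⟨⟨cpU D i g, cpU_mem D i g⟩ * x, mul_mem ((le_iSup (Af D) i) (cp_mem_Af D i g)) hx, ?_⟩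
      rw [Subgroup.coe_mul, Units.val_mul]
      change ((cpU D i g : (End K E)ˣ) : End K E) * ((x : (End K E)ˣ) : End K E) = _
      rw [hxv, cpU_val, Finset.sum_insert hi]
      have h1 : D.e i * ∑ l ∈ s, D.e l = 0 := by
        rw [Finset.mul_sum]
        refine Finset.sum_eq_zero fun l hl => D.orth i l ?_
        rintro rfl
        exact hi hl
      have h2 : D.e i * (((g : (End K E)ˣ) : End K E) * ∑ l ∈ s, D.e l) = 0 := by
        rw [← mul_assoc, ← g.2 i, mul_assoc, h1, mul_zero]
      set S := ∑ l ∈ s, D.e l with hS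
      set a := ((g : (End K E)ˣ) : End K E) with ha
      calc (a * D.e i + (1 - D.e i)) * (a * S + (1 - S))
          = a * (D.e i * (a * S)) + a * D.e i - a * (D.e i * S) + (a * S + (1 - S)) -
              D.e i * (a * S) - D.e i + D.e i * S := by
            rw [add_mul, mul_add, mul_sub, mul_one, sub_mul, one_mul, mul_add, mul_sub, mul_one,
              mul_assoc, mul_assoc]
            abel
        _ = a * (D.e i + S) + (1 - (D.e i + S)) := by
            rw [h1, h2, mul_zero, mul_add]
            abel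
  obtain ⟨x, hx, hxv⟩ := key Finset.univ
  rw [D.sum, mul_one, sub_self, add_zero] at hxv
  have h1 : x = g := Subtype.ext (Units.ext hxv)
  rw [← h1]
  exact hx

theorem cycOn_Af (hab : ∀ x ∈ R, ∀ y ∈ R, x * y = y * x) (j : Fin D.r) :
    CycOn (R.subgroupOf (Gm D)) (Af D j) := by
  classical
  let ρ : (R.subgroupOf (Gm D)) →* (End K E)ˣ := (cpU D j).comp (R.subgroupOf (Gm D)).subtype
  refine ⟨(End K E)ˣ, inferInstance, (Gm D).subtype.comp (Af D j).subtype, ρ, ?_, ?_, ?_, ?_⟩
  · exact (Gm D).subtype_injective.comp (Af D j).subtype_injective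
  · obtain ⟨F, _, _, χ, hχ⟩ := D.cyc j
    let τ : (R.subgroupOf (Gm D)) →* R :=
      { toFun := fun x => ⟨((x : Gm D) : (End K E)ˣ), x.2⟩
        map_one' := rfl
        map_mul' := fun _ _ => rfl }
    have hker : ρ.ker = (χ.comp τ).ker := by
      ext q
      rw [MonoidHom.mem_ker, MonoidHom.mem_ker]
      refine Iff.trans ?_ (hχ (τ q)).symm
      change cpU D j (q : Gm D) = 1 ↔ (((q : Gm D) : (End K E)ˣ) : End K E) * D.e j = D.e j
      constructor
      · intro h
        have h1 := congrArg Units.val h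
        rw [cpU_val, Units.val_one] at h1
        have h2 := congrArg (fun a => a * D.e j) h1
        simp only [add_mul, sub_mul, one_mul, mul_assoc, D.idem, sub_self, add_zero] at h2
        exact h2
      · intro h
        apply Units.ext
        rw [cpU_val, h, Units.val_one, add_sub_cancel]
    let e1 : ρ.range ≃* (χ.comp τ).range :=
      (QuotientGroup.quotientKerEquivRange _).symm.trans
        ((QuotientGroup.quotientMulEquivOfEq hker).trans (QuotientGroup.quotientKerEquivRange _))
    have h1 : IsCyclic (χ.comp τ).range := inferInstance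
    exact isCyclic_of_surjective e1.symm e1.symm.surjective
  · intro x s s' hs
    change ((s' : Gm D) : (End K E)ˣ) = cpU D j (x : Gm D) * ((s : Gm D) : (End K E)ˣ) *
      (cpU D j (x : Gm D))⁻¹
    rw [← cp_of_mem_Af D s'.2, ← cp_of_mem_Af D s.2, hs, map_mul, map_mul, map_inv]
  · intro x hA hQ
    exact (cp_of_mem_Af D hA).symm

/-- the bound -/
noncomputable def glB (p n : ℕ) : ℕ := (n * (max 1 (cycB p n)) ^ n) ^ 2

/-- **Products of general linear groups.** -/
theorem oneBd_Gm {k : Type u} [Field k] [IsAlgClosed k] {p : ℕ} [Fact p.Prime] [CharP k p]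
    [Finite K] [FiniteDimensional K E] [Finite (End K E)ˣ] {n : ℕ} (hR : IsPGroup p R)
    (hRn : Nat.card R ≤ n) (hab : ∀ x ∈ R, ∀ y ∈ R, x * y = y * x) :
    OneBd k (R.subgroupOf (Gm D)) (glB p n) := by
  classical
  intro e a he ha hea hbr
  have hQ : IsPGroup p (R.subgroupOf (Gm D)) :=
    hR.comap_of_injective (Gm D).subtype (Gm D).subtype_injective
  have hcard : Nat.card (R.subgroupOf (Gm D)) ≤ n := by
    refine le_trans (le_of_eq ?_) hRn
    exact Nat.card_congr (Subgroup.subgroupOfEquivOfLe (R_le_Gm D hab)).toEquiv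
  obtain ⟨j, hjL, hjQ, hjj, hjb, hjd⟩ := exists_jr (n := n) (β := 1) (L := ⊤) (Z := ⊥)
    (A := Af D) hQ hcard le_top le_top (fun _ => le_top)
    (fun j g _ h hh i hi => by
      have h1 := g.2 i
      have h2 := hh i hi
      rw [Subgroup.coe_mul, Subgroup.coe_mul, Units.val_mul, Units.val_mul, Subgroup.coe_inv]
      have h3 : ((g : (End K E)ˣ)⁻¹ : (End K E)ˣ) * D.e i =
          D.e i * (((g : (End K E)ˣ)⁻¹ : (End K E)ˣ) : End K E) := ((Gm D).inv_mem g.2) i
      calc ((g : (End K E)ˣ) : End K E) * ((h : (End K E)ˣ) : End K E) *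
            (((g : (End K E)ˣ)⁻¹ : (End K E)ˣ) : End K E) * D.e i
          = ((g : (End K E)ˣ) : End K E) * (((h : (End K E)ˣ) : End K E) * D.e i) *
            (((g : (End K E)ˣ)⁻¹ : (End K E)ˣ) : End K E) := by
            simp only [mul_assoc]
            rw [h3]
        _ = D.e i * (((g : (End K E)ˣ) : End K E) *
            (((g : (End K E)ˣ)⁻¹ : (End K E)ˣ) : End K E)) := by
            rw [h2, h1, mul_assoc]
        _ = D.e i := by rw [Units.mul_inv, mul_one])
    (fun i j hij g hg h hh => by
      apply Subtype.ext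
      apply Units.ext
      refine ext_e D fun l => ?_
      rw [Subgroup.coe_mul, Subgroup.coe_mul, Units.val_mul, Units.val_mul, mul_assoc, mul_assoc]
      by_cases hl : l = j
      · subst hl
        have h1 := hg l (Ne.symm hij)
        rw [h.2 l, ← mul_assoc, h1, h.2 l]
      · rw [hh l hl, g.2 l, ← mul_assoc, hh l hl])
    (fun i j hij g hg hg' => by
      apply Subtype.ext
      apply Units.ext
      refine ext_e D fun l => ?_
      rw [Subgroup.coe_one, Units.val_one, one_mul]
      by_cases hl : l = j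
      · exact hg l (by rw [hl]; exact Ne.symm hij)
      · exact hg' l hl)
    (cycOn_Af D hab)
    (fun g _ q _ => by rw [iSup_Af, top_sup_eq]; exact Subgroup.mem_top _)
    bot_le (fun z hz g _ => by rw [Subgroup.mem_bot.mp hz, one_mul, mul_one])
    (by rw [iSup_Af, sup_top_eq, Subgroup.relIndex_self]) he.idem.eq ha hea hbr
  have hec : ∀ x : MonoidAlgebra k (Gm D), x * e = e * x := fun x =>
    commute_of_mem (SubAlg_top x) he.mem.2
  have heQ : e ∈ Fix (cj k (Gm D)) (R.subgroupOf (Gm D)) := Fix_mono _ le_top he.mem.2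
  have hfin : FiniteDimensional k (MonoidAlgebra k (Gm D)) :=
    Module.Finite.equiv (MonoidAlgebra.coeffLinearEquiv k (M := Gm D) (S := k)).symm
  refine ⟨e * j, Subalgebra.mul_mem _ heQ hjQ, ?_, ?_, ?_, ?_⟩
  · calc e * j * (e * j) = e * (j * e) * j := by simp only [mul_assoc]
      _ = (e * e) * (j * j) := by rw [hec]; simp only [mul_assoc]
      _ = _ := by rw [he.idem.eq, hjj]
  · rw [← mul_assoc, he.idem.eq]
  · rw [← hec, br_mul hQ hjQ heQ]
    exact hjb
  · have hle : NN (⊤ : Subalgebra k (MonoidAlgebra k (Gm D))) (e * j) (e * j) ≤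
        NN (SubAlg k (⊤ : Subgroup (Gm D))) j j := by
      rintro x ⟨hx, hx1, hx2⟩
      refine ⟨SubAlg_top x, ?_, ?_⟩
      · conv_lhs => rw [← hx1]
        calc j * (e * j * x) = (j * e) * j * x := by simp only [mul_assoc]
          _ = e * (j * j) * x := by rw [hec]; simp only [mul_assoc]
          _ = x := by rw [hjj, hx1]
      · conv_lhs => rw [← hx2]
        calc x * (e * j) * j = x * (e * (j * j)) := by simp only [mul_assoc]
          _ = x := by rw [hjj, hx2]
    have hb : 1 * (n * (max 1 (cycB p n)) ^ D.r) ^ 2 ≤ glB p n := by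
      rw [one_mul]
      unfold glB
      exact Nat.pow_le_pow_left (Nat.mul_le_mul_left _ (Nat.pow_le_pow_right
        (lt_of_lt_of_le Nat.one_pos (le_max_left _ _)) (D.r_le.trans hRn))) 2
    exact (Submodule.finrank_mono hle).trans (hjd.trans hb)

end Vale.Agent.P180.R2.H799.BV
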