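import Vale.Agent.P180.R2.H799.BNL5
import Vale.Agent.P180.R2.H471.Hd5

/-!
P180: the corner property of central quotients of special linear groups from a bound for the blocks
of the special linear group with abelian defect groups.
-/

set_option linter.all false

namespace Vale.Agent.P180.R2.H799.BV

open Module Vale.Agent.P180 Vale.Agent.P180.H768.Gd Vale.Agent.P180.R2.H854
  Vale.Agent.P180.R2.H799
open Vale.Agent.P180.R2.H471.Hc (OneBd corP_of_one)
open Vale.Agent.P180.R2.H471.Hd (oneBd_lift corP_of_oneBd)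

universe u

/-- A bound `C` for the blocks of the special linear groups `SL(E)`, `p ∣ |K| - 1`, `p ∤ dim E`, with
abelian defect groups of order at most `n`. -/
def SLBd (k : Type u) [Field k] (p n C : ℕ) : Prop :=
  ∀ (K : Type) (_ : Field K) (_ : Finite K) (d : ℕ) (_ : Finite (SpecialLinearGroup K (Fin d → K))),
    p ∣ Nat.card K - 1 → ¬ p ∣ d →
    ∀ Q : Subgroup (SpecialLinearGroup K (Fin d → K)), IsPGroup p Q → Nat.card Q ≤ n →
      (∀ x ∈ Q, ∀ y ∈ Q, x * y = y * x) → OneBd k Q C

/-- **The corner property** of the central quotients of `SL_d(K)`, `p ∣ |K| - 1`, `p ∤ d`, for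
`D ∩ L` abelian. -/
theorem corP_slE {k : Type u} [Field k] [IsAlgClosed k] {p n C : ℕ} [Fact p.Prime] [CharP k p]
    (hE : SLBd k p n C) {G : Type} [Group G] [Finite G] {D L : Subgroup G} (hD : IsPGroup p D)
    (hDn : Nat.card D ≤ n) {K : Type} [Field K] [Finite K] {d : ℕ} (hp1 : p ∣ Nat.card K - 1)
    (hd : ¬ p ∣ d) {π : SpecialLinearGroup K (Fin d → K) →* L} (hπ : Function.Surjective π)
    (hk : π.ker ≤ Subgroup.center _)
    (hab : ∀ x ∈ D, x ∈ L → ∀ y ∈ D, y ∈ L → x * y = y * x)
    (hin : D ⊓ Subgroup.normalizer (L : Set G) ≤ L ⊔ Subgroup.centralizer (L : Set G))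
    (b : MonoidAlgebra k G) : H365.CorP p C b D L := by
  have hfG : Finite (SpecialLinearGroup K (Fin d → K)) := BN.finite_sl
  have hfd : finrank K (Fin d → K) = d := by rw [Module.finrank_fin_fun]
  have hkp : ¬ p ∣ Nat.card π.ker := BN.not_dvd_center (by rw [hfd]; exact hd) hk
  refine corP_of_oneBd hD hDn hab hin (fun Q hQ hQn hQab => ?_) b
  exact oneBd_lift π hπ (fun x hx g => (Subgroup.mem_center_iff.mp (hk hx) g).symm) hkp hQ hQn hQab
    (fun Q' hQ' hQ'n hQ'ab => hE K inferInstance inferInstance d hfG hp1 hd Q' hQ' hQ'n hQ'ab)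

end Vale.Agent.P180.R2.H799.BV
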