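import Vale.Agent.P180.R2.H799.BZ1
import Vale.Agent.P180.R2.H259.Cen.A2

/-!
P180: Levi subgroups with perfect factors lift to central extensions of order prime to `p`.
-/

set_option linter.all false

open scoped commutatorElement

namespace Vale.Agent.P180.R2.H799.CA

open Vale.Agent.P180 Vale.Agent.P180.R2.H799 Vale.Agent.P180.R2.H259.Cen

section Cen

variable {S' S : Type*} [Group S'] [Group S]

/-- An element which commutes with `H` modulo the centre commutes with the commutator subgroup. -/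
theorem comm_of_mod {H : Subgroup S'} {x : S'}
    (h : ∀ a ∈ H, x * a * x⁻¹ * a⁻¹ ∈ Subgroup.center S') :
    ∀ a ∈ ⁅H, H⁆, x * a = a * x := by
  have key : ∀ a ∈ H, ∃ c ∈ Subgroup.center S', x * a * x⁻¹ = c * a := by
    intro a ha
    exact ⟨_, h a ha, by group⟩
  have hle : ⁅H, H⁆ ≤ Subgroup.centralizer {x} := by
    rw [Subgroup.commutator_le]
    intro a ha b hb
    rw [Subgroup.mem_centralizer_singleton_iff]
    obtain ⟨c, hc, hca⟩ := key a ha
    obtain ⟨d, hd, hdb⟩ := key b hb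
    have hc1 : ∀ y, c * y = y * c := fun y => (Subgroup.mem_center_iff.mp hc y).symm
    have hd1 : ∀ y, d * y = y * d := fun y => (Subgroup.mem_center_iff.mp hd y).symm
    have h1 : x * ⁅a, b⁆ * x⁻¹ = ⁅a, b⁆ := by
      have h2 : x * ⁅a, b⁆ * x⁻¹ = ⁅x * a * x⁻¹, x * b * x⁻¹⁆ := by
        rw [commutatorElement_def, commutatorElement_def]
        group
      rw [h2, hca, hdb, commutatorElement_def, commutatorElement_def, mul_inv_rev, mul_inv_rev]
      calc c * a * (d * b) * (a⁻¹ * c⁻¹) * (b⁻¹ * d⁻¹)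
          = c * (a * (d * (b * a⁻¹ * (c⁻¹ * b⁻¹ * d⁻¹)))) := by group
        _ = a * (d * (b * a⁻¹ * (c⁻¹ * b⁻¹ * d⁻¹))) * c := hc1 _
        _ = a * (b * a⁻¹ * (c⁻¹ * b⁻¹ * d⁻¹) * d) * c := by rw [hd1]
        _ = a * b * a⁻¹ * (c⁻¹ * (b⁻¹ * c)) := by group
        _ = a * b * a⁻¹ * (c⁻¹ * (c * b⁻¹)) := by rw [hc1]
        _ = _ := by group
    calc ⁅a, b⁆ * x = x * ⁅a, b⁆ * x⁻¹ * x := by rw [h1]
      _ = _ := by group
  intro a ha
  have h1 := Subgroup.mem_centralizer_singleton_iff.mp (hle ha)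
  exact h1.symm

variable [Finite S'] {f : S' →* S} (hf : Function.Surjective f) (hk : f.ker ≤ Subgroup.center S')

theorem eq_one_of_pelt {p : ℕ} [Fact p.Prime] (hpk : ¬ p ∣ Nat.card f.ker) {x : S'} {i : ℕ}
    (hx : x ^ p ^ i = 1) (h1 : f x = 1) : x = 1 := by
  have h2 : orderOf x ∣ Nat.card f.ker := by
    have h5 := orderOf_dvd_natCard (⟨x, h1⟩ : f.ker)
    rwa [show orderOf (⟨x, h1⟩ : f.ker) = orderOf x from
      (orderOf_injective f.ker.subtype f.ker.subtype_injective _).symm] at h5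
  have h3 : Nat.Coprime (p ^ i) (Nat.card f.ker) :=
    Nat.Coprime.pow_left i ((Nat.Prime.coprime_iff_not_dvd Fact.out).mpr hpk)
  have h4 := Nat.dvd_gcd (orderOf_dvd_of_pow_eq_one hx) h2
  rw [Nat.Coprime.gcd_eq_one h3] at h4
  exact orderOf_eq_one_iff.mp (Nat.dvd_one.mp h4)

include hk in
/-- A `p`-element which commutes with `b` modulo the kernel commutes with `b`. -/
theorem comm_of_pelt {p : ℕ} [Fact p.Prime] (hpk : ¬ p ∣ Nat.card f.ker) {x b : S'} {i : ℕ}
    (hx : x ^ p ^ i = 1) (h1 : f x * f b = f b * f x) : x * b = b * x := by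
  have hz : x * b * x⁻¹ * b⁻¹ ∈ f.ker := by
    rw [MonoidHom.mem_ker, map_mul, map_mul, map_mul, map_inv, map_inv, h1]
    group
  have hc : ∀ y, (x * b * x⁻¹ * b⁻¹) * y = y * (x * b * x⁻¹ * b⁻¹) := fun y =>
    (Subgroup.mem_center_iff.mp (hk hz) y).symm
  set c := x * b * x⁻¹ * b⁻¹ with hcd
  have h2 : b * x * b⁻¹ = c⁻¹ * x := by
    rw [hcd]; group
  have h3 : (b * x * b⁻¹) ^ p ^ i = 1 := by
    rw [conj_pow, hx, mul_one, mul_inv_cancel]
  have h4 : Commute c⁻¹ x := (Commute.inv_left (hc x))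
  rw [h2, h4.mul_pow, hx, mul_one, inv_pow, inv_eq_one] at h3
  have h5 : c = 1 := eq_one_of_pelt (f := f) hpk h3 hz
  have h6 : x * b = c * (b * x) := by rw [hcd]; group
  rw [h6, h5, one_mul]

end Cen

end Vale.Agent.P180.R2.H799.CA
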