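import Vale.Agent.P180.R2.H799.CA2
import Vale.Agent.P180.R2.H259.Cen.A3

/-!
P180: pairs with a small parabolic system and Levi subgroups with perfect factors lift to central
extensions of order prime to `p`.
-/

set_option linter.all false

namespace Vale.Agent.P180.R2.H799.CA

open Vale.Agent.P180 Vale.Agent.P180.R2.H799 Vale.Agent.P180.R2.H259.Cen

section Small

variable {S' S : Type} [Group S'] [Group S] [Finite S'] {f : S' →* S}

theorem card_dc_lift (hf : Function.Surjective f) {H : Subgroup S} {H' : Subgroup S'}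
    (hH : H' = H.comap f) :
    Nat.card (DoubleCoset.Quotient (H' : Set S') (H' : Set S')) ≤
      Nat.card (DoubleCoset.Quotient (H : Set S) (H : Set S)) := by
  have hfin : Finite S := Finite.of_surjective f hf
  have hfin' : Finite (DoubleCoset.Quotient (H : Set S) (H : Set S)) := Quotient.finite _
  refine Nat.card_le_card_of_injective
    (fun q : DoubleCoset.Quotient (H' : Set S') (H' : Set S') => DoubleCoset.mk H H (f q.out)) ?_
  intro q r hqr
  obtain ⟨a, ha, b, hb, hab⟩ := (DoubleCoset.eq H H _ _).mp hqr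
  obtain ⟨a, rfl⟩ := hf a
  obtain ⟨b, rfl⟩ := hf b
  have hc : (a * q.out * b)⁻¹ * r.out ∈ f.ker := by
    rw [MonoidHom.mem_ker, map_mul, map_inv, map_mul, map_mul, hab, inv_mul_cancel]
  have h1 : DoubleCoset.mk H' H' q.out = DoubleCoset.mk H' H' r.out := by
    rw [DoubleCoset.eq]
    have hmem : ∀ x, f x ∈ H → x ∈ H' := fun x hx => by rw [hH]; exact hx
    refine ⟨a, hmem a ha, b * ((a * q.out * b)⁻¹ * r.out), ?_, by group⟩
    refine Subgroup.mul_mem _ (hmem b hb) (hmem _ ?_)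
    rw [MonoidHom.mem_ker.mp hc]
    exact H.one_mem
  rw [← DoubleCoset.out_eq' H' H' q, ← DoubleCoset.out_eq' H' H' r, h1]

theorem smallSys_lift {p m : ℕ} (𝒮 : ParSys p S) (hf : Function.Surjective f)
    (hk : f.ker ≤ Subgroup.center S')
    (hc : ∀ V ∈ 𝒮.car, (Nat.card V).Coprime (Nat.card f.ker)) (h : SmallSys m 𝒮) :
    SmallSys m (liftSys 𝒮 hf hk hc) := by
  obtain ⟨h1, ⟨rk, hrk⟩, h3⟩ := h
  refine ⟨⟨⊥, h1, ?_⟩, ⟨fun V => rk (V.map f), ?_⟩, ?_⟩
  · exact eq_liftV hf hk (hc _ h1) (Subgroup.map_bot f) fun x hx _ => Subgroup.mem_bot.mp hx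
  · rintro _ ⟨V, hV, rfl⟩
    refine ⟨?_, ?_⟩
    · change rk ((liftV f V).map f) ≤ m
      rw [map_liftV hf hk (hc V hV)]
      exact (hrk V hV).1
    · rintro _ ⟨W, hW, rfl⟩ hlt
      change rk ((liftV f V).map f) < rk ((liftV f W).map f)
      rw [map_liftV hf hk (hc V hV), map_liftV hf hk (hc W hW)]
      refine (hrk V hV).2 W hW (lt_of_le_of_ne ?_ ?_)
      · rw [← map_liftV hf hk (hc V hV), ← map_liftV hf hk (hc W hW)]
        exact Subgroup.map_mono hlt.le
      · rintro rfl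
        exact lt_irrefl _ hlt
  · rintro _ ⟨V, hV, rfl⟩
    exact (card_dc_lift hf (normalizer_liftV hf hk (hc V hV))).trans (h3 V hV)

end Small

/-- As `LevPair`, with Levi subgroups as in `LevSubP`, and the groups of the system have order
prime to `z`. -/
def LevZ (p m z : ℕ) (L : Type) [Group L] (A : Subgroup L) : Prop :=
  ∃ (S : Type) (_ : Group S) (_ : Finite S) (𝒮 : ParSys p S) (π : S →* L),
    SmallSys m 𝒮 ∧ Function.Surjective π ∧ ¬ p ∣ Nat.card (Subgroup.center S) ∧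
    (∀ V ∈ 𝒮.car, (Nat.card V).Coprime z) ∧
    (∀ x, π x ∈ Subgroup.center L → x ∈ Subgroup.center S) ∧
    ∀ Q : Subgroup S, IsPGroup p Q → Q.map π ≤ A → ∃ V ∈ 𝒮.car, ∃ M : Subgroup S, LevSubP m V M Q

/-- **Central extensions of order prime to `p`** of the pairs `LevZ`. -/
theorem levPair_lift {p m : ℕ} [hp : Fact p.Prime] {L L' : Type} [Group L] [Group L'] [Finite L]
    {f : L →* L'} (hf : Function.Surjective f) (hk : f.ker ≤ Subgroup.center L)
    (hpk : ¬ p ∣ Nat.card f.ker) {A : Subgroup L} (h : LevZ p m (Nat.card f.ker) L' (A.map f)) :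
    LevPair p m L A := by
  obtain ⟨S, _, _, 𝒮, π, hS, hπ, hpZ, hV, hc, hQ⟩ := h
  have hfs := pS_surj (π := π) hf
  have hks := pS_ker (π := π) hk
  have hck := card_pS_ker (π := π) (f := f)
  have hcV : ∀ V ∈ 𝒮.car, (Nat.card V).Coprime (Nat.card (pS π f).ker) := by
    intro V hV'
    rw [hck]
    exact hV V hV'
  have hpk' : ¬ p ∣ Nat.card (pS π f).ker := by rw [hck]; exact hpk
  refine ⟨Fib π f, inferInstance, inferInstance, liftSys 𝒮 hfs hks hcV, pL π f,
    smallSys_lift 𝒮 hfs hks hcV hS, pL_surj hπ, ?_, ?_, ?_⟩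
  · intro h
    rcases hp.out.dvd_mul.mp (h.trans (card_center_dvd hf)) with h1 | h1
    · exact hpZ h1
    · exact hpk h1
  · intro x hx
    refine mem_center_Fib (hc _ ?_) hx
    have h1 : π x.1.1 = f x.1.2 := x.2
    rw [h1, Subgroup.mem_center_iff]
    intro l
    obtain ⟨l, rfl⟩ := hf l
    have h2 := Subgroup.mem_center_iff.mp hx l
    have h3 : l * x.1.2 = x.1.2 * l := h2
    rw [← map_mul, ← map_mul, h3]
  · intro Q' hQ' hQA
    have hQp : IsPGroup p (Q'.map (pS π f)) := hQ'.map _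
    have hQm : (Q'.map (pS π f)).map π ≤ A.map f := by
      rintro _ ⟨_, ⟨x, hx, rfl⟩, rfl⟩
      have h1 : π (pS π f x) = f (pL π f x) := x.2
      rw [h1]
      exact ⟨_, hQA ⟨x, hx, rfl⟩, rfl⟩
    obtain ⟨V, hV', M, hM⟩ := hQ _ hQp hQm
    exact ⟨liftV (pS π f) V, ⟨V, hV', rfl⟩, M.comap (pS π f),
      levSub_lift hfs hks hpk' (hcV V hV') hQ' rfl hM⟩

end Vale.Agent.P180.R2.H799.CA
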