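import Vale.Agent.P180.R2.H954.Hf9
import Vale.Agent.P180.R2.H589.Sch.Blk

/-!
P180: the special linear groups of the summands of a decomposition are perfect.
-/

set_option linter.all false

namespace Vale.Agent.P180.R2.H799.CB

open Module Vale.Agent.P180 Vale.Agent.P180.R2.H799 Vale.Agent.P180.R2.H854
  Vale.Agent.P180.R2.H954.Hc

variable {K E : Type} [Field K] [AddCommGroup E] [Module K E] [FiniteDimensional K E]
  {Q : Subgroup (SpecialLinearGroup K E)}

section Ext

variable (D : Dec Q) (i : Fin D.r)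

/-- the extension of an endomorphism of a summand by the identity -/
noncomputable def ext (u : End K (LinearMap.range (D.e i))) : End K E :=
  (LinearMap.range (D.e i)).subtype ∘ₗ u ∘ₗ (D.e i).rangeRestrict + (1 - D.e i)

theorem ext_apply (u : End K (LinearMap.range (D.e i))) (x : E) :
    ext D i u x = u ⟨D.e i x, ⟨x, rfl⟩⟩ + (x - D.e i x) := rfl

theorem e_apply_mem {x : E} (hx : x ∈ LinearMap.range (D.e i)) : D.e i x = x := by
  obtain ⟨y, rfl⟩ := hx
  rw [← End.mul_apply, D.idem]

theorem ext_mul (u v : End K (LinearMap.range (D.e i))) :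
    ext D i (u * v) = ext D i u * ext D i v := by
  apply LinearMap.ext
  intro x
  rw [End.mul_apply, ext_apply, ext_apply D i v, ext_apply]
  have h1 : D.e i ((v ⟨D.e i x, ⟨x, rfl⟩⟩ : E) + (x - D.e i x)) = v ⟨D.e i x, ⟨x, rfl⟩⟩ := by
    rw [map_add, map_sub, e_apply_mem D i (v _).2, e_apply_mem D i ⟨x, rfl⟩, sub_self, add_zero]
  have h2 : (⟨D.e i ((v ⟨D.e i x, ⟨x, rfl⟩⟩ : E) + (x - D.e i x)), ⟨_, rfl⟩⟩ :
      LinearMap.range (D.e i)) = v ⟨D.e i x, ⟨x, rfl⟩⟩ := Subtype.ext h1
  rw [h2, h1, add_sub_cancel_left]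
  rfl

theorem ext_one : ext D i 1 = 1 := by
  apply LinearMap.ext
  intro x
  rw [ext_apply]
  exact add_sub_cancel _ _

theorem det_ext (u : End K (LinearMap.range (D.e i))) :
    LinearMap.det (ext D i u) = LinearMap.det u := by
  have he : LinearMap.range (D.e i) ≤ (LinearMap.range (D.e i)).comap (ext D i u) := by
    intro x hx
    change ext D i u x ∈ LinearMap.range (D.e i)
    rw [ext_apply]
    refine Submodule.add_mem _ (u _).2 ?_
    rw [e_apply_mem D i hx, sub_self]
    exact Submodule.zero_mem _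
  rw [LinearMap.det_eq_det_mul_det (LinearMap.range (D.e i)) _ he]
  have h1 : (ext D i u).restrict he = u := by
    ext x
    change ext D i u x = _
    rw [ext_apply]
    have h2 : (⟨D.e i (x : E), ⟨_, rfl⟩⟩ : LinearMap.range (D.e i)) = x :=
      Subtype.ext (e_apply_mem D i x.2)
    rw [h2, e_apply_mem D i x.2, sub_self, add_zero]
  have h2 : (LinearMap.range (D.e i)).mapQ (LinearMap.range (D.e i)) (ext D i u) he = 1 := by
    ext x
    change Submodule.Quotient.mk (ext D i u x) = Submodule.Quotient.mk x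
    rw [Submodule.Quotient.eq, ext_apply]
    have h3 : (u ⟨D.e i x, ⟨x, rfl⟩⟩ : E) + (x - D.e i x) - x = u ⟨D.e i x, ⟨x, rfl⟩⟩ - D.e i x := by
      abel
    rw [h3]
    exact Submodule.sub_mem _ (u _).2 ⟨x, rfl⟩
  rw [h1, h2, map_one, mul_one]

/-- The extension of a matrix of determinant one. -/
noncomputable def extM {d : ℕ} (b : Basis (Fin d) K (LinearMap.range (D.e i))) :
    Matrix.SpecialLinearGroup (Fin d) K →* SpecialLinearGroup K E where
  toFun g := mkSL (ext D i (Matrix.toLin b b g.1)) (by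
    rw [det_ext, LinearMap.det_toLin]
    exact g.2)
  map_one' := by
    apply toEnd_injective
    rw [toEnd_mkSL, toEnd_one, ← ext_one D i]
    congr 1
    exact Matrix.toLin_one b
  map_mul' g h := by
    apply toEnd_injective
    rw [toEnd_mul, toEnd_mkSL, toEnd_mkSL, toEnd_mkSL, ← ext_mul]
    congr 1
    exact Matrix.toLin_mul b b b g.1 h.1

theorem toEnd_extM {d : ℕ} (b : Basis (Fin d) K (LinearMap.range (D.e i)))
    (g : Matrix.SpecialLinearGroup (Fin d) K) :
    toEnd (extM D i b g) = ext D i (Matrix.toLin b b g.1) := rfl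

theorem ext_mul_e_ne (u : End K (LinearMap.range (D.e i))) {j : Fin D.r} (hj : j ≠ i) :
    ext D i u * D.e j = D.e j := by
  apply LinearMap.ext
  intro x
  rw [End.mul_apply, ext_apply]
  have h1 : D.e i (D.e j x) = 0 := by
    rw [← End.mul_apply, D.orth i j hj.symm]; rfl
  have h2 : (⟨D.e i (D.e j x), ⟨_, rfl⟩⟩ : LinearMap.range (D.e i)) = 0 := Subtype.ext h1
  rw [h2, h1, map_zero, sub_zero]
  exact zero_add _

theorem e_mul_ext (u : End K (LinearMap.range (D.e i))) :
    D.e i * ext D i u = ext D i u * D.e i := by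
  apply LinearMap.ext
  intro x
  rw [End.mul_apply, End.mul_apply, ext_apply, ext_apply]
  have h1 : D.e i (D.e i x) = D.e i x := e_apply_mem D i ⟨x, rfl⟩
  have h2 : (⟨D.e i (D.e i x), ⟨_, rfl⟩⟩ : LinearMap.range (D.e i)) = ⟨D.e i x, ⟨x, rfl⟩⟩ :=
    Subtype.ext h1
  rw [h2, h1, sub_self, add_zero, map_add, map_sub, h1, sub_self, add_zero,
    e_apply_mem D i (u _).2]

theorem e_mul_ext_ne (u : End K (LinearMap.range (D.e i))) {j : Fin D.r} (hj : j ≠ i) :
    D.e j * ext D i u = D.e j := by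
  apply LinearMap.ext
  intro x
  rw [End.mul_apply, ext_apply, map_add, map_sub]
  have h1 : ∀ y, D.e j (D.e i y) = 0 := by
    intro y
    rw [← End.mul_apply, D.orth j i hj]; rfl
  have h2 : D.e j (u ⟨D.e i x, ⟨x, rfl⟩⟩ : E) = 0 := by
    rw [← e_apply_mem D i (u _).2]
    exact h1 _
  rw [h1, h2, sub_zero, zero_add]

theorem range_extM {d : ℕ} (b : Basis (Fin d) K (LinearMap.range (D.e i))) :
    (extM D i b).range = D.A i := by
  apply le_antisymm
  · rintro _ ⟨g, rfl⟩
    refine ⟨fun j => ?_, fun j hj => ?_⟩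
    · rw [toEnd_extM]
      by_cases hj : j = i
      · rw [hj, e_mul_ext]
      · rw [ext_mul_e_ne D i _ hj, e_mul_ext_ne D i _ hj]
    · rw [toEnd_extM]
      exact ext_mul_e_ne D i _ hj
  · rintro x ⟨hxL, hx⟩
    have hstab : ∀ v ∈ LinearMap.range (D.e i), toEnd x v ∈ LinearMap.range (D.e i) := by
      intro v hv
      rw [← e_apply_mem D i hv]
      exact ⟨toEnd x v, by rw [← End.mul_apply, ← hxL i, End.mul_apply]⟩
    set u : End K (LinearMap.range (D.e i)) := (toEnd x).restrict hstab with hu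
    have hext : ext D i u = toEnd x := by
      apply Dec.ext_e (D := D)
      intro j
      by_cases hj : j = i
      · subst hj
        apply LinearMap.ext
        intro y
        rw [End.mul_apply, ext_apply]
        have h1 : D.e j (D.e j y) = D.e j y := e_apply_mem D j ⟨y, rfl⟩
        have h2 : (⟨D.e j (D.e j y), ⟨_, rfl⟩⟩ : LinearMap.range (D.e j)) = ⟨D.e j y, ⟨y, rfl⟩⟩ :=
          Subtype.ext h1
        rw [h2, h1, sub_self, add_zero]
        rfl
      · rw [ext_mul_e_ne D i _ hj, hx j hj]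
    have hdet : LinearMap.det u = 1 := by
      rw [← det_ext, hext]
      exact x.det_eq_one
    refine ⟨⟨LinearMap.toMatrix b b u, by rw [LinearMap.det_toMatrix]; exact hdet⟩, ?_⟩
    apply toEnd_injective
    change ext D i (Matrix.toLin b b (LinearMap.toMatrix b b u)) = toEnd x
    rw [Matrix.toLin_toMatrix]
    exact hext

end Ext

theorem commutator_eq_of_surj {P G : Type*} [Group P] [Group G] (hP : commutator P = ⊤)
    (φ : P →* G) {A : Subgroup G} (h : φ.range = A) : ⁅A, A⁆ = A := by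
  rw [← h, MonoidHom.range_eq_map, ← Subgroup.map_commutator, ← commutator_def, hP]

theorem exists_sq [Finite K] (hK : 3 < Nat.card K) : ∃ a : K, a ≠ 0 ∧ a ^ 2 ≠ 1 := by
  obtain ⟨x, hx⟩ : IsCyclic Kˣ := inferInstance
  have h1 : orderOf x = Nat.card Kˣ := orderOf_eq_card_of_forall_mem_zpowers hx
  have h2 : Nat.card K = Nat.card Kˣ + 1 := Nat.card_eq_card_units_add_one K
  refine ⟨x, x.ne_zero, fun h => ?_⟩
  have h4 : x ^ 2 = 1 := Units.ext (by rw [Units.val_pow_eq_pow_val, h, Units.val_one])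
  have h5 := orderOf_le_of_pow_eq_one (by norm_num) h4
  omega

theorem sl_perfect [Finite K] (hK : 3 < Nat.card K) {n : ℕ} (hn : 1 ≤ n) :
    commutator (Matrix.SpecialLinearGroup (Fin n) K) = ⊤ := by
  obtain ⟨a, h0, h2⟩ := exists_sq hK
  exact H589.Sch.perfect_sl hn h0 h2

/-- **The special linear group of a summand is perfect.** -/
theorem dec_perfect [Finite K] (D : Dec Q) (hK : 3 < Nat.card K) (i : Fin D.r) :
    ⁅D.A i, D.A i⁆ = D.A i :=
  commutator_eq_of_surj (sl_perfect hK (Dec.n_pos i))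
    (extM D i (Module.finBasis K (LinearMap.range (D.e i)))) (range_extM D i _)

end Vale.Agent.P180.R2.H799.CB
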