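import Vale.Agent.P180.R2.H799.CB1

/-!
P180: the factors of the Levi subgroups of isometry groups are perfect.
-/

set_option linter.all false

namespace Vale.Agent.P180.R2.H799.CB

open Module Vale.Agent.P180 Vale.Agent.P180.R2.H799 Vale.Agent.P180.R2.H854
  Vale.Agent.P180.R2.H954.Hc

variable {K E : Type} [Field K] [AddCommGroup E] [Module K E] [FiniteDimensional K E]
  [Finite K] {Φ : HForm K E} {Q : Subgroup (SpecialLinearGroup K E)}

section Psi

variable (D : SDec Φ Q) {i : Fin D.r}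

theorem adj_e_ne {g : SpecialLinearGroup K E} (hg : g ∈ D.toDec.A i) {j : Fin D.r}
    (hj : j ≠ Fin.rev i) : Φ.adj (toEnd g) * D.e j = D.e j := by
  have h1 : toEnd g * D.e (Fin.rev j) = D.e (Fin.rev j) := hg.2 _ fun h => hj (by rw [← h, Fin.rev_rev])
  have h2 := congrArg Φ.adj h1
  rw [Φ.adj_mul, D.adj_e, Fin.rev_rev] at h2
  have h3 : toEnd g * D.e (Fin.rev j) = D.e (Fin.rev j) * toEnd g := hg.1 _
  have h4 := congrArg Φ.adj h3
  rw [Φ.adj_mul, Φ.adj_mul, D.adj_e, Fin.rev_rev] at h4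
  rw [← h4, h2]

theorem adj_comm_e {g : SpecialLinearGroup K E} (hg : g ∈ D.toDec.L) (j : Fin D.r) :
    Φ.adj (toEnd g) * D.e j = D.e j * Φ.adj (toEnd g) := by
  have h3 : toEnd g * D.e (Fin.rev j) = D.e (Fin.rev j) * toEnd g := hg _
  have h4 := congrArg Φ.adj h3
  rw [Φ.adj_mul, Φ.adj_mul, D.adj_e, Fin.rev_rev] at h4
  exact h4.symm

theorem comm_adj (hi : Fin.rev i ≠ i) {g h : SpecialLinearGroup K E} (hg : g ∈ D.toDec.A i)
    (hh : h ∈ D.toDec.A i) :
    toEnd g * Φ.adj (toEnd h) = Φ.adj (toEnd h) * toEnd g := by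
  apply Dec.ext_e (D := D.toDec)
  intro l
  by_cases hl : l = i
  · subst hl
    have h1 : Φ.adj (toEnd h) * D.e l = D.e l := adj_e_ne D hh (Ne.symm hi)
    rw [mul_assoc, h1, mul_assoc, hg.1 l, ← mul_assoc, h1]
  · have h1 : toEnd g * D.e l = D.e l := hg.2 l hl
    rw [mul_assoc, adj_comm_e D hh.1 l, ← mul_assoc, h1, mul_assoc, h1, ← adj_comm_e D hh.1 l]

/-- The homomorphism `g ↦ g (g*)⁻¹`. -/
noncomputable def psi (hi : Fin.rev i ≠ i) : D.toDec.A i →* SpecialLinearGroup K E where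
  toFun g := mkSL (toEnd (g : SpecialLinearGroup K E) *
    Φ.adj (toEnd ((g⁻¹ : D.toDec.A i) : SpecialLinearGroup K E))) (by
      rw [map_mul, det_adj]
      have h1 : LinearMap.det (toEnd (g : SpecialLinearGroup K E)) = 1 :=
        (g : SpecialLinearGroup K E).det_eq_one
      have h2 : LinearMap.det (toEnd ((g⁻¹ : D.toDec.A i) : SpecialLinearGroup K E)) = 1 :=
        ((g⁻¹ : D.toDec.A i) : SpecialLinearGroup K E).det_eq_one
      rw [h1, h2, map_one, mul_one])
  map_one' := by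
    apply toEnd_injective
    rw [toEnd_mkSL, inv_one, toEnd_one]
    change toEnd (1 : SpecialLinearGroup K E) * Φ.adj (toEnd (1 : SpecialLinearGroup K E)) = 1
    rw [toEnd_one, Φ.adj_one, mul_one]
  map_mul' g h := by
    apply toEnd_injective
    rw [toEnd_mul, toEnd_mkSL, toEnd_mkSL, toEnd_mkSL, mul_inv_rev, Subgroup.coe_mul,
      Subgroup.coe_mul, toEnd_mul, toEnd_mul, Φ.adj_mul]
    have h1 := comm_adj D hi h.2 (g⁻¹).2
    calc toEnd (g : SpecialLinearGroup K E) * toEnd (h : SpecialLinearGroup K E) *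
          (Φ.adj (toEnd ((g⁻¹ : D.toDec.A i) : SpecialLinearGroup K E)) *
            Φ.adj (toEnd ((h⁻¹ : D.toDec.A i) : SpecialLinearGroup K E)))
        = toEnd (g : SpecialLinearGroup K E) * (toEnd (h : SpecialLinearGroup K E) *
          Φ.adj (toEnd ((g⁻¹ : D.toDec.A i) : SpecialLinearGroup K E))) *
            Φ.adj (toEnd ((h⁻¹ : D.toDec.A i) : SpecialLinearGroup K E)) := by
          simp only [mul_assoc]
      _ = _ := by rw [h1]; simp only [mul_assoc]

theorem toEnd_psi (hi : Fin.rev i ≠ i) (g : D.toDec.A i) :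
    toEnd (psi D hi g) = toEnd (g : SpecialLinearGroup K E) *
      Φ.adj (toEnd ((g⁻¹ : D.toDec.A i) : SpecialLinearGroup K E)) := rfl

theorem range_psi (hi : i < Fin.rev i) : (psi D hi.ne').range = D.A i := by
  apply le_antisymm
  · rintro _ ⟨g, rfl⟩
    have hgi := (g⁻¹).2
    refine ⟨⟨fun j => ?_, ?_⟩, fun j hj hj' => ?_, ?_, fun h => absurd h (not_lt.mpr hi.le)⟩
    · rw [toEnd_psi, mul_assoc, adj_comm_e D hgi.1 j, ← mul_assoc, g.2.1 j, mul_assoc]
    · apply Φ.mem_Iso_iff.mpr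
      rw [toEnd_psi, Φ.adj_mul, Φ.adj_adj]
      have h1 : toEnd ((g⁻¹ : D.toDec.A i) : SpecialLinearGroup K E) *
          toEnd (g : SpecialLinearGroup K E) = 1 := by
        rw [← toEnd_mul, ← Subgroup.coe_mul, inv_mul_cancel]
        exact toEnd_one
      have h2 : Φ.adj (toEnd (g : SpecialLinearGroup K E)) *
          Φ.adj (toEnd ((g⁻¹ : D.toDec.A i) : SpecialLinearGroup K E)) = 1 := by
        rw [← Φ.adj_mul, h1, Φ.adj_one]
      have h3 := comm_adj D hi.ne' hgi g.2
      calc toEnd ((g⁻¹ : D.toDec.A i) : SpecialLinearGroup K E) *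
            Φ.adj (toEnd (g : SpecialLinearGroup K E)) *
            (toEnd (g : SpecialLinearGroup K E) *
              Φ.adj (toEnd ((g⁻¹ : D.toDec.A i) : SpecialLinearGroup K E)))
          = Φ.adj (toEnd (g : SpecialLinearGroup K E)) *
            (toEnd ((g⁻¹ : D.toDec.A i) : SpecialLinearGroup K E) *
            toEnd (g : SpecialLinearGroup K E)) *
              Φ.adj (toEnd ((g⁻¹ : D.toDec.A i) : SpecialLinearGroup K E)) := by
            rw [h3]; simp only [mul_assoc]
        _ = 1 := by rw [h1, mul_one, h2]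
    · rw [toEnd_psi, mul_assoc, adj_e_ne D hgi hj', g.2.2 j hj]
    · have h1 : D.cp {i} (psi D hi.ne' g) = toEnd (g : SpecialLinearGroup K E) := by
        rw [Dec.cp, Dec.es_singleton, toEnd_psi, mul_assoc, adj_e_ne D hgi hi.ne]
        apply Dec.ext_e (D := D.toDec)
        intro l
        by_cases hl : l = i
        · rw [hl, add_mul, sub_mul, mul_assoc, D.idem, one_mul, sub_self, add_zero]
        · rw [add_mul, sub_mul, mul_assoc, D.orth i l (Ne.symm hl), mul_zero, zero_add, one_mul,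
            sub_zero, g.2.2 l hl]
      rw [Dec.dt, h1]
      exact (g : SpecialLinearGroup K E).det_eq_one
  · rintro x ⟨hxL, hx1, hx2', -⟩
    have hxD : x ∈ D.toDec.L := hxL.1
    have hx2 : LinearMap.det (D.cp {i} x) = 1 := hx2'
    have hx3 : LinearMap.det (D.cp {i} x⁻¹) = 1 := by
      have h3 := Dec.dt_mul (s := {i}) hxD (D.toDec.L.inv_mem hxD)
      rw [mul_inv_cancel, Dec.dt_one, hx2', one_mul] at h3
      exact h3.symm
    have h1 : mkSL (D.cp {i} x) hx2 ∈ D.toDec.A i := Dec.mk_mem_A hxD hx2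
    refine ⟨⟨mkSL (D.cp {i} x) hx2, h1⟩, ?_⟩
    apply toEnd_injective
    rw [toEnd_psi]
    have hinv : toEnd (((⟨mkSL (D.cp {i} x) hx2, h1⟩ : D.toDec.A i)⁻¹ : D.toDec.A i) :
        SpecialLinearGroup K E) = D.cp {i} x⁻¹ := by
      have h2 : (mkSL (D.cp {i} x) hx2)⁻¹ = mkSL (D.cp {i} x⁻¹) hx3 := by
        apply inv_eq_of_mul_eq_one_right
        apply toEnd_injective
        rw [toEnd_mul, toEnd_mkSL, toEnd_mkSL, ← Dec.cp_mul hxD (D.toDec.L.inv_mem hxD),
          mul_inv_cancel, Dec.cp_one, toEnd_one]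
      change toEnd (mkSL (D.cp {i} x) hx2)⁻¹ = _
      rw [h2, toEnd_mkSL]
    rw [hinv]
    change D.cp {i} x * Φ.adj (D.cp {i} x⁻¹) = toEnd x
    rw [SDec.adj_cp (D.L.inv_mem hxL), inv_inv, Finset.image_singleton]
    apply Dec.ext_e (D := D.toDec)
    intro l
    by_cases hl : l = Fin.rev i
    · rw [hl, mul_assoc, Dec.cp_mul_e_of_mem (Finset.mem_singleton_self _), hxL.1, ← mul_assoc,
        Dec.cp_mul_e_of_notMem (by rw [Finset.mem_singleton]; exact hi.ne')]
    · have h3 : D.cp {Fin.rev i} x * D.e l = D.e l :=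
        Dec.cp_mul_e_of_notMem (by rw [Finset.mem_singleton]; exact hl) x
      rw [mul_assoc, h3]
      by_cases hl' : l = i
      · rw [hl']
        exact Dec.cp_mul_e_of_mem (Finset.mem_singleton_self _) x
      · rw [Dec.cp_mul_e_of_notMem (by rw [Finset.mem_singleton]; exact hl'), hx1 l hl' hl]

end Psi

/-- **The factors `SL(E_i)` of the Levi subgroups are perfect.** -/
theorem sdec_perfect (D : SDec Φ Q) (hK : 3 < Nat.card K) {i : Fin D.r} (hi : Fin.rev i ≠ i) :
    ⁅D.A i, D.A i⁆ = D.A i := by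
  rcases lt_or_gt_of_ne hi with h | h
  · have h1 : D.A i = ⊥ := by
      rw [Subgroup.eq_bot_iff_forall]
      intro x hx
      exact hx.2.2.2 h
    rw [h1, Subgroup.commutator_bot_left]
  · have h1 := dec_perfect D.toDec hK i
    have h2 : commutator (D.toDec.A i) = ⊤ := by
      apply Subgroup.map_injective (D.toDec.A i).subtype_injective
      rw [commutator_def, Subgroup.map_commutator, ← MonoidHom.range_eq_map,
        Subgroup.range_subtype, h1]
    exact commutator_eq_of_surj h2 (psi D h.ne') (range_psi D h)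

end Vale.Agent.P180.R2.H799.CB
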