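import Vale.Agent.P180.R2.H799.CC0

/-!
P180: perfect central extensions of orthogonal groups, `|K|` odd.
-/

set_option linter.all false

namespace Vale.Agent.P180.R2.H799.CC

open Module Vale.Agent.P180 Vale.Agent.P180.R2.H365

/-- the case `|K|` odd of `OrthSmallOn` -/
def OSmall (c : Prop) (p : ℕ) (T : Type) [Group T] (Γ : Subgroup (MulAut T)) : Prop :=
  ∃ (K : Type) (_ : Field K) (_ : Finite K) (d : ℕ),
    (Γ = ⊥ ∨ (4 ≤ d ∧ (RootIn p (RingHom.id K) ∨ c))) ∧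
    d < p ∧ ¬ p ∣ Nat.card K ∧ Odd (Nat.card K) ∧ 9 < Nat.card K ∧
    LinPr p (RingHom.id K) ∧ OrthSim K (Fin d → K) T Γ

/-- the case `|K|` odd of `CoverSim` -/
def OSim (c : Prop) (p : ℕ) (L : Type) [Group L] (Γ : Subgroup (MulAut L)) : Prop :=
  commutator L = ⊤ ∧ ∃ Γ' : Subgroup (MulAut (L ⧸ Subgroup.center L)),
    (∀ α ∈ Γ, ∃ β ∈ Γ', ∀ x : L, β x = (α x : L)) ∧ OSmall c p (L ⧸ Subgroup.center L) Γ'

/-- the case `|K|` odd of `CoverPair` -/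
def OPair (p : ℕ) (L : Type) [Group L] : Prop :=
  commutator L = ⊤ ∧ OSmall False p (L ⧸ Subgroup.center L) ⊥

/-- the case `|K|` even of `OrthSmallOn` -/
def ESmall (c : Prop) (p : ℕ) (T : Type) [Group T] (Γ : Subgroup (MulAut T)) : Prop :=
  ∃ (K : Type) (_ : Field K) (_ : Finite K) (d : ℕ),
    (Γ = ⊥ ∨ (RootIn p (RingHom.id K) ∨ c)) ∧
    d < p ∧ ¬ p ∣ Nat.card K ∧ 6 ≤ d ∧ 9 < Nat.card K ∧
    LinPr p (RingHom.id K) ∧ OmegaSim K (Fin d → K) T Γ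

theorem small_or {c : Prop} {p : ℕ} {T : Type} [Group T] {Γ : Subgroup (MulAut T)}
    (h : OrthSmallOn c p T Γ) : OSmall c p T Γ ∨ ESmall c p T Γ := by
  obtain ⟨K, iK, fK, d, h1, h2, h3, h4, h5, h6, h7 | h7⟩ := h
  · exact Or.inl ⟨K, iK, fK, d, h1, h2, h3, h7.1, h5, h6, h7.2⟩
  · refine Or.inr ⟨K, iK, fK, d, h1.imp_right fun h => h.2, h2, h3, h4.resolve_left fun hodd => ?_,
      h5, h6, h7⟩
    exact (Nat.not_odd_iff_even.mpr (even_iff_two_dvd.mpr h7.1)) hodd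

theorem small_of_odd {c : Prop} {p : ℕ} {T : Type} [Group T] {Γ : Subgroup (MulAut T)}
    (h : OSmall c p T Γ) : OrthSmallOn c p T Γ := by
  obtain ⟨K, iK, fK, d, h1, h2, h3, h4, h5, h6, h7⟩ := h
  exact ⟨K, iK, fK, d, h1, h2, h3, Or.inl h4, h5, h6, Or.inl ⟨h4, h7⟩⟩

theorem pair_or {p : ℕ} {L : Type} [Group L] (h : CoverPair p L) :
    OPair p L ∨ (commutator L = ⊤ ∧ ESmall False p (L ⧸ Subgroup.center L) ⊥) :=
  (small_or h.2).imp (fun h' => ⟨h.1, h'⟩) fun h' => ⟨h.1, h'⟩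

theorem sim_or {c : Prop} {p : ℕ} {L : Type} [Group L] {Γ : Subgroup (MulAut L)}
    (h : CoverSim c p L Γ) : OSim c p L Γ ∨
      (commutator L = ⊤ ∧ ∃ Γ' : Subgroup (MulAut (L ⧸ Subgroup.center L)),
        (∀ α ∈ Γ, ∃ β ∈ Γ', ∀ x : L, β x = (α x : L)) ∧ ESmall c p (L ⧸ Subgroup.center L) Γ') := by
  obtain ⟨h1, Γ', h2, h3⟩ := h
  exact (small_or h3).imp (fun h' => ⟨h1, Γ', h2, h'⟩) fun h' => ⟨h1, Γ', h2, h'⟩

theorem pair_of_odd {p : ℕ} {L : Type} [Group L] (h : OPair p L) : CoverPair p L :=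
  ⟨h.1, small_of_odd h.2⟩

end Vale.Agent.P180.R2.H799.CC
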