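import Vale.Agent.P180.R2.H471.Is4
import Vale.Agent.P180.R2.H47.PairB
import Vale.Agent.P180.R2.H799.BY3
import Vale.Agent.P180.R2.H799.CC0

/-!
P180: the action of a `p`-group on a perfect central extension: lifting of inner automorphisms.
-/

set_option linter.all false

namespace Vale.Agent.P180.R2.H799.CD

open Module Subgroup Vale.Agent.P180 Vale.Agent.P180.H768.Gd Vale.Agent.P180.R2.H799
  Vale.Agent.P180.R2.H954
open Vale.Agent.P180.R2.H589.Sch (Pel pel_unique)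
open Vale.Agent.P180.R2.H471.He (CycOn cycOn_of_ker)

/-- The automorphism of `L / Z(L)` given by an automorphism of `L`. -/
def qa (L : Type*) [Group L] : MulAut L →* MulAut (L ⧸ center L) where
  toFun α := QuotientGroup.congr (center L) (center L) α
    (Subgroup.characteristic_iff_map_eq.mp inferInstance α)
  map_one' := by
    apply MulEquiv.ext
    intro x
    obtain ⟨x, rfl⟩ := QuotientGroup.mk'_surjective (center L) x
    rfl
  map_mul' α β := by
    apply MulEquiv.ext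
    intro x
    obtain ⟨x, rfl⟩ := QuotientGroup.mk'_surjective (center L) x
    rfl

theorem qa_mk {L : Type*} [Group L] (α : MulAut L) (x : L) :
    qa L α (QuotientGroup.mk' (center L) x) = QuotientGroup.mk' (center L) (α x) := rfl

theorem mk_eq {L : Type*} [Group L] {x y : L}
    (h : QuotientGroup.mk' (center L) x = QuotientGroup.mk' (center L) y) :
    ∃ z ∈ center L, y = x * z := by
  refine ⟨x⁻¹ * y, ?_, by group⟩
  have h1 : (QuotientGroup.mk' (center L)) (x⁻¹ * y) = 1 := by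
    rw [map_mul, map_inv, h, inv_mul_cancel]
  exact (QuotientGroup.eq_one_iff _).mp h1

/-- an automorphism of a perfect group which is inner modulo the centre is inner -/
theorem conj_up {L : Type} [Group L] (hL : commutator L = ⊤) {α : MulAut L} {s : L}
    (h : qa L α = MulAut.conj (QuotientGroup.mk' (center L) s)) : α = MulAut.conj s := by
  refine BY.aut_eq (f := QuotientGroup.mk' (center L)) ?_ hL ?_
  · intro z hz y
    have h2 : z ∈ center L := (QuotientGroup.eq_one_iff z).mp hz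
    exact (mem_center_iff.mp h2 y).symm
  · intro x
    rw [← qa_mk, h]
    rfl

section block

variable {k : Type*} [Field k] {p : ℕ} [hp : Fact p.Prime] [CharP k p]
variable {G : Type} [Group G] [Finite G] {L R : Subgroup G}

/-- The central `p`-elements of the centraliser of `L ∩ R` in `L` are in `R`. -/
theorem mem_of_central [IsAlgClosed k] (hR : IsPGroup p R)
    (hab : ∀ x ∈ R, x ∈ L → ∀ y ∈ R, y ∈ L → x * y = y * x)
    {e z : MonoidAlgebra k G} (heL : e ∈ SubAlg k L) (heF : e ∈ Fix (cj k G) L) (hee : e * e = e)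
    (hbr : br R e ≠ 0) (hzF : z ∈ Fix (cj k G) (L ⊓ R)) (hez : e = tr (cj k G) (L ⊓ R) L z)
    {w : G} (hwL : w ∈ L) (hwp : ∃ j, w ^ p ^ j = 1)
    (hw1 : ∀ q ∈ R, q ∈ L → w * q = q * w)
    (hw2 : ∀ h ∈ L, (∀ q ∈ R, q ∈ L → h * q = q * h) → h * w = w * h) : w ∈ R := by
  let P : Subgroup G :=
    { carrier := {w | w ∈ L ∧ (∃ j, w ^ p ^ j = 1) ∧ (∀ q ∈ R, q ∈ L → w * q = q * w) ∧
        ∀ h ∈ L, (∀ q ∈ R, q ∈ L → h * q = q * h) → h * w = w * h}
      one_mem' := ⟨L.one_mem, ⟨0, one_pow _⟩, fun q _ _ => by rw [one_mul, mul_one],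
        fun h _ _ => by rw [one_mul, mul_one]⟩
      mul_mem' := by
        rintro a b ⟨haL, ⟨i, hi⟩, ha1, ha2⟩ ⟨hbL, ⟨j, hj⟩, hb1, hb2⟩
        have hab : Commute a b := hb2 a haL ha1
        refine ⟨L.mul_mem haL hbL, ⟨i + j, ?_⟩, fun q hq hqL => ?_, fun h hh hh' => ?_⟩
        · rw [hab.mul_pow, pow_add, pow_mul, hi, one_pow, one_mul, mul_comm (p ^ i), pow_mul,
            hj, one_pow]
        · rw [mul_assoc, hb1 q hq hqL, ← mul_assoc, ha1 q hq hqL, mul_assoc]
        · rw [← mul_assoc, ha2 h hh hh', mul_assoc, hb2 h hh hh', mul_assoc]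
      inv_mem' := by
        rintro a ⟨haL, ⟨i, hi⟩, ha1, ha2⟩
        refine ⟨L.inv_mem haL, ⟨i, by rw [inv_pow, hi, inv_one]⟩, fun q hq hqL => ?_,
          fun h hh hh' => ?_⟩
        · have h1 : Commute a q := ha1 q hq hqL
          exact h1.inv_left
        · have h1 : Commute h a := ha2 h hh hh'
          exact h1.inv_right }
  have hPp : IsPGroup p P := by
    rintro ⟨w, hwL, ⟨j, hj⟩, hw⟩
    exact ⟨j, Subtype.ext hj⟩
  have hQP : L ⊓ R ≤ P := by
    rintro q ⟨hqL, hqR⟩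
    obtain ⟨j, hj⟩ := hR ⟨q, hqR⟩
    exact ⟨hqL, ⟨j, congrArg Subtype.val hj⟩, fun q' hq' hqL' => hab q hqR hqL q' hq' hqL',
      fun h _ hh => hh q hqR hqL⟩
  have hle : Nat.card P ≤ Nat.card (L ⊓ R : Subgroup G) := by
    obtain ⟨c, hc, hec⟩ := exists_coeff_of_br hbr
    refine H12.Sl.card_le_of_normal (C := L ⊓ R) (hR.to_le inf_le_right) heL heF hee inf_le_left
      (br_ne_zero_of_coeff (c := c) (fun h hh => hc h hh.2) hec) hPp ?_ ?_ inf_le_left hzF hez
    · rintro w ⟨hwL, -, hw1, -⟩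
      refine Subgroup.mem_inf.mpr ⟨hwL, Subgroup.mem_centralizer_iff.mpr ?_⟩
      rintro y ⟨hyL, hyR⟩
      exact (hw1 y hyR hyL).symm
    · rintro h ⟨hhL, hhC⟩ w ⟨hwL, hwp, hw1, hw2⟩
      have h3 : h * w = w * h := hw2 h hhL fun q hq hqL =>
        ((Subgroup.mem_centralizer_iff.mp hhC) q ⟨hqL, hq⟩).symm
      have h4 : h * w * h⁻¹ = w := by rw [h3, mul_inv_cancel_right]
      rw [h4]
      exact ⟨hwL, hwp, hw1, hw2⟩
  have h1 := Subgroup.eq_of_le_of_card_ge hQP hle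
  have h2 : w ∈ P := ⟨hwL, hwp, hw1, hw2⟩
  rw [← h1] at h2
  exact h2.2

/-- **Second case**: `R ∩ L = 1`. -/
theorem cyc_of_bot (hR : IsPGroup p R)
    (hn : ∀ x ∈ R, ∀ s ∈ L, x * s * x⁻¹ ∈ L)
    (hc : ∃ c ∈ R, ∀ r ∈ R, ∃ i : ℤ, ∃ s ∈ L, ∃ u ∈ Subgroup.centralizer (L : Set G),
      (c ^ i)⁻¹ * r = s * u)
    {e z : MonoidAlgebra k G} (heL : e ∈ SubAlg k L)
    (hbr : br R e ≠ 0) (hzF : z ∈ Fix (cj k G) (L ⊓ R)) (hez : e = tr (cj k G) (L ⊓ R) L z)
    (hbot : L ⊓ R = ⊥) : CycOn R L := by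
  classical
  obtain ⟨c₀, hc₀, hec₀⟩ := exists_coeff_of_br hbr
  have hc₀L : c₀ ∈ L := heL c₀ hec₀
  -- elements which act by inner automorphisms act trivially
  have htriv : ∀ r ∈ R, (∃ s ∈ L, ∃ c ∈ Subgroup.centralizer (L : Set G), r = s * c) →
      ∀ l ∈ L, r * l * r⁻¹ = l := by
    intro r hr hs l hl
    let R' : Subgroup G := R ⊓ (L ⊔ Subgroup.centralizer (L : Set G))
    have hR'R : R' ≤ R := inf_le_left
    have hLR' : L ⊓ R' = L ⊓ R := by
      rw [hbot, eq_bot_iff, ← hbot]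
      exact inf_le_inf_left _ hR'R
    have hin : ∀ r ∈ R', ∃ s ∈ L, ∃ c ∈ Subgroup.centralizer (L : Set G), r = s * c := by
      intro r hr
      have h1 : r ∈ L ⊔ Subgroup.centralizer (L : Set G) := hr.2
      obtain ⟨s, hs, c, hc, h⟩ := mem_sup_of_commute
        (fun s hs c hc => Subgroup.mem_centralizer_iff.mp hc s hs) h1
      exact ⟨s, hs, c, hc, h.symm⟩
    have h1 := inner_of_coeff (S := L) (R := R') (hR.to_le hR'R) hin (e := e) (z := z)
      (by rw [hLR']; exact hzF) (by rw [hLR']; exact hez) hc₀L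
      (fun r hr => hc₀ r (hR'R hr)) hec₀
    have hrR' : r ∈ R' := by
      refine ⟨hr, ?_⟩
      obtain ⟨s, hs, c, hc, rfl⟩ := hs
      exact Subgroup.mul_mem _ (Subgroup.mem_sup_left hs) (Subgroup.mem_sup_right hc)
    obtain ⟨q, hq, h2⟩ := h1 r hrR'
    have h3 : q = 1 := by
      rw [hLR', hbot] at hq
      exact Subgroup.mem_bot.mp hq
    rw [h2 l hl, h3, one_mul, inv_one, mul_one]
  obtain ⟨c, hcR, hc⟩ := hc
  refine cycOn_of_ker (N := R) (L := L) (M := R ⊓ Subgroup.centralizer (L : Set G)) hn ?_ ?_ ?_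
    (c := c) hcR ?_ inf_le_left
  · rintro x hx m ⟨hmR, hmC⟩
    refine ⟨R.mul_mem (R.mul_mem hx hmR) (R.inv_mem hx), ?_⟩
    refine Subgroup.mem_centralizer_iff.mpr fun l hl => ?_
    have h1 : x⁻¹ * l * x ∈ L := by
      have := hn x⁻¹ (R.inv_mem hx) l hl
      rwa [inv_inv] at this
    have h2 := Subgroup.mem_centralizer_iff.mp hmC _ h1
    calc l * (x * m * x⁻¹) = x * ((x⁻¹ * l * x) * m) * x⁻¹ := by group
      _ = x * (m * (x⁻¹ * l * x)) * x⁻¹ := by rw [h2]
      _ = x * m * x⁻¹ * l := by group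
  · rintro m ⟨-, hmC⟩ s hs
    exact (Subgroup.mem_centralizer_iff.mp hmC s hs).symm
  · rintro x ⟨hxR, -⟩ hxL
    have h1 : x ∈ L ⊓ R := ⟨hxL, hxR⟩
    rw [hbot] at h1
    exact Subgroup.mem_bot.mp h1
  · intro x hx
    obtain ⟨i, hsc⟩ := hc x hx
    have hm : (c ^ i)⁻¹ * x ∈ R := R.mul_mem (R.inv_mem (R.zpow_mem hcR i)) hx
    have h2 := htriv _ hm hsc
    refine ⟨i, (c ^ i)⁻¹ * x, ⟨hm, ?_⟩, ?_⟩
    · refine Subgroup.mem_centralizer_iff.mpr fun l hl => ?_
      have h3 := h2 l hl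
      rw [mul_inv_eq_iff_eq_mul] at h3
      exact h3.symm
    · rw [mul_inv_cancel_left]

end block

end Vale.Agent.P180.R2.H799.CD
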