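import Vale.Agent.P180.R2.H799.CD1
import Vale.Agent.P180.R2.H471.El3a
import Vale.Agent.P180.R2.H471.El0
import Vale.Agent.P180.R2.H471.Hc11

/-!
P180: the action of a `p`-group by semilinear similitudes on the quotient of a perfect group by its
centre.
-/

set_option linter.all false

namespace Vale.Agent.P180.R2.H799.CD

open Module Subgroup Polynomial Vale.Agent.P180 Vale.Agent.P180.H768.Gd Vale.Agent.P180.R2.H799
  Vale.Agent.P180.R2.H954 Vale.Agent.P180.R2.H854 Vale.Agent.P180.R2.H799.BS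
  Vale.Agent.P180.R2.H854.TD
open Vale.Agent.P180.R2.H589.Sch (Pel pel_unique)
open Vale.Agent.P180.R2.H954.Hc (exists_frob theta_fix odd_of_lin eq_one_of_norm ringChar_prime
  ringChar_dvd_card)
open Vale.Agent.P180.R2.H471.Au (mem_normalizer_of mem_sup_of_inner comm_aeval)

section T

variable {K E : Type} [Field K] [AddCommGroup E] [Module K E]
variable {X : Subgroup (SpecialLinearGroup K E)} {Φ : HForm K E}
variable {T : Type} [Group T] {π : X →* T}

/-- The automorphism `α` of the quotient `T` of `X` is given by the semilinear similitude `g`. -/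
def ActT (Φ : HForm K E) (π : X →* T) (α : MulAut T) (σ : K ≃+* K) (g : E → E) : Prop :=
  Semi σ g ∧ (∃ c : K, ∀ v w, Φ.B (g v) (g w) = c * σ (Φ.B v w)) ∧
    ∀ x : X, ∃ y : X, Tw g x.1 y.1 ∧ α (π x) = π y

/-- The map to the group of inner automorphisms. -/
def pc (π : X →* T) : X →* (MulAut.conj : T →* MulAut T).range :=
  (MulAut.conj : T →* MulAut T).rangeRestrict.comp π

theorem pc_coe (x : X) : ((pc π x : (MulAut.conj : T →* MulAut T).range) : MulAut T) =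
    MulAut.conj (π x) := rfl

theorem conj_act (α : MulAut T) (t : T) : α * MulAut.conj t * α⁻¹ = MulAut.conj (α t) := by
  apply MulEquiv.ext
  intro u
  rw [MulAut.mul_apply, MulAut.mul_apply, MulAut.conj_apply, MulAut.conj_apply, map_mul, map_mul,
    map_inv, MulAut.apply_inv_self]

theorem ActT.actX {α : MulAut T} {σ : K ≃+* K} {g : E → E} (h : ActT Φ π α σ g) :
    ActX Φ (pc π) α σ g := by
  refine ⟨h.1, h.2.1, fun x => ?_⟩
  obtain ⟨y, hy, hy'⟩ := h.2.2 x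
  exact ⟨y, hy, by rw [pc_coe, pc_coe, conj_act, hy']⟩

theorem pc_surj (hπ : Function.Surjective π) : Function.Surjective (pc π) := by
  rintro ⟨_, t, rfl⟩
  obtain ⟨x, rfl⟩ := hπ t
  exact ⟨x, rfl⟩

theorem eq_one_of_conj (hT : center T = ⊥) {t : T} (h : MulAut.conj t = 1) : t = 1 := by
  have h1 : t ∈ center T := by
    rw [mem_center_iff]
    intro u
    have h2 : MulAut.conj t u = u := by rw [h]; rfl
    rw [MulAut.conj_apply, mul_inv_eq_iff_eq_mul] at h2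
    exact h2.symm
  rw [hT] at h1
  exact mem_bot.mp h1

theorem conj_inj (hT : center T = ⊥) {t u : T} (h : MulAut.conj t = MulAut.conj u) : t = u := by
  have h1 : MulAut.conj (t * u⁻¹) = 1 := by rw [map_mul, map_inv, h, mul_inv_cancel]
  have h2 := eq_one_of_conj hT h1
  rwa [mul_inv_eq_one] at h2

theorem pc_ker (hT : center T = ⊥)
    (hker : ∀ x : X, π x = 1 → (x : SpecialLinearGroup K E) ∈ center _) :
    (pc π).ker.map X.subtype ≤ center (SpecialLinearGroup K E) := by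
  rintro _ ⟨x, hx, rfl⟩
  apply hker
  have h1 : MulAut.conj (π x) = 1 := congrArg Subtype.val (MonoidHom.mem_ker.mp hx)
  exact eq_one_of_conj hT h1

theorem one_of_cent (hT : center T = ⊥) {α : MulAut T}
    (h : α ∈ Subgroup.centralizer ((MulAut.conj : T →* MulAut T).range : Set (MulAut T))) :
    α = 1 := by
  apply MulEquiv.ext
  intro t
  have h1 := Subgroup.mem_centralizer_iff.mp h (MulAut.conj t) ⟨t, rfl⟩
  refine conj_inj hT (t := α t) (u := t) ?_
  rw [← conj_act, ← h1, mul_inv_cancel_right]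

variable [Finite K] [FiniteDimensional K E]

/-- The linear similitudes of `p`-power order act as inner automorphisms. -/
theorem inner_T {p : ℕ} [Fact p.Prime] (hT : center T = ⊥) (hpK : ¬ p ∣ Nat.card K)
    (hlin : ∀ j : ℕ, (∀ c : K, Φ.θ c = c ^ (ringChar K ^ j)) → ¬ p ∣ ringChar K ^ j + 1)
    (hE : 1 ≤ finrank K E)
    (hX2 : X.relIndex Φ.Iso ∣ 2) (hV : ∀ F, Φ.SD F → VF F ⊓ Φ.Iso ≤ X) (hL : Lines Φ)
    (hπ : Function.Surjective π)
    (hker : ∀ x : X, π x = 1 → (x : SpecialLinearGroup K E) ∈ center _)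
    {α : MulAut T} {g : E → E} (h : ActX Φ (pc π) α (RingEquiv.refl K) g) {m : ℕ}
    (hr : α ^ (p ^ m) = 1) : ∃ t : T, α = MulAut.conj t := by
  obtain ⟨s, ⟨t, rfl⟩, c, hc, rfl⟩ := H471.Is.linear hpK hlin hE hX2 hV hL (pc_ker hT hker)
    (pc_surj hπ) h hr
  exact ⟨t, by rw [one_of_cent hT hc, mul_one]⟩

/-- The action on the field has `p`-power order. -/
theorem pow_T [Finite T] (hT : center T = ⊥) (hV : ∀ F, Φ.SD F → VF F ⊓ Φ.Iso ≤ X) (hL : Lines Φ)
    (h2 : 2 ≤ finrank K E)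
    (hker : ∀ x : X, π x = 1 → (x : SpecialLinearGroup K E) ∈ center _)
    {α : MulAut T} {σ : RingAut K} {g : E → E} (h : ActT Φ π α σ g) {n : ℕ}
    (hr : α ^ n = 1) : σ ^ n = 1 := by
  haveI : Finite (MulAut T) := Finite.of_injective (fun α => (α : T → T)) DFunLike.coe_injective
  exact H471.Is.act_pow h.actX (pc_ker hT hker) hV hL h2 hr

/-- The action is cyclic modulo inner automorphisms. -/
theorem cyc_T [Finite T] {p : ℕ} [Fact p.Prime] (hT : center T = ⊥) (hpK : ¬ p ∣ Nat.card K)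
    (hlin : ∀ j : ℕ, (∀ c : K, Φ.θ c = c ^ (ringChar K ^ j)) → ¬ p ∣ ringChar K ^ j + 1)
    (hE : 1 ≤ finrank K E)
    (hX2 : X.relIndex Φ.Iso ∣ 2) (hV : ∀ F, Φ.SD F → VF F ⊓ Φ.Iso ≤ X) (hL : Lines Φ)
    (hπ : Function.Surjective π)
    (hker : ∀ x : X, π x = 1 → (x : SpecialLinearGroup K E) ∈ center _)
    {R : Subgroup (MulAut T)} (hR : IsPGroup p R) (h : ∀ α ∈ R, ∃ σ g, ActT Φ π α σ g) :
    ∃ c ∈ R, ∀ r ∈ R, ∃ (i : ℤ) (t : T), (c ^ i)⁻¹ * r = MulAut.conj t := by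
  haveI : Finite (MulAut T) := Finite.of_injective (fun α => (α : T → T)) DFunLike.coe_injective
  obtain ⟨c, hc, hcr⟩ := exists_cycX (Φ := Φ) (π := pc π) (R := R) (fun α hα => by
    obtain ⟨σ, g, hg⟩ := h α hα
    exact ⟨σ, g, hg.actX⟩)
  refine ⟨c, hc, fun r hr => ?_⟩
  obtain ⟨i, g, hA⟩ := hcr r hr
  have hm : (c ^ i)⁻¹ * r ∈ R := R.mul_mem (R.inv_mem (R.zpow_mem hc i)) hr
  obtain ⟨m, hm⟩ := hR ⟨_, hm⟩
  have hm : ((c ^ i)⁻¹ * r) ^ p ^ m = 1 := congrArg Subtype.val hm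
  obtain ⟨t, ht⟩ := inner_T hT hpK hlin hE hX2 hV hL hπ hker hA hm
  exact ⟨i, t, ht⟩

end T

section up

variable {G : Type} [Group G] {L : Subgroup G}

/-- An element which acts on `L / Z(L)` as an inner automorphism acts on `L` as one. -/
theorem sup_of_conj (hL : commutator L = ⊤) {r : G} (hr : r ∈ Subgroup.normalizer (L : Set G))
    {t : L ⧸ center L} (h : qa L (L.normalizerMonoidHom ⟨r, hr⟩) = MulAut.conj t) :
    ∃ s ∈ L, ∃ c ∈ Subgroup.centralizer (L : Set G), r = s * c := by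
  obtain ⟨s, rfl⟩ := QuotientGroup.mk'_surjective (center L) t
  have h1 := conj_up hL h
  refine ⟨s, s.2, (s : G)⁻¹ * r, ?_, by group⟩
  rw [Subgroup.mem_centralizer_iff]
  intro x hx
  have h2 : (L.normalizerMonoidHom ⟨r, hr⟩) ⟨x, hx⟩ = s * ⟨x, hx⟩ * s⁻¹ := by rw [h1]; rfl
  have h3 : r * x * r⁻¹ = (s : G) * x * (s : G)⁻¹ := congrArg Subtype.val h2
  have h4 : x = (s : G)⁻¹ * (r * x * r⁻¹) * s := by
    rw [h3]
    group
  calc x * ((s : G)⁻¹ * r) = (s : G)⁻¹ * (r * x * r⁻¹) * s * ((s : G)⁻¹ * r) := by rw [← h4]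
    _ = (s : G)⁻¹ * r * x := by group

end up

/-- `p`-elements of `L` with the same image in `L / Z(L)` are equal. -/
theorem eq_of_mk {p : ℕ} [hp : Fact p.Prime] {G : Type} [Group G] [Finite G] {L : Subgroup G}
    (hZ : ¬ p ∣ Nat.card (center L)) {x y : L} (hx : ∃ j, x ^ p ^ j = 1)
    (hy : ∃ j, y ^ p ^ j = 1)
    (h : QuotientGroup.mk' (center L) x = QuotientGroup.mk' (center L) y) : x = y := by
  refine pel_unique (p := p) (f := QuotientGroup.mk' (center L)) ?_ ?_ hx hy h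
  · rw [QuotientGroup.ker_mk']
  · rw [QuotientGroup.ker_mk']
    exact hZ

/-- the `p`-subgroups of the quotients `L / Z(L)` of groups of dimension less than `p` are
abelian -/
theorem comm_of_quot {p : ℕ} [Fact p.Prime] {G : Type} [Group G] [Finite G] {D L : Subgroup G}
    (hD : IsPGroup p D) {K : Type} [Field K] [Finite K] {d : ℕ} (hpK : ¬ p ∣ Nat.card K)
    (hlt : d < p) {X : Subgroup (SpecialLinearGroup K (Fin d → K))} {π : X →* L ⧸ center L}
    (hπ : Function.Surjective π) :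
    ∀ x ∈ D, x ∈ L → ∀ y ∈ D, y ∈ L → ∀ l ∈ L,
      (x * y * x⁻¹ * y⁻¹) * l = l * (x * y * x⁻¹ * y⁻¹) := by
  intro x hx hxL y hy hyL l hl
  haveI : Finite (SpecialLinearGroup K (Fin d → K)) := BN.finite_sl
  have hDp : IsPGroup p (D.subgroupOf L) := hD.comap_of_injective L.subtype L.subtype_injective
  obtain ⟨Q, hQ, hQD⟩ := BN.exists_lift (p := p) π hπ
    (hDp.map (QuotientGroup.mk' (center L)))
  have key : ∀ z ∈ D, ∀ hz : z ∈ L, ∃ q ∈ Q, π q = QuotientGroup.mk' (center L) ⟨z, hz⟩ := by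
    intro z hzD hz
    have h1 : QuotientGroup.mk' (center L) ⟨z, hz⟩ ∈ Q.map π := by
      rw [hQD]
      exact ⟨⟨z, hz⟩, hzD, rfl⟩
    exact h1
  obtain ⟨q, hq, hqx⟩ := key x hx hxL
  obtain ⟨q', hq', hqy⟩ := key y hy hyL
  have h1 := H471.Hc.comm_of_lt hpK hlt (hQ.map X.subtype) q.1 ⟨q, hq, rfl⟩ q'.1 ⟨q', hq', rfl⟩
  have h2 : q * q' = q' * q := Subtype.ext h1
  have h3 : QuotientGroup.mk' (center L)
      ((⟨x, hxL⟩ : L) * ⟨y, hyL⟩ * (⟨x, hxL⟩ : L)⁻¹ * (⟨y, hyL⟩ : L)⁻¹) = 1 := by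
    rw [map_mul, map_mul, map_mul, map_inv, map_inv, ← hqx, ← hqy, ← map_mul, h2, map_mul,
      mul_inv_cancel_right, mul_inv_cancel]
  have h4 : (⟨x, hxL⟩ : L) * ⟨y, hyL⟩ * (⟨x, hxL⟩ : L)⁻¹ * (⟨y, hyL⟩ : L)⁻¹ ∈ center L :=
    (QuotientGroup.eq_one_iff _).mp h3
  exact (congrArg Subtype.val (mem_center_iff.mp h4 ⟨l, hl⟩)).symm

end Vale.Agent.P180.R2.H799.CD
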