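import Vale.Agent.P180.R2.H799.CD2
import Vale.Agent.P180.R2.H799.BT8
import Vale.Agent.P180.R2.H799.CC1

/-!
P180: the corner property of the perfect central extensions of orthogonal groups on which `D` acts
by semilinear similitudes, if `N_D(L)` acts trivially on `D ∩ L` modulo the centre or `D ∩ L` is
elementary abelian modulo the centre.
-/

set_option linter.all false

namespace Vale.Agent.P180.R2.H799.CD

open Module Subgroup Polynomial Vale.Agent.P180 Vale.Agent.P180.H768.Gd Vale.Agent.P180.R2.H799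
  Vale.Agent.P180.R2.H954 Vale.Agent.P180.R2.H854 Vale.Agent.P180.R2.H799.BS
  Vale.Agent.P180.R2.H854.TD Vale.Agent.P180.R2.H365 Vale.Agent.P180.R2.H47
open Vale.Agent.P180.R2.H589.Sch (Pel pel_unique)
open Vale.Agent.P180.R2.H954.Hc (exists_frob theta_fix odd_of_lin eq_one_of_norm ringChar_prime
  ringChar_dvd_card)
open Vale.Agent.P180.R2.H471.Au (mem_normalizer_of mem_sup_of_inner comm_aeval)
open Vale.Agent.P180.R2.H471.He (CycOn cycOn_of_ker cor_of_cycOn)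
open Vale.Agent.P180.R2.H259.Cyc (cycB cycB_mono)
open Vale.Agent.P180.R2.H471.El (AbEl)

section data

variable {k : Type*} [Field k] {p : ℕ} [hp : Fact p.Prime] [CharP k p]
variable {K E : Type} [Field K] [Finite K] [AddCommGroup E] [Module K E] [FiniteDimensional K E]
variable {G : Type} [Group G] [Finite G]
variable {L R : Subgroup G} {X : Subgroup (SpecialLinearGroup K E)} {π : X →* L ⧸ center L}
  {Φ : HForm K E}

/-- The lift `Q` of `R ∩ L` to `X` is closed under polynomials, and abelian. -/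
theorem pclosed_up [IsAlgClosed k] (hR : IsPGroup p R) (hp2 : Odd p)
    (hX2 : X.relIndex Φ.Iso ∣ 2) (hπ : Function.Surjective π)
    (hkc : π.ker ≤ center X) (hkp : ¬ p ∣ Nat.card π.ker) (hZ : ¬ p ∣ Nat.card (center L))
    (hab : ∀ x ∈ R, x ∈ L → ∀ y ∈ R, y ∈ L → x * y = y * x)
    {e z : MonoidAlgebra k G} (heL : e ∈ SubAlg k L) (heF : e ∈ Fix (cj k G) L) (hee : e * e = e)
    (hbr : br R e ≠ 0) (hzF : z ∈ Fix (cj k G) (L ⊓ R)) (hez : e = tr (cj k G) (L ⊓ R) L z)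
    {Q : Subgroup X} (hQp : IsPGroup p Q)
    (hQR : Q.map π = (R.subgroupOf L).map (QuotientGroup.mk' (center L))) :
    H471.Is.PClosed Φ p (Q.map X.subtype) := by
  haveI : Finite (SpecialLinearGroup K E) := BN.finite_sl
  have hpel : ∀ w ∈ Q, ∃ j, w ^ p ^ j = 1 := fun w hw => by
    obtain ⟨j, hj⟩ := hQp ⟨w, hw⟩
    exact ⟨j, congrArg Subtype.val hj⟩
  have hpelR : ∀ x : L, (x : G) ∈ R → ∃ j, x ^ p ^ j = 1 := fun x hx => by
    obtain ⟨j, hj⟩ := hR ⟨x, hx⟩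
    have h1 : (x : G) ^ p ^ j = 1 := congrArg Subtype.val hj
    exact ⟨j, Subtype.ext h1⟩
  have hconj : ∀ {H : Type} [Group H] (g y : H), (∃ j, y ^ p ^ j = 1) →
      ∃ j, (g * y * g⁻¹) ^ p ^ j = 1 := fun g y ⟨j, hj⟩ =>
    ⟨j, by rw [conj_pow, hj, mul_one, mul_inv_cancel]⟩
  -- the elements of `Q` and of `R ∩ L`
  have hQL : ∀ w ∈ Q, ∃ x : L, (x : G) ∈ R ∧ QuotientGroup.mk' (center L) x = π w := fun w hw => by
    have h1 : π w ∈ Q.map π := ⟨w, hw, rfl⟩
    rw [hQR] at h1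
    obtain ⟨x, hx, h2⟩ := h1
    exact ⟨x, hx, h2⟩
  have hLQ : ∀ x : L, (x : G) ∈ R → ∃ w ∈ Q, π w = QuotientGroup.mk' (center L) x := fun x hx => by
    have h1 : QuotientGroup.mk' (center L) x ∈ Q.map π := by
      rw [hQR]
      exact ⟨x, hx, rfl⟩
    obtain ⟨w, hw, h2⟩ := h1
    exact ⟨w, hw, h2⟩
  have hQab : ∀ x ∈ Q, ∀ y ∈ Q, x * y = y * x := by
    intro x hx y hy
    obtain ⟨a, ha, hax⟩ := hQL x hx
    obtain ⟨b, hb, hby⟩ := hQL y hy
    have h1 : a * b = b * a := Subtype.ext (hab a ha a.2 b hb b.2)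
    have h2 : π (x * y * x⁻¹) = π y := by
      rw [map_mul, map_mul, map_inv, ← hax, ← hby, ← map_mul, h1, map_mul, mul_inv_cancel_right]
    have h3 := pel_unique (p := p) hkc hkp (hconj x y (hpel y hy)) (hpel y hy) h2
    calc x * y = (x * y * x⁻¹) * x := by group
      _ = y * x := by rw [h3]
  rintro _ ⟨u, hu, rfl⟩ H w hwI ⟨j, hwj⟩ hwH
  have hwX : w ∈ X := mem_of_relIndex_dvd_two hX2 hwI hp2.pow hwj
  have hcw : ∀ h : X, h * u = u * h → h * ⟨w, hwX⟩ = ⟨w, hwX⟩ * h := by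
    intro h hh
    apply Subtype.ext
    apply toEnd_injective
    change toEnd (h : SpecialLinearGroup K E) * toEnd w = toEnd w * toEnd (h : _)
    rw [hwH]
    have h1 : Commute (toEnd (h : SpecialLinearGroup K E)) (toEnd (X.subtype u)) := by
      change toEnd (h : SpecialLinearGroup K E) * toEnd (u : SpecialLinearGroup K E) =
        toEnd (u : SpecialLinearGroup K E) * toEnd (h : SpecialLinearGroup K E)
      rw [← toEnd_mul, ← toEnd_mul]
      exact congrArg (fun x : X => toEnd (x : SpecialLinearGroup K E)) hh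
    exact comm_aeval h1 H
  obtain ⟨w', hw'⟩ : ∃ w' : X, w' = ⟨w, hwX⟩ := ⟨_, rfl⟩
  rw [← hw'] at hcw
  have hwp : ∃ j, w' ^ p ^ j = 1 := ⟨j, by rw [hw']; exact Subtype.ext hwj⟩
  -- the lift of `w` to `L`
  obtain ⟨a, hap, haw⟩ : ∃ a : L, (∃ j, a ^ p ^ j = 1) ∧ QuotientGroup.mk' (center L) a = π w' := by
    refine PairP.exists_lift_elt (p := p) (QuotientGroup.mk'_surjective (center L)) ?_
    obtain ⟨j, hj⟩ := hwp
    exact ⟨j, by rw [← map_pow, hj, map_one]⟩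
  have haR : (a : G) ∈ R := by
    refine mem_of_central hR hab heL heF hee hbr hzF hez a.2 ?_ ?_ ?_
    · obtain ⟨j, hj⟩ := hap
      exact ⟨j, congrArg Subtype.val hj⟩
    · intro q hq hqL
      obtain ⟨v, hv, hvq⟩ := hLQ ⟨q, hqL⟩ hq
      have h1 : v * w' = w' * v := hcw v (hQab v hv u hu)
      have h2 : a * ⟨q, hqL⟩ * a⁻¹ = ⟨q, hqL⟩ := by
        refine eq_of_mk hZ (hconj _ _ (hpelR _ hq)) (hpelR _ hq) ?_
        rw [map_mul, map_mul, map_inv, haw, ← hvq, ← map_mul, ← h1, map_mul, mul_inv_cancel_right]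
      have h3 : (a : G) * q * (a : G)⁻¹ = q := congrArg Subtype.val h2
      rw [mul_inv_eq_iff_eq_mul] at h3
      exact h3
    · intro h hh hh'
      obtain ⟨g, hg⟩ := hπ (QuotientGroup.mk' (center L) ⟨h, hh⟩)
      have h1 : g * u = u * g := by
        obtain ⟨b, hb, hbu⟩ := hQL u hu
        have h2 : (⟨h, hh⟩ : L) * b = b * ⟨h, hh⟩ := Subtype.ext (hh' b hb b.2)
        have h3 : π (g * u * g⁻¹) = π u := by
          rw [map_mul, map_mul, map_inv, hg, ← hbu, ← map_mul, h2, map_mul, mul_inv_cancel_right]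
        have h4 := pel_unique (p := p) hkc hkp (hconj g u (hpel u hu)) (hpel u hu) h3
        calc g * u = (g * u * g⁻¹) * g := by group
          _ = u * g := by rw [h4]
      have h2 := hcw g h1
      have h3 : (⟨h, hh⟩ : L) * a * (⟨h, hh⟩ : L)⁻¹ = a := by
        refine eq_of_mk hZ (hconj _ _ hap) hap ?_
        rw [map_mul, map_mul, map_inv, haw, ← hg, ← map_mul, h2, map_mul, mul_inv_cancel_right]
      have h4 : h * (a : G) * h⁻¹ = a := congrArg Subtype.val h3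
      rw [mul_inv_eq_iff_eq_mul] at h4
      exact h4
  obtain ⟨q, hq, hqa⟩ := hLQ a haR
  have h5 : w' = q := pel_unique (p := p) hkc hkp hwp (hpel q hq) (by rw [hqa, haw])
  exact ⟨q, hq, by rw [← h5, hw']; rfl⟩

/-- **First case**: `R ∩ L ≠ 1`. -/
theorem inner_of_ne [IsAlgClosed k] (hR : IsPGroup p R)
    (hn : ∀ x ∈ R, ∀ s ∈ L, x * s * x⁻¹ ∈ L) (h2 : 2 ≤ finrank K E) (hpK : ¬ p ∣ Nat.card K)
    (hlin : ∀ j : ℕ, (∀ c : K, Φ.θ c = c ^ (ringChar K ^ j)) → ¬ p ∣ ringChar K ^ j + 1)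
    (hXI : X ≤ Φ.Iso) (hX2 : X.relIndex Φ.Iso ∣ 2) (hV : ∀ F, Φ.SD F → VF F ⊓ Φ.Iso ≤ X)
    (hLi : Lines Φ) (hπ : Function.Surjective π)
    (hker : ∀ x : X, π x = 1 → (x : SpecialLinearGroup K E) ∈ center _)
    (hL : commutator L = ⊤) (hT : center (L ⧸ center L) = ⊥) (hZ : ¬ p ∣ Nat.card (center L))
    (hact : ∀ r ∈ R, ∀ hr : r ∈ Subgroup.normalizer (L : Set G),
      ∃ σ g, ActT Φ π (qa L (L.normalizerMonoidHom ⟨r, hr⟩)) σ g)
    (hc : AbEl p R L)
    {e z : MonoidAlgebra k G} (heL : e ∈ SubAlg k L) (heF : e ∈ Fix (cj k G) L) (hee : e * e = e)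
    (hbr : br R e ≠ 0) (hzF : z ∈ Fix (cj k G) (L ⊓ R)) (hez : e = tr (cj k G) (L ⊓ R) L z)
    {Q : Subgroup X} (hQp : IsPGroup p Q)
    (hQR : Q.map π = (R.subgroupOf L).map (QuotientGroup.mk' (center L))) (hQ1 : Q ≠ ⊥) :
    ∀ r ∈ R, ∃ s ∈ L, ∃ c ∈ Subgroup.centralizer (L : Set G), r = s * c := by
  haveI : Finite (SpecialLinearGroup K E) := BN.finite_sl
  have hp2 : Odd p := odd_of_lin hp.out hpK Φ.θ hlin
  have hk : π.ker.map X.subtype ≤ center (SpecialLinearGroup K E) := by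
    rintro _ ⟨x, hx, rfl⟩
    exact hker x (MonoidHom.mem_ker.mp hx)
  have hkc : π.ker ≤ center X := by
    intro x hx
    have h1 : (x : SpecialLinearGroup K E) ∈ center _ := hk ⟨x, hx, rfl⟩
    rw [mem_center_iff] at h1 ⊢
    intro y
    exact Subtype.ext (h1 y.1)
  have hkp : ¬ p ∣ Nat.card π.ker := ker_coprime_lin hpK hlin hXI hk
  have hpel : ∀ w ∈ Q, ∃ j, w ^ p ^ j = 1 := fun w hw => by
    obtain ⟨j, hj⟩ := hQp ⟨w, hw⟩
    exact ⟨j, congrArg Subtype.val hj⟩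
  have hpelR : ∀ x : L, (x : G) ∈ R → ∃ j, x ^ p ^ j = 1 := fun x hx => by
    obtain ⟨j, hj⟩ := hR ⟨x, hx⟩
    have h1 : (x : G) ^ p ^ j = 1 := congrArg Subtype.val hj
    exact ⟨j, Subtype.ext h1⟩
  have hQL : ∀ w ∈ Q, ∃ x : L, (x : G) ∈ R ∧ QuotientGroup.mk' (center L) x = π w := fun w hw => by
    have h1 : π w ∈ Q.map π := ⟨w, hw, rfl⟩
    rw [hQR] at h1
    obtain ⟨x, hx, h2⟩ := h1
    exact ⟨x, hx, h2⟩
  have hab : ∀ x ∈ R, x ∈ L → ∀ y ∈ R, y ∈ L → x * y = y * x := by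
    intro x hx hxL y hy hyL
    have h1 := hc.ab x hx hxL y hy hyL
    have h2 : (⟨x, hxL⟩ : L) * ⟨y, hyL⟩ * (⟨x, hxL⟩ : L)⁻¹ = ⟨y, hyL⟩ := by
      refine eq_of_mk hZ ?_ (hpelR _ hy) ?_
      · obtain ⟨j, hj⟩ := hpelR ⟨y, hyL⟩ hy
        exact ⟨j, by rw [conj_pow, hj, mul_one, mul_inv_cancel]⟩
      · have h3 : (⟨x, hxL⟩ : L) * ⟨y, hyL⟩ * (⟨x, hxL⟩ : L)⁻¹ * (⟨y, hyL⟩ : L)⁻¹ ∈ center L := by
          rw [mem_center_iff]
          rintro ⟨l, hl⟩
          exact Subtype.ext (h1 l hl).symm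
        have h4 := (QuotientGroup.eq_one_iff _).mpr h3
        have h5 : QuotientGroup.mk' (center L) ((⟨x, hxL⟩ : L) * ⟨y, hyL⟩ * (⟨x, hxL⟩ : L)⁻¹) *
            (QuotientGroup.mk' (center L) ⟨y, hyL⟩)⁻¹ = 1 := h4
        exact mul_inv_eq_one.mp h5
    have h3 : x * y * x⁻¹ = y := congrArg Subtype.val h2
    rw [mul_inv_eq_iff_eq_mul] at h3
    exact h3
  have hQC := pclosed_up hR hp2 hX2 hπ hkc hkp hZ hab heL heF hee hbr hzF hez hQp hQR
  have hQ1' : Q.map X.subtype ≠ ⊥ := by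
    intro h
    rw [Subgroup.map_eq_bot_iff_of_injective _ X.subtype_injective] at h
    exact hQ1 h
  have hQI : Q.map X.subtype ≤ Φ.Iso := by
    rintro _ ⟨w, hw, rfl⟩
    exact hXI w.2
  intro r hr
  have hrN := mem_normalizer_of hn hr
  obtain ⟨s, hs⟩ := hR ⟨r, hr⟩
  have hs : r ^ p ^ s = 1 := congrArg Subtype.val hs
  obtain ⟨σ, g, hA⟩ := hact r hr hrN
  have hpow : (qa L (L.normalizerMonoidHom ⟨r, hrN⟩)) ^ p ^ s = 1 := by
    have h3 : (⟨r, hrN⟩ : Subgroup.normalizer (L : Set G)) ^ p ^ s = 1 := Subtype.ext hs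
    rw [← map_pow, ← map_pow, h3, map_one, map_one]
  have hσ : (σ : RingAut K) ^ p ^ s = 1 := pow_T hT hV hLi h2 hker hA hpow
  have hσ1 : (σ : RingAut K) = 1 := by
    rcases hc with hc | ⟨-, hel⟩
    · have hgQ : ∀ w ∈ Q.map X.subtype, ∀ v, g (w v) = w (g v) := by
        rintro _ ⟨w, hw, rfl⟩ v
        obtain ⟨y, hy, h1⟩ := hA.2.2 w
        have h2 : y = w := by
          refine pel_unique (p := p) hkc hkp ?_ (hpel w hw) ?_
          · obtain ⟨j, hj⟩ := hpel w hw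
            refine ⟨j, Subtype.ext ?_⟩
            have h3 := hy.pow (p ^ j)
            have h4 : (w : SpecialLinearGroup K E) ^ p ^ j = 1 := congrArg Subtype.val hj
            rw [h4] at h3
            exact Tw.unique hA.1.bij.2 h3 Tw.one
          · obtain ⟨x, hx, hxw⟩ := hQL w hw
            rw [← h1, ← hxw, qa_mk]
            have h3 : (L.normalizerMonoidHom ⟨r, hrN⟩) x * x⁻¹ ∈ center L := by
              rw [mem_center_iff]
              rintro ⟨l, hl⟩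
              exact Subtype.ext (hc r hr hrN x hx x.2 l hl).symm
            have h4 : QuotientGroup.mk' (center L) ((L.normalizerMonoidHom ⟨r, hrN⟩) x) *
                (QuotientGroup.mk' (center L) x)⁻¹ = 1 := (QuotientGroup.eq_one_iff _).mpr h3
            exact mul_inv_eq_one.mp h4
        have h3 := hy v
        rw [h2] at h3
        exact h3
      exact H471.Is.sigma_eq_one hpK hlin (hQp.map _) hQ1' hQI hQC hA.1 hgQ hσ
    · have hel' : ∀ w ∈ Q.map X.subtype, w ^ p = 1 := by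
        rintro _ ⟨w, hw, rfl⟩
        have h3 : w ^ p = 1 := by
          refine pel_unique (p := p) hkc hkp ?_ ⟨0, one_pow _⟩ ?_
          · obtain ⟨j, hj⟩ := hpel w hw
            exact ⟨j, by rw [← pow_mul, mul_comm, pow_mul, hj, one_pow]⟩
          · obtain ⟨x, hx, hxw⟩ := hQL w hw
            rw [map_one, map_pow, ← hxw, ← map_pow]
            refine (QuotientGroup.eq_one_iff _).mpr ?_
            rw [mem_center_iff]
            rintro ⟨l, hl⟩
            exact Subtype.ext (hel x hx x.2 l hl).symm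
        exact congrArg Subtype.val h3
      exact H471.El.sigma_eq_one_iso hpK hlin (hQp.map _) hQ1' hQI hQC hel' hσ
  have hσ2 : σ = RingEquiv.refl K := hσ1
  rw [hσ2] at hA
  obtain ⟨t, ht⟩ := inner_T hT hpK hlin (by omega) hX2 hV hLi hπ hker hA.actX hpow
  exact sup_of_conj hL hrN ht

/-- **Second case**: `R ∩ L = 1`. -/
theorem cyc_up (hR : IsPGroup p R)
    (hn : ∀ x ∈ R, ∀ s ∈ L, x * s * x⁻¹ ∈ L) (h1 : 1 ≤ finrank K E) (hpK : ¬ p ∣ Nat.card K)
    (hlin : ∀ j : ℕ, (∀ c : K, Φ.θ c = c ^ (ringChar K ^ j)) → ¬ p ∣ ringChar K ^ j + 1)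
    (hX2 : X.relIndex Φ.Iso ∣ 2) (hV : ∀ F, Φ.SD F → VF F ⊓ Φ.Iso ≤ X)
    (hLi : Lines Φ) (hπ : Function.Surjective π)
    (hker : ∀ x : X, π x = 1 → (x : SpecialLinearGroup K E) ∈ center _)
    (hL : commutator L = ⊤) (hT : center (L ⧸ center L) = ⊥)
    (hact : ∀ r ∈ R, ∀ hr : r ∈ Subgroup.normalizer (L : Set G),
      ∃ σ g, ActT Φ π (qa L (L.normalizerMonoidHom ⟨r, hr⟩)) σ g)
    {e z : MonoidAlgebra k G} (heL : e ∈ SubAlg k L)
    (hbr : br R e ≠ 0) (hzF : z ∈ Fix (cj k G) (L ⊓ R)) (hez : e = tr (cj k G) (L ⊓ R) L z)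
    (hbot : L ⊓ R = ⊥) : CycOn R L := by
  refine cyc_of_bot hR hn ?_ heL hbr hzF hez hbot
  let ρ : R →* MulAut (L ⧸ center L) := (qa L).comp (L.normalizerMonoidHom.comp
    (Subgroup.inclusion (fun r hr => mem_normalizer_of hn hr :
      R ≤ Subgroup.normalizer (L : Set G))))
  have hρ : ∀ (r : G) (hr : r ∈ R), ρ ⟨r, hr⟩ =
    qa L (L.normalizerMonoidHom ⟨r, mem_normalizer_of hn hr⟩) := fun r hr => rfl
  have hRp : IsPGroup p ρ.range := by
    rw [MonoidHom.range_eq_map]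
    exact (IsPGroup.to_subgroup hR ⊤).map ρ
  obtain ⟨_, ⟨c, rfl⟩, hc⟩ := cyc_T (p := p) (Φ := Φ) (π := π) hT hpK hlin h1 hX2 hV hLi hπ hker
    hRp (by
      rintro _ ⟨r, rfl⟩
      exact hact r r.2 (mem_normalizer_of hn r.2))
  refine ⟨c, c.2, fun r hr => ?_⟩
  obtain ⟨i, t, ht⟩ := hc (ρ ⟨r, hr⟩) ⟨_, rfl⟩
  have hm : (((c ^ i)⁻¹ * ⟨r, hr⟩ : R) : G) ∈ Subgroup.normalizer (L : Set G) :=
    mem_normalizer_of hn ((c ^ i)⁻¹ * ⟨r, hr⟩ : R).2
  obtain ⟨s, hs, u, hu, h⟩ := sup_of_conj hL hm (t := t) (by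
    rw [← ht, ← map_zpow, ← map_inv, ← map_mul]
    rfl)
  exact ⟨i, s, hs, u, hu, h⟩

end data

universe u

/-- the bound -/
noncomputable def bCv (p n : ℕ) : ℕ :=
  max (max (H799.BN.bnB n) (BZ.bdL p (CB.lvM p) n)) (cycB p n)

/-- **The corner property of perfect central extensions of orthogonal groups** on which `N_D(L)`
acts by semilinear similitudes, if `N_D(L)` acts trivially on `D ∩ L` modulo the centre or `D ∩ L` is
elementary abelian modulo the centre; no condition on field automorphisms. -/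
theorem corP_coverSim {k : Type u} [Field k] [IsAlgClosed k] {p n : ℕ} [Fact p.Prime] [CharP k p]
    {G : Type} [Group G] [Finite G] {D L : Subgroup G} (hD : IsPGroup p D)
    (hDn : Nat.card D ≤ n) {c : Prop} {Γ : Subgroup (MulAut L)} (h : CC.OSim c p L Γ)
    (hΓ : ∀ r ∈ D, ∀ hr : r ∈ Subgroup.normalizer (L : Set G),
      L.normalizerMonoidHom ⟨r, hr⟩ ∈ Γ) (hc : AbEl p D L)
    (b : MonoidAlgebra k G) : H365.CorP p (bCv p n) b D L := by
  obtain ⟨hL, Γ', hΓ', K, iK, fK, d, hd4, hd, hpK, hodd, hK9, hlin, B, X, π, hB, hX, hπ, hcenX,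
    hact⟩ := h
  have hpair : CC.OPair p L := by
    refine ⟨hL, K, iK, fK, d, Or.inl rfl, hd, hpK, hodd, hK9, hlin, B, X, π, hB, hX, hπ, hcenX,
      fun α hα => ?_⟩
    rw [Subgroup.mem_bot] at hα
    subst hα
    exact ⟨RingEquiv.refl K, 1, id, Function.bijective_id, fun _ _ => rfl, fun _ _ => rfl,
      fun v w => (one_mul _).symm, fun x => ⟨x, fun _ => rfl, rfl⟩⟩
  have hBB : ∀ R : Subgroup G, R ≤ D → R ≤ L ⊔ Subgroup.centralizer (L : Set G) →
      H365.CorP p (max (H799.BN.bnB n) (BZ.bdL p (CB.lvM p) n)) b R L := by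
    intro R hRD hRL
    exact (CC.corP_cover (hD.to_le hRD)
      ((Nat.card_le_card_of_injective _ (Subgroup.inclusion_injective hRD)).trans hDn) hpair
      (inf_le_left.trans hRL) b)
  rcases hd4 with hd4 | ⟨hd4, -⟩
  · -- the action is trivial
    refine (CC.corP_cover hD hDn hpair ?_ b).mono (le_max_left _ _)
    rintro r ⟨hrD, hrN⟩
    obtain ⟨β, hβ, hβr⟩ := hΓ' _ (hΓ r hrD hrN)
    rw [hd4, Subgroup.mem_bot] at hβ
    subst hβ
    obtain ⟨s, hs, c, hc, h⟩ := sup_of_conj hL hrN (t := 1) (by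
      apply MulEquiv.ext
      intro y
      obtain ⟨y, rfl⟩ := QuotientGroup.mk'_surjective (center L) y
      rw [qa_mk, map_one]
      exact (hβr y).symm)
    rw [h]
    exact Subgroup.mul_mem _ (Subgroup.mem_sup_left hs) (Subgroup.mem_sup_right hc)
  obtain ⟨f1, f2, -, -, f3', f4⟩ := hB
  obtain ⟨f5, f6, -⟩ := hX
  have f3 : ∀ x y, B y x = B x y := fun x y =>
    (f3' x y).trans (by rw [RingHom.id_apply, one_mul])
  have hker : ∀ x : X, π x = 1 → (x : SpecialLinearGroup K (Fin d → K)) ∈ center _ :=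
    fun x hx => hcenX x (by rw [hx]; exact one_mem _)
  have hp : p.Prime := Fact.out
  let Φ : HForm K (Fin d → K) :=
    { B := B, θ := RingHom.id K, ε := 1, add_left := f1, smul_left := f2, θθ := fun _ => rfl
      εε := by rw [map_one, mul_one]
      symm := fun x y => by rw [RingHom.id_apply, one_mul, f3]
      nondeg := f4 }
  have hXI : X ≤ Φ.Iso := f5
  have hX2 : X.relIndex Φ.Iso ∣ 2 :=
    CC.relIndex_of_two fun g hg g' hg' hgX hgX' => f6 g g' hgX hgX' hg hg'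
  have hgood : Φ.GoodX X := Or.inl hodd
  have hlin' : ∀ j : ℕ, (∀ c, Φ.θ c = c ^ (ringChar K ^ j)) → ¬ p ∣ ringChar K ^ j + 1 := hlin
  have hfd : finrank K (Fin d → K) = d := by rw [Module.finrank_fin_fun]
  have hT := CC.center_quot hL
  have hkk : (QuotientGroup.mk' (center L)).ker ≤ center L := (QuotientGroup.ker_mk' _).le
  have hp2 : Odd p := H954.Hc.odd_of_lin hp hpK Φ.θ hlin'
  have hZ : ¬ p ∣ Nat.card (center L) := by
    by_cases hp1 : p ∣ Nat.card K - 1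
    · obtain ⟨ζ, hζ, hζ1⟩ : ∃ ζ : K, ζ ^ p = 1 ∧ ζ ≠ 1 := by
        rw [← Nat.card_units] at hp1
        obtain ⟨u, hu⟩ := exists_prime_orderOf_dvd_card' p hp1
        refine ⟨u, ?_, ?_⟩
        · rw [← Units.val_pow_eq_pow_val, ← hu, pow_orderOf_eq_one, Units.val_one]
        · intro h
          have h1 : u = 1 := Units.ext h
          rw [h1, orderOf_one] at hu
          exact hp.one_lt.ne hu
      exact H259.Cen.not_dvd_center (Φ := Φ) hp2 hgood hXI hX2 hζ hζ1 rfl (by rw [hfd]; exact hd)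
        hL (QuotientGroup.mk'_surjective (center L)) hkk π hπ
    · exact H259.Cen.not_dvd_center' (Φ := Φ) hgood hXI hX2 hpK hp1 hlin' (by rw [hfd]; exact hd)
        hL (QuotientGroup.mk'_surjective (center L)) hkk π hπ
  haveI : Finite (SpecialLinearGroup K (Fin d → K)) := BN.finite_sl
  have hLi : Lines Φ := by
    refine lines_of_form Φ (Φ.trT hgood.or3) (by rw [hfd]; omega) ?_
      (exists_isotropic Φ (by rw [hfd]; omega))
    rw [hfd]
    exact Or.inl hd4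
  have hV : ∀ F, Φ.SD F → VF F ⊓ Φ.Iso ≤ X := fun F _ => hgood.hV hX2 F
  rintro R hRD hn e he heR hbr ⟨z, hz, hzF, hez⟩ hez'
  have hR : IsPGroup p R := hD.to_le hRD
  have heL : e ∈ SubAlg k L := he.block.mem.1
  have heF : e ∈ Fix (cj k G) L := he.block.mem.2
  have hee : e * e = e := he.block.idem
  have hact' : ∀ r ∈ R, ∀ hr : r ∈ Subgroup.normalizer (L : Set G),
      ∃ σ g, ActT Φ π (qa L (L.normalizerMonoidHom ⟨r, hr⟩)) σ g := by
    intro r hr hrN
    obtain ⟨β, hβ, hβr⟩ := hΓ' _ (hΓ r (hRD hr) hrN)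
    obtain ⟨σ, c, g, hg, hadd, hsmul, hBg, hx⟩ := hact β hβ
    refine ⟨σ, g, ⟨hg, hadd, hsmul⟩, ⟨c, hBg⟩, fun x => ?_⟩
    obtain ⟨y, hy, hy'⟩ := hx x
    refine ⟨y, hy, ?_⟩
    obtain ⟨l, hl⟩ := QuotientGroup.mk'_surjective (center L) (π x)
    rw [← hy', ← hl, qa_mk]
    exact (hβr l).symm
  have hc' : AbEl p R L := by
    rcases hc with hc | ⟨hc1, hc2⟩
    · exact Or.inl fun x hx hxN y hy hyL => hc x (hRD hx) hxN y (hRD hy) hyL
    · exact Or.inr ⟨fun x hx hxL y hy hyL => hc1 x (hRD hx) hxL y (hRD hy) hyL,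
        fun y hy hyL => hc2 y (hRD hy) hyL⟩
  have hRp : IsPGroup p (R.subgroupOf L) :=
    hR.comap_of_injective L.subtype L.subtype_injective
  obtain ⟨Q, hQp, hQR⟩ : ∃ Q : Subgroup X, IsPGroup p Q ∧
      Q.map π = (R.subgroupOf L).map (QuotientGroup.mk' (center L)) :=
    BN.exists_lift (p := p) π hπ (hRp.map _)
  by_cases hQ1 : Q = ⊥
  · have hbot : L ⊓ R = ⊥ := by
      rw [hQ1, Subgroup.map_bot] at hQR
      rw [eq_bot_iff]
      rintro x ⟨hxL, hxR⟩
      have h1 : QuotientGroup.mk' (center L) ⟨x, hxL⟩ ∈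
          (R.subgroupOf L).map (QuotientGroup.mk' (center L)) := ⟨⟨x, hxL⟩, hxR, rfl⟩
      rw [← hQR, Subgroup.mem_bot] at h1
      have h2 : (⟨x, hxL⟩ : L) = 1 := by
        refine eq_of_mk hZ ?_ ⟨0, one_pow _⟩ (by rw [h1, map_one])
        obtain ⟨j, hj⟩ := hR ⟨x, hxR⟩
        have h3 : x ^ p ^ j = 1 := congrArg Subtype.val hj
        exact ⟨j, Subtype.ext h3⟩
      exact Subgroup.mem_bot.mpr (congrArg Subtype.val h2)
    have h1 := cyc_up hR hn (by rw [hfd]; omega) hpK hlin' hX2 hV hLi hπ hker hL hT hact' heL hbr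
      hzF hez hbot
    obtain ⟨m, f, hf, hsp⟩ := cor_of_cycOn hR h1 hn he.block heR hbr ⟨z, hz, hzF, hez⟩ hez'
    have h4 : Nat.card R ≤ n :=
      (Nat.card_le_card_of_injective _ (Subgroup.inclusion_injective hRD)).trans hDn
    exact ⟨m, f, fun j => ⟨(hf j).1, (hf j).2.1, (hf j).2.2.1,
      ((hf j).2.2.2.trans (cycB_mono h4)).trans (le_max_right _ _)⟩, hsp⟩
  · have h1 := inner_of_ne hR hn (by rw [hfd]; omega) hpK hlin' hXI hX2 hV hLi hπ hker hL hT hZ
      hact' hc' heL heF hee hbr hzF hez hQp hQR hQ1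
    have h2 : R ≤ L ⊔ Subgroup.centralizer (L : Set G) := by
      intro r hr
      obtain ⟨s, hs, c, hc, rfl⟩ := h1 r hr
      exact Subgroup.mul_mem _ (Subgroup.mem_sup_left hs) (Subgroup.mem_sup_right hc)
    obtain ⟨m, f, hf, hsp⟩ := hBB R hRD h2 R le_rfl hn e he heR hbr ⟨z, hz, hzF, hez⟩ hez'
    exact ⟨m, f, fun j => ⟨(hf j).1, (hf j).2.1, (hf j).2.2.1,
      (hf j).2.2.2.trans (le_max_left _ _)⟩, hsp⟩

end Vale.Agent.P180.R2.H799.CD
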