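import Vale.Agent.P180.R2.H799.BT4
import Vale.Agent.P180.R2.H259.Oq.B0

/-!
P180: semilinear bijections which commute with the unipotent elements of `Ω(Q)`, `|K|` even, are
scalar on every line.
-/

set_option linter.all false

namespace Vale.Agent.P180.R2.H799.CF

open Module Vale.Agent.P180.R2.H854 Vale.Agent.P180.R2.H799 Vale.Agent.P180.R2.H799.BS
open Vale.Agent.P180.R2.H259.Loc Vale.Agent.P180.R2.H259.Oq

variable {K E : Type} [Field K] [Finite K] [AddCommGroup E] [Module K E] [FiniteDimensional K E]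
variable {Φ : HForm K E} {Q : E → K} {X : Subgroup (SpecialLinearGroup K E)}

/-- square roots -/
theorem exists_sqrt (hQ : QF Φ Q) (a : K) : ∃ t : K, t ^ 2 = a := by
  have := Fintype.ofFinite K
  have h1 : ringChar K = 2 := by
    have h2 : ((2 : ℕ) : K) = 0 := by
      rw [Nat.cast_ofNat]
      exact hQ.two
    have h3 := (ringChar.spec K 2).mp h2
    rcases (Nat.dvd_prime Nat.prime_two).mp h3 with h | h
    · exfalso
      have h4 := ringChar.charP K
      rw [h] at h4
      have h5 : ((1 : ℕ) : K) = 0 := (CharP.cast_eq_zero_iff K 1 1).mpr dvd_rfl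
      rw [Nat.cast_one] at h5
      exact one_ne_zero h5
    · exact h
  obtain ⟨t, ht⟩ := FiniteField.isSquare_of_char_two h1 a
  exact ⟨t, by rw [ht, sq]⟩

/-- singular vectors -/
theorem exists_sing (hQ : QF Φ Q) {U : Submodule K E} (hU : 3 ≤ finrank K U) :
    ∃ z ∈ U, z ≠ 0 ∧ Q z = 0 := by
  obtain ⟨y, hyU, hy0⟩ : ∃ y ∈ U, y ∉ (⊥ : Submodule K E) :=
    exists_notin (by rw [finrank_bot]; omega)
  have hy0' : y ≠ 0 := fun h => hy0 (by rw [h]; exact zero_mem _)
  by_cases hyQ : Q y = 0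
  · exact ⟨y, hyU, hy0', hyQ⟩
  have hp1 := Φ.finrank_add_finrank_perp (Submodule.span K {y})
  have hs1 : finrank K (Submodule.span K {y}) = 1 := finrank_span_singleton hy0'
  have h2 := Submodule.finrank_sup_add_finrank_inf_eq U (Φ.perp (Submodule.span K {y}))
  have h3 : finrank K (U ⊔ Φ.perp (Submodule.span K {y}) : Submodule K E) ≤ finrank K E :=
    Submodule.finrank_le _
  obtain ⟨u, ⟨huU, huy⟩, hun⟩ : ∃ u ∈ U ⊓ Φ.perp (Submodule.span K {y}),
      u ∉ Submodule.span K {y} := exists_notin (by omega)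
  rw [SetLike.mem_coe, mem_perp_singleton] at huy
  obtain ⟨t, ht⟩ := exists_sqrt hQ (Q u / Q y)
  refine ⟨u + t • y, U.add_mem huU (U.smul_mem _ hyU), fun h0 => hun ?_, ?_⟩
  · have h4 : u = (-t) • y := by
      rw [neg_smul]
      exact eq_neg_of_add_eq_zero_left h0
    rw [h4]
    exact Submodule.smul_mem _ _ (Submodule.mem_span_singleton_self y)
  · rw [hQ.add, hQ.smul, ht, hQ.smul_r, huy, div_mul_cancel₀ _ hyQ, mul_zero, add_zero]
    exact (show Q u + Q u = 2 * Q u by ring) ▸ by rw [hQ.two, zero_mul]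

/-- the Siegel elements -/
theorem exists_siegel (hQ : QF Φ Q) (hX : OmX Q X) {w u : E} (hw : Q w = 0) (hu : Φ.B u w = 0) :
    ∃ F : Flag K E, ∃ v ∈ VF F ⊓ X,
      ∀ y, v y - y = Φ.B y u • w - Φ.B y w • u - (Q u * Φ.B y w) • w := by
  have hiso : Submodule.span K {w} ≤ Φ.perp (Submodule.span K {w}) := by
    rw [Submodule.span_le]
    rintro _ rfl
    rw [SetLike.mem_coe, mem_perp_singleton]
    exact hQ.alt _
  have hs : ∀ x ∈ Submodule.span K {w}, Q x = 0 := by
    intro x hx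
    obtain ⟨a, rfl⟩ := Submodule.mem_span_singleton.mp hx
    rw [hQ.smul, hw, mul_zero]
  obtain ⟨v, hv, hve⟩ := siegelQ hQ hiso hs (Submodule.mem_span_singleton_self w)
    ((mem_perp_singleton Φ).mpr hu)
  exact ⟨_, v, ⟨hv.1, (hX v).mpr ⟨hv.2, even_rank hQ hiso hs hv⟩⟩, hve⟩

variable {σ : K ≃+* K} {h : E → E}

/-- the commuting relation -/
theorem siegel_relQ (hQ : QF Φ Q) (hX : OmX Q X) (hh : Semi σ h)
    (hcom : ∀ (F : Flag K E), ∀ x ∈ VF F ⊓ X, Tw h x x) {w u : E} (hw : Q w = 0)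
    (hu : Φ.B u w = 0) (y : E) :
    σ (Φ.B y u) • h w - σ (Φ.B y w) • h u - σ (Q u * Φ.B y w) • h w =
      Φ.B (h y) u • w - Φ.B (h y) w • u - (Q u * Φ.B (h y) w) • w := by
  obtain ⟨F, v, hv, hvy⟩ := exists_siegel hQ hX hw hu
  have h1 := hcom F v hv y
  have h2 : h (v y - y) = v (h y) - h y := by rw [hh.sub, h1]
  rw [hvy, hvy, hh.sub, hh.sub, hh.smul, hh.smul, hh.smul] at h2
  exact h2

/-- **Singular lines are preserved.** -/
theorem iso_lineQ (hQ : QF Φ Q) (hX : OmX Q X) (hh : Semi σ h)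
    (hcom : ∀ (F : Flag K E), ∀ x ∈ VF F ⊓ X, Tw h x x) (hd : 4 ≤ finrank K E) {w : E}
    (hw : Q w = 0) (hw0 : w ≠ 0) : ∃ a : K, h w = a • w := by
  classical
  have hs1 : finrank K (Submodule.span K {w}) = 1 := finrank_span_singleton hw0
  have hp1 := Φ.finrank_add_finrank_perp (Submodule.span K {w})
  -- the span condition
  have key : ∀ u, Φ.B u w = 0 → u ∉ Submodule.span K {w} →
      h w ∈ Submodule.span K {w, u} := by
    intro u hu hun
    rw [← Φ.perp_perp (Submodule.span K {w})] at hun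
    obtain ⟨y, hy, hyu⟩ : ∃ y ∈ Φ.perp (Submodule.span K {w}), Φ.B u y ≠ 0 := by
      by_contra hcon
      push Not at hcon
      exact hun hcon
    rw [mem_perp_singleton] at hy
    have hyu' : Φ.B y u ≠ 0 := fun h0 => hyu (Φ.eq_zero_comm h0)
    have h1 := siegel_relQ hQ hX hh hcom hw hu y
    rw [hy, mul_zero, map_zero, zero_smul, zero_smul, sub_zero, sub_zero] at h1
    have h2 : σ (Φ.B y u) ≠ 0 := fun h0 => hyu' ((map_eq_zero_iff σ σ.injective).mp h0)
    have h3 : h w = (σ (Φ.B y u))⁻¹ • (σ (Φ.B y u) • h w) := by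
      rw [smul_smul, inv_mul_cancel₀ h2, one_smul]
    rw [h3, h1]
    have hwm : w ∈ Submodule.span K {w, u} := Submodule.subset_span (Or.inl rfl)
    have hum : u ∈ Submodule.span K {w, u} := Submodule.subset_span (Or.inr rfl)
    exact Submodule.smul_mem _ _ (Submodule.sub_mem _ (Submodule.sub_mem _
      (Submodule.smul_mem _ _ hwm) (Submodule.smul_mem _ _ hum)) (Submodule.smul_mem _ _ hwm))
  obtain ⟨u, hu, hun⟩ := exists_notin (K := K) (S := Submodule.span K {w})
    (W := Φ.perp (Submodule.span K {w})) (by omega)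
  have hs2 : finrank K (Submodule.span K {w, u}) ≤ 2 := by
    have h4 := finrank_span_le_card (R := K) ({w, u} : Set E)
    refine h4.trans ?_
    rw [Set.toFinset_card]
    simpa using Finset.card_le_two (a := w) (b := u)
  obtain ⟨u', hu', hun'⟩ := exists_notin (K := K) (S := Submodule.span K {w, u})
    (W := Φ.perp (Submodule.span K {w})) (by omega)
  rw [mem_perp_singleton] at hu hu'
  have h1 := key u hu hun
  have h2 := key u' hu' fun h0 => hun' (Submodule.span_mono (by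
    intro x hx
    exact Or.inl hx) h0)
  obtain ⟨a, b, hab⟩ := Submodule.mem_span_pair.mp h2
  by_cases hb : b = 0
  · exact ⟨a, by rw [← hab, hb, zero_smul, add_zero]⟩
  · exfalso
    apply hun'
    have h3 : u' = b⁻¹ • (h w - a • w) := by
      rw [← hab, add_sub_cancel_left, smul_smul, inv_mul_cancel₀ hb, one_smul]
    rw [h3]
    exact Submodule.smul_mem _ _ (Submodule.sub_mem _ h1
      (Submodule.smul_mem _ _ (Submodule.subset_span (Or.inl rfl))))

/-- orthogonal singular vectors -/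
theorem orth_step (hQ : QF Φ Q) (hX : OmX Q X) (hh : Semi σ h)
    (hcom : ∀ (F : Flag K E), ∀ x ∈ VF F ⊓ X, Tw h x x) (hd : 4 ≤ finrank K E) {w z : E}
    (hw : Q w = 0) (hw0 : w ≠ 0) (hz : Q z = 0) (hz0 : z ≠ 0) (hwz : Φ.B w z = 0)
    (hn : z ∉ Submodule.span K {w}) {a : K} (ha : h w = a • w) : h z = a • z := by
  obtain ⟨b, hb⟩ := iso_lineQ hQ hX hh hcom hd hz hz0
  have h1 : Q (w + z) = 0 := by rw [hQ.add, hw, hz, hwz, add_zero, add_zero]
  have h2 : w + z ≠ 0 := by
    intro h0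
    apply hn
    rw [← neg_eq_of_add_eq_zero_right h0]
    exact Submodule.neg_mem _ (Submodule.mem_span_singleton_self w)
  obtain ⟨c, hc⟩ := iso_lineQ hQ hX hh hcom hd h1 h2
  rw [hh.add, ha, hb, smul_add] at hc
  have h3 : (b - c) • z = (c - a) • w := by
    rw [sub_smul, sub_smul, sub_eq_sub_iff_add_eq_add, add_comm, hc]
  have h4 : b - c = 0 := by
    by_contra h4
    apply hn
    have h5 : z = (b - c)⁻¹ • ((c - a) • w) := by
      rw [← h3, smul_smul, inv_mul_cancel₀ h4, one_smul]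
    rw [h5]
    exact Submodule.smul_mem _ _ (Submodule.smul_mem _ _ (Submodule.mem_span_singleton_self w))
  rw [h4, zero_smul] at h3
  have h5 : c - a = 0 := (smul_eq_zero.mp h3.symm).resolve_right hw0
  rw [hb, sub_eq_zero.mp h4, sub_eq_zero.mp h5]

/-- nonorthogonal singular vectors -/
theorem pair_step (hQ : QF Φ Q) (hX : OmX Q X) (hh : Semi σ h)
    (hcom : ∀ (F : Flag K E), ∀ x ∈ VF F ⊓ X, Tw h x x) (hd : 6 ≤ finrank K E) {w w' : E}
    (hw : Q w = 0) (hw' : Q w' = 0) (hww : Φ.B w w' ≠ 0) {a : K} (ha : h w = a • w) :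
    h w' = a • w' := by
  have hw0 : w ≠ 0 := by
    rintro rfl
    exact hww (Φ.zero_left _)
  have hw0' : w' ≠ 0 := by
    rintro rfl
    exact hww (Φ.zero_right _)
  have hs2 : finrank K (Submodule.span K {w, w'}) ≤ 2 := by
    classical
    have h4 := finrank_span_le_card (R := K) ({w, w'} : Set E)
    refine h4.trans ?_
    rw [Set.toFinset_card]
    simpa using Finset.card_le_two (a := w) (b := w')
  have hp2 := Φ.finrank_add_finrank_perp (Submodule.span K {w, w'})
  obtain ⟨z, hz, hz0, hzQ⟩ := exists_sing hQ (U := Φ.perp (Submodule.span K {w, w'})) (by omega)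
  have hzw : Φ.B z w = 0 := hz w (Submodule.subset_span (Or.inl rfl))
  have hzw' : Φ.B z w' = 0 := hz w' (Submodule.subset_span (Or.inr rfl))
  have h1 : h z = a • z := by
    refine orth_step hQ hX hh hcom (by omega) hw hw0 hzQ hz0 (Φ.eq_zero_comm hzw) ?_ ha
    intro h0
    obtain ⟨c, rfl⟩ := Submodule.mem_span_singleton.mp h0
    rw [Φ.smul_left] at hzw'
    rcases mul_eq_zero.mp hzw' with h1 | h1
    · rw [h1, zero_smul] at hz0
      exact hz0 rfl
    · exact hww h1
  refine orth_step hQ hX hh hcom (by omega) hzQ hz0 hw' hw0' hzw' ?_ h1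
  intro h0
  obtain ⟨c, rfl⟩ := Submodule.mem_span_singleton.mp h0
  exact hww (by rw [Φ.smul_right, Φ.eq_zero_comm hzw, mul_zero])

/-- **The lines are preserved.** -/
theorem linesQ (hQ : QF Φ Q) (hX : OmX Q X) (hh : Semi σ h)
    (hcom : ∀ (F : Flag K E), ∀ x ∈ VF F ⊓ X, Tw h x x) (hd : 6 ≤ finrank K E) :
    ∃ a : K, ∀ v, h v = a • v := by
  obtain ⟨w, -, hw0, hw⟩ := exists_sing hQ (U := (⊤ : Submodule K E)) (by rw [finrank_top]; omega)
  obtain ⟨a, ha⟩ := iso_lineQ hQ hX hh hcom (by omega) hw hw0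
  -- the second singular vector
  obtain ⟨y, hy⟩ := exists_pair Φ hw0
  have h2 : ∀ c : K, c + c = 0 := fun c => by rw [← two_mul, hQ.two, zero_mul]
  obtain ⟨w', hww', hw'⟩ : ∃ w', Φ.B w' w = 1 ∧ Q w' = 0 := by
    refine ⟨y + Q y • w, ?_, ?_⟩
    · rw [Φ.add_left, Φ.smul_left, hQ.alt, mul_zero, add_zero, hy]
    · rw [hQ.add, hQ.smul, hw, mul_zero, add_zero, hQ.smul_r, hy, mul_one, h2]
  have hww : Φ.B w w' = 1 := by rw [hQ.sym w' w, hww']
  have ha' : h w' = a • w' :=
    pair_step hQ hX hh hcom hd hw hw' (by rw [hww]; exact one_ne_zero) ha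
  -- all singular vectors
  have key : ∀ s, Q s = 0 → h s = a • s := by
    intro s hs
    by_cases h3 : Φ.B w s = 0
    swap
    · exact pair_step hQ hX hh hcom hd hw hs h3 ha
    by_cases h4 : Φ.B w' s = 0
    swap
    · exact pair_step hQ hX hh hcom hd hw' hs h4 ha'
    by_cases h5 : s = 0
    · rw [h5, hh.zero, smul_zero]
    refine orth_step hQ hX hh hcom (by omega) hw hw0 hs h5 h3 ?_ ha
    intro h6
    obtain ⟨c, rfl⟩ := Submodule.mem_span_singleton.mp h6
    apply h5
    rw [hQ.smul_r, hww', mul_one] at h4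
    rw [h4, zero_smul]
  -- all vectors
  have key2 : ∀ v, Φ.B v w ≠ 0 → h v = a • v := by
    intro v hv
    obtain ⟨t, ht⟩ : ∃ t, t = Q v * (Φ.B v w)⁻¹ := ⟨_, rfl⟩
    have h3 : Q (v + t • w) = 0 := by
      rw [hQ.add, hQ.smul, hw, mul_zero, add_zero, hQ.smul_r, ht, inv_mul_cancel_right₀ hv, h2]
    have h4 : Q (t • w) = 0 := by rw [hQ.smul, hw, mul_zero]
    have h5 := key _ h3
    rw [hh.add, key _ h4, smul_add] at h5
    exact add_right_cancel h5
  refine ⟨a, fun v => ?_⟩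
  by_cases hv : Φ.B v w = 0
  · have h3 : Φ.B (v + w') w ≠ 0 := by
      rw [Φ.add_left, hv, zero_add, hww']
      exact one_ne_zero
    have h4 := key2 _ h3
    rw [hh.add, ha', smul_add] at h4
    exact add_right_cancel h4
  · exact key2 v hv

end Vale.Agent.P180.R2.H799.CF
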