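import Vale.Agent.P180.R2.H799.CF1
import Vale.Agent.P180.R2.H799.CD2

/-!
P180: semisimilitudes of a quadratic form `Q`, `|K|` even, acting on `Ω(Q)`.
-/

set_option linter.all false

namespace Vale.Agent.P180.R2.H799.CF

open Module Subgroup Polynomial Vale.Agent.P180 Vale.Agent.P180.R2.H854 Vale.Agent.P180.R2.H799
  Vale.Agent.P180.R2.H799.BS
open Vale.Agent.P180.R2.H259.Loc Vale.Agent.P180.R2.H259.Oq
open Vale.Agent.P180.R2.H954.Hc (odd_of_lin)
open Vale.Agent.P180.R2.H799.CD (ActT pc pc_coe conj_act pc_surj pc_ker one_of_cent conj_inj)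

variable {K E : Type} [Field K] [Finite K] [AddCommGroup E] [Module K E] [FiniteDimensional K E]
variable {Φ : HForm K E} {Q : E → K} {X : Subgroup (SpecialLinearGroup K E)}

/-- polynomials in an isometry of `Q` which are isometries of the polar form are isometries of
`Q` -/
theorem mem_IsoQ_of_poly (hQ : QF Φ Q) {u w : SpecialLinearGroup K E} (hu : u ∈ IsoQ Q) {m : ℕ}
    (hm : Odd m) (hum : u ^ m = 1) (hw : w ∈ Φ.Iso) {H : K[X]}
    (hwH : toEnd w = aeval (toEnd u) H) : w ∈ IsoQ Q := by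
  have h2 : ∀ c : K, c + c = 0 := fun c => by rw [← two_mul, hQ.two, zero_mul]
  -- the difference
  obtain ⟨q, hq⟩ : ∃ q : E → K, ∀ v, q v = Q (w v) + Q v := ⟨fun v => Q (w v) + Q v, fun _ => rfl⟩
  have hadd : ∀ v v', q (v + v') = q v + q v' := by
    intro v v'
    have h1 : w (v + v') = w v + w v' := map_add w.1 v v'
    rw [hq, hq, hq, h1, hQ.add, hQ.add, hw]
    linear_combination h2 (Φ.B v v')
  have hsm : ∀ (c : K) v, q (c • v) = c ^ 2 * q v := by
    intro c v
    have h1 : w (c • v) = c • w v := map_smul w.1 c v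
    rw [hq, hq, h1, hQ.smul, hQ.smul, mul_add]
  have h0 : q 0 = 0 := by
    have h1 := hsm 0 0
    rwa [zero_smul, zero_pow two_ne_zero, zero_mul] at h1
  have hcom : ∀ v, w (u v) = u (w v) := by
    intro v
    have h1 : toEnd w * toEnd u = toEnd u * toEnd w := by
      rw [hwH]
      exact (H471.Au.comm_aeval (Commute.refl (toEnd u)) H).symm
    exact LinearMap.congr_fun h1 v
  have hqu : ∀ v, q (u v) = q v := by
    intro v
    rw [hq, hq, hcom, hu, hu]
  have hqui : ∀ (i : ℕ) v, q ((u ^ i) v) = q v := by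
    intro i
    induction i with
    | zero => intro v; rfl
    | succ i ih =>
      intro v
      rw [pow_succ]
      change q ((u ^ i) (u v)) = q v
      rw [ih, hqu]
  -- the average
  have hm1 : ((m : ℕ) : K) = 1 := by
    obtain ⟨n, rfl⟩ := hm
    push_cast
    rw [hQ.two, zero_mul, zero_add]
  intro v
  obtain ⟨f, hf⟩ : ∃ f, f = ∑ i ∈ Finset.range m, (u ^ i) v := ⟨_, rfl⟩
  have huf : u f = f := by
    have h1 : u f = ∑ i ∈ Finset.range m, (u ^ (i + 1)) v := by
      rw [hf]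
      change (u.1 : E ≃ₗ[K] E) _ = _
      rw [map_sum]
      refine Finset.sum_congr rfl fun i _ => ?_
      rw [pow_succ']
      rfl
    have h3 := Finset.sum_range_succ' (fun i => (u ^ i) v) m
    rw [Finset.sum_range_succ, hum, pow_zero] at h3
    have h4 := add_right_cancel h3
    rw [h1, ← h4, hf]
  have hqs : ∀ (s : Finset ℕ), q (∑ i ∈ s, ((u ^ i) v + v)) = 0 := by
    intro s
    classical
    induction s using Finset.induction_on with
    | empty => rw [Finset.sum_empty, h0]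
    | insert i s hi ih => rw [Finset.sum_insert hi, hadd, hadd, hqui, h2, ih, add_zero]
  have hv : v = f + ∑ i ∈ Finset.range m, ((u ^ i) v + v) := by
    rw [Finset.sum_add_distrib, ← hf, Finset.sum_const, Finset.card_range, ← Nat.cast_smul_eq_nsmul K,
      hm1, one_smul, ← add_assoc, ← two_smul K f, hQ.two, zero_smul, zero_add]
  have hqv : q v = q f := by
    conv_lhs => rw [hv, hadd, hqs, add_zero]
  -- the fixed vectors
  have hwf : ∀ x, u x = x → w x = H.eval 1 • x := by
    intro x hx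
    have h1 : toEnd w x = aeval (toEnd u) H x := by rw [hwH]
    have h3 := Module.End.aeval_apply_of_hasEigenvector (f := toEnd u) (p := H) (μ := (1 : K))
      (x := x)
    by_cases hx0 : x = 0
    · rw [hx0, smul_zero]
      exact map_zero w.1
    · have h4 : toEnd w x = H.eval 1 • x := by
        rw [h1]
        exact h3 (Module.End.hasEigenvector_iff.mpr ⟨by
          rw [Module.End.mem_eigenspace_iff, one_smul]
          exact hx, hx0⟩)
      exact h4
  have key : q f = 0 := by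
    by_cases hf0 : f = 0
    · rw [hf0, h0]
    obtain ⟨y, hy⟩ := exists_pair Φ hf0
    -- the projection of `y`
    obtain ⟨e, he⟩ : ∃ e, e = ∑ i ∈ Finset.range m, (u ^ i) y := ⟨_, rfl⟩
    have hue : u e = e := by
      have h1 : u e = ∑ i ∈ Finset.range m, (u ^ (i + 1)) y := by
        rw [he]
        change (u.1 : E ≃ₗ[K] E) _ = _
        rw [map_sum]
        refine Finset.sum_congr rfl fun i _ => ?_
        rw [pow_succ']
        rfl
      have h3 := Finset.sum_range_succ' (fun i => (u ^ i) y) m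
      rw [Finset.sum_range_succ, hum, pow_zero] at h3
      have h4 := add_right_cancel h3
      rw [h1, ← h4, he]
    have hui : ∀ i : ℕ, (u ^ i) f = f := by
      intro i
      induction i with
      | zero => rfl
      | succ i ih =>
        rw [pow_succ]
        change (u ^ i) (u f) = f
        rw [huf, ih]
    have hBe : Φ.B e f = 1 := by
      have h1 : ∀ s : Finset ℕ, Φ.B (∑ i ∈ s, (u ^ i) y) f = (s.card : K) := by
        intro s
        classical
        induction s using Finset.induction_on with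
        | empty => rw [Finset.sum_empty, Φ.zero_left, Finset.card_empty, Nat.cast_zero]
        | insert i s hi ih =>
          have h3 : Φ.B ((u ^ i) y) f = 1 := by
            have h4 : u ^ i ∈ Φ.Iso := Φ.Iso.pow_mem (hQ.le hu) i
            have h5 := h4 y f
            rw [hui i] at h5
            rw [h5, hy]
          rw [Finset.sum_insert hi, Φ.add_left, h3, ih, Finset.card_insert_of_notMem hi]
          push_cast
          ring
      rw [he, h1, Finset.card_range, hm1]
    have h3 := hw e f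
    rw [hwf e hue, hwf f huf, Φ.smul_left, Φ.smul_right, hQ.th, hBe, mul_one] at h3
    rw [hq, hwf f huf, hQ.smul, sq, h3, one_mul, h2]
  have h5 := hq v
  rw [hqv, key] at h5
  have h6 : Q (w v) = -Q v := eq_neg_of_add_eq_zero_left h5.symm
  rw [h6, hQ.neg_eq]

/-- the elements of odd order -/
theorem mem_X_of_poly (hQ : QF Φ Q) (hX : OmX Q X) {u w : SpecialLinearGroup K E}
    (hu : u ∈ X) {m : ℕ} (hm : Odd m) (hum : u ^ m = 1) (hw : w ∈ Φ.Iso) {l : ℕ} (hl : Odd l)
    (hwl : w ^ l = 1) {H : K[X]} (hwH : toEnd w = aeval (toEnd u) H) : w ∈ X :=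
  odd_mem hQ hX (mem_IsoQ_of_poly hQ ((hX u).mp hu).1 hm hum hw hwH) hl hwl

section act

variable {T : Type} [Group T] {π : X →* T}

/-- The automorphism `α` of the quotient `T` of `X` is given by the semisimilitude `g` of `Q`. -/
def ActQ (Q : E → K) (π : X →* T) (α : MulAut T) (σ : K ≃+* K) (g : E → E) : Prop :=
  Semi σ g ∧ (∃ c : K, ∀ v, Q (g v) = c * σ (Q v)) ∧
    ∀ x : X, ∃ y : X, Tw g x.1 y.1 ∧ α (π x) = π y

omit [Finite K] [FiniteDimensional K E] in
theorem ActQ.polar (hQ : QF Φ Q) {α : MulAut T} {σ : K ≃+* K} {g : E → E}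
    (h : ActQ Q π α σ g) {c : K} (hc : ∀ v, Q (g v) = c * σ (Q v)) :
    ∀ v w, Φ.B (g v) (g w) = c * σ (Φ.B v w) := by
  intro v w
  have h1 := hc (v + w)
  rw [h.1.add, hQ.add, hQ.add, hc, hc, map_add, map_add, mul_add, mul_add] at h1
  exact add_left_cancel h1

omit [Finite K] [FiniteDimensional K E] in
theorem ActQ.actT (hQ : QF Φ Q) {α : MulAut T} {σ : K ≃+* K} {g : E → E}
    (h : ActQ Q π α σ g) : ActT Φ π α σ g := by
  obtain ⟨c, hc⟩ := h.2.1
  exact ⟨h.1, ⟨c, h.polar hQ hc⟩, h.2.2⟩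

variable [Finite T]

omit [Finite T] in
/-- the period -/
theorem perQ (hQ : QF Φ Q) (hX : OmX Q X) (hd : 6 ≤ finrank K E) (hT : center T = ⊥)
    (hker : ∀ x : X, π x = 1 → (x : SpecialLinearGroup K E) ∈ center _) {α : MulAut T}
    {σ : K ≃+* K} {g : E → E} (h : ActX Φ (pc π) α σ g) {n : ℕ} (hr : α ^ n = 1) :
    ∃ c : K, ∀ v, g^[n] v = c • v := by
  have hfG : Finite (SpecialLinearGroup K E) := BN.finite_sl
  have hk := pc_ker hT hker
  obtain ⟨σ', h'⟩ := h.iter n
  refine linesQ hQ hX h'.1 (fun F x hx => ?_) hd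
  obtain ⟨y, hy, hxy⟩ := h'.2.2 ⟨x, hx.2⟩
  rw [hr, one_mul, inv_one, mul_one] at hxy
  have hzk : x⁻¹ * y.1 ∈ (pc π).ker.map X.subtype := by
    refine ⟨⟨x, hx.2⟩⁻¹ * y, ?_, rfl⟩
    change _ ∈ (pc π).ker
    rw [MonoidHom.mem_ker, map_mul, map_inv, ← Subtype.ext hxy, inv_mul_cancel]
  have hz := hk hzk
  have hxc : x ^ Nat.card (VF F) = 1 :=
    congrArg Subtype.val (pow_card_eq_one' (x := (⟨x, hx.1⟩ : VF F)))
  have hyc : y.1 ^ Nat.card (VF F) = 1 := by
    have h3 := hy.pow (Nat.card (VF F))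
    rw [hxc] at h3
    exact Tw.unique h'.1.bij.2 h3 Tw.one
  have hzc : (x⁻¹ * y.1) ^ Nat.card (VF F) = 1 := by
    have h3 : Commute x (x⁻¹ * y.1) := Subgroup.mem_center_iff.mp hz x
    have h4 := h3.mul_pow (Nat.card (VF F))
    rw [mul_inv_cancel_left, hyc, hxc, one_mul] at h4
    exact h4.symm
  have hzc' : (x⁻¹ * y.1) ^ Nat.card ((pc π).ker.map X.subtype) = 1 :=
    congrArg Subtype.val (pow_card_eq_one' (x := (⟨_, hzk⟩ : (pc π).ker.map X.subtype)))
  have h3 : (x⁻¹ * y.1) ^ Nat.gcd (Nat.card (VF F)) (Nat.card ((pc π).ker.map X.subtype)) = 1 :=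
    pow_gcd_eq_one.mpr ⟨hzc, hzc'⟩
  rw [(coprime_center hk F).gcd_eq_one, pow_one] at h3
  have h4 : y.1 = x := by
    have h5 : y.1 = x * (x⁻¹ * y.1) := by group
    rw [h5, h3, mul_one]
  rw [h4] at hy
  exact hy

omit [Finite T] in
/-- the action on the field has `p`-power order -/
theorem pow_TQ (hQ : QF Φ Q) (hX : OmX Q X) (hd : 6 ≤ finrank K E) (hT : center T = ⊥)
    (hker : ∀ x : X, π x = 1 → (x : SpecialLinearGroup K E) ∈ center _)
    {α : MulAut T} {σ : RingAut K} {g : E → E} (h : ActQ Q π α σ g) {n : ℕ}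
    (hr : α ^ n = 1) : σ ^ n = 1 := by
  obtain ⟨c, hc⟩ := perQ hQ hX hd hT hker (h.actT hQ).actX hr
  exact H471.Is.semi_lines (H471.Is.semi_iter h.1 n) (by omega) fun v => ⟨c, hc v⟩

omit [Finite T] in
/-- The linear similitudes of `p`-power order act as inner automorphisms. -/
theorem inner_TQ {p : ℕ} [Fact p.Prime] (hQ : QF Φ Q) (hX : OmX Q X) (hd : 6 ≤ finrank K E)
    (hT : center T = ⊥) (hpK : ¬ p ∣ Nat.card K)
    (hlin : ∀ j : ℕ, (∀ c : K, Φ.θ c = c ^ (ringChar K ^ j)) → ¬ p ∣ ringChar K ^ j + 1)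
    (hπ : Function.Surjective π)
    (hker : ∀ x : X, π x = 1 → (x : SpecialLinearGroup K E) ∈ center _)
    {α : MulAut T} {g : E → E} (h : ActQ Q π α (RingEquiv.refl K) g) {m : ℕ}
    (hr : α ^ (p ^ m) = 1) : ∃ t : T, α = MulAut.conj t := by
  have hp : p.Prime := Fact.out
  have hp2 : Odd p := odd_of_lin hp hpK Φ.θ hlin
  obtain ⟨ν, hν⟩ := perQ hQ hX hd hT hker (h.actT hQ).actX hr
  let S : End K E := { toFun := g, map_add' := h.1.add, map_smul' := h.1.smul }
  have hSn : ∀ (n : ℕ) (v : E), (S ^ n) v = g^[n] v := by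
    intro n v
    rw [Module.End.pow_apply]
    rfl
  have hSν : S ^ (p ^ m) = ν • 1 := LinearMap.ext fun v => by rw [hSn, hν]; rfl
  obtain ⟨c, hc⟩ := h.2.1
  obtain ⟨κ, j, hκ, hκj⟩ := H471.Is.exists_norm Φ hp2 (by omega) (T := S) h.1.bij (c := c)
    (h.polar hQ hc) hSν
  have hdet : LinearMap.det (κ • S) = 1 :=
    H471.Is.det_iso_pow Φ hp hpK hlin (T := κ • S) hκ hκj
  let s : SpecialLinearGroup K E := mkSL _ hdet
  have hs : ∀ v, s v = κ • g v := fun v => rfl
  have hsT : toEnd s = κ • S := rfl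
  -- the multiplier
  have hκc : κ * κ * c = 1 := by
    have _ : Nontrivial E := Module.finrank_pos_iff.mp (show 0 < finrank K E by omega)
    obtain ⟨v₀, hv₀⟩ := exists_ne (0 : E)
    obtain ⟨w₀, hvw⟩ := exists_pair Φ hv₀
    have h1 := hκ w₀ v₀
    have h2 := h.polar hQ hc w₀ v₀
    rw [hvw, map_one, mul_one] at h2
    change Φ.B (κ • g w₀) (κ • g v₀) = _ at h1
    rw [Φ.smul_left, Φ.smul_right, hQ.th, h2, hvw] at h1
    rw [← h1]
    ring
  have hsQ : s ∈ IsoQ Q := by
    intro v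
    rw [hs, hQ.smul, hc]
    change κ ^ 2 * (c * Q v) = Q v
    calc κ ^ 2 * (c * Q v) = (κ * κ * c) * Q v := by ring
      _ = Q v := by rw [hκc, one_mul]
  have hsj : s ^ (p ^ j) = 1 := by
    apply toEnd_injective
    rw [BN.toEnd_pow, hsT, hκj, toEnd_one]
  have hsX : s ∈ X := odd_mem hQ hX hsQ (hp2.pow (n := j)) hsj
  refine ⟨π ⟨s, hsX⟩, ?_⟩
  apply MulEquiv.ext
  intro t
  obtain ⟨x, rfl⟩ := hπ t
  obtain ⟨y, hy, hxy⟩ := h.2.2 x
  have h3 : s * x = y * s := by
    refine SpecialLinearGroup.ext _ _ fun v => ?_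
    change s (x.1 v) = y.1 (s v)
    rw [hs, hs, hy v, BN.sl_smul]
  have h4 : y = ⟨s, hsX⟩ * x * (⟨s, hsX⟩ : X)⁻¹ := by
    apply Subtype.ext
    change y.1 = s * x.1 * s⁻¹
    rw [h3, mul_inv_cancel_right]
  rw [hxy, h4, map_mul, map_mul, map_inv, MulAut.conj_apply]

end act

end Vale.Agent.P180.R2.H799.CF
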