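import Vale.Agent.P180.R2.H799.CF2
import Vale.Agent.P180.R2.H799.CC1

/-!
P180: the corner property of the perfect central extensions of `Ω(Q)`, `|K|` even, on which `D`
acts by semisimilitudes of `Q`, if `N_D(L)` acts trivially on `D ∩ L` modulo the centre or `D ∩ L`
is elementary abelian modulo the centre.
-/

set_option linter.all false

namespace Vale.Agent.P180.R2.H799.CF

open Module Subgroup Polynomial Vale.Agent.P180 Vale.Agent.P180.H768.Gd Vale.Agent.P180.R2.H799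
  Vale.Agent.P180.R2.H954 Vale.Agent.P180.R2.H854 Vale.Agent.P180.R2.H799.BS
  Vale.Agent.P180.R2.H854.TD Vale.Agent.P180.R2.H365 Vale.Agent.P180.R2.H47
open Vale.Agent.P180.R2.H259.Loc Vale.Agent.P180.R2.H259.Oq
open Vale.Agent.P180.R2.H589.Sch (Pel pel_unique)
open Vale.Agent.P180.R2.H954.Hc (exists_frob theta_fix odd_of_lin eq_one_of_norm ringChar_prime
  ringChar_dvd_card)
open Vale.Agent.P180.R2.H471.Au (mem_normalizer_of mem_sup_of_inner comm_aeval)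
open Vale.Agent.P180.R2.H471.He (CycOn cycOn_of_ker cor_of_cycOn)
open Vale.Agent.P180.R2.H259.Cyc (cycB cycB_mono)
open Vale.Agent.P180.R2.H471.El (AbEl)
open Vale.Agent.P180.R2.H799.CD (ActT pc pc_coe conj_act pc_surj pc_ker one_of_cent conj_inj
  eq_of_mk sup_of_conj cyc_of_bot mem_of_central qa qa_mk)

section cyc

variable {K E : Type} [Field K] [AddCommGroup E] [Module K E]
variable {X : Subgroup (SpecialLinearGroup K E)} {Q : E → K}
variable {T : Type} [Group T] {π : X →* T}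

theorem ActQ.one : ActQ Q π 1 (RingEquiv.refl K) id :=
  ⟨Semi.refl, ⟨1, fun v => (one_mul _).symm⟩, fun x => ⟨x, fun _ => rfl, rfl⟩⟩

theorem ActQ.mul {r r' : MulAut T} {σ σ' : K ≃+* K} {g g' : E → E} (h : ActQ Q π r σ g)
    (h' : ActQ Q π r' σ' g') : ActQ Q π (r * r') (σ'.trans σ) (g ∘ g') := by
  obtain ⟨c, hc⟩ := h.2.1
  obtain ⟨c', hc'⟩ := h'.2.1
  refine ⟨h.1.comp h'.1, ⟨c * σ c', fun v => ?_⟩, fun x => ?_⟩
  · rw [Function.comp_apply, hc, hc', map_mul, mul_assoc]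
    rfl
  · obtain ⟨y, hy, hy'⟩ := h'.2.2 x
    obtain ⟨z, hz, hz'⟩ := h.2.2 y
    refine ⟨z, hy.comp hz, ?_⟩
    rw [MulAut.mul_apply, hy', hz']

/-- **The action on the field is cyclic.** -/
theorem exists_cycQ [Finite K] [Finite T] {R : Subgroup (MulAut T)}
    (h : ∀ r ∈ R, ∃ σ g, ActQ Q π r σ g) :
    ∃ c ∈ R, ∀ r ∈ R, ∃ (n : ℤ) (g : E → E), ActQ Q π ((c ^ n)⁻¹ * r) (RingEquiv.refl K) g := by
  haveI : Finite (MulAut T) := Finite.of_injective (fun α => (α : T → T)) DFunLike.coe_injective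
  have hfin : Finite (K ≃+* K) :=
    Finite.of_injective (fun σ => (σ : K → K)) DFunLike.coe_injective
  let S : Submonoid (MulAut T × (K ≃+* K)) :=
    { carrier := {a | a.1 ∈ R ∧ ∃ g, ActQ Q π a.1 a.2 g}
      one_mem' := ⟨R.one_mem, id, ActQ.one⟩
      mul_mem' := by
        rintro ⟨r, σ⟩ ⟨r', σ'⟩ ⟨hr, g, hg⟩ ⟨hr', g', hg'⟩
        exact ⟨R.mul_mem hr hr', g ∘ g', hg.mul hg'⟩ }
  let Γ : Subgroup (MulAut T × (K ≃+* K)) :=
    { S with
      inv_mem' := by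
        intro a ha
        have h1 : a⁻¹ = a ^ (orderOf a - 1) := by
          symm
          refine eq_inv_of_mul_eq_one_left ?_
          rw [← pow_succ, Nat.sub_add_cancel (orderOf_pos a), pow_orderOf_eq_one]
        rw [h1]
        exact S.pow_mem ha _ }
  have hΓ : ∀ a, a ∈ Γ ↔ a.1 ∈ R ∧ ∃ g, ActQ Q π a.1 a.2 g := fun a => Iff.rfl
  have hcyc : IsCyclic (K ≃+* K) := isCyclic_ringAut K
  obtain ⟨⟨t, ht⟩, hgen⟩ := IsCyclic.exists_generator
    (α := (Γ.map (MonoidHom.snd (MulAut T) (K ≃+* K)) : Subgroup (K ≃+* K)))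
  obtain ⟨a, ha, rfl⟩ := ht
  refine ⟨a.1, ((hΓ a).mp ha).1, fun r hr => ?_⟩
  obtain ⟨σ, g, hg⟩ := h r hr
  have h1 : (r, σ) ∈ Γ := (hΓ _).mpr ⟨hr, g, hg⟩
  obtain ⟨n, hn⟩ := Subgroup.mem_zpowers_iff.mp
    (hgen ⟨(MonoidHom.snd (MulAut T) (K ≃+* K)) (r, σ), (r, σ), h1, rfl⟩)
  have h2 : a.2 ^ n = σ := congrArg Subtype.val hn
  have h3 : (a ^ n)⁻¹ * (r, σ) ∈ Γ := Γ.mul_mem (Γ.inv_mem (Γ.zpow_mem ha n)) h1
  obtain ⟨-, g', hg'⟩ := (hΓ _).mp h3
  refine ⟨n, g', ?_⟩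
  have h4 : ((a ^ n)⁻¹ * (r, σ)).2 = 1 := by
    change (a.2 ^ n)⁻¹ * σ = 1
    rw [h2, inv_mul_cancel]
  rw [h4] at hg'
  exact hg'

/-- The action is cyclic modulo inner automorphisms. -/
theorem cyc_TQ [Finite K] [FiniteDimensional K E] {Φ : HForm K E} [Finite T] {p : ℕ}
    [Fact p.Prime] (hQ : QF Φ Q) (hX : OmX Q X) (hd : 6 ≤ finrank K E)
    (hT : center T = ⊥) (hpK : ¬ p ∣ Nat.card K)
    (hlin : ∀ j : ℕ, (∀ c : K, Φ.θ c = c ^ (ringChar K ^ j)) → ¬ p ∣ ringChar K ^ j + 1)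
    (hπ : Function.Surjective π)
    (hker : ∀ x : X, π x = 1 → (x : SpecialLinearGroup K E) ∈ center _)
    {R : Subgroup (MulAut T)} (hR : IsPGroup p R) (h : ∀ α ∈ R, ∃ σ g, ActQ Q π α σ g) :
    ∃ c ∈ R, ∀ r ∈ R, ∃ (i : ℤ) (t : T), (c ^ i)⁻¹ * r = MulAut.conj t := by
  obtain ⟨c, hc, hcr⟩ := exists_cycQ h
  refine ⟨c, hc, fun r hr => ?_⟩
  obtain ⟨i, g, hA⟩ := hcr r hr
  have hm : (c ^ i)⁻¹ * r ∈ R := R.mul_mem (R.inv_mem (R.zpow_mem hc i)) hr
  obtain ⟨m, hm⟩ := hR ⟨_, hm⟩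
  have hm : ((c ^ i)⁻¹ * r) ^ p ^ m = 1 := congrArg Subtype.val hm
  obtain ⟨t, ht⟩ := inner_TQ hQ hX hd hT hpK hlin hπ hker hA hm
  exact ⟨i, t, ht⟩

end cyc

section data

variable {k : Type*} [Field k] {p : ℕ} [hp : Fact p.Prime] [CharP k p]
variable {K E : Type} [Field K] [Finite K] [AddCommGroup E] [Module K E] [FiniteDimensional K E]
variable {G : Type} [Group G] [Finite G]
variable {L R : Subgroup G} {X : Subgroup (SpecialLinearGroup K E)} {π : X →* L ⧸ center L}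
  {Φ : HForm K E} {Q : E → K}

/-- The lift `P` of `R ∩ L` to `X` is closed under polynomials, and abelian. -/
theorem pclosed_upQ [IsAlgClosed k] (hR : IsPGroup p R) (hp2 : Odd p)
    (hQ : QF Φ Q) (hX : OmX Q X) (hπ : Function.Surjective π)
    (hkc : π.ker ≤ center X) (hkp : ¬ p ∣ Nat.card π.ker) (hZ : ¬ p ∣ Nat.card (center L))
    (hab : ∀ x ∈ R, x ∈ L → ∀ y ∈ R, y ∈ L → x * y = y * x)
    {e z : MonoidAlgebra k G} (heL : e ∈ SubAlg k L) (heF : e ∈ Fix (cj k G) L) (hee : e * e = e)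
    (hbr : br R e ≠ 0) (hzF : z ∈ Fix (cj k G) (L ⊓ R)) (hez : e = tr (cj k G) (L ⊓ R) L z)
    {P : Subgroup X} (hPp : IsPGroup p P)
    (hPR : P.map π = (R.subgroupOf L).map (QuotientGroup.mk' (center L))) :
    H471.Is.PClosed Φ p (P.map X.subtype) := by
  haveI : Finite (SpecialLinearGroup K E) := BN.finite_sl
  have hpel : ∀ w ∈ P, ∃ j, w ^ p ^ j = 1 := fun w hw => by
    obtain ⟨j, hj⟩ := hPp ⟨w, hw⟩
    exact ⟨j, congrArg Subtype.val hj⟩
  have hpelR : ∀ x : L, (x : G) ∈ R → ∃ j, x ^ p ^ j = 1 := fun x hx => by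
    obtain ⟨j, hj⟩ := hR ⟨x, hx⟩
    have h1 : (x : G) ^ p ^ j = 1 := congrArg Subtype.val hj
    exact ⟨j, Subtype.ext h1⟩
  have hconj : ∀ {H : Type} [Group H] (g y : H), (∃ j, y ^ p ^ j = 1) →
      ∃ j, (g * y * g⁻¹) ^ p ^ j = 1 := fun g y ⟨j, hj⟩ =>
    ⟨j, by rw [conj_pow, hj, mul_one, mul_inv_cancel]⟩
  -- the elements of `P` and of `R ∩ L`
  have hPL : ∀ w ∈ P, ∃ x : L, (x : G) ∈ R ∧ QuotientGroup.mk' (center L) x = π w := fun w hw => by
    have h1 : π w ∈ P.map π := ⟨w, hw, rfl⟩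
    rw [hPR] at h1
    obtain ⟨x, hx, h2⟩ := h1
    exact ⟨x, hx, h2⟩
  have hLP : ∀ x : L, (x : G) ∈ R → ∃ w ∈ P, π w = QuotientGroup.mk' (center L) x := fun x hx => by
    have h1 : QuotientGroup.mk' (center L) x ∈ P.map π := by
      rw [hPR]
      exact ⟨x, hx, rfl⟩
    obtain ⟨w, hw, h2⟩ := h1
    exact ⟨w, hw, h2⟩
  have hPab : ∀ x ∈ P, ∀ y ∈ P, x * y = y * x := by
    intro x hx y hy
    obtain ⟨a, ha, hax⟩ := hPL x hx
    obtain ⟨b, hb, hby⟩ := hPL y hy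
    have h1 : a * b = b * a := Subtype.ext (hab a ha a.2 b hb b.2)
    have h2 : π (x * y * x⁻¹) = π y := by
      rw [map_mul, map_mul, map_inv, ← hax, ← hby, ← map_mul, h1, map_mul, mul_inv_cancel_right]
    have h3 := pel_unique (p := p) hkc hkp (hconj x y (hpel y hy)) (hpel y hy) h2
    calc x * y = (x * y * x⁻¹) * x := by group
      _ = y * x := by rw [h3]
  rintro _ ⟨u, hu, rfl⟩ H w hwI ⟨j, hwj⟩ hwH
  obtain ⟨ju, hju⟩ := hpel u hu
  have hwX : w ∈ X := mem_X_of_poly hQ hX u.2 (hp2.pow (n := ju)) (congrArg Subtype.val hju) hwI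
    (hp2.pow (n := j)) hwj hwH
  have hcw : ∀ h : X, h * u = u * h → h * ⟨w, hwX⟩ = ⟨w, hwX⟩ * h := by
    intro h hh
    apply Subtype.ext
    apply toEnd_injective
    change toEnd (h : SpecialLinearGroup K E) * toEnd w = toEnd w * toEnd (h : _)
    rw [hwH]
    have h1 : Commute (toEnd (h : SpecialLinearGroup K E)) (toEnd (X.subtype u)) := by
      change toEnd (h : SpecialLinearGroup K E) * toEnd (u : SpecialLinearGroup K E) =
        toEnd (u : SpecialLinearGroup K E) * toEnd (h : SpecialLinearGroup K E)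
      rw [← toEnd_mul, ← toEnd_mul]
      exact congrArg (fun x : X => toEnd (x : SpecialLinearGroup K E)) hh
    exact comm_aeval h1 H
  obtain ⟨w', hw'⟩ : ∃ w' : X, w' = ⟨w, hwX⟩ := ⟨_, rfl⟩
  rw [← hw'] at hcw
  have hwp : ∃ j, w' ^ p ^ j = 1 := ⟨j, by rw [hw']; exact Subtype.ext hwj⟩
  -- the lift of `w` to `L`
  obtain ⟨a, hap, haw⟩ : ∃ a : L, (∃ j, a ^ p ^ j = 1) ∧ QuotientGroup.mk' (center L) a = π w' := by
    refine PairP.exists_lift_elt (p := p) (QuotientGroup.mk'_surjective (center L)) ?_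
    obtain ⟨j, hj⟩ := hwp
    exact ⟨j, by rw [← map_pow, hj, map_one]⟩
  have haR : (a : G) ∈ R := by
    refine mem_of_central hR hab heL heF hee hbr hzF hez a.2 ?_ ?_ ?_
    · obtain ⟨j, hj⟩ := hap
      exact ⟨j, congrArg Subtype.val hj⟩
    · intro q hq hqL
      obtain ⟨v, hv, hvq⟩ := hLP ⟨q, hqL⟩ hq
      have h1 : v * w' = w' * v := hcw v (hPab v hv u hu)
      have h2 : a * ⟨q, hqL⟩ * a⁻¹ = ⟨q, hqL⟩ := by
        refine eq_of_mk hZ (hconj _ _ (hpelR _ hq)) (hpelR _ hq) ?_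
        rw [map_mul, map_mul, map_inv, haw, ← hvq, ← map_mul, ← h1, map_mul, mul_inv_cancel_right]
      have h3 : (a : G) * q * (a : G)⁻¹ = q := congrArg Subtype.val h2
      rw [mul_inv_eq_iff_eq_mul] at h3
      exact h3
    · intro h hh hh'
      obtain ⟨g, hg⟩ := hπ (QuotientGroup.mk' (center L) ⟨h, hh⟩)
      have h1 : g * u = u * g := by
        obtain ⟨b, hb, hbu⟩ := hPL u hu
        have h2 : (⟨h, hh⟩ : L) * b = b * ⟨h, hh⟩ := Subtype.ext (hh' b hb b.2)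
        have h3 : π (g * u * g⁻¹) = π u := by
          rw [map_mul, map_mul, map_inv, hg, ← hbu, ← map_mul, h2, map_mul, mul_inv_cancel_right]
        have h4 := pel_unique (p := p) hkc hkp (hconj g u (hpel u hu)) (hpel u hu) h3
        calc g * u = (g * u * g⁻¹) * g := by group
          _ = u * g := by rw [h4]
      have h2 := hcw g h1
      have h3 : (⟨h, hh⟩ : L) * a * (⟨h, hh⟩ : L)⁻¹ = a := by
        refine eq_of_mk hZ (hconj _ _ hap) hap ?_
        rw [map_mul, map_mul, map_inv, haw, ← hg, ← map_mul, h2, map_mul, mul_inv_cancel_right]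
      have h4 : h * (a : G) * h⁻¹ = a := congrArg Subtype.val h3
      rw [mul_inv_eq_iff_eq_mul] at h4
      exact h4
  obtain ⟨q, hq, hqa⟩ := hLP a haR
  have h5 : w' = q := pel_unique (p := p) hkc hkp hwp (hpel q hq) (by rw [hqa, haw])
  exact ⟨q, hq, by rw [← h5, hw']; rfl⟩

/-- **First case**: `R ∩ L ≠ 1`. -/
theorem inner_of_neQ [IsAlgClosed k] (hR : IsPGroup p R)
    (hn : ∀ x ∈ R, ∀ s ∈ L, x * s * x⁻¹ ∈ L) (hQ : QF Φ Q) (hX : OmX Q X) (hd : 6 ≤ finrank K E) (hpK : ¬ p ∣ Nat.card K)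
    (hlin : ∀ j : ℕ, (∀ c : K, Φ.θ c = c ^ (ringChar K ^ j)) → ¬ p ∣ ringChar K ^ j + 1)
    (hπ : Function.Surjective π)
    (hker : ∀ x : X, π x = 1 → (x : SpecialLinearGroup K E) ∈ center _)
    (hL : commutator L = ⊤) (hT : center (L ⧸ center L) = ⊥) (hZ : ¬ p ∣ Nat.card (center L))
    (hact : ∀ r ∈ R, ∀ hr : r ∈ Subgroup.normalizer (L : Set G),
      ∃ σ g, ActQ Q π (qa L (L.normalizerMonoidHom ⟨r, hr⟩)) σ g)
    (hc : AbEl p R L)
    {e z : MonoidAlgebra k G} (heL : e ∈ SubAlg k L) (heF : e ∈ Fix (cj k G) L) (hee : e * e = e)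
    (hbr : br R e ≠ 0) (hzF : z ∈ Fix (cj k G) (L ⊓ R)) (hez : e = tr (cj k G) (L ⊓ R) L z)
    {P : Subgroup X} (hPp : IsPGroup p P)
    (hPR : P.map π = (R.subgroupOf L).map (QuotientGroup.mk' (center L))) (hP1 : P ≠ ⊥) :
    ∀ r ∈ R, ∃ s ∈ L, ∃ c ∈ Subgroup.centralizer (L : Set G), r = s * c := by
  haveI : Finite (SpecialLinearGroup K E) := BN.finite_sl
  have hp2 : Odd p := odd_of_lin hp.out hpK Φ.θ hlin
  have hXI : X ≤ Φ.Iso := fun x hx => hQ.le ((hX x).mp hx).1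
  have hk : π.ker.map X.subtype ≤ center (SpecialLinearGroup K E) := by
    rintro _ ⟨x, hx, rfl⟩
    exact hker x (MonoidHom.mem_ker.mp hx)
  have hkc : π.ker ≤ center X := by
    intro x hx
    have h1 : (x : SpecialLinearGroup K E) ∈ center _ := hk ⟨x, hx, rfl⟩
    rw [mem_center_iff] at h1 ⊢
    intro y
    exact Subtype.ext (h1 y.1)
  have hkp : ¬ p ∣ Nat.card π.ker := ker_coprime_lin hpK hlin hXI hk
  have hpel : ∀ w ∈ P, ∃ j, w ^ p ^ j = 1 := fun w hw => by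
    obtain ⟨j, hj⟩ := hPp ⟨w, hw⟩
    exact ⟨j, congrArg Subtype.val hj⟩
  have hpelR : ∀ x : L, (x : G) ∈ R → ∃ j, x ^ p ^ j = 1 := fun x hx => by
    obtain ⟨j, hj⟩ := hR ⟨x, hx⟩
    have h1 : (x : G) ^ p ^ j = 1 := congrArg Subtype.val hj
    exact ⟨j, Subtype.ext h1⟩
  have hPL : ∀ w ∈ P, ∃ x : L, (x : G) ∈ R ∧ QuotientGroup.mk' (center L) x = π w := fun w hw => by
    have h1 : π w ∈ P.map π := ⟨w, hw, rfl⟩
    rw [hPR] at h1
    obtain ⟨x, hx, h2⟩ := h1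
    exact ⟨x, hx, h2⟩
  have hab : ∀ x ∈ R, x ∈ L → ∀ y ∈ R, y ∈ L → x * y = y * x := by
    intro x hx hxL y hy hyL
    have h1 := hc.ab x hx hxL y hy hyL
    have h2 : (⟨x, hxL⟩ : L) * ⟨y, hyL⟩ * (⟨x, hxL⟩ : L)⁻¹ = ⟨y, hyL⟩ := by
      refine eq_of_mk hZ ?_ (hpelR _ hy) ?_
      · obtain ⟨j, hj⟩ := hpelR ⟨y, hyL⟩ hy
        exact ⟨j, by rw [conj_pow, hj, mul_one, mul_inv_cancel]⟩
      · have h3 : (⟨x, hxL⟩ : L) * ⟨y, hyL⟩ * (⟨x, hxL⟩ : L)⁻¹ * (⟨y, hyL⟩ : L)⁻¹ ∈ center L := by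
          rw [mem_center_iff]
          rintro ⟨l, hl⟩
          exact Subtype.ext (h1 l hl).symm
        have h4 := (QuotientGroup.eq_one_iff _).mpr h3
        have h5 : QuotientGroup.mk' (center L) ((⟨x, hxL⟩ : L) * ⟨y, hyL⟩ * (⟨x, hxL⟩ : L)⁻¹) *
            (QuotientGroup.mk' (center L) ⟨y, hyL⟩)⁻¹ = 1 := h4
        exact mul_inv_eq_one.mp h5
    have h3 : x * y * x⁻¹ = y := congrArg Subtype.val h2
    rw [mul_inv_eq_iff_eq_mul] at h3
    exact h3
  have hPC := pclosed_upQ hR hp2 hQ hX hπ hkc hkp hZ hab heL heF hee hbr hzF hez hPp hPR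
  have hP1' : P.map X.subtype ≠ ⊥ := by
    intro h
    rw [Subgroup.map_eq_bot_iff_of_injective _ X.subtype_injective] at h
    exact hP1 h
  have hPI : P.map X.subtype ≤ Φ.Iso := by
    rintro _ ⟨w, hw, rfl⟩
    exact hXI w.2
  intro r hr
  have hrN := mem_normalizer_of hn hr
  obtain ⟨s, hs⟩ := hR ⟨r, hr⟩
  have hs : r ^ p ^ s = 1 := congrArg Subtype.val hs
  obtain ⟨σ, g, hA⟩ := hact r hr hrN
  have hpow : (qa L (L.normalizerMonoidHom ⟨r, hrN⟩)) ^ p ^ s = 1 := by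
    have h3 : (⟨r, hrN⟩ : Subgroup.normalizer (L : Set G)) ^ p ^ s = 1 := Subtype.ext hs
    rw [← map_pow, ← map_pow, h3, map_one, map_one]
  have hσ : (σ : RingAut K) ^ p ^ s = 1 := pow_TQ hQ hX hd hT hker hA hpow
  have hσ1 : (σ : RingAut K) = 1 := by
    rcases hc with hc | ⟨-, hel⟩
    · have hgP : ∀ w ∈ P.map X.subtype, ∀ v, g (w v) = w (g v) := by
        rintro _ ⟨w, hw, rfl⟩ v
        obtain ⟨y, hy, h1⟩ := hA.2.2 w
        have h2 : y = w := by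
          refine pel_unique (p := p) hkc hkp ?_ (hpel w hw) ?_
          · obtain ⟨j, hj⟩ := hpel w hw
            refine ⟨j, Subtype.ext ?_⟩
            have h3 := hy.pow (p ^ j)
            have h4 : (w : SpecialLinearGroup K E) ^ p ^ j = 1 := congrArg Subtype.val hj
            rw [h4] at h3
            exact Tw.unique hA.1.bij.2 h3 Tw.one
          · obtain ⟨x, hx, hxw⟩ := hPL w hw
            rw [← h1, ← hxw, qa_mk]
            have h3 : (L.normalizerMonoidHom ⟨r, hrN⟩) x * x⁻¹ ∈ center L := by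
              rw [mem_center_iff]
              rintro ⟨l, hl⟩
              exact Subtype.ext (hc r hr hrN x hx x.2 l hl).symm
            have h4 : QuotientGroup.mk' (center L) ((L.normalizerMonoidHom ⟨r, hrN⟩) x) *
                (QuotientGroup.mk' (center L) x)⁻¹ = 1 := (QuotientGroup.eq_one_iff _).mpr h3
            exact mul_inv_eq_one.mp h4
        have h3 := hy v
        rw [h2] at h3
        exact h3
      exact H471.Is.sigma_eq_one hpK hlin (hPp.map _) hP1' hPI hPC hA.1 hgP hσ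
    · have hel' : ∀ w ∈ P.map X.subtype, w ^ p = 1 := by
        rintro _ ⟨w, hw, rfl⟩
        have h3 : w ^ p = 1 := by
          refine pel_unique (p := p) hkc hkp ?_ ⟨0, one_pow _⟩ ?_
          · obtain ⟨j, hj⟩ := hpel w hw
            exact ⟨j, by rw [← pow_mul, mul_comm, pow_mul, hj, one_pow]⟩
          · obtain ⟨x, hx, hxw⟩ := hPL w hw
            rw [map_one, map_pow, ← hxw, ← map_pow]
            refine (QuotientGroup.eq_one_iff _).mpr ?_
            rw [mem_center_iff]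
            rintro ⟨l, hl⟩
            exact Subtype.ext (hel x hx x.2 l hl).symm
        exact congrArg Subtype.val h3
      exact H471.El.sigma_eq_one_iso hpK hlin (hPp.map _) hP1' hPI hPC hel' hσ
  have hσ2 : σ = RingEquiv.refl K := hσ1
  rw [hσ2] at hA
  obtain ⟨t, ht⟩ := inner_TQ hQ hX hd hT hpK hlin hπ hker hA hpow
  exact sup_of_conj hL hrN ht

/-- **Second case**: `R ∩ L = 1`. -/
theorem cyc_upQ (hR : IsPGroup p R)
    (hn : ∀ x ∈ R, ∀ s ∈ L, x * s * x⁻¹ ∈ L) (hQ : QF Φ Q) (hX : OmX Q X) (hd : 6 ≤ finrank K E) (hpK : ¬ p ∣ Nat.card K)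
    (hlin : ∀ j : ℕ, (∀ c : K, Φ.θ c = c ^ (ringChar K ^ j)) → ¬ p ∣ ringChar K ^ j + 1)
    (hπ : Function.Surjective π)
    (hker : ∀ x : X, π x = 1 → (x : SpecialLinearGroup K E) ∈ center _)
    (hL : commutator L = ⊤) (hT : center (L ⧸ center L) = ⊥)
    (hact : ∀ r ∈ R, ∀ hr : r ∈ Subgroup.normalizer (L : Set G),
      ∃ σ g, ActQ Q π (qa L (L.normalizerMonoidHom ⟨r, hr⟩)) σ g)
    {e z : MonoidAlgebra k G} (heL : e ∈ SubAlg k L)
    (hbr : br R e ≠ 0) (hzF : z ∈ Fix (cj k G) (L ⊓ R)) (hez : e = tr (cj k G) (L ⊓ R) L z)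
    (hbot : L ⊓ R = ⊥) : CycOn R L := by
  refine cyc_of_bot hR hn ?_ heL hbr hzF hez hbot
  let ρ : R →* MulAut (L ⧸ center L) := (qa L).comp (L.normalizerMonoidHom.comp
    (Subgroup.inclusion (fun r hr => mem_normalizer_of hn hr :
      R ≤ Subgroup.normalizer (L : Set G))))
  have hρ : ∀ (r : G) (hr : r ∈ R), ρ ⟨r, hr⟩ =
    qa L (L.normalizerMonoidHom ⟨r, mem_normalizer_of hn hr⟩) := fun r hr => rfl
  have hRp : IsPGroup p ρ.range := by
    rw [MonoidHom.range_eq_map]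
    exact (IsPGroup.to_subgroup hR ⊤).map ρ
  obtain ⟨_, ⟨c, rfl⟩, hc⟩ := cyc_TQ (p := p) (π := π) hQ hX hd hT hpK hlin hπ hker
    hRp (by
      rintro _ ⟨r, rfl⟩
      exact hact r r.2 (mem_normalizer_of hn r.2))
  refine ⟨c, c.2, fun r hr => ?_⟩
  obtain ⟨i, t, ht⟩ := hc (ρ ⟨r, hr⟩) ⟨_, rfl⟩
  have hm : (((c ^ i)⁻¹ * ⟨r, hr⟩ : R) : G) ∈ Subgroup.normalizer (L : Set G) :=
    mem_normalizer_of hn ((c ^ i)⁻¹ * ⟨r, hr⟩ : R).2
  obtain ⟨s, hs, u, hu, h⟩ := sup_of_conj hL hm (t := t) (by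
    rw [← ht, ← map_zpow, ← map_inv, ← map_mul]
    rfl)
  exact ⟨i, s, hs, u, hu, h⟩

end data

universe u

/-- **The corner property of perfect central extensions of `Ω(Q)`** on which `N_D(L)` acts by
semisimilitudes of `Q`, if `N_D(L)` acts trivially on `D ∩ L` modulo the centre or `D ∩ L` is
elementary abelian modulo the centre, given the corner property of the subgroups of `D` which act
as inner automorphisms. -/
theorem corP_coverQ {k : Type u} [Field k] [IsAlgClosed k] {p n Y : ℕ} [Fact p.Prime] [CharP k p]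
    {K E : Type} [Field K] [Finite K] [AddCommGroup E] [Module K E] [FiniteDimensional K E]
    {G : Type} [Group G] [Finite G] {D L : Subgroup G} (hD : IsPGroup p D)
    (hDn : Nat.card D ≤ n) {Φ : HForm K E} {Q : E → K} {X : Subgroup (SpecialLinearGroup K E)}
    (hQ : QF Φ Q) (hX : OmX Q X) (hd : 6 ≤ finrank K E) (hpK : ¬ p ∣ Nat.card K)
    (hlin : ∀ j : ℕ, (∀ c : K, Φ.θ c = c ^ (ringChar K ^ j)) → ¬ p ∣ ringChar K ^ j + 1)
    (hL : commutator L = ⊤) {π : X →* L ⧸ center L} (hπ : Function.Surjective π)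
    (hker : ∀ x : X, π x = 1 → (x : SpecialLinearGroup K E) ∈ center _)
    (hZ : ¬ p ∣ Nat.card (center L))
    (hact : ∀ r ∈ D, ∀ hr : r ∈ Subgroup.normalizer (L : Set G),
      ∃ σ g, ActQ Q π (qa L (L.normalizerMonoidHom ⟨r, hr⟩)) σ g) (hc : AbEl p D L)
    (b : MonoidAlgebra k G)
    (hBB : ∀ R : Subgroup G, R ≤ D → R ≤ L ⊔ Subgroup.centralizer (L : Set G) →
      H365.CorP p Y b R L) : H365.CorP p (max Y (cycB p n)) b D L := by
  have hp : p.Prime := Fact.out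
  have hp2 : Odd p := H954.Hc.odd_of_lin hp hpK Φ.θ hlin
  have hT := CC.center_quot hL
  haveI : Finite (SpecialLinearGroup K E) := BN.finite_sl
  rintro R hRD hn e he heR hbr ⟨z, hz, hzF, hez⟩ hez'
  have hR : IsPGroup p R := hD.to_le hRD
  have heL : e ∈ SubAlg k L := he.block.mem.1
  have heF : e ∈ Fix (cj k G) L := he.block.mem.2
  have hee : e * e = e := he.block.idem
  have hact' : ∀ r ∈ R, ∀ hr : r ∈ Subgroup.normalizer (L : Set G),
      ∃ σ g, ActQ Q π (qa L (L.normalizerMonoidHom ⟨r, hr⟩)) σ g := fun r hr hrN =>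
    hact r (hRD hr) hrN
  have hc' : AbEl p R L := by
    rcases hc with hc | ⟨hc1, hc2⟩
    · exact Or.inl fun x hx hxN y hy hyL => hc x (hRD hx) hxN y (hRD hy) hyL
    · exact Or.inr ⟨fun x hx hxL y hy hyL => hc1 x (hRD hx) hxL y (hRD hy) hyL,
        fun y hy hyL => hc2 y (hRD hy) hyL⟩
  have hRp : IsPGroup p (R.subgroupOf L) :=
    hR.comap_of_injective L.subtype L.subtype_injective
  obtain ⟨P, hPp, hPR⟩ : ∃ P : Subgroup X, IsPGroup p P ∧
      P.map π = (R.subgroupOf L).map (QuotientGroup.mk' (center L)) :=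
    BN.exists_lift (p := p) π hπ (hRp.map _)
  by_cases hP1 : P = ⊥
  · have hbot : L ⊓ R = ⊥ := by
      rw [hP1, Subgroup.map_bot] at hPR
      rw [eq_bot_iff]
      rintro x ⟨hxL, hxR⟩
      have h1 : QuotientGroup.mk' (center L) ⟨x, hxL⟩ ∈
          (R.subgroupOf L).map (QuotientGroup.mk' (center L)) := ⟨⟨x, hxL⟩, hxR, rfl⟩
      rw [← hPR, Subgroup.mem_bot] at h1
      have h2 : (⟨x, hxL⟩ : L) = 1 := by
        refine eq_of_mk hZ ?_ ⟨0, one_pow _⟩ (by rw [h1, map_one])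
        obtain ⟨j, hj⟩ := hR ⟨x, hxR⟩
        have h3 : x ^ p ^ j = 1 := congrArg Subtype.val hj
        exact ⟨j, Subtype.ext h3⟩
      exact Subgroup.mem_bot.mpr (congrArg Subtype.val h2)
    have h1 := cyc_upQ hR hn hQ hX hd hpK hlin hπ hker hL hT hact' heL hbr hzF hez hbot
    obtain ⟨m, f, hf, hsp⟩ := cor_of_cycOn hR h1 hn he.block heR hbr ⟨z, hz, hzF, hez⟩ hez'
    have h4 : Nat.card R ≤ n :=
      (Nat.card_le_card_of_injective _ (Subgroup.inclusion_injective hRD)).trans hDn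
    exact ⟨m, f, fun j => ⟨(hf j).1, (hf j).2.1, (hf j).2.2.1,
      ((hf j).2.2.2.trans (cycB_mono h4)).trans (le_max_right _ _)⟩, hsp⟩
  · have h1 := inner_of_neQ hR hn hQ hX hd hpK hlin hπ hker hL hT hZ
      hact' hc' heL heF hee hbr hzF hez hPp hPR hP1
    have h2 : R ≤ L ⊔ Subgroup.centralizer (L : Set G) := by
      intro r hr
      obtain ⟨s, hs, c, hc, rfl⟩ := h1 r hr
      exact Subgroup.mul_mem _ (Subgroup.mem_sup_left hs) (Subgroup.mem_sup_right hc)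
    obtain ⟨m, f, hf, hsp⟩ := hBB R hRD h2 R le_rfl hn e he heR hbr ⟨z, hz, hzF, hez⟩ hez'
    exact ⟨m, f, fun j => ⟨(hf j).1, (hf j).2.1, (hf j).2.2.1,
      (hf j).2.2.2.trans (le_max_left _ _)⟩, hsp⟩

end Vale.Agent.P180.R2.H799.CF
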