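import Vale.Agent.P180.R2.H799.CD3

/-!
P180: the corner property of the perfect central extensions of orthogonal groups, `|K|` odd, any
dimension, given the corner property of the subgroups of `D` which act as inner automorphisms.
-/

set_option linter.all false

namespace Vale.Agent.P180.R2.H799.CD

open Module Subgroup Polynomial Vale.Agent.P180 Vale.Agent.P180.H768.Gd Vale.Agent.P180.R2.H799
  Vale.Agent.P180.R2.H954 Vale.Agent.P180.R2.H854 Vale.Agent.P180.R2.H799.BS
  Vale.Agent.P180.R2.H854.TD Vale.Agent.P180.R2.H365 Vale.Agent.P180.R2.H47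
open Vale.Agent.P180.R2.H471.Au (mem_normalizer_of mem_sup_of_inner comm_aeval)
open Vale.Agent.P180.R2.H471.He (CycOn cycOn_of_ker cor_of_cycOn)
open Vale.Agent.P180.R2.H259.Cyc (cycB cycB_mono)
open Vale.Agent.P180.R2.H471.El (AbEl)

universe u

/-- **The corner property of perfect central extensions of orthogonal groups** on which `N_D(L)`
acts by semilinear similitudes, if `N_D(L)` acts trivially on `D ∩ L` modulo the centre or `D ∩ L` is
elementary abelian modulo the centre, given the corner property of the subgroups of `D` which act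
as inner automorphisms. -/
theorem corP_coverB {k : Type u} [Field k] [IsAlgClosed k] {p n Y : ℕ} [Fact p.Prime] [CharP k p]
    {G : Type} [Group G] [Finite G] {D L : Subgroup G} (hD : IsPGroup p D)
    (hDn : Nat.card D ≤ n) (hL : commutator L = ⊤) {K : Type} [Field K] [Finite K] {d : ℕ}
    (hd4 : 4 ≤ d) (hpK : ¬ p ∣ Nat.card K) (hodd : Odd (Nat.card K))
    (hlin : LinPr p (RingHom.id K))
    {B : (Fin d → K) → (Fin d → K) → K} {X : Subgroup (SpecialLinearGroup K (Fin d → K))}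
    {π : X →* L ⧸ center L} (hB : FormOn B (RingHom.id K) 1) (hX : IsoOn B X)
    (hπ : Function.Surjective π)
    (hker : ∀ x : X, π x = 1 → (x : SpecialLinearGroup K (Fin d → K)) ∈ center _)
    (hZ : ¬ p ∣ Nat.card (center L))
    (hact : ∀ r ∈ D, ∀ hr : r ∈ Subgroup.normalizer (L : Set G),
      ∃ (σ : K ≃+* K) (c : K) (g : (Fin d → K) → (Fin d → K)), Function.Bijective g ∧
        (∀ v w, g (v + w) = g v + g w) ∧ (∀ (a : K) v, g (a • v) = σ a • g v) ∧
        (∀ v w, B (g v) (g w) = c * σ (B v w)) ∧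
        ∀ x : X, ∃ y : X, (∀ v, g ((x : SpecialLinearGroup K (Fin d → K)) v) =
          (y : SpecialLinearGroup K (Fin d → K)) (g v)) ∧
          qa L (L.normalizerMonoidHom ⟨r, hr⟩) (π x) = π y) (hc : AbEl p D L)
    (b : MonoidAlgebra k G)
    (hBB : ∀ R : Subgroup G, R ≤ D → R ≤ L ⊔ Subgroup.centralizer (L : Set G) →
      H365.CorP p Y b R L) : H365.CorP p (max Y (cycB p n)) b D L := by
  obtain ⟨f1, f2, -, -, f3', f4⟩ := hB
  obtain ⟨f5, f6, -⟩ := hX
  have f3 : ∀ x y, B y x = B x y := fun x y =>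
    (f3' x y).trans (by rw [RingHom.id_apply, one_mul])
  have hp : p.Prime := Fact.out
  let Φ : HForm K (Fin d → K) :=
    { B := B, θ := RingHom.id K, ε := 1, add_left := f1, smul_left := f2, θθ := fun _ => rfl
      εε := by rw [map_one, mul_one]
      symm := fun x y => by rw [RingHom.id_apply, one_mul, f3]
      nondeg := f4 }
  have hXI : X ≤ Φ.Iso := f5
  have hX2 : X.relIndex Φ.Iso ∣ 2 :=
    CC.relIndex_of_two fun g hg g' hg' hgX hgX' => f6 g g' hgX hgX' hg hg'
  have hgood : Φ.GoodX X := Or.inl hodd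
  have hlin' : ∀ j : ℕ, (∀ c, Φ.θ c = c ^ (ringChar K ^ j)) → ¬ p ∣ ringChar K ^ j + 1 := hlin
  have hfd : finrank K (Fin d → K) = d := by rw [Module.finrank_fin_fun]
  have hT := CC.center_quot hL
  haveI : Finite (SpecialLinearGroup K (Fin d → K)) := BN.finite_sl
  have hLi : Lines Φ := by
    refine lines_of_form Φ (Φ.trT hgood.or3) (by rw [hfd]; omega) ?_
      (exists_isotropic Φ (by rw [hfd]; omega))
    rw [hfd]
    exact Or.inl hd4
  have hV : ∀ F, Φ.SD F → VF F ⊓ Φ.Iso ≤ X := fun F _ => hgood.hV hX2 F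
  rintro R hRD hn e he heR hbr ⟨z, hz, hzF, hez⟩ hez'
  have hR : IsPGroup p R := hD.to_le hRD
  have heL : e ∈ SubAlg k L := he.block.mem.1
  have heF : e ∈ Fix (cj k G) L := he.block.mem.2
  have hee : e * e = e := he.block.idem
  have hact' : ∀ r ∈ R, ∀ hr : r ∈ Subgroup.normalizer (L : Set G),
      ∃ σ g, ActT Φ π (qa L (L.normalizerMonoidHom ⟨r, hr⟩)) σ g := by
    intro r hr hrN
    obtain ⟨σ, c, g, hg, hadd, hsmul, hBg, hx⟩ := hact r (hRD hr) hrN
    exact ⟨σ, g, ⟨hg, hadd, hsmul⟩, ⟨c, hBg⟩, hx⟩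
  have hc' : AbEl p R L := by
    rcases hc with hc | ⟨hc1, hc2⟩
    · exact Or.inl fun x hx hxN y hy hyL => hc x (hRD hx) hxN y (hRD hy) hyL
    · exact Or.inr ⟨fun x hx hxL y hy hyL => hc1 x (hRD hx) hxL y (hRD hy) hyL,
        fun y hy hyL => hc2 y (hRD hy) hyL⟩
  have hRp : IsPGroup p (R.subgroupOf L) :=
    hR.comap_of_injective L.subtype L.subtype_injective
  obtain ⟨Q, hQp, hQR⟩ : ∃ Q : Subgroup X, IsPGroup p Q ∧
      Q.map π = (R.subgroupOf L).map (QuotientGroup.mk' (center L)) :=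
    BN.exists_lift (p := p) π hπ (hRp.map _)
  by_cases hQ1 : Q = ⊥
  · have hbot : L ⊓ R = ⊥ := by
      rw [hQ1, Subgroup.map_bot] at hQR
      rw [eq_bot_iff]
      rintro x ⟨hxL, hxR⟩
      have h1 : QuotientGroup.mk' (center L) ⟨x, hxL⟩ ∈
          (R.subgroupOf L).map (QuotientGroup.mk' (center L)) := ⟨⟨x, hxL⟩, hxR, rfl⟩
      rw [← hQR, Subgroup.mem_bot] at h1
      have h2 : (⟨x, hxL⟩ : L) = 1 := by
        refine eq_of_mk hZ ?_ ⟨0, one_pow _⟩ (by rw [h1, map_one])
        obtain ⟨j, hj⟩ := hR ⟨x, hxR⟩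
        have h3 : x ^ p ^ j = 1 := congrArg Subtype.val hj
        exact ⟨j, Subtype.ext h3⟩
      exact Subgroup.mem_bot.mpr (congrArg Subtype.val h2)
    have h1 := cyc_up hR hn (by rw [hfd]; omega) hpK hlin' hX2 hV hLi hπ hker hL hT hact' heL hbr
      hzF hez hbot
    obtain ⟨m, f, hf, hsp⟩ := cor_of_cycOn hR h1 hn he.block heR hbr ⟨z, hz, hzF, hez⟩ hez'
    have h4 : Nat.card R ≤ n :=
      (Nat.card_le_card_of_injective _ (Subgroup.inclusion_injective hRD)).trans hDn
    exact ⟨m, f, fun j => ⟨(hf j).1, (hf j).2.1, (hf j).2.2.1,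
      ((hf j).2.2.2.trans (cycB_mono h4)).trans (le_max_right _ _)⟩, hsp⟩
  · have h1 := inner_of_ne hR hn (by rw [hfd]; omega) hpK hlin' hXI hX2 hV hLi hπ hker hL hT hZ
      hact' hc' heL heF hee hbr hzF hez hQp hQR hQ1
    have h2 : R ≤ L ⊔ Subgroup.centralizer (L : Set G) := by
      intro r hr
      obtain ⟨s, hs, c, hc, rfl⟩ := h1 r hr
      exact Subgroup.mul_mem _ (Subgroup.mem_sup_left hs) (Subgroup.mem_sup_right hc)
    obtain ⟨m, f, hf, hsp⟩ := hBB R hRD h2 R le_rfl hn e he heR hbr ⟨z, hz, hzF, hez⟩ hez'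
    exact ⟨m, f, fun j => ⟨(hf j).1, (hf j).2.1, (hf j).2.2.1,
      (hf j).2.2.2.trans (le_max_left _ _)⟩, hsp⟩

end Vale.Agent.P180.R2.H799.CD
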