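import Vale.Agent.P180.R2.H799.CH1
import Vale.Agent.P180.R2.H799.CG1
import Vale.Agent.P180.R2.H47.Bm10

/-!
P180: the corner property of the perfect central extensions of orthogonal groups of any dimension, if
`D ∩ L` is abelian modulo the centre and `N_D(L)` acts trivially on it, or it is elementary abelian
modulo the centre, or `D ∩ L` is small.
-/

set_option linter.all false

namespace Vale.Agent.P180.R2.H799.CH

open Module Subgroup Vale.Agent.P180 Vale.Agent.P180.H768.Gd Vale.Agent.P180.R2.H799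
  Vale.Agent.P180.R2.H954 Vale.Agent.P180.R2.H854 Vale.Agent.P180.R2.H799.BS
  Vale.Agent.P180.R2.H854.TD Vale.Agent.P180.R2.H365 Vale.Agent.P180.R2.H47
open Vale.Agent.P180.R2.H259.Loc Vale.Agent.P180.R2.H259.Oq
open Vale.Agent.P180.R2.H471.El (AbEl)
open Vale.Agent.P180.R2.H259.Cyc (cycB)
open Vale.Agent.P180.R2.H799.CD (qa qa_mk corP_coverB)
open Vale.Agent.P180.R2.H799.CF (ActQ corP_coverQ)
open Vale.Agent.P180.R2.H799.CG (SimQ)

universe u

/-- the elements of `D ∩ L` commute modulo the centre of `L` -/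
def ComZ {G : Type} [Group G] (D L : Subgroup G) : Prop :=
  ∀ x ∈ D, x ∈ L → ∀ y ∈ D, y ∈ L → ∀ l ∈ L, (x * y * x⁻¹ * y⁻¹) * l = l * (x * y * x⁻¹ * y⁻¹)

theorem ComZ.mono {G : Type} [Group G] {D R L : Subgroup G} (h : ComZ D L) (hR : R ≤ D) :
    ComZ R L := fun x hx hxL y hy hyL => h x (hR hx) hxL y (hR hy) hyL

theorem AbEl.mono {p : ℕ} {G : Type} [Group G] {D R L : Subgroup G} (h : AbEl p D L)
    (hR : R ≤ D) : AbEl p R L := by
  rcases h with hc | ⟨hc1, hc2⟩
  · exact Or.inl fun x hx hxN y hy hyL => hc x (hR hx) hxN y (hR hy) hyL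
  · exact Or.inr ⟨fun x hx hxL y hy hyL => hc1 x (hR hx) hxL y (hR hy) hyL,
      fun y hy hyL => hc2 y (hR hy) hyL⟩

/-- a small parabolic system for all subgroups `A` which are abelian modulo the centre -/
def PairZ (p M : ℕ) (L : Type) [Group L] : Prop :=
  ∀ A : Subgroup L, IsPGroup p A → (∀ x ∈ A, ∀ y ∈ A, x * y * x⁻¹ * y⁻¹ ∈ center L) →
    ParPair p L A ∨ LevPair p M L A

/-- the corner property of the subgroups which act as inner automorphisms -/
theorem inner_pair {k : Type u} [Field k] [IsAlgClosed k] {p n M : ℕ} [Fact p.Prime] [CharP k p]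
    {G : Type} [Group G] [Finite G] {D L : Subgroup G} (hD : IsPGroup p D)
    (hDn : Nat.card D ≤ n) (hpair : PairZ p M L) (b : MonoidAlgebra k G) (hcom : ComZ D L)
    (hin : D ⊓ Subgroup.normalizer (L : Set G) ≤ L ⊔ Subgroup.centralizer (L : Set G)) :
    H365.CorP p (max (H799.BN.bnB n) (BZ.bdL p M n)) b D L := by
  rcases hpair (D.subgroupOf L) (hD.comap_of_injective L.subtype L.subtype_injective) (by
    rintro x hx y hy
    rw [mem_center_iff]
    rintro ⟨l, hl⟩
    exact Subtype.ext (hcom x hx x.2 y hy y.2 l hl).symm) with h | h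
  · exact (H259.Par.corP_parq hD hDn h hin b).mono (le_max_left _ _)
  · exact (BZ.corP_lev hD hDn h hin b).mono (le_max_right _ _)

/-- the bound -/
noncomputable def bBig (p n m : ℕ) : ℕ :=
  max (max (H799.BN.bnB n) (BZ.bdL p (CB.lvM m) n)) (cycB p n)

/-- the cases -/
theorem big_gen {k : Type u} [Field k] {p C : ℕ} {G : Type} [Group G] [Finite G]
    {D L : Subgroup G} {b : MonoidAlgebra k G}
    (hc : AbEl p D L ∨
      (((∀ R ≤ D, (∀ x ∈ R, x ∈ L → ∀ y ∈ R, y ∈ L → x * y = y * x) → H365.CorP p C b R L) →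
        H365.CorP p C b D L) ∧
      (D ⊓ Subgroup.normalizer (L : Set G) ≤ L ⊔ Subgroup.centralizer (L : Set G) ∨
        ∀ y ∈ D, y ∈ L → ∀ l ∈ L, y ^ p * l = l * y ^ p)))
    (hab : ∀ R ≤ D, AbEl p R L → H365.CorP p C b R L)
    (hin : ∀ R ≤ D, ComZ R L →
      R ⊓ Subgroup.normalizer (L : Set G) ≤ L ⊔ Subgroup.centralizer (L : Set G) →
      H365.CorP p C b R L) : H365.CorP p C b D L := by
  rcases hc with hc | ⟨hs, hc⟩
  · exact hab D le_rfl hc
  refine hs fun R hR hcom => ?_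
  have hcz : ComZ R L := by
    intro x hx hxL y hy hyL l hl
    rw [hcom x hx hxL y hy hyL, mul_inv_cancel_right, mul_inv_cancel, one_mul, mul_one]
  rcases hc with hc | hc
  · exact hin R hR hcz (le_trans (inf_le_inf_right _ hR) hc)
  · exact hab R hR (Or.inr ⟨hcz, fun y hy hyL => hc y (hR hy) hyL⟩)

/-- **Perfect central extensions of orthogonal groups**, `|K|` odd, any dimension. -/
theorem corP_bigO {k : Type u} [Field k] [IsAlgClosed k] {p n m : ℕ} [Fact p.Prime] [CharP k p]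
    {G : Type} [Group G] [Finite G] {D L : Subgroup G} (hD : IsPGroup p D)
    (hDn : Nat.card D ≤ n) (hL : commutator L = ⊤) {K : Type} [Field K] [Finite K] {d : ℕ}
    (hd4 : 4 ≤ d) (hpK : ¬ p ∣ Nat.card K) (hodd : Odd (Nat.card K))
    (hlin : LinPr p (RingHom.id K))
    {B : (Fin d → K) → (Fin d → K) → K} {X : Subgroup (SpecialLinearGroup K (Fin d → K))}
    {π : X →* L ⧸ center L} (hB : FormOn B (RingHom.id K) 1) (hX : IsoOn B X)
    (hπ : Function.Surjective π)
    (hker : ∀ x : X, π x = 1 → (x : SpecialLinearGroup K (Fin d → K)) ∈ center _)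
    (hZ : ¬ p ∣ Nat.card (center L))
    (hact : ∀ r ∈ D, ∀ hr : r ∈ Subgroup.normalizer (L : Set G),
      ∃ (σ : K ≃+* K) (c : K) (g : (Fin d → K) → (Fin d → K)), Function.Bijective g ∧
        (∀ v w, g (v + w) = g v + g w) ∧ (∀ (a : K) v, g (a • v) = σ a • g v) ∧
        (∀ v w, B (g v) (g w) = c * σ (B v w)) ∧
        ∀ x : X, ∃ y : X, (∀ v, g ((x : SpecialLinearGroup K (Fin d → K)) v) =
          (y : SpecialLinearGroup K (Fin d → K)) (g v)) ∧
          qa L (L.normalizerMonoidHom ⟨r, hr⟩) (π x) = π y)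
    (hpair : PairZ p (CB.lvM m) L)
    (hc : AbEl p D L ∨ (Nat.card (L ⊓ D : Subgroup G) < p ^ p ∧
      (D ⊓ Subgroup.normalizer (L : Set G) ≤ L ⊔ Subgroup.centralizer (L : Set G) ∨
        ∀ y ∈ D, y ∈ L → ∀ l ∈ L, y ^ p * l = l * y ^ p)))
    (b : MonoidAlgebra k G) : H365.CorP p (bBig p n m) b D L := by
  have hcard : ∀ R ≤ D, Nat.card R ≤ n := fun R hR =>
    (Nat.card_le_card_of_injective _ (Subgroup.inclusion_injective hR)).trans hDn
  refine big_gen (hc.imp_right fun h => ⟨fun h1 => ?_, h.2⟩) (fun R hR hab => ?_)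
    fun R hR hcz hin => (inner_pair (hD.to_le hR) (hcard R hR) hpair b hcz hin).mono
      (le_max_left _ _)
  · obtain ⟨f1, f2, -, -, f3', f4⟩ := hB
    obtain ⟨f5, f6, -⟩ := hX
    have f3 : ∀ x y, B y x = B x y := fun x y =>
      (f3' x y).trans (by rw [RingHom.id_apply, one_mul])
    let Φ : HForm K (Fin d → K) :=
      { B := B, θ := RingHom.id K, ε := 1, add_left := f1, smul_left := f2, θθ := fun _ => rfl
        εε := by rw [map_one, mul_one]
        symm := fun x y => by rw [RingHom.id_apply, one_mul, f3]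
        nondeg := f4 }
    have hXI : X ≤ Φ.Iso := f5
    have hX2 : X.relIndex Φ.Iso ∣ 2 :=
      CC.relIndex_of_two fun g hg g' hg' hgX hgX' => f6 g g' hgX hgX' hg hg'
    refine Bm.corP_small_cover (Φ := Φ) hD h.1 hZ hpK hlin hXI hX2 hπ ?_ h1
    rintro _ ⟨x, hx, rfl⟩
    exact hker x (MonoidHom.mem_ker.mp hx)
  · exact corP_coverB (hD.to_le hR) (hcard R hR) hL hd4 hpK hodd hlin hB hX hπ hker hZ
      (fun r hr hrN => hact r (hR hr) hrN) hab b fun R' hR' hRL =>
        inner_pair (hD.to_le (hR'.trans hR)) (hcard R' (hR'.trans hR)) hpair b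
          (fun x hx hxL y hy hyL => hab.ab x (hR' hx) hxL y (hR' hy) hyL) (inf_le_left.trans hRL)

/-- **Perfect central extensions of `Ω(Q)`**, `|K|` even, any dimension. -/
theorem corP_bigE {k : Type u} [Field k] [IsAlgClosed k] {p n m : ℕ} [Fact p.Prime] [CharP k p]
    {G : Type} [Group G] [Finite G] {D L : Subgroup G} (hD : IsPGroup p D)
    (hDn : Nat.card D ≤ n) (hL : commutator L = ⊤) {K E : Type} [Field K] [Finite K]
    [AddCommGroup E] [Module K E] [FiniteDimensional K E] {Φ : HForm K E} {Q : E → K}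
    {X : Subgroup (SpecialLinearGroup K E)} (hθ : ∀ a, Φ.θ a = a) (hQ : QF Φ Q) (hX : OmX Q X)
    (hd : 6 ≤ finrank K E) (hpK : ¬ p ∣ Nat.card K) (hlin : LinPr p (RingHom.id K))
    {π : X →* L ⧸ center L} (hπ : Function.Surjective π)
    (hker : ∀ x : X, π x = 1 → (x : SpecialLinearGroup K E) ∈ center _)
    (hZ : ¬ p ∣ Nat.card (center L))
    (hact : ∀ r ∈ D, ∀ hr : r ∈ Subgroup.normalizer (L : Set G),
      SimQ Q π (qa L (L.normalizerMonoidHom ⟨r, hr⟩)))
    (hpair : PairZ p (CB.lvM m) L)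
    {b : MonoidAlgebra k G}
    (hc : AbEl p D L ∨
      (((∀ R ≤ D, (∀ x ∈ R, x ∈ L → ∀ y ∈ R, y ∈ L → x * y = y * x) →
        H365.CorP p (bBig p n m) b R L) → H365.CorP p (bBig p n m) b D L) ∧
      (D ⊓ Subgroup.normalizer (L : Set G) ≤ L ⊔ Subgroup.centralizer (L : Set G) ∨
        ∀ y ∈ D, y ∈ L → ∀ l ∈ L, y ^ p * l = l * y ^ p))) :
    H365.CorP p (bBig p n m) b D L := by
  have hlin' : ∀ j : ℕ, (∀ c : K, Φ.θ c = c ^ (ringChar K ^ j)) → ¬ p ∣ ringChar K ^ j + 1 :=
    fun j hj => hlin j fun a => by rw [← hj a, hθ]; rfl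
  have hcard : ∀ R ≤ D, Nat.card R ≤ n := fun R hR =>
    (Nat.card_le_card_of_injective _ (Subgroup.inclusion_injective hR)).trans hDn
  refine big_gen hc (fun R hR hab => ?_)
    fun R hR hcz hin => (inner_pair (hD.to_le hR) (hcard R hR) hpair b hcz hin).mono
      (le_max_left _ _)
  exact corP_coverQ (hD.to_le hR) (hcard R hR) hQ hX hd hpK hlin' hL hπ hker hZ
    (fun r hr hrN => (hact r (hR hr) hrN).act) hab b fun R' hR' hRL =>
      inner_pair (hD.to_le (hR'.trans hR)) (hcard R' (hR'.trans hR)) hpair b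
        (fun x hx hxL y hy hyL => hab.ab x (hR' hx) hxL y (hR' hy) hyL) (inf_le_left.trans hRL)

end Vale.Agent.P180.R2.H799.CH
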