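import Vale.Agent.P180.R2.H799.CH2
import Vale.Agent.P180.R2.H799.CD4
import Vale.Agent.P180.R2.H365.OcD
import Vale.Agent.P180.R2.H365.TmP
import Vale.Agent.P180.R2.H47.Bm9
import Vale.Agent.P180.R2.H47.Bm12

/-!
P180: components with `L / Z(L)` an orthogonal group of any dimension `d ≤ m`.
-/

set_option linter.all false

namespace Vale.Agent.P180.R2.H799.CH

open Module Subgroup Vale.Agent.P180 Vale.Agent.P180.H768.Gd Vale.Agent.P180.R2.H799
  Vale.Agent.P180.R2.H954 Vale.Agent.P180.R2.H854 Vale.Agent.P180.R2.H799.BS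
  Vale.Agent.P180.R2.H854.TD Vale.Agent.P180.R2.H365 Vale.Agent.P180.R2.H47
open Vale.Agent.P180.R2.H259.Loc Vale.Agent.P180.R2.H259.Oq
open Vale.Agent.P180.R2.H471.El (AbEl)
open Vale.Agent.P180.R2.H799.CD (qa ActT inner_T pow_T sup_of_conj)
open Vale.Agent.P180.R2.H799.CF (ActQ inner_TQ pow_TQ)
open Vale.Agent.P180.R2.H799.CG (SimQ)

universe u

theorem refl_of_pow {K : Type} [Field K] [Finite K] {p : ℕ} [Fact p.Prime]
    (hno : ¬ p ∣ Nat.card (K ≃+* K)) {σ : RingAut K} {i : ℕ} (h : σ ^ p ^ i = 1) :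
    σ = 1 := by
  have h1 : orderOf σ ∣ p ^ i := orderOf_dvd_of_pow_eq_one h
  have h2 : orderOf σ ∣ Nat.card (K ≃+* K) := orderOf_dvd_natCard σ
  have h3 : Nat.Coprime (p ^ i) (Nat.card (K ≃+* K)) :=
    Nat.Coprime.pow_left _ ((Nat.Prime.coprime_iff_not_dvd Fact.out).mpr hno)
  exact orderOf_eq_one_iff.mp (Nat.eq_one_of_dvd_coprimes h3 h1 h2)

theorem one_of_p {p : ℕ} [Fact p.Prime] {G : Type} [Group G] [Finite G] {L : Subgroup G}
    (hZ : ¬ p ∣ Nat.card (center L)) (x : L) (i : ℕ) (hx : x ∈ center L) (hi : x ^ p ^ i = 1) :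
    x = 1 := by
  have h1 : orderOf x ∣ p ^ i := orderOf_dvd_of_pow_eq_one hi
  have h2 : orderOf x ∣ Nat.card (center L) := by
    have h3 := orderOf_dvd_natCard (⟨x, hx⟩ : center L)
    rw [← Subgroup.orderOf_coe] at h3
    exact h3
  have h3 : Nat.Coprime (p ^ i) (Nat.card (center L)) :=
    Nat.Coprime.pow_left _ ((Nat.Prime.coprime_iff_not_dvd Fact.out).mpr hZ)
  exact orderOf_eq_one_iff.mp (Nat.eq_one_of_dvd_coprimes h3 h1 h2)

theorem pow_of_norm {p : ℕ} {G : Type} [Group G] {D L : Subgroup G} (hD : IsPGroup p D)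
    {r : G} (hr : r ∈ D) (hrN : r ∈ Subgroup.normalizer (L : Set G)) :
    ∃ i, (qa L (L.normalizerMonoidHom ⟨r, hrN⟩)) ^ p ^ i = 1 := by
  obtain ⟨i, hi⟩ := hD ⟨r, hr⟩
  refine ⟨i, ?_⟩
  have hi' : r ^ p ^ i = 1 := congrArg Subtype.val hi
  have h0 : (⟨r, hrN⟩ : Subgroup.normalizer (L : Set G)) ^ p ^ i = 1 := Subtype.ext hi'
  rw [← map_pow, ← map_pow, h0, map_one, map_one]

/-- the cases of the dimension -/
theorem hyp_cases {p : ℕ} {G : Type} [Group G] [Finite G] [Fact p.Prime] {D L : Subgroup G}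
    (hD : IsPGroup p D) (hZ : ¬ p ∣ Nat.card (center L)) {K : Type} [Field K]
    (hin : ¬ p ∣ Nat.card (K ≃+* K) →
      D ⊓ Subgroup.normalizer (L : Set G) ≤ L ⊔ Subgroup.centralizer (L : Set G))
    (hc : CenOn p L (Gam D L) (D.subgroupOf L) ∨ (SmallOn p L (D.subgroupOf L) ∧
      (¬ p ∣ Nat.card (K ≃+* K) ∨ ExpOn p L (D.subgroupOf L)))) :
    AbEl p D L ∨ (Nat.card (L ⊓ D : Subgroup G) < p ^ p ∧
      (D ⊓ Subgroup.normalizer (L : Set G) ≤ L ⊔ Subgroup.centralizer (L : Set G) ∨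
        ∀ y ∈ D, y ∈ L → ∀ l ∈ L, y ^ p * l = l * y ^ p)) :=
  hc.imp Y.abEl_of_cenOn fun h => ⟨Bm.card_of_smallOn hD (fun x i => one_of_p hZ x i) h.1,
    h.2.imp hin Y.pow_of_exp⟩

/-- **Orthogonal groups of dimension `d ≤ m`**, `|K|` odd. -/
theorem big_odd {k : Type u} [Field k] [IsAlgClosed k] {p n m : ℕ} [Fact p.Prime] [CharP k p]
    {G : Type} [Group G] [Finite G] {D L : Subgroup G} (hD : IsPGroup p D)
    (hDn : Nat.card D ≤ n) (hL : commutator L = ⊤) {K : Type} [Field K] [Finite K] {d : ℕ}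
    (hd4 : 4 ≤ d) (hpK : ¬ p ∣ Nat.card K) (hodd : Odd (Nat.card K))
    (hlin : LinPr p (RingHom.id K))
    {B : (Fin d → K) → (Fin d → K) → K} {X : Subgroup (SpecialLinearGroup K (Fin d → K))}
    {π : X →* L ⧸ center L} (hB : FormOn B (RingHom.id K) 1) (hX : IsoOn B X)
    (hπ : Function.Surjective π)
    (hker : ∀ x : X, π x = 1 → (x : SpecialLinearGroup K (Fin d → K)) ∈ center _)
    (hZ : ¬ p ∣ Nat.card (center L))
    (hsim : ∀ (β : MulAut (L ⧸ center L)) (i : ℕ), β ^ p ^ i = 1 → Oc.SimB B π β)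
    (hpair : PairZ p (CB.lvM m) L)
    (hc : CenOn p L (Gam D L) (D.subgroupOf L) ∨ (SmallOn p L (D.subgroupOf L) ∧
      (¬ p ∣ Nat.card (K ≃+* K) ∨ ExpOn p L (D.subgroupOf L))))
    (b : MonoidAlgebra k G) : H365.CorP p (bBig p n m) b D L := by
  haveI : Finite (SpecialLinearGroup K (Fin d → K)) := BN.finite_sl
  have hB' := hB
  have hX' := hX
  obtain ⟨f1, f2, -, -, f3', f4⟩ := hB
  obtain ⟨f5, f6, -⟩ := hX
  have f3 : ∀ x y, B y x = B x y := fun x y =>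
    (f3' x y).trans (by rw [RingHom.id_apply, one_mul])
  let Φ : HForm K (Fin d → K) :=
    { B := B, θ := RingHom.id K, ε := 1, add_left := f1, smul_left := f2, θθ := fun _ => rfl
      εε := by rw [map_one, mul_one]
      symm := fun x y => by rw [RingHom.id_apply, one_mul, f3]
      nondeg := f4 }
  have hX2 : X.relIndex Φ.Iso ∣ 2 :=
    CC.relIndex_of_two fun g hg g' hg' hgX hgX' => f6 g g' hgX hgX' hg hg'
  have hgood : Φ.GoodX X := Or.inl hodd
  have hfd : finrank K (Fin d → K) = d := by rw [Module.finrank_fin_fun]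
  have hT := CC.center_quot hL
  have hLi : Lines Φ := by
    refine lines_of_form Φ (Φ.trT hgood.or3) (by rw [hfd]; omega) ?_
      (exists_isotropic Φ (by rw [hfd]; omega))
    rw [hfd]
    exact Or.inl hd4
  have hV : ∀ F, Φ.SD F → VF F ⊓ Φ.Iso ≤ X := fun F _ => hgood.hV hX2 F
  have hact : ∀ r ∈ D, ∀ hr : r ∈ Subgroup.normalizer (L : Set G),
      Oc.SimB B π (qa L (L.normalizerMonoidHom ⟨r, hr⟩)) := fun r hr hrN =>
    (pow_of_norm hD hr hrN).elim fun i hi => hsim _ i hi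
  refine corP_bigO hD hDn hL hd4 hpK hodd hlin hB' hX' hπ hker hZ (fun r hr hrN => hact r hr hrN)
    hpair (hyp_cases hD hZ (K := K) (fun hno => ?_) hc) b
  rintro r ⟨hrD, hrN⟩
  obtain ⟨i, hi⟩ := pow_of_norm hD hrD hrN
  obtain ⟨σ, c, g, hg, hadd, hsmul, hBg, hx⟩ := hact r hrD hrN
  have hA : ActT Φ π (qa L (L.normalizerMonoidHom ⟨r, hrN⟩)) σ g :=
    ⟨⟨hg, hadd, hsmul⟩, ⟨c, hBg⟩, hx⟩
  have h1 : (σ : RingAut K) ^ p ^ i = 1 := pow_T hT hV hLi (by rw [hfd]; omega) hker hA hi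
  have h2 : σ = RingEquiv.refl K := refl_of_pow hno h1
  subst h2
  obtain ⟨t, ht⟩ := inner_T (Φ := Φ) hT hpK hlin (by rw [hfd]; omega) hX2 hV hLi hπ hker hA.actX hi
  obtain ⟨s, hs, c, hc, rfl⟩ := sup_of_conj hL hrN ht
  exact Subgroup.mul_mem _ (Subgroup.mem_sup_left hs) (Subgroup.mem_sup_right hc)

/-- **Groups `Ω(Q)` of dimension `d ≤ m`**, `|K|` even. -/
theorem big_even {k : Type u} [Field k] [IsAlgClosed k] {p n m : ℕ} [Fact p.Prime] [CharP k p]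
    {G : Type} [Group G] [Finite G] {D L : Subgroup G} (hD : IsPGroup p D)
    (hDn : Nat.card D ≤ n) (hL : commutator L = ⊤) {K : Type} [Field K] [Finite K] {d : ℕ}
    {Φ : HForm K (Fin d → K)} {Q : (Fin d → K) → K}
    {X : Subgroup (SpecialLinearGroup K (Fin d → K))}
    (hθ : ∀ a, Φ.θ a = a) (hQ : QF Φ Q) (hX : OmX Q X) (hd : 6 ≤ d)
    (hpK : ¬ p ∣ Nat.card K) (hlin : LinPr p (RingHom.id K)) {π : X →* L ⧸ center L}
    (hπ : Function.Surjective π)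
    (hker : ∀ x : X, π x = 1 → (x : SpecialLinearGroup K (Fin d → K)) ∈ center _)
    (hZ : ¬ p ∣ Nat.card (center L))
    (hsim : ∀ (β : MulAut (L ⧸ center L)) (i : ℕ), β ^ p ^ i = 1 → SimQ Q π β)
    (hpair : PairZ p (CB.lvM m) L)
    (hc : CenOn p L (Gam D L) (D.subgroupOf L) ∨ (SmallOn p L (D.subgroupOf L) ∧
      (¬ p ∣ Nat.card (K ≃+* K) ∨ ExpOn p L (D.subgroupOf L))))
    (b : MonoidAlgebra k G) : H365.CorP p (bBig p n m) b D L := by
  haveI : Finite (SpecialLinearGroup K (Fin d → K)) := BN.finite_sl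
  have hlin' : ∀ j : ℕ, (∀ c : K, Φ.θ c = c ^ (ringChar K ^ j)) → ¬ p ∣ ringChar K ^ j + 1 :=
    fun j hj => hlin j fun a => by rw [← hj a, hθ]; rfl
  have hfd : finrank K (Fin d → K) = d := by rw [Module.finrank_fin_fun]
  have hT := CC.center_quot hL
  have hact : ∀ r ∈ D, ∀ hr : r ∈ Subgroup.normalizer (L : Set G),
      SimQ Q π (qa L (L.normalizerMonoidHom ⟨r, hr⟩)) := fun r hr hrN =>
    (pow_of_norm hD hr hrN).elim fun i hi => hsim _ i hi
  refine corP_bigE hD hDn hL hθ hQ hX (by rw [hfd]; exact hd) hpK hlin hπ hker hZ hact hpair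
    ((hyp_cases hD hZ (K := K) (fun hno => ?_) hc).imp_right fun h => ⟨fun h1 => ?_, h.2⟩)
  · rintro r ⟨hrD, hrN⟩
    obtain ⟨i, hi⟩ := pow_of_norm hD hrD hrN
    obtain ⟨σ, g, hA⟩ := (hact r hrD hrN).act
    have h1 : (σ : RingAut K) ^ p ^ i = 1 := pow_TQ hQ hX (by rw [hfd]; exact hd) hT hker hA hi
    have h2 : σ = RingEquiv.refl K := refl_of_pow hno h1
    subst h2
    obtain ⟨t, ht⟩ := inner_TQ hQ hX (by rw [hfd]; exact hd) hT hpK hlin' hπ hker hA hi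
    obtain ⟨s, hs, c, hc, rfl⟩ := sup_of_conj hL hrN ht
    exact Subgroup.mul_mem _ (Subgroup.mem_sup_left hs) (Subgroup.mem_sup_right hc)
  · refine Bm.corP_small_coverQ (Φ := Φ) hD h.1 hZ hQ hX hpK hlin' hπ ?_ h1
    rintro _ ⟨x, hx, rfl⟩
    exact hker x (MonoidHom.mem_ker.mp hx)

end Vale.Agent.P180.R2.H799.CH
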