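import Vale.Agent.P180.H768.Brauer

/-!
P180: central elements and traces from the trivial subgroup.
-/

namespace Vale.Agent.P180.R2.H799

open Vale.Agent.P180

set_option linter.unusedSectionVars false

section TraceKill

variable {k : Type*} [Field k] {G : Type*} [Group G] [Finite G]

theorem mem_Fix_bot (y : MonoidAlgebra k G) : y ∈ Fix (cj k G) (⊥ : Subgroup G) := by
  intro h hh
  rw [Subgroup.mem_bot.mp hh, map_one_act]

theorem tr_bot_top [Fintype G] (y : MonoidAlgebra k G) :
    tr (cj k G) ⊥ ⊤ y = ∑ g : G, cj k G g y := by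
  refine tr_eq_sum' (ι := G) (mem_Fix_bot y) (fun g => g) (fun _ => Subgroup.mem_top _) ?_ ?_
  · intro i j h
    exact (inv_mul_eq_one.mp (Subgroup.mem_bot.mp h))
  · intro x _
    exact ⟨x, by simp⟩

theorem trace_conj [Fintype G] (h : G) (y : MonoidAlgebra k G) :
    LinearMap.trace k (MonoidAlgebra k G)
      ((LinearMap.mulLeft k (MonoidAlgebra.single h⁻¹ (1 : k))) ∘ₗ LinearMap.mulRight k y) =
      (∑ g : G, cj k G g y).coeff h := by
  classical
  rw [LinearMap.trace_eq_matrix_trace k (MonoidAlgebra.basis G k), Matrix.trace,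
    MonoidAlgebra.coeff_sum, Finsupp.finsetSum_apply]
  refine Finset.sum_congr rfl fun g _ => ?_
  rw [Matrix.diag_apply, LinearMap.toMatrix_apply, cj_coeff]
  have e : (MonoidAlgebra.basis G k) g = MonoidAlgebra.single g 1 := by
    simp
  rw [e]
  change ((LinearMap.mulLeft k (MonoidAlgebra.single h⁻¹ (1 : k)) ∘ₗ LinearMap.mulRight k y)
    (MonoidAlgebra.single g 1)).coeff g = _
  simp only [LinearMap.comp_apply, LinearMap.mulLeft_apply, LinearMap.mulRight_apply]
  rw [← mul_assoc, MonoidAlgebra.single_mul_single, one_mul,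
    MonoidAlgebra.coeff_single_mul_apply, one_mul]
  congr 1
  group

theorem tr_bot_kill {w : MonoidAlgebra k G} (hw : w ∈ ZAlg k (⊤ : Subgroup G))
    (hn : IsNilpotent w) (x : MonoidAlgebra k G) : tr (cj k G) ⊥ ⊤ (w * x) = 0 := by
  have _ := Fintype.ofFinite G
  rw [tr_bot_top]
  apply MonoidAlgebra.coeff_injective
  ext h
  rw [← trace_conj]
  have hcomm : ∀ a : MonoidAlgebra k G, w * a = a * w := by
    have h1 := hw
    rw [ZAlg_top, Subalgebra.mem_center_iff] at h1
    intro a
    exact (h1 a).symm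
  have hwx : IsNilpotent (w * x) := by
    have : Commute w x := hcomm x
    exact this.isNilpotent_mul_right hn
  have hT : IsNilpotent ((LinearMap.mulLeft k (MonoidAlgebra.single h⁻¹ (1 : k))) ∘ₗ
      LinearMap.mulRight k (w * x)) := by
    have hc : Commute (LinearMap.mulLeft k (MonoidAlgebra.single h⁻¹ (1 : k)))
        (LinearMap.mulRight k (w * x)) := by
      apply LinearMap.ext
      intro a
      simp [mul_assoc]
    have h2 : IsNilpotent (LinearMap.mulRight k (w * x)) := by
      obtain ⟨n, hn⟩ := hwx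
      refine ⟨n, ?_⟩
      rw [LinearMap.pow_mulRight, hn]
      simp
    exact hc.isNilpotent_mul_left h2
  rw [(LinearMap.isNilpotent_trace_of_isNilpotent hT).eq_zero]
  simp

end TraceKill

section Free

variable {k : Type*} [Field k] {G : Type*} [Group G] [Finite G]

/-- A `D`-fixed element whose support consists of elements with trivial centraliser in `D` is a
trace from the trivial subgroup. -/
theorem exists_tr_bot {D : Subgroup G} {y : MonoidAlgebra k G} (hy : y ∈ Fix (cj k G) D)
    (hfree : ∀ x, y.coeff x ≠ 0 → ∀ d ∈ D, d * x * d⁻¹ = x → d = 1) :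
    ∃ y', tr (cj k G) ⊥ D y' = y := by
  classical
  obtain ⟨ι, _, S, x, hS, hst, hfix, hsum⟩ := KP.eq_sum_tr_single D hy
  refine ⟨∑ o, MonoidAlgebra.single (x o) (y.coeff (x o)), ?_⟩
  rw [tr_sum]
  conv_rhs => rw [hsum]
  refine Finset.sum_congr rfl fun o _ => ?_
  by_cases h0 : y.coeff (x o) = 0
  · rw [h0, MonoidAlgebra.single_zero]
    have h1 : ∀ H K : Subgroup G, tr (cj k G) H K (0 : MonoidAlgebra k G) = 0 := by
      intro H K
      have := tr_smul (ρ := cj k G) (H := H) (K := K) (0 : k) (0 : MonoidAlgebra k G)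
      simpa using this
    rw [h1, h1]
  · have h1 : S o = ⊥ := by
      rw [Subgroup.eq_bot_iff_forall]
      intro d hd
      exact hfree _ h0 d (hS o hd) ((hst o d (hS o hd)).mp hd)
    rw [h1]

end Free

end Vale.Agent.P180.R2.H799
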