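import Vale.Agent.P180.R2.H799.Nilp2

/-!
P180: the transfer of a relative trace to `C_G(s)/⟨s⟩`, `s` of order `p`.
-/

universe u

namespace Vale.Agent.P180.R2.H799

open Vale.Agent.P180 Vale.Agent.P180.H768.Gd

set_option linter.unusedSectionVars false

section

variable {G : Type*} [Group G]

/-- The centraliser of `s`. -/
abbrev Cs (s : G) : Subgroup G := Subgroup.centralizer ((Subgroup.zpowers s : Subgroup G) : Set G)

theorem self_mem_Cs (s : G) : s ∈ Cs s := by
  rw [Subgroup.mem_centralizer_iff]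
  rintro _ ⟨n, rfl⟩
  exact ((Commute.refl s).zpow_left n).eq

/-- `s` as an element of its centraliser. -/
def sC (s : G) : Cs s := ⟨s, self_mem_Cs s⟩

theorem sC_comm (s : G) (x : Cs s) : sC s * x = x * sC s := by
  apply Subtype.ext
  exact Subgroup.mem_centralizer_iff.mp x.2 s (Subgroup.mem_zpowers s)

theorem zpowers_sC_le (s : G) : Subgroup.zpowers (sC s) ≤ Subgroup.center (Cs s) := by
  rw [Subgroup.zpowers_le, Subgroup.mem_center_iff]
  intro x
  exact (sC_comm s x).symm

instance sC_normal (s : G) : (Subgroup.zpowers (sC s)).Normal := by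
  constructor
  intro n hn g
  have h := Subgroup.mem_center_iff.mp (zpowers_sC_le s hn) g
  rw [h, mul_inv_cancel_right]
  exact hn

theorem card_subgroupOf_conjS_le' [Finite G] (T : Subgroup G) (x : G) (D : Subgroup G) :
    Nat.card ((conjS x D).subgroupOf T) ≤ Nat.card D := by
  have h1 : Nat.card (conjS x D) = Nat.card D :=
    Nat.card_congr (D.equivMapOfInjective _ (MulAut.conj x).injective).symm.toEquiv
  rw [← h1]
  refine Nat.card_le_card_of_injective
    (fun y : (conjS x D).subgroupOf T => (⟨((y : T) : G), y.2⟩ : conjS x D)) ?_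
  intro y z hyz
  apply Subtype.ext
  apply Subtype.ext
  exact congrArg (fun w : conjS x D => (w : G)) hyz

theorem card_zpowers_sC (s : G) : Nat.card (Subgroup.zpowers (sC s)) = orderOf s := by
  rw [Nat.card_zpowers]
  exact Subgroup.orderOf_mk s _

end

section Transfer

variable {k : Type*} [Field k] {p : ℕ} [Fact p.Prime] [CharP k p] {G : Type*} [Group G] [Finite G]

/-- The Brauer map at `⟨s⟩` followed by reduction modulo `⟨s⟩`. -/
noncomputable def theta (s : G) (a : MonoidAlgebra k G) :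
    MonoidAlgebra k (Cs s ⧸ Subgroup.zpowers (sC s)) :=
  KP.qmap k (Subgroup.zpowers (sC s)) (res (Subgroup.zpowers s) a)

theorem isPGroup_zpowers {s : G} (hs : orderOf s = p) : IsPGroup p (Subgroup.zpowers s) := by
  apply IsPGroup.of_card (n := 1)
  rw [Nat.card_zpowers, hs, pow_one]

theorem theta_mul {s : G} (hs : orderOf s = p) {a b : MonoidAlgebra k G}
    (ha : a ∈ Fix (cj k G) (Subgroup.zpowers s)) (hb : b ∈ Fix (cj k G) (Subgroup.zpowers s)) :
    theta s (a * b) = theta s a * theta s b := by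
  rw [theta, res_mul (isPGroup_zpowers hs) ha hb, map_mul]
  rfl

theorem theta_one (s : G) : theta s (1 : MonoidAlgebra k G) = 1 := by
  rw [theta, res_one, map_one]

theorem theta_zero (s : G) : theta s (0 : MonoidAlgebra k G) = 0 := by
  rw [theta, res_zero, map_zero]

theorem theta_sum {ι : Type*} (s : G) (t : Finset ι) (f : ι → MonoidAlgebra k G) :
    theta s (∑ i ∈ t, f i) = ∑ i ∈ t, theta s (f i) := by
  rw [theta, res_sum, map_sum]
  rfl

theorem theta_ZAlg (s : G) {a : MonoidAlgebra k G} (ha : a ∈ ZAlg k (⊤ : Subgroup G)) :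
    theta s a ∈ ZAlg k (⊤ : Subgroup (Cs s ⧸ Subgroup.zpowers (sC s))) :=
  qmap_ZAlg _ (res_ZAlg _ ha)

theorem theta_tr_aux {s : G} (hs : orderOf s = p) {R : Subgroup (Cs s)} (hR : IsPGroup p R)
    {u : MonoidAlgebra k (Cs s)} (hu : u ∈ Fix (cj k (Cs s)) R)
    (hne : ¬ Subgroup.zpowers (sC s) ≤ R) : tr (cj k (Cs s)) R ⊤ u = 0 := by
  have hZ : IsPGroup p (Subgroup.zpowers (sC s)) := by
    apply IsPGroup.of_card (n := 1)
    rw [card_zpowers_sC, hs, pow_one]
  have hW : IsPGroup p (R ⊔ Subgroup.zpowers (sC s) : Subgroup (Cs s)) :=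
    IsPGroup.to_sup_of_normal_right hR hZ
  have hfix : u ∈ Fix (cj k (Cs s)) (R ⊔ Subgroup.zpowers (sC s)) := by
    have h1 : R ≤ stabE u := fun r hr => hu r hr
    have h2 : Subgroup.zpowers (sC s) ≤ stabE u := fun z hz =>
      KP.mem_Fix_of_central (zpowers_sC_le s) u z hz
    exact fun w hw => (sup_le h1 h2) hw
  rw [← tr_tr hu (le_sup_left : R ≤ R ⊔ Subgroup.zpowers (sC s)) le_top,
    tr_of_mem_Fix hfix, KP.p_dvd_relIndex (k := k) (p := p) hW (fun h => hne (le_sup_right.trans h)),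
    zero_smul]
  have := tr_smul (ρ := cj k (Cs s)) (H := R ⊔ Subgroup.zpowers (sC s)) (K := ⊤) (0 : k)
    (0 : MonoidAlgebra k (Cs s))
  simpa using this

theorem theta_tr {s : G} (hs : orderOf s = p) {e : ℕ} {D : Subgroup G} (hD : IsPGroup p D)
    (hcard : Nat.card D ≤ p ^ (e + 1)) {a : MonoidAlgebra k G} (ha : a ∈ Fix (cj k G) D) :
    ∃ (m : ℕ) (E : Fin m → Subgroup (Cs s ⧸ Subgroup.zpowers (sC s)))
      (a' : Fin m → MonoidAlgebra k (Cs s ⧸ Subgroup.zpowers (sC s))),
      (∀ i, IsPGroup p (E i)) ∧ (∀ i, Nat.card (E i) ≤ p ^ e) ∧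
      (∀ i, a' i ∈ Fix (cj k (Cs s ⧸ Subgroup.zpowers (sC s))) (E i)) ∧
      theta s (tr (cj k G) D ⊤ a) =
        ∑ i, tr (cj k (Cs s ⧸ Subgroup.zpowers (sC s))) (E i) ⊤ (a' i) := by
  classical
  obtain ⟨m, x, hx⟩ := mackey (Cs s) ha
  have hfix : ∀ i, cj k G (x i) a ∈ Fix (cj k G) (Cs s ⊓ conjS (x i) D) := by
    intro i
    refine conj_mem_Fix ha (x i) ?_
    intro h hh
    exact mem_conjS.mp hh.2
  have hresfix : ∀ i, res (Subgroup.zpowers s) (cj k G (x i) a) ∈
      Fix (cj k (Cs s)) ((conjS (x i) D).subgroupOf (Cs s)) := by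
    intro i
    rintro r hr
    apply incl_injective (k := k) (Cs s)
    rw [incl_cj, incl_res, ← br_cj _ r.2, hfix i r ⟨r.2, hr⟩]
  have hterm : ∀ i, res (Subgroup.zpowers s)
      (tr (cj k G) (Cs s ⊓ conjS (x i) D) (Cs s) (cj k G (x i) a)) =
      tr (cj k (Cs s)) ((conjS (x i) D).subgroupOf (Cs s)) ⊤
        (res (Subgroup.zpowers s) (cj k G (x i) a)) := by
    intro i
    apply incl_injective (k := k) (Cs s)
    rw [incl_res, br_tr_cent, incl_tr _ _ (hresfix i), incl_res, Subgroup.subgroupOf_map_subtype,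
      inf_comm]
  have hpg : ∀ i, IsPGroup p ((conjS (x i) D).subgroupOf (Cs s)) := by
    intro i
    exact (hD.map _).comap_subtype
  have key : ∀ i, ∃ (E : Subgroup (Cs s ⧸ Subgroup.zpowers (sC s)))
      (a' : MonoidAlgebra k (Cs s ⧸ Subgroup.zpowers (sC s))), IsPGroup p E ∧
      Nat.card E ≤ p ^ e ∧ a' ∈ Fix (cj k (Cs s ⧸ Subgroup.zpowers (sC s))) E ∧
      theta s (tr (cj k G) (Cs s ⊓ conjS (x i) D) (Cs s) (cj k G (x i) a)) =
        tr (cj k (Cs s ⧸ Subgroup.zpowers (sC s))) E ⊤ a' := by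
    intro i
    by_cases h : Subgroup.zpowers (sC s) ≤ (conjS (x i) D).subgroupOf (Cs s)
    · refine ⟨((conjS (x i) D).subgroupOf (Cs s)).map (QuotientGroup.mk' _),
        theta s (cj k G (x i) a), (hpg i).map _, ?_, qmap_Fix (hresfix i), ?_⟩
      · have h1 := card_map_mk h
        rw [card_zpowers_sC, hs] at h1
        have h2 : Nat.card ((conjS (x i) D).subgroupOf (Cs s)) ≤ Nat.card D :=
          card_subgroupOf_conjS_le' _ _ _
        have h3 : Nat.card (((conjS (x i) D).subgroupOf (Cs s)).map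
            (QuotientGroup.mk' (Subgroup.zpowers (sC s)))) * p ≤ p ^ e * p := by
          rw [h1, ← pow_succ]
          exact h2.trans hcard
        exact Nat.le_of_mul_le_mul_right h3 (Fact.out : p.Prime).pos
      · rw [theta, hterm i]
        exact qmap_tr h (hresfix i)
    · refine ⟨⊥, 0, IsPGroup.of_bot, ?_, Subalgebra.zero_mem _, ?_⟩
      · rw [Subgroup.card_bot]
        exact Nat.one_le_pow _ _ (Fact.out : p.Prime).pos
      · rw [theta, hterm i, theta_tr_aux hs (hpg i) (hresfix i) h, map_zero]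
        have := tr_smul (ρ := cj k (Cs s ⧸ Subgroup.zpowers (sC s)))
          (H := (⊥ : Subgroup (Cs s ⧸ Subgroup.zpowers (sC s)))) (K := ⊤) (0 : k)
          (0 : MonoidAlgebra k (Cs s ⧸ Subgroup.zpowers (sC s)))
        simpa using this.symm
  choose E a' h1 h2 h3 h4 using key
  refine ⟨m, E, a', h1, h2, h3, ?_⟩
  rw [hx, theta_sum]
  exact Finset.sum_congr rfl fun i _ => h4 i

end Transfer

end Vale.Agent.P180.R2.H799
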