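import Vale.Agent.P180.R2.H799.Nilp3

/-!
P180: nilpotency of the radical of the centre of a block algebra: a product of `2|D|` elements
`z` of `Z(kG)` with `z b` nilpotent kills `b`, if `b` is a central idempotent which is a relative
trace from the `p`-subgroup `D`.
-/

universe u

namespace Vale.Agent.P180.R2.H799

open Vale.Agent.P180 Vale.Agent.P180.H768.Gd

set_option linter.unusedSectionVars false

/-- `1 + p + ... + p ^ e`. -/
def gg (p : ℕ) : ℕ → ℕ
  | 0 => 1
  | e + 1 => p * gg p e + 1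

theorem gg_le {p : ℕ} (hp : 2 ≤ p) (e : ℕ) : gg p e + 1 ≤ 2 * p ^ e := by
  induction e with
  | zero => simp [gg]
  | succ e ih =>
    have h1 : p * (gg p e + 1) ≤ p * (2 * p ^ e) := Nat.mul_le_mul_left p ih
    rw [gg, pow_succ]
    nlinarith

section

variable {k : Type*} [Field k] {p : ℕ} [Fact p.Prime] [CharP k p]

section Basic

variable {G : Type*} [Group G] [Finite G]

theorem ZAlg_comm' {z : MonoidAlgebra k G} (hz : z ∈ ZAlg k (⊤ : Subgroup G))
    (a : MonoidAlgebra k G) : z * a = a * z := by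
  rw [ZAlg_top, Subalgebra.mem_center_iff] at hz
  exact (hz a).symm

theorem ZAlg_Fix {z : MonoidAlgebra k G} (hz : z ∈ ZAlg k (⊤ : Subgroup G)) (Q : Subgroup G) :
    z ∈ Fix (cj k G) Q := fun q _ => (mem_ZAlg.mp hz).2 q (Subgroup.mem_top _)

theorem list_prod_mem {L : List (MonoidAlgebra k G)} (hL : ∀ z ∈ L, z ∈ ZAlg k (⊤ : Subgroup G)) :
    L.prod ∈ ZAlg k (⊤ : Subgroup G) := Subalgebra.list_prod_mem _ hL

theorem mul_eq_zero_of_tr_bot {b c z α : MonoidAlgebra k G} (hbz : b ∈ ZAlg k (⊤ : Subgroup G))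
    (hz : z ∈ ZAlg k (⊤ : Subgroup G)) (hn : IsNilpotent (z * b)) (hcb : c * b = c)
    (hc : c = tr (cj k G) ⊥ ⊤ α) : z * c = 0 := by
  have hw : z * b ∈ ZAlg k (⊤ : Subgroup G) := Subalgebra.mul_mem _ hz hbz
  have h1 : z * c = (z * b) * c := by
    rw [mul_assoc, ZAlg_comm' hbz c, hcb]
  rw [h1, hc, mul_tr (ZAlg_Fix hw ⊤)]
  exact tr_bot_kill hw hn α

theorem exists_pow_orderOf {D : Subgroup G} (hD : IsPGroup p D) {d : G} (hd : d ∈ D)
    (h1 : d ≠ 1) : ∃ n : ℕ, orderOf (d ^ n) = p := by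
  obtain ⟨j, hj⟩ := (IsPGroup.iff_orderOf.mp hD) ⟨d, hd⟩
  rw [Subgroup.orderOf_mk] at hj
  rcases j with _ | j
  · exfalso
    rw [pow_zero, orderOf_eq_one_iff] at hj
    exact h1 hj
  · refine ⟨p ^ j, ?_⟩
    have hp : 0 < p := (Fact.out : p.Prime).pos
    rw [orderOf_pow, hj, pow_succ, Nat.gcd_eq_right (Dvd.intro _ rfl)]
    rw [mul_comm, Nat.mul_div_cancel _ (Nat.pow_pos hp)]

/-- If `c` is killed by all Brauer maps at elements of order `p`, then `c a` is a trace from the
trivial subgroup. -/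
theorem exists_tr_bot_of_br {D : Subgroup G} (hD : IsPGroup p D) {a c : MonoidAlgebra k G}
    (ha : a ∈ Fix (cj k G) D) (hc : c ∈ ZAlg k (⊤ : Subgroup G))
    (hbr : ∀ s : G, orderOf s = p → br (Subgroup.zpowers s) c = 0) :
    ∃ y', c * tr (cj k G) D ⊤ a = tr (cj k G) ⊥ ⊤ y' := by
  classical
  have hy : c * a ∈ Fix (cj k G) D := Subalgebra.mul_mem _ (ZAlg_Fix hc D) ha
  obtain ⟨y', hy'⟩ := exists_tr_bot hy (by
    intro x hx d hd hdx
    by_contra h1
    obtain ⟨n, hn⟩ := exists_pow_orderOf hD hd h1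
    have hle : Subgroup.zpowers (d ^ n) ≤ D := by
      rw [Subgroup.zpowers_le]; exact D.pow_mem hd n
    have hxc : x ∈ Subgroup.centralizer ((Subgroup.zpowers (d ^ n) : Subgroup G) : Set G) := by
      rw [Subgroup.mem_centralizer_iff]
      have hcomm : Commute d x := by
        rw [mul_inv_eq_iff_eq_mul] at hdx
        exact hdx
      rintro _ ⟨m, rfl⟩
      exact ((hcomm.pow_left n).zpow_left m).eq
    apply hx
    have h2 : (br (Subgroup.zpowers (d ^ n)) (c * a)).coeff x = (c * a).coeff x := by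
      rw [br_coeff, if_pos hxc]
    rw [← h2, br_mul (isPGroup_zpowers hn) (ZAlg_Fix hc _) (Fix_mono _ hle ha), hbr _ hn, zero_mul]
    simp)
  refine ⟨y', ?_⟩
  rw [mul_tr (ZAlg_Fix hc ⊤), ← hy', tr_tr (mem_Fix_bot y') bot_le le_top]

end Basic

section Theta

variable {G : Type*} [Group G] [Finite G]

theorem theta_pow {s : G} (hs : orderOf s = p) {a : MonoidAlgebra k G}
    (ha : a ∈ Fix (cj k G) (Subgroup.zpowers s)) (n : ℕ) : theta s (a ^ n) = theta s a ^ n := by
  induction n with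
  | zero => rw [pow_zero, pow_zero, theta_one]
  | succ n ih => rw [pow_succ, pow_succ, theta_mul hs (Subalgebra.pow_mem _ ha n) ha, ih]

theorem theta_list {s : G} (hs : orderOf s = p) {L : List (MonoidAlgebra k G)}
    (hL : ∀ z ∈ L, z ∈ ZAlg k (⊤ : Subgroup G)) : theta s L.prod = (L.map (theta s)).prod := by
  induction L with
  | nil => simp [theta_one]
  | cons z L ih =>
    have hL' : ∀ z ∈ L, z ∈ ZAlg k (⊤ : Subgroup G) := fun z hz => hL z (List.mem_cons_of_mem _ hz)
    rw [List.prod_cons, List.map_cons, List.prod_cons, theta_mul hs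
      (ZAlg_Fix (hL z List.mem_cons_self) _) (ZAlg_Fix (list_prod_mem hL') _), ih hL']

end Theta

/-- Induction statement. -/
def Stmt (k : Type*) [Field k] (p e : ℕ) : Prop :=
  ∀ (G : Type u) [Group G] [Finite G] (ι : Type) [Fintype ι] (D : ι → Subgroup G)
    (b : MonoidAlgebra k G) (a : ι → MonoidAlgebra k G) (L : List (MonoidAlgebra k G)),
    (∀ i, IsPGroup p (D i)) → (∀ i, Nat.card (D i) ≤ p ^ e) → b * b = b →
    b ∈ ZAlg k (⊤ : Subgroup G) → (∀ i, a i ∈ Fix (cj k G) (D i)) →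
    b = ∑ i, tr (cj k G) (D i) ⊤ (a i) →
    (∀ z ∈ L, z ∈ ZAlg k (⊤ : Subgroup G) ∧ IsNilpotent (z * b)) → gg p e ≤ L.length →
    L.prod * b = 0

theorem stmt_zero : Stmt.{u} k p 0 := by
  intro G _ _ ι _ D b a L hD hc hb hbz ha hba hL hlen
  obtain ⟨z, L', rfl⟩ : ∃ z L', L = z :: L' := by
    cases L with
    | nil => simp [gg] at hlen
    | cons z L' => exact ⟨z, L', rfl⟩
  have hDb : ∀ i, D i = ⊥ := by
    intro i
    have h1 := hc i
    rw [pow_zero] at h1
    exact Subgroup.eq_bot_of_card_le _ h1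
  have hb' : b = tr (cj k G) ⊥ ⊤ (∑ i, a i) := by
    rw [tr_sum]
    conv_lhs => rw [hba]
    exact Finset.sum_congr rfl fun i _ => by rw [hDb i]
  have h0 := mul_eq_zero_of_tr_bot hbz (hL z List.mem_cons_self).1 (hL z List.mem_cons_self).2 hb hb'
  rw [List.prod_cons, ZAlg_comm' (hL z List.mem_cons_self).1, mul_assoc, h0, mul_zero]

theorem stmt_succ (e : ℕ) (ih : Stmt.{u} k p e) : Stmt.{u} k p (e + 1) := by
  classical
  intro G _ _ ι _ D b a L hD hc hb hbz ha hba hL hlen
  -- the inductive hypothesis, transferred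
  have key : ∀ (s : G), orderOf s = p → ∀ K : List (MonoidAlgebra k G),
      (∀ z ∈ K, z ∈ ZAlg k (⊤ : Subgroup G) ∧ IsNilpotent (z * b)) → gg p e ≤ K.length →
      theta s (K.prod * b) = 0 := by
    intro s hs K hK hKl
    have h1 := fun i => theta_tr (e := e) hs (hD i) (hc i) (ha i)
    choose m E a' hE hEc ha' htr using h1
    have hK' : ∀ z ∈ K, z ∈ ZAlg k (⊤ : Subgroup G) := fun z hz => (hK z hz).1
    rw [theta_mul hs (ZAlg_Fix (list_prod_mem hK') _) (ZAlg_Fix hbz _), theta_list hs hK']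
    refine ih (Cs s ⧸ Subgroup.zpowers (sC s)) (Σ i, Fin (m i)) (fun q => E q.1 q.2) (theta s b)
      (fun q => a' q.1 q.2) (K.map (theta s)) (fun q => hE _ _) (fun q => hEc _ _) ?_
      (theta_ZAlg s hbz) (fun q => ha' _ _) ?_ ?_ ?_
    · rw [← theta_mul hs (ZAlg_Fix hbz _) (ZAlg_Fix hbz _), hb]
    · conv_lhs => rw [hba]
      rw [theta_sum, Fintype.sum_sigma]
      exact Finset.sum_congr rfl fun i _ => htr i
    · intro w hw
      obtain ⟨z, hz, rfl⟩ := List.mem_map.mp hw
      refine ⟨theta_ZAlg s (hK z hz).1, ?_⟩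
      obtain ⟨n, hn⟩ := (hK z hz).2
      refine ⟨n, ?_⟩
      rw [← theta_mul hs (ZAlg_Fix (hK z hz).1 _) (ZAlg_Fix hbz _), ← theta_pow hs
        (ZAlg_Fix (Subalgebra.mul_mem _ (hK z hz).1 hbz) _), hn, theta_zero]
    · rw [List.length_map]
      exact hKl
  -- products of `p` groups of factors are killed by the Brauer maps
  have key2 : ∀ (s : G), orderOf s = p → ∀ (r : ℕ) (K : List (MonoidAlgebra k G)),
      (∀ z ∈ K, z ∈ ZAlg k (⊤ : Subgroup G) ∧ IsNilpotent (z * b)) → r * gg p e ≤ K.length →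
      ∃ (M : List (MonoidAlgebra k (Cs s))) (v : MonoidAlgebra k (Cs s)), M.length = r ∧
        (∀ u ∈ M, KP.qmap k (Subgroup.zpowers (sC s)) u = 0) ∧
        res (Subgroup.zpowers s) (K.prod * b) = M.prod * v := by
    intro s hs r
    induction r with
    | zero =>
      intro K _ _
      exact ⟨[], res (Subgroup.zpowers s) (K.prod * b), rfl, by simp, by simp⟩
    | succ r ihr =>
      intro K hK hKl
      have hKl' : gg p e ≤ K.length := le_trans (by nlinarith) hKl
      have hK1 : ∀ z ∈ K.take (gg p e), z ∈ ZAlg k (⊤ : Subgroup G) ∧ IsNilpotent (z * b) :=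
        fun z hz => hK z (List.mem_of_mem_take hz)
      have hK2 : ∀ z ∈ K.drop (gg p e), z ∈ ZAlg k (⊤ : Subgroup G) ∧ IsNilpotent (z * b) :=
        fun z hz => hK z (List.mem_of_mem_drop hz)
      obtain ⟨M, v, hM, hMq, hMv⟩ := ihr (K.drop (gg p e)) hK2 (by
        rw [List.length_drop]
        have : (r + 1) * gg p e = r * gg p e + gg p e := by ring
        omega)
      refine ⟨res (Subgroup.zpowers s) ((K.take (gg p e)).prod * b) :: M, v, by
        rw [List.length_cons, hM], ?_, ?_⟩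
      · intro u hu
        rcases List.mem_cons.mp hu with rfl | hu
        · exact key s hs _ hK1 (by rw [List.length_take, min_eq_left hKl'])
        · exact hMq u hu
      · have h1 : K.prod * b = ((K.take (gg p e)).prod * b) * ((K.drop (gg p e)).prod * b) := by
          have h2 : K.prod = (K.take (gg p e)).prod * (K.drop (gg p e)).prod := by
            rw [← List.prod_append, List.take_append_drop]
          rw [h2, mul_assoc, mul_assoc]
          congr 1
          rw [← mul_assoc b, ZAlg_comm' hbz, mul_assoc, hb]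
        have hm1 : (K.take (gg p e)).prod * b ∈ ZAlg k (⊤ : Subgroup G) :=
          Subalgebra.mul_mem _ (list_prod_mem fun z hz => (hK1 z hz).1) hbz
        have hm2 : (K.drop (gg p e)).prod * b ∈ ZAlg k (⊤ : Subgroup G) :=
          Subalgebra.mul_mem _ (list_prod_mem fun z hz => (hK2 z hz).1) hbz
        rw [h1, res_mul (isPGroup_zpowers hs) (ZAlg_Fix hm1 _) (ZAlg_Fix hm2 _), hMv,
          List.prod_cons, mul_assoc]
  -- conclusion
  obtain ⟨z, L', rfl⟩ : ∃ z L', L = z :: L' := by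
    cases L with
    | nil => simp [gg] at hlen
    | cons z L' => exact ⟨z, L', rfl⟩
  have hL' : ∀ z ∈ L', z ∈ ZAlg k (⊤ : Subgroup G) ∧ IsNilpotent (z * b) :=
    fun z hz => hL z (List.mem_cons_of_mem _ hz)
  have hlen' : p * gg p e ≤ L'.length := by
    rw [List.length_cons, gg] at hlen
    omega
  set c := L'.prod * b with hcdef
  have hcz : c ∈ ZAlg k (⊤ : Subgroup G) :=
    Subalgebra.mul_mem _ (list_prod_mem fun z hz => (hL' z hz).1) hbz
  have hcb : c * b = c := by rw [hcdef, mul_assoc, hb]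
  have hbr : ∀ s : G, orderOf s = p → br (Subgroup.zpowers s) c = 0 := by
    intro s hs
    rw [← res_eq_zero_iff]
    obtain ⟨M, v, hM, hMq, hMv⟩ := key2 s hs p L' hL' hlen'
    rw [hcdef, hMv, prod_of_qmap_zero (p := p) (s := sC s) ?_ (sC_comm s) M hMq hM.ge, zero_mul]
    apply Subtype.ext
    change s ^ p = 1
    rw [← hs, pow_orderOf_eq_one]
  have h1 := fun i => exists_tr_bot_of_br (hD i) (ha i) hcz hbr
  choose y hy using h1
  have hc' : c = tr (cj k G) ⊥ ⊤ (∑ i, y i) := by
    rw [tr_sum]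
    conv_lhs => rw [← hcb, hba, Finset.mul_sum]
    exact Finset.sum_congr rfl fun i _ => hy i
  have h0 := mul_eq_zero_of_tr_bot hbz (hL z List.mem_cons_self).1 (hL z List.mem_cons_self).2 hcb hc'
  rw [List.prod_cons, mul_assoc]
  exact h0

theorem stmt (e : ℕ) : Stmt.{u} k p e := by
  induction e with
  | zero => exact stmt_zero
  | succ e ih => exact stmt_succ e ih

/-- A product of `2 |D|` elements `z` of the centre of `kG` with `z b` nilpotent annihilates `b`,
if `b` is a central idempotent which is a relative trace from the `p`-subgroup `D`. -/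
theorem nilp_center {G : Type u} [Group G] [Finite G] {D : Subgroup G} (hD : IsPGroup p D)
    {b a : MonoidAlgebra k G} (hb : b * b = b) (hbz : b ∈ ZAlg k (⊤ : Subgroup G))
    (ha : a ∈ Fix (cj k G) D) (hba : b = tr (cj k G) D ⊤ a) (L : List (MonoidAlgebra k G))
    (hL : ∀ z ∈ L, z ∈ ZAlg k (⊤ : Subgroup G) ∧ IsNilpotent (z * b))
    (hlen : 2 * Nat.card D ≤ L.length) : L.prod * b = 0 := by
  obtain ⟨e, he⟩ := IsPGroup.iff_card.mp hD
  refine stmt e G Unit (fun _ => D) b (fun _ => a) L (fun _ => hD) (fun _ => he.le) hb hbz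
    (fun _ => ha) (by simpa using hba) hL ?_
  have h1 := gg_le (Fact.out : p.Prime).two_le e
  rw [he] at hlen
  omega

end

end Vale.Agent.P180.R2.H799
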